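import Crest.Agent.Lib.Saxl.WordOps

/-!
# The colouring for the four-row blocks

For `S` of size `T_m` we colour the slots: blocks `B s = j` (`j` even, `j < m`) of size
`2 (m - 1 - j) + 1`, each block split into at most four flat colour classes.  The sorted content
`part m` has all parts `≤ (m + 1) / 2`, so every diagram with at most `m` rows dominates it.
-/

set_option autoImplicit false

open scoped BigOperators
open Equiv

namespace Crest.Agent.Saxl

section Colouring

variable {S : Type*} [Fintype S] [DecidableEq S]

/-- Every finitely supported content with the right total is the content of a colouring. -/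
theorem exists_colouring (p : ℕ → ℕ) (K : ℕ) (hK : ∀ a, K ≤ a → p a = 0)
    (hs : ∑ a ∈ Finset.range K, p a = Fintype.card S) :
    ∃ c : S → ℕ, ∀ a, lc c a = p a := by
  classical
  have hcard : Fintype.card (Σ a : Fin K, Fin (p a)) = Fintype.card S := by
    rw [Fintype.card_sigma, ← hs, Finset.sum_range]
    simp
  let e : (Σ a : Fin K, Fin (p a)) ≃ S := Fintype.equivOfCardEq hcard
  refine ⟨fun s => ((e.symm s).1 : ℕ), fun a => ?_⟩
  by_cases ha : a < K
  · have hset : (Finset.univ.filter fun s => ((e.symm s).1 : ℕ) = a) =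
        (Finset.univ : Finset (Fin (p a))).image (fun x => e ⟨⟨a, ha⟩, x⟩) := by
      ext s
      simp only [Finset.mem_filter, Finset.mem_univ, true_and, Finset.mem_image]
      constructor
      · intro hs
        rcases hy : e.symm s with ⟨u, v⟩
        rw [hy] at hs
        have hu : u = ⟨a, ha⟩ := Fin.ext hs
        subst hu
        refine ⟨v, ?_⟩
        rw [← hy]
        simp
      · rintro ⟨x, rfl⟩
        simp
    have hinj : Function.Injective (fun x : Fin (p a) => e ⟨⟨a, ha⟩, x⟩) := by
      intro x y hxy
      have := e.injective hxy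
      simpa using this
    show (Finset.univ.filter fun s => ((e.symm s).1 : ℕ) = a).card = p a
    rw [hset, Finset.card_image_of_injective _ hinj]
    simp
  · have h0 := hK a (not_lt.mp ha)
    rw [h0]
    simp only [lc, Finset.card_eq_zero, Finset.filter_eq_empty_iff, Finset.mem_univ, true_implies]
    intro s
    have := (e.symm s).1.2
    omega

/-- `pc` as a sum of the content. -/
theorem pc_eq_sum (c : S → ℕ) (k : ℕ) : pc c k = ∑ a ∈ Finset.range k, lc c a := by
  induction k with
  | zero => simp [pc]
  | succ k ih => rw [pc_succ, Finset.sum_range_succ, ih]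

end Colouring

/-- Size of the block `j`. -/
def blk (m j : ℕ) : ℕ := if j % 2 = 0 ∧ j < m then 2 * (m - 1 - j) + 1 else 0

/-- The flat parts, block after block. -/
def part (m k : ℕ) : ℕ := (blk m (2 * (k / 4)) + 3 - k % 4) / 4

theorem blk_le (m j : ℕ) : blk m j = 0 ∨ blk m j + 1 ≤ 2 * m := by
  unfold blk
  split_ifs with h
  · right; omega
  · left; rfl

theorem two_mul_part_le (m k : ℕ) : 2 * part m k ≤ m + 1 := by
  unfold part
  have h := blk_le m (2 * (k / 4))
  generalize blk m (2 * (k / 4)) = s at h
  have hr := Nat.mod_lt k (by norm_num : 4 > 0)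
  generalize k % 4 = r at hr
  omega

theorem part_succ_le (m k : ℕ) : part m (k + 1) ≤ part m k := by
  unfold part
  have hq : (k + 1) / 4 = k / 4 ∧ (k + 1) % 4 = k % 4 + 1 ∨
      (k + 1) / 4 = k / 4 + 1 ∧ (k + 1) % 4 = 0 ∧ k % 4 = 3 := by omega
  rcases hq with ⟨h1, h2⟩ | ⟨h1, h2, h3⟩
  · rw [h1, h2]
    have hr := Nat.mod_lt k (by norm_num : 4 > 0)
    generalize blk m (2 * (k / 4)) = s
    generalize k % 4 = r at hr
    omega
  · rw [h1, h2, h3]
    have : blk m (2 * (k / 4 + 1)) + 4 ≤ blk m (2 * (k / 4)) ∨ blk m (2 * (k / 4 + 1)) = 0 := by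
      unfold blk
      split_ifs <;> omega
    generalize blk m (2 * (k / 4 + 1)) = s' at this
    generalize blk m (2 * (k / 4)) = s at this
    omega

theorem part_antitone (m : ℕ) : Antitone (part m) := antitone_nat_of_succ_le (part_succ_le m)

theorem part_block_sum (m q : ℕ) :
    part m (4 * q) + part m (4 * q + 1) + part m (4 * q + 2) + part m (4 * q + 3) = blk m (2 * q) := by
  unfold part
  have e0 : (4 * q) / 4 = q := by omega
  have e1 : (4 * q + 1) / 4 = q := by omega
  have e2 : (4 * q + 2) / 4 = q := by omega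
  have e3 : (4 * q + 3) / 4 = q := by omega
  have r0 : (4 * q) % 4 = 0 := by omega
  have r1 : (4 * q + 1) % 4 = 1 := by omega
  have r2 : (4 * q + 2) % 4 = 2 := by omega
  have r3 : (4 * q + 3) % 4 = 3 := by omega
  rw [e0, e1, e2, e3, r0, r1, r2, r3]
  generalize blk m (2 * q) = s
  omega

theorem part_eq_zero (m k : ℕ) (h : 4 * m ≤ k) : part m k = 0 := by
  unfold part
  have hb : blk m (2 * (k / 4)) = 0 := by
    unfold blk
    rw [if_neg]
    intro h2
    omega
  rw [hb]
  have hr := Nat.mod_lt k (by norm_num : 4 > 0)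
  omega

theorem sum_part_four (m K : ℕ) :
    ∑ k ∈ Finset.range (4 * K), part m k = ∑ q ∈ Finset.range K, blk m (2 * q) := by
  induction K with
  | zero => simp
  | succ K ih =>
    have : 4 * (K + 1) = 4 * K + 1 + 1 + 1 + 1 := by ring
    rw [this, Finset.sum_range_succ, Finset.sum_range_succ, Finset.sum_range_succ,
      Finset.sum_range_succ, ih, Finset.sum_range_succ (fun q => blk m (2 * q)) K,
      ← part_block_sum]
    ring

theorem blk_shift (m q : ℕ) : blk (m + 2) (2 * (q + 1)) = blk m (2 * q) := by
  unfold blk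
  have h1 : 2 * (q + 1) % 2 = 0 := by omega
  have h2 : 2 * q % 2 = 0 := by omega
  by_cases h : 2 * q < m
  · rw [if_pos ⟨h1, by omega⟩, if_pos ⟨h2, h⟩]
    omega
  · rw [if_neg (by omega), if_neg (by omega)]

theorem two_sum_blk (m : ℕ) : ∀ K, m ≤ K → 2 * ∑ q ∈ Finset.range K, blk m (2 * q) = m * (m + 1) := by
  induction m using Nat.strong_induction_on with
  | _ m ih =>
    intro K hK
    match m, ih, hK with
    | 0, _, _ =>
      have : ∀ q ∈ Finset.range K, blk 0 (2 * q) = 0 := by
        intro q _
        simp [blk]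
      rw [Finset.sum_eq_zero this]
      simp
    | 1, _, hK =>
      obtain ⟨K, rfl⟩ : ∃ K', K = K' + 1 := ⟨K - 1, by omega⟩
      rw [Finset.sum_range_succ']
      have : ∀ q ∈ Finset.range K, blk 1 (2 * (q + 1)) = 0 := by
        intro q _
        unfold blk
        rw [if_neg]
        omega
      rw [Finset.sum_eq_zero this]
      simp [blk]
    | m + 2, ih, hK =>
      obtain ⟨K, rfl⟩ : ∃ K', K = K' + 1 := ⟨K - 1, by omega⟩
      rw [Finset.sum_range_succ']
      simp only [blk_shift]
      have h0 : blk (m + 2) (2 * 0) = 2 * m + 3 := by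
        unfold blk
        rw [if_pos (by omega)]
        omega
      rw [h0, mul_add, ih m (by omega) K (by omega)]
      ring

/-- Partial sums of the parts. -/
theorem sum_part_le_total (m k : ℕ) :
    2 * ∑ a ∈ Finset.range k, part m a ≤ m * (m + 1) := by
  have htot := two_sum_blk m m le_rfl
  rw [← sum_part_four] at htot
  by_cases h : k ≤ 4 * m
  · have := Finset.sum_le_sum_of_subset (f := part m) (Finset.range_subset_range.mpr h)
    omega
  · have : ∑ a ∈ Finset.range k, part m a = ∑ a ∈ Finset.range (4 * m), part m a := by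
      refine (Finset.sum_subset (Finset.range_subset_range.mpr (not_le.mp h).le) ?_).symm
      intro a _ ha
      exact part_eq_zero m a (by simpa using ha)
    rw [this, htot]

theorem sum_part_le_mul (m k : ℕ) :
    2 * ∑ a ∈ Finset.range k, part m a ≤ k * (m + 1) := by
  rw [Finset.mul_sum]
  calc ∑ a ∈ Finset.range k, 2 * part m a ≤ ∑ _a ∈ Finset.range k, (m + 1) :=
        Finset.sum_le_sum fun a _ => two_mul_part_le m a
    _ = k * (m + 1) := by simp

section Rows

theorem mul_rowLen_le_rowsBelow (ν : YoungDiagram) (k : ℕ) : k * ν.rowLen k ≤ rowsBelow ν k := by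
  induction k with
  | zero => simp
  | succ k ih =>
    rw [rowsBelow_succ]
    have := ν.rowLen_anti _ _ (Nat.le_succ k)
    nlinarith

theorem rowsBelow_add_le (ν : YoungDiagram) (k d : ℕ) :
    rowsBelow ν (k + d) ≤ rowsBelow ν k + d * ν.rowLen k := by
  induction d with
  | zero => simp
  | succ d ih =>
    rw [← add_assoc, rowsBelow_succ]
    have := ν.rowLen_anti _ _ (Nat.le_add_right k d)
    nlinarith

/-- The average row argument. -/
theorem mul_rowsBelow_le (ν : YoungDiagram) (k d : ℕ) :
    k * rowsBelow ν (k + d) ≤ (k + d) * rowsBelow ν k := by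
  have h1 := mul_rowLen_le_rowsBelow ν k
  have h2 := rowsBelow_add_le ν k d
  calc k * rowsBelow ν (k + d) ≤ k * (rowsBelow ν k + d * ν.rowLen k) := Nat.mul_le_mul_left _ h2
    _ = k * rowsBelow ν k + d * (k * ν.rowLen k) := by ring
    _ ≤ k * rowsBelow ν k + d * rowsBelow ν k := by
        have := Nat.mul_le_mul_left d h1
        omega
    _ = (k + d) * rowsBelow ν k := by ring

end Rows

section Main

variable {S : Type*} [Fintype S] [DecidableEq S]

omit [DecidableEq S] in
/-- Dominance of `part m` by every diagram with at most `m` rows. -/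
theorem sum_part_le_rowsBelow (m : ℕ) (hS : 2 * Fintype.card S = m * (m + 1))
    (ν : YoungDiagram) (t : Tab ν S) (hν : ∀ k, m ≤ k → ν.rowLen k = 0) (k : ℕ) :
    ∑ a ∈ Finset.range k, part m a ≤ rowsBelow ν k := by
  have hcells : ∀ s, rowC t s < m := by
    intro s
    by_contra h
    have h0 := hν _ (not_lt.mp h)
    have hm := (t.symm s).2
    have : ((t.symm s).1.2) < ν.rowLen (t.symm s).1.1 := by
      rw [← YoungDiagram.mem_iff_lt_rowLen]
      exact hm
    simp only [rowC] at h0
    omega
  have hRm : rowsBelow ν m = Fintype.card S := by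
    classical
    rw [← pc_rowC t m]
    exact pc_eq_card_of_bound hcells
  by_cases hk : k ≤ m
  · obtain ⟨d, rfl⟩ := Nat.exists_eq_add_of_le hk
    by_cases hm0 : k + d = 0
    · have hk0 : k = 0 := by omega
      subst hk0
      simp
    · have h1 := mul_rowsBelow_le ν k d
      rw [hRm] at h1
      have h2 := sum_part_le_mul (k + d) k
      set R := rowsBelow ν k
      set P := ∑ a ∈ Finset.range k, part (k + d) a
      have hpos : 0 < k + d := Nat.pos_of_ne_zero hm0
      -- (k+d)*(2R) ≥ k*(2n) = k*(k+d)*(k+d+1)
      have h3 : (k + d) * (k * (k + d + 1)) ≤ (k + d) * (2 * R) := by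
        calc (k + d) * (k * (k + d + 1)) = k * ((k + d) * (k + d + 1)) := by ring
          _ = k * (2 * Fintype.card S) := by rw [hS]
          _ = 2 * (k * Fintype.card S) := by ring
          _ ≤ 2 * ((k + d) * R) := Nat.mul_le_mul_left 2 h1
          _ = (k + d) * (2 * R) := by ring
      have h4 := Nat.le_of_mul_le_mul_left h3 hpos
      omega
  · have h1 := sum_part_le_total m k
    have h2 : rowsBelow ν m ≤ rowsBelow ν k := by
      obtain ⟨d, hd⟩ := Nat.exists_eq_add_of_le (not_le.mp hk).le
      rw [hd]
      clear hd hk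
      induction d with
      | zero => simp
      | succ d ih =>
        rw [← add_assoc, rowsBelow_succ]
        omega
    omega

/-- The colouring used for the four-row blocks at the staircase. -/
theorem exists_alpha4 (m : ℕ) (hS : 2 * Fintype.card S = m * (m + 1)) :
    ∃ B c : S → ℕ, (∀ s s', c s = c s' → B s = B s') ∧
      (∀ j, (Finset.univ.filter fun s => B s = j).card =
        if j % 2 = 0 ∧ j < m then 2 * (m - 1 - j) + 1 else 0) ∧
      (∀ j, ((Finset.univ.filter fun s => B s = j).image c).card ≤ 4) ∧
      Antitone (lc c) ∧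
      (∀ (ν : YoungDiagram) (t : Tab ν S), (∀ k, m ≤ k → ν.rowLen k = 0) →
        ∀ k, pc c k ≤ pc (rowC t) k) := by
  classical
  have htot : ∑ a ∈ Finset.range (4 * m), part m a = Fintype.card S := by
    have := two_sum_blk m m le_rfl
    rw [← sum_part_four] at this
    omega
  obtain ⟨c, hc⟩ := exists_colouring (S := S) (part m) (4 * m) (part_eq_zero m) htot
  refine ⟨fun s => 2 * (c s / 4), c, ?_, ?_, ?_, ?_, ?_⟩
  · intro s s' h
    simp only [h]
  · intro j
    by_cases hj : j % 2 = 0
    · obtain ⟨q, rfl⟩ : ∃ q, j = 2 * q := ⟨j / 2, by clear htot; omega⟩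
      have hset : (Finset.univ.filter fun s => 2 * (c s / 4) = 2 * q) =
          (Finset.univ.filter fun s => c s = 4 * q) ∪ (Finset.univ.filter fun s => c s = 4 * q + 1) ∪
          (Finset.univ.filter fun s => c s = 4 * q + 2) ∪
          (Finset.univ.filter fun s => c s = 4 * q + 3) := by
        ext s
        simp only [Finset.mem_filter, Finset.mem_univ, true_and, Finset.mem_union]
        omega
      rw [hset, Finset.card_union_of_disjoint, Finset.card_union_of_disjoint,
        Finset.card_union_of_disjoint]
      · have h0 := hc (4 * q)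
        have h1 := hc (4 * q + 1)
        have h2 := hc (4 * q + 2)
        have h3 := hc (4 * q + 3)
        simp only [lc] at h0 h1 h2 h3
        rw [h0, h1, h2, h3, part_block_sum]
        rfl
      all_goals
        rw [Finset.disjoint_left]
        intro s
        simp only [Finset.mem_filter, Finset.mem_univ, true_and, Finset.mem_union]
        omega
    · rw [if_neg (by tauto), Finset.card_eq_zero, Finset.filter_eq_empty_iff]
      intro s _ hs
      have hs' : 2 * (c s / 4) = j := hs
      clear htot hs hc
      omega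
  · intro j
    have hsub : (Finset.univ.filter fun s => 2 * (c s / 4) = j).image c ⊆ Finset.Ico (2 * j) (2 * j + 4) := by
      intro a ha
      obtain ⟨s, hs, rfl⟩ := Finset.mem_image.mp ha
      have := (Finset.mem_filter.mp hs).2
      rw [Finset.mem_Ico]
      omega
    calc _ ≤ (Finset.Ico (2 * j) (2 * j + 4)).card := Finset.card_le_card hsub
      _ = 4 := by simp
  · intro a b hab
    rw [hc, hc]
    exact part_antitone m hab
  · intro ν t hν k
    rw [pc_rowC, pc_eq_sum]
    simp only [hc]
    exact sum_part_le_rowsBelow m hS ν t hν k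

/-- The fixed vector for the colouring of `exists_alpha4`. -/
theorem HasFix.of_alpha4 {V : Type*} [AddCommGroup V] [Module ℂ V]
    {ρ : Representation ℂ (Perm S) V} {c : S → ℕ} {ν : YoungDiagram} (t : Tab ν S)
    (hd : Antitone (lc c)) (hP : ∀ k, pc c k ≤ pc (rowC t) k) (h : HasFix ρ (rowC t)) :
    HasFix ρ c :=
  HasFix.of_pc hd hP h

end Main

end Crest.Agent.Saxl
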