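import Crest.Agent.Lib.Saxl.FamilyL

/-!
# The chains of the hook family, and the selection of a shape for each `n` (row 195, S0298)

`famL base P J` is the shape `W(B, P, J)` of helper58: `P` double wraps around the block list `base`;
`J j` says that the wrap number `j`, counted from the top, has a defect.
-/

set_option autoImplicit false

open scoped BigOperators
open Equiv

namespace Crest.Agent.Saxl.Family

/-- The family `W(B, P, J)`. -/
def famL (base : List BK) : ℕ → (ℕ → Bool) → List BK
  | 0, _ => base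
  | P + 1, J => stepL (J 1) (famL base P fun j => J (j + 1))

theorem good_famL {base : List BK} (h : Good base) : ∀ (P : ℕ) (J : ℕ → Bool), Good (famL base P J)
  | 0, _ => h
  | P + 1, J => (good_famL h P fun j => J (j + 1)).stepL (J 1)

/-- The number of defects among the wraps `1, …, P`. -/
def defs : ℕ → (ℕ → Bool) → ℕ
  | 0, _ => 0
  | P + 1, J => (if J 1 then 1 else 0) + defs P fun j => J (j + 1)

/-- The sum of the positions of the defects among the wraps `1, …, P`. -/
def wSum : ℕ → (ℕ → Bool) → ℕ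
  | 0, _ => 0
  | P + 1, J => (if J 1 then 1 else 0) + defs P (fun j => J (j + 1)) + wSum P fun j => J (j + 1)

theorem cOf_eq (d : Bool) (l : List BK) : cOf d l = twidth l + 4 + (if d then 1 else 0) := by
  cases d <;> simp [cOf]

/-- The width of `W(B, P, J)`: the first hook of it has `c` cells in its arm. -/
theorem twidth_famL (base : List BK) (P : ℕ) (J : ℕ → Bool) :
    twidth (famL base P J) = twidth base + 4 * P + defs P J := by
  induction P generalizing J with
  | zero => simp [famL, defs]
  | succ P ih =>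
    simp only [famL, defs]
    rw [twidth_stepL, cOf_eq, ih]
    split_ifs <;> omega

/-- **The size of `W(B, P, J)`**, in closed form, no subtraction. -/
theorem card_famL {base : List BK} (h : Good base) (P : ℕ) (J : ℕ → Bool) :
    2 * (cellsL (famL base P J)).card + twidth base * (twidth base + 1) =
      2 * (cellsL base).card + (twidth base + 4 * P) * (twidth base + 4 * P + 1) + 8 * wSum P J := by
  induction P generalizing J with
  | zero => simp [famL, wSum]
  | succ P ih =>
    simp only [famL, wSum]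
    have h1 := card_stepL (good_famL h P fun j => J (j + 1)) (J 1)
    have h2 := ih fun j => J (j + 1)
    have h3 := cOf_eq (J 1) (famL base P fun j => J (j + 1))
    have h4 := twidth_famL base P fun j => J (j + 1)
    have h5 := cOf_ge (J 1) (famL base P fun j => J (j + 1))
    rw [h1]
    generalize (cellsL (famL base P fun j => J (j + 1))).card = x at *
    generalize cOf (J 1) (famL base P fun j => J (j + 1)) = c at *
    generalize twidth (famL base P fun j => J (j + 1)) = w at *
    generalize defs P (fun j => J (j + 1)) = D at *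
    generalize wSum P (fun j => J (j + 1)) = W at *
    generalize (cellsL base).card = z at *
    generalize twidth base = b at *
    have hc : c = b + 4 * P + D + 4 + (if J 1 = true then 1 else 0) := by omega
    generalize (if J 1 = true then 1 else 0 : ℕ) = e at *
    subst hc
    have e4 : (b + 4 * (P + 1)) = b + 4 * P + 4 := by ring
    rw [e4]
    zify at h2 ⊢
    have e1 : ((b + 4 * P + D + 4 + e - 1 : ℕ) : ℤ) = (b : ℤ) + 4 * P + D + 4 + e - 1 := by
      rw [Nat.cast_sub (by omega)]; push_cast; ring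
    have e2 : ((b + 4 * P + D + 4 + e - 2 : ℕ) : ℤ) = (b : ℤ) + 4 * P + D + 4 + e - 2 := by
      rw [Nat.cast_sub (by omega)]; push_cast; ring
    have e3 : ((b + 4 * P + D + 4 + e - 3 : ℕ) : ℤ) = (b : ℤ) + 4 * P + D + 4 + e - 3 := by
      rw [Nat.cast_sub (by omega)]; push_cast; ring
    rw [e1, e2, e3]
    push_cast
    nlinarith [h2]

/-- What a step of the chain must give. -/
def StepOK (d : Bool) (l : List BK) : Prop :=
  ∀ m, Saxl.Universal (cellsL l) m → (cellsL l).card = m →
    Saxl.Universal (cellsL (stepL d l)) (cellsL (stepL d l)).card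

/-- **The chain.** -/
theorem universal_famL {base : List BK} (hU : Saxl.Universal (cellsL base) (cellsL base).card) :
    ∀ (P : ℕ) (J : ℕ → Bool),
      (∀ t, t < P → StepOK (J (t + 1)) (famL base (P - 1 - t) fun j => J (j + t + 1))) →
      Saxl.Universal (cellsL (famL base P J)) (cellsL (famL base P J)).card
  | 0, _, _ => hU
  | P + 1, J, hS => by
    have h0 := hS 0 (by omega)
    simp only [Nat.add_sub_cancel, Nat.sub_zero, add_zero, zero_add] at h0
    refine h0 _ (universal_famL hU P (fun j => J (j + 1)) ?_) rfl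
    intro t ht
    have h1 := hS (t + 1) (by omega)
    have e : P + 1 - 1 - (t + 1) = P - 1 - t := by omega
    rw [e] at h1
    have e1 : (fun j => J (j + 1 + t + 1)) = fun j => J (j + (t + 1) + 1) := by
      funext j
      congr 1
      omega
    simpa [add_assoc, add_comm, add_left_comm] using h1

/-! ### Concrete shapes: checking `Good` -/

theorem colHL_le_of (l : List BK) (h3 : ∀ j, j < twidth l → colHL l j ≤ twidth l) (j : ℕ) :
    colHL l j ≤ twidth l := by
  by_cases hj : j < twidth l
  · exact h3 j hj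
  · rw [colHL_eq_zero (by omega)]
    exact Nat.zero_le _

/-- `Good` from finite checks on the column heights. -/
theorem good_of_check (l : List BK)
    (h1 : ∀ i, i < twidth l → ∀ j, j < twidth l → (i < colHL l j ↔ j < colHL l i))
    (h2 : ∀ j, j < twidth l → colHL l (j + 1) ≤ colHL l j)
    (h3 : ∀ j, j < twidth l → colHL l j ≤ twidth l)
    (h4 : ∀ i, i < twidth l → ∀ j, j < twidth l → i < colHL l j → twidth l + 2 ≤ 2 * i + 3 →
      j + 2 * i + 5 ≤ 2 * (twidth l + 2))
    (h5 : ∀ K ∈ l, Nondeg K) (h6 : ∀ K ∈ l, K.hi < twidth l)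
    (h7 : l.Pairwise fun K K' => K'.hi < K.lo) : Good l := by
  have hle := colHL_le_of l h3
  have hanti : ∀ j j', j ≤ j' → colHL l j' ≤ colHL l j := by
    intro j j' hjj
    induction j', hjj using Nat.le_induction with
    | base => exact le_rfl
    | succ j' _ ih =>
      by_cases hj : j' < twidth l
      · exact (h2 j' hj).trans ih
      · rw [colHL_eq_zero (by omega)]
        exact Nat.zero_le _
  have hbox : ∀ i j, (i, j) ∈ cellsL l → i < twidth l ∧ j < twidth l := by
    intro i j hq
    rw [mem_cellsL] at hq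
    simp only at hq
    refine ⟨lt_of_lt_of_le hq (hle j), ?_⟩
    by_contra hj
    rw [colHL_eq_zero (by omega)] at hq
    omega
  refine ⟨?_, ?_, ?_, ?_, h5, h6, h7⟩
  · have key : ∀ i j, (i, j) ∈ cellsL l → (j, i) ∈ cellsL l := by
      intro i j hq
      obtain ⟨hi, hj⟩ := hbox i j hq
      rw [mem_cellsL] at hq ⊢
      exact (h1 i hi j hj).mp hq
    rintro ⟨i, j⟩
    exact ⟨key i j, key j i⟩
  · intro i j i' j' hq hi hj
    rw [mem_cellsL] at hq ⊢
    simp only at hq ⊢
    have := hanti j' j hj
    omega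
  · rintro ⟨i, j⟩ hq
    exact hbox i j hq
  · intro i j hq hc
    obtain ⟨hi, hj⟩ := hbox i j hq
    rw [mem_cellsL] at hq
    exact h4 i hi j hj hq hc

/-! ### The table of bases -/

/-- The sixteen bases of helper58's table, indexed by `m % 4`, `r % 4`. -/
def baseL : ℕ → ℕ → List BK
  | 0, 0 => [BK.pair 3, BK.pair 1]
  | 0, 1 => [BK.single 4, BK.dbl 3, BK.single 1]
  | 0, 2 => [BK.single 4, BK.single 2, BK.dbl 1]
  | 0, 3 => [BK.dbl 4, BK.pair 2]
  | 1, 0 => [BK.single 1]
  | 1, 1 => [BK.single 5, BK.pair 2, BK.dbl 1]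
  | 1, 2 => [BK.single 5, BK.dbl 4, BK.single 3, BK.single 1]
  | 1, 3 => [BK.pair 4, BK.dbl 2, BK.single 1]
  | 2, 0 => [BK.pair 1]
  | 2, 1 => [BK.pair 5, BK.dbl 4, BK.pair 1]
  | 2, 2 => [BK.pair 5, BK.single 3, BK.dbl 2, BK.single 1]
  | 2, 3 => [BK.single 6, BK.dbl 5, BK.pair 3, BK.single 1]
  | 3, 0 => [BK.pair 2, BK.single 1]
  | 3, 1 => [BK.pair 6, BK.pair 3, BK.dbl 2, BK.single 1]
  | 3, 2 => [BK.dbl 3, BK.single 2]
  | 3, 3 => [BK.single 3, BK.dbl 1]
  | _, _ => []

theorem good_baseL {i j : ℕ} (hi : i < 4) (hj : j < 4) : Good (baseL i j) := by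
  interval_cases i <;> interval_cases j <;>
    exact good_of_check _ (by decide) (by decide) (by decide) (by decide)
      (by simp [baseL, Nondeg]) (by simp [baseL, BK.hi, twidth, BK.width]) (by simp [baseL, BK.hi, BK.lo])

/-- The defect pattern `{a, b}`; the value `0` means no defect. -/
def patt (a b : ℕ) (j : ℕ) : Bool := decide (j = a) || decide (j = b)

theorem famL_congr (base : List BK) (P : ℕ) {J J' : ℕ → Bool} (h : ∀ j, 1 ≤ j → J j = J' j) :
    famL base P J = famL base P J' := by
  induction P generalizing J J' with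
  | zero => rfl
  | succ P ih =>
    simp only [famL]
    rw [h 1 le_rfl, ih fun j _ => h (j + 1) (by omega)]

theorem defs_congr (P : ℕ) {J J' : ℕ → Bool} (h : ∀ j, 1 ≤ j → J j = J' j) :
    defs P J = defs P J' := by
  induction P generalizing J J' with
  | zero => rfl
  | succ P ih =>
    simp only [defs]
    rw [h 1 le_rfl, ih fun j _ => h (j + 1) (by omega)]

theorem wSum_congr (P : ℕ) {J J' : ℕ → Bool} (h : ∀ j, 1 ≤ j → J j = J' j) :
    wSum P J = wSum P J' := by
  induction P generalizing J J' with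
  | zero => rfl
  | succ P ih =>
    simp only [wSum]
    rw [h 1 le_rfl, ih fun j _ => h (j + 1) (by omega), defs_congr P fun j _ => h (j + 1) (by omega)]

/-- The shift of a pattern. -/
theorem patt_shift (a b t j : ℕ) (hj : 1 ≤ j) : patt a b (j + t) = patt (a - t) (b - t) j := by
  simp only [patt]
  congr 1 <;> exact decide_eq_decide.mpr (by omega)

/-- The number of defects and the sum of the positions of a pattern. -/
theorem defs_wSum_patt (P a b : ℕ) (hab : a < b ∨ (a = 0 ∧ b = 0)) (hb : b ≤ P) :
    defs P (patt a b) = (if a = 0 then 0 else 1) + (if b = 0 then 0 else 1) ∧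
      wSum P (patt a b) = a + b := by
  induction P generalizing a b with
  | zero =>
    have hb0 : b = 0 := by omega
    have ha0 : a = 0 := by omega
    subst hb0 ha0
    exact ⟨rfl, rfl⟩
  | succ P ih =>
    have hs : ∀ j, 1 ≤ j → patt a b (j + 1) = patt (a - 1) (b - 1) j := fun j hj =>
      patt_shift a b 1 j hj
    obtain ⟨h1, h2⟩ := ih (a - 1) (b - 1) (by omega) (by omega)
    have h3 := defs_congr P hs
    have h4 := wSum_congr P hs
    have hJ : patt a b 1 = decide (a = 1 ∨ b = 1) := by
      simp only [patt]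
      by_cases h5 : a = 1 <;> by_cases h6 : b = 1 <;> simp [h5, h6, eq_comm]
    simp only [defs, wSum]
    rw [h3, h4, h1, h2, hJ]
    clear h1 h2 h3 h4 hJ hs ih
    by_cases h5 : a = 1
    · subst h5
      have h6 : b ≠ 1 := by omega
      have h7 : b ≠ 0 := by omega
      have h8 : b - 1 ≠ 0 := by omega
      simp only [true_or, decide_true, if_true, Nat.sub_self, h6, h7, h8, if_false]
      simp
      omega
    · by_cases h6 : b = 1
      · subst h6
        have h7 : a = 0 := by omega
        subst h7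
        simp
      · by_cases h7 : a = 0
        · subst h7
          by_cases h8 : b = 0
          · subst h8
            simp
          · have h9 : b - 1 ≠ 0 := by omega
            simp [h6, h8, h9]
            omega
        · have h8 : b ≠ 0 := by omega
          have h9 : b - 1 ≠ 0 := by omega
          have h10 : a - 1 ≠ 0 := by omega
          simp [h5, h6, h7, h8, h9, h10]
          omega

/-! ### The selection of a shape -/

/-- The number of wraps. -/
def selP (m r : ℕ) : ℕ := (m - twidth (baseL (m % 4) (r % 4))) / 4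

/-- The sum of the positions of the defects. -/
def selJ (m r : ℕ) : ℕ :=
  (r + twidth (baseL (m % 4) (r % 4)) * (twidth (baseL (m % 4) (r % 4)) + 1) / 2 -
    ((baseL (m % 4) (r % 4)).map BK.size).sum) / 4

/-- The first defect. -/
def selA (m r : ℕ) : ℕ := (selJ m r - 1) / 2

/-- The second defect. -/
def selB (m r : ℕ) : ℕ := selJ m r - selA m r

theorem base_table : ∀ i, i < 4 → ∀ j, j < 4 →
    twidth (baseL i j) ≤ 7 ∧ twidth (baseL i j) % 4 = i ∧
    2 * (twidth (baseL i j) * (twidth (baseL i j) + 1) / 2) =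
      twidth (baseL i j) * (twidth (baseL i j) + 1) ∧
    (j + twidth (baseL i j) * (twidth (baseL i j) + 1) / 2) % 4 = ((baseL i j).map BK.size).sum % 4 ∧
    ((baseL i j).map BK.size).sum ≤ twidth (baseL i j) * (twidth (baseL i j) + 1) / 2 + j ∧
    twidth (baseL i j) * (twidth (baseL i j) + 1) / 2 ≤ ((baseL i j).map BK.size).sum + 3 := by
  decide

/-- The arithmetic of the selection. -/
theorem sel_spec {m r : ℕ} (hm : 25 ≤ m) (hr : r ≤ m) :
    twidth (baseL (m % 4) (r % 4)) + 4 * selP m r = m ∧
    4 * selJ m r + (cellsL (baseL (m % 4) (r % 4))).card =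
      r + twidth (baseL (m % 4) (r % 4)) * (twidth (baseL (m % 4) (r % 4)) + 1) / 2 ∧
    selA m r + selB m r = selJ m r ∧
    (selA m r < selB m r ∨ (selA m r = 0 ∧ selB m r = 0)) ∧ selB m r ≤ selP m r ∧
    (selB m r = selA m r + 1 ∨ selB m r = selA m r + 2 ∨ (selA m r = 0 ∧ selB m r = 0)) ∧
    2 * selB m r ≤ selP m r + 4 := by
  have hi : m % 4 < 4 := Nat.mod_lt _ (by omega)
  have hj : r % 4 < 4 := Nat.mod_lt _ (by omega)
  obtain ⟨h1, h2, h3, h4, h5, h6⟩ := base_table _ hi _ hj
  have hc := card_cellsL (baseL (m % 4) (r % 4))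
  simp only [selP, selA, selB, selJ]
  rw [hc]
  generalize twidth (baseL (m % 4) (r % 4)) = w at *
  generalize ((baseL (m % 4) (r % 4)).map BK.size).sum = z at *
  generalize w * (w + 1) / 2 = T at *
  have h7 : (r + T) % 4 = z % 4 := by omega
  omega

/-- The size of the selected shape. -/
theorem card_sel {m r : ℕ} (hm : 25 ≤ m) (hr : r ≤ m) :
    2 * (cellsL (famL (baseL (m % 4) (r % 4)) (selP m r) (patt (selA m r) (selB m r)))).card =
      m * (m + 1) + 2 * r := by
  have hi : m % 4 < 4 := Nat.mod_lt _ (by omega)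
  have hj : r % 4 < 4 := Nat.mod_lt _ (by omega)
  obtain ⟨h1, h2, h3, h4, h5, h6, h7⟩ := sel_spec hm hr
  obtain ⟨-, -, h8, -⟩ := base_table _ hi _ hj
  have h := card_famL (good_baseL hi hj) (selP m r) (patt (selA m r) (selB m r))
  rw [h1, (defs_wSum_patt _ _ _ h4 h5).2, h3] at h
  omega

/-- Every `n` is a triangular number plus a small rest. -/
theorem exists_tri (n : ℕ) : ∃ m r, r ≤ m ∧ m * (m + 1) + 2 * r = 2 * n := by
  induction n with
  | zero => exact ⟨0, 0, le_rfl, rfl⟩
  | succ n ih =>
    obtain ⟨m, r, hr, h⟩ := ih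
    by_cases hrm : r < m
    · exact ⟨m, r + 1, by omega, by omega⟩
    · have : r = m := by omega
      subst this
      refine ⟨r + 1, 0, by omega, ?_⟩
      nlinarith

/-- The exceptional sizes of the uniform rule. -/
def ExcN (n : ℕ) : Prop := n < 350 ∨ n = 350 ∨ n = 377 ∨ n = 432

/-- The levels of the chains of the selection. The step is from the shape with defects `a - 1, b - 1`
(and `P` wraps) to the shape with defects `a, b` (and `P + 1` wraps). -/
def OnChain (i j P a b : ℕ) : Prop :=
  ∃ m r t, r ≤ m ∧ (¬ ExcN ((m * (m + 1) + 2 * r) / 2)) ∧ i = m % 4 ∧ j = r % 4 ∧ t < selP m r ∧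
    P = selP m r - 1 - t ∧ a = selA m r - t ∧ b = selB m r - t

theorem exc_m {m r : ℕ} (h : r ≤ m) (hn : ¬ ExcN ((m * (m + 1) + 2 * r) / 2)) : 25 ≤ m := by
  by_contra hm
  apply hn
  left
  have : m ≤ 24 := by omega
  have h1 : m * (m + 1) ≤ 24 * 25 := Nat.mul_le_mul this (by omega)
  omega

/-- What is known on the levels of the chains. -/
theorem OnChain.props {i j P a b : ℕ} (h : OnChain i j P a b) :
    i < 4 ∧ j < 4 ∧ (b = a + 1 ∨ b = a + 2 ∨ (a = 0 ∧ b = 0)) ∧ 2 * b ≤ P + 5 := by
  obtain ⟨m, r, t, hr, hn, rfl, rfl, ht, rfl, rfl, rfl⟩ := h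
  have hm := exc_m hr hn
  obtain ⟨h1, h2, h3, h4, h5, h6, h7⟩ := sel_spec hm hr
  refine ⟨Nat.mod_lt _ (by omega), Nat.mod_lt _ (by omega), by omega, by omega⟩


/-- The arm of the first hook at a level. -/
def lvlC (i j P a b : ℕ) : ℕ :=
  twidth (baseL i j) + 4 * (P + 1) + (if a = 0 then 0 else 1) + (if b = 0 then 0 else 1)

/-- The width of a level. -/
theorem twidth_level_lvlC (i j P a b : ℕ) (hab : a < b ∨ (a = 0 ∧ b = 0)) (hb : b ≤ P + 1) :
    twidth (stepL (patt a b 1) (famL (baseL i j) P (patt (a - 1) (b - 1)))) = lvlC i j P a b := by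
  rw [twidth_stepL, cOf_eq, twidth_famL]
  obtain ⟨h1, -⟩ := defs_wSum_patt P (a - 1) (b - 1) (by omega) (by omega)
  rw [h1]
  have hJ : patt a b 1 = decide (a = 1 ∨ b = 1) := by
    simp only [patt]
    by_cases h5 : a = 1 <;> by_cases h6 : b = 1 <;> simp [h5, h6, eq_comm]
  rw [hJ]
  simp only [lvlC, decide_eq_true_eq]
  split_ifs <;> omega

theorem OnChain.pat {i j P a b : ℕ} (h : OnChain i j P a b) :
    (a < b ∨ (a = 0 ∧ b = 0)) ∧ b ≤ P + 1 := by
  obtain ⟨m, r, t, hr, hn, rfl, rfl, ht, rfl, rfl, rfl⟩ := h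
  have hm := exc_m hr hn
  obtain ⟨h1, h2, h3, h4, h5, h6, h7⟩ := sel_spec hm hr
  exact ⟨by omega, by omega⟩

/-- **The final reduction for S0298**: the small sizes, the sixteen bases and the levels of the
chains. -/
theorem universal_of_data
    (hsmall : ∀ n, 0 < n → n ≠ 2 → n ≠ 4 → n ≠ 9 → ExcN n →
      ∃ μ : YoungDiagram, μ.cells.card = n ∧ Saxl.Universal μ.cells n)
    (hbase : ∀ i j, i < 4 → j < 4 → Saxl.Universal (cellsL (baseL i j)) (cellsL (baseL i j)).card)
    (hstep : ∀ i j P a b, OnChain i j P a b →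
      StepOK (patt a b 1) (famL (baseL i j) P (patt (a - 1) (b - 1))))
    (n : ℕ) (hn : 0 < n) (h2 : n ≠ 2) (h4 : n ≠ 4) (h9 : n ≠ 9) :
    ∃ μ : YoungDiagram, μ.cells.card = n ∧ Saxl.Universal μ.cells n := by
  by_cases hE : ExcN n
  · exact hsmall n hn h2 h4 h9 hE
  obtain ⟨m, r, hr, hmr⟩ := exists_tri n
  have hn' : (m * (m + 1) + 2 * r) / 2 = n := by omega
  have hnE : ¬ ExcN ((m * (m + 1) + 2 * r) / 2) := by rwa [hn']
  have hm := exc_m hr hnE
  have hi : m % 4 < 4 := Nat.mod_lt _ (by omega)
  have hj : r % 4 < 4 := Nat.mod_lt _ (by omega)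
  have hg := good_famL (good_baseL hi hj) (selP m r) (patt (selA m r) (selB m r))
  have hc := card_sel hm hr
  have hU := universal_famL (base := baseL (m % 4) (r % 4)) (hbase _ _ hi hj) (selP m r)
    (patt (selA m r) (selB m r)) (by
      intro t ht
      have h3 := hstep (m % 4) (r % 4) (selP m r - 1 - t) (selA m r - t) (selB m r - t)
        ⟨m, r, t, hr, hnE, rfl, rfl, ht, rfl, rfl, rfl⟩
      have e1 : patt (selA m r) (selB m r) (t + 1) = patt (selA m r - t) (selB m r - t) 1 := by
        rw [add_comm t 1]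
        exact patt_shift _ _ _ _ le_rfl
      have e2 : famL (baseL (m % 4) (r % 4)) (selP m r - 1 - t)
          (fun j => patt (selA m r) (selB m r) (j + t + 1)) =
          famL (baseL (m % 4) (r % 4)) (selP m r - 1 - t)
            (patt (selA m r - t - 1) (selB m r - t - 1)) := by
        apply famL_congr
        intro j hj
        rw [add_assoc]
        rw [patt_shift _ _ _ _ hj]
        simp only [Nat.sub_sub]
      rw [e1, e2]
      exact h3)
  refine ⟨⟨cellsL (famL (baseL (m % 4) (r % 4)) (selP m r) (patt (selA m r) (selB m r))), ?_⟩, ?_, ?_⟩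
  · intro p q hpq hq
    have hl := hg.low
    obtain ⟨i', j'⟩ := p
    obtain ⟨i, j⟩ := q
    exact hl i' j' i j hq hpq.1 hpq.2
  · show (cellsL _).card = n
    omega
  · have e : (cellsL (famL (baseL (m % 4) (r % 4)) (selP m r) (patt (selA m r) (selB m r)))).card = n := by
      omega
    rw [e] at hU
    exact hU

/-- **S0298 from the data.** -/
theorem s0298_of_data
    (hsmall : ∀ n, 0 < n → n ≠ 2 → n ≠ 4 → n ≠ 9 → ExcN n →
      ∃ μ : YoungDiagram, μ.cells.card = n ∧ Saxl.Universal μ.cells n)
    (hbase : ∀ i j, i < 4 → j < 4 → Saxl.Universal (cellsL (baseL i j)) (cellsL (baseL i j)).card)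
    (hstep : ∀ i j P a b, OnChain i j P a b →
      StepOK (patt a b 1) (famL (baseL i j) P (patt (a - 1) (b - 1))))
    (n : ℕ) (hn : 0 < n) (h2 : n ≠ 2) (h4 : n ≠ 4) (h9 : n ≠ 9) :
    ∃ (V : Type) (_ : AddCommGroup V) (_ : Module ℂ V) (_ : FiniteDimensional ℂ V)
      (ρ : Representation ℂ (Perm (Fin n)) V), ρ.IsIrreducible ∧
      ∀ (W : Type) [AddCommGroup W] [Module ℂ W] [FiniteDimensional ℂ W]
        (σ : Representation ℂ (Perm (Fin n)) W), σ.IsIrreducible →
        Nontrivial (Representation.IntertwiningMap σ (Representation.tprod ρ ρ)) := by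
  obtain ⟨μ, hμ, hU⟩ := universal_of_data hsmall hbase hstep n hn h2 h4 h9
  exact main_of_universal n μ hμ hU

end Crest.Agent.Saxl.Family
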