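import Crest.Agent.Lib.Saxl.KronTwist

/-!
# Finite certificates for Kronecker positivity

Shapes are sorted lists of column heights.  Adding two shapes row by row merges the lists of column
heights, taking the union of the rows adds the lists of column heights entry by entry.  `comb` combines
two triples by one of the four patterns of the semigroup, `run` follows a path in a table of triples.
`checkAll` checks one path for each partition of `n`.
-/

set_option autoImplicit false

open Finset Equiv

namespace Crest.Agent.Saxl.Kron

open Crest.Agent.Saxl.FourRowsSemi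

/-- A triple of shapes. -/
abbrev Tr := List ℕ × List ℕ × List ℕ

/-- Positivity of a triple. -/
def G (t : Tr) : Prop := Real3 (t.1 : Multiset ℕ) (t.2.1 : Multiset ℕ) (t.2.2 : Multiset ℕ)

/-- Insertion into a list sorted in decreasing order. -/
def ins (x : ℕ) : List ℕ → List ℕ
  | [] => [x]
  | y :: l => if Nat.ble y x then x :: y :: l else y :: ins x l

/-- Merge. -/
def mrg (a b : List ℕ) : List ℕ := a.foldr ins b

/-- Addition of entries. -/
def padd : List ℕ → List ℕ → List ℕ
  | [], b => b
  | x :: a, [] => x :: a
  | x :: a, y :: b => (x + y) :: padd a b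

/-- Sorted in decreasing order, and positive. -/
def sd : List ℕ → Bool
  | [] => true
  | [x] => Nat.blt 0 x
  | x :: y :: l => Nat.ble y x && sd (y :: l)

lemma coe_ins (x : ℕ) (l : List ℕ) : ((ins x l : List ℕ) : Multiset ℕ) = x ::ₘ (l : Multiset ℕ) := by
  induction l with
  | nil => rfl
  | cons y l ih =>
    simp only [ins]
    split_ifs
    · rfl
    · rw [← Multiset.cons_coe, ih, ← Multiset.cons_coe, Multiset.cons_swap]

lemma coe_mrg (a b : List ℕ) : ((mrg a b : List ℕ) : Multiset ℕ) = (a : Multiset ℕ) + b := by
  induction a with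
  | nil => simp [mrg]
  | cons x a ih =>
    have : mrg (x :: a) b = ins x (mrg a b) := rfl
    rw [this, coe_ins, ih, ← Multiset.cons_coe, Multiset.cons_add]

lemma sd_sorted {l : List ℕ} (h : sd l = true) : l.SortedGE ∧ ∀ x ∈ l, 0 < x := by
  induction l with
  | nil =>
    refine ⟨?_, by simp⟩
    rw [List.sortedGE_iff_pairwise]
    simp
  | cons x l ih =>
    cases l with
    | nil =>
      simp only [sd, Nat.blt_eq] at h
      refine ⟨?_, by simpa using h⟩
      rw [List.sortedGE_iff_pairwise]
      simp
    | cons y l =>
      simp only [sd, Bool.and_eq_true, Nat.ble_eq] at h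
      obtain ⟨h1, h2⟩ := ih h.2
      refine ⟨?_, ?_⟩
      · rw [List.sortedGE_iff_pairwise] at h1 ⊢
        rw [List.pairwise_cons]
        refine ⟨fun z hz => ?_, h1⟩
        rcases List.mem_cons.mp hz with rfl | hz
        · exact h.1
        · exact le_trans ((List.pairwise_cons.mp h1).1 z hz) h.1
      · intro z hz
        rcases List.mem_cons.mp hz with rfl | hz
        · exact lt_of_lt_of_le (h2 y (List.mem_cons_self)) h.1
        · exact h2 z hz

lemma padd_eq (a b : List ℕ) :
    padd a b = (List.range (max a.length b.length)).map (fun k => a.getD k 0 + b.getD k 0) := by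
  induction a generalizing b with
  | nil =>
    induction b with
    | nil => rfl
    | cons y b _ =>
      simp only [padd]
      refine List.ext_getElem (by simp) fun i h1 h2 => ?_
      simp [List.getElem?_eq_getElem h1]
  | cons x a ih =>
    cases b with
    | nil =>
      simp only [padd]
      refine List.ext_getElem (by simp) fun i h1 h2 => ?_
      simp [List.getElem?_eq_getElem h1]
    | cons y b =>
      simp only [padd, List.length_cons]
      rw [show max (a.length + 1) (b.length + 1) = max a.length b.length + 1 by omega,
        List.range_succ_eq_map, List.map_cons, List.map_map, ih b]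
      simp only [List.getD_cons_zero]
      congr 1

/-- The diagram of a sorted list of column heights is the transpose of `ofRowLens`. -/
lemma colLensL_ofRowLens {a : List ℕ} (hs : a.SortedGE) (hp : ∀ x ∈ a, 0 < x) :
    ((dualL a : List ℕ) : Multiset ℕ) = colLensL (YoungDiagram.ofRowLens a hs) := by
  have h1 : hts (YoungDiagram.ofRowLens a hs).transpose = (a : Multiset ℕ) := by
    rw [hts_eq_colLensL, colLensL, YoungDiagram.rowLen_transpose]
    have : (List.range ((YoungDiagram.ofRowLens a hs).colLen 0)).map
        (YoungDiagram.ofRowLens a hs).transpose.colLen = (YoungDiagram.ofRowLens a hs).rowLens := by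
      rw [YoungDiagram.rowLens]
      refine List.map_congr_left fun i _ => ?_
      rw [YoungDiagram.colLen_transpose]
    rw [this, YoungDiagram.rowLens_ofRowLens_eq_self hp]
  rw [← dual_coe, ← h1, dual_hts, YoungDiagram.transpose_transpose, hts_eq_colLensL]

lemma rowLen_ofRowLens' {a : List ℕ} (hs : a.SortedGE) (k : ℕ) :
    (YoungDiagram.ofRowLens a hs).rowLen k = a.getD k 0 := by
  by_cases hk : k < a.length
  · have := YoungDiagram.rowLen_ofRowLens (w := a) (hw := hs) ⟨k, hk⟩
    rw [this, List.getD_eq_getElem _ _ hk]
    rfl
  · rw [List.getD_eq_default _ _ (not_lt.mp hk)]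
    by_contra hne
    have hpos := Nat.pos_of_ne_zero hne
    have hm : (k, 0) ∈ YoungDiagram.ofRowLens a hs := YoungDiagram.mem_iff_lt_rowLen.mpr hpos
    rw [YoungDiagram.mem_ofRowLens] at hm
    obtain ⟨h, -⟩ := hm
    exact hk h

lemma colLen_ofRowLens {a : List ℕ} (hs : a.SortedGE) (hp : ∀ x ∈ a, 0 < x) :
    (YoungDiagram.ofRowLens a hs).colLen 0 = a.length := by
  rw [← YoungDiagram.length_rowLens, YoungDiagram.rowLens_length_ofRowLens hp]

/-- Union of rows, in terms of column heights. -/
lemma dual_dual_add {a b : List ℕ} (ha : sd a = true) (hb : sd b = true) :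
    dual (dual (a : Multiset ℕ) + dual (b : Multiset ℕ)) = ((padd a b : List ℕ) : Multiset ℕ) := by
  obtain ⟨hs, hp⟩ := sd_sorted ha
  obtain ⟨hs', hp'⟩ := sd_sorted hb
  rw [dual_coe, dual_coe, colLensL_ofRowLens hs hp, colLensL_ofRowLens hs' hp', padd_eq, dual]
  have hfold : ((colLensL (YoungDiagram.ofRowLens a hs) : Multiset ℕ) +
      (colLensL (YoungDiagram.ofRowLens b hs') : Multiset ℕ)).fold max 0 = max a.length b.length := by
    have := Multiset.fold_add (max : ℕ → ℕ → ℕ) 0 0
      (colLensL (YoungDiagram.ofRowLens a hs) : Multiset ℕ)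
      (colLensL (YoungDiagram.ofRowLens b hs') : Multiset ℕ)
    rw [max_self] at this
    rw [this, Multiset.coe_fold_r, Multiset.coe_fold_r, foldr_colLensL, foldr_colLensL,
      colLen_ofRowLens hs hp, colLen_ofRowLens hs' hp']
  rw [hfold, Multiset.range, Multiset.map_coe]
  congr 1
  refine List.map_congr_left fun k _ => ?_
  rw [Multiset.countP_add, Multiset.coe_countP, Multiset.coe_countP, countP_colLensL,
    countP_colLensL, rowLen_ofRowLens', rowLen_ofRowLens']

theorem G_hhh {a b c a' b' c' : List ℕ} (h : G (a, b, c)) (h' : G (a', b', c')) :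
    G (mrg a a', mrg b b', mrg c c') := by
  simp only [G] at h h' ⊢
  rw [coe_mrg, coe_mrg, coe_mrg]
  exact h.add h'

theorem G_hvv {a b c a' b' c' : List ℕ} (h : G (a, b, c)) (h' : G (a', b', c'))
    (h1 : sd b = true) (h2 : sd b' = true) (h3 : sd c = true) (h4 : sd c' = true) :
    G (mrg a a', padd b b', padd c c') := by
  simp only [G] at h h' ⊢
  rw [coe_mrg, ← dual_dual_add h1 h2, ← dual_dual_add h3 h4]
  exact (h.twist23.add h'.twist23).twist23

theorem G_vhv {a b c a' b' c' : List ℕ} (h : G (a, b, c)) (h' : G (a', b', c'))
    (h1 : sd a = true) (h2 : sd a' = true) (h3 : sd c = true) (h4 : sd c' = true) :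
    G (padd a a', mrg b b', padd c c') := by
  simp only [G] at h h' ⊢
  rw [coe_mrg, ← dual_dual_add h1 h2, ← dual_dual_add h3 h4]
  exact (h.twist13.add h'.twist13).twist13

theorem G_vvh {a b c a' b' c' : List ℕ} (h : G (a, b, c)) (h' : G (a', b', c'))
    (h1 : sd a = true) (h2 : sd a' = true) (h3 : sd b = true) (h4 : sd b' = true) :
    G (padd a a', padd b b', mrg c c') := by
  simp only [G] at h h' ⊢
  rw [coe_mrg, ← dual_dual_add h1 h2, ← dual_dual_add h3 h4]
  exact (h.twist.add h'.twist).twist

/-- One step: combine two triples by the pattern `p`. -/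
def comb (p : ℕ) (t t' : Tr) : Option Tr :=
  match p with
  | 0 => some (mrg t.1 t'.1, mrg t.2.1 t'.2.1, mrg t.2.2 t'.2.2)
  | 1 => if sd t.2.1 && sd t'.2.1 && sd t.2.2 && sd t'.2.2 then
      some (mrg t.1 t'.1, padd t.2.1 t'.2.1, padd t.2.2 t'.2.2) else none
  | 2 => if sd t.1 && sd t'.1 && sd t.2.2 && sd t'.2.2 then
      some (padd t.1 t'.1, mrg t.2.1 t'.2.1, padd t.2.2 t'.2.2) else none
  | 3 => if sd t.1 && sd t'.1 && sd t.2.1 && sd t'.2.1 then
      some (padd t.1 t'.1, padd t.2.1 t'.2.1, mrg t.2.2 t'.2.2) else none
  | _ => none

theorem G_comb {p : ℕ} {t t' u : Tr} (h : G t) (h' : G t') (hc : comb p t t' = some u) : G u := by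
  obtain ⟨a, b, c⟩ := t
  obtain ⟨a', b', c'⟩ := t'
  match p, hc with
  | 0, hc =>
    simp only [comb, Option.some.injEq] at hc
    subst hc
    exact G_hhh h h'
  | 1, hc =>
    simp only [comb] at hc
    split_ifs at hc with hs
    simp only [Bool.and_eq_true] at hs
    simp only [Option.some.injEq] at hc
    subst hc
    exact G_hvv h h' hs.1.1.1 hs.1.1.2 hs.1.2 hs.2
  | 2, hc =>
    simp only [comb] at hc
    split_ifs at hc with hs
    simp only [Bool.and_eq_true] at hs
    simp only [Option.some.injEq] at hc
    subst hc
    exact G_vhv h h' hs.1.1.1 hs.1.1.2 hs.1.2 hs.2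
  | 3, hc =>
    simp only [comb] at hc
    split_ifs at hc with hs
    simp only [Bool.and_eq_true] at hs
    simp only [Option.some.injEq] at hc
    subst hc
    exact G_vvh h h' hs.1.1.1 hs.1.1.2 hs.1.2 hs.2
  | n + 4, hc =>
    simp [comb] at hc

/-- Entry of a table. -/
def nth (tbl : List Tr) : ℕ → Option Tr
  | k => match tbl, k with
    | [], _ => none
    | t :: _, 0 => some t
    | _ :: l, k + 1 => nth l k

theorem mem_of_nth {tbl : List Tr} {k : ℕ} {t : Tr} (h : nth tbl k = some t) : t ∈ tbl := by
  induction tbl generalizing k with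
  | nil => simp [nth] at h
  | cons x l ih =>
    cases k with
    | zero =>
      simp only [nth, Option.some.injEq] at h
      subst h
      exact List.mem_cons_self
    | succ k =>
      simp only [nth] at h
      exact List.mem_cons_of_mem _ (ih h)

/-- Follow a path.  A step `s` adds the entry `s / 4` of the table, with pattern `s % 4`. -/
def run (tbl : List Tr) (t : Tr) : List ℕ → Option Tr
  | [] => some t
  | s :: rest =>
    match nth tbl (s / 4) with
    | none => none
    | some u =>
      match comb (s % 4) t u with
      | none => none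
      | some t' => run tbl t' rest

theorem G_run {tbl : List Tr} (htbl : ∀ u ∈ tbl, G u) {t t' : Tr} {p : List ℕ} (h : G t)
    (hr : run tbl t p = some t') : G t' := by
  induction p generalizing t with
  | nil =>
    simp only [run, Option.some.injEq] at hr
    exact hr ▸ h
  | cons s rest ih =>
    simp only [run] at hr
    split at hr
    · simp at hr
    · rename_i u hu
      split at hr
      · simp at hr
      · rename_i t2 ht2
        exact ih (G_comb h (htbl u (mem_of_nth hu)) ht2) hr

/-- A path starts with the index of an entry of the table. -/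
def runP (tbl : List Tr) : List ℕ → Option Tr
  | [] => none
  | i :: rest =>
    match nth tbl i with
    | none => none
    | some t => run tbl t rest

theorem G_runP {tbl : List Tr} (htbl : ∀ u ∈ tbl, G u) {t' : Tr} {p : List ℕ}
    (hr : runP tbl p = some t') : G t' := by
  cases p with
  | nil => simp [runP] at hr
  | cons i rest =>
    simp only [runP] at hr
    split at hr
    · simp at hr
    · rename_i u hu
      exact G_run htbl (htbl u (mem_of_nth hu)) hr

/-- Equality of lists of natural numbers. -/
def leq : List ℕ → List ℕ → Bool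
  | [], [] => true
  | x :: a, y :: b => Nat.beq x y && leq a b
  | _, _ => false

theorem eq_of_leq {a b : List ℕ} (h : leq a b = true) : a = b := by
  induction a generalizing b with
  | nil =>
    cases b with
    | nil => rfl
    | cons y b => simp [leq] at h
  | cons x a ih =>
    cases b with
    | nil => simp [leq] at h
    | cons y b =>
      simp only [leq, Bool.and_eq_true, Nat.beq_eq] at h
      rw [h.1, ih h.2]

/-- The sorted positive lists with sum `n` and entries at most `m`. -/
def parts : ℕ → ℕ → ℕ → List (List ℕ)
  | 0, n, _ => if n = 0 then [[]] else []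
  | f + 1, n, m =>
    if n = 0 then [[]] else
      (List.range (min n m)).flatMap fun k => (parts f (n - (k + 1)) (k + 1)).map fun l => (k + 1) :: l

theorem mem_parts {l : List ℕ} (hs : l.SortedGE) (hp : ∀ x ∈ l, 0 < x) :
    ∀ (f m : ℕ), l.length ≤ f → (∀ x ∈ l, x ≤ m) → l ∈ parts f l.sum m := by
  induction l with
  | nil =>
    intro f m _ _
    cases f <;> simp [parts]
  | cons x l ih =>
    intro f m hf hm
    cases f with
    | zero => simp at hf
    | succ f =>
      have hx : 0 < x := hp x List.mem_cons_self
      have hne : (x :: l).sum ≠ 0 := by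
        simp only [List.sum_cons]
        omega
      rw [parts, if_neg hne]
      simp only [List.mem_flatMap, List.mem_range, List.mem_map]
      have hs' : l.SortedGE := by
        rw [List.sortedGE_iff_pairwise] at hs ⊢
        exact (List.pairwise_cons.mp hs).2
      have hle : ∀ y ∈ l, y ≤ x := by
        rw [List.sortedGE_iff_pairwise] at hs
        exact (List.pairwise_cons.mp hs).1
      have hsum : (x :: l).sum = x + l.sum := by simp
      refine ⟨x - 1, ?_, l, ?_, ?_⟩
      · have := hm x List.mem_cons_self
        rw [hsum]
        omega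
      · have e1 : (x :: l).sum - (x - 1 + 1) = l.sum := by
          rw [hsum]
          omega
        have e2 : x - 1 + 1 = x := by omega
        rw [e1, e2]
        exact ih hs' (fun y hy => hp y (List.mem_cons_of_mem _ hy)) f x (by simpa using hf) hle
      · have e2 : x - 1 + 1 = x := by omega
        rw [e2]

/-- All partitions of `n`, as lists of column heights. -/
def allParts (n : ℕ) : List (List ℕ) := parts n n n

/-- Check one path. -/
def chk1 (tbl : List Tr) (lam l : List ℕ) (p : List ℕ) : Bool :=
  match runP tbl p with
  | none => false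
  | some t => leq t.1 l && leq t.2.1 lam && leq t.2.2 lam

theorem G_chk1 {tbl : List Tr} (htbl : ∀ u ∈ tbl, G u) {lam l p : List ℕ}
    (h : chk1 tbl lam l p = true) : G (l, lam, lam) := by
  simp only [chk1] at h
  split at h
  · simp at h
  · rename_i t ht
    simp only [Bool.and_eq_true] at h
    have h1 := G_runP htbl ht
    obtain ⟨a, b, c⟩ := t
    simp only at h
    rw [eq_of_leq h.1.1, eq_of_leq h.1.2, eq_of_leq h.2] at h1
    exact h1

/-- Check a path for each list. -/
def chkAll (tbl : List Tr) (lam : List ℕ) : List (List ℕ) → List (List ℕ) → Bool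
  | [], [] => true
  | l :: ls, p :: ps => chk1 tbl lam l p && chkAll tbl lam ls ps
  | _, _ => false

theorem G_chkAll {tbl : List Tr} (htbl : ∀ u ∈ tbl, G u) {lam : List ℕ} {ls ps : List (List ℕ)}
    (h : chkAll tbl lam ls ps = true) : ∀ l ∈ ls, G (l, lam, lam) := by
  induction ls generalizing ps with
  | nil => simp
  | cons l ls ih =>
    cases ps with
    | nil => simp [chkAll] at h
    | cons p ps =>
      simp only [chkAll, Bool.and_eq_true] at h
      intro x hx
      rcases List.mem_cons.mp hx with rfl | hx
      · exact G_chk1 htbl h.1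
      · exact ih h.2 x hx

/-- A certificate gives positivity for all shapes. -/
theorem real3_of_cert {tbl : List Tr} (htbl : ∀ u ∈ tbl, G u) {n : ℕ} {lam : List ℕ}
    {ps : List (List ℕ)} (h : chkAll tbl lam (allParts n) ps = true) {M : Multiset ℕ}
    (hp : ∀ x ∈ M, 0 < x) (hs : M.sum = n) : Real3 M (lam : Multiset ℕ) (lam : Multiset ℕ) := by
  let l := M.sort (· ≥ ·)
  have hl : (l : Multiset ℕ) = M := Multiset.sort_eq M _
  have hsorted : l.SortedGE := (Multiset.pairwise_sort M _).sortedGE
  have hpos : ∀ x ∈ l, 0 < x := fun x hx => hp x (by rw [← hl]; exact Multiset.mem_coe.mpr hx)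
  have hsum : l.sum = n := by
    rw [← hs, ← hl, Multiset.sum_coe]
  have hlen : l.length ≤ n := by
    rw [← hsum]
    clear_value l
    clear hl hsorted hsum
    induction l with
    | nil => simp
    | cons x l ih =>
      have hx := hpos x List.mem_cons_self
      have := ih (fun y hy => hpos y (List.mem_cons_of_mem _ hy))
      simp only [List.length_cons, List.sum_cons]
      omega
  have hle : ∀ x ∈ l, x ≤ n := fun x hx => by
    rw [← hsum]
    exact List.single_le_sum (by simp) x hx
  have hmem : l ∈ allParts n := by
    have := mem_parts hsorted hpos n n hlen hle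
    rwa [hsum] at this
  have := G_chkAll htbl h l hmem
  simp only [G] at this
  rwa [hl] at this

/-- `D` is universal: every irreducible representation of the symmetric group on a set of the right
size occurs in the tensor square of the Specht module of `D`. -/
def Uni (D : YoungDiagram) : Prop :=
  ∀ (S : Type) [Fintype S] [DecidableEq S], Fintype.card S = D.card →
    ∀ (V : Type) [AddCommGroup V] [Module ℂ V] [FiniteDimensional ℂ V]
      (ρ : Representation ℂ (Perm S) V), ρ.IsIrreducible → Occurs ρ D.cells D.cells

lemma sum_hts (a : YoungDiagram) : (hts a).sum = a.card := by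
  rw [hts, sum_heights]
  simp [YoungDiagram.card]

lemma hts_pos (a : YoungDiagram) : ∀ x ∈ hts a, 0 < x := heights_pos _

/-- A certificate gives universality. -/
theorem uni_of_cert {tbl : List Tr} (htbl : ∀ u ∈ tbl, G u) {n : ℕ} {lam : List ℕ}
    {ps : List (List ℕ)} (h : chkAll tbl lam (allParts n) ps = true) {D : YoungDiagram}
    (hD : hts D = (lam : Multiset ℕ)) (hn : D.card = n) : Uni D := by
  intro S _ _ hS V _ _ _ ρ hρ
  obtain ⟨a, ha, hlab⟩ := exists_label hρ
  obtain ⟨T⟩ := exists_tab a ha
  refine occurs_of_real3 T ?_ hρ hlab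
  rw [hD]
  exact real3_of_cert htbl h (hts_pos a) (by rw [sum_hts, ha, hS, hn])

theorem G.swap12' {a b c : List ℕ} (h : G (a, b, c)) : G (b, a, c) := Real3.swap13 h

theorem G.swap13' {a b c : List ℕ} (h : G (a, b, c)) : G (c, b, a) :=
  Real3.swap12 (Real3.swap13 (Real3.swap12 h))

theorem G.tw' {a b c : List ℕ} (h : G (a, b, c)) : G (dualL a, dualL b, c) := by
  have := Real3.twist h
  simp only [G]
  rwa [dual_coe, dual_coe] at this

/-- Derivations of small triples from base triples. -/
inductive Dv
  | b (i : ℕ)
  | c (p : ℕ) (x y : Dv)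
  | s12 (x : Dv)
  | s13 (x : Dv)
  | tw (x : Dv)

/-- Evaluate a derivation. -/
def Dv.eval (base : List Tr) : Dv → Option Tr
  | .b i => nth base i
  | .c p x y =>
    match Dv.eval base x, Dv.eval base y with
    | some t, some u => comb p t u
    | _, _ => none
  | .s12 x =>
    match Dv.eval base x with
    | some t => some (t.2.1, t.1, t.2.2)
    | none => none
  | .s13 x =>
    match Dv.eval base x with
    | some t => some (t.2.2, t.2.1, t.1)
    | none => none
  | .tw x =>
    match Dv.eval base x with
    | some t => some (dualL t.1, dualL t.2.1, t.2.2)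
    | none => none

theorem G_eval {base : List Tr} (hb : ∀ u ∈ base, G u) :
    ∀ (d : Dv) {t : Tr}, Dv.eval base d = some t → G t := by
  intro d
  induction d with
  | b i =>
    intro t h
    exact hb t (mem_of_nth h)
  | c p x y ihx ihy =>
    intro t h
    simp only [Dv.eval] at h
    split at h
    · rename_i t1 t2 h1 h2
      exact G_comb (ihx h1) (ihy h2) h
    · simp at h
  | s12 x ih =>
    intro t h
    simp only [Dv.eval] at h
    split at h
    · rename_i t1 h1
      simp only [Option.some.injEq] at h
      subst h
      exact (ih h1).swap12'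
    · simp at h
  | s13 x ih =>
    intro t h
    simp only [Dv.eval] at h
    split at h
    · rename_i t1 h1
      simp only [Option.some.injEq] at h
      subst h
      exact (ih h1).swap13'
    · simp at h
  | tw x ih =>
    intro t h
    simp only [Dv.eval] at h
    split at h
    · rename_i t1 h1
      simp only [Option.some.injEq] at h
      subst h
      exact (ih h1).tw'
    · simp at h

/-- Check a table of triples against their derivations. -/
def chkTbl (base : List Tr) : List Tr → List Dv → Bool
  | [], [] => true
  | t :: ts, d :: ds =>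
    (match Dv.eval base d with
      | some u => leq u.1 t.1 && leq u.2.1 t.2.1 && leq u.2.2 t.2.2
      | none => false) && chkTbl base ts ds
  | _, _ => false

theorem G_chkTbl {base : List Tr} (hb : ∀ u ∈ base, G u) {ts : List Tr} {ds : List Dv}
    (h : chkTbl base ts ds = true) : ∀ u ∈ ts, G u := by
  induction ts generalizing ds with
  | nil => simp
  | cons t ts ih =>
    cases ds with
    | nil => simp [chkTbl] at h
    | cons d ds =>
      simp only [chkTbl, Bool.and_eq_true] at h
      obtain ⟨h0, hrest⟩ := h
      intro x hx
      rcases List.mem_cons.mp hx with rfl | hx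
      · split at h0
        · rename_i u hu
          have h1 := G_eval hb d hu
          simp only [Bool.and_eq_true] at h0
          obtain ⟨⟨h2, h3⟩, h4⟩ := h0
          obtain ⟨a, b, c⟩ := u
          obtain ⟨a', b', c'⟩ := x
          simp only at h2 h3 h4
          rw [eq_of_leq h2, eq_of_leq h3, eq_of_leq h4] at h1
          exact h1
        · simp at h0
      · exact ih hrest x hx

/-- The diagram `ofRowLens` of a self-conjugate list of column heights. -/
theorem hts_ofRowLens {lam : List ℕ} (hs : lam.SortedGE) (hp : ∀ x ∈ lam, 0 < x) :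
    hts (YoungDiagram.ofRowLens lam hs) = (dualL lam : Multiset ℕ) := by
  rw [hts_eq_colLensL, colLensL_ofRowLens hs hp]

lemma card_transpose' (a : YoungDiagram) : a.transpose.card = a.card := by
  refine Finset.card_bij (fun c _ => c.swap) ?_ ?_ ?_
  · intro c hc
    exact YoungDiagram.mem_transpose.mp hc
  · intro c _ c' _ h
    exact Prod.swap_injective h
  · intro c hc
    exact ⟨c.swap, YoungDiagram.mem_transpose.mpr (by simpa using hc), by simp⟩

theorem card_ofRowLens {lam : List ℕ} (hs : lam.SortedGE) (hp : ∀ x ∈ lam, 0 < x) :
    (YoungDiagram.ofRowLens lam hs).card = lam.sum := by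
  have h3 : hts (YoungDiagram.ofRowLens lam hs).transpose = (lam : Multiset ℕ) := by
    rw [hts_eq_colLensL, colLensL, YoungDiagram.rowLen_transpose]
    have : (List.range ((YoungDiagram.ofRowLens lam hs).colLen 0)).map
        (YoungDiagram.ofRowLens lam hs).transpose.colLen =
        (YoungDiagram.ofRowLens lam hs).rowLens := by
      rw [YoungDiagram.rowLens]
      refine List.map_congr_left fun i _ => ?_
      rw [YoungDiagram.colLen_transpose]
    rw [this, YoungDiagram.rowLens_ofRowLens_eq_self hp]
  rw [← card_transpose', ← sum_hts, h3]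
  simp

/-- The final form of a certificate for a self-conjugate diagram. -/
theorem uni_ofRowLens {tbl : List Tr} (htbl : ∀ u ∈ tbl, G u) {lam : List ℕ}
    {ps : List (List ℕ)} (hs : sd lam = true) (hd : leq (dualL lam) lam = true)
    (h : chkAll tbl lam (allParts lam.sum) ps = true) :
    ∃ (h1 : lam.SortedGE), Uni (YoungDiagram.ofRowLens lam h1) := by
  obtain ⟨h1, h2⟩ := sd_sorted hs
  refine ⟨h1, uni_of_cert htbl h ?_ (card_ofRowLens h1 h2)⟩
  rw [hts_ofRowLens h1 h2, eq_of_leq hd]

end Crest.Agent.Saxl.Kron
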