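import Crest.Agent.Lib.Saxl.HDet
import Crest.Agent.Lib.Saxl.FamW
import Crest.Agent.Lib.Saxl.KronCert

/-!
# Universality of a block list from certificates (row 195, S0298)

`universal_cellsL_of_certs` reduces `Universal (cellsL l) n` for a good block list to one Boolean
check; lines of the table are numbers, decoded by `lineDer`.
-/

set_option autoImplicit false

namespace Crest.Agent.Saxl.Kron

open Crest.Agent.Saxl Crest.Agent.Saxl.Family

/-- The sign twist on the last two shapes. -/
def tw23 (d : Der) : Der :=
  Der.sw12 (Der.sw13 (Der.sw12 (Der.tw (Der.sw12 (Der.sw13 (Der.sw12 d))))))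

/-- One digit of a line: a seed, maybe twisted, maybe with the two last shapes exchanged. -/
def digD (d : ℕ) : Der :=
  let b := Der.seed (d / 8)
  let t := if d % 8 / 4 = 1 then tw23 b else if d % 4 / 2 = 1 then Der.tw b else b
  if d % 2 = 1 then Der.sw12 t else t

/-- A sum of seeds, written in base `8192`. -/
def chainD : ℕ → ℕ → Der
  | 0, x => digD x
  | f + 1, x => if x < 8192 then digD x else Der.add (digD (x % 8192)) (chainD f (x / 8192))

/-- One line of a table: the lowest bit says that the sign twist is applied. -/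
def lineDer (code : ℕ) : Der :=
  if code % 2 = 1 then Der.tw (chainD 64 (code / 2)) else chainD 64 (code / 2)

theorem hts_toDiagram {l : List BK} (hg : Family.Good l) {H : List ℕ}
    (hH : (List.range (twidth l)).map (colHL l) = H) (hp : ∀ x ∈ H, 0 < x) :
    hts (Family.toDiagram (cellsL l) hg.low) = (H : Multiset ℕ) := by
  set D := Family.toDiagram (cellsL l) hg.low with hD
  have hmem : ∀ i j, (i, j) ∈ D ↔ i < colHL l j := by
    intro i j
    exact mem_cellsL l (i, j)
  have hcol : ∀ j, D.colLen j = colHL l j := by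
    intro j
    apply eq_of_forall_lt_iff
    intro i
    rw [← YoungDiagram.mem_iff_lt_colLen, hmem]
  have hrow : D.rowLen 0 = twidth l := by
    apply eq_of_forall_lt_iff
    intro j
    rw [← YoungDiagram.mem_iff_lt_rowLen, hmem]
    constructor
    · intro h
      by_contra hj
      rw [colHL_eq_zero (not_lt.mp hj)] at h
      omega
    · intro hj
      apply hp
      rw [← hH]
      exact List.mem_map.mpr ⟨j, List.mem_range.mpr hj, rfl⟩
  rw [hts_eq_colLensL, colLensL, hrow, ← hH]
  congr 1
  exact List.map_congr_left fun j _ => hcol j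

/-- **Universality of a block list from certificates.** -/
theorem universal_cellsL_of_certs {l : List BK} (hg : Family.Good l) {n : ℕ} {H : List ℕ}
    (hH : (List.range (twidth l)).map (colHL l) = H) (hp : ∀ x ∈ H, 0 < x) (certs : List Cert)
    (ds : List Der)
    (h : (certs.all Cert.ok && tableOK (certs.map Cert.triple) H (partsF n n n) ds) = true) :
    Universal (cellsL l) n :=
  universal_of_certs (L := Family.toDiagram (cellsL l) hg.low) (hts_toDiagram hg hH hp) certs ds h

/-- The triple of a certificate, each list sorted. -/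
def Cert.tripleS (C : Cert) : Triple := (srt C.triple.1, srt C.triple.2.1, srt C.triple.2.2)

theorem Cert.goodS (C : Cert) (h : C.ok = true) : C.tripleS.Good := by
  have := C.good h
  simp only [Triple.Good, Cert.tripleS, srt_coe] at this ⊢
  exact this

/-- One chunk of certificates. -/
theorem good_of_chunk {cs : List Cert} {ts : List Triple}
    (h : (cs.all Cert.ok && cs.map Cert.tripleS == ts) = true) : ∀ t ∈ ts, t.Good := by
  simp only [Bool.and_eq_true, List.all_eq_true, beq_iff_eq] at h
  rintro t ht
  rw [← h.2] at ht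
  obtain ⟨C, hC, rfl⟩ := List.mem_map.mp ht
  exact C.goodS (h.1 C hC)

/-- Chaining chunks of a list. -/
theorem forall_drop_of_chunk {α : Type} {P : α → Prop} {l : List α} {a : ℕ} (m : ℕ)
    (h1 : ∀ x ∈ (l.drop a).take m, P x) (h2 : ∀ x ∈ l.drop (a + m), P x) :
    ∀ x ∈ l.drop a, P x := by
  intro x hx
  rw [← List.take_append_drop m (l.drop a), List.mem_append, List.drop_drop] at hx
  rcases hx with hx | hx
  · exact h1 x hx
  · exact h2 x hx

/-- The end of a chain of chunks. -/
theorem forall_drop_of_nil {α : Type} {P : α → Prop} {l : List α} {a : ℕ} (h : l.drop a = []) :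
    ∀ x ∈ l.drop a, P x := by
  rw [h]
  simp

/-- **Universality of a block list from chunks.** -/
theorem universal_cellsL_of_all {l : List BK} (hg : Family.Good l) {n : ℕ} {H : List ℕ}
    (hH : (List.range (twidth l)).map (colHL l) = H) (hp : ∀ x ∈ H, 0 < x) {PS : List (List ℕ)}
    (hPS : partsF n n n = PS)
    (h : ∀ c ∈ PS, Real3 (c : Multiset ℕ) (H : Multiset ℕ) (H : Multiset ℕ)) :
    Universal (cellsL l) n := by
  intro S _ _ hS V _ _ _ ρ hρ
  obtain ⟨ν, hνc, hlab⟩ := exists_label hρ
  obtain ⟨T⟩ := exists_tab (S := S) ν hνc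
  have hν : ν.card = n := hνc.trans hS
  have h1 := h _ (hPS ▸ colLensL_mem_partsF ν hν)
  rw [← hts_eq_colLensL, ← hts_toDiagram hg hH hp] at h1
  exact occurs_of_real3 T h1 hρ hlab

/-- A universal self-conjugate shape, in the form `Uni (YoungDiagram.ofRowLens lam h1)`. -/
theorem uni_of_all {lam : List ℕ} {n : ℕ} (hs : sd lam = true) (hd : leq (dualL lam) lam = true)
    (hn : lam.sum = n)
    (h : ∀ c ∈ partsF n n n, Real3 (c : Multiset ℕ) (lam : Multiset ℕ) (lam : Multiset ℕ)) :
    ∃ h1 : lam.SortedGE, Uni (YoungDiagram.ofRowLens lam h1) := by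
  obtain ⟨h1, h2⟩ := sd_sorted hs
  refine ⟨h1, ?_⟩
  intro S _ _ hS V _ _ _ ρ hρ
  obtain ⟨ν, hνc, hlab⟩ := exists_label hρ
  obtain ⟨T⟩ := exists_tab (S := S) ν hνc
  have hcard := card_ofRowLens h1 h2
  have hν : ν.card = n := by omega
  have h3 := h _ (colLensL_mem_partsF ν hν)
  rw [← hts_eq_colLensL] at h3
  have h4 : hts (YoungDiagram.ofRowLens lam h1) = (lam : Multiset ℕ) := by
    rw [hts_ofRowLens h1 h2, eq_of_leq hd]
  rw [← h4] at h3
  exact occurs_of_real3 T h3 hρ hlab

end Crest.Agent.Saxl.Kron
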