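import Mathlib

/-!
# Block lemma for two-column shapes (row 195, helper86)

Functions on pairs of words on a finite slot set `S`.  `L = (2^x, 1)`: letters `0..x-1` occur twice,
letter `x` occurs once.  A function `F` on pairs of words of content `L` which is invariant under
swapping two letters `< x` in each factor and obeys the three-term (Plücker) relations in the first
factor is determined by its values on the pairs with *zigzag table*: the cells
`(x,0),(x-1,0),(x-1,1),(x-2,1),...,(0,x)`.
-/

namespace Crest.Agent.Saxl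

open Finset

variable {S : Type} [Fintype S] [DecidableEq S]

/-- Number of slots carrying letter `a`. -/
def cnt (w : S → ℕ) (a : ℕ) : ℕ := (univ.filter fun s => w s = a).card

/-- Content `L = (2^x,1)`. -/
def IsL (x : ℕ) (w : S → ℕ) : Prop :=
  ∀ a, cnt w a = if a < x then 2 else if a = x then 1 else 0

/-- The `k`-th cell of the zigzag table of `(2^x,1)`. -/
def zig (x k : ℕ) : ℕ × ℕ :=
  if k % 2 = 0 then (x - k / 2, k / 2) else (x - 1 - k / 2, k / 2)

/-- The first `l` cells of the zigzag are realised by slots. -/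
def Zig (x l : ℕ) (w₁ w₂ : S → ℕ) : Prop :=
  ∀ k < l, ∃ s, w₁ s = (zig x k).1 ∧ w₂ s = (zig x k).2

/-- Renaming letters `a`, `b` in a word. -/
def swapL (a b : ℕ) (w : S → ℕ) : S → ℕ := fun s => Equiv.swap a b (w s)

/-- Three-term relation for a function of a word: letter `a < x` on `p,q`, letter `b < x` on `r,s`. -/
def Rel3 (x : ℕ) (f : (S → ℕ) → ℂ) : Prop :=
  ∀ (w : S → ℕ) (a b : ℕ) (p q r s : S), IsL x w → a < x → b < x → a ≠ b → p ≠ q → r ≠ s →
    w p = a → w q = a → w r = b → w s = b →
    f w + f (Function.update (Function.update w q b) r a) +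
      f (Function.update (Function.update w q b) s a) = 0

/-- Singleton relation: letter `a < x` on `p,q`, letter `x` on `r`. -/
def Rel1 (x : ℕ) (f : (S → ℕ) → ℂ) : Prop :=
  ∀ (w : S → ℕ) (a : ℕ) (p q r : S), IsL x w → a < x → p ≠ q →
    w p = a → w q = a → w r = x →
    f w + f (Function.update (Function.update w r a) q x) +
      f (Function.update (Function.update w r a) p x) = 0

theorem zig_even (x i : ℕ) : zig x (2 * i) = (x - i, i) := by
  have h1 : (2 * i) % 2 = 0 := by omega
  have h2 : (2 * i) / 2 = i := by omega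
  simp [zig, h1, h2]

theorem zig_odd (x i : ℕ) : zig x (2 * i + 1) = (x - 1 - i, i) := by
  have h1 : (2 * i + 1) % 2 = 1 := by omega
  have h2 : (2 * i + 1) / 2 = i := by omega
  simp [zig, h1, h2]

theorem mem_of_cnt_two {w : S → ℕ} {a : ℕ} (h : cnt w a = 2) {p q z : S} (hpq : p ≠ q)
    (hp : w p = a) (hq : w q = a) (hz : w z = a) : z = p ∨ z = q := by
  by_contra hcon
  push Not at hcon
  have hsub : ({p, q, z} : Finset S) ⊆ univ.filter fun s => w s = a := by
    intro t ht
    simp only [mem_insert, mem_singleton] at ht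
    simp only [mem_filter, mem_univ, true_and]
    rcases ht with rfl | rfl | rfl <;> assumption
  have hc : ({p, q, z} : Finset S).card = 3 := by
    rw [card_eq_three]
    exact ⟨p, q, z, hpq, fun e => hcon.1 e.symm, fun e => hcon.2 e.symm, rfl⟩
  have := card_le_card hsub
  unfold cnt at h
  omega

theorem eq_of_cnt_one {w : S → ℕ} {a : ℕ} (h : cnt w a = 1) {p z : S}
    (hp : w p = a) (hz : w z = a) : z = p := by
  unfold cnt at h
  obtain ⟨t, ht⟩ := card_eq_one.mp h
  have h1 : p ∈ univ.filter fun s => w s = a := by simp [hp]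
  have h2 : z ∈ univ.filter fun s => w s = a := by simp [hz]
  rw [ht] at h1 h2
  simp only [mem_singleton] at h1 h2
  rw [h1, h2]

/-- Two slots with a letter of multiplicity two. -/
theorem exists_two_of_cnt {w : S → ℕ} {a : ℕ} (h : cnt w a = 2) :
    ∃ p q, p ≠ q ∧ w p = a ∧ w q = a := by
  unfold cnt at h
  obtain ⟨p, q, hpq, he⟩ := card_eq_two.mp h
  have h1 : p ∈ univ.filter fun s => w s = a := by rw [he]; simp
  have h2 : q ∈ univ.filter fun s => w s = a := by rw [he]; simp
  simp only [mem_filter, mem_univ, true_and] at h1 h2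
  exact ⟨p, q, hpq, h1, h2⟩

/-- Another slot with a letter of multiplicity two. -/
theorem exists_other_of_cnt {w : S → ℕ} {a : ℕ} (h : cnt w a = 2) (p : S) :
    ∃ q, q ≠ p ∧ w q = a := by
  obtain ⟨u, v, huv, hu, hv⟩ := exists_two_of_cnt h
  by_cases hp : u = p
  · exact ⟨v, fun e => huv (hp.trans e.symm), hv⟩
  · exact ⟨u, hp, hu⟩

theorem le_of_isL {x : ℕ} {w : S → ℕ} (h : IsL x w) (z : S) : w z ≤ x := by
  by_contra hgt
  push Not at hgt
  have hc := h (w z)
  rw [if_neg (by omega), if_neg (by omega)] at hc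
  have : z ∈ univ.filter fun s => w s = w z := by simp
  unfold cnt at hc
  rw [card_eq_zero.mp hc] at this
  simp at this

section Main

variable {x : ℕ} {F : (S → ℕ) → (S → ℕ) → ℂ}

/-- Even step, non-terminal: the partner slot has a free second letter `< x`. -/
theorem even_step_free
    (hswap₂ : ∀ a b, a < x → b < x → ∀ w₁ w₂, F w₁ (swapL a b w₂) = F w₁ w₂)
    {i : ℕ} (H : ∀ w₁ w₂, Zig (S := S) x (2 * i + 1) w₁ w₂ → F w₁ w₂ = 0)
    {w₁ w₂ : S → ℕ} (hZ : Zig x (2 * i) w₁ w₂) {y : S} (hy : w₁ y = x - i)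
    (hk : i ≤ w₂ y) (hk' : w₂ y < x) : F w₁ w₂ = 0 := by
  have hix : i < x := lt_of_le_of_lt hk hk'
  rw [← hswap₂ i (w₂ y) hix hk' w₁ w₂]
  apply H
  intro k hk2
  rcases Nat.lt_succ_iff_lt_or_eq.mp hk2 with hlt | rfl
  · obtain ⟨s, hs1, hs2⟩ := hZ k hlt
    refine ⟨s, hs1, ?_⟩
    have hz : (zig x k).2 = k / 2 := by
      unfold zig; split <;> rfl
    have hlt' : k / 2 < i := by omega
    rw [hz] at hs2
    have hne1 : w₂ s ≠ i := by omega
    have hne2 : w₂ s ≠ w₂ y := by omega
    unfold swapL
    rw [Equiv.swap_apply_of_ne_of_ne hne1 hne2, hs2, hz]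
  · refine ⟨y, ?_, ?_⟩
    · rw [hy, zig_even]
    · rw [zig_even]
      simp only [swapL, Equiv.swap_apply_right]

/-- Facts about slots below the frontier. -/
theorem slot_below {w₁ w₂ : S → ℕ} (h₁ : IsL x w₁) (h₂ : IsL x w₂) {i : ℕ}
    (hZ : Zig x (2 * i) w₁ w₂) (hix : i ≤ x) {z : S} (hz : w₂ z < i) :
    w₁ z = x - w₂ z ∨ w₁ z = x - 1 - w₂ z := by
  set k := w₂ z with hk
  have hkx : k < x := by omega
  obtain ⟨s, hs1, hs2⟩ := hZ (2 * k) (by omega)
  obtain ⟨t, ht1, ht2⟩ := hZ (2 * k + 1) (by omega)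
  rw [zig_even] at hs1 hs2
  rw [zig_odd] at ht1 ht2
  simp only at hs1 hs2 ht1 ht2
  have hst : s ≠ t := by
    intro e
    subst e
    omega
  have hc : cnt w₂ k = 2 := by
    have := h₂ k
    rwa [if_pos hkx] at this
  rcases mem_of_cnt_two hc hst hs2 ht2 hk.symm with e | e
  · left; rw [e, hs1]
  · right; rw [e, ht1]

theorem step_even (hswap₂ : ∀ a b, a < x → b < x → ∀ w₁ w₂, F w₁ (swapL a b w₂) = F w₁ w₂)
    (hsupp : ∀ w₁ w₂, F w₁ w₂ ≠ 0 → IsL x w₁ ∧ IsL x w₂)
    (hrel3 : ∀ w₂, Rel3 x (fun w₁ => F w₁ w₂))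
    (hrel1 : ∀ w₂, Rel1 x (fun w₁ => F w₁ w₂))
    {i : ℕ} (hix : i ≤ x) (H : ∀ w₁ w₂, Zig (S := S) x (2 * i + 1) w₁ w₂ → F w₁ w₂ = 0)
    {w₁ w₂ : S → ℕ} (hZ : Zig x (2 * i) w₁ w₂) : F w₁ w₂ = 0 := by
  by_contra hF
  obtain ⟨h₁, h₂⟩ := hsupp _ _ hF
  -- a slot `y` with first letter `x - i` and second letter `≥ i`
  have hy : ∃ y, w₁ y = x - i ∧ i ≤ w₂ y := by
    rcases Nat.eq_zero_or_pos i with rfl | hi
    · have hc : cnt w₁ x = 1 := by
        have := h₁ x
        simpa using this
      unfold cnt at hc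
      obtain ⟨t, ht⟩ := card_eq_one.mp hc
      have : t ∈ univ.filter fun s => w₁ s = x := by rw [ht]; simp
      simp only [mem_filter, mem_univ, true_and] at this
      exact ⟨t, by simpa using this, Nat.zero_le _⟩
    · obtain ⟨s, hs1, hs2⟩ := hZ (2 * i - 1) (by omega)
      have e : 2 * i - 1 = 2 * (i - 1) + 1 := by omega
      rw [e, zig_odd] at hs1 hs2
      simp only at hs1 hs2
      have hc : cnt w₁ (x - i) = 2 := by
        have := h₁ (x - i)
        rwa [if_pos (by omega)] at this
      obtain ⟨y, hys, hy1⟩ := exists_other_of_cnt hc s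
      refine ⟨y, hy1, ?_⟩
      by_contra hlt
      push Not at hlt
      have hlow := slot_below h₁ h₂ hZ hix hlt
      rw [hy1] at hlow
      have hk : w₂ y = i - 1 := by omega
      -- then `y = s` since both realise the cell
      have hk2 : w₂ y = w₂ s := by rw [hk, hs2]
      -- the letter `i-1` of `w₂` lies on the two cells of level `i-1`
      obtain ⟨u, hu1, hu2⟩ := hZ (2 * (i - 1)) (by omega)
      rw [zig_even] at hu1 hu2
      simp only at hu1 hu2
      have hus : u ≠ s := by
        intro e'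
        subst e'
        omega
      have hc2 : cnt w₂ (i - 1) = 2 := by
        have := h₂ (i - 1)
        rwa [if_pos (by omega)] at this
      rcases mem_of_cnt_two hc2 hus hu2 hs2 hk with e' | e'
      · rw [e', hu1] at hy1
        omega
      · exact hys e'
  obtain ⟨y, hy1, hy2⟩ := hy
  rcases lt_or_ge (w₂ y) x with hlt | hge
  · exact hF (even_step_free hswap₂ H hZ hy1 hy2 hlt)
  -- `w₂ y ≥ x`: so `w₂ y = x`
  have hyx : w₂ y = x := le_antisymm (le_of_isL h₂ y) hge
  rcases Nat.lt_or_ge i x with hix' | hix'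
  swap
  · -- `i = x`: the cell is realised
    have hi : i = x := le_antisymm hix hix'
    apply hF
    apply H
    intro k hk
    rcases Nat.lt_succ_iff_lt_or_eq.mp hk with hlt | rfl
    · exact hZ k hlt
    · refine ⟨y, ?_, ?_⟩
      · rw [hy1, zig_even]
      · rw [hyx, zig_even, hi]
  -- terminal case: merge with a further pair of the first word
  have hone₂ : cnt w₂ x = 1 := by simpa using h₂ x
  -- any slot other than `y` has second letter `< x`
  have hother : ∀ z, z ≠ y → w₂ z < x := by
    intro z hz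
    refine lt_of_le_of_ne (le_of_isL h₂ z) ?_
    intro e
    exact hz (eq_of_cnt_one hone₂ hyx e)
  rcases Nat.eq_zero_or_pos i with rfl | hi
  · -- singleton relation
    have hc : cnt w₁ (x - 1) = 2 := by
      have := h₁ (x - 1)
      rwa [if_pos (by omega)] at this
    obtain ⟨p, q, hpq, hp, hq⟩ := exists_two_of_cnt hc
    have hy1' : w₁ y = x := by simpa using hy1
    have hpy : p ≠ y := by
      intro e
      rw [e, hy1'] at hp
      omega
    have hqy : q ≠ y := by
      intro e
      rw [e, hy1'] at hq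
      omega
    have hrel := hrel1 w₂ w₁ (x - 1) p q y h₁ (by omega) hpq hp hq hy1'
    simp only at hrel
    have e1 : F (Function.update (Function.update w₁ y (x - 1)) q x) w₂ = 0 := by
      apply even_step_free hswap₂ H (y := q)
      · intro k hk
        omega
      · simp
      · omega
      · exact hother q hqy
    have e2 : F (Function.update (Function.update w₁ y (x - 1)) p x) w₂ = 0 := by
      apply even_step_free hswap₂ H (y := p)
      · intro k hk
        omega
      · simp
      · omega
      · exact hother p hpy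
    rw [e1, e2] at hrel
    apply hF
    simpa using hrel
  · -- three-term relation
    obtain ⟨s, hs1, hs2⟩ := hZ (2 * i - 1) (by omega)
    have e : 2 * i - 1 = 2 * (i - 1) + 1 := by omega
    rw [e, zig_odd] at hs1 hs2
    simp only at hs1 hs2
    have hs1' : w₁ s = x - i := by rw [hs1]; omega
    have hsy : s ≠ y := by
      intro e'
      rw [e', hyx] at hs2
      omega
    have hc : cnt w₁ (x - i - 1) = 2 := by
      have := h₁ (x - i - 1)
      rwa [if_pos (by omega)] at this
    obtain ⟨r, r', hrr', hr, hr'⟩ := exists_two_of_cnt hc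
    have hrel := hrel3 w₂ w₁ (x - i) (x - i - 1) s y r r' h₁ (by omega) (by omega) (by omega) hsy
      hrr' hs1' hy1 hr hr'
    simp only at hrel
    -- general claim for a slot `t` with first letter `x - i - 1`
    have key : ∀ t, w₁ t = x - i - 1 →
        F (Function.update (Function.update w₁ y (x - i - 1)) t (x - i)) w₂ = 0 := by
      intro t ht
      have hty : t ≠ y := by
        intro e'
        rw [e', hy1] at ht
        omega
      apply even_step_free hswap₂ H (y := t)
      · intro k hk
        obtain ⟨u, hu1, hu2⟩ := hZ k hk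
        refine ⟨u, ?_, hu2⟩
        have hzz : (zig x k).2 = k / 2 := by
          unfold zig; split <;> rfl
        have huy : u ≠ y := by
          intro e'
          rw [e', hyx, hzz] at hu2
          omega
        have hzz1 : x - i ≤ (zig x k).1 := by
          unfold zig
          split <;> simp only <;> omega
        have hut : u ≠ t := by
          intro e'
          rw [e', ht] at hu1
          omega
        rw [Function.update_of_ne hut, Function.update_of_ne huy, hu1]
      · simp
      · by_contra hlt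
        push Not at hlt
        have hlow := slot_below h₁ h₂ hZ hix hlt
        rw [ht] at hlow
        omega
      · exact hother t hty
    rw [key r hr, key r' hr'] at hrel
    apply hF
    simpa using hrel

theorem step_odd (hswap₁ : ∀ a b, a < x → b < x → ∀ w₁ w₂, F (swapL a b w₁) w₂ = F w₁ w₂)
    (hsupp : ∀ w₁ w₂, F w₁ w₂ ≠ 0 → IsL x w₁ ∧ IsL x w₂)
    {i : ℕ} (hix : i < x) (H : ∀ w₁ w₂, Zig (S := S) x (2 * i + 2) w₁ w₂ → F w₁ w₂ = 0)
    {w₁ w₂ : S → ℕ} (hZ : Zig x (2 * i + 1) w₁ w₂) : F w₁ w₂ = 0 := by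
  by_contra hF
  obtain ⟨h₁, h₂⟩ := hsupp _ _ hF
  obtain ⟨s, hs1, hs2⟩ := hZ (2 * i) (by omega)
  rw [zig_even] at hs1 hs2
  simp only at hs1 hs2
  have hc : cnt w₂ i = 2 := by
    have := h₂ i
    rwa [if_pos hix] at this
  obtain ⟨y, hys, hy⟩ := exists_other_of_cnt hc s
  have hy0 := hy
  -- the first letter of `y` is at most `x - 1 - i`
  have hj : w₁ y ≤ x - 1 - i := by
    by_contra hgt
    push Not at hgt
    have hle := le_of_isL h₁ y
    obtain ⟨l, hl⟩ : ∃ l, w₁ y = x - l ∧ l ≤ i := ⟨x - w₁ y, by omega, by omega⟩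
    rcases Nat.eq_zero_or_pos l with rfl | hlpos
    · obtain ⟨u, hu1, hu2⟩ := hZ 0 (by omega)
      have hz0 : zig x 0 = (x, 0) := by simp [zig]
      rw [hz0] at hu1 hu2
      simp only at hu1 hu2
      have hone : cnt w₁ x = 1 := by simpa using h₁ x
      have hyx : w₁ y = x := by simpa using hl.1
      have e1 := eq_of_cnt_one hone hu1 hyx
      rw [e1, hu2] at hy
      have hi0 : i = 0 := hy.symm
      have hsx : w₁ s = x := by rw [hs1, hi0]; simp
      have e2 := eq_of_cnt_one hone hu1 hsx
      exact hys (e1.trans e2.symm)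
    · obtain ⟨t, ht1, ht2⟩ := hZ (2 * (l - 1) + 1) (by omega)
      rw [zig_odd] at ht1 ht2
      simp only at ht1 ht2
      have ht1' : w₁ t = x - l := by rw [ht1]; omega
      obtain ⟨v, hv1, hv2⟩ := hZ (2 * l) (by omega)
      rw [zig_even] at hv1 hv2
      simp only at hv1 hv2
      have htv : t ≠ v := by
        intro e'
        rw [e', hv2] at ht2
        omega
      have hc1 : cnt w₁ (x - l) = 2 := by
        have := h₁ (x - l)
        rwa [if_pos (by omega)] at this
      rcases mem_of_cnt_two hc1 htv ht1' hv1 hl.1 with e' | e'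
      · rw [e', ht2] at hy
        omega
      · rw [e', hv2] at hy
        -- `l = i`: then `y` and `s` and `t` share the letter
        have hli : l = i := hy
        subst hli
        have hts : t ≠ s := by
          intro e3
          rw [e3, hs2] at ht2
          omega
        rcases mem_of_cnt_two hc1 hts ht1' hs1 hl.1 with e'' | e''
        · rw [e'', ht2] at hy0
          omega
        · exact hys e''
  rcases Nat.lt_or_ge (w₁ y) (x - 1 - i) with hlt | hge
  · apply hF
    rw [← hswap₁ (w₁ y) (x - 1 - i) (by omega) (by omega) w₁ w₂]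
    apply H
    intro k hk
    rcases Nat.lt_succ_iff_lt_or_eq.mp hk with hk' | rfl
    · obtain ⟨u, hu1, hu2⟩ := hZ k hk'
      refine ⟨u, ?_, hu2⟩
      have hzz1 : x - i ≤ (zig x k).1 := by
        unfold zig
        split <;> simp only <;> omega
      have hne1 : w₁ u ≠ w₁ y := by omega
      have hne2 : w₁ u ≠ x - 1 - i := by omega
      unfold swapL
      rw [Equiv.swap_apply_of_ne_of_ne hne1 hne2, hu1]
    · refine ⟨y, ?_, ?_⟩
      · rw [zig_odd]
        simp only [swapL, Equiv.swap_apply_left]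
      · rw [zig_odd, hy]
  · apply hF
    apply H
    intro k hk
    rcases Nat.lt_succ_iff_lt_or_eq.mp hk with hk' | rfl
    · exact hZ k hk'
    · refine ⟨y, ?_, ?_⟩
      · rw [zig_odd]
        simp only
        omega
      · rw [zig_odd, hy]

/-- **Block lemma.**  A nonzero function on pairs of words of content `(2^x,1)` with letter-swap
invariance and the three-term relations in the first factor is nonzero at a pair with zigzag table. -/
theorem block_lemma
    (hswap₁ : ∀ a b, a < x → b < x → ∀ w₁ w₂, F (swapL a b w₁) w₂ = F w₁ w₂)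
    (hswap₂ : ∀ a b, a < x → b < x → ∀ w₁ w₂, F w₁ (swapL a b w₂) = F w₁ w₂)
    (hsupp : ∀ w₁ w₂, F w₁ w₂ ≠ 0 → IsL x w₁ ∧ IsL x w₂)
    (hrel3 : ∀ w₂, Rel3 x (fun w₁ => F w₁ w₂))
    (hrel1 : ∀ w₂, Rel1 x (fun w₁ => F w₁ w₂))
    (hne : ∃ w₁ w₂, F w₁ w₂ ≠ 0) :
    ∃ w₁ w₂, Zig x (2 * x + 1) w₁ w₂ ∧ F w₁ w₂ ≠ 0 := by
  by_contra hcon
  push Not at hcon
  have key : ∀ l, l ≤ 2 * x + 1 → ∀ w₁ w₂, Zig (S := S) x (2 * x + 1 - l) w₁ w₂ → F w₁ w₂ = 0 := by
    intro l
    induction l with
    | zero =>
      intro _ w₁ w₂ hZ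
      exact hcon w₁ w₂ (by simpa using hZ)
    | succ l ih =>
      intro hl w₁ w₂ hZ
      have IH := ih (by omega)
      rcases Nat.even_or_odd' (2 * x + 1 - (l + 1)) with ⟨i, hi | hi⟩
      · rw [hi] at hZ
        have e : 2 * x + 1 - l = 2 * i + 1 := by omega
        rw [e] at IH
        exact step_even hswap₂ hsupp hrel3 hrel1 (by omega) IH hZ
      · rw [hi] at hZ
        have e : 2 * x + 1 - l = 2 * i + 2 := by omega
        rw [e] at IH
        exact step_odd hswap₁ hsupp (by omega) IH hZ
  obtain ⟨w₁, w₂, hF⟩ := hne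
  apply hF
  apply key (2 * x + 1) le_rfl
  intro k hk
  omega

end Main

end Crest.Agent.Saxl
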