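import Crest.Agent.Lib.Saxl.Block

/-!
# Uniqueness of the decomposition of a union of stripes (row 195, helper86)

`Stripe x` is the set of cells of the zigzag table of `(2^x,1)`: the cells `(j,k)` with `j + k = x` or
`j + k + 1 = x`.  Let the slots `S` be split into blocks `B : S → ι`, with the block `t` carrying two
words of content `(2^{x t},1)`.  If the cells of the slots are pairwise different and exhaust the
union of the stripes, and the `x t` are spaced by at least two, then every slot sits on the stripe of
its own block.
-/

namespace Crest.Agent.Saxl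

open Finset

variable {S : Type} [Fintype S] [DecidableEq S] {ι : Type} [DecidableEq ι]

/-- Cell on the stripe of `x`. -/
def OnStripe (x j k : ℕ) : Prop := j + k = x ∨ j + k + 1 = x

instance (x j k : ℕ) : Decidable (OnStripe x j k) := by unfold OnStripe; infer_instance

/-- Multiplicity of a letter in a word restricted to slots in block `t`. -/
def cntOn (B : S → ι) (t : ι) (w : S → ℕ) (a : ℕ) : ℕ :=
  (univ.filter fun s => B s = t ∧ w s = a).card

/-- Multiplicity of the letter `a` in `(2^x,1)`. -/
def multL (x a : ℕ) : ℕ := if a < x then 2 else if a = x then 1 else 0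

/-- The letters of the other coordinate on the stripe, for a fixed letter `a`. -/
def stripeLine (x a : ℕ) : Finset ℕ :=
  (range (x + 1)).filter fun b => OnStripe x a b

theorem card_stripeLine (x a : ℕ) : (stripeLine x a).card = multL x a := by
  unfold multL stripeLine
  split_ifs with h1 h2
  · have : (range (x + 1)).filter (fun b => OnStripe x a b) = {x - a, x - a - 1} := by
      ext b
      rw [mem_filter]
      simp only [mem_range, OnStripe, mem_insert, mem_singleton]
      omega
    rw [this, card_pair (by omega)]
  · subst h2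
    have : (range (a + 1)).filter (fun b => OnStripe a a b) = {0} := by
      ext b
      rw [mem_filter]
      simp only [mem_range, OnStripe, mem_singleton]
      omega
    rw [this, card_singleton]
  · rw [card_eq_zero, filter_eq_empty_iff]
    intro b _
    simp only [OnStripe]
    omega

theorem onStripe_comm {x j k : ℕ} : OnStripe x j k ↔ OnStripe x k j := by
  unfold OnStripe; omega

/-- The counting step: a slot off the stripe of its block forces a stripe cell on the same line
(first letter fixed to `a`) that no slot of the block realises. -/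
theorem exists_missing_line {B : S → ι} {t : ι} {x : ℕ} {u v : S → ℕ} {a : ℕ}
    (hc : cntOn B t u a = multL x a)
    {s : S} (hs : B s = t) (hua : u s = a) (hoff : ¬ OnStripe x a (v s)) :
    ∃ b, OnStripe x a b ∧ ∀ s', B s' = t → ¬ (u s' = a ∧ v s' = b) := by
  by_contra hcon
  push Not at hcon
  -- every stripe cell on the line is realised within the block
  have hsub : stripeLine x a ⊆ ((univ.filter fun s' => B s' = t ∧ u s' = a).erase s).image v := by
    intro b hb
    simp only [stripeLine, mem_filter, mem_range] at hb
    obtain ⟨s', hs', h1, h2⟩ := hcon b hb.2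
    refine mem_image.mpr ⟨s', ?_, h2⟩
    simp only [mem_erase, mem_filter, mem_univ, true_and]
    refine ⟨?_, hs', h1⟩
    rintro rfl
    exact hoff (h2 ▸ hb.2)
  have hle := card_le_card hsub
  rw [card_stripeLine] at hle
  have hle2 := card_image_le (s := (univ.filter fun s' => B s' = t ∧ u s' = a).erase s) (f := v)
  rw [card_erase_of_mem (by simp [hs, hua])] at hle2
  unfold cntOn at hc
  have hpos : 0 < (univ.filter fun s' => B s' = t ∧ u s' = a).card :=
    card_pos.mpr ⟨s, by simp [hs, hua]⟩
  omega

/-- **Uniqueness of stripes.** -/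
theorem stripes_unique (x : ι → ℕ)
    (hgap : ∀ a b, a ≠ b → x a + 2 ≤ x b ∨ x b + 2 ≤ x a)
    (B : S → ι) (w₁ w₂ : S → ℕ)
    (h₁ : ∀ t a, cntOn B t w₁ a = multL (x t) a)
    (h₂ : ∀ t a, cntOn B t w₂ a = multL (x t) a)
    (hcell : ∀ s, ∃ t, OnStripe (x t) (w₁ s) (w₂ s))
    (hall : ∀ t j k, OnStripe (x t) j k → ∃ s, w₁ s = j ∧ w₂ s = k) :
    ∀ s, OnStripe (x (B s)) (w₁ s) (w₂ s) := by
  by_contra hcon
  push Not at hcon
  -- the misassigned slots; take one with maximal potential `w₁ - w₂` (in integers)
  let φ : S → ℤ := fun s => (w₁ s : ℤ) - (w₂ s : ℤ)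
  let M : Finset S := univ.filter fun s => ¬ OnStripe (x (B s)) (w₁ s) (w₂ s)
  have hM : M.Nonempty := by
    obtain ⟨s, hs⟩ := hcon
    exact ⟨s, by simp [M, hs]⟩
  obtain ⟨s, hsM, hmax⟩ := exists_max_image M φ hM
  have hoff : ¬ OnStripe (x (B s)) (w₁ s) (w₂ s) := by simpa [M] using hsM
  obtain ⟨t', ht'⟩ := hcell s
  have hne : t' ≠ B s := by
    rintro rfl
    exact hoff ht'
  -- stripes of different blocks are disjoint
  have hdisj : ∀ a b j k, a ≠ b → OnStripe (x a) j k → ¬ OnStripe (x b) j k := by
    intro a b j k hab h1 h2
    have := hgap a b hab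
    unfold OnStripe at h1 h2
    omega
  rcases hgap t' (B s) hne with hlow | hhigh
  · -- the cell of `s` is lower than the stripe of its block: use the column
    have hoff' : ¬ OnStripe (x (B s)) (w₂ s) (w₁ s) := fun h => hoff (onStripe_comm.mp h)
    obtain ⟨j, hj, hmiss⟩ := exists_missing_line (h₂ (B s) (w₂ s)) (s := s) rfl rfl hoff'
    obtain ⟨s', h1, h2⟩ := hall (B s) j (w₂ s) (onStripe_comm.mp hj)
    have hBne : B s' ≠ B s := by
      intro e
      exact hmiss s' e ⟨h2, h1⟩
    have hs'M : s' ∈ M := by
      simp only [M, mem_filter, mem_univ, true_and]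
      rw [h1, h2]
      exact hdisj _ _ _ _ (Ne.symm hBne) (onStripe_comm.mp hj)
    have := hmax s' hs'M
    simp only [φ, h1, h2] at this
    unfold OnStripe at ht' hj
    omega
  · -- the cell of `s` is higher than the stripe of its block: use the row
    obtain ⟨k, hk, hmiss⟩ := exists_missing_line (h₁ (B s) (w₁ s)) (s := s) rfl rfl hoff
    obtain ⟨s', h1, h2⟩ := hall (B s) (w₁ s) k hk
    have hBne : B s' ≠ B s := by
      intro e
      exact hmiss s' e ⟨h1, h2⟩
    have hs'M : s' ∈ M := by
      simp only [M, mem_filter, mem_univ, true_and]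
      rw [h1, h2]
      exact hdisj _ _ _ _ (Ne.symm hBne) hk
    have := hmax s' hs'M
    simp only [φ, h1, h2] at this
    unfold OnStripe at ht' hk
    omega

end Crest.Agent.Saxl
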