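import Crest.Agent.Lib.Saxl.TwoCol
import Crest.Agent.Lib.Saxl.Stripes

/-!
# Block subgroups of the symmetric group, factorization of sums (row 195, helper86)
-/

set_option autoImplicit false

open scoped BigOperators
open Equiv

namespace Crest.Agent.Saxl

section HT

variable {S : Type} [Fintype S] [DecidableEq S] {ι : Type} [DecidableEq ι] {γ : Type}

open Classical in
/-- Permutations preserving the colouring `c` and fixing all slots in blocks outside `T`. -/
noncomputable def HT (B : S → ι) (T : Finset ι) (c : S → γ) : Finset (Perm S) :=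
  Finset.univ.filter fun g => (∀ s, c (g s) = c s) ∧ ∀ s, B s ∉ T → g s = s

theorem mem_HT {B : S → ι} {T : Finset ι} {c : S → γ} {g : Perm S} :
    g ∈ HT B T c ↔ (∀ s, c (g s) = c s) ∧ ∀ s, B s ∉ T → g s = s := by
  classical
  simp [HT]

theorem HT_block {B : S → ι} {T : Finset ι} {c : S → γ}
    (hcB : ∀ s s', c s = c s' → B s = B s') {g : Perm S} (hg : g ∈ HT B T c) (s : S) :
    B (g s) = B s :=
  hcB _ _ ((mem_HT.mp hg).1 s)

theorem HT_empty (B : S → ι) (c : S → γ) : HT B ∅ c = {(1 : Perm S)} := by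
  ext g
  simp only [mem_HT, Finset.mem_singleton, Finset.notMem_empty, not_false_eq_true, forall_true_left]
  constructor
  · rintro ⟨_, h⟩
    ext s
    simpa using h s
  · rintro rfl
    simp

theorem HT_univ [Fintype ι] (B : S → ι) (c : S → ℕ) : HT B Finset.univ c = stab c := by
  ext g
  simp [mem_HT, mem_stab]

variable {B : S → ι}

theorem ofSub_mem {i : ι} (f : Perm {s : S // B s = i}) {s : S} (hs : B s = i) :
    Perm.ofSubtype f s = f ⟨s, hs⟩ :=
  Perm.ofSubtype_apply_of_mem (p := fun s => B s = i) f hs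

theorem ofSub_not {i : ι} (f : Perm {s : S // B s = i}) {s : S} (hs : B s ≠ i) :
    Perm.ofSubtype f s = s :=
  Perm.ofSubtype_apply_of_not_mem (p := fun s => B s = i) f hs

/-- The part of a block-preserving permutation on block `i`. -/
def blockPart (g : Perm S) (hg : ∀ s, B (g s) = B s) (i : ι) : Perm S :=
  Perm.ofSubtype (g.subtypePerm (p := fun s => B s = i) (fun s => by rw [hg]))

theorem blockPart_of_mem {g : Perm S} (hg : ∀ s, B (g s) = B s) {i : ι} {s : S} (hs : B s = i) :
    blockPart g hg i s = g s := by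
  unfold blockPart
  rw [ofSub_mem _ hs]
  rfl

theorem blockPart_of_not_mem {g : Perm S} (hg : ∀ s, B (g s) = B s) {i : ι} {s : S}
    (hs : B s ≠ i) : blockPart g hg i s = s := by
  unfold blockPart
  exact ofSub_not _ hs

/-- The sum over the insertion of a block factorizes. -/
theorem sum_HT_insert {T : Finset ι} {c : S → γ} (hcB : ∀ s s', c s = c s' → B s = B s')
    {i : ι} (hi : i ∉ T) (f : Perm S → ℂ) :
    ∑ g ∈ HT B (insert i T) c, f g = ∑ g₁ ∈ HT B T c, ∑ g₂ ∈ HT B {i} c, f (g₁ * g₂) := by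
  rw [← Finset.sum_product']
  symm
  refine Finset.sum_bij (fun p _ => p.1 * p.2) ?_ ?_ ?_ ?_
  · rintro ⟨g₁, g₂⟩ hp
    obtain ⟨h1, h2⟩ := Finset.mem_product.mp hp
    obtain ⟨a1, a2⟩ := mem_HT.mp h1
    obtain ⟨b1, b2⟩ := mem_HT.mp h2
    refine mem_HT.mpr ⟨fun s => ?_, fun s hs => ?_⟩
    · simp only [Perm.mul_apply]
      rw [a1, b1]
    · simp only [Finset.mem_insert, not_or] at hs
      simp only [Perm.mul_apply]
      rw [b2 s (by simpa using hs.1), a2 s hs.2]
  · rintro ⟨g₁, g₂⟩ hp ⟨g₁', g₂'⟩ hp' he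
    obtain ⟨h1, h2⟩ := Finset.mem_product.mp hp
    obtain ⟨h1', h2'⟩ := Finset.mem_product.mp hp'
    simp only at h1 h2 h1' h2' he
    have key : g₂ = g₂' := by
      ext s
      by_cases hs : B s = i
      · have e1 : g₁ (g₂ s) = g₂ s :=
          (mem_HT.mp h1).2 _ (by rw [HT_block hcB h2, hs]; exact hi)
        have e2 : g₁' (g₂' s) = g₂' s :=
          (mem_HT.mp h1').2 _ (by rw [HT_block hcB h2', hs]; exact hi)
        have := congrArg (fun g : Perm S => g s) he
        simp only [Perm.mul_apply, e1, e2] at this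
        rw [this]
      · rw [(mem_HT.mp h2).2 s (by simpa using hs), (mem_HT.mp h2').2 s (by simpa using hs)]
    subst key
    have : g₁ = g₁' := mul_right_cancel he
    rw [this]
  · intro g hg
    obtain ⟨a1, a2⟩ := mem_HT.mp hg
    have hb : ∀ s, B (g s) = B s := HT_block hcB hg
    set g₂ := blockPart g hb i with hg₂
    have h2 : g₂ ∈ HT B {i} c := by
      refine mem_HT.mpr ⟨fun s => ?_, fun s hs => ?_⟩
      · by_cases hs : B s = i
        · rw [hg₂, blockPart_of_mem hb hs, a1]
        · rw [hg₂, blockPart_of_not_mem hb hs]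
      · exact blockPart_of_not_mem hb (by simpa using hs)
    have hinv : ∀ s, B s = i → g₂⁻¹ s = g⁻¹ s := by
      intro s hs
      rw [Perm.inv_eq_iff_eq, hg₂, blockPart_of_mem hb (by
        have := hb (g⁻¹ s)
        rw [show g (g⁻¹ s) = s by simp] at this
        rw [← this, hs])]
      simp
    have hinv' : ∀ s, B s ≠ i → g₂⁻¹ s = s := by
      intro s hs
      rw [Perm.inv_eq_iff_eq, hg₂, blockPart_of_not_mem hb hs]
    have h1 : g * g₂⁻¹ ∈ HT B T c := by
      refine mem_HT.mpr ⟨fun s => ?_, fun s hs => ?_⟩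
      · have e : c (g₂⁻¹ s) = c s := by
          have := (mem_HT.mp h2).1 (g₂⁻¹ s)
          simpa using this.symm
        simp only [Perm.mul_apply]
        rw [a1, e]
      · simp only [Perm.mul_apply]
        by_cases hsi : B s = i
        · rw [hinv s hsi]
          simp
        · rw [hinv' s hsi]
          exact a2 s (by simp [hsi, hs])
    exact ⟨(g * g₂⁻¹, g₂), Finset.mem_product.mpr ⟨h1, h2⟩, by simp⟩
  · intro _ _
    rfl

end HT

section Restrict

variable {S : Type} [Fintype S] [DecidableEq S] {ι : Type} [DecidableEq ι]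

/-- The slots of a block. -/
abbrev Blk (B : S → ι) (i : ι) := {s : S // B s = i}

variable {B : S → ι} {γ : Type}

/-- Sums over the block group of a single block. -/
theorem sum_HT_single {c : S → γ} (hcB : ∀ s s', c s = c s' → B s = B s') {i : ι}
    [DecidablePred fun g' : Perm (Blk B i) => ∀ a, c (g' a) = c a]
    (f : Perm S → ℂ) :
    ∑ k ∈ HT B {i} c, f k =
      ∑ k' ∈ Finset.univ.filter (fun g' : Perm (Blk B i) => ∀ a, c (g' a) = c a),
        f (Perm.ofSubtype k') := by
  symm
  refine Finset.sum_bij (fun k' _ => Perm.ofSubtype k') ?_ ?_ ?_ ?_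
  · intro k' hk'
    simp only [Finset.mem_filter, Finset.mem_univ, true_and] at hk'
    refine mem_HT.mpr ⟨fun s => ?_, fun s hs => ?_⟩
    · by_cases hs : B s = i
      · rw [ofSub_mem _ hs]
        exact hk' ⟨s, hs⟩
      · rw [ofSub_not _ hs]
    · exact ofSub_not _ (by simpa using hs)
  · intro a _ b _ h
    exact Perm.ofSubtype_injective h
  · intro k hk
    have hb : ∀ s, B (k s) = B s := HT_block hcB hk
    have hk1 : ∀ s, B (k s) = i ↔ B s = i := fun s => by rw [hb]
    refine ⟨k.subtypePerm hk1, ?_, ?_⟩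
    · simp only [Finset.mem_filter, Finset.mem_univ, true_and]
      intro a
      exact (mem_HT.mp hk).1 a.1
    · refine Perm.ofSubtype_subtypePerm hk1 fun s hs => ?_
      by_contra hne
      exact hs ((mem_HT.mp hk).2 s (by simpa using hne))
  · intro _ _
    rfl

theorem sum_HT_single_B {i : ι} (f : Perm S → ℂ) :
    ∑ k ∈ HT B {i} B, f k = ∑ k' : Perm (Blk B i), f (Perm.ofSubtype k') := by
  classical
  rw [sum_HT_single (c := B) (fun _ _ h => h)]
  refine Finset.sum_congr ?_ fun _ _ => rfl
  ext g'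
  simp only [Finset.mem_filter, Finset.mem_univ, true_and, iff_true]
  intro a
  rw [(g' a).2, a.2]

theorem sum_HT_single_stab {c : S → ℕ} (hcB : ∀ s s', c s = c s' → B s = B s') {i : ι}
    (f : Perm S → ℂ) :
    ∑ k ∈ HT B {i} c, f k =
      ∑ k' ∈ stab (fun a : Blk B i => c a.1), f (Perm.ofSubtype k') := by
  classical
  rw [sum_HT_single hcB]
  refine Finset.sum_congr ?_ fun _ _ => rfl
  ext g'
  simp only [Finset.mem_filter, Finset.mem_univ, true_and, mem_stab]

theorem comp_ofSubtype {i : ι} (w : S → ℕ) (g' : Perm (Blk B i)) :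
    (fun a : Blk B i => (w ∘ (Perm.ofSubtype g' : Perm S)) a.1) = (fun a : Blk B i => w a.1) ∘ g' := by
  funext a
  simp [Perm.ofSubtype_apply_coe]

/-- Extend a word on a block by zero. -/
def extW {i : ι} (u : Blk B i → ℕ) : S → ℕ := fun s => if h : B s = i then u ⟨s, h⟩ else 0

omit [Fintype S] [DecidableEq S] in
theorem extW_res {i : ι} (u : Blk B i → ℕ) : (fun a : Blk B i => extW u a.1) = u := by
  funext a
  simp [extW, a.2]

/-- Pull back a function from the block. -/
def resF (i : ι) (F : Fn2 (Blk B i)) : Fn2 S :=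
  fun w₁ w₂ => F (fun a => w₁ a.1) (fun a => w₂ a.1)

/-- Pull back as a linear map. -/
def resL (i : ι) : Fn2 (Blk B i) →ₗ[ℂ] Fn2 S where
  toFun := resF i
  map_add' _ _ := rfl
  map_smul' _ _ := rfl

end Restrict

end Crest.Agent.Saxl
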