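import Crest.Agent.Lib.Saxl.EFixRows

/-!
# The fixed vector for doubles, numeric form (row 195, S0298)

The doubles `x ∈ E1` are placed in the rows `r x`, `r x + 1` of `ν`, with even numbers of cells
`a x`, `b x`.  The other labels have sizes dominated by the remainders of the rows.
-/

set_option autoImplicit false

open Finset Equiv

namespace Crest.Agent.Saxl.EFix

variable {S : Type*} [Fintype S] [DecidableEq S]
variable {V : Type*} [AddCommGroup V] [Module ℂ V]

omit [DecidableEq S] in
/-- The number of cells in a segment of a row. -/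
lemma card_row_segment {ν : YoungDiagram} (T : Tab ν S) (y p q : ℕ) (hq : q ≤ ν.rowLen y) :
    (univ.filter fun s => rowC T s = y ∧ p ≤ colC T s ∧ colC T s < q).card = q - p := by
  classical
  rw [← Nat.card_Ico p q]
  symm
  have hmem : ∀ k ∈ Finset.Ico p q, ((y, k) : ℕ × ℕ) ∈ ν := fun k hk =>
    YoungDiagram.mem_iff_lt_rowLen.mpr ((mem_Ico.mp hk).2.trans_le hq)
  apply Finset.card_bij (fun k hk => T ⟨(y, k), hmem k hk⟩)
  · intro k hk
    have := mem_Ico.mp hk
    simp [rowC, colC, this.1, this.2]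
  · intro k hk k' hk' h
    have := T.injective h
    simpa using this
  · intro s hs
    simp only [mem_filter, mem_univ, true_and] at hs
    obtain ⟨h1, h2, h3⟩ := hs
    refine ⟨colC T s, mem_Ico.mpr ⟨h2, h3⟩, ?_⟩
    have : (⟨(y, colC T s), hmem _ (mem_Ico.mpr ⟨h2, h3⟩)⟩ : {x // x ∈ ν.cells}) = T.symm s := by
      apply Subtype.ext
      exact Prod.ext h1.symm rfl
    rw [this]
    simp

omit [DecidableEq S] in
lemma rowC_lt_colLen {ν : YoungDiagram} (T : Tab ν S) (s : S) : rowC T s < ν.colLen 0 := by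
  have hm : ((rowC T s, colC T s) : ℕ × ℕ) ∈ ν := (T.symm s).2
  have hm' : ((rowC T s, 0) : ℕ × ℕ) ∈ ν := ν.up_left_mem le_rfl (Nat.zero_le _) hm
  exact YoungDiagram.mem_iff_lt_colLen.mp hm'

omit [DecidableEq S] in
lemma colC_lt_rowLen {ν : YoungDiagram} (T : Tab ν S) (s : S) : colC T s < ν.rowLen (rowC T s) :=
  YoungDiagram.mem_iff_lt_rowLen.mp (T.symm s).2

lemma pc_eq_sum' {S' : Type*} [Fintype S'] [DecidableEq S'] (c : S' → ℕ) (k : ℕ) :
    pc c k = ∑ a ∈ Finset.range k, lc c a := by
  induction k with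
  | zero => simp [pc]
  | succ k ih => rw [pc_succ, ih, Finset.sum_range_succ]

/-- **The fixed vector for doubles, numeric form.** -/
theorem exists_adm_fix_numeric {ν : YoungDiagram} (hcard : ν.card = Fintype.card S)
    (c : S → ℕ) (E : Finset ℕ) (hE : ∀ x ∈ E, x + 1 ∉ E)
    (E1 : Finset ℕ) (hE1 : E1 ⊆ E)
    (r a b : ℕ → ℕ) (hr : Set.InjOn r E1)
    (ha : ∀ x ∈ E1, Even (a x)) (hb : ∀ x ∈ E1, Even (b x))
    (hc1 : ∀ x ∈ E1, 2 * lc c x = a x + b x ∧ 2 * lc c (x + 1) = a x + b x)
    (hcap : ∀ y, (∑ x ∈ E1, if r x = y then a x else 0) +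
      (∑ x ∈ E1, if r x + 1 = y then b x else 0) ≤ ν.rowLen y)
    (tl : ℕ → ℕ) (htl : ∀ x ∈ E, x ∉ E1 → tl x = tl (x + 1))
    (β : ℕ → ℕ) (hβ : Antitone β)
    (hcβ : ∀ y, (univ.filter fun s => c s ∉ E1 ∧ (∀ x ∈ E1, c s ≠ x + 1) ∧ tl (c s) = y).card = β y)
    (sl : ℕ → ℕ) (hsl : Set.InjOn sl (Set.Iio (ν.colLen 0)))
    (hdom : ∀ k, ∑ y ∈ Finset.range k, β y ≤ ∑ y ∈ Finset.range (ν.colLen 0),
      if sl y < k then ν.rowLen y - ((∑ x ∈ E1, if r x = y then a x else 0) +
        (∑ x ∈ E1, if r x + 1 = y then b x else 0)) else 0)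
    [FiniteDimensional ℂ V] {ρ : Representation ℂ (Perm S) V} (hρ : ρ.IsIrreducible)
    (hlab : Label ρ ν) : ∃ v, v ≠ 0 ∧ ∀ κ, Adm c E κ → ρ κ v = v := by
  classical
  obtain ⟨T⟩ := exists_tab (S := S) ν hcard
  set R := rowC T with hR
  set Q := colC T with hQ
  set u1 : ℕ → ℕ := fun y => ∑ x ∈ E1, if r x = y then a x else 0 with hu1
  set u2 : ℕ → ℕ := fun y => ∑ x ∈ E1, if r x + 1 = y then b x else 0 with hu2
  have hcap' : ∀ y, u1 y + u2 y ≤ ν.rowLen y := hcap
  have hu1a : ∀ x ∈ E1, u1 (r x) = a x := by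
    intro x hx
    simp only [hu1]
    rw [Finset.sum_eq_single x]
    · simp
    · intro x' hx' hne
      rw [if_neg]
      intro h
      exact hne (hr hx' hx h)
    · intro h; exact absurd hx h
  have hu2b : ∀ x ∈ E1, u2 (r x + 1) = b x := by
    intro x hx
    simp only [hu2]
    rw [Finset.sum_eq_single x]
    · simp
    · intro x' hx' hne
      rw [if_neg]
      intro h
      exact hne (hr hx' hx (by omega))
    · intro h; exact absurd hx h
  have hu1ex : ∀ y, u1 y ≠ 0 → ∃ x ∈ E1, r x = y := by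
    intro y hy
    by_contra hcon
    push Not at hcon
    apply hy
    simp only [hu1]
    exact Finset.sum_eq_zero fun x hx => if_neg (hcon x hx)
  have hu2ex : ∀ y, u2 y ≠ 0 → ∃ x ∈ E1, r x + 1 = y := by
    intro y hy
    by_contra hcon
    push Not at hcon
    apply hy
    simp only [hu2]
    exact Finset.sum_eq_zero fun x hx => if_neg (hcon x hx)
  -- the cells of the doubles
  let Cell : ℕ → ℕ → ℕ → Prop := fun x y k =>
    (r x = y ∧ k < a x) ∨ (r x + 1 = y ∧ u1 y ≤ k ∧ k < u1 y + b x)
  have huniq : ∀ x ∈ E1, ∀ x' ∈ E1, ∀ y k, Cell x y k → Cell x' y k → x = x' := by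
    intro x hx x' hx' y k h1 h2
    rcases h1 with ⟨h3, h4⟩ | ⟨h3, h4, h5⟩ <;> rcases h2 with ⟨h6, h7⟩ | ⟨h6, h7, h8⟩
    · exact hr hx hx' (h3.trans h6.symm)
    · exfalso
      have := hu1a x hx
      rw [h3] at this
      omega
    · exfalso
      have := hu1a x' hx'
      rw [h6] at this
      omega
    · exact hr hx hx' (by omega)
  have hcellu : ∀ y k, (∃ x ∈ E1, Cell x y k) ↔ k < u1 y + u2 y := by
    intro y k
    constructor
    · rintro ⟨x, hx, ⟨h3, h4⟩ | ⟨h3, h4, h5⟩⟩
      · have := hu1a x hx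
        rw [h3] at this
        omega
      · have := hu2b x hx
        rw [h3] at this
        omega
    · intro h
      by_cases h1 : k < u1 y
      · obtain ⟨x, hx, h3⟩ := hu1ex y (by omega)
        refine ⟨x, hx, Or.inl ⟨h3, ?_⟩⟩
        have := hu1a x hx
        rw [h3] at this
        omega
      · obtain ⟨x, hx, h3⟩ := hu2ex y (by omega)
        refine ⟨x, hx, Or.inr ⟨h3, by omega, ?_⟩⟩
        have := hu2b x hx
        rw [h3] at this
        omega
  let o : ℕ := E1.sup id + 1
  have ho : o ∉ E1 := by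
    intro h
    have := Finset.le_sup (f := id) h
    simp only [id, o] at this
    omega
  let B0 : S → ℕ := fun s =>
    if h : ∃ x ∈ E1, Cell x (R s) (Q s) then Classical.choose h else o
  have hB0 : ∀ s, ∀ x ∈ E1, B0 s = x ↔ Cell x (R s) (Q s) := by
    intro s x hx
    simp only [B0]
    by_cases h : ∃ x ∈ E1, Cell x (R s) (Q s)
    · rw [dif_pos h]
      have h3 := Classical.choose_spec h
      constructor
      · intro h4
        rw [h4] at h3
        exact h3.2
      · intro h4
        exact huniq _ h3.1 _ hx _ _ h3.2 h4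
    · rw [dif_neg h]
      constructor
      · intro h4
        rw [← h4] at hx
        exact absurd hx ho
      · intro h4
        exact absurd ⟨x, hx, h4⟩ h
  have hB0n : ∀ s, B0 s ∈ E1 ↔ Q s < u1 (R s) + u2 (R s) := by
    intro s
    rw [← hcellu]
    constructor
    · intro h
      exact ⟨_, h, (hB0 s _ h).mp rfl⟩
    · rintro ⟨x, hx, h⟩
      rw [(hB0 s x hx).mpr h]
      exact hx
  have h1 : ∀ s, B0 s ∈ E1 → R s = r (B0 s) ∨ R s = r (B0 s) + 1 := by
    intro s hs
    rcases (hB0 s _ hs).mp rfl with ⟨h3, _⟩ | ⟨h3, _⟩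
    · exact Or.inl h3.symm
    · exact Or.inr h3.symm
  have hcount1 : ∀ x ∈ E1, (univ.filter fun s => B0 s = x ∧ R s = r x).card = a x := by
    intro x hx
    have h3 : (univ.filter fun s => B0 s = x ∧ R s = r x) =
        univ.filter fun s => R s = r x ∧ 0 ≤ Q s ∧ Q s < a x := by
      ext s
      simp only [mem_filter, mem_univ, true_and]
      constructor
      · rintro ⟨h4, h5⟩
        refine ⟨h5, Nat.zero_le _, ?_⟩
        rcases (hB0 s x hx).mp h4 with ⟨_, h6⟩ | ⟨h6, _, _⟩
        · exact h6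
        · omega
      · rintro ⟨h4, _, h5⟩
        exact ⟨(hB0 s x hx).mpr (Or.inl ⟨h4.symm, h5⟩), h4⟩
    rw [h3, card_row_segment T (r x) 0 (a x) ?_]
    · simp
    · have := hcap' (r x)
      have := hu1a x hx
      omega
  have hcount2 : ∀ x ∈ E1, (univ.filter fun s => B0 s = x ∧ R s = r x + 1).card = b x := by
    intro x hx
    have h3 : (univ.filter fun s => B0 s = x ∧ R s = r x + 1) =
        univ.filter fun s => R s = r x + 1 ∧ u1 (r x + 1) ≤ Q s ∧ Q s < u1 (r x + 1) + b x := by
      ext s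
      simp only [mem_filter, mem_univ, true_and]
      constructor
      · rintro ⟨h4, h5⟩
        refine ⟨h5, ?_⟩
        rcases (hB0 s x hx).mp h4 with ⟨h6, _⟩ | ⟨_, h6, h7⟩
        · omega
        · rw [h5] at h6 h7
          exact ⟨h6, h7⟩
      · rintro ⟨h4, h5, h6⟩
        refine ⟨(hB0 s x hx).mpr (Or.inr ⟨h4.symm, ?_, ?_⟩), h4⟩
        · rw [h4]; exact h5
        · rw [h4]; exact h6
    rw [h3, card_row_segment T (r x + 1) _ _ ?_]
    · omega
    · have := hcap' (r x + 1)
      have := hu2b x hx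
      omega
  have h2 : ∀ x ∈ E1, Even (univ.filter fun s => B0 s = x ∧ R s = r x).card := by
    intro x hx
    rw [hcount1 x hx]
    exact ha x hx
  have h3 : ∀ x ∈ E1, Even (univ.filter fun s => B0 s = x ∧ R s = r x + 1).card := by
    intro x hx
    rw [hcount2 x hx]
    exact hb x hx
  have hB0card : ∀ x ∈ E1, (univ.filter fun s => B0 s = x).card = a x + b x := by
    intro x hx
    have h4 : (univ.filter fun s => B0 s = x) = (univ.filter fun s => B0 s = x ∧ R s = r x) ∪
        (univ.filter fun s => B0 s = x ∧ R s = r x + 1) := by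
      ext s
      simp only [mem_filter, mem_univ, true_and, mem_union]
      constructor
      · intro h
        rcases h1 s (h ▸ hx) with h5 | h5
        · left; rw [h] at h5; exact ⟨h, h5⟩
        · right; rw [h] at h5; exact ⟨h, h5⟩
      · rintro (h | h) <;> exact h.1
    rw [h4, Finset.card_union_of_disjoint, hcount1 x hx, hcount2 x hx]
    rw [Finset.disjoint_left]
    intro s h5 h6
    have h7 := (mem_filter.mp h5).2.2
    have h8 := (mem_filter.mp h6).2.2
    omega
  -- the target
  let B : S → ℕ := fun s =>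
    if c s ∈ E1 then c s else if ∃ x ∈ E1, c s = x + 1 then c s - 1 else c s
  have hE1' : ∀ x ∈ E1, x + 1 ∉ E1 := fun x hx hn => hE x (hE1 hx) (hE1 hn)
  have hBiff : ∀ s, ∀ x ∈ E1, B s = x ↔ c s = x ∨ c s = x + 1 := by
    intro s x hx
    simp only [B]
    by_cases h4 : c s ∈ E1
    · rw [if_pos h4]
      constructor
      · exact Or.inl
      · rintro (h5 | h5)
        · exact h5
        · rw [h5] at h4
          exact absurd h4 (hE1' x hx)
    · rw [if_neg h4]
      by_cases h5 : ∃ x ∈ E1, c s = x + 1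
      · rw [if_pos h5]
        obtain ⟨x', hx', h6⟩ := h5
        constructor
        · intro h7
          right
          omega
        · rintro (h7 | h7)
          · rw [h7] at h4
            exact absurd hx h4
          · omega
      · rw [if_neg h5]
        constructor
        · exact Or.inl
        · rintro (h7 | h7)
          · exact h7
          · exact absurd ⟨x, hx, h7⟩ h5
  have hBn : ∀ s, B s ∉ E1 ↔ c s ∉ E1 ∧ ∀ x ∈ E1, c s ≠ x + 1 := by
    intro s
    constructor
    · intro h4
      constructor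
      · intro h5
        exact h4 (((hBiff s _ h5).mpr (Or.inl rfl)).symm ▸ h5)
      · intro x hx h5
        exact h4 (((hBiff s x hx).mpr (Or.inr h5)).symm ▸ hx)
    · rintro ⟨h4, h5⟩ h6
      rcases (hBiff s _ h6).mp rfl with h7 | h7
      · exact h4 (h7 ▸ h6)
      · exact h5 _ h6 h7
  let A : ℕ → Finset S := fun x => univ.filter fun s => c s = x + 1
  have hA : ∀ i ∈ E1, ∀ s ∈ A i, B s = i := by
    intro i hi s hs
    exact (hBiff s i hi).mpr (Or.inr (mem_filter.mp hs).2)
  have hBcard : ∀ x ∈ E1, (univ.filter fun s => B s = x).card = a x + b x := by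
    intro x hx
    have h4 : (univ.filter fun s => B s = x) = (univ.filter fun s => c s = x) ∪
        (univ.filter fun s => c s = x + 1) := by
      ext s
      simp only [mem_filter, mem_univ, true_and, mem_union]
      exact hBiff s x hx
    rw [h4, Finset.card_union_of_disjoint]
    · have := hc1 x hx
      simp only [lc] at this
      omega
    · rw [Finset.disjoint_left]
      intro s h5 h6
      have h7 := (mem_filter.mp h5).2
      have h8 := (mem_filter.mp h6).2
      omega
  have hcB : ∀ i ∈ E1, (univ.filter fun s => B s = i).card = (univ.filter fun s => B0 s = i).card :=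
    fun i hi => by rw [hBcard i hi, hB0card i hi]
  have hcA : ∀ i ∈ E1, 2 * (A i).card = (univ.filter fun s => B s = i).card := by
    intro i hi
    rw [hBcard i hi]
    exact (hc1 i hi).2
  have hsl' : ∀ s s', B0 s ∉ E1 → B0 s' ∉ E1 → sl (rowC T s) = sl (rowC T s') →
      rowC T s = rowC T s' := by
    intro s s' _ _ h
    exact hsl (rowC_lt_colLen T s) (rowC_lt_colLen T s') h
  have hlc : ∀ y, lc (fun s : {s // B s ∉ E1} => tl (c s)) y = β y := by
    intro y
    rw [← hcβ y]
    simp only [lc]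
    apply Finset.card_bij (fun (x : {s // B s ∉ E1}) _ => (x : S))
    · intro x hx
      simp only [mem_filter, mem_univ, true_and] at hx ⊢
      exact ⟨((hBn x).mp x.2).1, ((hBn x).mp x.2).2, hx⟩
    · intro x _ x' _ h
      exact Subtype.ext h
    · intro s hs
      simp only [mem_filter, mem_univ, true_and] at hs
      exact ⟨⟨s, (hBn s).mpr ⟨hs.1, hs.2.1⟩⟩, by simpa using hs.2.2, rfl⟩
  have hanti : Antitone (lc fun s : {s // B s ∉ E1} => tl (c s)) := by
    have : (lc fun s : {s // B s ∉ E1} => tl (c s)) = β := funext hlc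
    rw [this]
    exact hβ
  have hP : ∀ k, pc (fun s : {s // B s ∉ E1} => tl (c s)) k ≤
      (univ.filter fun s => B0 s ∉ E1 ∧ sl (rowC T s) < k).card := by
    intro k
    rw [pc_eq_sum', Finset.sum_congr rfl (fun y _ => hlc y)]
    refine (hdom k).trans (le_of_eq ?_)
    rw [Finset.card_eq_sum_card_fiberwise (f := R) (t := Finset.range (ν.colLen 0))
      (fun s _ => by simpa using rowC_lt_colLen T s)]
    refine Finset.sum_congr rfl fun y _ => ?_
    by_cases hy : sl y < k
    · rw [if_pos hy]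
      have h4 : ((univ.filter fun s => B0 s ∉ E1 ∧ sl (rowC T s) < k).filter fun s => R s = y) =
          univ.filter fun s => R s = y ∧ u1 y + u2 y ≤ Q s ∧ Q s < ν.rowLen y := by
        ext s
        simp only [mem_filter, mem_univ, true_and]
        constructor
        · rintro ⟨⟨h5, _⟩, h6⟩
          rw [hB0n, h6] at h5
          refine ⟨h6, by omega, ?_⟩
          have := colC_lt_rowLen T s
          rw [show rowC T s = R s from rfl, h6] at this
          exact this
        · rintro ⟨h5, h6, _⟩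
          refine ⟨⟨?_, ?_⟩, h5⟩
          · rw [hB0n, h5]; omega
          · show sl (R s) < k
            rw [h5]; exact hy
      rw [h4, card_row_segment T y _ _ le_rfl]
    · rw [if_neg hy]
      symm
      rw [Finset.card_eq_zero, Finset.filter_eq_empty_iff]
      intro s hs h5
      have h6 := (mem_filter.mp hs).2.2
      apply hy
      rw [← h5]
      exact h6
  obtain ⟨v, hv, hfix⟩ := exists_fix_of_rows T E1 B0 r hr h1 h2 h3 B A hA hcB hcA
    (fun s => tl (c s)) sl hsl' hanti hP hρ hlab
  refine ⟨v, hv, fun κ hκ => ?_⟩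
  obtain ⟨π, hπ, hκπ⟩ := hκ
  apply hfix κ
  · intro s hs
    have h4 := (hBiff s _ hs).mp rfl
    rw [(hBiff (κ s) _ hs).mpr]
    rw [hκπ]
    rcases hπ.2 _ (hE1 hs) with ⟨h5, h6⟩ | ⟨h5, h6⟩
    · rcases h4 with h4 | h4
      · left; rw [h4, h5]
      · right; rw [h4, h6]
    · rcases h4 with h4 | h4
      · right; rw [h4, h5]
      · left; rw [h4, h6]
  · intro s hs
    obtain ⟨h4, h5⟩ := (hBn s).mp hs
    have key : π (c s) ∉ E1 ∧ (∀ x ∈ E1, π (c s) ≠ x + 1) ∧ tl (π (c s)) = tl (c s) := by
      by_cases h6 : c s ∈ E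
      · rcases hπ.2 _ h6 with ⟨h8, _⟩ | ⟨h8, _⟩
        · rw [h8]
          exact ⟨h4, h5, rfl⟩
        · rw [h8]
          refine ⟨fun h9 => hE _ h6 (hE1 h9), fun x hx h9 => ?_, (htl _ h6 h4).symm⟩
          have : c s = x := by omega
          exact h4 (this ▸ hx)
      · by_cases h7 : ∃ y ∈ E, c s = y + 1
        · obtain ⟨y, hy, h8⟩ := h7
          have hyE1 : y ∉ E1 := fun h9 => h5 y h9 h8
          rcases hπ.2 y hy with ⟨_, h9⟩ | ⟨_, h9⟩
          · rw [h8, h9]
            rw [h8] at h4 h5
            exact ⟨h4, h5, rfl⟩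
          · rw [h8, h9]
            refine ⟨hyE1, fun x hx h10 => ?_, htl y hy hyE1⟩
            exact hE x (hE1 hx) (h10 ▸ hy)
        · push Not at h7
          rw [hπ.1 _ h6 h7]
          exact ⟨h4, h5, rfl⟩
    refine ⟨(hBn (κ s)).mpr ?_, ?_⟩
    · rw [hκπ]
      exact ⟨key.1, key.2.1⟩
    · show tl (c (κ s)) = tl (c s)
      rw [hκπ]
      exact key.2.2
  · intro x hx
    rcases hπ.2 x (hE1 hx) with ⟨h5, h6⟩ | ⟨h5, h6⟩
    · left
      intro s hs
      simp only [A, mem_filter, mem_univ, true_and, hκπ]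
      rcases (hBiff s x hx).mp hs with h7 | h7
      · rw [h7, h5]
      · rw [h7, h6]
    · right
      intro s hs
      simp only [A, mem_filter, mem_univ, true_and, hκπ]
      rcases (hBiff s x hx).mp hs with h7 | h7
      · rw [h7, h5]
        simp
      · rw [h7, h6]
        simp

end Crest.Agent.Saxl.EFix
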