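import Crest.Agent.Lib.Saxl.Mixed
import Crest.Agent.Lib.Saxl.EFixNum

/-!
# The numeric block test (row 195, helper86)

`occurs_of_parts`: given blocks (singles, pairs, doubles) with a decomposition of each block into
parts, where some doubles are placed in two adjacent rows of `ν`, and the remaining parts are
dominated by the remainders of the rows, the irreducible `ρ` with label `ν` occurs.

The colouring of `S` is constructed here; there is no sorting in the hypothesis.
-/

set_option autoImplicit false

open scoped BigOperators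
open Equiv

namespace Crest.Agent.Saxl

section Rank

/-- A ranking of a finite set by decreasing values of `f`. -/
theorem exists_rank {α : Type} [DecidableEq α] (U : Finset α) (f : α → ℕ) :
    ∃ rk : α → ℕ, Set.InjOn rk U ∧ (∀ j ∈ U, rk j < U.card) ∧
      ∀ j ∈ U, ∀ j' ∈ U, rk j < rk j' → f j' ≤ f j := by
  induction U using Finset.induction_on_max_value f with
  | empty => exact ⟨fun _ => 0, by simp, by simp, by simp⟩
  | insert a s ha hmax ih =>
    obtain ⟨rk, h1, h2, h3⟩ := ih
    refine ⟨fun j => if j = a then 0 else rk j + 1, ?_, ?_, ?_⟩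
    · intro x hx y hy hxy
      simp only [Finset.coe_insert, Set.mem_insert_iff, Finset.mem_coe] at hx hy
      by_cases hxa : x = a
      · by_cases hya : y = a
        · rw [hxa, hya]
        · simp [hxa, hya] at hxy
      · by_cases hya : y = a
        · simp [hxa, hya] at hxy
        · simp only [hxa, hya, if_false, Nat.add_right_cancel_iff] at hxy
          exact h1 (hx.resolve_left hxa) (hy.resolve_left hya) hxy
    · intro j hj
      rw [Finset.card_insert_of_notMem ha]
      by_cases hja : j = a
      · simp [hja]
      · have hjs : j ∈ s := (Finset.mem_insert.mp hj).resolve_left hja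
        have := h2 j hjs
        simp only [hja, if_false]
        omega
    · intro j hj j' hj' hlt
      by_cases hja : j = a
      · subst hja
        by_cases hj'a : j' = j
        · rw [hj'a]
        · exact hmax j' ((Finset.mem_insert.mp hj').resolve_left hj'a)
      · by_cases hj'a : j' = a
        · simp [hj'a] at hlt
        · have hjs : j ∈ s := (Finset.mem_insert.mp hj).resolve_left hja
          have hjs' : j' ∈ s := (Finset.mem_insert.mp hj').resolve_left hj'a
          simp only [hja, hj'a, if_false] at hlt
          exact h3 j hjs j' hjs' (by omega)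

end Rank

section Parts

variable {S : Type} [Fintype S] [DecidableEq S] {M : ℕ} {sz : Fin M → ℕ}

/-- The number of slots whose part lies in `A`. -/
theorem card_part (e : S ≃ Σ j : Fin M, Fin (sz j)) (A : Finset (Fin M)) :
    (Finset.univ.filter fun s => (e s).1 ∈ A).card = ∑ j ∈ A, sz j := by
  classical
  have h : (Finset.univ.filter fun s => (e s).1 ∈ A) =
      (A.sigma fun j => (Finset.univ : Finset (Fin (sz j)))).map e.symm.toEmbedding := by
    ext s
    simp only [Finset.mem_filter, Finset.mem_univ, true_and, Finset.mem_map, Finset.mem_sigma,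
      Equiv.coe_toEmbedding]
    constructor
    · intro h
      exact ⟨e s, ⟨h, trivial⟩, by simp⟩
    · rintro ⟨⟨j, i⟩, ⟨h1, -⟩, rfl⟩
      simpa using h1
  rw [h, Finset.card_map, Finset.card_sigma]
  simp

/-- The colour of a slot: `2 * j`, or `2 * j + 1` in the second half of a double part. -/
def colourOf (Dbl : Fin M → Prop) [DecidablePred Dbl] (e : S ≃ Σ j : Fin M, Fin (sz j)) (s : S) : ℕ :=
  2 * (e s).1.1 + if Dbl (e s).1 ∧ sz (e s).1 / 2 ≤ (e s).2.1 then 1 else 0

variable (Dbl : Fin M → Prop) [DecidablePred Dbl] (e : S ≃ Σ j : Fin M, Fin (sz j))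

theorem colourOf_div (s : S) : colourOf Dbl e s / 2 = (e s).1.1 := by
  unfold colourOf
  split_ifs <;> omega

theorem colourOf_of_not {s : S} (h : ¬ Dbl (e s).1) : colourOf Dbl e s = 2 * (e s).1.1 := by
  unfold colourOf
  simp [h]

theorem colourOf_cases (s : S) :
    colourOf Dbl e s = 2 * (e s).1.1 ∨ colourOf Dbl e s = 2 * (e s).1.1 + 1 := by
  unfold colourOf
  split_ifs <;> omega

/-- Half of the slots of a double part have the first colour. -/
theorem card_colour_first {j : Fin M} {d : ℕ} (hj : sz j = 2 * d) (hd : Dbl j) :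
    (Finset.univ.filter fun s => colourOf Dbl e s = 2 * j.1).card = d := by
  classical
  have h : (Finset.univ.filter fun s => colourOf Dbl e s = 2 * j.1) =
      (Finset.univ.filter fun i : Fin (sz j) => i.1 < d).map
        ((Function.Embedding.sigmaMk j).trans e.symm.toEmbedding) := by
    ext s
    simp only [Finset.mem_filter, Finset.mem_univ, true_and, Finset.mem_map,
      Function.Embedding.trans_apply, Function.Embedding.sigmaMk_apply, Equiv.coe_toEmbedding]
    constructor
    · intro h
      have hdiv := colourOf_div Dbl e s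
      rw [h] at hdiv
      rcases hs : e s with ⟨j₀, i⟩
      rw [hs] at hdiv
      have hj' : j₀ = j := Fin.ext (by simp only at hdiv; omega)
      subst hj'
      refine ⟨i, ?_, by rw [← hs]; simp⟩
      unfold colourOf at h
      rw [hs] at h
      simp only [hd, true_and] at h
      by_contra hi
      rw [if_pos (by omega)] at h
      omega
    · rintro ⟨i, hi, rfl⟩
      have he : e (e.symm ⟨j, i⟩) = ⟨j, i⟩ := by simp
      unfold colourOf
      rw [he]
      have hlt : ¬ sz j / 2 ≤ i.1 := by omega
      simp [hlt]
  rw [h, Finset.card_map]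
  have : (Finset.univ.filter fun i : Fin (sz j) => i.1 < d).card = d := by
    rw [Fin.card_filter_val_lt]
    omega
  exact this

/-- The slots of a double part with the second colour: also half of them. -/
theorem card_colour_second {j : Fin M} {d : ℕ} (hj : sz j = 2 * d) (hd : Dbl j) :
    (Finset.univ.filter fun s => colourOf Dbl e s = 2 * j.1 + 1).card = d := by
  classical
  have h1 := card_colour_first Dbl e hj hd
  have h2 := card_part e {j}
  simp only [Finset.mem_singleton, Finset.sum_singleton] at h2
  have h3 : (Finset.univ.filter fun s => (e s).1 = j) =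
      (Finset.univ.filter fun s => colourOf Dbl e s = 2 * j.1) ∪
        (Finset.univ.filter fun s => colourOf Dbl e s = 2 * j.1 + 1) := by
    ext s
    simp only [Finset.mem_filter, Finset.mem_univ, true_and, Finset.mem_union]
    constructor
    · rintro rfl
      exact colourOf_cases Dbl e s
    · rintro (h | h)
      · have := colourOf_div Dbl e s
        rw [h] at this
        exact Fin.ext (by omega)
      · have := colourOf_div Dbl e s
        rw [h] at this
        exact Fin.ext (by omega)
  rw [h3, Finset.card_union_of_disjoint, h1, hj] at h2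
  · omega
  · rw [Finset.disjoint_filter]
    intro s _ h h'
    omega

end Parts

section Main

variable {S : Type} [Fintype S] [DecidableEq S] {N M : ℕ}

/-- Decoding a colour. -/
def decCol (f : Fin M → ℕ) (x : ℕ) : ℕ := if h : x / 2 < M then f ⟨x / 2, h⟩ else 0

theorem decCol_even (f : Fin M → ℕ) (j : Fin M) : decCol f (2 * j.1) = f j := by
  have h : 2 * j.1 / 2 = j.1 := by omega
  unfold decCol
  rw [dif_pos (by rw [h]; exact j.2)]
  congr 1
  exact Fin.ext h

theorem decCol_odd (f : Fin M → ℕ) (j : Fin M) : decCol f (2 * j.1 + 1) = f j := by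
  have h : (2 * j.1 + 1) / 2 = j.1 := by omega
  unfold decCol
  rw [dif_pos (by rw [h]; exact j.2)]
  congr 1
  exact Fin.ext h

theorem inj_two_mul : Function.Injective fun j : Fin M => 2 * j.1 := by
  intro j j' h
  simp only at h
  exact Fin.ext (by omega)

/-- **The numeric block test.** -/
theorem occurs_of_parts (kind : Fin N → BK) {pos : Fin N → ℕ → ℕ} {D : Finset (ℕ × ℕ)}
    (hp : PosSepG pos (fun i => (kind i).cells)) (hD : IsUnionG pos (fun i => (kind i).cells) D)
    (hband : ∀ i j, i ≠ j → (kind i).hi < (kind j).lo ∨ (kind j).hi < (kind i).lo)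
    (blk : Fin M → Fin N) (sz : Fin M → ℕ)
    (htot : ∑ j, sz j = Fintype.card S)
    (hsz : ∀ i, ∑ j ∈ Finset.univ.filter (fun j => blk j = i), sz j = (kind i).size)
    (hone : ∀ i x, kind i = BK.single x → (Finset.univ.filter fun j => blk j = i).card ≤ 1)
    (hfour : ∀ i x, kind i = BK.pair x → (Finset.univ.filter fun j => blk j = i).card ≤ 4)
    (hdbl : ∀ i d, kind i = BK.dbl d → 0 < d ∧ (Finset.univ.filter fun j => blk j = i).card = 1)
    {ν : YoungDiagram} (hcard : ν.card = Fintype.card S)
    (P : Finset (Fin M)) (hP : ∀ j ∈ P, ∃ d, kind (blk j) = BK.dbl d)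
    (r a b : Fin M → ℕ) (hr : Set.InjOn r P) (ha : ∀ j ∈ P, Even (a j)) (hb : ∀ j ∈ P, Even (b j))
    (hab : ∀ j ∈ P, a j + b j = sz j)
    (hcap : ∀ y, (∑ j ∈ P, if r j = y then a j else 0) +
      (∑ j ∈ P, if r j + 1 = y then b j else 0) ≤ ν.rowLen y)
    (sl : ℕ → ℕ) (hsl : Set.InjOn sl (Set.Iio (ν.colLen 0)))
    (hdom : ∀ T : Finset (Fin M), Disjoint T P → ∑ j ∈ T, sz j ≤
      ∑ y ∈ Finset.range (ν.colLen 0), if sl y < T.card then
        ν.rowLen y - ((∑ j ∈ P, if r j = y then a j else 0) +
          (∑ j ∈ P, if r j + 1 = y then b j else 0)) else 0)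
    {V : Type*} [AddCommGroup V] [Module ℂ V] [FiniteDimensional ℂ V]
    {ρ : Representation ℂ (Perm S) V} (hρ : ρ.IsIrreducible) (hlab : Label ρ ν) :
    Occurs ρ D D := by
  classical
  let Dbl : Fin M → Prop := fun j => ∃ d, kind (blk j) = BK.dbl d
  obtain ⟨e⟩ : Nonempty (S ≃ Σ j : Fin M, Fin (sz j)) :=
    ⟨Fintype.equivOfCardEq (by simp [Fintype.card_sigma, htot])⟩
  let c : S → ℕ := colourOf Dbl e
  let B : S → Fin N := fun s => blk (e s).1
  let E : Finset ℕ := (Finset.univ.filter Dbl).image fun j => 2 * j.1
  let E1 : Finset ℕ := P.image fun j => 2 * j.1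
  have hcdiv : ∀ s, c s / 2 = (e s).1.1 := colourOf_div Dbl e
  have hccases : ∀ s, c s = 2 * (e s).1.1 ∨ c s = 2 * (e s).1.1 + 1 := colourOf_cases Dbl e
  have hE : ∀ x ∈ E, x + 1 ∉ E := by
    intro x hx hx1
    obtain ⟨j, -, rfl⟩ := Finset.mem_image.mp hx
    obtain ⟨j', -, hj'⟩ := Finset.mem_image.mp hx1
    omega
  have hE1 : E1 ⊆ E := by
    intro x hx
    obtain ⟨j, hj, rfl⟩ := Finset.mem_image.mp hx
    exact Finset.mem_image.mpr ⟨j, Finset.mem_filter.mpr ⟨Finset.mem_univ _, hP j hj⟩, rfl⟩
  have hsumE1 : ∀ f : ℕ → ℕ, ∑ x ∈ E1, f x = ∑ j ∈ P, f (2 * j.1) := fun f =>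
    Finset.sum_image fun _ _ _ _ h => inj_two_mul h
  have hr' : Set.InjOn (decCol r) (E1 : Set ℕ) := by
    intro x hx y hy hxy
    obtain ⟨j, hj, rfl⟩ := Finset.mem_image.mp (Finset.mem_coe.mp hx)
    obtain ⟨j', hj', rfl⟩ := Finset.mem_image.mp (Finset.mem_coe.mp hy)
    simp only [decCol_even] at hxy
    rw [hr hj hj' hxy]
  have ha' : ∀ x ∈ E1, Even (decCol a x) := by
    intro x hx
    obtain ⟨j, hj, rfl⟩ := Finset.mem_image.mp hx
    simpa only [decCol_even] using ha j hj
  have hb' : ∀ x ∈ E1, Even (decCol b x) := by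
    intro x hx
    obtain ⟨j, hj, rfl⟩ := Finset.mem_image.mp hx
    simpa only [decCol_even] using hb j hj
  -- sizes of double parts
  have hszd : ∀ j d, kind (blk j) = BK.dbl d → sz j = 2 * d := by
    intro j d hd
    have h1 := hsz (blk j)
    have h2 := (hdbl _ _ hd).2
    obtain ⟨j₀, hj₀⟩ := Finset.card_eq_one.mp h2
    have h3 : j ∈ ({j₀} : Finset (Fin M)) := by
      rw [← hj₀]
      simp
    rw [Finset.mem_singleton] at h3
    rw [hj₀, Finset.sum_singleton, hd, ← h3] at h1
    exact h1
  have hc1 : ∀ x ∈ E1, 2 * lc c x = decCol a x + decCol b x ∧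
      2 * lc c (x + 1) = decCol a x + decCol b x := by
    intro x hx
    obtain ⟨j, hj, rfl⟩ := Finset.mem_image.mp hx
    obtain ⟨d, hd⟩ := hP j hj
    have h1 := hszd j d hd
    have hl1 : lc c (2 * j.1) = d := by
      show (Finset.univ.filter fun s => colourOf Dbl e s = 2 * j.1).card = d
      exact card_colour_first Dbl e h1 ⟨d, hd⟩
    have hl2 : lc c (2 * j.1 + 1) = d := by
      show (Finset.univ.filter fun s => colourOf Dbl e s = 2 * j.1 + 1).card = d
      exact card_colour_second Dbl e h1 ⟨d, hd⟩
    simp only [decCol_even]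
    rw [hab j hj, hl1, hl2, h1]
    exact ⟨rfl, rfl⟩
  have hu1 : ∀ y, (∑ x ∈ E1, if decCol r x = y then decCol a x else 0) =
      ∑ j ∈ P, if r j = y then a j else 0 := by
    intro y
    rw [hsumE1]
    simp only [decCol_even]
  have hu2 : ∀ y, (∑ x ∈ E1, if decCol r x + 1 = y then decCol b x else 0) =
      ∑ j ∈ P, if r j + 1 = y then b j else 0 := by
    intro y
    rw [hsumE1]
    simp only [decCol_even]
  -- ranks
  obtain ⟨rk, hrk1, hrk2, hrk3⟩ := exists_rank Pᶜ sz
  let β : ℕ → ℕ := fun y => ∑ j ∈ Pᶜ with rk j = y, sz j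
  have hβval : ∀ j ∈ Pᶜ, β (rk j) = sz j := by
    intro j hj
    have : (Pᶜ.filter fun j' => rk j' = rk j) = {j} := by
      ext j'
      simp only [Finset.mem_filter, Finset.mem_singleton]
      constructor
      · rintro ⟨h1, h2⟩
        exact hrk1 (Finset.mem_coe.mpr h1) (Finset.mem_coe.mpr hj) h2
      · rintro rfl
        exact ⟨hj, rfl⟩
    simp only [β, this, Finset.sum_singleton]
  have hβ0 : ∀ y, (∀ j ∈ Pᶜ, rk j ≠ y) → β y = 0 := by
    intro y hy
    simp only [β]
    rw [Finset.sum_eq_zero]
    intro j hj
    obtain ⟨h1, h2⟩ := Finset.mem_filter.mp hj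
    exact absurd h2 (hy j h1)
  have hsurj : ∀ y < Pᶜ.card, ∃ j ∈ Pᶜ, rk j = y := by
    have himg : Pᶜ.image rk = Finset.range Pᶜ.card := by
      apply Finset.eq_of_subset_of_card_le
      · intro y hy
        obtain ⟨j, hj, rfl⟩ := Finset.mem_image.mp hy
        exact Finset.mem_range.mpr (hrk2 j hj)
      · rw [Finset.card_range, Finset.card_image_of_injOn hrk1]
    intro y hy
    have : y ∈ Pᶜ.image rk := by
      rw [himg]
      exact Finset.mem_range.mpr hy
    obtain ⟨j, hj, rfl⟩ := Finset.mem_image.mp this
    exact ⟨j, hj, rfl⟩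
  have hβ : Antitone β := by
    intro y y' hyy'
    by_cases hex : ∃ j' ∈ Pᶜ, rk j' = y'
    · obtain ⟨j', hj', rfl⟩ := hex
      obtain ⟨j, hj, rfl⟩ := hsurj y (lt_of_le_of_lt hyy' (hrk2 j' hj'))
      rw [hβval j hj, hβval j' hj']
      rcases eq_or_lt_of_le hyy' with h | h
      · rw [hrk1 (Finset.mem_coe.mpr hj) (Finset.mem_coe.mpr hj') h]
      · exact hrk3 j hj j' hj' h
    · push Not at hex
      rw [hβ0 y' hex]
      exact Nat.zero_le _
  have hinP : ∀ s, (c s ∉ E1 ∧ ∀ x ∈ E1, c s ≠ x + 1) ↔ (e s).1 ∈ Pᶜ := by
    intro s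
    rw [Finset.mem_compl]
    constructor
    · rintro ⟨h1, h2⟩ hmem
      rcases hccases s with h | h
      · exact h1 (Finset.mem_image.mpr ⟨_, hmem, h.symm⟩)
      · exact h2 _ (Finset.mem_image.mpr ⟨_, hmem, rfl⟩) h
    · intro hnot
      constructor
      · intro hmem
        obtain ⟨j, hj, hjc⟩ := Finset.mem_image.mp hmem
        have h1 := hcdiv s
        have : (e s).1 = j := Fin.ext (by omega)
        exact hnot (this ▸ hj)
      · intro x hx hjc
        obtain ⟨j, hj, rfl⟩ := Finset.mem_image.mp hx
        have h1 := hcdiv s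
        have : (e s).1 = j := Fin.ext (by omega)
        exact hnot (this ▸ hj)
  have hcβ : ∀ y, (Finset.univ.filter fun s => c s ∉ E1 ∧ (∀ x ∈ E1, c s ≠ x + 1) ∧
      decCol rk (c s) = y).card = β y := by
    intro y
    have hdec : ∀ s, decCol rk (c s) = rk (e s).1 := by
      intro s
      rcases hccases s with h | h
      · rw [h, decCol_even]
      · rw [h, decCol_odd]
    have h1 : (Finset.univ.filter fun s => c s ∉ E1 ∧ (∀ x ∈ E1, c s ≠ x + 1) ∧
        decCol rk (c s) = y) =
        Finset.univ.filter fun s => (e s).1 ∈ Pᶜ.filter fun j => rk j = y := by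
      ext s
      simp only [Finset.mem_filter, Finset.mem_univ, true_and]
      rw [← hinP s, hdec s]
      tauto
    rw [h1, card_part]
  have hdom' : ∀ k, ∑ y ∈ Finset.range k, β y ≤ ∑ y ∈ Finset.range (ν.colLen 0),
      if sl y < k then ν.rowLen y - ((∑ x ∈ E1, if decCol r x = y then decCol a x else 0) +
        (∑ x ∈ E1, if decCol r x + 1 = y then decCol b x else 0)) else 0 := by
    intro k
    simp only [hu1, hu2]
    let T : Finset (Fin M) := Pᶜ.filter fun j => rk j < k
    have hT : Disjoint T P := by
      rw [Finset.disjoint_left]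
      intro j hj
      exact Finset.mem_compl.mp (Finset.mem_filter.mp hj).1
    have hsum : ∑ y ∈ Finset.range k, β y = ∑ j ∈ T, sz j := by
      simp only [β]
      rw [← Finset.sum_biUnion]
      · apply Finset.sum_congr _ fun _ _ => rfl
        ext j
        simp only [Finset.mem_biUnion, Finset.mem_range, Finset.mem_filter, T]
        constructor
        · rintro ⟨y, hy, h1, rfl⟩
          exact ⟨h1, hy⟩
        · rintro ⟨h1, h2⟩
          exact ⟨_, h2, h1, rfl⟩
      · intro y _ y' _ hne
        simp only [Function.onFun]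
        rw [Finset.disjoint_left]
        intro j hj hj'
        exact hne ((Finset.mem_filter.mp hj).2.symm.trans (Finset.mem_filter.mp hj').2)
    have hcardT : T.card ≤ k := by
      have : T.card = (T.image rk).card := by
        rw [Finset.card_image_of_injOn]
        intro x hx y hy h
        exact hrk1 (Finset.mem_coe.mpr (Finset.mem_filter.mp (Finset.mem_coe.mp hx)).1)
          (Finset.mem_coe.mpr (Finset.mem_filter.mp (Finset.mem_coe.mp hy)).1) h
      rw [this]
      calc (T.image rk).card ≤ (Finset.range k).card := by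
            apply Finset.card_le_card
            intro y hy
            obtain ⟨j, hj, rfl⟩ := Finset.mem_image.mp hy
            exact Finset.mem_range.mpr (Finset.mem_filter.mp hj).2
        _ = k := Finset.card_range k
    rw [hsum]
    refine (hdom T hT).trans (Finset.sum_le_sum fun y _ => ?_)
    by_cases h : sl y < T.card
    · rw [if_pos h, if_pos (by omega)]
    · rw [if_neg h]
      exact Nat.zero_le _
  have hcap' : ∀ y, (∑ x ∈ E1, if decCol r x = y then decCol a x else 0) +
      (∑ x ∈ E1, if decCol r x + 1 = y then decCol b x else 0) ≤ ν.rowLen y := by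
    intro y
    simp only [hu1, hu2]
    exact hcap y
  have htl : ∀ x ∈ E, x ∉ E1 → decCol rk x = decCol rk (x + 1) := by
    intro x hx _
    obtain ⟨j, -, rfl⟩ := Finset.mem_image.mp hx
    rw [decCol_even, decCol_odd]
  obtain ⟨v₀, hv₀, hfix⟩ := EFix.exists_adm_fix_numeric hcard c E hE E1 hE1 (decCol r) (decCol a)
    (decCol b) hr' ha' hb' hc1 hcap' (decCol rk) htl β hβ hcβ sl hsl hdom' hρ hlab
  have hcB : ∀ s s', c s = c s' → B s = B s' := by
    intro s s' h
    have h1 := hcdiv s
    have h2 := hcdiv s'
    rw [h] at h1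
    have : (e s).1 = (e s').1 := Fin.ext (by omega)
    simp only [B, this]
  have hEb : ∀ s s', c s ∈ E → c s' = c s + 1 → B s = B s' := by
    intro s s' h1 h2
    obtain ⟨j, -, hj⟩ := Finset.mem_image.mp h1
    have h3 := hcdiv s
    have h4 := hcdiv s'
    have : (e s).1 = (e s').1 := Fin.ext (by omega)
    simp only [B, this]
  -- slots of a block
  have hslots : ∀ i, Fintype.card (Blk B i) = (kind i).size := by
    intro i
    rw [← hsz i, ← card_part e (Finset.univ.filter fun j => blk j = i), Fintype.card_subtype]
    congr 1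
    ext s
    simp [B]
  have hCond : ∀ i, (kind i).Cond (fun a : Blk B i => c a.1) E := by
    intro i
    rcases hk : kind i with x | x | d
    · -- single
      intro u v
      have hu := u.2
      have hv := v.2
      have huv : (e u.1).1 = (e v.1).1 := by
        apply Finset.card_le_one.mp (hone i x hk)
        · exact Finset.mem_filter.mpr ⟨Finset.mem_univ _, hu⟩
        · exact Finset.mem_filter.mpr ⟨Finset.mem_univ _, hv⟩
      have hnd : ∀ w : Blk B i, ¬ Dbl (e w.1).1 := by
        rintro w ⟨d, hd⟩
        have : blk (e w.1).1 = i := w.2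
        rw [this, hk] at hd
        cases hd
      show colourOf Dbl e u.1 = colourOf Dbl e v.1
      rw [colourOf_of_not Dbl e (hnd u), colourOf_of_not Dbl e (hnd v), huv]
    · -- pair
      have hnd : ∀ w : Blk B i, ¬ Dbl (e w.1).1 := by
        rintro w ⟨d, hd⟩
        have : blk (e w.1).1 = i := w.2
        rw [this, hk] at hd
        cases hd
      have hsub : (Finset.univ.image fun a : Blk B i => c a.1) ⊆
          (Finset.univ.filter fun j => blk j = i).image fun j => 2 * j.1 := by
        intro z hz
        obtain ⟨w, -, rfl⟩ := Finset.mem_image.mp hz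
        refine Finset.mem_image.mpr ⟨(e w.1).1, Finset.mem_filter.mpr ⟨Finset.mem_univ _, w.2⟩, ?_⟩
        exact (colourOf_of_not Dbl e (hnd w)).symm
      exact (Finset.card_le_card hsub).trans (Finset.card_image_le.trans (hfour i x hk))
    · -- double
      obtain ⟨hd, h1⟩ := hdbl i d hk
      obtain ⟨j₀, hj₀⟩ := Finset.card_eq_one.mp h1
      have hj₀i : blk j₀ = i := by
        have : j₀ ∈ Finset.univ.filter fun j => blk j = i := by
          rw [hj₀]
          exact Finset.mem_singleton_self _
        exact (Finset.mem_filter.mp this).2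
      have hk₀ : kind (blk j₀) = BK.dbl d := by rw [hj₀i, hk]
      have hp₀ : ∀ w : Blk B i, (e w.1).1 = j₀ := by
        intro w
        have : (e w.1).1 ∈ Finset.univ.filter fun j => blk j = i :=
          Finset.mem_filter.mpr ⟨Finset.mem_univ _, w.2⟩
        rw [hj₀] at this
        exact Finset.mem_singleton.mp this
      refine ⟨hd, 2 * j₀.1, Finset.mem_image.mpr ⟨j₀, Finset.mem_filter.mpr ⟨Finset.mem_univ _,
        ⟨d, hk₀⟩⟩, rfl⟩, fun w => ?_, ?_⟩
      · have := hccases w.1
        rw [hp₀ w] at this
        exact this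
      · have hsz0 := hszd j₀ d hk₀
        have hcnt := card_colour_first Dbl e hsz0 ⟨d, hk₀⟩
        rw [← hcnt]
        apply Finset.card_bij (fun w _ => w.1)
        · intro w hw
          exact Finset.mem_filter.mpr ⟨Finset.mem_univ _, (Finset.mem_filter.mp hw).2⟩
        · intro w _ w' _ h
          exact Subtype.ext h
        · intro s hs
          have hcs : colourOf Dbl e s = 2 * j₀.1 := (Finset.mem_filter.mp hs).2
          have hdiv := colourOf_div Dbl e s
          rw [hcs] at hdiv
          have hpart : (e s).1 = j₀ := Fin.ext (by omega)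
          refine ⟨⟨s, ?_⟩, Finset.mem_filter.mpr ⟨Finset.mem_univ _, hcs⟩, rfl⟩
          show blk (e s).1 = i
          rw [hpart, hj₀i]
  exact occurs_of_mixed kind B c E hslots hCond hp hD hband hcB hE hEb hv₀ hfix

end Main

section Lists

namespace BK

/-- The number of columns of a block. -/
def width : BK → ℕ
  | single _ => 1
  | pair _ => 2
  | dbl _ => 2

/-- The column heights of a block. -/
def colH : BK → ℕ → ℕ
  | single x, 0 => x
  | pair x, 0 => x + 1
  | pair x, 1 => x
  | dbl d, 0 => d
  | dbl d, 1 => d
  | _, _ => 0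

theorem mem_cells (K : BK) (q : ℕ × ℕ) : q ∈ K.cells ↔ q.1 < K.colH q.2 := by
  obtain ⟨i, j⟩ := q
  rcases K with x | x | d
  · rw [mem_single_cells]
    rcases j with _ | j <;> simp [colH]
  · simp only [cells, mem_col2]
    rcases j with _ | _ | j <;> simp [colH]
  · simp only [cells, EBlock.mem_rect2]
    rcases j with _ | _ | j <;> simp [colH]

theorem colH_eq_zero (K : BK) {y : ℕ} (h : K.width ≤ y) : K.colH y = 0 := by
  rcases K with x | x | d
  · rcases y with _ | y
    · simp [width] at h
    · rfl
  · rcases y with _ | _ | y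
    · simp [width] at h
    · simp [width] at h
    · rfl
  · rcases y with _ | _ | y
    · simp [width] at h
    · simp [width] at h
    · rfl

end BK

/-- Column heights of a list of blocks placed side by side. -/
def colHL : List BK → ℕ → ℕ
  | [], _ => 0
  | K :: l, y => if y < K.width then K.colH y else colHL l (y - K.width)

/-- The cells of a list of blocks placed side by side. -/
def cellsL : List BK → Finset (ℕ × ℕ)
  | [] => ∅
  | K :: l => K.cells ∪ (cellsL l).image fun q => (q.1, q.2 + K.width)

theorem mem_cellsL (l : List BK) (q : ℕ × ℕ) : q ∈ cellsL l ↔ q.1 < colHL l q.2 := by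
  induction l generalizing q with
  | nil => simp [cellsL, colHL]
  | cons K l ih =>
    obtain ⟨i, j⟩ := q
    simp only [cellsL, colHL, Finset.mem_union, Finset.mem_image, Prod.mk.injEq, BK.mem_cells]
    by_cases hj : j < K.width
    · rw [if_pos hj]
      constructor
      · rintro (h | ⟨q, -, -, h⟩)
        · exact h
        · omega
      · exact Or.inl
    · rw [if_neg hj, BK.colH_eq_zero K (by omega)]
      constructor
      · rintro (h | ⟨q, hq, h1, h2⟩)
        · omega
        · have := (ih q).mp hq
          have e : j - K.width = q.2 := by omega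
          rw [e, ← h1]
          exact this
      · intro h
        refine Or.inr ⟨(i, j - K.width), (ih _).mpr h, rfl, by simp only; omega⟩

/-- The first column of the block number `i`. -/
def offL (l : List BK) (i : ℕ) : ℕ := ((l.take i).map BK.width).sum

theorem offL_zero (l : List BK) : offL l 0 = 0 := by simp [offL]

theorem offL_cons_succ (K : BK) (l : List BK) (i : ℕ) :
    offL (K :: l) (i + 1) = K.width + offL l i := by
  simp [offL]

theorem offL_succ (l : List BK) (i : ℕ) (hi : i < l.length) :
    offL l (i + 1) = offL l i + (l[i]).width := by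
  induction l generalizing i with
  | nil => simp at hi
  | cons K l ih =>
    rcases i with _ | i
    · simp [offL]
    · rw [offL_cons_succ, offL_cons_succ, ih i (by simpa using hi)]
      simp only [List.getElem_cons_succ]
      omega

theorem offL_mono (l : List BK) {i j : ℕ} (hij : i ≤ j) : offL l i ≤ offL l j := by
  induction l generalizing i j with
  | nil => simp [offL]
  | cons K l ih =>
    rcases i with _ | i
    · simp [offL_zero]
    · rcases j with _ | j
      · omega
      · rw [offL_cons_succ, offL_cons_succ]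
        have := ih (show i ≤ j by omega)
        omega

/-- The position function of a list of blocks. -/
def posL (l : List BK) (i : Fin l.length) (y : ℕ) : ℕ := offL l i.1 + y

theorem BK.lt_width_of_mem {K : BK} {q : ℕ × ℕ} (hq : q ∈ K.cells) : q.2 < K.width := by
  by_contra h
  have := (BK.mem_cells K q).mp hq
  rw [BK.colH_eq_zero K (by omega)] at this
  omega

theorem posSepG_list (l : List BK) : PosSepG (posL l) (fun i => l[i.1].cells) := by
  have key : ∀ i j (hi : i < l.length) (hj : j < l.length), i < j → ∀ y y', y < (l[i]).width →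
      offL l i + y ≠ offL l j + y' := by
    intro i j hi hj hij y y' hy h
    have h1 := offL_succ l i hi
    have h2 := offL_mono l (show i + 1 ≤ j by omega)
    omega
  intro i j c c' hc hc' h
  have hy := BK.lt_width_of_mem hc
  have hy' := BK.lt_width_of_mem hc'
  simp only [posL] at h
  rcases lt_trichotomy i.1 j.1 with hij | hij | hij
  · exact absurd h (key _ _ i.2 j.2 hij _ _ hy)
  · have : i = j := Fin.ext hij
    subst this
    exact ⟨rfl, by omega⟩
  · exact absurd h.symm (key _ _ j.2 i.2 hij _ _ hy')

theorem isUnionG_list (l : List BK) : IsUnionG (posL l) (fun i => l[i.1].cells) (cellsL l) := by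
  induction l with
  | nil =>
    intro c
    simp [cellsL]
  | cons K l ih =>
    intro c
    simp only [cellsL, Finset.mem_union, Finset.mem_image]
    constructor
    · rintro (h | ⟨q, hq, rfl⟩)
      · refine ⟨⟨0, by simp⟩, c, h, rfl, ?_⟩
        simp [posL, offL_zero]
      · obtain ⟨i, e, he, h1, h2⟩ := (ih q).mp hq
        refine ⟨⟨i.1 + 1, by simp⟩, e, he, h1, ?_⟩
        simp only [posL] at h2 ⊢
        rw [offL_cons_succ, h2]
        omega
    · rintro ⟨i, e, he, h1, h2⟩
      obtain ⟨i, hi⟩ := i
      rcases i with _ | i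
      · left
        have : c = e := Prod.ext h1.symm (by simpa [posL, offL_zero] using h2)
        rw [this]
        exact he
      · right
        simp only [posL, offL_cons_succ] at h2
        refine ⟨(c.1, offL l i + e.2), (ih _).mpr ⟨⟨i, by simpa using hi⟩, e, he, h1, rfl⟩, ?_⟩
        exact Prod.ext rfl (by simp only; omega)

theorem band_list {l : List BK} (hpw : l.Pairwise fun K K' => K'.hi < K.lo)
    (i j : Fin l.length) (hne : i ≠ j) :
    (l[i.1]).hi < (l[j.1]).lo ∨ (l[j.1]).hi < (l[i.1]).lo := by
  have h := List.pairwise_iff_getElem.mp hpw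
  rcases lt_or_gt_of_ne (fun h' => hne (Fin.ext h') : i.1 ≠ j.1) with hij | hij
  · exact Or.inr (h _ _ i.2 j.2 hij)
  · exact Or.inl (h _ _ j.2 i.2 hij)

theorem card_cellsL (l : List BK) : (cellsL l).card = (l.map BK.size).sum := by
  induction l with
  | nil => simp [cellsL]
  | cons K l ih =>
    have hK : K.cells.card = K.size := by
      rcases K with x | x | d
      · simp [BK.cells, BK.size]
      · simp [BK.cells, BK.size, card_col2]
      · simp [BK.cells, BK.size, EBlock.rect2, mul_comm]
    rw [cellsL, Finset.card_union_of_disjoint, hK, Finset.card_image_of_injective, ih]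
    · simp
    · intro a b h
      simp only [Prod.mk.injEq, Nat.add_right_cancel_iff] at h
      exact Prod.ext h.1 h.2
    · rw [Finset.disjoint_left]
      intro q hq hq'
      obtain ⟨q', -, rfl⟩ := Finset.mem_image.mp hq'
      have := BK.lt_width_of_mem hq
      simp only at this
      omega

end Lists

section ListTest

variable {S : Type} [Fintype S] [DecidableEq S]

/-- The condition on the number of parts of a block. -/
def BK.PartsOK : BK → List ℕ → Prop
  | BK.single _, p => p.length ≤ 1
  | BK.pair _, p => p.length ≤ 4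
  | BK.dbl d, p => 0 < d ∧ p.length = 1

/-- **The block test for a list of blocks.** Parts `ps i` for the block number `i`; `P` is the set
of placed doubles; every other part is dominated by the remainders of the rows. -/
theorem occurs_of_list (l : List BK) (hpw : l.Pairwise fun K K' => K'.hi < K.lo)
    (ps : Fin l.length → List ℕ)
    (hps : ∀ i, (ps i).sum = (l[i.1]).size)
    (hOK : ∀ i : Fin l.length, (l[i.1]).PartsOK (ps i))
    {ν : YoungDiagram} (hcard : ν.card = Fintype.card S)
    (hS : (l.map BK.size).sum = Fintype.card S)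
    (P : Finset (Fin l.length)) (hP : ∀ i ∈ P, ∃ d, l[i.1] = BK.dbl d)
    (r a b : Fin l.length → ℕ) (hr : Set.InjOn r P)
    (ha : ∀ i ∈ P, Even (a i)) (hb : ∀ i ∈ P, Even (b i))
    (hab : ∀ i ∈ P, a i + b i = (l[i.1]).size)
    (hcap : ∀ y, (∑ i ∈ P, if r i = y then a i else 0) +
      (∑ i ∈ P, if r i + 1 = y then b i else 0) ≤ ν.rowLen y)
    (sl : ℕ → ℕ) (hsl : Set.InjOn sl (Set.Iio (ν.colLen 0)))
    (hdom : ∀ T : Finset (Σ i, Fin (ps i).length), (∀ p ∈ T, p.1 ∉ P) →
      ∑ p ∈ T, (ps p.1)[p.2.1] ≤
      ∑ y ∈ Finset.range (ν.colLen 0), if sl y < T.card then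
        ν.rowLen y - ((∑ i ∈ P, if r i = y then a i else 0) +
          (∑ i ∈ P, if r i + 1 = y then b i else 0)) else 0)
    {V : Type*} [AddCommGroup V] [Module ℂ V] [FiniteDimensional ℂ V]
    {ρ : Representation ℂ (Perm S) V} (hρ : ρ.IsIrreducible) (hlab : Label ρ ν) :
    Occurs ρ (cellsL l) (cellsL l) := by
  classical
  let J := Σ i, Fin (ps i).length
  let val : J → ℕ := fun p => (ps p.1)[p.2.1]
  let enc : J ≃ Fin (Fintype.card J) := Fintype.equivFin J
  let blk : Fin (Fintype.card J) → Fin l.length := fun j => (enc.symm j).1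
  let sz : Fin (Fintype.card J) → ℕ := fun j => val (enc.symm j)
  have hsum_block : ∀ i, ∑ p ∈ Finset.univ.filter (fun p : J => p.1 = i), val p = (ps i).sum := by
    intro i
    have h1 : (Finset.univ.filter fun p : J => p.1 = i) =
        (Finset.univ : Finset (Fin (ps i).length)).map (Function.Embedding.sigmaMk i) := by
      ext ⟨i', k⟩
      simp only [Finset.mem_filter, Finset.mem_univ, true_and, Finset.mem_map]
      constructor
      · rintro rfl
        exact ⟨k, rfl⟩
      · rintro ⟨k', h⟩
        exact (Sigma.mk.inj_iff.mp h).1.symm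
    rw [h1, Finset.sum_map]
    simp only [val]
    exact Fin.sum_univ_getElem (ps i)
  have hcard_block : ∀ i, (Finset.univ.filter fun p : J => p.1 = i).card = (ps i).length := by
    intro i
    have h1 : (Finset.univ.filter fun p : J => p.1 = i) =
        (Finset.univ : Finset (Fin (ps i).length)).map (Function.Embedding.sigmaMk i) := by
      ext ⟨i', k⟩
      simp only [Finset.mem_filter, Finset.mem_univ, true_and, Finset.mem_map]
      constructor
      · rintro rfl
        exact ⟨k, rfl⟩
      · rintro ⟨k', h⟩
        exact (Sigma.mk.inj_iff.mp h).1.symm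
    rw [h1, Finset.card_map, Finset.card_univ, Fintype.card_fin]
  have hfilter : ∀ i, (Finset.univ.filter fun j => blk j = i).map enc.symm.toEmbedding =
      Finset.univ.filter fun p : J => p.1 = i := by
    intro i
    ext p
    simp only [Finset.mem_map, Finset.mem_filter, Finset.mem_univ, true_and,
      Equiv.coe_toEmbedding]
    constructor
    · rintro ⟨j, hj, rfl⟩
      exact hj
    · intro h
      exact ⟨enc p, by simpa [blk] using h, by simp⟩
  have hcard_block' : ∀ i, (Finset.univ.filter fun j => blk j = i).card = (ps i).length := by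
    intro i
    rw [← hcard_block i, ← hfilter i, Finset.card_map]
  have hsum_univ : ∀ f : J → ℕ, ∑ j, f (enc.symm j) = ∑ p, f p := fun f =>
    Equiv.sum_comp enc.symm f
  have htot : ∑ j, sz j = Fintype.card S := by
    rw [hsum_univ val, ← hS]
    simp only [val, J]
    rw [Fintype.sum_sigma]
    have h1 : ∀ i : Fin l.length, ∑ k : Fin (ps i).length, (ps i)[k.1] = (l[i.1]).size := by
      intro i
      rw [Fin.sum_univ_getElem, hps]
    simp only [h1]
    exact Fin.sum_univ_fun_getElem l BK.size
  have hsz : ∀ i, ∑ j ∈ Finset.univ.filter (fun j => blk j = i), sz j = (l[i.1]).size := by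
    intro i
    rw [← hps i, ← hsum_block i, ← hfilter i, Finset.sum_map]
    rfl
  have hone : ∀ i x, l[i.1] = BK.single x → (Finset.univ.filter fun j => blk j = i).card ≤ 1 := by
    intro i x h
    have := hOK i
    rw [h] at this
    rw [hcard_block']
    exact this
  have hfour : ∀ i x, l[i.1] = BK.pair x → (Finset.univ.filter fun j => blk j = i).card ≤ 4 := by
    intro i x h
    have := hOK i
    rw [h] at this
    rw [hcard_block']
    exact this
  have hdbl : ∀ i d, l[i.1] = BK.dbl d →
      0 < d ∧ (Finset.univ.filter fun j => blk j = i).card = 1 := by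
    intro i d h
    have := hOK i
    rw [h] at this
    rw [hcard_block']
    exact this
  -- the placed parts
  let P' : Finset (Fin (Fintype.card J)) := Finset.univ.filter fun j => blk j ∈ P
  have hlen1 : ∀ i ∈ P, (ps i).length = 1 := by
    intro i hi
    obtain ⟨d, hd⟩ := hP i hi
    have := hOK i
    rw [hd] at this
    exact this.2
  have huniq : ∀ j j', j ∈ P' → j' ∈ P' → blk j = blk j' → j = j' := by
    intro j j' hj hj' h
    have h1 : blk j ∈ P := (Finset.mem_filter.mp hj).2
    have h2 : ∀ q q' : J, q.1 = q'.1 → q.1 ∈ P → q = q' := by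
      rintro ⟨i, k⟩ ⟨i', k'⟩ h3 h4
      simp only at h3 h4
      subst h3
      have h5 := hlen1 i h4
      have : k = k' := Fin.ext (by
        have h6 := k.2
        have h7 := k'.2
        omega)
      rw [this]
    exact enc.symm.injective (h2 _ _ h h1)
  have hsumP : ∀ f : Fin l.length → ℕ, ∑ j ∈ P', f (blk j) = ∑ i ∈ P, f i := by
    intro f
    apply Finset.sum_nbij (fun j => blk j)
    · intro j hj
      exact (Finset.mem_filter.mp hj).2
    · intro j hj j' hj' h
      exact huniq j j' hj hj' h
    · intro i hi
      have hl := hlen1 i hi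
      refine ⟨enc ⟨i, ⟨0, by omega⟩⟩, ?_, ?_⟩
      · simp only [P', blk, Finset.coe_filter, Finset.mem_univ, true_and, Set.mem_ofPred_eq,
          Equiv.symm_apply_apply]
        exact Finset.mem_coe.mp hi
      · simp [blk]
    · intro _ _
      rfl
  have hu1 : ∀ y, (∑ j ∈ P', if r (blk j) = y then a (blk j) else 0) =
      ∑ i ∈ P, if r i = y then a i else 0 := fun y =>
    hsumP fun i => if r i = y then a i else 0
  have hu2 : ∀ y, (∑ j ∈ P', if r (blk j) + 1 = y then b (blk j) else 0) =
      ∑ i ∈ P, if r i + 1 = y then b i else 0 := fun y =>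
    hsumP fun i => if r i + 1 = y then b i else 0
  refine occurs_of_parts (fun i : Fin l.length => l[i.1]) (posSepG_list l) (isUnionG_list l)
    (fun i j hne => band_list hpw i j hne) blk sz htot hsz hone hfour hdbl hcard P'
    (fun j hj => hP _ (Finset.mem_filter.mp hj).2) (fun j => r (blk j)) (fun j => a (blk j))
    (fun j => b (blk j)) ?_ (fun j hj => ha _ (Finset.mem_filter.mp hj).2)
    (fun j hj => hb _ (Finset.mem_filter.mp hj).2) ?_ ?_ sl hsl ?_ hρ hlab
  · intro j hj j' hj' h
    have hj1 := (Finset.mem_filter.mp (Finset.mem_coe.mp hj)).2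
    have hj2 := (Finset.mem_filter.mp (Finset.mem_coe.mp hj')).2
    exact huniq j j' hj hj' (hr hj1 hj2 h)
  · intro j hj
    have hj1 := (Finset.mem_filter.mp hj).2
    rw [hab _ hj1, ← hps (blk j)]
    -- the part is the whole block
    have hl := hlen1 _ hj1
    rw [← hsum_block (blk j), ← hfilter (blk j), Finset.sum_map]
    have hsingle : (Finset.univ.filter fun j' => blk j' = blk j) = {j} := by
      ext j'
      simp only [Finset.mem_filter, Finset.mem_univ, true_and, Finset.mem_singleton]
      constructor
      · intro h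
        exact huniq j' j (Finset.mem_filter.mpr ⟨Finset.mem_univ _, h ▸ hj1⟩) hj h
      · rintro rfl
        rfl
    rw [hsingle, Finset.sum_singleton]
    rfl
  · intro y
    rw [hu1, hu2]
    exact hcap y
  · intro T hT
    simp only [hu1, hu2]
    have h := hdom (T.map enc.symm.toEmbedding) (by
      intro p hp
      obtain ⟨j, hj, rfl⟩ := Finset.mem_map.mp hp
      intro hmem
      exact (Finset.disjoint_left.mp hT hj) (Finset.mem_filter.mpr ⟨Finset.mem_univ _, hmem⟩))
    rw [Finset.sum_map, Finset.card_map] at h
    exact h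

end ListTest

end Crest.Agent.Saxl
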