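import Crest.Agent.Lib.Saxl.Specht
import Crest.Prelude.Def_SpechtModule

/-!
# From `Occurs` to the tensor square of the Specht module
-/

set_option autoImplicit false

open scoped BigOperators TensorProduct
open Equiv Crest.AlgebraR.Specht

namespace Crest.Agent.Saxl

variable {D : Finset (ℕ × ℕ)}

/-- The permutation action on row words, as functions on words. -/
theorem rowWordRep_apply (n : ℕ) (g : Perm (Fin n)) (f : RowWord n →₀ ℂ) (w : RowWord n) :
    rowWordRep n g f w = f (fun i => w (g i)) := by
  let u : RowWord n := fun i => w (g i)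
  have h1 : (g • u : RowWord n) = w := by
    funext i
    change w (g (g.symm i)) = w i
    simp
  have hinj : Function.Injective (fun u : RowWord n => g • u) := MulAction.injective g
  conv_lhs => rw [← h1]
  exact Finsupp.mapDomain_apply hinj f u

theorem polytabloid_apply (t : D ≃ Fin D.card) (w : Fin D.card → ℕ) :
    polytabloid t w = poly t w := by
  unfold polytabloid poly
  rw [Finsupp.finsetSum_apply]
  have h : columnGroup t = stab (colOf t) := by
    ext σ
    simp [columnGroup, colOf]
  rw [h]
  refine Finset.sum_congr rfl fun σ _ => ?_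
  simp only [Finsupp.smul_apply, smul_eq_mul]
  congr 1
  have hw : (σ • rowWord t : RowWord D.card) = rowOf t ∘ ⇑σ⁻¹ := rfl
  rw [hw]
  by_cases h : w = rowOf t ∘ ⇑σ⁻¹
  · rw [if_pos h, h]
    exact Finsupp.single_eq_same
  · rw [if_neg h]
    exact Finsupp.single_eq_of_ne h

theorem polytabloid_mem (t : D ≃ Fin D.card) : polytabloid t ∈ (spechtSubrep D).toSubmodule := by
  change polytabloid t ∈ sInf _
  rw [Submodule.mem_sInf]
  intro p hp
  exact hp.1 ⟨t, rfl⟩

/-- Multiplication of two functions on words. -/
noncomputable def mm (D : Finset (ℕ × ℕ)) :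
    (spechtSubrep D).toSubmodule ⊗[ℂ] (spechtSubrep D).toSubmodule →ₗ[ℂ] Fn2 (Fin D.card) :=
  TensorProduct.lift
    (LinearMap.mk₂ ℂ (fun (f f' : (spechtSubrep D).toSubmodule) (w₁ w₂ : Fin D.card → ℕ) =>
        (f : RowWord D.card →₀ ℂ) w₁ * (f' : RowWord D.card →₀ ℂ) w₂)
      (fun a b c => by
        funext w₁ w₂
        simp [add_mul])
      (fun r a b => by
        funext w₁ w₂
        simp [mul_assoc])
      (fun a b c => by
        funext w₁ w₂
        simp [mul_add])
      (fun r a b => by
        funext w₁ w₂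
        simp [mul_left_comm]))

@[simp] theorem mm_tmul (f f' : (spechtSubrep D).toSubmodule) (w₁ w₂ : Fin D.card → ℕ) :
    mm D (f ⊗ₜ f') w₁ w₂ = (f : RowWord D.card →₀ ℂ) w₁ * (f' : RowWord D.card →₀ ℂ) w₂ := rfl

theorem mm_injective : Function.Injective (mm D) := by
  set j := TensorProduct.map (spechtSubrep D).toSubmodule.subtype
    (spechtSubrep D).toSubmodule.subtype with hj
  have : Module.Free ℂ (spechtSubrep D).toSubmodule := by
    have := Module.Free.of_divisionRing ℂ (spechtSubrep D).toSubmodule
    exact this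
  have : Module.Flat ℂ (spechtSubrep D).toSubmodule := Module.Flat.of_free
  have hjinj : Function.Injective j :=
    TensorProduct.map_injective_of_flat_flat _ _ (Submodule.injective_subtype _)
      (Submodule.injective_subtype _)
  have hfac : ∀ x w₁ w₂, mm D x w₁ w₂ =
      (finsuppTensorFinsupp' ℂ (RowWord D.card) (RowWord D.card) (j x)) (w₁, w₂) := by
    intro x w₁ w₂
    induction x using TensorProduct.induction_on with
    | zero => simp
    | tmul f f' =>
      rw [mm_tmul, hj, TensorProduct.map_tmul, finsuppTensorFinsupp'_apply_apply]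
      rfl
    | add x y hx hy =>
      simp only [map_add, Pi.add_apply, Finsupp.add_apply, hx, hy]
  intro x y hxy
  apply hjinj
  apply (finsuppTensorFinsupp' ℂ (RowWord D.card) (RowWord D.card)).injective
  ext ⟨w₁, w₂⟩
  rw [← hfac, ← hfac, hxy]

theorem mm_equivariant (g : Perm (Fin D.card))
    (x : (spechtSubrep D).toSubmodule ⊗[ℂ] (spechtSubrep D).toSubmodule) :
    mm D (Representation.tprod (spechtRep D) (spechtRep D) g x) = fn2Rep (Fin D.card) g (mm D x) := by
  induction x using TensorProduct.induction_on with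
  | zero => simp
  | tmul f f' =>
    funext w₁ w₂
    rw [Representation.tprod_apply, TensorProduct.map_tmul, mm_tmul, fn2Rep_apply, mm_tmul]
    change rowWordRep _ g (f : RowWord D.card →₀ ℂ) w₁ * rowWordRep _ g (f' : RowWord D.card →₀ ℂ) w₂ = _
    rw [rowWordRep_apply, rowWordRep_apply]
    rfl
  | add x y hx hy =>
    simp only [map_add, hx, hy]

theorem XX_le_range : XX (Fin D.card) D D ≤ LinearMap.range (mm D) := by
  unfold XX
  rw [Submodule.span_le]
  rintro _ ⟨⟨t, u⟩, rfl⟩
  refine ⟨(⟨polytabloid t, polytabloid_mem t⟩ : (spechtSubrep D).toSubmodule) ⊗ₜ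
    (⟨polytabloid u, polytabloid_mem u⟩ : (spechtSubrep D).toSubmodule), ?_⟩
  funext w₁ w₂
  simp only [mm_tmul, prod2]
  rw [polytabloid_apply, polytabloid_apply]

/-- The bridge: `Occurs` gives a nonzero equivariant map into the tensor square of the Specht module. -/
theorem nontrivial_of_occurs {W : Type*} [AddCommGroup W] [Module ℂ W]
    {σ : Representation ℂ (Perm (Fin D.card)) W} (h : Occurs σ D D) :
    Nontrivial (Representation.IntertwiningMap σ
      (Representation.tprod (spechtRep D) (spechtRep D))) := by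
  obtain ⟨φ, hφ, heq, hX⟩ := h
  have hinj := mm_injective (D := D)
  let e := LinearEquiv.ofInjective (mm D) hinj
  let ψ : W →ₗ[ℂ] (spechtSubrep D).toSubmodule ⊗[ℂ] (spechtSubrep D).toSubmodule :=
    e.symm.toLinearMap ∘ₗ φ.codRestrict (LinearMap.range (mm D)) (fun v => XX_le_range (hX v))
  have hψ : ∀ v, mm D (ψ v) = φ v := by
    intro v
    have := e.apply_symm_apply ((φ.codRestrict (LinearMap.range (mm D))
      (fun v => XX_le_range (hX v))) v)
    exact congrArg Subtype.val this
  let F : Representation.IntertwiningMap σ (Representation.tprod (spechtRep D) (spechtRep D)) :=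
    ψ.intertwiningMap_of_isIntertwiningMap _ _ (fun g v => by
      apply hinj
      rw [mm_equivariant, hψ, hψ, heq])
  refine ⟨⟨F, 0, fun h0 => hφ ?_⟩⟩
  ext v
  have h1 : F v = 0 := by rw [h0]; rfl
  have h2 : ψ v = 0 := h1
  rw [← hψ, h2, map_zero]
  rfl

end Crest.Agent.Saxl
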