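import Crest.Agent.Lib.Saxl.Pieri

/-!
# Adding a column: the Lean form of Theorem B (helper41, twist of helper90, helper22, helper57)

If `ρ` has a nonzero vector fixed by the symmetric group of a `c`-set `A` of slots, and every
irreducible representation of the symmetric group of the complement of `A` occurs in the tensor
product for shapes `X`, `Y`, then, provided `X`, `Y` have few cells in the rows `< c`, the
representation `ρ` occurs in the tensor product for the shapes `addCol c X`, `addCol c Y`.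
-/

set_option autoImplicit false

open scoped BigOperators
open Equiv

namespace Crest.Agent.Saxl

universe u v

section PolyRC

variable {S : Type*} [Fintype S] [DecidableEq S]

/-- The polytabloid of a row colouring and a column colouring. -/
noncomputable def polyRC (r c : S → ℕ) : Fn S :=
  fun w => ∑ σ ∈ stab c, sgn σ * (if w = r ∘ ⇑(σ⁻¹) then 1 else 0)

theorem poly_eq_polyRC {D : Finset (ℕ × ℕ)} (t : D ≃ S) : poly t = polyRC (rowOf t) (colOf t) := rfl

theorem polyRC_congr_stab (r : S → ℕ) {c c' : S → ℕ} (h : stab c = stab c') :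
    polyRC r c = polyRC r c' := by
  funext w
  simp only [polyRC, h]

theorem sgn_permCongr {S₁ S₂ : Type*} [Fintype S₁] [DecidableEq S₁] [Fintype S₂] [DecidableEq S₂]
    (h : S₁ ≃ S₂) (σ : Perm S₁) : sgn (h.permCongr σ) = sgn σ := by
  simp only [sgn, Perm.sign_permCongr]

/-- Renaming the slots. -/
theorem polyRC_equiv {S₁ S₂ : Type*} [Fintype S₁] [DecidableEq S₁] [Fintype S₂] [DecidableEq S₂]
    (h : S₁ ≃ S₂) (r c : S₁ → ℕ) (u : S₂ → ℕ) :
    polyRC (r ∘ h.symm) (c ∘ h.symm) u = polyRC r c (u ∘ h) := by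
  simp only [polyRC]
  refine Finset.sum_bij' (fun σ _ => h.symm.permCongr σ) (fun σ _ => h.permCongr σ) ?_ ?_ ?_ ?_ ?_
  · intro σ hσ
    rw [mem_stab] at hσ ⊢
    intro s
    have := hσ (h s)
    simpa [Equiv.permCongr_apply] using this
  · intro σ hσ
    rw [mem_stab] at hσ ⊢
    intro s
    have := hσ (h.symm s)
    simpa [Equiv.permCongr_apply] using this
  · intro σ _
    ext s
    simp [Equiv.permCongr_apply]
  · intro σ _
    ext s
    simp [Equiv.permCongr_apply]
  · intro σ _
    rw [sgn_permCongr]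
    congr 2
    have hinv : ∀ y, (h.symm.permCongr σ)⁻¹ y = h.symm (σ⁻¹ (h y)) := by
      intro y
      rw [Equiv.Perm.inv_eq_iff_eq]
      simp [Equiv.permCongr_apply]
    have : (u = r ∘ ⇑h.symm ∘ ⇑(σ⁻¹)) ↔ (u ∘ ⇑h = r ∘ ⇑((h.symm.permCongr σ)⁻¹)) := by
      constructor
      · intro hu
        funext y
        simp only [Function.comp_apply, hinv]
        rw [hu]
        rfl
      · intro hu
        funext y
        have h1 := congrFun hu (h.symm y)
        simp only [Function.comp_apply, hinv, Equiv.apply_symm_apply] at h1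
        exact h1
    simp only [Function.comp_assoc] at this ⊢
    simp only [this]

/-- Tableaux under a renaming of the slots. -/
theorem poly_trans {S₁ S₂ : Type*} [Fintype S₁] [DecidableEq S₁] [Fintype S₂] [DecidableEq S₂]
    {D : Finset (ℕ × ℕ)} (t : D ≃ S₁) (h : S₁ ≃ S₂) (u : S₂ → ℕ) :
    poly (t.trans h) u = poly t (u ∘ h) :=
  polyRC_equiv h (rowOf t) (colOf t) u

/-- Alternation. -/
theorem polyRC_alt (r c : S → ℕ) {σ : Perm S} (hσ : σ ∈ stab c) (w : S → ℕ) :
    polyRC r c (w ∘ σ) = sgn σ * polyRC r c w := by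
  have h0 : polyRC r c = gact (fnRep S) (symB c) (dlt r) := by
    rw [gact_symB]
    funext w
    simp only [polyRC, Finset.sum_apply, Pi.smul_apply, smul_eq_mul, fnRep_dlt, dlt]
  rw [h0]
  have h1 := gact_symB_alt (fnRep S) c (dlt r) hσ
  have h2 := congrFun h1 w
  simpa using h2

theorem exists_of_polyRC_ne_zero {r c w : S → ℕ} (h : polyRC r c w ≠ 0) :
    ∃ σ ∈ stab c, w = r ∘ ⇑(σ⁻¹) := by
  obtain ⟨σ, hσ, h1⟩ := Finset.exists_ne_zero_of_sum_ne_zero h
  refine ⟨σ, hσ, ?_⟩
  by_contra h2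
  apply h1
  rw [if_neg h2, mul_zero]

/-- The value of a polytabloid. -/
theorem polyRC_eval {r c : S → ℕ} (hinj : Function.Injective fun s => (r s, c s))
    {σ : Perm S} (hσ : σ ∈ stab c) : polyRC r c (r ∘ ⇑(σ⁻¹)) = sgn σ := by
  simp only [polyRC]
  rw [Finset.sum_eq_single σ]
  · simp
  · intro τ hτ hne
    rw [if_neg, mul_zero]
    intro h
    apply hne
    have hinv : τ⁻¹ = σ⁻¹ := by
      ext s
      have h1 := congrFun h s
      simp only [Function.comp_apply] at h1
      have h2 : c (σ⁻¹ s) = c (τ⁻¹ s) := by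
        have h3 := (mem_stab.mp (inv_mem_stab hσ)) s
        have h4 := (mem_stab.mp (inv_mem_stab hτ)) s
        rw [h3, h4]
      have := @hinj (σ⁻¹ s) (τ⁻¹ s) (Prod.ext h1 h2)
      rw [this]
    exact inv_injective hinv
  · intro h
    exact absurd hσ h

/-- Splitting the columns into two parts. -/
theorem polyRC_split (p : S → Prop) [DecidablePred p] [Fintype {s // p s}] [Fintype {s // ¬ p s}]
    (r c : S → ℕ) (hc : ∀ s s', c s = c s' → (p s ↔ p s')) (w : S → ℕ) :
    polyRC r c w =
      polyRC (r ∘ ((↑) : {s // p s} → S)) (c ∘ ((↑) : {s // p s} → S)) (w ∘ ((↑) : {s // p s} → S)) *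
      polyRC (r ∘ ((↑) : {s // ¬ p s} → S)) (c ∘ ((↑) : {s // ¬ p s} → S))
        (w ∘ ((↑) : {s // ¬ p s} → S)) := by
  simp only [polyRC]
  rw [Finset.sum_mul_sum, ← Finset.sum_product']
  symm
  refine Finset.sum_bij (fun q _ => Perm.subtypeCongr q.1 q.2) ?_ ?_ ?_ ?_
  · rintro ⟨σ₁, σ₂⟩ hq
    obtain ⟨h1, h2⟩ := Finset.mem_product.mp hq
    rw [mem_stab] at h1 h2 ⊢
    intro s
    by_cases hs : p s
    · rw [Perm.subtypeCongr.left_apply _ _ hs]
      exact h1 ⟨s, hs⟩
    · rw [Perm.subtypeCongr.right_apply _ _ hs]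
      exact h2 ⟨s, hs⟩
  · rintro ⟨σ₁, σ₂⟩ _ ⟨τ₁, τ₂⟩ _ h
    have h1 : σ₁ = τ₁ := by
      ext s
      have := congrArg (fun g : Perm S => g s.1) h
      simp only [Perm.subtypeCongr.left_apply _ _ s.2] at this
      simpa using this
    have h2 : σ₂ = τ₂ := by
      ext s
      have := congrArg (fun g : Perm S => g s.1) h
      simp only [Perm.subtypeCongr.right_apply _ _ s.2] at this
      simpa using this
    rw [h1, h2]
  · intro σ hσ
    rw [mem_stab] at hσ
    have hp : ∀ x, p (σ x) ↔ p x := fun x => hc _ _ (hσ x)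
    have hn : ∀ x, ¬ p (σ x) ↔ ¬ p x := fun x => not_congr (hp x)
    refine ⟨(σ.subtypePerm hp, σ.subtypePerm hn), ?_, ?_⟩
    · refine Finset.mem_product.mpr ⟨?_, ?_⟩
      · rw [mem_stab]
        intro s
        exact hσ s.1
      · rw [mem_stab]
        intro s
        exact hσ s.1
    · ext s
      by_cases hs : p s
      · simp only [Perm.subtypeCongr.left_apply _ _ hs]
        rfl
      · simp only [Perm.subtypeCongr.right_apply _ _ hs]
        rfl
  · rintro ⟨σ₁, σ₂⟩ _
    have hsign : sgn (Perm.subtypeCongr σ₁ σ₂) = sgn σ₁ * sgn σ₂ := by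
      simp only [sgn]
      have : Perm.sign (Perm.subtypeCongr σ₁ σ₂) = Perm.sign σ₁ * Perm.sign σ₂ := by
        convert Perm.sign_subtypeCongr σ₁ σ₂
      rw [this]
      push_cast
      rfl
    have hinv : ∀ s, p s → ∀ (hs : p s), (Perm.subtypeCongr σ₁ σ₂)⁻¹ s = (σ₁⁻¹ ⟨s, hs⟩ : {s // p s}) := by
      intro s _ hs
      rw [Perm.inv_eq_iff_eq, Perm.subtypeCongr.left_apply _ _ (σ₁⁻¹ ⟨s, hs⟩).2]
      simp
    have hinv2 : ∀ s, ∀ (hs : ¬ p s), (Perm.subtypeCongr σ₁ σ₂)⁻¹ s = (σ₂⁻¹ ⟨s, hs⟩ : {s // ¬ p s}) := by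
      intro s hs
      rw [Perm.inv_eq_iff_eq, Perm.subtypeCongr.right_apply _ _ (σ₂⁻¹ ⟨s, hs⟩).2]
      simp
    have hiff : (w = r ∘ ⇑((Perm.subtypeCongr σ₁ σ₂)⁻¹)) ↔
        (w ∘ ((↑) : {s // p s} → S) = (r ∘ ((↑) : {s // p s} → S)) ∘ ⇑(σ₁⁻¹)) ∧
        (w ∘ ((↑) : {s // ¬ p s} → S) = (r ∘ ((↑) : {s // ¬ p s} → S)) ∘ ⇑(σ₂⁻¹)) := by
      constructor
      · intro h
        constructor
        · funext s
          have := congrFun h s.1
          simp only [Function.comp_apply] at this ⊢
          rw [this, hinv s.1 s.2 s.2]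
        · funext s
          have := congrFun h s.1
          simp only [Function.comp_apply] at this ⊢
          rw [this, hinv2 s.1 s.2]
      · rintro ⟨h1, h2⟩
        funext s
        by_cases hs : p s
        · have := congrFun h1 ⟨s, hs⟩
          simp only [Function.comp_apply] at this ⊢
          rw [this, hinv s hs hs]
        · have := congrFun h2 ⟨s, hs⟩
          simp only [Function.comp_apply] at this ⊢
          rw [this, hinv2 s hs]
    simp only [hsign, hiff]
    by_cases h1 : (w ∘ ((↑) : {s // p s} → S) = (r ∘ ((↑) : {s // p s} → S)) ∘ ⇑(σ₁⁻¹))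
    · by_cases h2 : (w ∘ ((↑) : {s // ¬ p s} → S) = (r ∘ ((↑) : {s // ¬ p s} → S)) ∘ ⇑(σ₂⁻¹))
      · rw [if_pos h1, if_pos h2, if_pos ⟨h1, h2⟩]
        ring
      · rw [if_neg h2, if_neg (not_and_of_not_right _ h2)]
        ring
    · rw [if_neg h1, if_neg (not_and_of_not_left _ h1)]
      ring

end PolyRC

section Shapes

/-- A single column of height `c`. -/
def colShape (c : ℕ) : Finset (ℕ × ℕ) := (Finset.range c).image fun i => (i, 0)

theorem mem_colShape {c : ℕ} {q : ℕ × ℕ} : q ∈ colShape c ↔ q.1 < c ∧ q.2 = 0 := by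
  rcases q with ⟨i, j⟩
  simp only [colShape, Finset.mem_image, Finset.mem_range, Prod.mk.injEq]
  constructor
  · rintro ⟨a, ha, rfl, rfl⟩
    exact ⟨ha, rfl⟩
  · rintro ⟨h1, h2⟩
    exact ⟨i, h1, rfl, h2.symm⟩

theorem card_colShape (c : ℕ) : (colShape c).card = c := by
  rw [colShape, Finset.card_image_of_injective, Finset.card_range]
  intro a b h
  exact (Prod.mk.inj h).1

/-- Shift all the cells one column to the right. -/
def shiftCol (X : Finset (ℕ × ℕ)) : Finset (ℕ × ℕ) := X.image fun q => (q.1, q.2 + 1)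

theorem mem_shiftCol {X : Finset (ℕ × ℕ)} {q : ℕ × ℕ} :
    q ∈ shiftCol X ↔ ∃ j, q.2 = j + 1 ∧ (q.1, j) ∈ X := by
  rcases q with ⟨i, j⟩
  simp only [shiftCol, Finset.mem_image, Prod.mk.injEq]
  constructor
  · rintro ⟨⟨a, b⟩, hb, rfl, rfl⟩
    exact ⟨b, rfl, hb⟩
  · rintro ⟨b, rfl, hb⟩
    exact ⟨(i, b), hb, rfl, rfl⟩

/-- Add a column of height `c` on the left. -/
def addCol (c : ℕ) (X : Finset (ℕ × ℕ)) : Finset (ℕ × ℕ) := colShape c ∪ shiftCol X

/-- The number of cells in a row. -/
def rowCnt (X : Finset (ℕ × ℕ)) (b : ℕ) : ℕ := (X.filter fun q => q.1 = b).card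

variable {S : Type*} [Fintype S] [DecidableEq S]

/-- The content of the row colouring. -/
theorem lc_rowOf {D : Finset (ℕ × ℕ)} (t : D ≃ S) (b : ℕ) : lc (rowOf t) b = rowCnt D b := by
  simp only [lc, rowCnt]
  refine Finset.card_bij (fun s _ => (t.symm s).1) ?_ ?_ ?_
  · intro s hs
    have hs' := (Finset.mem_filter.mp hs).2
    exact Finset.mem_filter.mpr ⟨(t.symm s).2, hs'⟩
  · intro s _ s' _ h
    exact t.symm.injective (Subtype.ext h)
  · intro q hq
    obtain ⟨h1, h2⟩ := Finset.mem_filter.mp hq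
    refine ⟨t ⟨q, h1⟩, Finset.mem_filter.mpr ⟨Finset.mem_univ _, ?_⟩, ?_⟩
    · simp [rowOf, h2]
    · simp

theorem content_of_poly_ne_zero {D : Finset (ℕ × ℕ)} (t : D ≃ S) {u : S → ℕ} (h : poly t u ≠ 0)
    (b : ℕ) : lc u b = rowCnt D b := by
  obtain ⟨σ, _, hσ⟩ := exists_of_polyRC_ne_zero h
  rw [hσ, lc_comp, lc_rowOf]

theorem content_of_mem_XX {D E : Finset (ℕ × ℕ)} {F : Fn2 S} (hF : F ∈ XX S D E) {u₁ u₂ : S → ℕ}
    (h : F u₁ u₂ ≠ 0) : (∀ b, lc u₁ b = rowCnt D b) ∧ ∀ b, lc u₂ b = rowCnt E b := by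
  by_contra hn
  apply h
  clear h
  induction hF using Submodule.span_induction with
  | mem x hx =>
    obtain ⟨p, rfl⟩ := hx
    show poly p.1 u₁ * poly p.2 u₂ = 0
    by_contra h0
    obtain ⟨h1, h2⟩ := mul_ne_zero_iff.mp h0
    exact hn ⟨content_of_poly_ne_zero p.1 h1, content_of_poly_ne_zero p.2 h2⟩
  | zero => rfl
  | add x y _ _ hx hy =>
    show x u₁ u₂ + y u₁ u₂ = 0
    rw [hx, hy, add_zero]
  | smul a x _ hx =>
    show a • x u₁ u₂ = 0
    rw [hx, smul_zero]

variable {A : Finset S} {c : ℕ} {X : Finset (ℕ × ℕ)}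

/-- The cell of a slot in the tableau with the column `t` on the left of `t'`. -/
def combCell (t : colShape c ≃ A) (t' : X ≃ {s // s ∉ A}) (s : S) : addCol c X :=
  if h : s ∈ A then ⟨(t.symm ⟨s, h⟩).1, Finset.mem_union_left _ (t.symm ⟨s, h⟩).2⟩
  else ⟨((t'.symm ⟨s, h⟩).1.1, (t'.symm ⟨s, h⟩).1.2 + 1),
    Finset.mem_union_right _ (mem_shiftCol.mpr ⟨_, rfl, (t'.symm ⟨s, h⟩).2⟩)⟩

theorem colOf_column (t : colShape c ≃ A) (x : A) : colOf t x = 0 :=
  (mem_colShape.mp (t.symm x).2).2

theorem combCell_bijective (t : colShape c ≃ A) (t' : X ≃ {s // s ∉ A}) :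
    Function.Bijective (combCell t t') := by
  constructor
  · intro s s' h
    have hval := congrArg Subtype.val h
    by_cases hs : s ∈ A <;> by_cases hs' : s' ∈ A
    · simp only [combCell, hs, hs', dif_pos] at hval
      have := t.symm.injective (Subtype.ext hval)
      exact congrArg Subtype.val this
    · simp only [combCell, hs, hs', dif_pos, dif_neg, not_false_eq_true] at hval
      have h1 := colOf_column t ⟨s, hs⟩
      have h2 := congrArg Prod.snd hval
      simp only [colOf] at h1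
      simp only at h2
      omega
    · simp only [combCell, hs, hs', dif_pos, dif_neg, not_false_eq_true] at hval
      have h1 := colOf_column t ⟨s', hs'⟩
      have h2 := congrArg Prod.snd hval
      simp only [colOf] at h1
      simp only at h2
      omega
    · simp only [combCell, hs, hs', dif_neg, not_false_eq_true] at hval
      have h1 := congrArg Prod.fst hval
      have h2 := congrArg Prod.snd hval
      simp only at h1 h2
      have h3 : (t'.symm ⟨s, hs⟩).1 = (t'.symm ⟨s', hs'⟩).1 := Prod.ext h1 (by omega)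
      have := t'.symm.injective (Subtype.ext h3)
      exact congrArg Subtype.val this
  · rintro ⟨q, hq⟩
    rcases Finset.mem_union.mp hq with h | h
    · refine ⟨(t ⟨q, h⟩).1, ?_⟩
      have hm := (t ⟨q, h⟩).2
      apply Subtype.ext
      simp [combCell, hm]
    · obtain ⟨j, hj, hX⟩ := mem_shiftCol.mp h
      refine ⟨(t' ⟨(q.1, j), hX⟩).1, ?_⟩
      have hm := (t' ⟨(q.1, j), hX⟩).2
      apply Subtype.ext
      rcases q with ⟨a, b⟩
      simp only at hj
      subst hj
      simp [combCell, hm]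

/-- The tableau with the column `t` on the left of `t'`. -/
noncomputable def combine (t : colShape c ≃ A) (t' : X ≃ {s // s ∉ A}) : addCol c X ≃ S :=
  (Equiv.ofBijective _ (combCell_bijective t t')).symm

theorem poly_combine (t : colShape c ≃ A) (t' : X ≃ {s // s ∉ A}) (w : S → ℕ) :
    poly (combine t t') w = poly t (w ∘ (↑)) * poly t' (w ∘ (↑)) := by
  have hr1 : rowOf (combine t t') ∘ ((↑) : A → S) = rowOf t := by
    funext x
    simp [rowOf, combine, combCell]
  have hc1 : colOf (combine t t') ∘ ((↑) : A → S) = colOf t := by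
    funext x
    simp [colOf, combine, combCell]
  have hr2 : rowOf (combine t t') ∘ ((↑) : {s // s ∉ A} → S) = rowOf t' := by
    funext x
    simp [rowOf, combine, combCell, x.2]
  have hc2 : ∀ x : {s // s ∉ A}, (colOf (combine t t') ∘ ((↑) : {s // s ∉ A} → S)) x = colOf t' x + 1 := by
    intro x
    simp [colOf, combine, combCell, x.2]
  have hcol1 : ∀ x : A, colOf (combine t t') x.1 = 0 := fun x => by
    have := congrFun hc1 x
    simp only [Function.comp_apply] at this
    rw [this, colOf_column]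
  have hsplit := polyRC_split (fun s => s ∈ A) (rowOf (combine t t')) (colOf (combine t t')) (by
    intro s s' h
    by_cases hs : s ∈ A <;> by_cases hs' : s' ∈ A
    · simp [hs, hs']
    · exfalso
      have h1 := hcol1 ⟨s, hs⟩
      have h2 := hc2 ⟨s', hs'⟩
      simp only [Function.comp_apply] at h2
      simp only at h1
      omega
    · exfalso
      have h1 := hcol1 ⟨s', hs'⟩
      have h2 := hc2 ⟨s, hs⟩
      simp only [Function.comp_apply] at h2
      simp only at h1
      omega
    · simp [hs, hs']) w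
  rw [poly_eq_polyRC, hsplit]
  congr 1
  · show polyRC (rowOf (combine t t') ∘ ((↑) : A → S)) (colOf (combine t t') ∘ ((↑) : A → S)) _ = _
    rw [hr1, hc1]
    rfl
  · show polyRC (rowOf (combine t t') ∘ ((↑) : {s // s ∉ A} → S))
      (colOf (combine t t') ∘ ((↑) : {s // s ∉ A} → S)) _ = _
    rw [hr2, polyRC_congr_stab _ (c' := colOf t')]
    · rfl
    · refine stab_congr fun s s' => ?_
      rw [hc2, hc2]
      omega

/-- A tableau of a column on `A`. -/
noncomputable def colTab (hA : A.card = c) : colShape c ≃ A :=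
  Fintype.equivOfCardEq (by simp [card_colShape, hA])

open Classical in
/-- The product of the two column polytabloids on `A`. -/
noncomputable def colE (c : ℕ) (A : Finset S) : Fn2 S :=
  if h : A.card = c then
    fun w₁ w₂ => poly (colTab h) (w₁ ∘ (↑)) * poly (colTab h) (w₂ ∘ (↑))
  else 0

theorem stab_column (t : colShape c ≃ A) (g : Perm A) : g ∈ stab (colOf t) := by
  rw [mem_stab]
  intro s
  rw [colOf_column, colOf_column]

/-- The product does not depend on the tableau. -/
theorem colE_eq (hA : A.card = c) (t : colShape c ≃ A) (w₁ w₂ : S → ℕ) :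
    colE c A w₁ w₂ = poly t (w₁ ∘ (↑)) * poly t (w₂ ∘ (↑)) := by
  rw [colE, dif_pos hA]
  let g : Perm A := t.symm.trans (colTab hA)
  have hg : colTab hA = t.trans g := by
    ext x
    simp [g]
  show poly (colTab hA) (w₁ ∘ (↑)) * poly (colTab hA) (w₂ ∘ (↑)) = _
  rw [hg, poly_trans, poly_trans]
  have e1 : ∀ w : S → ℕ, poly t ((w ∘ ((↑) : A → S)) ∘ ⇑g) = sgn g * poly t (w ∘ (↑)) := fun w =>
    polyRC_alt (rowOf t) (colOf t) (stab_column t g) _
  rw [e1, e1]
  linear_combination (poly t (w₁ ∘ (↑)) * poly t (w₂ ∘ (↑))) * sgn_mul_self g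

/-- Naturality. -/
theorem colE_image (hA : A.card = c) (g : Perm S) (w₁ w₂ : S → ℕ) :
    colE c (A.image g) w₁ w₂ = colE c A (w₁ ∘ g) (w₂ ∘ g) := by
  have hB : (A.image g).card = c := by
    rw [Finset.card_image_of_injective _ g.injective, hA]
  let h : A ≃ A.image g := g.subtypeEquiv (by
    intro a
    simp)
  rw [colE_eq hB ((colTab hA).trans h), colE_eq hA (colTab hA), poly_trans, poly_trans]
  rfl

theorem image_of_poly_ne_zero (t : colShape c ≃ A) {u : S → ℕ} (h : poly t (u ∘ (↑)) ≠ 0) :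
    A.image u = Finset.range c := by
  obtain ⟨σ, _, hσ⟩ := exists_of_polyRC_ne_zero h
  have hval : ∀ x : A, u x = rowOf t (σ⁻¹ x) := fun x => congrFun hσ x
  ext b
  simp only [Finset.mem_image, Finset.mem_range]
  constructor
  · rintro ⟨x, hx, rfl⟩
    rw [hval ⟨x, hx⟩]
    exact (mem_colShape.mp (t.symm (σ⁻¹ ⟨x, hx⟩)).2).1
  · intro hb
    have hm : (b, 0) ∈ colShape c := mem_colShape.mpr ⟨hb, rfl⟩
    refine ⟨(σ (t ⟨(b, 0), hm⟩)).1, (σ (t ⟨(b, 0), hm⟩)).2, ?_⟩
    rw [hval]
    simp [rowOf]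

theorem colE_support (hA : A.card = c) {w₁ w₂ : S → ℕ} (h : colE c A w₁ w₂ ≠ 0) :
    A.image w₁ = Finset.range c ∧ A.image w₂ = Finset.range c := by
  rw [colE_eq hA (colTab hA)] at h
  obtain ⟨h1, h2⟩ := mul_ne_zero_iff.mp h
  exact ⟨image_of_poly_ne_zero _ h1, image_of_poly_ne_zero _ h2⟩

/-- Row number of a column tableau. -/
noncomputable def colRow (t : colShape c ≃ A) : A ≃ Fin c :=
  Equiv.ofBijective (fun x => ⟨rowOf t x, (mem_colShape.mp (t.symm x).2).1⟩) (by
    rw [Fintype.bijective_iff_injective_and_card]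
    constructor
    · intro x y h
      have h1 : rowOf t x = rowOf t y := congrArg Fin.val h
      refine rowOf_colOf_injective t (Prod.ext h1 ?_)
      simp only
      rw [colOf_column, colOf_column]
    · have := t.symm.toEmbedding
      rw [Fintype.card_fin, ← Fintype.card_congr t, Fintype.card_coe, card_colShape])

theorem colRow_val (t : colShape c ≃ A) (x : A) : ((colRow t x : Fin c) : ℕ) = rowOf t x := rfl

/-- The value of the product on the twisted diagonal. -/
theorem colE_diag (hA : A.card = c) (τc : Perm (Fin c)) (τ : ℕ → ℕ)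
    (hτ : ∀ i : Fin c, τ i = τc i) {w₁ w₂ : S → ℕ} (h1 : A.image w₁ = Finset.range c)
    (h2 : ∀ x ∈ A, w₂ x = τ (w₁ x)) : colE c A w₁ w₂ = sgn τc := by
  set t := colTab hA with ht
  set e := colRow t with he
  rw [colE_eq hA t]
  have hlt : ∀ x : A, w₁ x < c := by
    intro x
    have : w₁ x ∈ A.image w₁ := Finset.mem_image_of_mem _ x.2
    rw [h1] at this
    exact Finset.mem_range.mp this
  let eu : A ≃ Fin c := Equiv.ofBijective (fun x => ⟨w₁ x, hlt x⟩) (by
    rw [Fintype.bijective_iff_surjective_and_card]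
    constructor
    · intro b
      have : (b : ℕ) ∈ A.image w₁ := by
        rw [h1]
        exact Finset.mem_range.mpr b.2
      obtain ⟨x, hx, hxb⟩ := Finset.mem_image.mp this
      exact ⟨⟨x, hx⟩, Fin.ext hxb⟩
    · rw [Fintype.card_fin, Fintype.card_coe, hA])
  have heu : ∀ x : A, ((eu x : Fin c) : ℕ) = w₁ x := fun x => rfl
  let σ : Perm A := eu.trans e.symm
  let σ₂ : Perm A := eu.trans (τc.trans e.symm)
  have hrow : ∀ y : Fin c, rowOf t (e.symm y) = y := by
    intro y
    rw [← colRow_val, ← he, Equiv.apply_symm_apply]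
  have e1 : w₁ ∘ ((↑) : A → S) = rowOf t ∘ ⇑((σ⁻¹)⁻¹) := by
    funext x
    simp only [Function.comp_apply, inv_inv]
    show w₁ x = rowOf t (e.symm (eu x))
    rw [hrow, heu]
  have e2 : w₂ ∘ ((↑) : A → S) = rowOf t ∘ ⇑((σ₂⁻¹)⁻¹) := by
    funext x
    simp only [Function.comp_apply, inv_inv]
    show w₂ x = rowOf t (e.symm (τc (eu x)))
    rw [hrow, h2 x x.2, ← hτ, heu]
  have hv1 : poly t (w₁ ∘ (↑)) = sgn σ⁻¹ := by
    rw [e1]
    exact polyRC_eval (rowOf_colOf_injective t) (stab_column t _)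
  have hv2 : poly t (w₂ ∘ (↑)) = sgn σ₂⁻¹ := by
    rw [e2]
    exact polyRC_eval (rowOf_colOf_injective t) (stab_column t _)
  have hσ₂ : σ₂ = e.symm.permCongr τc * σ := by
    ext x
    simp [σ₂, σ, Equiv.permCongr_apply]
  rw [hv1, hv2, sgn_inv, sgn_inv, hσ₂, sgn_mul, sgn_permCongr]
  linear_combination (sgn τc) * sgn_mul_self σ

end Shapes

section Local

variable {S : Type u} [Fintype S] [DecidableEq S]
variable {V : Type v} [AddCommGroup V] [Module ℂ V]

/-- The elements fixing the complement of `A`. -/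
def pointwiseOff (A : Finset S) : Finset (Perm S) :=
  Finset.univ.filter fun g => ∀ s, s ∉ A → g s = s

theorem mem_pointwiseOff {A : Finset S} {g : Perm S} :
    g ∈ pointwiseOff A ↔ ∀ s, s ∉ A → g s = s := by
  simp [pointwiseOff]

/-- The representation restricted to the symmetric group of the complement of `A`. -/
noncomputable def resOff (ρ : Representation ℂ (Perm S) V) (A : Finset S) :
    Representation ℂ (Perm {s // s ∉ A}) V :=
  ρ.comp (Perm.ofSubtype (p := fun s => s ∉ A))

theorem resOff_apply (ρ : Representation ℂ (Perm S) V) (A : Finset S)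
    (σ : Perm {s // s ∉ A}) (x : V) :
    resOff ρ A σ x = ρ (Perm.ofSubtype σ) x := rfl

theorem ofSubtype_comm (A : Finset S) (σ : Perm {s // s ∉ A}) {g : Perm S}
    (hg : g ∈ pointwiseOff A) : Perm.ofSubtype σ * g = g * Perm.ofSubtype σ := by
  rw [mem_pointwiseOff] at hg
  ext s
  simp only [Perm.coe_mul, Function.comp_apply]
  by_cases hs : s ∈ A
  · have h1 : Perm.ofSubtype σ s = s := Perm.ofSubtype_apply_of_not_mem σ (by simpa using hs)
    have h2 : g s ∈ A := by
      by_contra h
      have h3 := hg _ h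
      have h4 := g.injective h3
      exact h (by rw [h4]; exact hs)
    have h3 : Perm.ofSubtype σ (g s) = g s := Perm.ofSubtype_apply_of_not_mem σ (by simpa using h2)
    rw [h1, h3]
  · have h1 : Perm.ofSubtype σ s = σ ⟨s, hs⟩ := Perm.ofSubtype_apply_of_mem σ hs
    have h2 : s ∉ A := hs
    rw [hg s h2, h1, hg _ (σ ⟨s, hs⟩).2]

/-- Restriction of a representation to the pointwise stabilizer of the complement, projected to
an irreducible piece of the fixed vectors of the symmetric group of `A`. -/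
theorem exists_local_map [FiniteDimensional ℂ V] (ρ : Representation ℂ (Perm S) V) (A : Finset S)
    (v : V) (hv : v ≠ 0) (hfix : ∀ g : Perm S, (∀ s, s ∉ A → g s = s) → ρ g v = v)
    (X Y : Finset (ℕ × ℕ))
    (IH : ∀ (V' : Type v) [AddCommGroup V'] [Module ℂ V'] [FiniteDimensional ℂ V']
      (ρ' : Representation ℂ (Perm {s // s ∉ A}) V'), ρ'.IsIrreducible → Occurs ρ' X Y) :
    ∃ ψ : V →ₗ[ℂ] Fn2 {s // s ∉ A}, ψ ≠ 0 ∧
      (∀ σ x, ψ (ρ (Perm.ofSubtype σ) x) = fn2Rep _ σ (ψ x)) ∧
      (∀ g x, (∀ s, s ∉ A → g s = s) → ψ (ρ g x) = ψ x) ∧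
      ∀ x, ψ x ∈ XX _ X Y := by
  classical
  set L := pointwiseOff A with hL
  have hLone : (1 : Perm S) ∈ L := by
    rw [hL, mem_pointwiseOff]
    intro s _
    rfl
  have hLmul : ∀ g ∈ L, ∀ h ∈ L, g * h ∈ L := by
    intro g hg h hh
    rw [hL, mem_pointwiseOff] at hg hh ⊢
    intro s hs
    simp only [Perm.coe_mul, Function.comp_apply]
    rw [hh s hs, hg s hs]
  have hLinv : ∀ g ∈ L, g⁻¹ ∈ L := by
    intro g hg
    rw [hL, mem_pointwiseOff] at hg ⊢
    intro s hs
    rw [Perm.inv_eq_iff_eq, hg s hs]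
  -- the averaging operator
  let eL : V →ₗ[ℂ] V := ∑ g ∈ L, ρ g
  have heL : ∀ x, eL x = ∑ g ∈ L, ρ g x := by
    intro x
    simp [eL, LinearMap.sum_apply]
  have heL_fix : ∀ g ∈ L, ∀ x, ρ g (eL x) = eL x := by
    intro g hg x
    rw [heL, map_sum]
    refine Finset.sum_nbij' (fun h => g * h) (fun h => g⁻¹ * h) ?_ ?_ ?_ ?_ ?_
    · intro h hh
      exact hLmul g hg h hh
    · intro h hh
      exact hLmul _ (hLinv g hg) h hh
    · intro h _
      simp
    · intro h _
      simp
    · intro h _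
      rw [map_mul, Module.End.mul_apply]
  have heL_inv : ∀ g ∈ L, ∀ x, eL (ρ g x) = eL x := by
    intro g hg x
    rw [heL, heL]
    refine Finset.sum_nbij' (fun h => h * g) (fun h => h * g⁻¹) ?_ ?_ ?_ ?_ ?_
    · intro h hh
      exact hLmul h hh g hg
    · intro h hh
      exact hLmul h hh _ (hLinv g hg)
    · intro h _
      simp
    · intro h _
      simp
    · intro h _
      rw [map_mul, Module.End.mul_apply]
  have heL_comm : ∀ (σ : Perm {s // s ∉ A}) x,
      eL (ρ (Perm.ofSubtype σ) x) = ρ (Perm.ofSubtype σ) (eL x) := by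
    intro σ x
    rw [heL, heL, map_sum]
    refine Finset.sum_congr rfl fun g hg => ?_
    rw [← Module.End.mul_apply, ← map_mul, ← Module.End.mul_apply, ← map_mul, ofSubtype_comm A σ hg]
  -- fixed vectors
  let R := resOff ρ A
  let W0 : Subrepresentation R :=
    { toSubmodule :=
        { carrier := {x | ∀ g ∈ L, ρ g x = x}
          add_mem' := by
            intro a b ha hb g hg
            rw [map_add, ha g hg, hb g hg]
          zero_mem' := by
            intro g _
            simp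
          smul_mem' := by
            intro c x hx g hg
            rw [map_smul, hx g hg] }
      apply_mem_toSubmodule := by
        intro σ x hx g hg
        show ρ g (ρ (Perm.ofSubtype σ) x) = ρ (Perm.ofSubtype σ) x
        rw [← Module.End.mul_apply, ← map_mul, ← ofSubtype_comm A σ hg, map_mul,
          Module.End.mul_apply, hx g hg] }
  have hvW : v ∈ W0.toSubmodule := fun g hg => hfix g (mem_pointwiseOff.mp hg)
  obtain ⟨p, hp, -⟩ := exists_irreducible_gact_ne_zero W0.toRepresentation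
    (fun g => if g = 1 then (1 : ℂ) else 0) (by
      refine ⟨⟨v, hvW⟩, fun h0 => hv ?_⟩
      have h1 := congrArg Subtype.val h0
      simp only [gact_apply, ite_smul, one_smul, zero_smul, Finset.sum_ite_eq', Finset.mem_univ,
        if_true, map_one, Module.End.one_apply] at h1
      exact h1)
  obtain ⟨φ, hφ0, hφeq, hφX⟩ := IH _ p.toRepresentation hp
  obtain ⟨r, hr1, hr2, hr3⟩ := exists_retraction W0.toRepresentation p
  let q1 : V →ₗ[ℂ] W0.toSubmodule := LinearMap.codRestrict W0.toSubmodule eL (fun x g hg => heL_fix g hg x)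
  let q : V →ₗ[ℂ] p.toSubmodule := LinearMap.codRestrict p.toSubmodule (r ∘ₗ q1) (fun x => hr1 _)
  have hq1 : ∀ x, ((q1 x : W0.toSubmodule) : V) = eL x := fun x => rfl
  have hq : ∀ x, ((q x : p.toSubmodule) : W0.toSubmodule) = r (q1 x) := fun x => rfl
  refine ⟨φ ∘ₗ q, ?_, ?_, ?_, ?_⟩
  · -- nonzero
    intro h0
    apply hφ0
    ext1 y
    have hyW : ((y : W0.toSubmodule) : V) ∈ W0.toSubmodule := (y : W0.toSubmodule).2
    have h1 : q1 (y : W0.toSubmodule).1 = (L.card : ℂ) • (y : W0.toSubmodule) := by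
      apply Subtype.ext
      rw [hq1, heL]
      have : ∀ g ∈ L, ρ g ((y : W0.toSubmodule) : V) = ((y : W0.toSubmodule) : V) :=
        fun g hg => hyW g hg
      rw [Finset.sum_congr rfl this, Finset.sum_const]
      simp only [Submodule.coe_smul]
      rw [Nat.cast_smul_eq_nsmul]
    have h2 : q (y : W0.toSubmodule).1 = (L.card : ℂ) • y := by
      apply Subtype.ext
      rw [hq, h1, map_smul, hr2 _ y.2]
      rfl
    have h3 : (φ ∘ₗ q) (y : W0.toSubmodule).1 = 0 := by rw [h0]; rfl
    rw [LinearMap.comp_apply, h2, map_smul] at h3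
    have hcard : (L.card : ℂ) ≠ 0 := by
      exact_mod_cast (Finset.card_pos.mpr ⟨1, hLone⟩).ne'
    have h4 := (smul_eq_zero.mp h3).resolve_left hcard
    rw [h4]
    rfl
  · -- equivariance
    intro σ x
    have h1 : q (ρ (Perm.ofSubtype σ) x) = p.toRepresentation σ (q x) := by
      apply Subtype.ext
      rw [hq]
      have h2 : q1 (ρ (Perm.ofSubtype σ) x) = W0.toRepresentation σ (q1 x) := by
        apply Subtype.ext
        rw [hq1]
        exact heL_comm σ x
      rw [h2, hr3]
      rfl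
    show φ (q (ρ (Perm.ofSubtype σ) x)) = fn2Rep _ σ (φ (q x))
    rw [h1, hφeq]
  · -- invariance
    intro g x hg
    have hgL : g ∈ L := mem_pointwiseOff.mpr hg
    have h1 : q1 (ρ g x) = q1 x := by
      apply Subtype.ext
      rw [hq1, hq1]
      exact heL_inv g hgL x
    have h2 : q (ρ g x) = q x := by
      apply Subtype.ext
      rw [hq, hq, h1]
    show φ (q (ρ g x)) = φ (q x)
    rw [h2]
  · intro x
    exact hφX _

end Local

section Main

variable {S : Type u} [Fintype S] [DecidableEq S]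
variable {V : Type v} [AddCommGroup V] [Module ℂ V]

/-- Products of a column with elements of `XX`. -/
theorem colE_mul_mem_XX {A : Finset S} {c : ℕ} (hA : A.card = c) {X Y : Finset (ℕ × ℕ)}
    {F : Fn2 {s // s ∉ A}} (hF : F ∈ XX _ X Y) :
    (fun w₁ w₂ => colE c A w₁ w₂ * F (w₁ ∘ (↑)) (w₂ ∘ (↑))) ∈ XX S (addCol c X) (addCol c Y) := by
  induction hF using Submodule.span_induction with
  | mem x hx =>
    obtain ⟨p, rfl⟩ := hx
    refine Submodule.subset_span ⟨(combine (colTab hA) p.1, combine (colTab hA) p.2), ?_⟩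
    funext w₁ w₂
    simp only [prod2, poly_combine, colE_eq hA (colTab hA)]
    ring
  | zero =>
    convert (XX S (addCol c X) (addCol c Y)).zero_mem using 1
    funext w₁ w₂
    simp
  | add x y _ _ hx hy =>
    convert (XX S (addCol c X) (addCol c Y)).add_mem hx hy using 1
    funext w₁ w₂
    simp [mul_add]
  | smul a x _ hx =>
    convert (XX S (addCol c X) (addCol c Y)).smul_mem a hx using 1
    funext w₁ w₂
    simp only [Pi.smul_apply, smul_eq_mul]
    ring

/-- The letters off `g A`. -/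
theorem lc_off (A : Finset S) (g : Perm S) (w : S → ℕ) (b : ℕ) :
    lc ((w ∘ g) ∘ ((↑) : {s // s ∉ A} → S)) b = cntOff (A.image g) w b := by
  simp only [lc, cntOff]
  refine Finset.card_bij (fun s _ => g s.1) ?_ ?_ ?_
  · intro s hs
    have hs' := (Finset.mem_filter.mp hs).2
    refine Finset.mem_filter.mpr ⟨Finset.mem_univ _, ?_, hs'⟩
    intro h
    obtain ⟨y, hy, hyg⟩ := Finset.mem_image.mp h
    exact s.2 (g.injective hyg ▸ hy)
  · intro s _ s' _ h
    exact Subtype.ext (g.injective h)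
  · intro x hx
    obtain ⟨_, h1, h2⟩ := Finset.mem_filter.mp hx
    have h3 : g⁻¹ x ∉ A := by
      intro h
      apply h1
      exact Finset.mem_image.mpr ⟨_, h, by simp⟩
    refine ⟨⟨g⁻¹ x, h3⟩, Finset.mem_filter.mpr ⟨Finset.mem_univ _, by simpa using h2⟩, by simp⟩

/-- **Theorem B.**  If `ρ` has a nonzero vector fixed by the symmetric group of the `c`-set `A`,
and every irreducible representation of the symmetric group of the complement of `A` occurs for
the shapes `X`, `Y`, and the shapes have few cells in the rows `< c`, then `ρ` occurs for the shapes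
with an added column of height `c`. -/
theorem occurs_of_fix_column [FiniteDimensional ℂ V] (ρ : Representation ℂ (Perm S) V)
    {A : Finset S} {c : ℕ} (hA : A.card = c)
    (v : V) (hv : v ≠ 0) (hfix : ∀ g : Perm S, (∀ s, s ∉ A → g s = s) → ρ g v = v)
    (X Y : Finset (ℕ × ℕ))
    (IH : ∀ (V' : Type v) [AddCommGroup V'] [Module ℂ V'] [FiniteDimensional ℂ V']
      (ρ' : Representation ℂ (Perm {s // s ∉ A}) V'), ρ'.IsIrreducible → Occurs ρ' X Y)
    (τc : Perm (Fin c)) (τ : ℕ → ℕ) (hτ : ∀ i : Fin c, τ i = τc i)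
    (π : ℕ → ℕ) (hπ : (Finset.range c).image π = Finset.range c)
    (hcnt : ∀ k < c, min (rowCnt X (π k)) (rowCnt Y (τ (π k))) + k + 1 ≤ c) :
    Occurs ρ (addCol c X) (addCol c Y) := by
  classical
  obtain ⟨ψ, hψ0, hψeq, hψinv, hψX⟩ := exists_local_map ρ A v hv hfix X Y IH
  -- the map before averaging
  let Ψ : V →ₗ[ℂ] Fn2 S :=
    { toFun := fun x w₁ w₂ => colE c A w₁ w₂ * ψ x (w₁ ∘ (↑)) (w₂ ∘ (↑))
      map_add' := by
        intro x y
        funext w₁ w₂
        simp [mul_add]
      map_smul' := by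
        intro a x
        funext w₁ w₂
        simp only [map_smul, Pi.smul_apply, smul_eq_mul, RingHom.id_apply]
        ring }
  have hΨ : ∀ x w₁ w₂, Ψ x w₁ w₂ = colE c A w₁ w₂ * ψ x (w₁ ∘ (↑)) (w₂ ∘ (↑)) := fun _ _ _ => rfl
  let Φ := avgMap ρ (fn2Rep S) Ψ
  refine ⟨Φ, ?_, avgMap_equivariant ρ (fn2Rep S) Ψ, ?_⟩
  · -- nonzero
    intro hΦ
    have hψne : ∃ x u₁ u₂, ψ x u₁ u₂ ≠ 0 := by
      by_contra hcon
      push Not at hcon
      apply hψ0
      ext1 x
      funext u₁ u₂
      exact hcon x u₁ u₂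
    obtain ⟨x, u₁, u₂, hne⟩ := hψne
    -- the families
    let G : Finset S → Fn2 S := fun A' w₁ w₂ =>
      ∑ g ∈ Finset.univ.filter (fun g : Perm S => A.image g = A'),
        ψ (ρ g⁻¹ x) ((w₁ ∘ g) ∘ (↑)) ((w₂ ∘ g) ∘ (↑))
    have hsum : ∀ w₁ w₂, ∑ A' ∈ Finset.powersetCard c (Finset.univ : Finset S),
        colE c A' w₁ w₂ * G A' w₁ w₂ = 0 := by
      intro w₁ w₂
      have h0 : Φ x w₁ w₂ = 0 := by
        rw [hΦ]
        rfl
      have h1 : Φ x w₁ w₂ = ∑ g : Perm S, colE c (A.image g) w₁ w₂ *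
          ψ (ρ g⁻¹ x) ((w₁ ∘ g) ∘ (↑)) ((w₂ ∘ g) ∘ (↑)) := by
        show avgMap ρ (fn2Rep S) Ψ x w₁ w₂ = _
        rw [avgMap_apply]
        simp only [Finset.sum_apply]
        refine Finset.sum_congr rfl fun g _ => ?_
        rw [fn2Rep_apply, hΨ, colE_image hA]
      rw [← h0, h1]
      have hmaps : ∀ g ∈ (Finset.univ : Finset (Perm S)),
          A.image g ∈ Finset.powersetCard c (Finset.univ : Finset S) := by
        intro g _
        refine Finset.mem_powersetCard.mpr ⟨Finset.subset_univ _, ?_⟩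
        rw [Finset.card_image_of_injective _ g.injective, hA]
      rw [← Finset.sum_fiberwise_of_maps_to hmaps]
      refine Finset.sum_congr rfl fun A' _ => ?_
      simp only [G]
      rw [Finset.mul_sum]
      refine Finset.sum_congr rfl fun g hg => ?_
      rw [(Finset.mem_filter.mp hg).2]
    have hGzero := gp_injective (S := S) (c := c) τ (colE c) (sgn τc) (sgn_ne_zero τc)
      (fun A' hA' w₁ w₂ h => colE_support hA' h)
      (fun A' hA' w₁ w₂ h1 h2 => colE_diag hA' τc τ hτ h1 h2)
      G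
      (by
        intro A' w₁ w₁' w₂ w₂' h1 h2
        refine Finset.sum_congr rfl fun g hg => ?_
        have hg' := (Finset.mem_filter.mp hg).2
        have hoff : ∀ s : {s // s ∉ A}, g s.1 ∉ A' := by
          intro s h
          rw [← hg'] at h
          obtain ⟨y, hy, hyg⟩ := Finset.mem_image.mp h
          exact s.2 (g.injective hyg ▸ hy)
        have e1 : (w₁ ∘ g) ∘ ((↑) : {s // s ∉ A} → S) = (w₁' ∘ g) ∘ (↑) := by
          funext s
          exact h1 _ (hoff s)
        have e2 : (w₂ ∘ g) ∘ ((↑) : {s // s ∉ A} → S) = (w₂' ∘ g) ∘ (↑) := by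
          funext s
          exact h2 _ (hoff s)
        rw [e1, e2])
      π hπ
      (by
        intro A' _ w₁ w₂ hG k hk
        obtain ⟨g, hg, hgne⟩ := Finset.exists_ne_zero_of_sum_ne_zero hG
        have hg' := (Finset.mem_filter.mp hg).2
        obtain ⟨h1, h2⟩ := content_of_mem_XX (hψX _) hgne
        have e1 : ∀ b, cntOff A' w₁ b = rowCnt X b := by
          intro b
          rw [← h1 b, lc_off, hg']
        have e2 : ∀ b, cntOff A' w₂ b = rowCnt Y b := by
          intro b
          rw [← h2 b, lc_off, hg']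
        rw [e1, e2]
        exact hcnt k hk)
      hsum
    -- evaluate at `A`
    let w₁ : S → ℕ := fun s => if h : s ∉ A then u₁ ⟨s, h⟩ else 0
    let w₂ : S → ℕ := fun s => if h : s ∉ A then u₂ ⟨s, h⟩ else 0
    have hw₁ : w₁ ∘ ((↑) : {s // s ∉ A} → S) = u₁ := by
      funext s
      simp [w₁, s.2]
    have hw₂ : w₂ ∘ ((↑) : {s // s ∉ A} → S) = u₂ := by
      funext s
      simp [w₂, s.2]
    have h1 := hGzero A hA w₁ w₂
    have hterm : ∀ g ∈ Finset.univ.filter (fun g : Perm S => A.image g = A),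
        ψ (ρ g⁻¹ x) ((w₁ ∘ g) ∘ (↑)) ((w₂ ∘ g) ∘ (↑)) = ψ x u₁ u₂ := by
      intro g hg
      have hg' := (Finset.mem_filter.mp hg).2
      have hmem : ∀ s, s ∉ A ↔ g s ∉ A := by
        intro s
        constructor
        · intro hs h
          rw [← hg'] at h
          obtain ⟨y, hy, hyg⟩ := Finset.mem_image.mp h
          exact hs (g.injective hyg ▸ hy)
        · intro hs h
          apply hs
          rw [← hg']
          exact Finset.mem_image_of_mem _ h
      let σ : Perm {s // s ∉ A} := g.subtypePerm (fun s => (hmem s).symm)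
      have hσ : ∀ s : {s // s ∉ A}, ((σ s : {s // s ∉ A}) : S) = g s.1 := fun s => rfl
      -- `g⁻¹ = ℓ * ofSubtype σ⁻¹` with `ℓ` fixing the complement
      let ℓ : Perm S := g⁻¹ * Perm.ofSubtype σ
      have hℓ : ∀ s, s ∉ A → ℓ s = s := by
        intro s hs
        simp only [ℓ, Perm.coe_mul, Function.comp_apply]
        rw [Perm.ofSubtype_apply_of_mem σ hs, Perm.inv_eq_iff_eq, hσ]
      have hdec : g⁻¹ = ℓ * Perm.ofSubtype σ⁻¹ := by
        simp only [ℓ, map_inv, mul_assoc, mul_inv_cancel, mul_one]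
      have hval : ψ (ρ g⁻¹ x) = fn2Rep _ σ⁻¹ (ψ x) := by
        rw [hdec, map_mul, Module.End.mul_apply, hψinv ℓ _ hℓ, hψeq]
      rw [hval, fn2Rep_apply]
      have e : ∀ w : S → ℕ, ((w ∘ g) ∘ ((↑) : {s // s ∉ A} → S)) ∘ ⇑(σ⁻¹) = w ∘ (↑) := by
        intro w
        funext s
        simp only [Function.comp_apply]
        rw [← hσ]
        simp
      rw [e, e, hw₁, hw₂]
    simp only [G] at h1
    rw [Finset.sum_congr rfl hterm, Finset.sum_const, nsmul_eq_mul] at h1
    have hcard : ((Finset.univ.filter (fun g : Perm S => A.image g = A)).card : ℂ) ≠ 0 := by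
      have : (Finset.univ.filter (fun g : Perm S => A.image g = A)).Nonempty :=
        ⟨1, Finset.mem_filter.mpr ⟨Finset.mem_univ _, by simp⟩⟩
      exact_mod_cast this.card_pos.ne'
    exact hne ((mul_eq_zero.mp h1).resolve_left hcard)
  · -- the range
    intro x
    show avgMap ρ (fn2Rep S) Ψ x ∈ _
    rw [avgMap_apply]
    refine Submodule.sum_mem _ fun g _ => fn2Rep_mem_XX g ?_
    exact colE_mul_mem_XX hA (hψX _)

end Main

end Crest.Agent.Saxl
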