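import Crest.Agent.Lib.Saxl.Specht

/-!
# Conjugating shapes

`Occurs ρ D E → Occurs (sgnTwist ρ) D' E`, where `D'` is the transposed set of cells, and
`Occurs ρ D E → Occurs ρ D' E'`.

There is no use of the irreducibility of Specht modules.  Fix a tableau `t` of `D`, with row word
`r` and column word `c`.  The kernel
`(Th F) w₁ w₂ = ∑ k, sgn k * [w₁ = c ∘ k⁻¹] * F (r ∘ k⁻¹) w₂`
is sign-equivariant, maps `XX D E` into `XX D' E`, and it is adjoint to the analogous kernel in the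
other direction, whose range contains all the generators of `XX D E`: so it is injective on `XX D E`.
-/

set_option autoImplicit false

open scoped BigOperators ComplexConjugate
open Equiv

namespace Crest.Agent.Saxl

variable {S : Type*} [Fintype S] [DecidableEq S]

/-- The sign twist of a representation. -/
noncomputable def sgnTwist {V : Type*} [AddCommGroup V] [Module ℂ V]
    (ρ : Representation ℂ (Perm S) V) : Representation ℂ (Perm S) V where
  toFun g := sgn g • ρ g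
  map_one' := by simp
  map_mul' g h := by
    ext v
    simp [sgn_mul, mul_smul, smul_comm (sgn g)]

@[simp] theorem sgnTwist_apply {V : Type*} [AddCommGroup V] [Module ℂ V]
    (ρ : Representation ℂ (Perm S) V) (g : Perm S) (v : V) : sgnTwist ρ g v = sgn g • ρ g v := rfl

theorem sgnTwist_sgnTwist {V : Type*} [AddCommGroup V] [Module ℂ V]
    (ρ : Representation ℂ (Perm S) V) : sgnTwist (sgnTwist ρ) = ρ := by
  ext g v
  simp [smul_smul, sgn_mul_self]

/-- The tableau of the transposed cells. -/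
def trTab {D D' : Finset (ℕ × ℕ)} (hD : ∀ c, c ∈ D' ↔ c.swap ∈ D) (t : D ≃ S) : D' ≃ S :=
  (show D' ≃ D from
    { toFun := fun c => ⟨c.1.swap, (hD _).mp c.2⟩
      invFun := fun c => ⟨c.1.swap, (hD _).mpr (by simp)⟩
      left_inv := fun c => by simp
      right_inv := fun c => by simp }).trans t

omit [Fintype S] [DecidableEq S] in
theorem rowOf_trTab {D D' : Finset (ℕ × ℕ)} (hD : ∀ c, c ∈ D' ↔ c.swap ∈ D) (t : D ≃ S) :
    rowOf (trTab hD t) = colOf t := by
  funext s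
  rfl

omit [Fintype S] [DecidableEq S] in
theorem colOf_trTab {D D' : Finset (ℕ × ℕ)} (hD : ∀ c, c ∈ D' ↔ c.swap ∈ D) (t : D ≃ S) :
    colOf (trTab hD t) = rowOf t := by
  funext s
  rfl

/-- The kernel on functions of one word. -/
noncomputable def th (r c : S → ℕ) (f : Fn S) : Fn S :=
  fun w => ∑ k : Perm S, sgn k * (if w = c ∘ ⇑(k⁻¹) then 1 else 0) * f (r ∘ ⇑(k⁻¹))

/-- The kernel on the first word. -/
noncomputable def Th (r c : S → ℕ) : Fn2 S →ₗ[ℂ] Fn2 S where
  toFun F := fun w₁ w₂ => th r c (fun w => F w w₂) w₁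
  map_add' F G := by
    funext w₁ w₂
    simp [th, mul_add, Finset.sum_add_distrib]
  map_smul' a F := by
    funext w₁ w₂
    simp [th, Finset.mul_sum, mul_left_comm]

omit [Fintype S] [DecidableEq S] in
theorem comp_inv_iff (w v : S → ℕ) (g : Perm S) : (w = v ∘ ⇑(g⁻¹)) ↔ (w ∘ g = v) := by
  constructor
  · rintro rfl
    funext s
    simp
  · rintro rfl
    funext s
    simp

omit [Fintype S] [DecidableEq S] in
theorem comp_mul_inv_iff (w c : S → ℕ) (g m : Perm S) :
    (w = c ∘ ⇑((g * m)⁻¹)) ↔ (w ∘ g = c ∘ ⇑(m⁻¹)) := by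
  constructor
  · intro h
    funext s
    have := congrFun h (g s)
    simpa [mul_inv_rev] using this
  · intro h
    funext s
    have := congrFun h (g⁻¹ s)
    simpa [mul_inv_rev] using this

omit [Fintype S] [DecidableEq S] in
theorem comp_mul_inv_eq_iff (r : S → ℕ) (g m : Perm S) :
    (r ∘ ⇑((g * m)⁻¹) = r ∘ ⇑(g⁻¹)) ↔ ∀ s, r (m s) = r s := by
  constructor
  · intro h s
    have := congrFun h (g (m s))
    simpa [mul_inv_rev] using this.symm
  · intro h
    funext s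
    have := h (m⁻¹ (g⁻¹ s))
    simpa [mul_inv_rev] using this.symm

/-- Reindexing the sum over the group by a left translation. -/
theorem sum_perm_left {M : Type*} [AddCommMonoid M] (g : Perm S) (f : Perm S → M) :
    ∑ k, f k = ∑ m, f (g * m) :=
  (Fintype.sum_equiv (Equiv.mulLeft g) _ _ (fun _ => rfl)).symm

/-- The sign equivariance of the kernel. -/
theorem th_fnRep (r c : S → ℕ) (g : Perm S) (f : Fn S) :
    th r c (fnRep S g f) = sgn g • fnRep S g (th r c f) := by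
  funext w
  simp only [th, fnRep_apply, Pi.smul_apply, smul_eq_mul]
  rw [sum_perm_left g, Finset.mul_sum]
  refine Finset.sum_congr rfl fun m _ => ?_
  have h1 : r ∘ ⇑((g * m)⁻¹) ∘ g = r ∘ ⇑(m⁻¹) := by
    funext s
    simp
  have h2 : (w = c ∘ ⇑((g * m)⁻¹)) ↔ (w ∘ g = c ∘ ⇑(m⁻¹)) := comp_mul_inv_iff w c g m
  rw [sgn_mul]
  simp only [h2]
  have h3 : (r ∘ ⇑((g * m)⁻¹)) ∘ ⇑g = r ∘ ⇑(m⁻¹) := h1
  rw [h3]
  ring

/-- The image of a delta function. -/
theorem th_dlt {D D' : Finset (ℕ × ℕ)} (hD : ∀ c, c ∈ D' ↔ c.swap ∈ D) (t : D ≃ S) (g : Perm S) :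
    th (rowOf t) (colOf t) (dlt (rowOf t ∘ ⇑(g⁻¹))) = sgn g • poly ((trTab hD t).trans g) := by
  funext w
  rw [← fnRep_poly]
  simp only [th, dlt, poly, fnRep_apply, Pi.smul_apply, smul_eq_mul, rowOf_trTab, colOf_trTab]
  rw [sum_perm_left g, Finset.mul_sum]
  have h1 : ∀ m : Perm S, sgn (g * m) * (if w = colOf t ∘ ⇑((g * m)⁻¹) then (1 : ℂ) else 0) *
      (if rowOf t ∘ ⇑((g * m)⁻¹) = rowOf t ∘ ⇑(g⁻¹) then 1 else 0) =
      if m ∈ stab (rowOf t) then
        sgn g * (sgn m * (if w ∘ ⇑g = colOf t ∘ ⇑(m⁻¹) then 1 else 0)) else 0 := by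
    intro m
    rw [sgn_mul]
    simp only [comp_mul_inv_iff, comp_mul_inv_eq_iff, mem_stab]
    split_ifs <;> ring
  simp only [h1]
  rw [Finset.sum_ite_mem, Finset.univ_inter]

/-- The linear structure of the kernel. -/
theorem th_add (r c : S → ℕ) (f f' : Fn S) : th r c (f + f') = th r c f + th r c f' := by
  funext w
  simp [th, mul_add, Finset.sum_add_distrib]

theorem th_smul (r c : S → ℕ) (a : ℂ) (f : Fn S) : th r c (a • f) = a • th r c f := by
  funext w
  simp [th, Finset.mul_sum, mul_left_comm]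

theorem th_sum {ι : Type*} (r c : S → ℕ) (A : Finset ι) (f : ι → Fn S) :
    th r c (∑ i ∈ A, f i) = ∑ i ∈ A, th r c (f i) := by
  classical
  induction A using Finset.induction_on with
  | empty =>
    funext w
    simp [th]
  | insert i A hi ih =>
    rw [Finset.sum_insert hi, Finset.sum_insert hi, th_add, ih]

/-- The polytabloid as a combination of deltas. -/
theorem poly_eq_sum_dlt {D : Finset (ℕ × ℕ)} (t : D ≃ S) :
    poly t = ∑ σ ∈ stab (colOf t), sgn σ • dlt (rowOf t ∘ ⇑(σ⁻¹)) := by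
  funext w
  simp [poly, dlt, Finset.sum_apply]

/-- The image of a polytabloid under the kernel. -/
theorem th_poly_trans {D D' : Finset (ℕ × ℕ)} (hD : ∀ c, c ∈ D' ↔ c.swap ∈ D) (t : D ≃ S)
    (g : Perm S) :
    th (rowOf t) (colOf t) (poly (t.trans g)) =
      ∑ σ ∈ stab (colOf t), sgn g • poly (((trTab hD t).trans σ).trans g) := by
  rw [← fnRep_poly, th_fnRep]
  have h : th (rowOf t) (colOf t) (poly t) = ∑ σ ∈ stab (colOf t), poly ((trTab hD t).trans σ) := by
    conv_lhs => rw [poly_eq_sum_dlt]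
    rw [th_sum]
    refine Finset.sum_congr rfl fun σ _ => ?_
    rw [th_smul, th_dlt hD, smul_smul, sgn_mul_self, one_smul]
  rw [h, map_sum, Finset.smul_sum]
  refine Finset.sum_congr rfl fun σ _ => ?_
  rw [fnRep_poly]

/-- The image of a generator. -/
theorem Th_prod2 {D D' E : Finset (ℕ × ℕ)} (hD : ∀ c, c ∈ D' ↔ c.swap ∈ D) (t : D ≃ S)
    (g : Perm S) (u : E ≃ S) :
    Th (rowOf t) (colOf t) (prod2 (t.trans g) u) =
      ∑ σ ∈ stab (colOf t), sgn g • prod2 (((trTab hD t).trans σ).trans g) u := by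
  funext w₁ w₂
  have h1 : Th (rowOf t) (colOf t) (prod2 (t.trans g) u) w₁ w₂ =
      th (rowOf t) (colOf t) (poly u w₂ • poly (t.trans g)) w₁ := by
    change th _ _ (fun w => poly (t.trans g) w * poly u w₂) w₁ = _
    congr 1
    funext w
    simp [mul_comm]
  rw [h1, th_smul, th_poly_trans hD]
  simp only [Pi.smul_apply, Finset.sum_apply, smul_eq_mul, prod2, Finset.mul_sum]
  refine Finset.sum_congr rfl fun σ _ => ?_
  ring

omit [Fintype S] [DecidableEq S] in
/-- Every tableau is a translate of a fixed one. -/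
theorem trans_symm_trans {D : Finset (ℕ × ℕ)} (t u : D ≃ S) : t.trans (t.symm.trans u) = u := by
  ext c
  simp

/-- The kernel maps `XX D E` to `XX D' E`. -/
theorem Th_mem_XX {D D' E : Finset (ℕ × ℕ)} (hD : ∀ c, c ∈ D' ↔ c.swap ∈ D) (t : D ≃ S)
    {F : Fn2 S} (hF : F ∈ XX S D E) : Th (rowOf t) (colOf t) F ∈ XX S D' E := by
  induction hF using Submodule.span_induction with
  | mem x hx =>
    obtain ⟨⟨t₁, u⟩, rfl⟩ := hx
    have h : prod2 t₁ u = prod2 (t.trans (t.symm.trans t₁)) u := by rw [trans_symm_trans]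
    simp only [h]
    rw [Th_prod2 hD]
    refine Submodule.sum_mem _ fun σ _ => Submodule.smul_mem _ _ ?_
    exact Submodule.subset_span ⟨(_, u), rfl⟩
  | zero => simp
  | add x y _ _ hx hy =>
    rw [map_add]
    exact Submodule.add_mem _ hx hy
  | smul a x _ hx =>
    rw [map_smul]
    exact Submodule.smul_mem _ a hx

/-- The sign equivariance on pairs of words. -/
theorem Th_fn2Rep (r c : S → ℕ) (g : Perm S) (F : Fn2 S) :
    Th r c (fn2Rep S g F) = sgn g • fn2Rep S g (Th r c F) := by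
  funext w₁ w₂
  have h := congrFun (th_fnRep r c g (fun w => F w (w₂ ∘ g))) w₁
  exact h

/-- The adjoint formula. -/
theorem sum_stab_eq_th (r c : S → ℕ) (g : Perm S) (f : Fn S) :
    ∑ σ ∈ stab c, sgn σ * f (r ∘ ⇑(σ⁻¹) ∘ ⇑(g⁻¹)) = sgn g * th r c f (c ∘ ⇑(g⁻¹)) := by
  simp only [th]
  rw [sum_perm_left g, Finset.mul_sum]
  have h1 : ∀ m : Perm S, sgn g * (sgn (g * m) * (if c ∘ ⇑(g⁻¹) = c ∘ ⇑((g * m)⁻¹) then (1 : ℂ) else 0) *
      f (r ∘ ⇑((g * m)⁻¹))) =
      if m ∈ stab c then sgn m * f (r ∘ ⇑(m⁻¹) ∘ ⇑(g⁻¹)) else 0 := by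
    intro m
    have h2 : (c ∘ ⇑(g⁻¹) = c ∘ ⇑((g * m)⁻¹)) ↔ m ∈ stab c := by
      rw [mem_stab, eq_comm, comp_mul_inv_eq_iff]
    have h3 : r ∘ ⇑((g * m)⁻¹) = r ∘ ⇑(m⁻¹) ∘ ⇑(g⁻¹) := by
      funext s
      simp [mul_inv_rev]
    simp only [h2, h3, sgn_mul]
    have h4 := sgn_mul_self g
    split_ifs
    · linear_combination (sgn m * f (r ∘ ⇑(m⁻¹) ∘ ⇑(g⁻¹))) * h4
    · ring
  simp only [h1]
  rw [Finset.sum_ite_mem, Finset.univ_inter]

/-! ## The Hermitian form -/

/-- All the words occurring in the polytabloids of `D`. -/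
noncomputable def wordsOf (S : Type*) [Fintype S] [DecidableEq S] (D : Finset (ℕ × ℕ)) :
    Finset (S → ℕ) :=
  (Finset.univ : Finset ((D ≃ S) × Perm S)).image fun p : (D ≃ S) × Perm S => rowOf p.1 ∘ ⇑(p.2⁻¹)

theorem poly_eq_zero {D : Finset (ℕ × ℕ)} (u : D ≃ S) {w : S → ℕ} (h : w ∉ wordsOf S D) :
    poly u w = 0 := by
  unfold poly
  refine Finset.sum_eq_zero fun σ _ => ?_
  rw [if_neg, mul_zero]
  rintro rfl
  exact h (Finset.mem_image.mpr ⟨(u, σ), Finset.mem_univ _, rfl⟩)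

theorem XX_eq_zero {D E : Finset (ℕ × ℕ)} {F : Fn2 S} (hF : F ∈ XX S D E) (w₁ w₂ : S → ℕ)
    (h : ¬ (w₁ ∈ wordsOf S D ∧ w₂ ∈ wordsOf S E)) : F w₁ w₂ = 0 := by
  induction hF using Submodule.span_induction with
  | mem x hx =>
    obtain ⟨⟨t, u⟩, rfl⟩ := hx
    change poly t w₁ * poly u w₂ = 0
    by_cases h1 : w₁ ∈ wordsOf S D
    · have h2 : w₂ ∉ wordsOf S E := fun h2 => h ⟨h1, h2⟩
      rw [poly_eq_zero u h2, mul_zero]
    · rw [poly_eq_zero t h1, zero_mul]
  | zero => rfl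
  | add x y _ _ hx hy =>
    change x w₁ w₂ + y w₁ w₂ = 0
    rw [hx, hy, add_zero]
  | smul a x _ hx =>
    change a * x w₁ w₂ = 0
    rw [hx, mul_zero]

theorem conj_poly {D : Finset (ℕ × ℕ)} (u : D ≃ S) (w : S → ℕ) : conj (poly u w) = poly u w := by
  unfold poly
  rw [map_sum]
  refine Finset.sum_congr rfl fun σ _ => ?_
  rw [map_mul]
  have h1 : conj (sgn σ) = sgn σ := by
    simp [sgn]
  rw [h1]
  congr 1
  split_ifs <;> simp

/-- Pairing a translated polytabloid with a function. -/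
theorem sum_poly_mul {D : Finset (ℕ × ℕ)} (t : D ≃ S) (g : Perm S) (f : Fn S) :
    ∑ w ∈ wordsOf S D, poly (t.trans g) w * f w =
      ∑ σ ∈ stab (colOf t), sgn σ * f (rowOf t ∘ ⇑(σ⁻¹) ∘ ⇑(g⁻¹)) := by
  have h1 : ∀ w, poly (t.trans g) w * f w = ∑ σ ∈ stab (colOf t), sgn σ *
      ((if w = rowOf t ∘ ⇑(σ⁻¹) ∘ ⇑(g⁻¹) then 1 else 0) * f w) := by
    intro w
    rw [← fnRep_poly, fnRep_apply]
    unfold poly
    rw [Finset.sum_mul]
    refine Finset.sum_congr rfl fun σ _ => ?_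
    have h2 : (w ∘ ⇑g = rowOf t ∘ ⇑(σ⁻¹)) ↔ (w = rowOf t ∘ ⇑(σ⁻¹) ∘ ⇑(g⁻¹)) := by
      rw [eq_comm (a := w), ← Function.comp_assoc]
      constructor
      · rintro h
        funext s
        have := congrFun h (g⁻¹ s)
        simpa using this.symm
      · intro h
        funext s
        have := congrFun h (g s)
        simpa using this.symm
    simp only [h2, mul_assoc]
  simp only [h1]
  rw [Finset.sum_comm]
  refine Finset.sum_congr rfl fun σ _ => ?_
  rw [← Finset.mul_sum]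
  congr 1
  rw [Finset.sum_eq_single (rowOf t ∘ ⇑(σ⁻¹) ∘ ⇑(g⁻¹))]
  · rw [if_pos rfl, one_mul]
  · intro w _ hw
    rw [if_neg hw, zero_mul]
  · intro hw
    exfalso
    apply hw
    refine Finset.mem_image.mpr ⟨(t, g * σ), Finset.mem_univ _, ?_⟩
    funext s
    simp

/-- The kernel is injective on `XX D E`. -/
theorem eq_zero_of_Th_eq_zero {D E : Finset (ℕ × ℕ)} (t : D ≃ S) {F : Fn2 S} (hF : F ∈ XX S D E)
    (h0 : Th (rowOf t) (colOf t) F = 0) : F = 0 := by
  -- orthogonality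
  have horth : ∀ G ∈ XX S D E, ∑ w₁ ∈ wordsOf S D, ∑ w₂ ∈ wordsOf S E,
      conj (G w₁ w₂) * F w₁ w₂ = 0 := by
    intro G hG
    induction hG using Submodule.span_induction with
    | mem x hx =>
      obtain ⟨⟨t₁, u⟩, rfl⟩ := hx
      have h : prod2 t₁ u = prod2 (t.trans (t.symm.trans t₁)) u := by rw [trans_symm_trans]
      simp only [h]
      set g := t.symm.trans t₁
      rw [Finset.sum_comm]
      refine Finset.sum_eq_zero fun w₂ _ => ?_
      have h1 : ∀ w₁, conj (prod2 (t.trans g) u w₁ w₂) * F w₁ w₂ =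
          conj (poly u w₂) * (poly (t.trans g) w₁ * F w₁ w₂) := by
        intro w₁
        simp only [prod2, map_mul, conj_poly]
        ring
      simp only [h1]
      have h3 : ∑ σ ∈ stab (colOf t), sgn σ * F (rowOf t ∘ ⇑(σ⁻¹) ∘ ⇑(g⁻¹)) w₂ =
          sgn g * Th (rowOf t) (colOf t) F (colOf t ∘ ⇑(g⁻¹)) w₂ :=
        sum_stab_eq_th (rowOf t) (colOf t) g (fun w => F w w₂)
      rw [← Finset.mul_sum, sum_poly_mul t g (fun w => F w w₂), h3, h0]
      simp
    | zero => simp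
    | add x y _ _ hx hy =>
      simp only [Pi.add_apply, map_add, add_mul, Finset.sum_add_distrib, hx, hy, add_zero]
    | smul a x _ hx =>
      simp only [Pi.smul_apply, smul_eq_mul, map_mul, mul_assoc, ← Finset.mul_sum, hx, mul_zero]
  have h1 := horth F hF
  have h2 : ∑ w₁ ∈ wordsOf S D, ∑ w₂ ∈ wordsOf S E, Complex.normSq (F w₁ w₂) = 0 := by
    have h3 : ((∑ w₁ ∈ wordsOf S D, ∑ w₂ ∈ wordsOf S E, Complex.normSq (F w₁ w₂) : ℝ) : ℂ) = 0 := by
      push_cast
      simp only [Complex.normSq_eq_conj_mul_self]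
      exact h1
    exact_mod_cast h3
  rw [Finset.sum_eq_zero_iff_of_nonneg
    (fun _ _ => Finset.sum_nonneg fun _ _ => Complex.normSq_nonneg _)] at h2
  funext w₁ w₂
  by_cases hw : w₁ ∈ wordsOf S D ∧ w₂ ∈ wordsOf S E
  · have h3 := h2 w₁ hw.1
    rw [Finset.sum_eq_zero_iff_of_nonneg (fun _ _ => Complex.normSq_nonneg _)] at h3
    exact Complex.normSq_eq_zero.mp (h3 w₂ hw.2)
  · exact XX_eq_zero hF w₁ w₂ hw

/-! ## The statements about `Occurs` -/

section Occurs

variable {V : Type*} [AddCommGroup V] [Module ℂ V]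

/-- A nonzero vector in `XX D E` needs a tableau of `D`. -/
theorem exists_tab_of_occurs {ρ : Representation ℂ (Perm S) V} {D E : Finset (ℕ × ℕ)}
    (h : Occurs ρ D E) : Nonempty (D ≃ S) := by
  obtain ⟨φ, hφ, -, hX⟩ := h
  by_contra hne
  apply hφ
  ext v
  have h1 : φ v ∈ XX S D E := hX v
  have h2 : XX S D E = ⊥ := by
    unfold XX
    have : (Set.range fun p : (D ≃ S) × (E ≃ S) => prod2 p.1 p.2) = ∅ := by
      rw [Set.range_eq_empty_iff]
      exact ⟨fun p => hne ⟨p.1⟩⟩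
    rw [this, Submodule.span_empty]
  rw [h2, Submodule.mem_bot] at h1
  rw [h1]
  rfl

/-- Transposing the first shape: this twists by the sign. -/
theorem occurs_twist {ρ : Representation ℂ (Perm S) V} {D D' E : Finset (ℕ × ℕ)}
    (hD : ∀ c, c ∈ D' ↔ c.swap ∈ D) (h : Occurs ρ D E) : Occurs (sgnTwist ρ) D' E := by
  obtain ⟨t⟩ := exists_tab_of_occurs h
  obtain ⟨φ, hφ, heq, hX⟩ := h
  refine ⟨Th (rowOf t) (colOf t) ∘ₗ φ, ?_, ?_, ?_⟩
  · intro h0
    apply hφ
    ext v
    have h1 : Th (rowOf t) (colOf t) (φ v) = 0 := by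
      have := congrArg (fun L : V →ₗ[ℂ] Fn2 S => L v) h0
      simpa using this
    rw [eq_zero_of_Th_eq_zero t (hX v) h1]
    rfl
  · intro g v
    simp only [LinearMap.comp_apply, sgnTwist_apply, map_smul, heq, Th_fn2Rep]
    rw [smul_smul, sgn_mul_self, one_smul]
  · intro v
    exact Th_mem_XX hD t (hX v)

/-- The flip of the two words. -/
noncomputable def flipL : Fn2 S →ₗ[ℂ] Fn2 S where
  toFun F := fun w₁ w₂ => F w₂ w₁
  map_add' _ _ := rfl
  map_smul' _ _ := rfl

theorem flipL_mem_XX {D E : Finset (ℕ × ℕ)} {F : Fn2 S} (hF : F ∈ XX S D E) :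
    flipL F ∈ XX S E D := by
  induction hF using Submodule.span_induction with
  | mem x hx =>
    obtain ⟨⟨t, u⟩, rfl⟩ := hx
    refine Submodule.subset_span ⟨(u, t), ?_⟩
    funext w₁ w₂
    simp [flipL, prod2, mul_comm]
  | zero => simp
  | add x y _ _ hx hy =>
    rw [map_add]
    exact Submodule.add_mem _ hx hy
  | smul a x _ hx =>
    rw [map_smul]
    exact Submodule.smul_mem _ a hx

/-- The two shapes can be flipped. -/
theorem occurs_flip {ρ : Representation ℂ (Perm S) V} {D E : Finset (ℕ × ℕ)}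
    (h : Occurs ρ D E) : Occurs ρ E D := by
  obtain ⟨φ, hφ, heq, hX⟩ := h
  refine ⟨flipL ∘ₗ φ, ?_, ?_, fun v => flipL_mem_XX (hX v)⟩
  · intro h0
    apply hφ
    ext v w₁ w₂
    have := congrArg (fun L : V →ₗ[ℂ] Fn2 S => L v w₂ w₁) h0
    exact this
  · intro g v
    simp only [LinearMap.comp_apply, heq]
    rfl

/-- **Transposing both shapes**. -/
theorem occurs_conj {ρ : Representation ℂ (Perm S) V} {D D' E E' : Finset (ℕ × ℕ)}
    (hD : ∀ c, c ∈ D' ↔ c.swap ∈ D) (hE : ∀ c, c ∈ E' ↔ c.swap ∈ E) (h : Occurs ρ D E) :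
    Occurs ρ D' E' := by
  have h1 := occurs_flip (occurs_twist hD h)
  have h2 := occurs_flip (occurs_twist hE h1)
  rwa [sgnTwist_sgnTwist] at h2

/-- Transposing both shapes, for Young diagrams. -/
theorem occurs_conj_young {ρ : Representation ℂ (Perm S) V} {μ ν : YoungDiagram}
    (h : Occurs ρ μ.cells ν.cells) : Occurs ρ μ.transpose.cells ν.transpose.cells :=
  occurs_conj (fun c => by simp) (fun c => by simp) h

/-- For a self-conjugate shape, the twist by the sign. -/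
theorem occurs_sign {ρ : Representation ℂ (Perm S) V} {D E : Finset (ℕ × ℕ)}
    (hD : ∀ c, c ∈ D ↔ c.swap ∈ D) (h : Occurs ρ D E) : Occurs (sgnTwist ρ) D E :=
  occurs_twist hD h

end Occurs

end Crest.Agent.Saxl
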