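import Crest.Agent.Lib.Saxl.EFixNum

/-!
# Fixed vectors for doubles placed on top: chains of partitions (row 195, S0298)

`fix_transport`: from a fixed vector of a source filling to the fixed vector of a target colouring
with the same doubles and dominated other labels.

`exists_adm_fix_chain`: the doubles `x i`, `i < t` fill the skew shapes `η (i+1) / η i` at the top of
`ν` (at most two cells per column, an even number of cells in odd rows), the other labels are
dominated by the conjugate of the column lengths of `ν / η t`.  For `t = 1` this is the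
Littlewood-Richardson test of helper23: `s_ν` in `s_η h_β` for an even two row shape `η`.
-/

set_option autoImplicit false

open Finset Equiv

namespace Crest.Agent.Saxl.EFix

variable {S : Type*} [Fintype S] [DecidableEq S]
variable {V : Type*} [AddCommGroup V] [Module ℂ V]

/-- From a fixed vector for a source filling to a fixed vector for a target. -/
theorem fix_transport {ι : Type*} [DecidableEq ι] (I : Finset ι) (lo : ι → ℕ)
    (hlo : Set.InjOn lo I) (hlo2 : ∀ i ∈ I, ∀ j ∈ I, lo i + 1 ≠ lo j)
    (c0 : S → ℕ) (B0 : S → ι)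
    (hB0 : ∀ s, ∀ i ∈ I, B0 s = i ↔ c0 s = lo i ∨ c0 s = lo i + 1)
    (A0 : ι → Finset S) (hA0m : ∀ i ∈ I, ∀ s, s ∈ A0 i ↔ c0 s = lo i + 1)
    (hcA0 : ∀ i ∈ I, 2 * (A0 i).card = (univ.filter fun s => B0 s = i).card)
    (B : S → ι) (A : ι → Finset S) (hA : ∀ i ∈ I, ∀ s ∈ A i, B s = i)
    (hcB : ∀ i ∈ I, (univ.filter fun s => B s = i).card = (univ.filter fun s => B0 s = i).card)
    (hcA : ∀ i ∈ I, 2 * (A i).card = (univ.filter fun s => B s = i).card)
    (c : S → ℕ) (sl : ℕ → ℕ)
    (hsl : ∀ s s', B0 s ∉ I → B0 s' ∉ I → sl (c0 s) = sl (c0 s') → c0 s = c0 s')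
    (hanti : Antitone (lc fun s : {s // B s ∉ I} => c s))
    (hP : ∀ k, pc (fun s : {s // B s ∉ I} => c s) k ≤
      (univ.filter fun s => B0 s ∉ I ∧ sl (c0 s) < k).card)
    {ρ : Representation ℂ (Perm S) V} {v0 : V} (hv0 : v0 ≠ 0)
    (hfix0 : ∀ κ, Adm c0 (I.image lo) κ → ρ κ v0 = v0) :
    ∃ v, v ≠ 0 ∧ ∀ g : Perm S,
      (∀ s, B s ∈ I → B (g s) = B s) → (∀ s, B s ∉ I → B (g s) ∉ I ∧ c (g s) = c s) →
      (∀ i ∈ I, (∀ s, B s = i → (g s ∈ A i ↔ s ∈ A i)) ∨
        (∀ s, B s = i → (g s ∈ A i ↔ s ∉ A i))) → ρ g v = v := by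
  classical
  let Z : ι → Finset S := fun i => univ.filter fun s => B0 s = i
  have hA0 : ∀ i ∈ I, A0 i ⊆ Z i := fun i hi s hs => by
    simp only [Z, mem_filter, mem_univ, true_and]
    exact (hB0 s i hi).mpr (Or.inr ((hA0m i hi s).mp hs))
  have hc0E : ∀ s, B0 s ∈ I → c0 s = if s ∈ A0 (B0 s) then lo (B0 s) + 1 else lo (B0 s) := by
    intro s hs
    by_cases h : s ∈ A0 (B0 s)
    · rw [if_pos h]; exact (hA0m _ hs s).mp h
    · rw [if_neg h]
      rcases (hB0 s _ hs).mp rfl with h1 | h1
      · exact h1
      · exact absurd ((hA0m _ hs s).mpr h1) h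
  have hc0R : ∀ s, B0 s ∉ I → ∀ i ∈ I, c0 s ≠ lo i ∧ c0 s ≠ lo i + 1 := by
    intro s hs i hi
    constructor
    · intro h; exact hs ((hB0 s i hi).mpr (Or.inl h) ▸ hi)
    · intro h; exact hs ((hB0 s i hi).mpr (Or.inr h) ▸ hi)
  set E0 := I.image lo with hE0
  -- Step 2: the permutation
  let L : S → Option (ι × Bool) := fun s =>
    if B s ∈ I then some (B s, decide (s ∈ A (B s))) else none
  let L0 : S → Option (ι × Bool) := fun s =>
    if B0 s ∈ I then some (B0 s, decide (s ∈ A0 (B0 s))) else none
  have hfib : ∀ a, (univ.filter fun s => L s = a).card = (univ.filter fun s => L0 s = a).card := by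
    intro a
    cases a with
    | none =>
      have e1 : (univ.filter fun s => L s = none) = univ.filter fun s => B s ∉ I := by
        ext s
        simp only [L, mem_filter, mem_univ, true_and]
        split_ifs with h <;> simp [h]
      have e2 : (univ.filter fun s => L0 s = none) = univ.filter fun s => B0 s ∉ I := by
        ext s
        simp only [L0, mem_filter, mem_univ, true_and]
        split_ifs with h <;> simp [h]
      rw [e1, e2]
      have e3 : (univ.filter fun s => B s ∈ I).card = (univ.filter fun s => B0 s ∈ I).card := by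
        rw [Finset.card_eq_sum_card_fiberwise (f := B) (t := I)
          (fun s hs => by simpa using hs),
          Finset.card_eq_sum_card_fiberwise (f := B0) (t := I)
          (fun s hs => by simpa using hs)]
        refine sum_congr rfl fun i hi => ?_
        have e4 : (univ.filter fun s => B s ∈ I).filter (fun s => B s = i) =
            univ.filter fun s => B s = i := by
          ext s
          simp only [mem_filter, mem_univ, true_and]
          constructor
          · exact fun h => h.2
          · intro h; exact ⟨h ▸ hi, h⟩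
        have e5 : (univ.filter fun s => B0 s ∈ I).filter (fun s => B0 s = i) =
            univ.filter fun s => B0 s = i := by
          ext s
          simp only [mem_filter, mem_univ, true_and]
          constructor
          · exact fun h => h.2
          · intro h; exact ⟨h ▸ hi, h⟩
        rw [e4, e5]
        exact hcB i hi
      have e6 := Finset.card_filter_add_card_filter_not (s := (univ : Finset S)) (fun s => B s ∈ I)
      have e7 := Finset.card_filter_add_card_filter_not (s := (univ : Finset S)) (fun s => B0 s ∈ I)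
      omega
    | some p =>
      obtain ⟨i, b⟩ := p
      by_cases hi : i ∈ I
      · have e1 : ∀ s, L s = some (i, b) ↔ B s = i ∧ (decide (s ∈ A i) = b) := by
          intro s
          simp only [L]
          by_cases h : B s ∈ I
          · rw [if_pos h]
            simp only [Option.some.injEq, Prod.mk.injEq]
            constructor
            · rintro ⟨h1, h2⟩
              subst h1
              exact ⟨rfl, h2⟩
            · rintro ⟨h1, h2⟩
              subst h1
              exact ⟨rfl, h2⟩
          · rw [if_neg h]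
            simp only [reduceCtorEq, false_iff, not_and]
            intro h1
            exact absurd (h1 ▸ hi) h
        have e2 : ∀ s, L0 s = some (i, b) ↔ B0 s = i ∧ (decide (s ∈ A0 i) = b) := by
          intro s
          simp only [L0]
          by_cases h : B0 s ∈ I
          · rw [if_pos h]
            simp only [Option.some.injEq, Prod.mk.injEq]
            constructor
            · rintro ⟨h1, h2⟩
              subst h1
              exact ⟨rfl, h2⟩
            · rintro ⟨h1, h2⟩
              subst h1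
              exact ⟨rfl, h2⟩
          · rw [if_neg h]
            simp only [reduceCtorEq, false_iff, not_and]
            intro h1
            exact absurd (h1 ▸ hi) h
        simp only [e1, e2]
        have h4 := hA0 i hi
        have h5 := hcA0 i hi
        have hAsub : A i ⊆ univ.filter fun s => B s = i := fun s hs => by
          simpa using hA i hi s hs
        have hAc := hcA i hi
        have hBc := hcB i hi
        cases b with
        | true =>
          have e3 : (univ.filter fun s => B s = i ∧ decide (s ∈ A i) = true) = A i := by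
            ext s
            simp only [mem_filter, mem_univ, true_and, decide_eq_true_eq]
            exact ⟨fun h => h.2, fun h => ⟨hA i hi s h, h⟩⟩
          have e4 : (univ.filter fun s => B0 s = i ∧ decide (s ∈ A0 i) = true) = A0 i := by
            ext s
            simp only [mem_filter, mem_univ, true_and, decide_eq_true_eq]
            exact ⟨fun h => h.2, fun h => ⟨(mem_filter.mp (h4 h)).2, h⟩⟩
          rw [e3, e4]
          have : (Z i).card = (univ.filter fun s => B0 s = i).card := rfl
          omega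
        | false =>
          have e3 : (univ.filter fun s => B s = i ∧ decide (s ∈ A i) = false) =
              (univ.filter fun s => B s = i) \ A i := by
            ext s
            simp only [mem_filter, mem_univ, true_and, decide_eq_false_iff_not, mem_sdiff]
          have e4 : (univ.filter fun s => B0 s = i ∧ decide (s ∈ A0 i) = false) = Z i \ A0 i := by
            ext s
            simp only [Z, mem_filter, mem_univ, true_and, decide_eq_false_iff_not, mem_sdiff]
          rw [e3, e4, card_sdiff_of_subset hAsub, card_sdiff_of_subset h4]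
          have : (Z i).card = (univ.filter fun s => B0 s = i).card := rfl
          omega
      · have e1 : ∀ s, L s ≠ some (i, b) := by
          intro s h
          simp only [L] at h
          split_ifs at h with h1
          simp only [Option.some.injEq, Prod.mk.injEq] at h
          exact hi (h.1 ▸ h1)
        have e2 : ∀ s, L0 s ≠ some (i, b) := by
          intro s h
          simp only [L0] at h
          split_ifs at h with h1
          simp only [Option.some.injEq, Prod.mk.injEq] at h
          exact hi (h.1 ▸ h1)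
        simp [e1, e2]
  obtain ⟨g0, hg0⟩ := exists_perm_of_fibers L L0 hfib
  have hE1 : ∀ s, B0 s ∈ I → B (g0 s) = B0 s ∧ (g0 s ∈ A (B0 s) ↔ s ∈ A0 (B0 s)) := by
    intro s hs
    have h4 := hg0 s
    simp only [L, L0, if_pos hs] at h4
    split_ifs at h4 with h5
    simp only [Option.some.injEq, Prod.mk.injEq, decide_eq_decide] at h4
    obtain ⟨h6, h7⟩ := h4
    rw [h6] at h7
    exact ⟨h6, h7⟩
  have hE2 : ∀ s, B0 s ∉ I → B (g0 s) ∉ I := by
    intro s hs
    have h4 := hg0 s
    simp only [L, L0, if_neg hs] at h4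
    split_ifs at h4 with h5
    exact h5
  have hE3 : ∀ s, B (g0 s) ∈ I → B0 s ∈ I := fun s h => by
    by_contra h5
    exact hE2 s h5 h
  have hE4 : ∀ s, B0 s ∉ I ↔ B (g0 s) ∉ I := fun s =>
    ⟨hE2 s, fun h5 h6 => h5 ((hE1 s h6).1.symm ▸ h6)⟩
  -- Step 3: the rest
  let P : S → Prop := fun s => B0 s ∉ I
  let d0 : {s // P s} → ℕ := fun x => sl (c0 x)
  let d1 : {s // P s} → ℕ := fun x => c (g0 x)
  let e0 : {s // P s} ≃ {s // B s ∉ I} := g0.subtypeEquiv hE4
  have hlc : ∀ a, lc d1 a = lc (fun s : {s // B s ∉ I} => c s) a := by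
    intro a
    simp only [lc]
    apply Finset.card_bij (fun x _ => e0 x)
    · intro x hx
      simpa [e0, d1] using hx
    · intro x _ y _ h
      exact e0.injective h
    · intro y hy
      refine ⟨e0.symm y, ?_, by simp⟩
      have h4 : d1 (e0.symm y) = c (e0 (e0.symm y)) := rfl
      simp only [mem_filter, mem_univ, true_and] at hy ⊢
      rw [h4, e0.apply_symm_apply]
      exact hy
  have hanti' : Antitone (lc d1) := by
    have : lc d1 = lc (fun s : {s // B s ∉ I} => c s) := funext hlc
    rw [this]
    exact hanti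
  have hP' : ∀ k, pc d1 k ≤ pc d0 k := by
    intro k
    have e1 : pc d1 k = pc (fun s : {s // B s ∉ I} => c s) k := by
      simp only [pc]
      apply Finset.card_bij (fun x _ => e0 x)
      · intro x hx
        simpa [e0, d1] using hx
      · intro x _ y _ h
        exact e0.injective h
      · intro y hy
        refine ⟨e0.symm y, ?_, by simp⟩
        have h4 : d1 (e0.symm y) = c (e0 (e0.symm y)) := rfl
        simp only [mem_filter, mem_univ, true_and] at hy ⊢
        rw [h4, e0.apply_symm_apply]
        exact hy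
    have e2 : pc d0 k = (univ.filter fun s => B0 s ∉ I ∧ sl (c0 s) < k).card := by
      simp only [pc]
      apply Finset.card_bij (fun (x : {s // P s}) _ => (x : S))
      · intro x hx
        simp only [mem_filter, mem_univ, true_and] at hx ⊢
        exact ⟨x.2, hx⟩
      · intro x _ y _ h
        exact Subtype.ext h
      · intro y hy
        simp only [mem_filter, mem_univ, true_and] at hy
        exact ⟨⟨y, hy.1⟩, by simpa [d0] using hy.2, rfl⟩
    rw [e1, e2]
    exact hP k
  let KZ : Set (Perm S) := {κ | (∀ s, P s → κ s = s) ∧ Adm c0 E0 κ}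
  have hd0 : ∀ g ∈ stab d0, ρ (Perm.ofSubtype g) v0 = v0 := by
    intro g hg
    apply hfix0
    refine ⟨id, ⟨fun _ _ _ => rfl, fun x _ => Or.inl ⟨rfl, rfl⟩⟩, fun s => ?_⟩
    by_cases hs : P s
    · have h4 : Perm.ofSubtype g s = g ⟨s, hs⟩ := Perm.ofSubtype_apply_of_mem g hs
      rw [h4]
      have h5 := (g ⟨s, hs⟩).2
      simp only [id]
      have h6 : d0 (g ⟨s, hs⟩) = d0 ⟨s, hs⟩ := mem_stab.mp hg _
      exact hsl _ _ h5 hs h6
    · rw [Perm.ofSubtype_apply_of_not_mem g hs]
      rfl
  obtain ⟨v1, hv1, hKv1, hd1v1⟩ := of_pc_on_part ρ P KZ (fun κ hκ => hκ.1) hanti' hP' hv0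
    (fun κ hκ => hfix0 κ hκ.2) hd0
  refine ⟨ρ g0 v1, ?_, ?_⟩
  · intro h
    apply hv1
    have h4 := congrArg (ρ g0⁻¹) h
    rw [← Module.End.mul_apply, ← map_mul, inv_mul_cancel, map_one, map_zero] at h4
    simpa using h4
  intro g hg1 hg2 hg3
  set κ1 : Perm S := g0⁻¹ * g * g0 with hκ1
  have hkey : ∀ s, g0 (κ1 s) = g (g0 s) := by
    intro s
    simp [hκ1]
  have hP1 : ∀ s, B0 s ∉ I → B0 (κ1 s) ∉ I := by
    intro s hs h4
    have h5 := (hE1 _ h4).1
    rw [hkey] at h5
    have h6 := (hg2 _ (hE2 s hs)).1
    rw [h5] at h6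
    exact h6 h4
  have hP2 : ∀ s, B0 s ∈ I → B0 (κ1 s) = B0 s := by
    intro s hs
    have h4 := (hE1 s hs).1
    have h5 := hg1 (g0 s) (h4 ▸ hs)
    rw [← hkey, h4] at h5
    have h6 := hE3 (κ1 s) (h5 ▸ hs)
    have h7 := (hE1 _ h6).1
    exact h7.symm.trans h5
  have hP3 : ∀ s, P (κ1 s) ↔ P s := by
    intro s
    constructor
    · intro h4 h5
      exact h4 ((hP2 s h5).symm ▸ h5)
    · exact hP1 s
  let h : Perm {s // P s} := κ1.subtypePerm hP3
  have hh : h ∈ stab d1 := by
    rw [mem_stab]
    intro x
    show c (g0 (κ1 x)) = c (g0 x)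
    rw [hkey]
    exact (hg2 _ (hE2 x x.2)).2
  have hρ1 := hd1v1 h hh
  set κZ : Perm S := κ1 * (Perm.ofSubtype h)⁻¹ with hκZ
  have hκZ1 : ∀ s, P s → κZ s = s := by
    intro s hs
    set z := (Perm.ofSubtype h)⁻¹ s with hz
    have h4 : Perm.ofSubtype h z = s := by simp [hz]
    have h5 : P z := (Perm.ofSubtype_apply_mem_iff_mem h z).mp (h4 ▸ hs)
    have h6 : Perm.ofSubtype h z = κ1 z := Perm.ofSubtype_apply_of_mem h h5
    show κ1 z = s
    rw [← h6, h4]
  have hκZ2 : ∀ s, ¬ P s → κZ s = κ1 s := by
    intro s hs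
    have h4 : Perm.ofSubtype h s = s := Perm.ofSubtype_apply_of_not_mem h hs
    have h5 : (Perm.ofSubtype h)⁻¹ s = s := by
      rw [Perm.inv_eq_iff_eq, h4]
    show κ1 ((Perm.ofSubtype h)⁻¹ s) = κ1 s
    rw [h5]
  -- the swap of labels
  let F : ι → Prop := fun i => ∀ s, B s = i → (g s ∈ A i ↔ s ∉ A i)
  let π : ℕ → ℕ := fun y =>
    if ∃ i ∈ I, F i ∧ y = lo i then y + 1
    else if ∃ i ∈ I, F i ∧ y = lo i + 1 then y - 1 else y
  have π1 : ∀ i ∈ I, F i → π (lo i) = lo i + 1 := by
    intro i hi hF
    simp only [π]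
    rw [if_pos ⟨i, hi, hF, rfl⟩]
  have π2 : ∀ i ∈ I, F i → π (lo i + 1) = lo i := by
    intro i hi hF
    simp only [π]
    rw [if_neg, if_pos ⟨i, hi, hF, rfl⟩]
    · rfl
    · rintro ⟨j, hj, _, hj2⟩
      exact hlo2 i hi j hj hj2
  have π3 : ∀ i ∈ I, ¬ F i → π (lo i) = lo i := by
    intro i hi hF
    simp only [π]
    rw [if_neg, if_neg]
    · rintro ⟨j, hj, _, hj2⟩
      exact hlo2 j hj i hi hj2.symm
    · rintro ⟨j, hj, hFj, hj2⟩
      have := hlo hi hj hj2
      exact hF (this ▸ hFj)
  have π4 : ∀ i ∈ I, ¬ F i → π (lo i + 1) = lo i + 1 := by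
    intro i hi hF
    simp only [π]
    rw [if_neg, if_neg]
    · rintro ⟨j, hj, hFj, hj2⟩
      have : lo i = lo j := by omega
      have := hlo hi hj this
      exact hF (this ▸ hFj)
    · rintro ⟨j, hj, _, hj2⟩
      exact hlo2 i hi j hj hj2
  have π5 : ∀ y, (∀ i ∈ I, y ≠ lo i ∧ y ≠ lo i + 1) → π y = y := by
    intro y hy
    simp only [π]
    rw [if_neg, if_neg]
    · rintro ⟨j, hj, _, hj2⟩
      exact (hy j hj).2 hj2
    · rintro ⟨j, hj, _, hj2⟩
      exact (hy j hj).1 hj2
  have hπ : IsSwap E0 π := by
    constructor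
    · intro y hy hy2
      simp only [π]
      rw [if_neg, if_neg]
      · rintro ⟨j, hj, _, hj2⟩
        exact hy2 _ (mem_image_of_mem _ hj) (by omega)
      · rintro ⟨j, hj, _, hj2⟩
        exact hy (hj2 ▸ mem_image_of_mem _ hj)
    · intro x hx
      obtain ⟨i, hi, rfl⟩ := mem_image.mp hx
      by_cases hF : F i
      · right
        exact ⟨π1 i hi hF, π2 i hi hF⟩
      · left
        exact ⟨π3 i hi hF, π4 i hi hF⟩
  have hAdm : Adm c0 E0 κZ := by
    refine ⟨π, hπ, fun s => ?_⟩
    by_cases hs : P s
    · rw [hκZ1 s hs, π5 _ (hc0R s hs)]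
    · have hs' : B0 s ∈ I := by
        by_contra h4
        exact hs h4
      rw [hκZ2 s hs]
      set i := B0 s with hi
      have h4 := hP2 s hs'
      have hs2 : B0 (κ1 s) ∈ I := h4 ▸ hs'
      rw [hc0E _ hs2, hc0E s hs', h4, ← hi]
      have h5 := (hE1 (κ1 s) hs2).2
      rw [h4, hkey, ← hi] at h5
      have h6 := (hE1 s hs').2
      rw [← hi] at h6
      have h7 : B (g0 s) = i := (hE1 s hs').1
      by_cases hF : F i
      · have h8 := hF (g0 s) h7
        by_cases h9 : s ∈ A0 i
        · have h10 : κ1 s ∉ A0 i := by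
            rw [← h5, h8, h6]
            simpa using h9
          rw [if_pos h9, if_neg h10]
          exact (π2 i hs' hF).symm
        · have h10 : κ1 s ∈ A0 i := by
            rw [← h5, h8, h6]
            exact h9
          rw [if_neg h9, if_pos h10]
          exact (π1 i hs' hF).symm
      · have h8 := ((hg3 i hs').resolve_right hF) (g0 s) h7
        by_cases h9 : s ∈ A0 i
        · have h10 : κ1 s ∈ A0 i := by
            rw [← h5, h8, h6]
            exact h9
          rw [if_pos h9, if_pos h10]
          exact (π4 i hs' hF).symm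
        · have h10 : κ1 s ∉ A0 i := by
            rw [← h5, h8, h6]
            exact h9
          rw [if_neg h9, if_neg h10]
          exact (π3 i hs' hF).symm
  have hfinal : ρ κ1 v1 = v1 := by
    have e : κ1 = κZ * Perm.ofSubtype h := by simp [hκZ]
    rw [e, map_mul, Module.End.mul_apply, hρ1]
    exact hKv1 κZ ⟨hκZ1, hAdm⟩
  have e : g * g0 = g0 * κ1 := by simp [hκ1, mul_assoc]
  rw [← Module.End.mul_apply, ← map_mul, e, map_mul, Module.End.mul_apply, hfinal]


omit [DecidableEq S] in
/-- The number of cells in a segment of a column. -/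
lemma card_col_segment {ν : YoungDiagram} (T : Tab ν S) (j p q : ℕ) (hq : q ≤ ν.colLen j) :
    (univ.filter fun s => colC T s = j ∧ p ≤ rowC T s ∧ rowC T s < q).card = q - p := by
  classical
  rw [← Nat.card_Ico p q]
  symm
  have hmem : ∀ k ∈ Finset.Ico p q, ((k, j) : ℕ × ℕ) ∈ ν := fun k hk =>
    YoungDiagram.mem_iff_lt_colLen.mpr ((mem_Ico.mp hk).2.trans_le hq)
  apply Finset.card_bij (fun k hk => T ⟨(k, j), hmem k hk⟩)
  · intro k hk
    have := mem_Ico.mp hk
    simp [rowC, colC, this.1, this.2]
  · intro k hk k' hk' h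
    have := T.injective h
    simpa using this
  · intro s hs
    simp only [mem_filter, mem_univ, true_and] at hs
    obtain ⟨h1, h2, h3⟩ := hs
    refine ⟨rowC T s, mem_Ico.mpr ⟨h2, h3⟩, ?_⟩
    have : (⟨(rowC T s, j), hmem _ (mem_Ico.mpr ⟨h2, h3⟩)⟩ : {x // x ∈ ν.cells}) = T.symm s := by
      apply Subtype.ext
      exact Prod.ext rfl h1.symm
    rw [this]
    simp

/-- A downward closed predicate on `ℕ` counted below `L`. -/
lemma lt_card_filter_range_iff (P : ℕ → Prop) [DecidablePred P]
    (hP : ∀ y y', y ≤ y' → P y' → P y) (L y : ℕ) :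
    y < L ∧ P y ↔ y < ((Finset.range L).filter P).card := by
  induction L generalizing y with
  | zero => simp
  | succ L ih =>
    by_cases hL : P L
    · have e : (Finset.range (L + 1)).filter P = Finset.range (L + 1) := by
        apply Finset.filter_true_of_mem
        intro z hz
        exact hP z L (by have := mem_range.mp hz; omega) hL
      rw [e, card_range]
      constructor
      · exact fun h => h.1
      · intro h
        exact ⟨h, hP y L (by omega) hL⟩
    · have e : (Finset.range (L + 1)).filter P = (Finset.range L).filter P := by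
        rw [Finset.range_add_one, Finset.filter_insert, if_neg hL]
      rw [e, ← ih]
      constructor
      · rintro ⟨h1, h2⟩
        refine ⟨?_, h2⟩
        rcases Nat.lt_or_ge y L with h | h
        · exact h
        · exfalso
          have : y = L := by omega
          exact hL (this ▸ h2)
      · rintro ⟨h1, h2⟩
        exact ⟨by omega, h2⟩

/-- **The fixed vector, with the doubles on top of the diagram.** -/
theorem exists_adm_fix_chain {ν : YoungDiagram} (hcard : ν.card = Fintype.card S)
    (c : S → ℕ) (E : Finset ℕ) (hE : ∀ x ∈ E, x + 1 ∉ E)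
    (t : ℕ) (x : ℕ → ℕ) (hxE : ∀ i < t, x i ∈ E) (hxinj : Set.InjOn x (Set.Iio t))
    (η : ℕ → ℕ → ℕ) (hη0 : ∀ y, η 0 y = 0)
    (hηmono : ∀ i < t, ∀ y, η i y ≤ η (i + 1) y)
    (hηanti : ∀ i ≤ t, Antitone (η i))
    (hηtop : ∀ y, η t y ≤ ν.rowLen y)
    (hthin : ∀ i < t, ∀ y, η (i + 1) (y + 2) ≤ η i y)
    (hsize : ∀ i < t, 2 * lc c (x i) = ∑ y ∈ range (ν.colLen 0), (η (i + 1) y - η i y) ∧
      2 * lc c (x i + 1) = ∑ y ∈ range (ν.colLen 0), (η (i + 1) y - η i y))
    (hpar : ∀ i < t, Even (∑ y ∈ range (ν.colLen 0), (η (i + 1) y - η i y) * y))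
    (tl : ℕ → ℕ) (htl : ∀ z ∈ E, (∀ i < t, z ≠ x i) → tl z = tl (z + 1))
    (β : ℕ → ℕ) (hβ : Antitone β)
    (hcβ : ∀ y, (univ.filter fun s =>
      (∀ i < t, c s ≠ x i ∧ c s ≠ x i + 1) ∧ tl (c s) = y).card = β y)
    (hdom : ∀ k, ∑ y ∈ range k, β y ≤ ∑ j ∈ range (ν.rowLen 0),
      min k (ν.colLen j - ((range (ν.colLen 0)).filter fun y => j < η t y).card))
    [FiniteDimensional ℂ V] {ρ : Representation ℂ (Perm S) V} (hρ : ρ.IsIrreducible)
    (hlab : Label ρ ν) : ∃ v, v ≠ 0 ∧ ∀ κ, Adm c E κ → ρ κ v = v := by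
  classical
  obtain ⟨T⟩ := exists_tab (S := S) ν hcard
  set R := rowC T with hR
  set Q := colC T with hQ
  set L := ν.colLen 0 with hL
  have hinj : ∀ s s', Q s = Q s' → R s = R s' → s = s' := fun s s' h1 h2 =>
    rowC_colC_injective T (Prod.ext h2 h1)
  have hRL : ∀ s, R s < L := fun s => rowC_lt_colLen T s
  have hmono : ∀ a b, a ≤ b → b ≤ t → ∀ y, η a y ≤ η b y := by
    intro a b hab
    induction b, hab using Nat.le_induction with
    | base => intro _ y; exact le_rfl
    | succ b hb ih => intro hb2 y; exact (ih (by omega) y).trans (hηmono b (by omega) y)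
  -- the stage of a cell
  have hex : ∀ s, ∃ i, t ≤ i ∨ Q s < η (i + 1) (R s) := fun s => ⟨t, Or.inl le_rfl⟩
  let B0 : S → ℕ := fun s => Nat.find (hex s)
  have hB0le : ∀ s, B0 s ≤ t := fun s => Nat.find_min' (hex s) (Or.inl le_rfl)
  have hB0iff : ∀ s, ∀ i < t, B0 s = i ↔ η i (R s) ≤ Q s ∧ Q s < η (i + 1) (R s) := by
    intro s i hi
    constructor
    · intro h
      have h1 : t ≤ B0 s ∨ Q s < η (B0 s + 1) (R s) := Nat.find_spec (hex s)
      rw [h] at h1
      refine ⟨?_, h1.resolve_left (by omega)⟩
      cases i with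
      | zero => rw [hη0]; exact Nat.zero_le _
      | succ m =>
        have h2 : ¬ (t ≤ m ∨ Q s < η (m + 1) (R s)) :=
          Nat.find_min (hex s) (by show m < B0 s; omega)
        push Not at h2
        exact h2.2
    · rintro ⟨h1, h2⟩
      apply le_antisymm
      · exact Nat.find_min' (hex s) (Or.inr h2)
      · by_contra hlt
        push Not at hlt
        have h3 : t ≤ B0 s ∨ Q s < η (B0 s + 1) (R s) := Nat.find_spec (hex s)
        rcases h3 with h3 | h3
        · omega
        · have := hmono (B0 s + 1) i (by omega) hi.le (R s)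
          omega
  have hB0lt : ∀ s, B0 s < t ↔ Q s < η t (R s) := by
    intro s
    constructor
    · intro h
      have h1 := ((hB0iff s (B0 s) h).mp rfl).2
      have := hmono (B0 s + 1) t (by omega) le_rfl (R s)
      omega
    · intro h
      cases ht : t with
      | zero =>
        rw [ht, hη0] at h
        omega
      | succ m =>
        have h1 : B0 s ≤ m := Nat.find_min' (hex s) (Or.inr (by rw [ht] at h; exact h))
        omega
  have hηt : ∀ i, i ≤ t → ∀ y, η i y ≤ ν.rowLen y := fun i hi y =>
    (hmono i t hi le_rfl y).trans (hηtop y)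
  let Z : ℕ → Finset S := fun i => univ.filter fun s => B0 s = i
  have hZcard : ∀ i < t, (Z i).card = ∑ y ∈ range L, (η (i + 1) y - η i y) := by
    intro i hi
    rw [Finset.card_eq_sum_card_fiberwise (f := R) (t := range L)
      (fun s _ => by simpa using hRL s)]
    refine Finset.sum_congr rfl fun y _ => ?_
    have e : (Z i).filter (fun s => R s = y) =
        univ.filter fun s => R s = y ∧ η i y ≤ Q s ∧ Q s < η (i + 1) y := by
      ext s
      simp only [Z, mem_filter, mem_univ, true_and]
      rw [hB0iff s i hi]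
      constructor
      · rintro ⟨h1, h2⟩
        rw [h2] at h1
        exact ⟨h2, h1⟩
      · rintro ⟨h1, h2⟩
        rw [h1]
        exact ⟨h2, rfl⟩
    rw [e]
    exact card_row_segment T y _ _ (hηt (i + 1) (by omega) y)
  -- two cells of a stage in a column are adjacent
  have hadj : ∀ i < t, ∀ s ∈ Z i, ∀ s' ∈ Z i, Q s = Q s' → R s < R s' → R s' = R s + 1 := by
    intro i hi s hs s' hs' hq hlt
    by_contra hne
    have h1 := (hB0iff s i hi).mp (mem_filter.mp hs).2
    have h2 := (hB0iff s' i hi).mp (mem_filter.mp hs').2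
    have h3 : η (i + 1) (R s') ≤ η (i + 1) (R s + 2) :=
      hηanti (i + 1) (by omega) (by omega)
    have h4 := hthin i hi (R s)
    omega
  have hthree : ∀ i < t, ∀ a ∈ Z i, ∀ b ∈ Z i, ∀ u ∈ Z i, Q a = Q b → Q a = Q u →
      R a < R b → R b < R u → False := by
    intro i hi a ha b hb u hu h1 h2 h3 h4
    have h5 := hadj i hi a ha b hb h1 h3
    have h6 := hadj i hi a ha u hu h2 (h3.trans h4)
    omega
  have hside : ∀ i, ∃ A0 : Finset S, i < t → A0 ⊆ Z i ∧ 2 * A0.card = (Z i).card ∧
      (∀ s ∈ Z i, ∀ s' ∈ Z i, Q s = Q s' → R s < R s' → s ∉ A0 ∧ s' ∈ A0) := by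
    intro i
    by_cases hi : i < t
    swap
    · exact ⟨∅, fun h => absurd h hi⟩
    let Up := (Z i).filter fun s => ∃ u ∈ Z i, Q u = Q s ∧ R s < R u
    let Lo := (Z i).filter fun s => ∃ u ∈ Z i, Q u = Q s ∧ R u < R s
    have hUpLo : Up.card = Lo.card := by
      have e1 : Up.card = (Up.image Q).card := by
        rw [Finset.card_image_of_injOn]
        intro a ha b hb hab
        obtain ⟨ha1, u, hu, hu1, hu2⟩ := mem_filter.mp (mem_coe.mp ha)
        obtain ⟨hb1, w, hw, hw1, hw2⟩ := mem_filter.mp (mem_coe.mp hb)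
        rcases Nat.lt_trichotomy (R a) (R b) with h | h | h
        · exact (hthree i hi a ha1 b hb1 w hw hab (hab.trans hw1.symm) h hw2).elim
        · exact hinj a b hab h
        · exact (hthree i hi b hb1 a ha1 u hu hab.symm (hab.symm.trans hu1.symm) h hu2).elim
      have e2 : Lo.card = (Lo.image Q).card := by
        rw [Finset.card_image_of_injOn]
        intro a ha b hb hab
        obtain ⟨ha1, u, hu, hu1, hu2⟩ := mem_filter.mp (mem_coe.mp ha)
        obtain ⟨hb1, w, hw, hw1, hw2⟩ := mem_filter.mp (mem_coe.mp hb)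
        rcases Nat.lt_trichotomy (R a) (R b) with h | h | h
        · exact (hthree i hi u hu a ha1 b hb1 hu1 (hu1.trans hab) hu2 h).elim
        · exact hinj a b hab h
        · exact (hthree i hi w hw b hb1 a ha1 hw1 (hw1.trans hab.symm) hw2 h).elim
      rw [e1, e2]
      congr 1
      ext j
      simp only [mem_image, Up, Lo, mem_filter]
      constructor
      · rintro ⟨a, ⟨ha, u, hu, hu2, hu3⟩, rfl⟩
        exact ⟨u, ⟨hu, a, ha, hu2.symm, hu3⟩, hu2⟩
      · rintro ⟨a, ⟨ha, u, hu, hu2, hu3⟩, rfl⟩
        exact ⟨u, ⟨hu, a, ha, hu2.symm, hu3⟩, hu2⟩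
    have hdisj : Disjoint Up Lo := by
      rw [Finset.disjoint_left]
      intro s h4 h5
      obtain ⟨hs, u, hu, hu1, hu2⟩ := mem_filter.mp h4
      obtain ⟨_, w, hw, hw1, hw2⟩ := mem_filter.mp h5
      exact hthree i hi w hw s hs u hu hw1 (hw1.trans hu1.symm) hw2 hu2
    have hsub : Up ∪ Lo ⊆ Z i := union_subset (filter_subset _ _) (filter_subset _ _)
    have hcard2 := card_le_card hsub
    rw [Finset.card_union_of_disjoint hdisj] at hcard2
    obtain ⟨m, hm⟩ : ∃ m, (Z i).card = 2 * m :=
      ⟨lc c (x i), by rw [hZcard i hi]; exact (hsize i hi).1.symm⟩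
    have hLoSub : Lo ⊆ Z i \ Up := by
      intro s hs
      refine mem_sdiff.mpr ⟨(mem_filter.mp hs).1, fun h => ?_⟩
      exact (Finset.disjoint_left.mp hdisj h) hs
    have hcdiff : (Z i \ Up).card = (Z i).card - Up.card :=
      card_sdiff_of_subset (filter_subset _ _)
    obtain ⟨A0, h4, h5, h6⟩ :=
      Finset.exists_subsuperset_card_eq (n := m) hLoSub (by omega) (by omega)
    refine ⟨A0, fun _ => ⟨h5.trans sdiff_subset, by omega, ?_⟩⟩
    intro s hs s' hs' hq hlt
    constructor
    · intro h9
      have h10 := mem_sdiff.mp (h5 h9)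
      apply h10.2
      exact mem_filter.mpr ⟨hs, s', hs', hq.symm, hlt⟩
    · apply h4
      exact mem_filter.mpr ⟨hs', s, hs, hq, hlt⟩
  choose A0 hA0 using hside
  -- the rest: the position in the column
  let e : ℕ → ℕ := fun j => ((range L).filter fun y => j < η t y).card
  have he : ∀ y j, y < L ∧ j < η t y ↔ y < e j := by
    intro y j
    exact lt_card_filter_range_iff (fun y => j < η t y)
      (fun y y' hy h => lt_of_lt_of_le h (hηanti t le_rfl hy)) L y
  have hrest : ∀ s, B0 s < t ↔ R s < e (Q s) := by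
    intro s
    rw [hB0lt, ← he]
    exact ⟨fun h => ⟨hRL s, h⟩, fun h => h.2⟩
  let c0 : S → ℕ := fun s =>
    if B0 s < t then 2 * B0 s + (if s ∈ A0 (B0 s) then 1 else 0) else 2 * t + (R s - e (Q s))
  have hc0E : ∀ s, B0 s < t → c0 s = 2 * B0 s + (if s ∈ A0 (B0 s) then 1 else 0) :=
    fun s hs => if_pos hs
  have hc0R : ∀ s, ¬ B0 s < t → c0 s = 2 * t + (R s - e (Q s)) := fun s hs => if_neg hs
  have hB0c : ∀ s, ∀ i ∈ range t, B0 s = i ↔ c0 s = 2 * i ∨ c0 s = 2 * i + 1 := by
    intro s i hi
    have hi' := mem_range.mp hi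
    by_cases hs : B0 s < t
    · rw [hc0E s hs]
      split_ifs <;> omega
    · rw [hc0R s hs]
      omega
  have hA0m : ∀ i ∈ range t, ∀ s, s ∈ A0 i ↔ c0 s = 2 * i + 1 := by
    intro i hi s
    have hi' := mem_range.mp hi
    constructor
    · intro h
      have h1 : B0 s = i := (mem_filter.mp ((hA0 i hi').1 h)).2
      rw [hc0E s (by omega), h1, if_pos h]
    · intro h
      have h1 : B0 s = i := (hB0c s i hi).mpr (Or.inr h)
      rw [hc0E s (by omega), h1] at h
      by_contra h2
      rw [if_neg h2] at h
      omega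
  set E0 := (range t).image fun i => 2 * i with hE0def
  have hE0 : ∀ z ∈ E0, z + 1 ∉ E0 := by
    intro z hz hn
    obtain ⟨i, _, rfl⟩ := mem_image.mp hz
    obtain ⟨j, _, hj⟩ := mem_image.mp hn
    omega
  -- the filling is strict in the columns
  have hcs : ∀ s s', colC T s = colC T s' → rowC T s < rowC T s' → c0 s < c0 s' := by
    intro s s' hq hlt
    have hq' : Q s = Q s' := hq
    have hlt' : R s < R s' := hlt
    by_cases hs' : B0 s' < t
    · have h1 := (hB0iff s' _ hs').mp rfl
      have h2 : Q s < η (B0 s' + 1) (R s) := by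
        rw [hq']
        exact lt_of_lt_of_le h1.2 (hηanti (B0 s' + 1) (by omega) hlt'.le)
      have h3 : B0 s ≤ B0 s' := Nat.find_min' (hex s) (Or.inr h2)
      have hs : B0 s < t := by omega
      rw [hc0E s hs, hc0E s' hs']
      rcases Nat.lt_or_eq_of_le h3 with h4 | h4
      · split_ifs <;> omega
      · have h5 := (hA0 (B0 s) hs).2.2 s (by simp [Z]) s' (by simp [Z, h4]) hq' hlt'
        rw [if_neg h5.1, ← h4, if_pos h5.2]
        omega
    · rw [hc0R s' hs']
      by_cases hs : B0 s < t
      · rw [hc0E s hs]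
        split_ifs <;> omega
      · rw [hc0R s hs]
        have h1 : e (Q s) ≤ R s := by
          rw [hrest] at hs
          omega
        rw [hq'] at h1 ⊢
        omega
  -- the parity
  have hpar0 : ∀ z ∈ E0, Even (∑ s ∈ univ.filter (fun s => c0 s = z ∨ c0 s = z + 1), rowC T s) := by
    intro z hz
    obtain ⟨i, hi, rfl⟩ := mem_image.mp hz
    have hi' := mem_range.mp hi
    have e1 : (univ.filter fun s => c0 s = 2 * i ∨ c0 s = 2 * i + 1) = Z i := by
      ext s
      simp only [Z, mem_filter, mem_univ, true_and]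
      exact (hB0c s i hi).symm
    rw [e1, ← Finset.sum_fiberwise_of_maps_to (g := R) (t := range L)
      (fun s _ => by simpa using hRL s)]
    have e2 : ∀ y ∈ range L, ∑ s ∈ (Z i).filter (fun s => R s = y), rowC T s =
        (η (i + 1) y - η i y) * y := by
      intro y _
      have e3 : (Z i).filter (fun s => R s = y) =
          univ.filter fun s => R s = y ∧ η i y ≤ Q s ∧ Q s < η (i + 1) y := by
        ext s
        simp only [Z, mem_filter, mem_univ, true_and]
        rw [hB0iff s i hi']
        constructor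
        · rintro ⟨h1, h2⟩
          rw [h2] at h1
          exact ⟨h2, h1⟩
        · rintro ⟨h1, h2⟩
          rw [h1]
          exact ⟨h2, rfl⟩
      have e4 : ∀ s ∈ (Z i).filter (fun s => R s = y), rowC T s = y :=
        fun s hs => (mem_filter.mp hs).2
      rw [Finset.sum_congr rfl e4, Finset.sum_const, smul_eq_mul, e3,
        card_row_segment T y _ _ (hηt (i + 1) (by omega) y)]
    rw [Finset.sum_congr rfl e2]
    exact hpar i hi'
  obtain ⟨v0, hv0, hfix0⟩ := exists_fix_of_filling T hE0 hcs hpar0 hρ hlab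
  -- the target
  have hxuniq : ∀ i < t, ∀ j < t, ∀ z, (z = x i ∨ z = x i + 1) → (z = x j ∨ z = x j + 1) → i = j := by
    intro i hi j hj z h1 h2
    have h3 := hE _ (hxE i hi)
    have h4 := hE _ (hxE j hj)
    have h5 := hxE i hi
    have h6 := hxE j hj
    rcases h1 with h1 | h1 <;> rcases h2 with h2 | h2
    · exact hxinj hi hj (h1.symm.trans h2)
    · exfalso
      apply h4
      rw [← h2, h1]
      exact h5
    · exfalso
      apply h3
      rw [← h1, h2]
      exact h6
    · exact hxinj hi hj (by omega)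
  let B : S → ℕ := fun s =>
    if h : ∃ i, i < t ∧ (c s = x i ∨ c s = x i + 1) then Classical.choose h else t
  have hBiff : ∀ s, ∀ i ∈ range t, B s = i ↔ c s = x i ∨ c s = x i + 1 := by
    intro s i hi
    have hi' := mem_range.mp hi
    simp only [B]
    by_cases h : ∃ i, i < t ∧ (c s = x i ∨ c s = x i + 1)
    · rw [dif_pos h]
      have h1 := Classical.choose_spec h
      constructor
      · intro h2
        rw [← h2]
        exact h1.2
      · intro h2
        exact hxuniq _ h1.1 _ hi' _ h1.2 h2
    · rw [dif_neg h]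
      constructor
      · intro h2
        omega
      · intro h2
        exact absurd ⟨i, hi', h2⟩ h
  have hBn : ∀ s, B s ∉ range t ↔ ∀ i < t, c s ≠ x i ∧ c s ≠ x i + 1 := by
    intro s
    constructor
    · intro h i hi
      constructor
      · intro h2
        exact h (((hBiff s i (mem_range.mpr hi)).mpr (Or.inl h2)).symm ▸ mem_range.mpr hi)
      · intro h2
        exact h (((hBiff s i (mem_range.mpr hi)).mpr (Or.inr h2)).symm ▸ mem_range.mpr hi)
    · intro h h2
      rcases (hBiff s _ h2).mp rfl with h3 | h3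
      · exact (h _ (mem_range.mp h2)).1 h3
      · exact (h _ (mem_range.mp h2)).2 h3
  let A : ℕ → Finset S := fun i => univ.filter fun s => c s = x i + 1
  have hA : ∀ i ∈ range t, ∀ s ∈ A i, B s = i := by
    intro i hi s hs
    exact (hBiff s i hi).mpr (Or.inr (mem_filter.mp hs).2)
  have hBcard : ∀ i ∈ range t, (univ.filter fun s => B s = i).card = (Z i).card := by
    intro i hi
    have hi' := mem_range.mp hi
    have h4 : (univ.filter fun s => B s = i) = (univ.filter fun s => c s = x i) ∪
        (univ.filter fun s => c s = x i + 1) := by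
      ext s
      simp only [mem_filter, mem_univ, true_and, mem_union]
      exact hBiff s i hi
    rw [h4, Finset.card_union_of_disjoint]
    · have h5 := hsize i hi'
      rw [hZcard i hi']
      simp only [lc] at h5
      omega
    · rw [Finset.disjoint_left]
      intro s h5 h6
      have h7 := (mem_filter.mp h5).2
      have h8 := (mem_filter.mp h6).2
      omega
  have hcA : ∀ i ∈ range t, 2 * (A i).card = (univ.filter fun s => B s = i).card := by
    intro i hi
    have hi' := mem_range.mp hi
    rw [hBcard i hi, hZcard i hi']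
    exact (hsize i hi').2
  have hcA0 : ∀ i ∈ range t, 2 * (A0 i).card = (univ.filter fun s => B0 s = i).card :=
    fun i hi => (hA0 i (mem_range.mp hi)).2.1
  have hlc : ∀ y, lc (fun s : {s // B s ∉ range t} => tl (c s)) y = β y := by
    intro y
    rw [← hcβ y]
    simp only [lc]
    apply Finset.card_bij (fun (z : {s // B s ∉ range t}) _ => (z : S))
    · intro z hz
      simp only [mem_filter, mem_univ, true_and] at hz ⊢
      exact ⟨(hBn z).mp z.2, hz⟩
    · intro z _ z' _ h
      exact Subtype.ext h
    · intro s hs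
      simp only [mem_filter, mem_univ, true_and] at hs
      exact ⟨⟨s, (hBn s).mpr hs.1⟩, by simpa using hs.2, rfl⟩
  have hanti : Antitone (lc fun s : {s // B s ∉ range t} => tl (c s)) := by
    have : (lc fun s : {s // B s ∉ range t} => tl (c s)) = β := funext hlc
    rw [this]
    exact hβ
  have hQR0 : ∀ s, Q s < ν.rowLen 0 := by
    intro s
    have hm : ((rowC T s, colC T s) : ℕ × ℕ) ∈ ν := (T.symm s).2
    have hm' : ((0, colC T s) : ℕ × ℕ) ∈ ν := ν.up_left_mem (Nat.zero_le _) le_rfl hm
    exact YoungDiagram.mem_iff_lt_rowLen.mp hm'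
  have hP : ∀ k, pc (fun s : {s // B s ∉ range t} => tl (c s)) k ≤
      (univ.filter fun s => B0 s ∉ range t ∧ c0 s - 2 * t < k).card := by
    intro k
    rw [pc_eq_sum', Finset.sum_congr rfl (fun y _ => hlc y)]
    refine (hdom k).trans (le_of_eq ?_)
    rw [Finset.card_eq_sum_card_fiberwise (f := Q) (t := Finset.range (ν.rowLen 0))
      (fun s _ => by simpa using hQR0 s)]
    refine Finset.sum_congr rfl fun j _ => ?_
    have h4 : ((univ.filter fun s => B0 s ∉ range t ∧ c0 s - 2 * t < k).filter fun s => Q s = j) =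
        univ.filter fun s => Q s = j ∧ e j ≤ R s ∧ R s < min (ν.colLen j) (e j + k) := by
      ext s
      simp only [mem_filter, mem_univ, true_and, mem_range, not_lt, lt_min_iff]
      have hcol : R s < ν.colLen (Q s) := by
        have hm : ((rowC T s, colC T s) : ℕ × ℕ) ∈ ν := (T.symm s).2
        exact YoungDiagram.mem_iff_lt_colLen.mp hm
      constructor
      · rintro ⟨⟨h5, h6⟩, h7⟩
        have h8 : ¬ B0 s < t := by omega
        have h9 := (not_congr (hrest s)).mp h8
        rw [hc0R s h8] at h6
        rw [h7] at h9 hcol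
        rw [h7] at h6
        refine ⟨h7, by omega, hcol, by omega⟩
      · rintro ⟨h5, h6, h7, h8⟩
        have h9 : ¬ B0 s < t := by
          rw [hrest, h5]
          omega
        refine ⟨⟨by omega, ?_⟩, h5⟩
        rw [hc0R s h9, h5]
        omega
    rw [h4, card_col_segment T j _ _ (min_le_left _ _)]
    show min k (ν.colLen j - e j) = _
    omega
  obtain ⟨v, hv, hfix⟩ := fix_transport (range t) (fun i => 2 * i)
    (fun i _ j _ h => by simpa using h)
    (fun i _ j _ => by omega) c0 B0 hB0c A0 hA0m hcA0 B A hA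
    (fun i hi => hBcard i hi) hcA (fun s => tl (c s)) (fun y => y - 2 * t)
    (by
      intro s s' hs hs' h
      have h1 : ¬ B0 s < t := fun h2 => hs (mem_range.mpr h2)
      have h2 : ¬ B0 s' < t := fun h2 => hs' (mem_range.mpr h2)
      have h3 := hc0R s h1
      have h4 := hc0R s' h2
      have h5 : c0 s - 2 * t = c0 s' - 2 * t := h
      omega)
    hanti hP hv0 hfix0
  refine ⟨v, hv, fun κ hκ => ?_⟩
  obtain ⟨π, hπ, hκπ⟩ := hκ
  have hEx : ∀ i < t, x i + 1 ∉ E := fun i hi => hE _ (hxE i hi)
  apply hfix κ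
  · intro s hs
    have hi := hs
    have h4 := (hBiff s _ hs).mp rfl
    rw [(hBiff (κ s) _ hs).mpr]
    rw [hκπ]
    rcases hπ.2 _ (hxE _ (mem_range.mp hs)) with ⟨h5, h6⟩ | ⟨h5, h6⟩
    · rcases h4 with h4 | h4
      · left; rw [h4, h5]
      · right; rw [h4, h6]
    · rcases h4 with h4 | h4
      · right; rw [h4, h5]
      · left; rw [h4, h6]
  · intro s hs
    have h4 := (hBn s).mp hs
    have key : (∀ i < t, π (c s) ≠ x i ∧ π (c s) ≠ x i + 1) ∧ tl (π (c s)) = tl (c s) := by
      by_cases h6 : c s ∈ E
      · rcases hπ.2 _ h6 with ⟨h8, _⟩ | ⟨h8, _⟩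
        · rw [h8]
          exact ⟨h4, rfl⟩
        · rw [h8]
          refine ⟨fun i hi => ⟨fun h9 => hE _ h6 (h9 ▸ hxE i hi), fun h9 => ?_⟩,
            (htl _ h6 (fun i hi => (h4 i hi).1)).symm⟩
          have : c s = x i := by omega
          exact (h4 i hi).1 this
      · by_cases h7 : ∃ y ∈ E, c s = y + 1
        · obtain ⟨y, hy, h8⟩ := h7
          have hyE1 : ∀ i < t, y ≠ x i := fun i hi h9 => (h4 i hi).2 (by rw [h8, h9])
          rcases hπ.2 y hy with ⟨_, h9⟩ | ⟨_, h9⟩
          · rw [h8, h9]
            rw [h8] at h4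
            exact ⟨h4, rfl⟩
          · rw [h8, h9]
            refine ⟨fun i hi => ⟨hyE1 i hi, fun h10 => ?_⟩, htl y hy hyE1⟩
            exact hEx i hi (h10 ▸ hy)
        · push Not at h7
          rw [hπ.1 _ h6 h7]
          exact ⟨h4, rfl⟩
    refine ⟨(hBn (κ s)).mpr ?_, ?_⟩
    · rw [hκπ]
      exact key.1
    · show tl (c (κ s)) = tl (c s)
      rw [hκπ]
      exact key.2
  · intro i hi
    have hi' := mem_range.mp hi
    rcases hπ.2 _ (hxE i hi') with ⟨h5, h6⟩ | ⟨h5, h6⟩
    · left
      intro s hs
      simp only [A, mem_filter, mem_univ, true_and, hκπ]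
      rcases (hBiff s i hi).mp hs with h7 | h7
      · rw [h7, h5]
      · rw [h7, h6]
    · right
      intro s hs
      simp only [A, mem_filter, mem_univ, true_and, hκπ]
      rcases (hBiff s i hi).mp hs with h7 | h7
      · rw [h7, h5]
        simp
      · rw [h7, h6]
        simp

/-- **One double on top, in the first two rows.**  The Littlewood-Richardson test for `s_η h_β`,
`η = (a, b)` with `a, b` even: the columns of `ν / η` have lengths
`ν.colLen j - [j < a] - [j < b]`, and `β` is dominated by the conjugate of these lengths. -/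
theorem exists_adm_fix_top2 {ν : YoungDiagram} (hcard : ν.card = Fintype.card S)
    (c : S → ℕ) (E : Finset ℕ) (hE : ∀ x ∈ E, x + 1 ∉ E)
    (z : ℕ) (hz : z ∈ E) (a b : ℕ) (hab : b ≤ a) (ha : Even a) (hb : Even b)
    (haν : a ≤ ν.rowLen 0) (hbν : b ≤ ν.rowLen 1)
    (hsize : 2 * lc c z = a + b ∧ 2 * lc c (z + 1) = a + b)
    (tl : ℕ → ℕ) (htl : ∀ w ∈ E, w ≠ z → tl w = tl (w + 1))
    (β : ℕ → ℕ) (hβ : Antitone β)
    (hcβ : ∀ y, (univ.filter fun s => (c s ≠ z ∧ c s ≠ z + 1) ∧ tl (c s) = y).card = β y)
    (hdom : ∀ k, ∑ y ∈ range k, β y ≤ ∑ j ∈ range (ν.rowLen 0),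
      min k (ν.colLen j - ((if j < a then 1 else 0) + (if j < b then 1 else 0))))
    [FiniteDimensional ℂ V] {ρ : Representation ℂ (Perm S) V} (hρ : ρ.IsIrreducible)
    (hlab : Label ρ ν) : ∃ v, v ≠ 0 ∧ ∀ κ, Adm c E κ → ρ κ v = v := by
  classical
  have hL : 2 ≤ ν.colLen 0 ∨ b = 0 := by
    by_cases hb0 : b = 0
    · exact Or.inr hb0
    · left
      have h1 : 0 < ν.rowLen 1 := by omega
      have h2 : ((1, 0) : ℕ × ℕ) ∈ ν := YoungDiagram.mem_iff_lt_rowLen.mpr h1
      have := YoungDiagram.mem_iff_lt_colLen.mp h2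
      omega
  have hL0 : 1 ≤ ν.colLen 0 ∨ a = 0 := by
    by_cases ha0 : a = 0
    · exact Or.inr ha0
    · left
      have h1 : 0 < ν.rowLen 0 := by omega
      have h2 : ((0, 0) : ℕ × ℕ) ∈ ν := YoungDiagram.mem_iff_lt_rowLen.mpr h1
      have := YoungDiagram.mem_iff_lt_colLen.mp h2
      omega
  let r2 : ℕ → ℕ := fun y => if y = 0 then a else if y = 1 then b else 0
  let η : ℕ → ℕ → ℕ := fun i y => if i = 0 then 0 else r2 y
  have hr2 : ∑ y ∈ range (ν.colLen 0), r2 y = a + b := by
    have h3 : ∀ L, 2 ≤ L → ∑ y ∈ range L, r2 y = a + b := by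
      intro L hL2
      induction L, hL2 using Nat.le_induction with
      | base => simp [Finset.sum_range_succ, r2]
      | succ L hL2 ih =>
        rw [Finset.sum_range_succ, ih]
        have h4 : r2 L = 0 := by
          simp only [r2]
          rw [if_neg (by omega), if_neg (by omega)]
        omega
    rcases hL with h | h
    · exact h3 _ h
    · subst h
      rcases hL0 with h5 | h5
      · by_cases h6 : ν.colLen 0 = 1
        · rw [h6]
          simp [r2]
        · exact h3 _ (by omega)
      · subst h5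
        apply Finset.sum_eq_zero
        intro y _
        simp only [r2]
        split_ifs <;> rfl
  have hcol : ∀ j, ((range (ν.colLen 0)).filter fun y => j < η 1 y).card =
      (if j < a then 1 else 0) + (if j < b then 1 else 0) := by
    intro j
    have h3 : ∀ y, j < η 1 y ↔ (y = 0 ∧ j < a) ∨ (y = 1 ∧ j < b) := by
      intro y
      simp only [η, r2, one_ne_zero, if_false]
      by_cases h4 : y = 0
      · simp [h4]
      · by_cases h5 : y = 1
        · simp [h5]
        · simp [h4, h5]
    by_cases h7 : j < a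
    · have hL1 : 0 < ν.colLen 0 := by rcases hL0 with h | h <;> omega
      by_cases h8 : j < b
      · have hL2 : 1 < ν.colLen 0 := by rcases hL with h | h <;> omega
        have h6 : (range (ν.colLen 0)).filter (fun y => j < η 1 y) = {0, 1} := by
          ext y
          simp only [mem_filter, mem_range, h3, mem_insert, mem_singleton]
          constructor
          · rintro ⟨_, ⟨h9, _⟩ | ⟨h9, _⟩⟩
            · exact Or.inl h9
            · exact Or.inr h9
          · rintro (h9 | h9)
            · subst h9
              exact ⟨hL1, Or.inl ⟨rfl, h7⟩⟩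
            · subst h9
              exact ⟨hL2, Or.inr ⟨rfl, h8⟩⟩
        rw [h6, if_pos h7, if_pos h8]
        rfl
      · have h6 : (range (ν.colLen 0)).filter (fun y => j < η 1 y) = {0} := by
          ext y
          simp only [mem_filter, mem_range, h3, mem_singleton]
          constructor
          · rintro ⟨_, ⟨h9, _⟩ | ⟨_, h9⟩⟩
            · exact h9
            · exact absurd h9 h8
          · intro h9
            subst h9
            exact ⟨hL1, Or.inl ⟨rfl, h7⟩⟩
        rw [h6, if_pos h7, if_neg h8]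
        rfl
    · have h8 : ¬ j < b := by omega
      have h6 : (range (ν.colLen 0)).filter (fun y => j < η 1 y) = ∅ := by
        apply Finset.filter_eq_empty_iff.mpr
        intro y _
        rw [h3]
        rintro (⟨_, h9⟩ | ⟨_, h9⟩)
        · exact h7 h9
        · exact h8 h9
      rw [h6, if_neg h7, if_neg h8]
      rfl
  refine exists_adm_fix_chain hcard c E hE 1 (fun _ => z) (fun _ _ => hz)
    (fun i hi j hj _ => by
      have h1 : i = 0 := by simpa using hi
      have h2 : j = 0 := by simpa using hj
      omega) η (fun y => rfl) ?_ ?_ ?_ ?_ ?_ ?_ tl ?_ β hβ ?_ ?_ hρ hlab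
  · intro i hi y
    have : i = 0 := by omega
    subst this
    simp [η]
  · intro i hi y y' hy
    by_cases h0 : i = 0
    · simp [η, h0]
    · simp only [η, h0, if_false, r2]
      split_ifs <;> omega
  · intro y
    simp only [η, one_ne_zero, if_false, r2]
    split_ifs with h1 h2
    · subst h1; exact haν
    · subst h2; exact hbν
    · exact Nat.zero_le _
  · intro i hi y
    have : i = 0 := by omega
    subst this
    simp [η, r2]
  · intro i hi
    have : i = 0 := by omega
    subst this
    have : ∀ y, η (0 + 1) y - η 0 y = r2 y := by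
      intro y
      simp [η]
    simp only [this, hr2]
    exact hsize
  · intro i hi
    have : i = 0 := by omega
    subst this
    have : ∀ y, (η (0 + 1) y - η 0 y) * y = if y = 1 then b else 0 := by
      intro y
      simp only [η, r2]
      by_cases h1 : y = 0
      · simp [h1]
      · by_cases h2 : y = 1
        · simp [h2]
        · simp [h1, h2]
    simp only [this]
    rw [Finset.sum_ite_eq' (range (ν.colLen 0)) 1 (fun _ => b)]
    split_ifs
    · exact hb
    · exact Even.zero
  · intro w hw h
    exact htl w hw (h 0 Nat.one_pos)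
  · intro y
    rw [← hcβ y]
    congr 1
    ext s
    simp
  · intro k
    refine (hdom k).trans (le_of_eq ?_)
    refine Finset.sum_congr rfl fun j _ => ?_
    rw [hcol j]

end Crest.Agent.Saxl.EFix
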