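import Crest.Agent.Lib.Saxl.Level
import Crest.Agent.Lib.Saxl.EFixLevels

/-!
# The block test with the true Littlewood-Richardson test for placed doubles (row 195, S0298)

`occurs_of_parts_chain`, `occurs_of_list_chain`: like `occurs_of_parts`, `occurs_of_list` of
`BlockTest`, but the placed doubles fill the rings of a chain of partitions `η` on top of `ν`, and
the other parts are dominated by the conjugate of the column lengths of `ν / η t`
(`EFix.exists_adm_fix_chain`).
-/

set_option autoImplicit false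

open scoped BigOperators
open Equiv

namespace Crest.Agent.Saxl

section MainChain

variable {S : Type} [Fintype S] [DecidableEq S] {N M : ℕ}

/-- **The numeric block test, chain form.** -/
theorem occurs_of_parts_chain (kind : Fin N → BK) {pos : Fin N → ℕ → ℕ} {D : Finset (ℕ × ℕ)}
    (hp : PosSepG pos (fun i => (kind i).cells)) (hD : IsUnionG pos (fun i => (kind i).cells) D)
    (hband : ∀ i j, i ≠ j → (kind i).hi < (kind j).lo ∨ (kind j).hi < (kind i).lo)
    (blk : Fin M → Fin N) (sz : Fin M → ℕ)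
    (htot : ∑ j, sz j = Fintype.card S)
    (hsz : ∀ i, ∑ j ∈ Finset.univ.filter (fun j => blk j = i), sz j = (kind i).size)
    (hone : ∀ i x, kind i = BK.single x → (Finset.univ.filter fun j => blk j = i).card ≤ 1)
    (hfour : ∀ i x, kind i = BK.pair x → (Finset.univ.filter fun j => blk j = i).card ≤ 4)
    (hdbl : ∀ i d, kind i = BK.dbl d → 0 < d ∧ (Finset.univ.filter fun j => blk j = i).card = 1)
    {ν : YoungDiagram} (hcard : ν.card = Fintype.card S)
    (t : ℕ) (pl : Fin t → Fin M) (hpl : Function.Injective pl)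
    (hP : ∀ i, ∃ d, kind (blk (pl i)) = BK.dbl d)
    (η : ℕ → ℕ → ℕ) (hη0 : ∀ y, η 0 y = 0)
    (hηmono : ∀ i < t, ∀ y, η i y ≤ η (i + 1) y)
    (hηanti : ∀ i ≤ t, Antitone (η i))
    (hηtop : ∀ y, η t y ≤ ν.rowLen y)
    (hthin : ∀ i < t, ∀ y, η (i + 1) (y + 2) ≤ η i y)
    (hsize : ∀ i : Fin t, ∑ y ∈ Finset.range (ν.colLen 0), (η (i.1 + 1) y - η i.1 y) = sz (pl i))
    (hpar : ∀ i < t, Even (∑ y ∈ Finset.range (ν.colLen 0), (η (i + 1) y - η i y) * y))
    (hdom : ∀ T : Finset (Fin M), (∀ i, pl i ∉ T) → ∑ j ∈ T, sz j ≤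
      ∑ j ∈ Finset.range (ν.rowLen 0), min T.card
        (ν.colLen j - ((Finset.range (ν.colLen 0)).filter fun y => j < η t y).card))
    {V : Type*} [AddCommGroup V] [Module ℂ V] [FiniteDimensional ℂ V]
    {ρ : Representation ℂ (Perm S) V} (hρ : ρ.IsIrreducible) (hlab : Label ρ ν) :
    Occurs ρ D D := by
  classical
  let Dbl : Fin M → Prop := fun j => ∃ d, kind (blk j) = BK.dbl d
  obtain ⟨e⟩ : Nonempty (S ≃ Σ j : Fin M, Fin (sz j)) :=
    ⟨Fintype.equivOfCardEq (by simp [Fintype.card_sigma, htot])⟩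
  let c : S → ℕ := colourOf Dbl e
  let B : S → Fin N := fun s => blk (e s).1
  let E : Finset ℕ := (Finset.univ.filter Dbl).image fun j => 2 * j.1
  let P : Finset (Fin M) := Finset.univ.image pl
  let x : ℕ → ℕ := fun i => if h : i < t then 2 * (pl ⟨i, h⟩).1 else 0
  have hx : ∀ i : Fin t, x i.1 = 2 * (pl i).1 := by
    intro i
    simp only [x, dif_pos i.2]
  have hcdiv : ∀ s, c s / 2 = (e s).1.1 := colourOf_div Dbl e
  have hccases : ∀ s, c s = 2 * (e s).1.1 ∨ c s = 2 * (e s).1.1 + 1 := colourOf_cases Dbl e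
  have hE : ∀ x ∈ E, x + 1 ∉ E := by
    intro x hx hx1
    obtain ⟨j, -, rfl⟩ := Finset.mem_image.mp hx
    obtain ⟨j', -, hj'⟩ := Finset.mem_image.mp hx1
    omega
  have hxE : ∀ i < t, x i ∈ E := by
    intro i hi
    have h1 := hx ⟨i, hi⟩
    simp only at h1
    rw [h1]
    exact Finset.mem_image.mpr ⟨pl ⟨i, hi⟩, Finset.mem_filter.mpr ⟨Finset.mem_univ _, hP _⟩, rfl⟩
  have hxinj : Set.InjOn x (Set.Iio t) := by
    intro i hi j hj h
    have h1 := hx ⟨i, hi⟩
    have h2 := hx ⟨j, hj⟩
    simp only at h1 h2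
    rw [h1, h2] at h
    have h3 : pl ⟨i, hi⟩ = pl ⟨j, hj⟩ := Fin.ext (by omega)
    have h4 := hpl h3
    simpa using h4
  -- sizes of double parts
  have hszd : ∀ j d, kind (blk j) = BK.dbl d → sz j = 2 * d := by
    intro j d hd
    have h1 := hsz (blk j)
    have h2 := (hdbl _ _ hd).2
    obtain ⟨j₀, hj₀⟩ := Finset.card_eq_one.mp h2
    have h3 : j ∈ ({j₀} : Finset (Fin M)) := by
      rw [← hj₀]
      simp
    rw [Finset.mem_singleton] at h3
    rw [hj₀, Finset.sum_singleton, hd, ← h3] at h1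
    exact h1
  have hc1 : ∀ i < t, 2 * lc c (x i) = ∑ y ∈ Finset.range (ν.colLen 0), (η (i + 1) y - η i y) ∧
      2 * lc c (x i + 1) = ∑ y ∈ Finset.range (ν.colLen 0), (η (i + 1) y - η i y) := by
    intro i hi
    obtain ⟨d, hd⟩ := hP ⟨i, hi⟩
    have h1 := hszd _ d hd
    have h2 := hx ⟨i, hi⟩
    simp only at h2
    have hl1 : lc c (2 * (pl ⟨i, hi⟩).1) = d := by
      show (Finset.univ.filter fun s => colourOf Dbl e s = 2 * (pl ⟨i, hi⟩).1).card = d
      exact card_colour_first Dbl e h1 ⟨d, hd⟩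
    have hl2 : lc c (2 * (pl ⟨i, hi⟩).1 + 1) = d := by
      show (Finset.univ.filter fun s => colourOf Dbl e s = 2 * (pl ⟨i, hi⟩).1 + 1).card = d
      exact card_colour_second Dbl e h1 ⟨d, hd⟩
    rw [h2, hl1, hl2, hsize ⟨i, hi⟩, h1]
    exact ⟨rfl, rfl⟩
  -- ranks
  obtain ⟨rk, hrk1, hrk2, hrk3⟩ := exists_rank Pᶜ sz
  let β : ℕ → ℕ := fun y => ∑ j ∈ Pᶜ with rk j = y, sz j
  have hβval : ∀ j ∈ Pᶜ, β (rk j) = sz j := by
    intro j hj
    have : (Pᶜ.filter fun j' => rk j' = rk j) = {j} := by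
      ext j'
      simp only [Finset.mem_filter, Finset.mem_singleton]
      constructor
      · rintro ⟨h1, h2⟩
        exact hrk1 (Finset.mem_coe.mpr h1) (Finset.mem_coe.mpr hj) h2
      · rintro rfl
        exact ⟨hj, rfl⟩
    simp only [β, this, Finset.sum_singleton]
  have hβ0 : ∀ y, (∀ j ∈ Pᶜ, rk j ≠ y) → β y = 0 := by
    intro y hy
    simp only [β]
    rw [Finset.sum_eq_zero]
    intro j hj
    obtain ⟨h1, h2⟩ := Finset.mem_filter.mp hj
    exact absurd h2 (hy j h1)
  have hsurj : ∀ y < Pᶜ.card, ∃ j ∈ Pᶜ, rk j = y := by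
    have himg : Pᶜ.image rk = Finset.range Pᶜ.card := by
      apply Finset.eq_of_subset_of_card_le
      · intro y hy
        obtain ⟨j, hj, rfl⟩ := Finset.mem_image.mp hy
        exact Finset.mem_range.mpr (hrk2 j hj)
      · rw [Finset.card_range, Finset.card_image_of_injOn hrk1]
    intro y hy
    have : y ∈ Pᶜ.image rk := by
      rw [himg]
      exact Finset.mem_range.mpr hy
    obtain ⟨j, hj, rfl⟩ := Finset.mem_image.mp this
    exact ⟨j, hj, rfl⟩
  have hβ : Antitone β := by
    intro y y' hyy'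
    by_cases hex : ∃ j' ∈ Pᶜ, rk j' = y'
    · obtain ⟨j', hj', rfl⟩ := hex
      obtain ⟨j, hj, rfl⟩ := hsurj y (lt_of_le_of_lt hyy' (hrk2 j' hj'))
      rw [hβval j hj, hβval j' hj']
      rcases eq_or_lt_of_le hyy' with h | h
      · rw [hrk1 (Finset.mem_coe.mpr hj) (Finset.mem_coe.mpr hj') h]
      · exact hrk3 j hj j' hj' h
    · push Not at hex
      rw [hβ0 y' hex]
      exact Nat.zero_le _
  have hinP : ∀ s, (∀ i < t, c s ≠ x i ∧ c s ≠ x i + 1) ↔ (e s).1 ∈ Pᶜ := by
    intro s
    rw [Finset.mem_compl]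
    constructor
    · rintro h1 hmem
      obtain ⟨i, -, hi⟩ := Finset.mem_image.mp hmem
      have h2 := h1 i.1 i.2
      have h3 := hx i
      rw [h3, hi] at h2
      rcases hccases s with h | h
      · exact h2.1 h
      · exact h2.2 h
    · intro hnot i hi
      have h3 := hx ⟨i, hi⟩
      simp only at h3
      have h4 : (e s).1 ≠ pl ⟨i, hi⟩ := fun h5 =>
        hnot (Finset.mem_image.mpr ⟨⟨i, hi⟩, Finset.mem_univ _, h5.symm⟩)
      have h5 := hcdiv s
      constructor
      · intro h6
        rw [h3] at h6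
        exact h4 (Fin.ext (by omega))
      · intro h6
        rw [h3] at h6
        exact h4 (Fin.ext (by omega))
  have hcβ : ∀ y, (Finset.univ.filter fun s => (∀ i < t, c s ≠ x i ∧ c s ≠ x i + 1) ∧
      decCol rk (c s) = y).card = β y := by
    intro y
    have hdec : ∀ s, decCol rk (c s) = rk (e s).1 := by
      intro s
      rcases hccases s with h | h
      · rw [h, decCol_even]
      · rw [h, decCol_odd]
    have h1 : (Finset.univ.filter fun s => (∀ i < t, c s ≠ x i ∧ c s ≠ x i + 1) ∧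
        decCol rk (c s) = y) =
        Finset.univ.filter fun s => (e s).1 ∈ Pᶜ.filter fun j => rk j = y := by
      ext s
      simp only [Finset.mem_filter, Finset.mem_univ, true_and]
      rw [← hinP s, hdec s]
    rw [h1, card_part]
  have hdom' : ∀ k, ∑ y ∈ Finset.range k, β y ≤ ∑ j ∈ Finset.range (ν.rowLen 0),
      min k (ν.colLen j - ((Finset.range (ν.colLen 0)).filter fun y => j < η t y).card) := by
    intro k
    let T : Finset (Fin M) := Pᶜ.filter fun j => rk j < k
    have hT : ∀ i : Fin t, pl i ∉ T := by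
      intro i hi
      exact (Finset.mem_compl.mp (Finset.mem_filter.mp hi).1)
        (Finset.mem_image.mpr ⟨i, Finset.mem_univ _, rfl⟩)
    have hsum : ∑ y ∈ Finset.range k, β y = ∑ j ∈ T, sz j := by
      simp only [β]
      rw [← Finset.sum_biUnion]
      · apply Finset.sum_congr _ fun _ _ => rfl
        ext j
        simp only [Finset.mem_biUnion, Finset.mem_range, Finset.mem_filter, T]
        constructor
        · rintro ⟨y, hy, h1, rfl⟩
          exact ⟨h1, hy⟩
        · rintro ⟨h1, h2⟩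
          exact ⟨_, h2, h1, rfl⟩
      · intro y _ y' _ hne
        simp only [Function.onFun]
        rw [Finset.disjoint_left]
        intro j hj hj'
        exact hne ((Finset.mem_filter.mp hj).2.symm.trans (Finset.mem_filter.mp hj').2)
    have hcardT : T.card ≤ k := by
      have : T.card = (T.image rk).card := by
        rw [Finset.card_image_of_injOn]
        intro x hx y hy h
        exact hrk1 (Finset.mem_coe.mpr (Finset.mem_filter.mp (Finset.mem_coe.mp hx)).1)
          (Finset.mem_coe.mpr (Finset.mem_filter.mp (Finset.mem_coe.mp hy)).1) h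
      rw [this]
      calc (T.image rk).card ≤ (Finset.range k).card := by
            apply Finset.card_le_card
            intro y hy
            obtain ⟨j, hj, rfl⟩ := Finset.mem_image.mp hy
            exact Finset.mem_range.mpr (Finset.mem_filter.mp hj).2
        _ = k := Finset.card_range k
    rw [hsum]
    refine (hdom T hT).trans (Finset.sum_le_sum fun y _ => ?_)
    exact min_le_min_right _ hcardT
  have htl : ∀ z ∈ E, (∀ i < t, z ≠ x i) → decCol rk z = decCol rk (z + 1) := by
    intro z hz _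
    obtain ⟨j, -, rfl⟩ := Finset.mem_image.mp hz
    rw [decCol_even, decCol_odd]
  obtain ⟨v₀, hv₀, hfix⟩ := EFix.exists_adm_fix_chain hcard c E hE t x hxE hxinj η hη0 hηmono hηanti
    hηtop hthin hc1 hpar (decCol rk) htl β hβ hcβ hdom' hρ hlab
  have hcB : ∀ s s', c s = c s' → B s = B s' := by
    intro s s' h
    have h1 := hcdiv s
    have h2 := hcdiv s'
    rw [h] at h1
    have : (e s).1 = (e s').1 := Fin.ext (by omega)
    simp only [B, this]
  have hEb : ∀ s s', c s ∈ E → c s' = c s + 1 → B s = B s' := by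
    intro s s' h1 h2
    obtain ⟨j, -, hj⟩ := Finset.mem_image.mp h1
    have h3 := hcdiv s
    have h4 := hcdiv s'
    have : (e s).1 = (e s').1 := Fin.ext (by omega)
    simp only [B, this]
  -- slots of a block
  have hslots : ∀ i, Fintype.card (Blk B i) = (kind i).size := by
    intro i
    rw [← hsz i, ← card_part e (Finset.univ.filter fun j => blk j = i), Fintype.card_subtype]
    congr 1
    ext s
    simp [B]
  have hCond : ∀ i, (kind i).Cond (fun a : Blk B i => c a.1) E := by
    intro i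
    rcases hk : kind i with x | x | d
    · -- single
      intro u v
      have hu := u.2
      have hv := v.2
      have huv : (e u.1).1 = (e v.1).1 := by
        apply Finset.card_le_one.mp (hone i x hk)
        · exact Finset.mem_filter.mpr ⟨Finset.mem_univ _, hu⟩
        · exact Finset.mem_filter.mpr ⟨Finset.mem_univ _, hv⟩
      have hnd : ∀ w : Blk B i, ¬ Dbl (e w.1).1 := by
        rintro w ⟨d, hd⟩
        have : blk (e w.1).1 = i := w.2
        rw [this, hk] at hd
        cases hd
      show colourOf Dbl e u.1 = colourOf Dbl e v.1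
      rw [colourOf_of_not Dbl e (hnd u), colourOf_of_not Dbl e (hnd v), huv]
    · -- pair
      have hnd : ∀ w : Blk B i, ¬ Dbl (e w.1).1 := by
        rintro w ⟨d, hd⟩
        have : blk (e w.1).1 = i := w.2
        rw [this, hk] at hd
        cases hd
      have hsub : (Finset.univ.image fun a : Blk B i => c a.1) ⊆
          (Finset.univ.filter fun j => blk j = i).image fun j => 2 * j.1 := by
        intro z hz
        obtain ⟨w, -, rfl⟩ := Finset.mem_image.mp hz
        refine Finset.mem_image.mpr ⟨(e w.1).1, Finset.mem_filter.mpr ⟨Finset.mem_univ _, w.2⟩, ?_⟩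
        exact (colourOf_of_not Dbl e (hnd w)).symm
      exact (Finset.card_le_card hsub).trans (Finset.card_image_le.trans (hfour i x hk))
    · -- double
      obtain ⟨hd, h1⟩ := hdbl i d hk
      obtain ⟨j₀, hj₀⟩ := Finset.card_eq_one.mp h1
      have hj₀i : blk j₀ = i := by
        have : j₀ ∈ Finset.univ.filter fun j => blk j = i := by
          rw [hj₀]
          exact Finset.mem_singleton_self _
        exact (Finset.mem_filter.mp this).2
      have hk₀ : kind (blk j₀) = BK.dbl d := by rw [hj₀i, hk]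
      have hp₀ : ∀ w : Blk B i, (e w.1).1 = j₀ := by
        intro w
        have : (e w.1).1 ∈ Finset.univ.filter fun j => blk j = i :=
          Finset.mem_filter.mpr ⟨Finset.mem_univ _, w.2⟩
        rw [hj₀] at this
        exact Finset.mem_singleton.mp this
      refine ⟨hd, 2 * j₀.1, Finset.mem_image.mpr ⟨j₀, Finset.mem_filter.mpr ⟨Finset.mem_univ _,
        ⟨d, hk₀⟩⟩, rfl⟩, fun w => ?_, ?_⟩
      · have := hccases w.1
        rw [hp₀ w] at this
        exact this
      · have hsz0 := hszd j₀ d hk₀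
        have hcnt := card_colour_first Dbl e hsz0 ⟨d, hk₀⟩
        rw [← hcnt]
        apply Finset.card_bij (fun w _ => w.1)
        · intro w hw
          exact Finset.mem_filter.mpr ⟨Finset.mem_univ _, (Finset.mem_filter.mp hw).2⟩
        · intro w _ w' _ h
          exact Subtype.ext h
        · intro s hs
          have hcs : colourOf Dbl e s = 2 * j₀.1 := (Finset.mem_filter.mp hs).2
          have hdiv := colourOf_div Dbl e s
          rw [hcs] at hdiv
          have hpart : (e s).1 = j₀ := Fin.ext (by omega)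
          refine ⟨⟨s, ?_⟩, Finset.mem_filter.mpr ⟨Finset.mem_univ _, hcs⟩, rfl⟩
          show blk (e s).1 = i
          rw [hpart, hj₀i]
  exact occurs_of_mixed kind B c E hslots hCond hp hD hband hcB hE hEb hv₀ hfix

end MainChain

section ListChain

variable {S : Type} [Fintype S] [DecidableEq S]

lemma getElem_zero_eq_sum (L : List ℕ) (h : 0 < L.length) (h1 : L.length = 1) : L[0] = L.sum := by
  match L, h1 with
  | [q], _ => simp

/-- **The block test for a list of blocks, chain form.** -/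
theorem occurs_of_list_chain (l : List BK) (hpw : l.Pairwise fun K K' => K'.hi < K.lo)
    (ps : Fin l.length → List ℕ)
    (hps : ∀ i, (ps i).sum = (l[i.1]).size)
    (hOK : ∀ i : Fin l.length, (l[i.1]).PartsOK (ps i))
    {ν : YoungDiagram} (hcard : ν.card = Fintype.card S)
    (hS : (l.map BK.size).sum = Fintype.card S)
    (t : ℕ) (pl : Fin t → Fin l.length) (hpl : Function.Injective pl)
    (hP : ∀ i, ∃ d, l[(pl i).1] = BK.dbl d)
    (η : ℕ → ℕ → ℕ) (hη0 : ∀ y, η 0 y = 0)
    (hηmono : ∀ i < t, ∀ y, η i y ≤ η (i + 1) y)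
    (hηanti : ∀ i ≤ t, Antitone (η i))
    (hηtop : ∀ y, η t y ≤ ν.rowLen y)
    (hthin : ∀ i < t, ∀ y, η (i + 1) (y + 2) ≤ η i y)
    (hsize : ∀ i : Fin t, ∑ y ∈ Finset.range (ν.colLen 0), (η (i.1 + 1) y - η i.1 y) =
      (l[(pl i).1]).size)
    (hpar : ∀ i < t, Even (∑ y ∈ Finset.range (ν.colLen 0), (η (i + 1) y - η i y) * y))
    (hdom : ∀ T : Finset (Σ i, Fin (ps i).length), (∀ p ∈ T, ∀ i, p.1 ≠ pl i) →
      ∑ p ∈ T, (ps p.1)[p.2.1] ≤ ∑ j ∈ Finset.range (ν.rowLen 0), min T.card
        (ν.colLen j - ((Finset.range (ν.colLen 0)).filter fun y => j < η t y).card))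
    {V : Type*} [AddCommGroup V] [Module ℂ V] [FiniteDimensional ℂ V]
    {ρ : Representation ℂ (Perm S) V} (hρ : ρ.IsIrreducible) (hlab : Label ρ ν) :
    Occurs ρ (cellsL l) (cellsL l) := by
  classical
  let J := Σ i, Fin (ps i).length
  let val : J → ℕ := fun p => (ps p.1)[p.2.1]
  let enc : J ≃ Fin (Fintype.card J) := Fintype.equivFin J
  let blk : Fin (Fintype.card J) → Fin l.length := fun j => (enc.symm j).1
  let sz : Fin (Fintype.card J) → ℕ := fun j => val (enc.symm j)
  have hsum_block : ∀ i, ∑ p ∈ Finset.univ.filter (fun p : J => p.1 = i), val p = (ps i).sum := by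
    intro i
    have h1 : (Finset.univ.filter fun p : J => p.1 = i) =
        (Finset.univ : Finset (Fin (ps i).length)).map (Function.Embedding.sigmaMk i) := by
      ext ⟨i', k⟩
      simp only [Finset.mem_filter, Finset.mem_univ, true_and, Finset.mem_map]
      constructor
      · rintro rfl
        exact ⟨k, rfl⟩
      · rintro ⟨k', h⟩
        exact (Sigma.mk.inj_iff.mp h).1.symm
    rw [h1, Finset.sum_map]
    simp only [val]
    exact Fin.sum_univ_getElem (ps i)
  have hcard_block : ∀ i, (Finset.univ.filter fun p : J => p.1 = i).card = (ps i).length := by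
    intro i
    have h1 : (Finset.univ.filter fun p : J => p.1 = i) =
        (Finset.univ : Finset (Fin (ps i).length)).map (Function.Embedding.sigmaMk i) := by
      ext ⟨i', k⟩
      simp only [Finset.mem_filter, Finset.mem_univ, true_and, Finset.mem_map]
      constructor
      · rintro rfl
        exact ⟨k, rfl⟩
      · rintro ⟨k', h⟩
        exact (Sigma.mk.inj_iff.mp h).1.symm
    rw [h1, Finset.card_map, Finset.card_univ, Fintype.card_fin]
  have hfilter : ∀ i, (Finset.univ.filter fun j => blk j = i).map enc.symm.toEmbedding =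
      Finset.univ.filter fun p : J => p.1 = i := by
    intro i
    ext p
    simp only [Finset.mem_map, Finset.mem_filter, Finset.mem_univ, true_and,
      Equiv.coe_toEmbedding]
    constructor
    · rintro ⟨j, hj, rfl⟩
      exact hj
    · intro h
      exact ⟨enc p, by simpa [blk] using h, by simp⟩
  have hcard_block' : ∀ i, (Finset.univ.filter fun j => blk j = i).card = (ps i).length := by
    intro i
    rw [← hcard_block i, ← hfilter i, Finset.card_map]
  have hsum_univ : ∀ f : J → ℕ, ∑ j, f (enc.symm j) = ∑ p, f p := fun f =>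
    Equiv.sum_comp enc.symm f
  have htot : ∑ j, sz j = Fintype.card S := by
    rw [hsum_univ val, ← hS]
    simp only [val, J]
    rw [Fintype.sum_sigma]
    have h1 : ∀ i : Fin l.length, ∑ k : Fin (ps i).length, (ps i)[k.1] = (l[i.1]).size := by
      intro i
      rw [Fin.sum_univ_getElem, hps]
    simp only [h1]
    exact Fin.sum_univ_fun_getElem l BK.size
  have hsz : ∀ i, ∑ j ∈ Finset.univ.filter (fun j => blk j = i), sz j = (l[i.1]).size := by
    intro i
    rw [← hps i, ← hsum_block i, ← hfilter i, Finset.sum_map]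
    rfl
  have hone : ∀ i x, l[i.1] = BK.single x → (Finset.univ.filter fun j => blk j = i).card ≤ 1 := by
    intro i x h
    have := hOK i
    rw [h] at this
    rw [hcard_block']
    exact this
  have hfour : ∀ i x, l[i.1] = BK.pair x → (Finset.univ.filter fun j => blk j = i).card ≤ 4 := by
    intro i x h
    have := hOK i
    rw [h] at this
    rw [hcard_block']
    exact this
  have hdbl : ∀ i d, l[i.1] = BK.dbl d →
      0 < d ∧ (Finset.univ.filter fun j => blk j = i).card = 1 := by
    intro i d h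
    have := hOK i
    rw [h] at this
    rw [hcard_block']
    exact this
  -- the placed parts
  have hlen1 : ∀ i, (ps (pl i)).length = 1 := by
    intro i
    obtain ⟨d, hd⟩ := hP i
    have := hOK (pl i)
    rw [hd] at this
    exact this.2
  let pl' : Fin t → Fin (Fintype.card J) := fun i => enc ⟨pl i, ⟨0, by rw [hlen1 i]; exact Nat.one_pos⟩⟩
  have hpl'blk : ∀ i, blk (pl' i) = pl i := by
    intro i
    simp [blk, pl']
  have hpl' : Function.Injective pl' := by
    intro i j h
    apply hpl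
    rw [← hpl'blk i, ← hpl'blk j, h]
  have hszpl : ∀ i, sz (pl' i) = (l[(pl i).1]).size := by
    intro i
    have h1 : sz (pl' i) = (ps (pl i))[0]'(by rw [hlen1 i]; exact Nat.one_pos) := by
      show val (enc.symm (enc _)) = _
      rw [Equiv.symm_apply_apply]
    rw [h1, ← hps (pl i)]
    exact getElem_zero_eq_sum _ _ (hlen1 i)
  refine occurs_of_parts_chain (fun i : Fin l.length => l[i.1]) (posSepG_list l) (isUnionG_list l)
    (fun i j hne => band_list hpw i j hne) blk sz htot hsz hone hfour hdbl hcard t pl' hpl'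
    (fun i => by rw [hpl'blk]; exact hP i) η hη0 hηmono hηanti hηtop hthin
    (fun i => by rw [hszpl]; exact hsize i) hpar ?_ hρ hlab
  intro T hT
  have h := hdom (T.map enc.symm.toEmbedding) (by
    intro p hp i hpi
    obtain ⟨j, hj, rfl⟩ := Finset.mem_map.mp hp
    apply hT i
    have hlen : ∀ i' , (ps (pl i')).length = 1 := hlen1
    have h3 : j = pl' i := by
      apply enc.symm.injective
      simp only [pl', Equiv.symm_apply_apply]
      have h4 : (enc.symm j).1 = pl i := hpi
      rcases h5 : enc.symm j with ⟨a, k⟩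
      rw [h5] at h4
      simp only at h4
      subst h4
      have : k = ⟨0, by rw [hlen1 i]; exact Nat.one_pos⟩ := Fin.ext (by
        have h6 := k.2
        have h7 := hlen1 i
        simp only
        omega)
      rw [this]
    rw [h3] at hj
    exact hj)
  rw [Finset.sum_map, Finset.card_map] at h
  exact h

end ListChain

/-- The block test at `ν` for a list of blocks, with the placed doubles in a chain on top of `ν`. -/
def ChainOK (l : List BK) (ps : Fin l.length → List ℕ) (ν : YoungDiagram) : Prop :=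
  ∃ (t : ℕ) (pl : Fin t → Fin l.length) (η : ℕ → ℕ → ℕ),
    Function.Injective pl ∧ (∀ i, ∃ d, l[(pl i).1] = BK.dbl d) ∧ (∀ y, η 0 y = 0) ∧
    (∀ i < t, ∀ y, η i y ≤ η (i + 1) y) ∧ (∀ i ≤ t, Antitone (η i)) ∧
    (∀ y, η t y ≤ ν.rowLen y) ∧ (∀ i < t, ∀ y, η (i + 1) (y + 2) ≤ η i y) ∧
    (∀ i : Fin t, ∑ y ∈ Finset.range (ν.colLen 0), (η (i.1 + 1) y - η i.1 y) =
      (l[(pl i).1]).size) ∧
    (∀ i < t, Even (∑ y ∈ Finset.range (ν.colLen 0), (η (i + 1) y - η i y) * y)) ∧
    ∀ T : Finset (Σ i, Fin (ps i).length), (∀ p ∈ T, ∀ i, p.1 ≠ pl i) →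
      ∑ p ∈ T, (ps p.1)[p.2.1] ≤ ∑ j ∈ Finset.range (ν.rowLen 0), min T.card
        (ν.colLen j - ((Finset.range (ν.colLen 0)).filter fun y => j < η t y).card)

section

variable {S : Type} [Fintype S] [DecidableEq S] {V : Type} [AddCommGroup V] [Module ℂ V]

theorem occurs_of_chainOK {l : List BK} (hpw : l.Pairwise fun K K' => K'.hi < K.lo)
    {ps : Fin l.length → List ℕ} (hps : ∀ i, (ps i).sum = (l[i.1]).size)
    (hOK : ∀ i : Fin l.length, (l[i.1]).PartsOK (ps i))
    {ν : YoungDiagram} (hcard : ν.card = Fintype.card S)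
    (hS : (l.map BK.size).sum = Fintype.card S) (h : ChainOK l ps ν)
    [FiniteDimensional ℂ V] {ρ : Representation ℂ (Perm S) V} (hρ : ρ.IsIrreducible)
    (hlab : Label ρ ν) : Occurs ρ (cellsL l) (cellsL l) := by
  obtain ⟨t, pl, η, hpl, hP, h0, h1, h2, h3, h4, h5, h6, h7⟩ := h
  exact occurs_of_list_chain l hpw ps hps hOK hcard hS t pl hpl hP η h0 h1 h2 h3 h4 h5 h6 h7 hρ hlab

/-- The four tests at `ν` give the occurrence. -/
theorem occurs_of_tests_chain {L₀ L₁ L₂ : Finset (ℕ × ℕ)} {c b c₁ b₁ m : ℕ}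
    {l : List BK} {ps : Fin l.length → List ℕ}
    (hL₁ : ∀ q, q ∈ L₁ ↔ q.swap ∈ L₁) (hl : L₀ = cellsL l)
    (hpw : l.Pairwise fun K K' => K'.hi < K.lo)
    (hps : ∀ i, (ps i).sum = (l[i.1]).size) (hOK : ∀ i : Fin l.length, (l[i.1]).PartsOK (ps i))
    (h0 : PeelStep L₀ L₁ c b) (h1 : PeelStep L₁ L₂ c₁ b₁) (U : Universal L₂ m)
    (hb : b ≤ c) (hb1 : 1 ≤ b) (hc₁ : c₁ ≤ b) (hb₁ : b₁ ≤ c₁) (hb₁1 : 1 ≤ b₁) (hc₁' : c₁ ≤ b₁ + 1)
    (hsize : (l.map BK.size).sum = c + b + c₁ + b₁ + m)
    (hcard : Fintype.card S = c + b + c₁ + b₁ + m)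
    [FiniteDimensional ℂ V] {ρ : Representation ℂ (Perm S) V} (hρ : ρ.IsIrreducible)
    {ν : YoungDiagram} (hν : Label ρ ν) (hνc : ν.card = Fintype.card S)
    (htest : FatOK c b c₁ b₁ ν ∨ LongOK c b c₁ b₁ ν ∨ BlockOK l ps ν ∨ ChainOK l ps ν) :
    Occurs ρ L₀ L₀ := by
  rcases htest with h | h | h | h
  · exact occurs_of_tests hL₁ hl hpw hps hOK h0 h1 U hb hb1 hc₁ hb₁ hb₁1 hc₁' hsize hcard hρ hν hνc
      (Or.inl h)
  · exact occurs_of_tests hL₁ hl hpw hps hOK h0 h1 U hb hb1 hc₁ hb₁ hb₁1 hc₁' hsize hcard hρ hν hνc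
      (Or.inr (Or.inl h))
  · exact occurs_of_tests hL₁ hl hpw hps hOK h0 h1 U hb hb1 hc₁ hb₁ hb₁1 hc₁' hsize hcard hρ hν hνc
      (Or.inr (Or.inr h))
  · rw [hl]
    exact occurs_of_chainOK hpw hps hOK hνc (hsize.trans hcard.symm) h hρ hν

end

/-- **The level theorem with the chain test.** -/
theorem universal_of_level_chain {L₀ L₁ L₂ : Finset (ℕ × ℕ)} {c b c₁ b₁ m : ℕ}
    {l : List BK} {ps : Fin l.length → List ℕ}
    (hL₀ : ∀ q, q ∈ L₀ ↔ q.swap ∈ L₀)
    (hL₁ : ∀ q, q ∈ L₁ ↔ q.swap ∈ L₁) (hl : L₀ = cellsL l)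
    (hpw : l.Pairwise fun K K' => K'.hi < K.lo)
    (hps : ∀ i, (ps i).sum = (l[i.1]).size) (hOK : ∀ i : Fin l.length, (l[i.1]).PartsOK (ps i))
    (h0 : PeelStep L₀ L₁ c b) (h1 : PeelStep L₁ L₂ c₁ b₁) (U : Universal L₂ m)
    (hb : b ≤ c) (hb1 : 1 ≤ b) (hc₁ : c₁ ≤ b) (hb₁ : b₁ ≤ c₁) (hb₁1 : 1 ≤ b₁) (hc₁' : c₁ ≤ b₁ + 1)
    (hsize : (l.map BK.size).sum = c + b + c₁ + b₁ + m)
    (hcover : ∀ ν : YoungDiagram, ν.card = c + b + c₁ + b₁ + m →
      (FatOK c b c₁ b₁ ν ∨ LongOK c b c₁ b₁ ν ∨ BlockOK l ps ν ∨ ChainOK l ps ν) ∨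
      (FatOK c b c₁ b₁ ν.transpose ∨ LongOK c b c₁ b₁ ν.transpose ∨ BlockOK l ps ν.transpose ∨
        ChainOK l ps ν.transpose)) :
    Universal L₀ (c + b + c₁ + b₁ + m) := by
  intro S _ _ hcard V _ _ _ ρ hρ
  obtain ⟨ν, hνc, hlab⟩ := exists_label hρ
  have hcν : ν.card = c + b + c₁ + b₁ + m := hνc.trans hcard
  rcases hcover ν hcν with h | h
  · exact occurs_of_tests_chain hL₁ hl hpw hps hOK h0 h1 U hb hb1 hc₁ hb₁ hb₁1 hc₁' hsize hcard hρ
      hlab hνc h
  · apply occurs_of_twist_selfConj hL₀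
    have hcν' : ν.transpose.card = Fintype.card S := by
      rw [← hνc]
      have h1 : ν.transpose.cells = ν.cells.map (Equiv.prodComm ℕ ℕ).toEmbedding := rfl
      show ν.transpose.cells.card = ν.cells.card
      rw [h1, Finset.card_map]
    exact occurs_of_tests_chain hL₁ hl hpw hps hOK h0 h1 U hb hb1 hc₁ hb₁ hb₁1 hc₁' hsize hcard
      (sgnTwist_isIrreducible hρ) hlab.sgnTwist hcν' h

end Crest.Agent.Saxl
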