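import Crest.Agent.Lib.Saxl.Level

/-!
# The line lemma: coverage for a level (row 195, helper62)

If the first two columns of `ν` are short, `q = ν'₀ + ν'₁ ≤ 2c - 2`, the rows of `ν` lie above the line
of slope `(n - D) / (c - 1)`, hence dominate any parts below that line, where `D` is the number of
cells taken by placed doubles.
-/

set_option autoImplicit false

open scoped BigOperators

namespace Crest.Agent.Saxl

/-- Averaging: the sum on `X` of large values against the sum on a larger set `W`. -/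
theorem avg_top {W X : Finset ℕ} {f : ℕ → ℕ} {m : ℕ} (hX : ∀ x ∈ X, m ≤ f x)
    (hW : ∀ y ∈ W \ X, f y ≤ m) (hk : X.card ≤ W.card) :
    X.card * ∑ y ∈ W, f y ≤ W.card * ∑ y ∈ X, f y := by
  have hgen : ∀ U V : Finset ℕ, ∑ y ∈ U, f y = ∑ y ∈ U ∩ V, f y + ∑ y ∈ U \ V, f y := by
    intro U V
    rw [← Finset.sum_union (Finset.disjoint_left.mpr fun y h1 h2 =>
      (Finset.mem_sdiff.mp h2).2 (Finset.mem_inter.mp h1).2), Finset.union_comm,
      Finset.sdiff_union_inter]
  have h1 : ∑ y ∈ W, f y = ∑ y ∈ W ∩ X, f y + ∑ y ∈ W \ X, f y := hgen W X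
  have h2 : ∑ y ∈ X, f y = ∑ y ∈ W ∩ X, f y + ∑ y ∈ X \ W, f y := by
    rw [Finset.inter_comm]; exact hgen X W
  have hc1 : W.card = (W ∩ X).card + (W \ X).card := by
    rw [Finset.card_inter_add_card_sdiff]
  have hc2 : X.card = (W ∩ X).card + (X \ W).card := by
    rw [Finset.inter_comm, Finset.card_inter_add_card_sdiff]
  have hA : (W ∩ X).card * m ≤ ∑ y ∈ W ∩ X, f y := by
    rw [← smul_eq_mul]
    exact Finset.card_nsmul_le_sum _ _ _ fun y hy => hX y (Finset.mem_inter.mp hy).2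
  have hB : (X \ W).card * m ≤ ∑ y ∈ X \ W, f y := by
    rw [← smul_eq_mul]
    exact Finset.card_nsmul_le_sum _ _ _ fun y hy => hX y (Finset.mem_sdiff.mp hy).1
  have hC : ∑ y ∈ W \ X, f y ≤ (W \ X).card * m := by
    rw [← smul_eq_mul]
    exact Finset.sum_le_card_nsmul _ _ _ hW
  rw [h1, h2, hc1, hc2]
  rw [hc1, hc2] at hk
  generalize (W ∩ X).card = i at *
  generalize (X \ W).card = x at *
  generalize (W \ X).card = w at *
  generalize ∑ y ∈ W ∩ X, f y = A at *
  generalize ∑ y ∈ X \ W, f y = B at *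
  generalize ∑ y ∈ W \ X, f y = C at *
  have hxw : x ≤ w := by omega
  obtain ⟨d, rfl⟩ := Nat.exists_eq_add_of_le hxw
  -- (i + x) * (A + C) ≤ (i + x + d) * (A + B)
  have h3 : x * C ≤ x * ((x + d) * m) := Nat.mul_le_mul_left _ hC
  have h4 : i * C ≤ i * ((x + d) * m) := Nat.mul_le_mul_left _ hC
  have h5 : (i + x + d) * (x * m) ≤ (i + x + d) * B := Nat.mul_le_mul_left _ hB
  have h6 : d * (i * m) ≤ d * A := Nat.mul_le_mul_left _ hA
  have h7 : x * (i * m) ≤ x * A := Nat.mul_le_mul_left _ hA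
  nlinarith [h3, h4, h5, h6, h7]

/-- The arithmetic of the line. -/
theorem line_arith {t k c₁ N e S top : ℕ} (hS : S + e = N) (hk : k ≤ t) (ht : t ≤ c₁)
    (he : e + 2 * t ≤ 2 * c₁) (hN : 2 * c₁ ≤ N) (havg : k * S ≤ t * top) : k * N ≤ c₁ * top := by
  rcases Nat.eq_zero_or_pos t with rfl | htpos
  · have : k = 0 := by omega
    subst this
    simp
  · obtain ⟨d, rfl⟩ := Nat.exists_eq_add_of_le ht
    have h1 : e ≤ 2 * d := by omega
    have h2 : 2 * t ≤ S := by omega
    have h3 : t * e ≤ d * S := by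
      calc t * e ≤ t * (2 * d) := Nat.mul_le_mul_left _ h1
        _ = d * (2 * t) := by ring
        _ ≤ d * S := Nat.mul_le_mul_left _ h2
    have h4 : t * N ≤ (t + d) * S := by
      rw [← hS]
      nlinarith [h3]
    apply Nat.le_of_mul_le_mul_left _ htpos
    calc t * (k * N) = k * (t * N) := by ring
      _ ≤ k * ((t + d) * S) := Nat.mul_le_mul_left _ h4
      _ = (t + d) * (k * S) := by ring
      _ ≤ (t + d) * (t * top) := Nat.mul_le_mul_left _ havg
      _ = t * ((t + d) * top) := by ring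

theorem rowsBelow_eq_sum (ν : YoungDiagram) (k : ℕ) :
    rowsBelow ν k = ∑ y ∈ Finset.range k, ν.rowLen y := by
  induction k with
  | zero =>
    rw [Finset.sum_range_zero]
    simp [rowsBelow]
  | succ k ih => rw [rowsBelow_succ, ih, Finset.sum_range_succ]

theorem sum_rowLen_colLen (ν : YoungDiagram) :
    ∑ y ∈ Finset.range (ν.colLen 0), ν.rowLen y = ν.card := by
  rw [← rowsBelow_eq_sum]
  apply rowsBelow_eq_card_of_rowLen_eq_zero
  by_contra h
  have h1 : 0 < ν.rowLen (ν.colLen 0) := Nat.pos_of_ne_zero h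
  have h2 : (ν.colLen 0, 0) ∈ ν := YoungDiagram.mem_iff_lt_rowLen.mpr h1
  have h3 := YoungDiagram.mem_iff_lt_colLen.mp h2
  omega

theorem rowLen_eq_one {ν : YoungDiagram} {y : ℕ} (h1 : ν.colLen 1 ≤ y) (h2 : y < ν.colLen 0) :
    ν.rowLen y = 1 := by
  have h3 : (y, 0) ∈ ν := YoungDiagram.mem_iff_lt_colLen.mpr h2
  have h4 := YoungDiagram.mem_iff_lt_rowLen.mp h3
  have h5 : (y, 1) ∉ ν := fun h => by
    have := YoungDiagram.mem_iff_lt_colLen.mp h
    omega
  have h6 : ¬ 1 < ν.rowLen y := fun h => h5 (YoungDiagram.mem_iff_lt_rowLen.mpr h)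
  omega

/-- **The top-`k` sums are above the line.** `u` cells are removed from the first `t` rows; `sl` is
the ranking by decreasing remainders. -/
theorem exists_sl_line (ν : YoungDiagram) (u : ℕ → ℕ) {c₁ D : ℕ}
    (hcap : ∀ y, u y ≤ ν.rowLen y) (hu0 : ∀ y, ν.colLen 1 ≤ y → u y = 0)
    (hD : ∑ y ∈ Finset.range (ν.colLen 1), u y = D)
    (hq : ν.colLen 0 + ν.colLen 1 ≤ 2 * c₁) (hN : 2 * c₁ + D ≤ ν.card) :
    ∃ sl : ℕ → ℕ, Set.InjOn sl (Set.Iio (ν.colLen 0)) ∧ ∀ k,
      let top := ∑ y ∈ Finset.range (ν.colLen 0), if sl y < k then ν.rowLen y - u y else 0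
      (k ≤ ν.colLen 1 → k * (ν.card - D) ≤ c₁ * top) ∧
      (ν.colLen 1 ≤ k → ν.card - D ≤ top + (ν.colLen 0 - k)) := by
  classical
  set b := ν.colLen 0 with hb
  set t := ν.colLen 1 with ht
  have htb : t ≤ b := ν.colLen_anti 0 1 (by omega)
  set f : ℕ → ℕ := fun y => ν.rowLen y - u y with hf
  obtain ⟨rk, h1, h2, h3⟩ := exists_rank (Finset.range b) f
  refine ⟨rk, ?_, ?_⟩
  · intro x hx y hy hxy
    exact h1 (by simpa using hx) (by simpa using hy) hxy
  intro k
  simp only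
  set X := (Finset.range b).filter fun y => rk y < k with hX
  have htopX : (∑ y ∈ Finset.range b, if rk y < k then ν.rowLen y - u y else 0) = ∑ y ∈ X, f y := by
    rw [hX, Finset.sum_filter]
  rw [htopX]
  -- total
  have hsumu : ∑ y ∈ Finset.range b, u y = D := by
    rw [← hD]
    symm
    apply Finset.sum_subset
    · intro y hy
      simp only [Finset.mem_range] at hy ⊢
      omega
    · intro y _ hy
      simp only [Finset.mem_range] at hy
      exact hu0 y (by omega)
  have hsplit : ∀ w, w ≤ b → t ≤ w → ∑ y ∈ Finset.range w, f y + (b - w) = ν.card - D := by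
    intro w hw htw
    have e1 : ∑ y ∈ Finset.range b, (f y + u y) = ν.card := by
      rw [← sum_rowLen_colLen ν]
      apply Finset.sum_congr rfl
      intro y _
      have := hcap y
      simp only [hf]
      omega
    rw [Finset.sum_add_distrib, hsumu] at e1
    have e2 : ∑ y ∈ Finset.range b, f y = ∑ y ∈ Finset.range w, f y + (b - w) := by
      obtain ⟨v, hv⟩ := Nat.exists_eq_add_of_le hw
      rw [hv, Finset.sum_range_add]
      congr 1
      have : b + 0 = w + v := by omega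
      have hv2 : w + v - w = v := by omega
      rw [show w + v - w = v from hv2]
      rw [Finset.sum_congr rfl (g := fun _ => 1)]
      · simp
      · intro x hx
        have hx' : x < v := by simpa using hx
        simp only [hf]
        rw [rowLen_eq_one (by omega) (by omega), hu0 _ (by omega)]
    omega
  -- cards
  have himg : (Finset.range b).image rk = Finset.range b := by
    apply Finset.eq_of_subset_of_card_le
    · intro y hy
      obtain ⟨x, hx, rfl⟩ := Finset.mem_image.mp hy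
      have := h2 x hx
      rw [Finset.card_range] at this
      exact Finset.mem_range.mpr this
    · rw [Finset.card_image_of_injOn h1]
  have hXcard : X.card = min k b := by
    have : X.image rk = Finset.range (min k b) := by
      ext v
      simp only [hX, Finset.mem_image, Finset.mem_filter, Finset.mem_range, lt_min_iff]
      constructor
      · rintro ⟨x, ⟨hx, hx2⟩, rfl⟩
        have := h2 x (Finset.mem_range.mpr hx)
        rw [Finset.card_range] at this
        exact ⟨hx2, this⟩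
      · rintro ⟨hv1, hv2⟩
        have : v ∈ (Finset.range b).image rk := by
          rw [himg]
          exact Finset.mem_range.mpr hv2
        obtain ⟨x, hx, rfl⟩ := Finset.mem_image.mp this
        exact ⟨x, ⟨Finset.mem_range.mp hx, hv1⟩, rfl⟩
    rw [← Finset.card_range (min k b), ← this, Finset.card_image_of_injOn]
    exact h1.mono (Finset.filter_subset _ _)
  -- the threshold
  have hthr : ∃ m, (∀ x ∈ X, m ≤ f x) ∧ ∀ y ∈ Finset.range b \ X, f y ≤ m := by
    by_cases hne : X.Nonempty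
    · obtain ⟨x0, hx0, hmin⟩ := Finset.exists_min_image X f hne
      refine ⟨f x0, hmin, ?_⟩
      intro y hy
      obtain ⟨hy1, hy2⟩ := Finset.mem_sdiff.mp hy
      have hx0' := Finset.mem_filter.mp hx0
      have hyk : ¬ rk y < k := fun h => hy2 (Finset.mem_filter.mpr ⟨hy1, h⟩)
      exact h3 x0 hx0'.1 y hy1 (by omega)
    · refine ⟨ν.card + 1 + (Finset.range b).sup f, ?_, ?_⟩
      · intro x hx
        exact absurd ⟨x, hx⟩ hne
      · intro y hy
        have := Finset.le_sup (f := f) (Finset.mem_sdiff.mp hy).1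
        omega
  obtain ⟨m, hm1, hm2⟩ := hthr
  have hle : ∀ W : Finset ℕ, W ⊆ Finset.range b → X.card ≤ W.card →
      X.card * ∑ y ∈ W, f y ≤ W.card * ∑ y ∈ X, f y := by
    intro W hW hc
    apply avg_top hm1 _ hc
    intro y hy
    obtain ⟨h4, h5⟩ := Finset.mem_sdiff.mp hy
    exact hm2 y (Finset.mem_sdiff.mpr ⟨hW h4, h5⟩)
  constructor
  · intro hkt
    have hXk : X.card = k := by
      rw [hXcard]
      omega
    have h4 := hle (Finset.range t) (fun y hy => by
      simp only [Finset.mem_range] at hy ⊢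
      omega) (by rw [hXk, Finset.card_range]; exact hkt)
    rw [hXk, Finset.card_range] at h4
    exact line_arith (hsplit t htb le_rfl) hkt (by omega) (by omega) (by omega) h4
  · intro htk
    by_cases hkb : k ≤ b
    · have hXk : X.card = k := by
        rw [hXcard]
        omega
      have h4 := hle (Finset.range k) (fun y hy => by
        simp only [Finset.mem_range] at hy ⊢
        omega) (by rw [hXk, Finset.card_range])
      rw [hXk, Finset.card_range] at h4
      have h5 := hsplit k hkb htk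
      rcases Nat.eq_zero_or_pos k with h0 | h0
      · subst h0
        have : t = 0 := by omega
        simp only [Nat.sub_zero] at h5 ⊢
        simp only [Finset.range_zero, Finset.sum_empty, zero_add] at h5
        omega
      · have h6 := Nat.le_of_mul_le_mul_left h4 h0
        omega
    · have hXall : X = Finset.range b := by
        apply Finset.filter_true_of_mem
        intro y hy
        have := h2 y hy
        rw [Finset.card_range] at this
        omega
      rw [hXall]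
      have h5 := hsplit b le_rfl htb
      simp only [Nat.sub_self, add_zero] at h5
      omega

/-- **The line lemma, general form.** -/
theorem blockOK_core {l : List BK} {ps : Fin l.length → List ℕ} {ν : YoungDiagram} {c₁ D : ℕ}
    (P : Finset (Fin l.length)) (hP : ∀ i ∈ P, ∃ d, l[i.1] = BK.dbl d)
    (r a b : Fin l.length → ℕ) (hr : Set.InjOn r P)
    (ha : ∀ i ∈ P, Even (a i)) (hb : ∀ i ∈ P, Even (b i))
    (hab : ∀ i ∈ P, a i + b i = (l[i.1]).size)
    (hcap : ∀ y, (∑ i ∈ P, if r i = y then a i else 0) +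
      (∑ i ∈ P, if r i + 1 = y then b i else 0) ≤ ν.rowLen y)
    (hu0 : ∀ y, ν.colLen 1 ≤ y → (∑ i ∈ P, if r i = y then a i else 0) +
      (∑ i ∈ P, if r i + 1 = y then b i else 0) = 0)
    (hD : ∑ y ∈ Finset.range (ν.colLen 1), ((∑ i ∈ P, if r i = y then a i else 0) +
      (∑ i ∈ P, if r i + 1 = y then b i else 0)) = D)
    (hq : ν.colLen 0 + ν.colLen 1 ≤ 2 * c₁) (hN : 2 * c₁ + D ≤ ν.card)
    (hL1 : ∀ T : Finset (Σ i, Fin (ps i).length), (∀ p ∈ T, p.1 ∉ P) → T.card ≤ ν.colLen 1 →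
      c₁ * ∑ p ∈ T, (ps p.1)[p.2.1] + 1 ≤ T.card * (ν.card - D) + c₁)
    (hL2 : ∀ T : Finset (Σ i, Fin (ps i).length), (∀ p ∈ T, p.1 ∉ P) → ν.colLen 1 ≤ T.card →
      ∑ p ∈ T, (ps p.1)[p.2.1] + (ν.colLen 0 - T.card) ≤ ν.card - D) :
    BlockOK l ps ν := by
  obtain ⟨sl, hsl, htop⟩ := exists_sl_line ν
    (fun y => (∑ i ∈ P, if r i = y then a i else 0) +
      (∑ i ∈ P, if r i + 1 = y then b i else 0)) hcap hu0 hD hq hN
  refine ⟨P, r, a, b, sl, hP, hr, ha, hb, hab, hcap, hsl, ?_⟩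
  intro T hT
  obtain ⟨h1, h2⟩ := htop T.card
  by_cases hk : T.card ≤ ν.colLen 1
  · have h3 := h1 hk
    have h4 := hL1 T hT hk
    generalize (∑ y ∈ Finset.range (ν.colLen 0), if sl y < T.card then
      ν.rowLen y - ((∑ i ∈ P, if r i = y then a i else 0) +
      (∑ i ∈ P, if r i + 1 = y then b i else 0)) else 0) = top at *
    generalize (∑ p ∈ T, (ps p.1)[p.2.1]) = X at *
    by_contra hlt
    have h5 : top + 1 ≤ X := by omega
    have h6 : c₁ * (top + 1) ≤ c₁ * X := Nat.mul_le_mul_left _ h5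
    rw [Nat.mul_add, Nat.mul_one] at h6
    omega
  · have h3 := h2 (by omega)
    have h4 := hL2 T hT (by omega)
    omega

theorem rowLen_le_one {ν : YoungDiagram} {y : ℕ} (h1 : ν.colLen 1 ≤ y) : ν.rowLen y ≤ 1 := by
  have h5 : (y, 1) ∉ ν := fun h => by
    have := YoungDiagram.mem_iff_lt_colLen.mp h
    omega
  have h6 : ¬ 1 < ν.rowLen y := fun h => h5 (YoungDiagram.mem_iff_lt_rowLen.mpr h)
  omega

/-- **The line lemma without placed doubles.** -/
theorem blockOK_of_line_none {l : List BK} {ps : Fin l.length → List ℕ} {ν : YoungDiagram} {c₁ : ℕ}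
    (hq : ν.colLen 0 + ν.colLen 1 ≤ 2 * c₁) (hN : 2 * c₁ ≤ ν.card)
    (hL1 : ∀ T : Finset (Σ i, Fin (ps i).length), T.card ≤ ν.colLen 1 →
      c₁ * ∑ p ∈ T, (ps p.1)[p.2.1] + 1 ≤ T.card * ν.card + c₁)
    (hL2 : ∀ T : Finset (Σ i, Fin (ps i).length), ν.colLen 1 ≤ T.card →
      ∑ p ∈ T, (ps p.1)[p.2.1] + (ν.colLen 0 - T.card) ≤ ν.card) :
    BlockOK l ps ν := by
  apply blockOK_core (c₁ := c₁) (D := 0) ∅ (by simp) (fun _ => 0) (fun _ => 0) (fun _ => 0) (by simp)
    (by simp) (by simp) (by simp) (by simp) (by simp) (by simp) hq (by omega)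
  · intro T _ h
    simpa using hL1 T h
  · intro T _ h
    simpa using hL2 T h

/-- **The line lemma with one double placed in the rows `0, 1`.** -/
theorem blockOK_of_line_one {l : List BK} {ps : Fin l.length → List ℕ} {ν : YoungDiagram} {c₁ : ℕ}
    (i₀ : Fin l.length) (hi₀ : ∃ d, l[i₀.1] = BK.dbl d) {a₀ b₀ : ℕ} (ha₀ : Even a₀) (hb₀ : Even b₀)
    (hab : a₀ + b₀ = (l[i₀.1]).size) (ha₀' : a₀ ≤ ν.rowLen 0) (hb₀' : b₀ ≤ ν.rowLen 1)
    (hq : ν.colLen 0 + ν.colLen 1 ≤ 2 * c₁) (hN : 2 * c₁ + (l[i₀.1]).size ≤ ν.card)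
    (hL1 : ∀ T : Finset (Σ i, Fin (ps i).length), (∀ p ∈ T, p.1 ≠ i₀) → T.card ≤ ν.colLen 1 →
      c₁ * ∑ p ∈ T, (ps p.1)[p.2.1] + 1 ≤ T.card * (ν.card - (l[i₀.1]).size) + c₁)
    (hL2 : ∀ T : Finset (Σ i, Fin (ps i).length), (∀ p ∈ T, p.1 ≠ i₀) → ν.colLen 1 ≤ T.card →
      ∑ p ∈ T, (ps p.1)[p.2.1] + (ν.colLen 0 - T.card) ≤ ν.card - (l[i₀.1]).size) :
    BlockOK l ps ν := by
  have hu : ∀ y, ((∑ i ∈ ({i₀} : Finset (Fin l.length)), if (0 : ℕ) = y then a₀ else 0) +
      (∑ i ∈ ({i₀} : Finset (Fin l.length)), if (0 : ℕ) + 1 = y then b₀ else 0)) =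
      (if 0 = y then a₀ else 0) + (if 1 = y then b₀ else 0) := by
    intro y
    simp
  have ha0 : ν.colLen 1 = 0 → a₀ = 0 := by
    intro h
    have := rowLen_le_one (ν := ν) (y := 0) (by omega)
    obtain ⟨w, hw⟩ := ha₀
    omega
  have hb0 : ν.colLen 1 ≤ 1 → b₀ = 0 := by
    intro h
    have := rowLen_le_one (ν := ν) (y := 1) h
    obtain ⟨w, hw⟩ := hb₀
    omega
  apply blockOK_core (c₁ := c₁) (D := (l[i₀.1]).size) {i₀} (by simpa using hi₀) (fun _ => 0)
    (fun _ => a₀) (fun _ => b₀) (by simp) (by simpa using ha₀) (by simpa using hb₀)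
    (by simpa using hab) ?_ ?_ ?_ hq hN
  · intro T hT h
    exact hL1 T (fun p hp => by simpa using hT p hp) h
  · intro T hT h
    exact hL2 T (fun p hp => by simpa using hT p hp) h
  · intro y
    rw [hu]
    rcases y with _ | _ | y
    · simpa using ha₀'
    · simpa using hb₀'
    · simp
  · intro y hy
    rw [hu]
    rcases y with _ | _ | y
    · simpa using ha0 (by omega)
    · simpa using hb0 (by omega)
    · simp
  · simp only [hu]
    rw [Finset.sum_add_distrib, Finset.sum_ite_eq, Finset.sum_ite_eq, ← hab]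
    simp only [Finset.mem_range]
    by_cases h0 : 0 < ν.colLen 1
    · by_cases h1 : 1 < ν.colLen 1
      · simp [h0, h1]
      · simp [h0, h1, hb0 (by omega)]
    · have h1 : ¬ 1 < ν.colLen 1 := by omega
      simp [h0, h1, ha0 (by omega), hb0 (by omega)]

theorem rowsBelow_mono (ν : YoungDiagram) {k k' : ℕ} (h : k ≤ k') : rowsBelow ν k ≤ rowsBelow ν k' := by
  obtain ⟨d, rfl⟩ := Nat.exists_eq_add_of_le h
  induction d with
  | zero => simp
  | succ d ih =>
    rw [← add_assoc, rowsBelow_succ]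
    have := ih (Nat.le_add_right k d)
    omega

theorem rowsBelow_two (ν : YoungDiagram) : rowsBelow ν 2 = ν.rowLen 0 + ν.rowLen 1 := by
  rw [rowsBelow_eq_sum, Finset.sum_range_succ, Finset.sum_range_one]

theorem rowsBelow_one (ν : YoungDiagram) : rowsBelow ν 1 = ν.rowLen 0 := by
  rw [rowsBelow_eq_sum, Finset.sum_range_one]

/-- The cells of the first `t` rows and the tail of the first column. -/
theorem rowsBelow_colLen_one (ν : YoungDiagram) :
    rowsBelow ν (ν.colLen 1) + (ν.colLen 0 - ν.colLen 1) = ν.card := by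
  have htb : ν.colLen 1 ≤ ν.colLen 0 := ν.colLen_anti 0 1 (by omega)
  rw [← sum_rowLen_colLen ν, rowsBelow_eq_sum]
  obtain ⟨v, hv⟩ := Nat.exists_eq_add_of_le htb
  rw [hv, Finset.sum_range_add]
  congr 1
  have hv2 : ν.colLen 1 + v - ν.colLen 1 = v := by omega
  rw [hv2, Finset.sum_congr rfl (g := fun _ => 1)]
  · simp
  · intro x hx
    have hx' : x < v := by simpa using hx
    rw [rowLen_eq_one (by omega) (by omega)]

/-- **A double fits in the first two rows.** -/
theorem exists_placement (ν : YoungDiagram) {c₁ D : ℕ} (hDe : Even D)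
    (hq : ν.colLen 0 + ν.colLen 1 ≤ 2 * c₁) (hN : 2 * c₁ + D ≤ ν.card)
    (hfeas : D * c₁ < 2 * ν.card) :
    ∃ a₀ b₀, Even a₀ ∧ Even b₀ ∧ a₀ + b₀ = D ∧ a₀ ≤ ν.rowLen 0 ∧ b₀ ≤ ν.rowLen 1 := by
  by_cases h0 : D ≤ ν.rowLen 0
  · exact ⟨D, 0, hDe, Even.zero, by omega, h0, Nat.zero_le _⟩
  have hb := rowsBelow_colLen_one ν
  have htb : ν.colLen 1 ≤ ν.colLen 0 := ν.colLen_anti 0 1 (by omega)
  have hp : D + 1 ≤ ν.rowLen 0 + ν.rowLen 1 := by
    by_contra hcon
    have hpD : ν.rowLen 0 + ν.rowLen 1 ≤ D := by omega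
    rcases Nat.lt_or_ge (ν.colLen 1) 2 with ht | ht
    · have ht' : ν.colLen 1 = 0 ∨ ν.colLen 1 = 1 := by omega
      rcases ht' with ht' | ht'
      · rw [ht'] at hb hq
        have : rowsBelow ν 0 = 0 := by simp [rowsBelow]
        omega
      · rw [ht'] at hb hq
        rw [rowsBelow_one] at hb
        omega
    · obtain ⟨d', hd'⟩ := Nat.exists_eq_add_of_le ht
      have h1 := mul_rowsBelow_le ν 2 d'
      rw [← hd', rowsBelow_two] at h1
      have h2 : 2 * rowsBelow ν (ν.colLen 1) ≤ ν.colLen 1 * D :=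
        h1.trans (Nat.mul_le_mul_left _ hpD)
      have htc : ν.colLen 1 ≤ c₁ := by omega
      obtain ⟨d, hd⟩ := Nat.exists_eq_add_of_le htc
      have h3 : 2 * ν.card ≤ ν.colLen 1 * D + 2 * (ν.colLen 0 - ν.colLen 1) := by omega
      have h4 : ν.colLen 0 - ν.colLen 1 ≤ 2 * d := by omega
      rcases Nat.lt_or_ge D 4 with hD | hD
      · have hD2 : D * ν.colLen 1 + 2 * (ν.colLen 0 - ν.colLen 1) ≤ 3 * ν.colLen 1 + 4 * d := by
          have : D * ν.colLen 1 ≤ 3 * ν.colLen 1 := Nat.mul_le_mul_right _ (by omega)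
          omega
        have h7 : ν.colLen 1 * D = D * ν.colLen 1 := Nat.mul_comm _ _
        omega
      · have h5 : 4 * d ≤ D * d := Nat.mul_le_mul_right _ hD
        have h6 : D * c₁ = ν.colLen 1 * D + D * d := by rw [hd]; ring
        omega
  obtain ⟨w, hw⟩ := hDe
  refine ⟨2 * (ν.rowLen 0 / 2), D - 2 * (ν.rowLen 0 / 2), ⟨ν.rowLen 0 / 2, by omega⟩,
    ⟨w - ν.rowLen 0 / 2, by omega⟩, by omega, by omega, by omega⟩

/-- **Short columns: four long strips.** -/
theorem longOK_of_short (ν : YoungDiagram) {c c₁ b₁ t₀ : ℕ} (hc₁ : c₁ ≤ c) (hb₁ : b₁ ≤ c)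
    (hq : ν.colLen 0 + ν.colLen 1 ≤ 2 * (c - 1)) (ht : ν.colLen 1 ≤ t₀) (ht₀ : 4 ≤ t₀)
    (hN : t₀ * c + 2 * (c - 1) ≤ ν.card) : LongOK c (c - 1) c₁ b₁ ν := by
  have hb := rowsBelow_colLen_one ν
  have htb : ν.colLen 1 ≤ ν.colLen 0 := ν.colLen_anti 0 1 (by omega)
  have hX : t₀ * c ≤ rowsBelow ν (ν.colLen 1) := by omega
  have key : ∀ k, k ≤ 4 → k * c ≤ rowsBelow ν k := by
    intro k hk
    by_cases hkt : k ≤ ν.colLen 1
    · obtain ⟨d, hd⟩ := Nat.exists_eq_add_of_le hkt
      have h1 := mul_rowsBelow_le ν k d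
      rw [← hd] at h1
      have h2 : k * (t₀ * c) ≤ ν.colLen 1 * rowsBelow ν k :=
        (Nat.mul_le_mul_left _ hX).trans h1
      have h3 : ν.colLen 1 * rowsBelow ν k ≤ t₀ * rowsBelow ν k := Nat.mul_le_mul_right _ ht
      have h4 : t₀ * (k * c) ≤ t₀ * rowsBelow ν k := by
        calc t₀ * (k * c) = k * (t₀ * c) := by ring
          _ ≤ _ := h2.trans h3
      exact Nat.le_of_mul_le_mul_left h4 (by omega)
    · have h1 := rowsBelow_mono ν (show ν.colLen 1 ≤ k by omega)
      have h2 : k * c ≤ t₀ * c := Nat.mul_le_mul_right _ (by omega)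
      omega
  have k1 := key 1 (by omega)
  have k2 := key 2 (by omega)
  have k3 := key 3 (by omega)
  have k4 := key 4 (by omega)
  refine ⟨by omega, by omega, by omega, by omega⟩

section Parts

variable {l : List BK} {ps : Fin l.length → List ℕ}

/-- The bound `(L2)` by counting the parts. -/
theorem hL2_of_count {Q : Fin l.length → Prop} [DecidablePred Q]
    (hpos : ∀ p : (Σ i, Fin (ps i).length), Q p.1 → 0 < (ps p.1)[p.2.1]) {N b : ℕ}
    (hsum : ∑ p ∈ Finset.univ.filter (fun p : (Σ i, Fin (ps i).length) => Q p.1), (ps p.1)[p.2.1] = N)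
    (hcnt : b ≤ (Finset.univ.filter (fun p : (Σ i, Fin (ps i).length) => Q p.1)).card)
    (T : Finset (Σ i, Fin (ps i).length)) (hT : ∀ p ∈ T, Q p.1) :
    ∑ p ∈ T, (ps p.1)[p.2.1] + (b - T.card) ≤ N := by
  classical
  set R := Finset.univ.filter (fun p : (Σ i, Fin (ps i).length) => Q p.1) with hR
  have hsub : T ⊆ R := fun p hp => Finset.mem_filter.mpr ⟨Finset.mem_univ _, hT p hp⟩
  have h1 : ∑ p ∈ R \ T, (ps p.1)[p.2.1] + ∑ p ∈ T, (ps p.1)[p.2.1] = N := by
    rw [Finset.sum_sdiff hsub, hsum]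
  have h2 : (R \ T).card ≤ ∑ p ∈ R \ T, (ps p.1)[p.2.1] := by
    rw [Finset.card_eq_sum_ones]
    apply Finset.sum_le_sum
    intro p hp
    exact hpos p (Finset.mem_filter.mp (Finset.mem_sdiff.mp hp).1).2
  have h3 : (R \ T).card = R.card - T.card := Finset.card_sdiff_of_subset hsub
  omega

/-- The bound `(L1)` when all parts are at most `A`. -/
theorem hL1_of_le {c₁ A N : ℕ} (hc₁ : 1 ≤ c₁) (hcA : c₁ * A ≤ N)
    (T : Finset (Σ i, Fin (ps i).length)) (hA : ∀ p ∈ T, (ps p.1)[p.2.1] ≤ A) :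
    c₁ * ∑ p ∈ T, (ps p.1)[p.2.1] + 1 ≤ T.card * N + c₁ := by
  have h1 : ∑ p ∈ T, (ps p.1)[p.2.1] ≤ T.card * A := by
    rw [← smul_eq_mul]
    exact Finset.sum_le_card_nsmul _ _ _ hA
  calc c₁ * ∑ p ∈ T, (ps p.1)[p.2.1] + 1 ≤ c₁ * (T.card * A) + c₁ := by
        have := Nat.mul_le_mul_left c₁ h1
        omega
    _ = T.card * (c₁ * A) + c₁ := by ring
    _ ≤ T.card * N + c₁ := by
        have := Nat.mul_le_mul_left T.card hcA
        omega

/-- The bound `(L1)` when all parts are at most `A`, except one which is at most `A + 1`. -/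
theorem hL1_of_excess {c₁ A N : ℕ} (hc₁ : 1 ≤ c₁) (hcA : c₁ * A + 1 ≤ N)
    (T : Finset (Σ i, Fin (ps i).length)) (p₀ : Σ i, Fin (ps i).length)
    (hA : ∀ p ∈ T, p ≠ p₀ → (ps p.1)[p.2.1] ≤ A) (hA₀ : p₀ ∈ T → (ps p₀.1)[p₀.2.1] ≤ A + 1) :
    c₁ * ∑ p ∈ T, (ps p.1)[p.2.1] + 1 ≤ T.card * N + c₁ := by
  classical
  rcases T.eq_empty_or_nonempty with rfl | hne
  · simpa using hc₁
  have hk : 1 ≤ T.card := Finset.card_pos.mpr hne
  have h1 : ∑ p ∈ T, (ps p.1)[p.2.1] ≤ T.card * A + 1 := by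
    by_cases hp : p₀ ∈ T
    · rw [← Finset.sum_erase_add T _ hp]
      have h2 : ∑ p ∈ T.erase p₀, (ps p.1)[p.2.1] ≤ (T.erase p₀).card * A := by
        rw [← smul_eq_mul]
        apply Finset.sum_le_card_nsmul
        intro p hq
        obtain ⟨h3, h4⟩ := Finset.mem_erase.mp hq
        exact hA p h4 h3
      rw [Finset.card_erase_of_mem hp] at h2
      have h5 := hA₀ hp
      have h6 : (T.card - 1) * A + A = T.card * A := by
        obtain ⟨u, hu⟩ := Nat.exists_eq_add_of_le hk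
        rw [hu]
        simp only [Nat.add_sub_cancel_left]
        ring
      omega
    · have h2 : ∑ p ∈ T, (ps p.1)[p.2.1] ≤ T.card * A := by
        rw [← smul_eq_mul]
        apply Finset.sum_le_card_nsmul
        intro p hq
        exact hA p hq (fun h => hp (h ▸ hq))
      omega
  calc c₁ * ∑ p ∈ T, (ps p.1)[p.2.1] + 1 ≤ c₁ * (T.card * A + 1) + 1 := by
        have := Nat.mul_le_mul_left c₁ h1
        omega
    _ = T.card * (c₁ * A) + c₁ + 1 := by ring
    _ ≤ T.card * N + c₁ := by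
        have h2 : T.card * (c₁ * A + 1) ≤ T.card * N := Nat.mul_le_mul_left _ hcA
        have h3 : T.card * (c₁ * A + 1) = T.card * (c₁ * A) + T.card := by ring
        omega

end Parts

/-- **Reduction of `hcover` to `ν` with short columns.** -/
theorem hcover_of_tests {l : List BK} {ps : Fin l.length → List ℕ} {c c₁ b₁ n : ℕ}
    (hF : c₁ + b₁ + 4 ≤ 2 * c - 1) (hc : 1 ≤ c)
    (hT : ∀ ν : YoungDiagram, ν.card = n → ν.colLen 0 + ν.colLen 1 ≤ 2 * (c - 1) →
      LongOK c (c - 1) c₁ b₁ ν ∨ BlockOK l ps ν) :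
    ∀ ν : YoungDiagram, ν.card = n →
      (FatOK c (c - 1) c₁ b₁ ν ∨ LongOK c (c - 1) c₁ b₁ ν ∨ BlockOK l ps ν) ∨
      (FatOK c (c - 1) c₁ b₁ ν.transpose ∨ LongOK c (c - 1) c₁ b₁ ν.transpose ∨
        BlockOK l ps ν.transpose) := by
  intro ν hν
  by_cases hq : ν.colLen 0 + ν.colLen 1 ≤ 2 * (c - 1)
  · exact Or.inl (Or.inr (hT ν hν hq))
  by_cases hp : ν.rowLen 0 + ν.rowLen 1 ≤ 2 * (c - 1)
  · refine Or.inr (Or.inr (hT ν.transpose ?_ ?_))
    · have h1 : ν.transpose.cells = ν.cells.map (Equiv.prodComm ℕ ℕ).toEmbedding := rfl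
      unfold YoungDiagram.card at hν ⊢
      rw [h1, Finset.card_map, hν]
    · simpa using hp
  · refine Or.inl (Or.inl ⟨?_, ?_, ?_⟩)
    · rw [rowsBelow_one]
      have := ν.rowLen_anti 0 1 (by omega)
      omega
    · rw [rowsBelow_two]
      omega
    · have : colsBelow ν 2 = ν.colLen 0 + ν.colLen 1 := by
        simp [colsBelow, Finset.sum_range_succ]
      omega

section Final

variable {l : List BK} {ps : Fin l.length → List ℕ}

theorem sum_filter_sigma (Q : Fin l.length → Prop) [DecidablePred Q] :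
    ∑ p ∈ Finset.univ.filter (fun p : (Σ i, Fin (ps i).length) => Q p.1), (ps p.1)[p.2.1] =
      ∑ i ∈ Finset.univ.filter Q, (ps i).sum := by
  rw [Finset.sum_filter, Finset.sum_filter, Fintype.sum_sigma]
  apply Finset.sum_congr rfl
  intro i _
  by_cases h : Q i
  · simp only [h, if_true]
    exact Fin.sum_univ_getElem (ps i)
  · simp [h]

theorem card_filter_sigma (Q : Fin l.length → Prop) [DecidablePred Q] :
    (Finset.univ.filter (fun p : (Σ i, Fin (ps i).length) => Q p.1)).card =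
      ∑ i ∈ Finset.univ.filter Q, (ps i).length := by
  rw [Finset.card_filter, Finset.sum_filter, Fintype.sum_sigma]
  apply Finset.sum_congr rfl
  intro i _
  by_cases h : Q i
  · simp [h]
  · simp [h]

/-- The sum of the sizes of the blocks outside `i₀`. -/
theorem sum_rest_one (hps : ∀ i, (ps i).sum = (l[i.1]).size) (i₀ : Fin l.length) :
    ∑ p ∈ Finset.univ.filter (fun p : (Σ i, Fin (ps i).length) => p.1 ≠ i₀), (ps p.1)[p.2.1] =
      (l.map BK.size).sum - (l[i₀.1]).size := by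
  rw [sum_filter_sigma (ps := ps) (fun i => i ≠ i₀)]
  have h1 : (l.map BK.size).sum = ∑ i : Fin l.length, (l[i.1]).size :=
    (Fin.sum_univ_fun_getElem l BK.size).symm
  rw [h1, ← Finset.add_sum_erase _ _ (Finset.mem_univ i₀), Nat.add_sub_cancel_left]
  apply Finset.sum_congr
  · ext i
    simp
  · intro i _
    exact hps i

theorem sum_rest_none (hps : ∀ i, (ps i).sum = (l[i.1]).size) :
    ∑ p : (Σ i, Fin (ps i).length), (ps p.1)[p.2.1] = (l.map BK.size).sum := by
  have h1 : (l.map BK.size).sum = ∑ i : Fin l.length, (l[i.1]).size :=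
    (Fin.sum_univ_fun_getElem l BK.size).symm
  rw [h1, Fintype.sum_sigma]
  apply Finset.sum_congr rfl
  intro i _
  rw [← hps i]
  exact Fin.sum_univ_getElem (ps i)

/-- **One placed double: the test for `ν` with short columns.** The hypotheses are numbers: `(L1)`
is the line, `M` the number of rest parts. -/
theorem test_line_one (hps : ∀ i, (ps i).sum = (l[i.1]).size) (i₀ : Fin l.length) {d : ℕ}
    (hi₀ : l[i₀.1] = BK.dbl d) {c c₁ b₁ n t₀ : ℕ} (hc : 2 ≤ c)
    (hn : (l.map BK.size).sum = n) (hc₁ : c₁ ≤ c) (hb₁ : b₁ ≤ c)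
    (hpos : ∀ p : (Σ i, Fin (ps i).length), p.1 ≠ i₀ → 0 < (ps p.1)[p.2.1])
    (hL1 : ∀ T : Finset (Σ i, Fin (ps i).length), (∀ p ∈ T, p.1 ≠ i₀) →
      (c - 1) * ∑ p ∈ T, (ps p.1)[p.2.1] + 1 ≤ T.card * (n - 2 * d) + (c - 1))
    (hcnt : 2 * (c - 1) ≤ (Finset.univ.filter
      (fun p : (Σ i, Fin (ps i).length) => p.1 ≠ i₀)).card + t₀)
    (ht₀ : 4 ≤ t₀) (hNlong : t₀ * c + 2 * (c - 1) ≤ n)
    (hN : 2 * (c - 1) + 2 * d ≤ n) (hfeas : 2 * d * (c - 1) < 2 * n)
    (ν : YoungDiagram) (hν : ν.card = n) (hq : ν.colLen 0 + ν.colLen 1 ≤ 2 * (c - 1)) :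
    LongOK c (c - 1) c₁ b₁ ν ∨ BlockOK l ps ν := by
  classical
  have hsz : (l[i₀.1]).size = 2 * d := by rw [hi₀]; rfl
  by_cases hb : ν.colLen 0 ≤ (Finset.univ.filter
      (fun p : (Σ i, Fin (ps i).length) => p.1 ≠ i₀)).card
  · right
    obtain ⟨a₀, b₀, ha, hb', hab, ha', hb''⟩ := exists_placement ν (c₁ := c - 1) (D := 2 * d)
      (even_two_mul d) hq (by omega) (by omega)
    apply blockOK_of_line_one (c₁ := c - 1) i₀ ⟨d, hi₀⟩ ha hb' (by omega) ha' hb'' hq (by omega)
    · intro T hT _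
      rw [hsz, hν]
      exact hL1 T hT
    · intro T hT _
      rw [hsz, hν]
      apply hL2_of_count (Q := fun i => i ≠ i₀) hpos _ hb T hT
      rw [sum_rest_one hps, hn, hsz]
  · left
    exact longOK_of_short ν hc₁ hb₁ hq (by omega) ht₀ (by omega)

/-- **No placed double: the test for `ν` with short columns.** -/
theorem test_line_none (hps : ∀ i, (ps i).sum = (l[i.1]).size) {c c₁ b₁ n t₀ : ℕ} (hc : 2 ≤ c)
    (hn : (l.map BK.size).sum = n) (hc₁ : c₁ ≤ c) (hb₁ : b₁ ≤ c)
    (hpos : ∀ p : (Σ i, Fin (ps i).length), 0 < (ps p.1)[p.2.1])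
    (hL1 : ∀ T : Finset (Σ i, Fin (ps i).length),
      (c - 1) * ∑ p ∈ T, (ps p.1)[p.2.1] + 1 ≤ T.card * n + (c - 1))
    (hcnt : 2 * (c - 1) ≤ Fintype.card (Σ i, Fin (ps i).length) + t₀)
    (ht₀ : 4 ≤ t₀) (hNlong : t₀ * c + 2 * (c - 1) ≤ n) (hN : 2 * (c - 1) ≤ n)
    (ν : YoungDiagram) (hν : ν.card = n) (hq : ν.colLen 0 + ν.colLen 1 ≤ 2 * (c - 1)) :
    LongOK c (c - 1) c₁ b₁ ν ∨ BlockOK l ps ν := by
  classical
  by_cases hb : ν.colLen 0 ≤ Fintype.card (Σ i, Fin (ps i).length)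
  · right
    apply blockOK_of_line_none (c₁ := c - 1) hq (by omega)
    · intro T _
      rw [hν]
      exact hL1 T
    · intro T _
      rw [hν]
      have h := hL2_of_count (ps := ps) (Q := fun _ => True) (fun p _ => hpos p) (N := n)
        (b := ν.colLen 0) (by simpa [hn] using sum_rest_none hps) (by simpa using hb) T (by simp)
      exact h
  · left
    exact longOK_of_short ν hc₁ hb₁ hq (by omega) ht₀ (by omega)

end Final

end Crest.Agent.Saxl
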