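import Crest.Agent.Lib.Saxl.Cover
import Crest.Agent.Lib.Saxl.Coverage

/-!
# Coverage: the two checks (row 195, S0298)

For the chain test only two values of `k` have to be checked.  `x j` are the column lengths of
`ν / E`, `F k = ∑ j, min k (x j)` the partial sums of the conjugate, and
`F k + D k = n'`, `D k = ∑ y, (ν.rowLen (k + y) - E y)`.
-/

set_option autoImplicit false

open scoped BigOperators
open Finset

namespace Crest.Agent.Saxl

namespace CoverArith

/-- The partial sums of the conjugate of a list of column lengths. -/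
def F (w : ℕ) (x : ℕ → ℕ) (k : ℕ) : ℕ := ∑ j ∈ range w, min k (x j)

lemma min_concave (a u v x : ℕ) :
    v * min a x + u * min (a + u + v) x ≤ (u + v) * min (a + u) x := by
  rcases le_total x a with h | h
  · rw [min_eq_right h, min_eq_right (by omega), min_eq_right (by omega)]
    nlinarith
  · rcases le_total x (a + u) with h2 | h2
    · rw [min_eq_left h, min_eq_right (by omega), min_eq_right h2]
      nlinarith
    · rw [min_eq_left h, min_eq_left h2]
      have h3 : min (a + u + v) x ≤ a + u + v := min_le_left _ _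
      have h4 : u * min (a + u + v) x ≤ u * (a + u + v) := Nat.mul_le_mul_left _ h3
      nlinarith

lemma F_concave (w : ℕ) (x : ℕ → ℕ) (a u v : ℕ) :
    v * F w x a + u * F w x (a + u + v) ≤ (u + v) * F w x (a + u) := by
  simp only [F, Finset.mul_sum, ← Finset.sum_add_distrib]
  exact Finset.sum_le_sum fun j _ => min_concave a u v (x j)

/-- **The two checks.** -/
theorem two_checks (w : ℕ) (x : ℕ → ℕ) (A κ p n' J : ℕ)
    (hn' : ∑ j ∈ range w, x j = n') (hxp : ∀ j < w, x j ≤ p) (hJ : 1 ≤ J)
    (h1 : A + κ ≤ F w x 1) (hJA : J * A + κ ≤ F w x J)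
    (hJ1 : n' + (J + 1) ≤ F w x (J + 1) + p) (k : ℕ) (hk : 1 ≤ k) (hkp : k ≤ p) :
    k * A + κ ≤ F w x k ∨ n' + k ≤ F w x k + p := by
  by_cases hkJ : k ≤ J
  · left
    obtain ⟨u, rfl⟩ : ∃ u, k = 1 + u := ⟨k - 1, by omega⟩
    obtain ⟨v, rfl⟩ : ∃ v, J = 1 + u + v := ⟨J - (1 + u), by omega⟩
    have h := F_concave w x 1 u v
    rcases Nat.eq_zero_or_pos (u + v) with h0 | h0
    · have hu : u = 0 := by omega
      subst hu
      simpa using h1
    · apply Nat.le_of_mul_le_mul_left _ h0
      have h2 : v * (A + κ) ≤ v * F w x 1 := Nat.mul_le_mul_left _ h1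
      have h3 : u * ((1 + u + v) * A + κ) ≤ u * F w x (1 + u + v) := Nat.mul_le_mul_left _ hJA
      have h4 : (u + v) * ((1 + u) * A + κ) = v * (A + κ) + u * ((1 + u + v) * A + κ) := by ring
      rw [h4]
      exact (Nat.add_le_add h2 h3).trans h
  · right
    obtain ⟨u, rfl⟩ : ∃ u, k = J + 1 + u := ⟨k - (J + 1), by omega⟩
    obtain ⟨v, rfl⟩ : ∃ v, p = J + 1 + u + v := ⟨p - (J + 1 + u), by omega⟩
    have hFp : F w x (J + 1 + u + v) = n' := by
      rw [← hn']
      apply Finset.sum_congr rfl
      intro j hj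
      exact min_eq_right (hxp j (mem_range.mp hj))
    have h := F_concave w x (J + 1) u v
    rw [hFp] at h
    rcases Nat.eq_zero_or_pos (u + v) with h0 | h0
    · have hu : u = 0 := by omega
      have hv : v = 0 := by omega
      subst hu
      subst hv
      simpa using hJ1
    · apply Nat.le_of_mul_le_mul_left _ h0
      have h2 := Nat.mul_le_mul_left v hJ1
      nlinarith

/-- A set of parts is dominated, from the two checks. -/
theorem sum_le_F_of_checks (w : ℕ) (x : ℕ → ℕ) (A κ p n' J : ℕ)
    (hn' : ∑ j ∈ range w, x j = n') (hxp : ∀ j < w, x j ≤ p) (hJ : 1 ≤ J)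
    (h1 : A + κ ≤ F w x 1) (hJA : J * A + κ ≤ F w x J)
    (hJ1 : n' + (J + 1) ≤ F w x (J + 1) + p) (k s : ℕ) (hkp : k ≤ p)
    (hs0 : k = 0 → s = 0) (hs1 : 1 ≤ k → s ≤ k * A + κ) (hs2 : s + p ≤ n' + k) :
    s ≤ F w x k := by
  rcases Nat.eq_zero_or_pos k with h0 | h0
  · rw [hs0 h0]
    exact Nat.zero_le _
  · rcases two_checks w x A κ p n' J hn' hxp hJ h1 hJA hJ1 k h0 hkp with h | h
    · exact (hs1 h0).trans h
    · omega

/-! ### The column formula -/

/-- The length of the column `j` of `ν / E`. -/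
def colX (ν : YoungDiagram) (E : ℕ → ℕ) (j : ℕ) : ℕ :=
  ν.colLen j - ((range (ν.colLen 0)).filter fun y => j < E y).card

lemma colLen_le_colLen_zero (ν : YoungDiagram) (j : ℕ) : ν.colLen j ≤ ν.colLen 0 := by
  by_contra h
  push Not at h
  have h1 : (ν.colLen 0, j) ∈ ν := YoungDiagram.mem_iff_lt_colLen.mpr h
  have h2 : (ν.colLen 0, 0) ∈ ν := ν.up_left_mem le_rfl (Nat.zero_le _) h1
  have h3 := YoungDiagram.mem_iff_lt_colLen.mp h2
  omega

lemma rowLen_le_rowLen_zero (ν : YoungDiagram) (y : ℕ) : ν.rowLen y ≤ ν.rowLen 0 :=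
  ν.rowLen_anti 0 y (Nat.zero_le _)

lemma lt_colLen_iff_lt_rowLen (ν : YoungDiagram) (y j : ℕ) : y < ν.colLen j ↔ j < ν.rowLen y := by
  rw [← YoungDiagram.mem_iff_lt_colLen, YoungDiagram.mem_iff_lt_rowLen]

/-- Double counting of the cells of `ν / E` below the row `k`. -/
theorem colX_tail (ν : YoungDiagram) (E : ℕ → ℕ) (hanti : Antitone E) (k : ℕ) :
    ∑ j ∈ range (ν.rowLen 0), (colX ν E j - k) =
      ∑ y ∈ range (ν.colLen 0), (ν.rowLen (k + y) - E y) := by
  classical
  let r : ℕ → ℕ → Prop := fun y j => E y ≤ j ∧ j < ν.rowLen (k + y)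
  have h := Finset.sum_card_bipartiteAbove_eq_sum_card_bipartiteBelow (s := range (ν.colLen 0))
    (t := range (ν.rowLen 0)) r
  have h1 : ∀ y ∈ range (ν.colLen 0), ((range (ν.rowLen 0)).bipartiteAbove r y).card =
      ν.rowLen (k + y) - E y := by
    intro y _
    have : (range (ν.rowLen 0)).bipartiteAbove r y = Finset.Ico (E y) (ν.rowLen (k + y)) := by
      ext j
      simp only [Finset.bipartiteAbove, mem_filter, mem_range, Finset.mem_Ico, r]
      constructor
      · rintro ⟨_, h2⟩
        exact h2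
      · rintro h2
        exact ⟨lt_of_lt_of_le h2.2 (rowLen_le_rowLen_zero ν _), h2⟩
    rw [this, Nat.card_Ico]
  have h2 : ∀ j ∈ range (ν.rowLen 0), ((range (ν.colLen 0)).bipartiteBelow r j).card =
      colX ν E j - k := by
    intro j _
    have he := fun y => EFix.lt_card_filter_range_iff (fun y => j < E y)
      (fun y y' hy h => lt_of_lt_of_le h (hanti hy)) (ν.colLen 0) y
    have : (range (ν.colLen 0)).bipartiteBelow r j = Finset.Ico
        ((range (ν.colLen 0)).filter fun y => j < E y).card (ν.colLen j - k) := by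
      ext y
      simp only [Finset.bipartiteBelow, mem_filter, mem_range, Finset.mem_Ico, r]
      have h3 := lt_colLen_iff_lt_rowLen ν (k + y) j
      have h4 := he y
      have h5 := colLen_le_colLen_zero ν j
      constructor
      · rintro ⟨h6, h7, h8⟩
        refine ⟨?_, ?_⟩
        · by_contra h9
          push Not at h9
          have := (h4.mpr h9).2
          omega
        · have := h3.mpr h8
          omega
      · rintro ⟨h6, h7⟩
        have h8 : y < ν.colLen 0 := by omega
        refine ⟨h8, ?_, h3.mp (by omega)⟩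
        by_contra h9
        push Not at h9
        have := h4.mp ⟨h8, h9⟩
        omega
    rw [this, Nat.card_Ico]
    simp only [colX]
    omega
  rw [← Finset.sum_congr rfl h1, ← Finset.sum_congr rfl h2]
  exact h.symm

/-- The total size: the column lengths of `ν / E` add up to the row lengths of `ν / E`. -/
theorem colF_total (ν : YoungDiagram) (E : ℕ → ℕ) (hanti : Antitone E) :
    ∑ j ∈ range (ν.rowLen 0), colX ν E j = ∑ y ∈ range (ν.colLen 0), (ν.rowLen y - E y) := by
  have h := colX_tail ν E hanti 0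
  simpa using h

/-- **The tail form of the column formula.** -/
theorem colF_tail (ν : YoungDiagram) (E : ℕ → ℕ) (hanti : Antitone E) (k : ℕ) :
    F (ν.rowLen 0) (colX ν E) k + ∑ y ∈ range (ν.colLen 0), (ν.rowLen (k + y) - E y) =
      ∑ y ∈ range (ν.colLen 0), (ν.rowLen y - E y) := by
  rw [← colX_tail ν E hanti k, ← colF_total ν E hanti, F, ← Finset.sum_add_distrib]
  apply Finset.sum_congr rfl
  intro j _
  omega

lemma rowLen_colLen_zero (ν : YoungDiagram) {y : ℕ} (h : ν.colLen 0 ≤ y) : ν.rowLen y = 0 := by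
  by_contra h1
  have h2 : 0 < ν.rowLen y := Nat.pos_of_ne_zero h1
  have h3 := (lt_colLen_iff_lt_rowLen ν y 0).mpr h2
  omega

/-- **The column formula**: the partial sums of the conjugate of `ν / E` are the partial sums of the
rows of `ν`, minus the loss. -/
theorem colF_formula (ν : YoungDiagram) (E : ℕ → ℕ) (hanti : Antitone E)
    (hE : ∀ y, E y ≤ ν.rowLen y) (k : ℕ) :
    F (ν.rowLen 0) (colX ν E) k + ∑ y ∈ range (ν.colLen 0), (E y - ν.rowLen (k + y)) =
      ∑ y ∈ range k, ν.rowLen y := by
  have h := colF_tail ν E hanti k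
  -- the sums over the rows
  have h1 : ∑ y ∈ range (ν.colLen 0), (ν.rowLen y - E y) + ∑ y ∈ range (ν.colLen 0), E y =
      ∑ y ∈ range (ν.colLen 0), ν.rowLen y := by
    rw [← Finset.sum_add_distrib]
    exact Finset.sum_congr rfl fun y _ => by have := hE y; omega
  have h2 : ∑ y ∈ range (ν.colLen 0), (ν.rowLen (k + y) - E y) +
      ∑ y ∈ range (ν.colLen 0), E y =
      ∑ y ∈ range (ν.colLen 0), ν.rowLen (k + y) +
      ∑ y ∈ range (ν.colLen 0), (E y - ν.rowLen (k + y)) := by
    rw [← Finset.sum_add_distrib, ← Finset.sum_add_distrib]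
    exact Finset.sum_congr rfl fun y _ => by omega
  -- shift
  have h3 : ∑ y ∈ range k, ν.rowLen y + ∑ y ∈ range (ν.colLen 0), ν.rowLen (k + y) =
      ∑ y ∈ range (ν.colLen 0), ν.rowLen y + ∑ y ∈ range k, ν.rowLen (ν.colLen 0 + y) := by
    rw [← Finset.sum_range_add, add_comm k, Finset.sum_range_add]
  have h4 : ∑ y ∈ range k, ν.rowLen (ν.colLen 0 + y) = 0 :=
    Finset.sum_eq_zero fun y _ => rowLen_colLen_zero ν (by omega)
  omega

/-- The column formula for `ChainOK`: the bound of the test is `colF`. -/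
theorem sum_min_eq_F (ν : YoungDiagram) (E : ℕ → ℕ) (k : ℕ) :
    ∑ j ∈ range (ν.rowLen 0), min k
      (ν.colLen j - ((range (ν.colLen 0)).filter fun y => j < E y).card) =
      F (ν.rowLen 0) (colX ν E) k := rfl

/-! ### One placed double -/

/-- The two-row shape `(a, b)`. -/
def eta2 (a b : ℕ) : ℕ → ℕ := fun y => if y = 0 then a else if y = 1 then b else 0

lemma eta2_anti {a b : ℕ} (hab : b ≤ a) : Antitone (eta2 a b) := by
  intro y y' h
  simp only [eta2]
  split_ifs <;> omega

lemma eta2_le {ν : YoungDiagram} {a b : ℕ} (ha : a ≤ ν.rowLen 0) (hb : b ≤ ν.rowLen 1) (y : ℕ) :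
    eta2 a b y ≤ ν.rowLen y := by
  simp only [eta2]
  split_ifs with h1 h2
  · rwa [h1]
  · rwa [h2]
  · exact Nat.zero_le _

/-- **The chain test with one placed double**, in rows `0, 1`. -/
theorem chainOK_one {l : List BK} {ps : Fin l.length → List ℕ} {ν : YoungDiagram}
    (i₀ : Fin l.length) {h a b : ℕ} (hi₀ : l[i₀.1] = BK.dbl h) (hab : a + b = 2 * h)
    (ha : Even a) (hb : Even b) (hba : b ≤ a) (har : a ≤ ν.rowLen 0) (hbr : b ≤ ν.rowLen 1)
    (hdom : ∀ T : Finset (Σ i, Fin (ps i).length), (∀ p ∈ T, p.1 ≠ i₀) →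
      ∑ p ∈ T, (ps p.1)[p.2.1] ≤ F (ν.rowLen 0) (colX ν (eta2 a b)) T.card) :
    ChainOK l ps ν := by
  have hL : (b = 0 ∨ 2 ≤ ν.colLen 0) ∧ (a = 0 ∨ 1 ≤ ν.colLen 0) := by
    constructor
    · rcases Nat.eq_zero_or_pos b with h0 | h0
      · exact Or.inl h0
      · right
        have := (lt_colLen_iff_lt_rowLen ν 1 0).mpr (by omega)
        omega
    · rcases Nat.eq_zero_or_pos a with h0 | h0
      · exact Or.inl h0
      · right
        have := (lt_colLen_iff_lt_rowLen ν 0 0).mpr (by omega)
        omega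
  -- the sums over the rows of a function of `eta2`
  have hsum : ∀ f : ℕ → ℕ, f 0 = a → f 1 = b → (∀ y, 2 ≤ y → f y = 0) →
      ∑ y ∈ range (ν.colLen 0), f y = a + b := by
    intro f h0 h1 h2
    by_cases hL2 : 2 ≤ ν.colLen 0
    · obtain ⟨m, hm⟩ : ∃ m, ν.colLen 0 = m + 2 := ⟨ν.colLen 0 - 2, by omega⟩
      rw [hm, Finset.sum_range_succ', Finset.sum_range_succ']
      rw [Finset.sum_eq_zero (fun y _ => h2 _ (by omega)), h0, h1]
      omega
    · rcases hL.1 with hb0 | hb0
      · interval_cases hm : ν.colLen 0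
        · rcases hL.2 with ha0 | ha0
          · simp [ha0, hb0]
          · omega
        · simp [h0, hb0]
      · omega
  refine ⟨1, fun _ => i₀, fun i => if i = 0 then fun _ => 0 else eta2 a b,
    fun x y _ => Subsingleton.elim x y, ?_, ?_, ?_, ?_, ?_, ?_, ?_, ?_, ?_⟩
  · intro _
    exact ⟨h, hi₀⟩
  · intro y
    simp
  · intro i hi y
    have : i = 0 := by omega
    subst this
    simp
  · intro i hi
    have : i = 0 ∨ i = 1 := by omega
    rcases this with rfl | rfl
    · simpa using antitone_const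
    · simpa using eta2_anti hba
  · intro y
    simpa using eta2_le har hbr y
  · intro i hi y
    have : i = 0 := by omega
    subst this
    simp [eta2]
  · intro i
    have hi : i.1 = 0 := by omega
    simp only [hi, if_true, zero_add, one_ne_zero, if_false, Nat.sub_zero]
    rw [hsum (eta2 a b) (by simp [eta2]) (by simp [eta2]) (by intro y hy; simp only [eta2]; rw [if_neg (by omega), if_neg (by omega)]), hab, hi₀]
    simp [BK.size]
  · intro i hi
    have : i = 0 := by omega
    subst this
    simp only [if_true, zero_add, one_ne_zero, if_false, Nat.sub_zero]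
    have e : ∑ y ∈ range (ν.colLen 0), eta2 a b y * y = 0 + b := by
      have := hsum (fun y => eta2 a b y * y + if y = 0 then a else 0) (by simp [eta2]) (by simp [eta2])
        (by intro y hy; simp only [eta2]; rw [if_neg (by omega), if_neg (by omega), if_neg (by omega)]; simp)
      rw [Finset.sum_add_distrib] at this
      have h2 : ∑ y ∈ range (ν.colLen 0), (if y = 0 then a else 0) = a := by
        rw [Finset.sum_ite_eq' (range (ν.colLen 0)) 0 (fun _ => a)]
        rcases hL.2 with ha0 | ha0
        · split_ifs <;> omega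
        · rw [if_pos (mem_range.mpr (by omega))]
      omega
    rw [e, zero_add]
    exact hb
  · intro T hT
    have := hdom T fun p hp => hT p hp ⟨0, by omega⟩
    simpa [F, colX] using this

/-- **The column formula for one placed double** (helper58 #2153 (C1)): the partial sums `f k` of
the depth content are `S_k - (a - ν_k)₊ - (b - ν_{k+1})₊`. -/
theorem F_eta2 (ν : YoungDiagram) {a b : ℕ} (hba : b ≤ a) (har : a ≤ ν.rowLen 0)
    (hbr : b ≤ ν.rowLen 1) (k : ℕ) :
    F (ν.rowLen 0) (colX ν (eta2 a b)) k + (a - ν.rowLen k) + (b - ν.rowLen (k + 1)) =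
      rowsBelow ν k := by
  have h := colF_formula ν (eta2 a b) (eta2_anti hba) (eta2_le har hbr) k
  have hsum : ∑ y ∈ range (ν.colLen 0), (eta2 a b y - ν.rowLen (k + y)) =
      (a - ν.rowLen k) + (b - ν.rowLen (k + 1)) := by
    by_cases hL2 : 2 ≤ ν.colLen 0
    · obtain ⟨m, hm⟩ : ∃ m, ν.colLen 0 = m + 2 := ⟨ν.colLen 0 - 2, by omega⟩
      rw [hm, Finset.sum_range_succ', Finset.sum_range_succ']
      rw [Finset.sum_eq_zero (fun y _ => by
        simp only [eta2]
        rw [if_neg (by omega), if_neg (by omega)]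
        exact Nat.zero_sub _)]
      simp [eta2]
      omega
    · have hb0 : b = 0 := by
        by_contra h0
        have := (lt_colLen_iff_lt_rowLen ν 1 0).mpr (by omega)
        omega
      subst hb0
      by_cases hL1 : 1 ≤ ν.colLen 0
      · have hm : ν.colLen 0 = 1 := by omega
        rw [hm]
        simp [eta2]
      · have ha0 : a = 0 := by
          by_contra h0
          have := (lt_colLen_iff_lt_rowLen ν 0 0).mpr (by omega)
          omega
        subst ha0
        have hm : ν.colLen 0 = 0 := by omega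
        rw [hm]
        simp
  rw [hsum] at h
  have h2 := Crest.Agent.Saxl.rowsBelow_eq_sum ν k
  omega

end CoverArith

end Crest.Agent.Saxl
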