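import Crest.Agent.Lib.Saxl.Specht

/-!
# The block of a repeated column height (row 195, S0298)

`L = (2^d)`: two columns of height `d`.  Transversal lemma (helper23): a function `h` on the
`d`-subsets of a `2d`-set, with `h (Aᶜ) = h A`, whose sum over the subsets crossing any perfect
matching vanishes, is zero.  Consequence: the product of a polytabloid of `L` with itself is visible
on the double table, for `S_d wr S_2`-fixed vectors.
-/

set_option autoImplicit false

open Finset Equiv

namespace Crest.Agent.Saxl.EBlock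

section Transversal

variable {S : Type*} [DecidableEq S]

/-- `A` crosses the matching of the word `u` on `T`: it takes each letter exactly once. -/
def Cross (u : S → ℕ) (T A : Finset S) : Prop :=
  A ⊆ T ∧ Set.InjOn u A ∧ A.image u = T.image u

/-- Each letter occurring in `T` occurs exactly twice. -/
def IsPM (T : Finset S) (u : S → ℕ) : Prop :=
  ∀ s ∈ T, (T.filter fun t => u t = u s).card = 2

open Classical in
/-- The sum over the subsets crossing the matching of `u`. -/
noncomputable def crossSum (u : S → ℕ) (T : Finset S) (h : Finset S → ℂ) : ℂ :=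
  ∑ A ∈ T.powerset.filter (Cross u T), h A

section Step

variable {u : S → ℕ} {T : Finset S} {x y : S}

lemma pair_filter (hPM : IsPM T u) (hx : x ∈ T) (hy : y ∈ T) (hxy : x ≠ y) (hu : u x = u y) :
    (T.filter fun t => u t = u x) = {x, y} := by
  symm
  apply Finset.eq_of_subset_of_card_le
  · intro s hs
    simp only [mem_insert, mem_singleton] at hs
    rcases hs with rfl | rfl
    · simp [hx]
    · simp [hy, hu]
  · rw [hPM x hx, card_pair hxy]

lemma letter_mem (hPM : IsPM T u) (hx : x ∈ T) (hy : y ∈ T) (hxy : x ≠ y) (hu : u x = u y)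
    {s : S} (hs : s ∈ T) (h : u s = u x) : s = x ∨ s = y := by
  have : s ∈ T.filter fun t => u t = u x := by simp [hs, h]
  rw [pair_filter hPM hx hy hxy hu] at this
  simpa using this

lemma isPM_sdiff (hPM : IsPM T u) (hx : x ∈ T) (hy : y ∈ T) (hxy : x ≠ y) (hu : u x = u y) :
    IsPM (T \ {x, y}) u := by
  intro s hs
  have hs' := mem_sdiff.mp hs
  have hsT := hs'.1
  have hne : u s ≠ u x := by
    intro h
    rcases letter_mem hPM hx hy hxy hu hsT h with h | h
    · exact hs'.2 (by simp [h])
    · exact hs'.2 (by simp [h])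
  rw [← hPM s hsT]
  congr 1
  ext t
  simp only [mem_filter, mem_sdiff, mem_insert, mem_singleton, not_or]
  constructor
  · rintro ⟨⟨h1, _⟩, h2⟩; exact ⟨h1, h2⟩
  · rintro ⟨h1, h2⟩
    refine ⟨⟨h1, ?_, ?_⟩, h2⟩
    · rintro rfl; exact hne h2.symm
    · rintro rfl; exact hne (h2.symm.trans hu.symm)

lemma letter_not_mem_image (hPM : IsPM T u) (hx : x ∈ T) (hy : y ∈ T) (hxy : x ≠ y)
    (hu : u x = u y) : u x ∉ (T \ {x, y}).image u := by
  intro h
  obtain ⟨s, hs, hs2⟩ := mem_image.mp h
  have hs' := mem_sdiff.mp hs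
  rcases letter_mem hPM hx hy hxy hu hs'.1 hs2 with h | h
  · exact hs'.2 (by simp [h])
  · exact hs'.2 (by simp [h])

lemma image_eq_insert (hx : x ∈ T) (hy : y ∈ T) (hu : u x = u y) :
    T.image u = insert (u x) ((T \ {x, y}).image u) := by
  ext a
  simp only [mem_image, mem_insert, mem_sdiff, mem_singleton]
  constructor
  · rintro ⟨s, hs, rfl⟩
    by_cases h1 : s = x
    · left; rw [h1]
    · by_cases h2 : s = y
      · left; rw [h2, hu]
      · right; exact ⟨s, ⟨hs, by simp [h1, h2]⟩, rfl⟩
  · rintro (rfl | ⟨s, hs, rfl⟩)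
    · exact ⟨x, hx, rfl⟩
    · exact ⟨s, hs.1, rfl⟩

/-- Adding one slot of the pair to a crossing set of the rest. -/
lemma cross_insert (hPM : IsPM T u) (hx : x ∈ T) (hy : y ∈ T) (hxy : x ≠ y) (hu : u x = u y)
    {z : S} (hz : z = x ∨ z = y) {A : Finset S} (hA : Cross u (T \ {x, y}) A) :
    Cross u T (insert z A) := by
  obtain ⟨h1, h2, h3⟩ := hA
  have hzT : z ∈ T := by rcases hz with rfl | rfl <;> assumption
  have huz : u z = u x := by rcases hz with rfl | rfl <;> simp [hu]
  have hnot : u x ∉ A.image u := by rw [h3]; exact letter_not_mem_image hPM hx hy hxy hu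
  refine ⟨?_, ?_, ?_⟩
  · intro s hs
    rcases mem_insert.mp hs with rfl | hs
    · exact hzT
    · exact (mem_sdiff.mp (h1 hs)).1
  · intro a ha b hb hab
    have ha' := mem_insert.mp (mem_coe.mp ha)
    have hb' := mem_insert.mp (mem_coe.mp hb)
    rcases ha' with rfl | ha' <;> rcases hb' with rfl | hb'
    · rfl
    · exact absurd (mem_image.mpr ⟨b, hb', hab.symm.trans huz⟩) hnot
    · exact absurd (mem_image.mpr ⟨a, ha', hab.trans huz⟩) hnot
    · exact h2 ha' hb' hab
  · rw [image_insert, image_eq_insert hx hy hu, huz, h3]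

/-- Removing the slot of the pair from a crossing set. -/
lemma cross_erase (hPM : IsPM T u) (hx : x ∈ T) (hy : y ∈ T) (hxy : x ≠ y) (hu : u x = u y)
    {z : S} (hz : z = x ∨ z = y) {A : Finset S} (hA : Cross u T A) (hzA : z ∈ A) :
    Cross u (T \ {x, y}) (A.erase z) := by
  obtain ⟨h1, h2, h3⟩ := hA
  have huz : u z = u x := by rcases hz with rfl | rfl <;> simp [hu]
  refine ⟨?_, ?_, ?_⟩
  · intro s hs
    have hs' := mem_erase.mp hs
    have hsT := h1 hs'.2
    refine mem_sdiff.mpr ⟨hsT, ?_⟩
    simp only [mem_insert, mem_singleton, not_or]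
    constructor
    · rintro rfl
      apply hs'.1
      rcases hz with rfl | rfl
      · rfl
      · exact h2 (mem_coe.mpr hs'.2) (mem_coe.mpr hzA) hu
    · rintro rfl
      apply hs'.1
      rcases hz with rfl | rfl
      · exact h2 (mem_coe.mpr hs'.2) (mem_coe.mpr hzA) hu.symm
      · rfl
  · intro a ha b hb hab
    exact h2 (mem_coe.mpr (mem_erase.mp (mem_coe.mp ha)).2)
      (mem_coe.mpr (mem_erase.mp (mem_coe.mp hb)).2) hab
  · have hnot : u x ∉ (T \ {x, y}).image u := letter_not_mem_image hPM hx hy hxy hu
    have himg : A.image u = insert (u z) ((A.erase z).image u) := by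
      rw [← image_insert, insert_erase hzA]
    have hnot' : u z ∉ (A.erase z).image u := by
      intro h
      obtain ⟨s, hs, hs2⟩ := mem_image.mp h
      have hs' := mem_erase.mp hs
      exact hs'.1 (h2 (mem_coe.mpr hs'.2) (mem_coe.mpr hzA) hs2)
    rw [image_eq_insert hx hy hu, himg, huz] at h3
    rw [huz] at hnot'
    calc (A.erase z).image u = (insert (u x) ((A.erase z).image u)).erase (u x) :=
          (erase_insert hnot').symm
      _ = (insert (u x) ((T \ {x, y}).image u)).erase (u x) := by rw [h3]
      _ = _ := erase_insert hnot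

open Classical in
/-- The step of the induction: the pair `{x,y}` of the matching is resolved. -/
lemma crossSum_step (hPM : IsPM T u) (hx : x ∈ T) (hy : y ∈ T) (hxy : x ≠ y) (hu : u x = u y)
    (h : Finset S → ℂ) :
    crossSum u T h =
      crossSum u (T \ {x, y}) (fun A => h (insert x A) + h (insert y A)) := by
  have hxn : ∀ A, Cross u (T \ {x, y}) A → x ∉ A := by
    intro A hA hxA
    have := mem_sdiff.mp (hA.1 hxA)
    exact this.2 (by simp)
  have hyn : ∀ A, Cross u (T \ {x, y}) A → y ∉ A := by
    intro A hA hyA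
    have := mem_sdiff.mp (hA.1 hyA)
    exact this.2 (by simp)
  simp only [crossSum, sum_add_distrib]
  have hX : ∑ A ∈ (T \ {x, y}).powerset.filter (Cross u (T \ {x, y})), h (insert x A) =
      ∑ A ∈ T.powerset.filter (fun A => Cross u T A ∧ x ∈ A), h A := by
    refine Finset.sum_bij' (fun A _ => insert x A) (fun A _ => A.erase x) ?_ ?_ ?_ ?_ ?_
    · intro A hA
      have hA' := (mem_filter.mp hA).2
      have := cross_insert hPM hx hy hxy hu (Or.inl rfl) hA'
      simp only [mem_filter, mem_powerset]
      exact ⟨this.1, this, mem_insert_self _ _⟩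
    · intro A hA
      have hA' := (mem_filter.mp hA).2
      have := cross_erase hPM hx hy hxy hu (Or.inl rfl) hA'.1 hA'.2
      simp only [mem_filter, mem_powerset]
      exact ⟨this.1, this⟩
    · intro A hA
      exact erase_insert (hxn A (mem_filter.mp hA).2)
    · intro A hA
      exact insert_erase (mem_filter.mp hA).2.2
    · intro _ _; rfl
  have hY : ∑ A ∈ (T \ {x, y}).powerset.filter (Cross u (T \ {x, y})), h (insert y A) =
      ∑ A ∈ T.powerset.filter (fun A => Cross u T A ∧ y ∈ A), h A := by
    refine Finset.sum_bij' (fun A _ => insert y A) (fun A _ => A.erase y) ?_ ?_ ?_ ?_ ?_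
    · intro A hA
      have hA' := (mem_filter.mp hA).2
      have := cross_insert hPM hx hy hxy hu (Or.inr rfl) hA'
      simp only [mem_filter, mem_powerset]
      exact ⟨this.1, this, mem_insert_self _ _⟩
    · intro A hA
      have hA' := (mem_filter.mp hA).2
      have := cross_erase hPM hx hy hxy hu (Or.inr rfl) hA'.1 hA'.2
      simp only [mem_filter, mem_powerset]
      exact ⟨this.1, this⟩
    · intro A hA
      exact erase_insert (hyn A (mem_filter.mp hA).2)
    · intro A hA
      exact insert_erase (mem_filter.mp hA).2.2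
    · intro _ _; rfl
  rw [hX, hY, ← Finset.sum_union]
  · apply Finset.sum_congr _ (fun _ _ => rfl)
    ext A
    simp only [mem_filter, mem_powerset, mem_union]
    constructor
    · rintro ⟨h1, h2⟩
      have hux : u x ∈ A.image u := by rw [h2.2.2]; exact mem_image_of_mem u hx
      obtain ⟨s, hs, hs2⟩ := mem_image.mp hux
      rcases letter_mem hPM hx hy hxy hu (h1 hs) hs2 with rfl | rfl
      · exact Or.inl ⟨h1, h2, hs⟩
      · exact Or.inr ⟨h1, h2, hs⟩
    · rintro (⟨h1, h2, _⟩ | ⟨h1, h2, _⟩) <;> exact ⟨h1, h2⟩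
  · rw [Finset.disjoint_left]
    intro A hA hA'
    have h1 := (mem_filter.mp hA).2
    have h2 := (mem_filter.mp hA').2
    exact hxy (h1.1.2.1 (mem_coe.mpr h1.2) (mem_coe.mpr h2.2) hu)

end Step

/-- Fresh letter: turning a matching of the rest into a matching of the whole. -/
lemma exists_extend {T : Finset S} {x y : S} (hx : x ∈ T) (hy : y ∈ T) (hxy : x ≠ y)
    (u' : S → ℕ) (hu' : IsPM (T \ {x, y}) u') :
    ∃ u : S → ℕ, IsPM T u ∧ u x = u y ∧ (∀ s ∈ T \ {x, y}, u s = u' s) := by
  classical
  set T' := T \ {x, y} with hT'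
  set f := (T'.image u').sup id + 1 with hf
  have hfresh : ∀ s ∈ T', u' s ≠ f := by
    intro s hs h
    have : u' s ≤ (T'.image u').sup id :=
      Finset.le_sup (f := id) (mem_image_of_mem u' hs)
    omega
  let u : S → ℕ := fun s => if s = x ∨ s = y then f else u' s
  have hux : u x = f := by simp [u]
  have huy : u y = f := by simp [u]
  have hus : ∀ s ∈ T', u s = u' s := by
    intro s hs
    have := (mem_sdiff.mp hs).2
    simp only [mem_insert, mem_singleton] at this
    simp [u, this]
  refine ⟨u, ?_, hux.trans huy.symm, hus⟩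
  intro s hs
  by_cases hsp : s = x ∨ s = y
  · have hus' : u s = f := by rcases hsp with rfl | rfl <;> assumption
    have : (T.filter fun t => u t = u s) = {x, y} := by
      ext t
      simp only [mem_filter, mem_insert, mem_singleton]
      constructor
      · rintro ⟨h1, h2⟩
        by_contra hn
        have hmem : t ∈ T' := mem_sdiff.mpr ⟨h1, by simpa using hn⟩
        rw [hus t hmem, hus'] at h2
        exact hfresh t hmem h2
      · rintro (rfl | rfl)
        · exact ⟨hx, hux.trans hus'.symm⟩
        · exact ⟨hy, huy.trans hus'.symm⟩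
    rw [this, card_pair hxy]
  · have hsT' : s ∈ T' := mem_sdiff.mpr ⟨hs, by simpa using hsp⟩
    rw [← hu' s hsT']
    congr 1
    ext t
    simp only [mem_filter]
    rw [hus s hsT']
    constructor
    · rintro ⟨h1, h2⟩
      have htp : ¬ (t = x ∨ t = y) := by
        rintro (rfl | rfl)
        · rw [hux] at h2; exact hfresh s hsT' h2.symm
        · rw [huy] at h2; exact hfresh s hsT' h2.symm
      have hmem : t ∈ T' := mem_sdiff.mpr ⟨h1, by simpa using htp⟩
      exact ⟨hmem, by rw [← hus t hmem]; exact h2⟩
    · rintro ⟨h1, h2⟩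
      exact ⟨(mem_sdiff.mp h1).1, by rw [hus t h1]; exact h2⟩

lemma crossSum_congr {u u' : S → ℕ} {T : Finset S} (hu : ∀ s ∈ T, u s = u' s) (h : Finset S → ℂ) :
    crossSum u T h = crossSum u' T h := by
  classical
  have himg : T.image u = T.image u' := Finset.image_congr fun s hs => hu s (mem_coe.mp hs)
  have hiff : ∀ A ∈ T.powerset, Cross u T A ↔ Cross u' T A := by
    intro A hA
    have hA' := mem_powerset.mp hA
    have himgA : A.image u = A.image u' := Finset.image_congr fun s hs => hu s (hA' (mem_coe.mp hs))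
    constructor
    · rintro ⟨h1, h2, h3⟩
      refine ⟨h1, ?_, by rw [← himgA, ← himg]; exact h3⟩
      intro a ha b hb hab
      apply h2 ha hb
      rw [hu a (hA' (mem_coe.mp ha)), hu b (hA' (mem_coe.mp hb))]; exact hab
    · rintro ⟨h1, h2, h3⟩
      refine ⟨h1, ?_, by rw [himgA, himg]; exact h3⟩
      intro a ha b hb hab
      apply h2 ha hb
      rw [← hu a (hA' (mem_coe.mp ha)), ← hu b (hA' (mem_coe.mp hb))]; exact hab
  simp only [crossSum]
  exact Finset.sum_congr (Finset.filter_congr hiff) (fun _ _ => rfl)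

/-- **Transversal lemma.** -/
theorem transversal (d : ℕ) : ∀ (T : Finset S) (_ : T.card = 2 * d) (h : Finset S → ℂ)
    (_ : ∀ A ⊆ T, A.card = d → h (T \ A) = h A)
    (_ : ∀ u, IsPM T u → crossSum u T h = 0), ∀ A ⊆ T, A.card = d → h A = 0 := by
  classical
  induction d with
  | zero =>
    intro T hT h _ hz A hA hA0
    have hT0 : T = ∅ := by simpa using hT
    have hA0' : A = ∅ := by simpa using hA0
    subst hT0 hA0'
    have := hz (fun _ => 0) (by intro s hs; simp at hs)
    simp only [crossSum, powerset_empty] at this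
    have hc : Cross (fun _ : S => 0) ∅ ∅ := ⟨by simp, by simp, by simp⟩
    rw [Finset.filter_singleton, if_pos hc, sum_singleton] at this
    exact this
  | succ d ih =>
    intro T hT h hsym hz A hA hAc
    obtain ⟨x, hxA⟩ : A.Nonempty := by rw [← card_pos]; omega
    set A' := A.erase x with hA'
    have hA'c : A'.card = d := by rw [hA', card_erase_of_mem hxA]; omega
    have hA'T : A' ⊆ T := (erase_subset _ _).trans hA
    have hcompl : (T \ A').card = d + 2 := by
      rw [card_sdiff_of_subset hA'T]; omega
    -- the basic relation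
    have key : ∀ a b, a ∈ T \ A' → b ∈ T \ A' → a ≠ b →
        h (insert a A') + h (insert b A') = 0 := by
      intro a b ha hb hab
      have ha' := mem_sdiff.mp ha
      have hb' := mem_sdiff.mp hb
      have hT' : (T \ {a, b}).card = 2 * d := by
        rw [card_sdiff_of_subset (by
          intro s hs
          simp only [mem_insert, mem_singleton] at hs
          rcases hs with rfl | rfl
          · exact ha'.1
          · exact hb'.1), card_pair hab]
        omega
      have hA'sub : A' ⊆ T \ {a, b} := by
        intro s hs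
        refine mem_sdiff.mpr ⟨hA'T hs, ?_⟩
        simp only [mem_insert, mem_singleton, not_or]
        constructor
        · rintro rfl; exact ha'.2 hs
        · rintro rfl; exact hb'.2 hs
      refine ih (T \ {a, b}) hT' (fun B => h (insert a B) + h (insert b B)) ?_ ?_ A' hA'sub hA'c
      · intro B hB hBc
        have han : a ∉ B := fun q => by
          have := mem_sdiff.mp (hB q); exact this.2 (by simp)
        have hbn : b ∉ B := fun q => by
          have := mem_sdiff.mp (hB q); exact this.2 (by simp)
        have e1 : insert a ((T \ {a, b}) \ B) = T \ insert b B := by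
          ext s
          simp only [mem_insert, mem_sdiff, mem_singleton, not_or]
          constructor
          · rintro (rfl | ⟨⟨h1, h2, h3⟩, h4⟩)
            · exact ⟨ha'.1, hab, han⟩
            · exact ⟨h1, h3, h4⟩
          · rintro ⟨h1, h2, h3⟩
            by_cases hsa : s = a
            · exact Or.inl hsa
            · exact Or.inr ⟨⟨h1, hsa, h2⟩, h3⟩
        have e2 : insert b ((T \ {a, b}) \ B) = T \ insert a B := by
          ext s
          simp only [mem_insert, mem_sdiff, mem_singleton, not_or]
          constructor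
          · rintro (rfl | ⟨⟨h1, h2, h3⟩, h4⟩)
            · exact ⟨hb'.1, hab.symm, hbn⟩
            · exact ⟨h1, h2, h4⟩
          · rintro ⟨h1, h2, h3⟩
            by_cases hsb : s = b
            · exact Or.inl hsb
            · exact Or.inr ⟨⟨h1, h2, hsb⟩, h3⟩
        have hsubT : ∀ {c : S}, c ∈ T → insert c B ⊆ T := by
          intro c hc s hs
          rcases mem_insert.mp hs with rfl | hs
          · exact hc
          · exact (mem_sdiff.mp (hB hs)).1
        have s1 := hsym (insert b B) (hsubT hb'.1) (by rw [card_insert_of_notMem hbn, hBc])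
        have s2 := hsym (insert a B) (hsubT ha'.1) (by rw [card_insert_of_notMem han, hBc])
        rw [e1, e2, s1, s2]
        ring
      · intro u' hu'
        obtain ⟨u, hu1, hu2, hu3⟩ := exists_extend ha'.1 hb'.1 hab u' hu'
        have := hz u hu1
        rw [crossSum_step hu1 ha'.1 hb'.1 hab hu2, crossSum_congr hu3] at this
        exact this
    have hxc : x ∈ T \ A' := mem_sdiff.mpr ⟨hA hxA, by simp [hA']⟩
    have hA_eq : A = insert x A' := (insert_erase hxA).symm
    rw [hA_eq]
    -- another point
    obtain ⟨y, hy, hyx⟩ : ∃ y ∈ T \ A', y ≠ x := by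
      have : 1 < (T \ A').card := by omega
      obtain ⟨a, ha, b, hb, hab⟩ := one_lt_card.mp this
      by_cases hax : a = x
      · exact ⟨b, hb, fun q => hab (hax.trans q.symm)⟩
      · exact ⟨a, ha, hax⟩
    have h1 := key x y hxc hy hyx.symm
    by_cases hd : d = 0
    · -- `T = {x,y}`
      subst hd
      have hA'0 : A' = ∅ := by simpa using hA'c
      have hs := hsym (insert x A') (insert_subset (hA hxA) hA'T)
        (by rw [card_insert_of_notMem (mem_sdiff.mp hxc).2, hA'c])
      have hT2 : T \ insert x A' = insert y A' := by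
        rw [hA'0] at hy hxc ⊢
        have hTc : T.card = 2 := by simpa using hT
        have hyT : y ∈ T := (mem_sdiff.mp hy).1
        have hxT : x ∈ T := (mem_sdiff.mp hxc).1
        have hTe : T = {x, y} := by
          symm
          apply Finset.eq_of_subset_of_card_le
          · intro s hs
            simp only [mem_insert, mem_singleton] at hs
            rcases hs with rfl | rfl <;> assumption
          · rw [hTc, card_pair hyx.symm]
        rw [hTe]
        ext s
        simp only [mem_sdiff, mem_insert, mem_singleton]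
        constructor
        · rintro ⟨rfl | rfl, h2⟩
          · simp at h2
          · simp
        · intro h3
          have h3' : s = y := by simpa using h3
          subst h3'
          simp [hyx]
      rw [hT2] at hs
      have : h (insert x A') + h (insert x A') = 0 := by rw [← hs] at h1; rw [add_comm]; simpa [hs] using h1
      have h2 : (2 : ℂ) * h (insert x A') = 0 := by rw [two_mul]; exact this
      simpa using h2
    · -- three points outside
      have : 2 < (T \ A').card := by omega
      obtain ⟨z, hz1, hz2, hz3⟩ : ∃ z ∈ T \ A', z ≠ x ∧ z ≠ y := by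
        have hlt : ({x, y} : Finset S).card < (T \ A').card := by
          rw [card_pair hyx.symm]; exact this
        obtain ⟨z, hz, hzn⟩ := Finset.exists_mem_notMem_of_card_lt_card hlt
        simp only [mem_insert, mem_singleton, not_or] at hzn
        exact ⟨z, hz, hzn.1, hzn.2⟩
      have h2 := key x z hxc hz1 hz2.symm
      have h3 := key y z hy hz1 hz3.symm
      have : (2 : ℂ) * h (insert x A') = 0 := by
        linear_combination h1 + h2 - h3
      simpa using this

end Transversal

section Visible

variable {S : Type*} [Fintype S] [DecidableEq S]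

/-- Two columns of height `d`. -/
def rect2 (d : ℕ) : Finset (ℕ × ℕ) := (range d) ×ˢ (range 2)

lemma mem_rect2 {d : ℕ} {p : ℕ × ℕ} : p ∈ rect2 d ↔ p.1 < d ∧ p.2 < 2 := by
  simp [rect2]

/-- A word of content `(2^d)`. -/
def IsCont (d : ℕ) (u : S → ℕ) : Prop :=
  (∀ s, u s < d) ∧ ∀ a < d, (univ.filter fun s => u s = a).card = 2

/-- The first column of a tableau. -/
def col0 {d : ℕ} (t : ↥(rect2 d) ≃ S) : Finset S := univ.filter fun s => colOf t s = 0

lemma isPM_of_isCont {d : ℕ} {u : S → ℕ} (h : IsCont d u) : IsPM univ u :=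
  fun s _ => h.2 _ (h.1 s)

lemma colOf_lt {d : ℕ} (t : ↥(rect2 d) ≃ S) (s : S) : colOf t s < 2 :=
  (mem_rect2.mp (t.symm s).2).2

lemma rowOf_lt {d : ℕ} (t : ↥(rect2 d) ≃ S) (s : S) : rowOf t s < d :=
  (mem_rect2.mp (t.symm s).2).1

/-- The slot with given row and column. -/
def slot {d : ℕ} (t : ↥(rect2 d) ≃ S) (a j : ℕ) (ha : a < d) (hj : j < 2) : S :=
  t ⟨(a, j), mem_rect2.mpr ⟨ha, hj⟩⟩

@[simp] lemma rowOf_slot {d : ℕ} (t : ↥(rect2 d) ≃ S) (a j : ℕ) (ha : a < d) (hj : j < 2) :
    rowOf t (slot t a j ha hj) = a := by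
  simp [rowOf, slot]

@[simp] lemma colOf_slot {d : ℕ} (t : ↥(rect2 d) ≃ S) (a j : ℕ) (ha : a < d) (hj : j < 2) :
    colOf t (slot t a j ha hj) = j := by
  simp [colOf, slot]

/-- `u` is a translate of the row word by the column group. -/
def Good {d : ℕ} (t : ↥(rect2 d) ≃ S) (u : S → ℕ) : Prop :=
  ∃ σ ∈ stab (colOf t), u = rowOf t ∘ ⇑(σ⁻¹)

lemma poly_of_not_good {d : ℕ} {t : ↥(rect2 d) ≃ S} {u : S → ℕ} (h : ¬ Good t u) : poly t u = 0 := by
  simp only [poly]
  refine Finset.sum_eq_zero fun σ hσ => ?_
  rw [if_neg (fun q => h ⟨σ, hσ, q⟩), mul_zero]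

lemma poly_of_good {d : ℕ} {t : ↥(rect2 d) ≃ S} {σ : Perm S} (hσ : σ ∈ stab (colOf t)) :
    poly t (rowOf t ∘ ⇑(σ⁻¹)) = sgn σ := by
  simp only [poly]
  rw [Finset.sum_eq_single σ]
  · simp
  · intro τ hτ hne
    rw [if_neg, mul_zero]
    intro q
    apply hne
    have h1 : τ⁻¹ = σ⁻¹ := by
      ext s
      have hr : rowOf t (σ⁻¹ s) = rowOf t (τ⁻¹ s) := congrFun q s
      have hc : colOf t (σ⁻¹ s) = colOf t (τ⁻¹ s) := by
        rw [(mem_stab.mp (inv_mem_stab hσ)) s, (mem_stab.mp (inv_mem_stab hτ)) s]
      exact (rowOf_colOf_injective t (Prod.ext hr hc)).symm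
    exact inv_injective h1
  · intro h; exact absurd hσ h

lemma cross_of_good {d : ℕ} {t : ↥(rect2 d) ≃ S} {u : S → ℕ} (hu : IsCont d u) (h : Good t u) :
    Cross u univ (col0 t) := by
  obtain ⟨σ, hσ, rfl⟩ := h
  refine ⟨subset_univ _, ?_, ?_⟩
  · intro a ha b hb hab
    have ha' : colOf t a = 0 := (mem_filter.mp (mem_coe.mp ha)).2
    have hb' : colOf t b = 0 := (mem_filter.mp (mem_coe.mp hb)).2
    have hc : colOf t (σ⁻¹ a) = colOf t (σ⁻¹ b) := by
      rw [(mem_stab.mp (inv_mem_stab hσ)) a, (mem_stab.mp (inv_mem_stab hσ)) b, ha', hb']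
    have := rowOf_colOf_injective t (Prod.ext hab hc)
    exact (σ⁻¹).injective this
  · ext a
    simp only [mem_image, mem_univ, true_and]
    constructor
    · rintro ⟨s, _, hs⟩; exact ⟨s, hs⟩
    · rintro ⟨s, hs⟩
      have hlt : a < d := hs ▸ hu.1 s
      refine ⟨σ (slot t a 0 hlt (by norm_num)), ?_, ?_⟩
      · simp only [col0, mem_filter, mem_univ, true_and]
        rw [(mem_stab.mp hσ) _]
        simp
      · simp

lemma cross_compl {u : S → ℕ} (hPM : IsPM univ u) {A : Finset S} (hA : Cross u univ A) :
    Cross u univ Aᶜ := by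
  obtain ⟨-, h2, h3⟩ := hA
  have hex : ∀ s, ∃ a ∈ A, u a = u s := by
    intro s
    have : u s ∈ A.image u := by rw [h3]; exact mem_image_of_mem u (mem_univ s)
    obtain ⟨a, ha, hb⟩ := mem_image.mp this
    exact ⟨a, ha, hb⟩
  refine ⟨subset_univ _, ?_, ?_⟩
  · intro s hs s' hs' hss
    by_contra hne
    obtain ⟨a, ha, hau⟩ := hex s
    have hsn : s ∉ A := by simpa using hs
    have hsn' : s' ∉ A := by simpa using hs'
    have hc := hPM s (mem_univ s)
    have h3' : ({a, s, s'} : Finset S) ⊆ univ.filter fun t => u t = u s := by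
      intro z hz
      simp only [mem_insert, mem_singleton] at hz
      rcases hz with rfl | rfl | rfl
      · simp [hau]
      · simp
      · simp [hss]
    have hcard : ({a, s, s'} : Finset S).card = 3 := by
      rw [card_eq_three]
      exact ⟨a, s, s', fun q => hsn (q ▸ ha), fun q => hsn' (q ▸ ha), hne, rfl⟩
    have := card_le_card h3'
    omega
  · ext a
    simp only [mem_image, mem_univ, true_and]
    constructor
    · rintro ⟨s, _, hs⟩; exact ⟨s, hs⟩
    · rintro ⟨s, hs⟩
      by_cases hsA : s ∈ A
      · obtain ⟨s2, hs2, hne⟩ : ∃ s2 ∈ univ.filter (fun t => u t = u s), s2 ≠ s := by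
          have : 1 < (univ.filter fun t => u t = u s).card := by rw [hPM s (mem_univ s)]; omega
          exact exists_mem_ne this s
        have hs2' : u s2 = u s := (mem_filter.mp hs2).2
        refine ⟨s2, ?_, hs2'.trans hs⟩
        simp only [mem_compl]
        intro hq
        exact hne (h2 (mem_coe.mpr hq) (mem_coe.mpr hsA) hs2')
      · exact ⟨s, by simpa using hsA, hs⟩

lemma good_of_cross {d : ℕ} {t : ↥(rect2 d) ≃ S} {u : S → ℕ} (hu : IsCont d u)
    (h : Cross u univ (col0 t)) : Good t u := by
  have hc := cross_compl (isPM_of_isCont hu) h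
  let f : S → S := fun s => slot t (u s) (colOf t s) (hu.1 s) (colOf_lt t s)
  have hf : Function.Injective f := by
    intro s s' hss
    have h1 : u s = u s' := by
      have := congrArg (rowOf t) hss
      simpa [f] using this
    have h2 : colOf t s = colOf t s' := by
      have := congrArg (colOf t) hss
      simpa [f] using this
    by_cases h0 : colOf t s = 0
    · exact h.2.1 (mem_coe.mpr (by simp [col0, h0])) (mem_coe.mpr (by simp [col0, ← h2, h0])) h1
    · have hs : s ∉ col0 t := by simp [col0, h0]
      have hs' : s' ∉ col0 t := by simp only [col0, mem_filter, mem_univ, true_and, ← h2]; exact h0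
      exact hc.2.1 (mem_coe.mpr (by simpa using hs)) (mem_coe.mpr (by simpa using hs')) h1
  let g : Perm S := Equiv.ofBijective f (Finite.injective_iff_bijective.mp hf)
  have hg : ∀ s, g s = f s := fun _ => rfl
  refine ⟨g⁻¹, ?_, ?_⟩
  · apply inv_mem_stab
    rw [mem_stab]
    intro s
    rw [hg]
    simp [f]
  · rw [inv_inv]
    funext s
    simp only [Function.comp, hg, f, rowOf_slot]

/-- The column preserving permutation induced by a permutation of the letters. -/
lemma exists_letter_perm {d : ℕ} (t : ↥(rect2 d) ≃ S) (τ : ℕ → ℕ) (hτ : ∀ a < d, τ a < d)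
    (hτi : Set.InjOn τ (Set.Iio d)) :
    ∃ ρ : Perm S, ρ ∈ stab (colOf t) ∧ τ ∘ rowOf t = rowOf t ∘ ρ := by
  let f : S → S := fun s => slot t (τ (rowOf t s)) (colOf t s) (hτ _ (rowOf_lt t s)) (colOf_lt t s)
  have hf : Function.Injective f := by
    intro s s' hss
    have h1 : τ (rowOf t s) = τ (rowOf t s') := by
      have := congrArg (rowOf t) hss
      simpa [f] using this
    have h2 : colOf t s = colOf t s' := by
      have := congrArg (colOf t) hss
      simpa [f] using this
    have h3 : rowOf t s = rowOf t s' := hτi (rowOf_lt t s) (rowOf_lt t s') h1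
    exact rowOf_colOf_injective t (Prod.ext h3 h2)
  let g : Perm S := Equiv.ofBijective f (Finite.injective_iff_bijective.mp hf)
  have hg : ∀ s, g s = f s := fun _ => rfl
  refine ⟨g, ?_, ?_⟩
  · rw [mem_stab]
    intro s
    rw [hg]
    simp [f]
  · funext s
    simp only [Function.comp, hg, f, rowOf_slot]

/-- On the double table, the square of a polytabloid is, up to a global sign, the indicator of
crossing the matching. -/
lemma prod2_double {d : ℕ} (t : ↥(rect2 d) ≃ S) (τ : ℕ → ℕ) {ρ : Perm S}
    (hρ : ρ ∈ stab (colOf t)) (hρ2 : τ ∘ rowOf t = rowOf t ∘ ρ) {u : S → ℕ} (hu : IsCont d u)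
    [Decidable (Cross u univ (col0 t))] :
    prod2 t t u (τ ∘ u) = sgn ρ * if Cross u univ (col0 t) then 1 else 0 := by
  by_cases h : Cross u univ (col0 t)
  · obtain ⟨σ, hσ, rfl⟩ := good_of_cross hu h
    have h1 : τ ∘ (rowOf t ∘ ⇑(σ⁻¹)) = rowOf t ∘ ⇑((σ * ρ⁻¹)⁻¹) := by
      funext s
      have := congrFun hρ2 (σ⁻¹ s)
      simpa [mul_inv_rev, Function.comp] using this
    have h2 : σ * ρ⁻¹ ∈ stab (colOf t) := mul_mem_stab hσ (inv_mem_stab hρ)
    simp only [prod2]
    rw [h1, poly_of_good hσ, poly_of_good h2, if_pos h, sgn_mul, sgn_inv]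
    linear_combination (sgn ρ) * sgn_mul_self σ
  · have : ¬ Good t u := fun q => h (cross_of_good hu q)
    simp only [prod2]
    rw [poly_of_not_good this, if_neg h]
    ring

lemma isCont_comp {d : ℕ} {u : S → ℕ} (hu : IsCont d u) (g : Perm S) : IsCont d (u ∘ g) := by
  refine ⟨fun s => hu.1 _, fun a ha => ?_⟩
  rw [← hu.2 a ha]
  apply Finset.card_bij (fun s _ => g s)
  · intro s hs
    simpa using hs
  · intro s _ s' _ hss
    exact g.injective hss
  · intro s hs
    exact ⟨g⁻¹ s, by simpa using hs, by simp⟩

lemma cross_comp {u : S → ℕ} (g : Perm S) (A : Finset S) :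
    Cross (u ∘ g) univ A ↔ Cross u univ (A.image g) := by
  have h1 : (univ : Finset S).image (u ∘ g) = univ.image u := by
    ext a
    simp only [mem_image, mem_univ, true_and, Function.comp]
    constructor
    · rintro ⟨s, hs⟩; exact ⟨_, hs⟩
    · rintro ⟨s, hs⟩; exact ⟨g⁻¹ s, by simpa using hs⟩
  have h2 : A.image (u ∘ g) = (A.image g).image u := by
    rw [image_image]
  constructor
  · rintro ⟨-, h3, h4⟩
    refine ⟨subset_univ _, ?_, ?_⟩
    · intro a ha b hb hab
      simp only [coe_image, Set.mem_image, mem_coe] at ha hb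
      obtain ⟨a', ha', rfl⟩ := ha
      obtain ⟨b', hb', rfl⟩ := hb
      rw [h3 (mem_coe.mpr ha') (mem_coe.mpr hb') hab]
    · rw [← h2, h4, h1]
  · rintro ⟨-, h3, h4⟩
    refine ⟨subset_univ _, ?_, ?_⟩
    · intro a ha b hb hab
      have := h3 (mem_coe.mpr (mem_image_of_mem g (mem_coe.mp ha)))
        (mem_coe.mpr (mem_image_of_mem g (mem_coe.mp hb))) hab
      exact g.injective this
    · rw [h2, h4, h1]

lemma cross_relabel {u : S → ℕ} {φ : ℕ → ℕ} (hφ : Set.InjOn φ (Set.range u)) (A : Finset S) :
    Cross (φ ∘ u) univ A ↔ Cross u univ A := by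
  constructor
  · rintro ⟨-, h3, h4⟩
    refine ⟨subset_univ _, ?_, ?_⟩
    · intro a ha b hb hab
      exact h3 ha hb (congrArg φ hab)
    · ext x
      simp only [mem_image, mem_univ, true_and]
      constructor
      · rintro ⟨s, _, hs⟩; exact ⟨s, hs⟩
      · rintro ⟨s, rfl⟩
        have : φ (u s) ∈ A.image (φ ∘ u) := by
          rw [h4]; exact mem_image.mpr ⟨s, mem_univ _, rfl⟩
        obtain ⟨a, ha, hau⟩ := mem_image.mp this
        exact ⟨a, ha, hφ ⟨a, rfl⟩ ⟨s, rfl⟩ hau⟩
  · rintro ⟨-, h3, h4⟩
    refine ⟨subset_univ _, ?_, ?_⟩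
    · intro a ha b hb hab
      exact h3 ha hb (hφ ⟨a, rfl⟩ ⟨b, rfl⟩ hab)
    · rw [← image_image (f := u) (g := φ), ← image_image (f := u) (g := φ), h4]

lemma card_eq_of_rect2 {d : ℕ} (t : ↥(rect2 d) ≃ S) : Fintype.card S = 2 * d := by
  rw [← Fintype.card_congr t]
  simp [rect2, Nat.mul_comm]

/-- Relabel a perfect matching word to the standard alphabet. -/
lemma exists_relabel {d : ℕ} (hS : Fintype.card S = 2 * d) {u : S → ℕ} (hu : IsPM univ u) :
    ∃ φ : ℕ → ℕ, Set.InjOn φ (Set.range u) ∧ IsCont d (φ ∘ u) := by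
  classical
  set L := (univ : Finset S).image u with hL
  have hcard : Fintype.card S = ∑ a ∈ L, (univ.filter fun s => u s = a).card := by
    rw [← Finset.card_univ]
    exact Finset.card_eq_sum_card_image u univ
  have h2 : ∀ a ∈ L, (univ.filter fun s => u s = a).card = 2 := by
    intro a ha
    obtain ⟨s, -, rfl⟩ := mem_image.mp ha
    exact hu s (mem_univ s)
  rw [Finset.sum_congr rfl h2, Finset.sum_const, smul_eq_mul] at hcard
  have hLc : L.card = d := by omega
  let e : ↥L ≃ Fin d := L.equivFinOfCardEq hLc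
  let φ : ℕ → ℕ := fun a => if h : a ∈ L then (e ⟨a, h⟩ : ℕ) else 0
  have hφ : ∀ s, φ (u s) = e ⟨u s, mem_image_of_mem u (mem_univ s)⟩ := by
    intro s
    have h : u s ∈ L := mem_image_of_mem u (mem_univ s)
    simp only [φ, dif_pos h]
  refine ⟨φ, ?_, ?_, ?_⟩
  · rintro _ ⟨s, rfl⟩ _ ⟨s', rfl⟩ hss
    rw [hφ, hφ] at hss
    have := e.injective (Fin.ext hss)
    exact congrArg Subtype.val this
  · intro s
    show φ (u s) < d
    rw [hφ]
    exact (e _).2
  · intro a ha
    obtain ⟨x, hx⟩ := e.surjective ⟨a, ha⟩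
    have hxL := x.2
    obtain ⟨s, -, hs⟩ := mem_image.mp hxL
    rw [← h2 x.1 hxL]
    congr 1
    ext s'
    simp only [mem_filter, mem_univ, true_and, Function.comp]
    rw [hφ]
    constructor
    · intro h
      have h3 : (e ⟨u s', mem_image_of_mem u (mem_univ s')⟩) = e x := by
        apply Fin.ext
        rw [h, hx]
      have := e.injective h3
      exact congrArg Subtype.val this
    · intro h
      have h3 : (⟨u s', mem_image_of_mem u (mem_univ s')⟩ : ↥L) = x := Subtype.ext h
      rw [h3, hx]

lemma col0_ne_compl {d : ℕ} (hd : 0 < d) (t : ↥(rect2 d) ≃ S) : col0 t ≠ (col0 t)ᶜ := by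
  intro h
  have hne : Nonempty S := by
    rw [← Fintype.card_pos_iff, card_eq_of_rect2 t]; omega
  obtain ⟨s⟩ := hne
  by_cases hs : s ∈ col0 t
  · have := hs
    rw [h] at this
    exact (mem_compl.mp this) hs
  · apply hs
    rw [h]
    exact mem_compl.mpr hs

lemma card_col0 {d : ℕ} (t : ↥(rect2 d) ≃ S) : (col0 t).card = d := by
  have h : col0 t = (range d).attach.image (fun a => slot t a.1 0 (mem_range.mp a.2) (by norm_num)) := by
    ext s
    simp only [col0, mem_filter, mem_univ, true_and, mem_image, mem_attach, Subtype.exists]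
    constructor
    · intro hs
      refine ⟨rowOf t s, mem_range.mpr (rowOf_lt t s), ?_⟩
      apply rowOf_colOf_injective t
      simp [hs]
    · rintro ⟨a, ha, rfl⟩
      simp
  rw [h, card_image_of_injective]
  · simp
  · intro a a' haa
    have := congrArg (rowOf t) haa
    simp only [rowOf_slot] at this
    exact Subtype.ext this

/-- **Visibility on the double table.** If the `b`-combination of the translates of the square of
a polytabloid of `(2^d)` vanishes on the double table, then so does the sum of `b` on the stabilizer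
of the bipartition. -/
theorem eblock_visible {d : ℕ} (hd : 0 < d) (t : ↥(rect2 d) ≃ S) (τ : ℕ → ℕ)
    (hτ : ∀ a < d, τ a < d) (hτi : Set.InjOn τ (Set.Iio d)) (b : Perm S → ℂ)
    (hb : ∀ u, IsCont d u → ∑ g, b g * prod2 t t (u ∘ g) ((τ ∘ u) ∘ g) = 0) :
    ∑ g ∈ univ.filter (fun g : Perm S =>
      (col0 t).image g = col0 t ∨ (col0 t).image g = (col0 t)ᶜ), b g = 0 := by
  classical
  obtain ⟨ρ, hρ, hρ2⟩ := exists_letter_perm t τ hτ hτi
  set A0 := col0 t with hA0
  have hsgn : sgn ρ ≠ 0 := by
    intro h0
    have := sgn_mul_self ρ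
    rw [h0] at this
    simp at this
  have hS := card_eq_of_rect2 t
  -- the indicator form
  have h1 : ∀ u, IsCont d u →
      ∑ g : Perm S, b g * (if Cross u univ (A0.image g) then (1 : ℂ) else 0) = 0 := by
    intro u hu
    have := hb u hu
    have h2 : ∀ g : Perm S, b g * prod2 t t (u ∘ g) ((τ ∘ u) ∘ g) =
        sgn ρ * (b g * (if Cross u univ (A0.image g) then (1 : ℂ) else 0)) := by
      intro g
      have h3 := prod2_double t τ hρ hρ2 (isCont_comp hu g)
      have h4 : (τ ∘ u) ∘ g = τ ∘ (u ∘ g) := rfl
      rw [h4, h3]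
      simp only [cross_comp, ← hA0]
      ring
    rw [Finset.sum_congr rfl fun g _ => h2 g, ← Finset.mul_sum] at this
    exact (mul_eq_zero.mp this).resolve_left hsgn
  -- fibres
  let B : Finset S → ℂ := fun A => ∑ g ∈ univ.filter (fun g : Perm S => A0.image g = A), b g
  have h2 : ∀ u, IsCont d u → ∑ A ∈ (univ : Finset S).powerset.filter (Cross u univ), B A = 0 := by
    intro u hu
    rw [← h1 u hu]
    have hB : ∀ A, B A = ∑ g : Perm S, if A0.image g = A then b g else 0 :=
      fun A => Finset.sum_filter _ _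
    simp only [hB]
    rw [Finset.sum_comm]
    apply Finset.sum_congr rfl
    intro g _
    rw [Finset.sum_ite_eq]
    simp only [mem_filter, powerset_univ, mem_univ, true_and]
    split_ifs <;> simp
  let h : Finset S → ℂ := fun A => B A + B Aᶜ
  have h3 : ∀ u, IsPM univ u → crossSum u univ h = 0 := by
    intro u hu
    obtain ⟨φ, hφ, hφu⟩ := exists_relabel hS hu
    have hPM := isPM_of_isCont hφu
    have h4 := h2 _ hφu
    have h5 : ∑ A ∈ (univ : Finset S).powerset.filter (Cross (φ ∘ u) univ), B Aᶜ = 0 := by
      rw [← h4]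
      apply Finset.sum_nbij' (fun A => Aᶜ) (fun A => Aᶜ)
      · intro A hA
        simp only [mem_filter, powerset_univ, mem_univ, true_and] at hA ⊢
        exact cross_compl hPM hA
      · intro A hA
        simp only [mem_filter, powerset_univ, mem_univ, true_and] at hA ⊢
        exact cross_compl hPM hA
      · intro A _; simp
      · intro A _; simp
      · intro A _; rfl
    have h6 : crossSum u univ h = crossSum (φ ∘ u) univ h := by
      simp only [crossSum]
      apply Finset.sum_congr _ (fun _ _ => rfl)
      ext A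
      simp only [mem_filter, cross_relabel hφ]
    rw [h6]
    simp only [crossSum, h]
    rw [Finset.sum_add_distrib]
    have h7 : ∀ A, (Classical.propDecidable (Cross (φ ∘ u) univ A)) =
        (Classical.propDecidable (Cross (φ ∘ u) univ A)) := fun _ => rfl
    convert congrArg₂ (· + ·) h4 h5 using 1
    simp
  have h4 : h A0 = 0 := by
    apply transversal d univ (by rw [card_univ, hS]) h
    · intro A _ _
      simp only [h]
      rw [← compl_eq_univ_sdiff, compl_compl, add_comm]
    · exact h3
    · exact subset_univ _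
    · exact card_col0 t
  have hne := col0_ne_compl hd t
  rw [← hA0] at hne
  have h5 : (univ.filter fun g : Perm S => A0.image g = A0 ∨ A0.image g = A0ᶜ) =
      (univ.filter fun g : Perm S => A0.image g = A0) ∪
      (univ.filter fun g : Perm S => A0.image g = A0ᶜ) := by
    ext g
    simp
  rw [h5, Finset.sum_union]
  · exact h4
  · rw [Finset.disjoint_left]
    intro g hg hg2
    simp only [mem_filter, mem_univ, true_and] at hg hg2
    exact hne (hg.symm.trans hg2)

end Visible

end Crest.Agent.Saxl.EBlock
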