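import Crest.Agent.Lib.Saxl.Labels

/-!
# Vectors fixed by `Stab(c) ⋊ (label swaps)` (row 195, S0298)

Abstract Young step: if `K` is a subgroup such that every `κ β ∈ Row` with `κ ∈ K`, `β ∈ Col` has
`β` even, then an irreducible representation with label the shape has a nonzero `K`-fixed vector.

Filling form: `c` strictly increasing down the columns, `E` a set of lower labels of pairs
`(x, x + 1)`; then all the signs are `(-1) ^ (∑ rows of the cells of the pair)`.
-/

set_option autoImplicit false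

open Finset Equiv

namespace Crest.Agent.Saxl.EFix

variable {S : Type*} [Fintype S] [DecidableEq S]
variable {V : Type*} [AddCommGroup V] [Module ℂ V]

lemma gact_fixed {G : Type*} [Group G] [Fintype G] {W : Type*} [AddCommGroup W] [Module ℂ W]
    (σ : Representation ℂ G W) (e : G → ℂ) (w : W) {κ : G} (h : ∀ g, e (κ * g) = e g) :
    σ κ (gact σ e w) = gact σ e w := by
  rw [gact_apply, map_sum]
  refine Fintype.sum_equiv (Equiv.mulLeft κ) _ _ fun g => ?_
  simp only [map_smul, Equiv.coe_mulLeft, h, ← Module.End.mul_apply, ← map_mul]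

/-- **Abstract Young step.** -/
theorem exists_fix_of_sign {μ : YoungDiagram} (T : Tab μ S) (K : Subgroup (Perm S))
    (hsign : ∀ κ ∈ K, ∀ β ∈ stab (colC T), κ * β ∈ stab (rowC T) → sgn β = 1)
    [FiniteDimensional ℂ V] {ρ : Representation ℂ (Perm S) V} (hρ : ρ.IsIrreducible)
    (hlab : Label ρ μ) : ∃ v, v ≠ 0 ∧ ∀ κ ∈ K, ρ κ v = v := by
  classical
  set r := rowC T with hr
  set q := colC T with hq
  let e : Perm S → ℂ := fun g => if g ∈ K then 1 else 0
  have he : ∀ κ ∈ K, ∀ g, e (κ * g) = e g := by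
    intro κ hκ g
    simp only [e]
    by_cases hg : g ∈ K
    · simp [hg, K.mul_mem hκ hg]
    · have : κ * g ∉ K := fun h => hg (by simpa using K.mul_mem (K.inv_mem hκ) h)
      simp [hg, this]
  set b := conv (symB q) (symE r) with hb
  set a := conv e b with ha
  have ha1 : a 1 ≠ 0 := by
    have h1 : a 1 = ∑ p : Perm S × Perm S,
        (if p.1 ∈ K ∧ p.2 ∈ stab q ∧ p.1 * p.2 ∈ stab r then (1 : ℂ) else 0) := by
      rw [Fintype.sum_prod_type]
      simp only [ha, hb, conv, mul_one, Finset.mul_sum]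
      refine sum_congr rfl fun h _ => sum_congr rfl fun β _ => ?_
      simp only [e, symB, symE]
      by_cases h1 : h ∈ K
      · by_cases h2 : β ∈ stab q
        · by_cases h3 : h * β ∈ stab r
          · have h4 : β⁻¹ * h⁻¹ ∈ stab r := by
              have := inv_mem_stab h3
              simpa [mul_inv_rev] using this
            simp [h1, h2, h3, h4, hsign h h1 β h2 h3]
          · have h4 : β⁻¹ * h⁻¹ ∉ stab r := fun q => h3 (by simpa using inv_mem_stab q)
            simp [h1, h2, h3, h4]
        · simp [h1, h2]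
      · simp [h1]
    rw [h1, Finset.sum_boole]
    have : (univ.filter fun p : Perm S × Perm S =>
        p.1 ∈ K ∧ p.2 ∈ stab q ∧ p.1 * p.2 ∈ stab r).Nonempty :=
      ⟨(1, 1), by simp [K.one_mem]⟩
    exact_mod_cast this.card_pos.ne'
  have hv : ∃ v, gact (regRep (Perm S)) a v ≠ 0 := by
    refine ⟨Pi.single 1 1, ?_⟩
    rw [gact_reg_single]
    intro h
    exact ha1 (congrFun h 1)
  obtain ⟨p, hp, v, hvp, hv⟩ := exists_irreducible_gact_ne_zero _ a hv
  rw [ha, gact_conv, hb, gact_conv] at hv
  have hw0 := gact_mem p (symE r) hvp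
  have hw1 := gact_mem p (symB q) hw0
  have hw2 := gact_mem p e hw1
  have hlabp : Label p.toRepresentation μ := by
    refine ⟨T, ⟨⟨_, hw0⟩, ?_, ?_⟩, ⟨⟨_, hw1⟩, ?_, ?_⟩⟩
    · intro h
      apply hv
      have h0 : gact (regRep (Perm S)) (symE r) v = 0 := congrArg Subtype.val h
      rw [h0, map_zero, map_zero]
    · intro g hg
      exact Subtype.ext (gact_symE_fixed (regRep (Perm S)) r _ hg)
    · intro h
      apply hv
      have h0 : gact (regRep (Perm S)) (symB q) (gact (regRep (Perm S)) (symE r) v) = 0 :=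
        congrArg Subtype.val h
      rw [h0, map_zero]
    · intro g hg
      exact Subtype.ext (gact_symB_alt (regRep (Perm S)) q _ hg)
  obtain ⟨φ⟩ := equiv_of_label hp hρ hlabp hlab
  let x2 : p.toSubmodule := ⟨_, hw2⟩
  have hx2 : x2 ≠ 0 := by
    intro h
    exact hv (congrArg Subtype.val h)
  refine ⟨φ x2, by simpa using hx2, fun κ hκ => ?_⟩
  have h1 := Representation.IntertwiningMap.isIntertwining _ _ φ.toIntertwiningMap κ x2
  have h2 : p.toRepresentation κ x2 = x2 :=
    Subtype.ext (gact_fixed (regRep (Perm S)) e _ (he κ hκ))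
  rw [h2] at h1
  exact h1.symm

section Upset

variable {S' : Type*} [DecidableEq S']

lemma sum_le_of_sep (r : S' → ℕ) {A B : Finset S'} (hc : A.card = B.card)
    (hsep : ∀ a ∈ A, a ∉ B → ∀ b ∈ B, b ∉ A → r a < r b) :
    ∑ s ∈ A, r s ≤ ∑ s ∈ B, r s ∧ (∑ s ∈ A, r s = ∑ s ∈ B, r s → A = B) := by
  have h1 := Finset.sum_inter_add_sum_sdiff A B r
  have h2 := Finset.sum_inter_add_sum_sdiff B A r
  rw [inter_comm] at h2
  have hk : (A \ B).card = (B \ A).card := card_sdiff_comm hc
  by_cases hemp : A \ B = ∅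
  · have hemp2 : B \ A = ∅ := by
      rw [← card_eq_zero, ← hk, hemp, card_empty]
    have hAB : A = B := by
      apply Finset.Subset.antisymm
      · exact sdiff_eq_empty_iff_subset.mp hemp
      · exact sdiff_eq_empty_iff_subset.mp hemp2
    subst hAB
    exact ⟨le_rfl, fun _ => rfl⟩
  · have hne : (A \ B).Nonempty := nonempty_iff_ne_empty.mpr hemp
    obtain ⟨a0, ha0, hmax⟩ := Finset.exists_max_image (A \ B) r hne
    have h3 : ∑ s ∈ A \ B, r s ≤ (A \ B).card • r a0 :=
      Finset.sum_le_card_nsmul _ _ _ hmax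
    have h4 : (B \ A).card • (r a0 + 1) ≤ ∑ s ∈ B \ A, r s := by
      apply Finset.card_nsmul_le_sum
      intro b hb
      have hb' := mem_sdiff.mp hb
      have ha0' := mem_sdiff.mp ha0
      exact hsep a0 ha0'.1 ha0'.2 b hb'.1 hb'.2
    have hpos : 0 < (B \ A).card := by
      rw [← hk]; exact card_pos.mpr hne
    rw [hk] at h3
    simp only [smul_eq_mul] at h3 h4
    have h5 : ∑ s ∈ A \ B, r s < ∑ s ∈ B \ A, r s := by
      have : (B \ A).card * (r a0 + 1) = (B \ A).card * r a0 + (B \ A).card := by ring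
      omega
    constructor
    · omega
    · intro h; omega

/-- A set which is an initial segment in each column has the smallest sum of rows among the sets
with the same number of elements in each column. -/
lemma eq_of_upset (r q : S' → ℕ) (hinj : ∀ s s', q s = q s' → r s = r s' → s = s')
    {A B : Finset S'}
    (hcol : ∀ j, (A.filter fun s => q s = j).card = (B.filter fun s => q s = j).card)
    (hup : ∀ s ∈ A, ∀ s', q s' = q s → r s' < r s → s' ∈ A)
    (hsum : ∑ s ∈ A, r s = ∑ s ∈ B, r s) : A = B := by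
  have hcolle : ∀ j, ∑ s ∈ A.filter (fun s => q s = j), r s ≤ ∑ s ∈ B.filter (fun s => q s = j), r s ∧
      (∑ s ∈ A.filter (fun s => q s = j), r s = ∑ s ∈ B.filter (fun s => q s = j), r s →
        A.filter (fun s => q s = j) = B.filter (fun s => q s = j)) := by
    intro j
    apply sum_le_of_sep r (hcol j)
    intro a ha han b hb hbn
    have ha' := mem_filter.mp ha
    have hb' := mem_filter.mp hb
    by_contra hlt
    rcases Nat.lt_or_eq_of_le (not_lt.mp hlt) with h | h
    · exact hbn (mem_filter.mpr ⟨hup a ha'.1 b (hb'.2.trans ha'.2.symm) h, hb'.2⟩)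
    · have := hinj b a (hb'.2.trans ha'.2.symm) h
      subst this
      exact hbn ha
  set I := (A ∪ B).image q with hI
  have h1 : ∑ j ∈ I, ∑ s ∈ A.filter (fun s => q s = j), r s = ∑ s ∈ A, r s :=
    Finset.sum_fiberwise_of_maps_to
      (fun s hs => mem_image_of_mem q (mem_union_left _ hs)) _
  have h2 : ∑ j ∈ I, ∑ s ∈ B.filter (fun s => q s = j), r s = ∑ s ∈ B, r s :=
    Finset.sum_fiberwise_of_maps_to
      (fun s hs => mem_image_of_mem q (mem_union_right _ hs)) _
  have h3 := (Finset.sum_eq_sum_iff_of_le (fun j _ => (hcolle j).1)).mp (by rw [h1, h2, hsum])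
  ext s
  constructor
  · intro hs
    have hj : q s ∈ I := mem_image_of_mem q (mem_union_left _ hs)
    have h4 := (hcolle (q s)).2 (h3 _ hj)
    have h5 : s ∈ A.filter (fun s' => q s' = q s) := mem_filter.mpr ⟨hs, rfl⟩
    rw [h4] at h5
    exact (mem_filter.mp h5).1
  · intro hs
    have hj : q s ∈ I := mem_image_of_mem q (mem_union_right _ hs)
    have h4 := (hcolle (q s)).2 (h3 _ hj)
    have h5 : s ∈ B.filter (fun s' => q s' = q s) := mem_filter.mpr ⟨hs, rfl⟩
    rw [← h4] at h5
    exact (mem_filter.mp h5).1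

end Upset

section Labels'

/-- Label permutations swapping some of the pairs `(x, x + 1)`, `x ∈ E`. -/
def IsSwap (E : Finset ℕ) (π : ℕ → ℕ) : Prop :=
  (∀ y, y ∉ E → (∀ x ∈ E, y ≠ x + 1) → π y = y) ∧
    ∀ x ∈ E, (π x = x ∧ π (x + 1) = x + 1) ∨ (π x = x + 1 ∧ π (x + 1) = x)

lemma IsSwap.invol {E : Finset ℕ} {π : ℕ → ℕ} (h : IsSwap E π) (y : ℕ) : π (π y) = y := by
  by_cases h1 : y ∈ E
  · rcases h.2 y h1 with ⟨h2, _⟩ | ⟨h2, h3⟩
    · rw [h2, h2]
    · rw [h2, h3]
  · by_cases h2 : ∃ x ∈ E, y = x + 1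
    · obtain ⟨x, hx, rfl⟩ := h2
      rcases h.2 x hx with ⟨_, h3⟩ | ⟨h3, h4⟩
      · rw [h3, h3]
      · rw [h4, h3]
    · push Not at h2
      rw [h.1 y h1 h2, h.1 y h1 h2]

/-- The merged label. -/
def mg (E : Finset ℕ) (y : ℕ) : ℕ := if ∃ x ∈ E, y = x + 1 then y - 1 else y

lemma mg_le (E : Finset ℕ) (y : ℕ) : mg E y ≤ y := by
  unfold mg; split_ifs <;> omega

lemma mg_mono (E : Finset ℕ) {y y' : ℕ} (h : y ≤ y') : mg E y ≤ mg E y' := by
  rcases Nat.lt_or_eq_of_le h with h | rfl
  · unfold mg
    split_ifs <;> omega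
  · exact le_rfl

lemma mg_eq_of_lt {E : Finset ℕ} {y y' : ℕ} (h : y < y') (he : mg E y = mg E y') :
    y ∈ E ∧ y' = y + 1 := by
  unfold mg at he
  split_ifs at he with h1 h2 h2
  · obtain ⟨x, hx, rfl⟩ := h1
    obtain ⟨x', hx', rfl⟩ := h2
    omega
  · omega
  · obtain ⟨x, hx, rfl⟩ := h2
    have : y = x := by omega
    subst this
    exact ⟨hx, rfl⟩
  · omega

lemma mg_of_mem {E : Finset ℕ} (hE : ∀ x ∈ E, x + 1 ∉ E) {x : ℕ} (hx : x ∈ E) : mg E x = x := by
  unfold mg
  rw [if_neg]
  rintro ⟨x', hx', rfl⟩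
  exact hE x' hx' hx

lemma mg_succ {E : Finset ℕ} {x : ℕ} (hx : x ∈ E) : mg E (x + 1) = x := by
  unfold mg
  rw [if_pos ⟨x, hx, rfl⟩]
  rfl

/-- The pairs swapped by `π`. -/
def swapped (E : Finset ℕ) (π : ℕ → ℕ) : Finset ℕ := E.filter fun x => π x = x + 1

lemma mg_swap {E : Finset ℕ} (hE : ∀ x ∈ E, x + 1 ∉ E) {π : ℕ → ℕ} (h : IsSwap E π) (y : ℕ) :
    mg (swapped E π) (π y) = mg (swapped E π) y := by
  have hE' : ∀ x ∈ swapped E π, x + 1 ∉ swapped E π := fun x hx hn =>
    hE x (mem_filter.mp hx).1 (mem_filter.mp hn).1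
  by_cases h1 : y ∈ E
  · rcases h.2 y h1 with ⟨h2, _⟩ | ⟨h2, _⟩
    · rw [h2]
    · have hy : y ∈ swapped E π := mem_filter.mpr ⟨h1, h2⟩
      rw [h2, mg_succ hy, mg_of_mem hE' hy]
  · by_cases h2 : ∃ x ∈ E, y = x + 1
    · obtain ⟨x, hx, rfl⟩ := h2
      rcases h.2 x hx with ⟨_, h3⟩ | ⟨h3, h4⟩
      · rw [h3]
      · have hy : x ∈ swapped E π := mem_filter.mpr ⟨hx, h3⟩
        rw [h4, mg_succ hy, mg_of_mem hE' hy]
    · push Not at h2
      rw [h.1 y h1 h2]

end Labels'

section Filling

/-- `κ` permutes the labels by a swap of pairs. -/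
def Adm (c : S → ℕ) (E : Finset ℕ) (κ : Perm S) : Prop :=
  ∃ π, IsSwap E π ∧ ∀ s, c (κ s) = π (c s)

omit [Fintype S] [DecidableEq S] in
lemma exists_cell_above {μ : YoungDiagram} (T : Tab μ S) (s : S) {i : ℕ} (hi : i ≤ rowC T s) :
    ∃ z, rowC T z = i ∧ colC T z = colC T s := by
  have hm : ((rowC T s, colC T s) : ℕ × ℕ) ∈ μ := (T.symm s).2
  have hm' : ((i, colC T s) : ℕ × ℕ) ∈ μ := μ.up_left_mem hi le_rfl hm
  refine ⟨T ⟨(i, colC T s), hm'⟩, ?_, ?_⟩ <;> simp [rowC, colC]

/-- **The sign lemma.** If the labels strictly increase down the columns, every even-parity pair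
contributes only even permutations. -/
theorem sgn_eq_one {μ : YoungDiagram} (T : Tab μ S) {c : S → ℕ} {E : Finset ℕ}
    (hE : ∀ x ∈ E, x + 1 ∉ E)
    (hcs : ∀ s s', colC T s = colC T s' → rowC T s < rowC T s' → c s < c s')
    (hpar : ∀ x ∈ E, Even (∑ s ∈ univ.filter (fun s => c s = x ∨ c s = x + 1), rowC T s))
    {κ β : Perm S} (hκ : Adm c E κ) (hβ : β ∈ stab (colC T)) (hκβ : κ * β ∈ stab (rowC T)) :
    sgn β = 1 := by
  classical
  obtain ⟨π, hπ, hκπ⟩ := hκ
  set r := rowC T with hr
  set q := colC T with hq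
  have hinj : ∀ s s', q s = q s' → r s = r s' → s = s' := fun s s' h1 h2 =>
    rowC_colC_injective T (Prod.ext h2 h1)
  have hqβ : ∀ s, q (β s) = q s := mem_stab.mp hβ
  -- the basic identity
  have hsum : ∀ F : ℕ → ℕ → ℕ, ∑ s, F (r s) (c s) = ∑ s, F (r s) (π (c (β s))) := by
    intro F
    rw [← Equiv.sum_comp (κ * β) (fun s => F (r s) (c s))]
    refine sum_congr rfl fun s _ => ?_
    rw [mem_stab.mp hκβ s, Perm.mul_apply, hκπ]
  set E' := swapped E π with hE'def
  have hE' : ∀ x ∈ E', x + 1 ∉ E' := fun x hx hn =>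
    hE x (mem_filter.mp hx).1 (mem_filter.mp hn).1
  set m : ℕ → ℕ := mg E' with hm
  have hmπ : ∀ y, m (π y) = m y := mg_swap hE hπ
  -- the merged labels are preserved
  have hA : ∀ t, univ.filter (fun s => m (c s) ≤ t) = univ.filter (fun s => m (c (β s)) ≤ t) := by
    intro t
    apply eq_of_upset r q hinj
    · intro j
      symm
      apply Finset.card_bij (fun s _ => β s)
      · intro s hs
        simp only [mem_filter, mem_univ, true_and] at hs ⊢
        exact ⟨hs.1, (hqβ s).trans hs.2⟩
      · intro s _ s' _ h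
        exact β.injective h
      · intro s hs
        simp only [mem_filter, mem_univ, true_and] at hs
        refine ⟨β⁻¹ s, ?_, by simp⟩
        simp only [mem_filter, mem_univ, true_and]
        have h1 : q (β⁻¹ s) = q s := by
          have := hqβ (β⁻¹ s)
          simpa using this.symm
        exact ⟨by simpa using hs.1, h1.trans hs.2⟩
    · intro s hs s' hq' hr'
      simp only [mem_filter, mem_univ, true_and] at hs ⊢
      exact (mg_mono E' (hcs s' s hq' hr').le).trans hs
    · have := hsum (fun i y => if m y ≤ t then i else 0)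
      simp only [hmπ] at this
      rw [Finset.sum_filter, Finset.sum_filter]
      exact this
  have hmβ : ∀ s, m (c (β s)) = m (c s) := by
    intro s
    apply le_antisymm
    · have h1 : s ∈ univ.filter (fun s' => m (c s') ≤ m (c s)) := by simp
      rw [hA (m (c s))] at h1
      exact (mem_filter.mp h1).2
    · have h1 : s ∈ univ.filter (fun s' => m (c (β s')) ≤ m (c (β s))) := by simp
      rw [← hA (m (c (β s)))] at h1
      exact (mem_filter.mp h1).2
  -- two cells with the same label in a column coincide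
  have hF3 : ∀ s s', q s = q s' → c s = c s' → s = s' := by
    intro s s' h1 h2
    by_contra hne
    have h3 : r s ≠ r s' := fun h => hne (hinj s s' h1 h)
    rcases Nat.lt_or_gt_of_ne h3 with h | h
    · have := hcs s s' h1 h; omega
    · have := hcs s' s h1.symm h; omega
  -- cells with the same merged label in a column
  have hpair : ∀ s s', q s = q s' → m (c s) = m (c s') → r s < r s' →
      c s ∈ E' ∧ c s' = c s + 1 ∧ r s' = r s + 1 := by
    intro s s' h1 h2 h3
    have h4 := hcs s s' h1 h3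
    obtain ⟨h5, h6⟩ := mg_eq_of_lt h4 h2
    refine ⟨h5, h6, ?_⟩
    by_contra hne
    obtain ⟨z, hz1, hz2⟩ : ∃ z, r z = r s + 1 ∧ q z = q s' :=
      exists_cell_above T s' (i := r s + 1) (by show r s + 1 ≤ r s'; omega)
    have h7 := hcs s z (h1.trans hz2.symm) (by show r s < r z; rw [hz1]; omega)
    have h8 := hcs z s' hz2 (by show r z < r s'; rw [hz1]; omega)
    omega
  have hpair' : ∀ s s', q s = q s' → m (c s) = m (c s') → s ≠ s' →
      (c s ∈ E' ∧ c s' = c s + 1) ∨ (c s' ∈ E' ∧ c s = c s' + 1) := by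
    intro s s' h1 h2 h3
    have h4 : r s ≠ r s' := fun h => h3 (hinj s s' h1 h)
    rcases Nat.lt_or_gt_of_ne h4 with h | h
    · obtain ⟨a, b, _⟩ := hpair s s' h1 h2 h
      exact Or.inl ⟨a, b⟩
    · obtain ⟨a, b, _⟩ := hpair s' s h1.symm h2.symm h
      exact Or.inr ⟨a, b⟩
  -- involution
  have hinv : ∀ s, β (β s) = s := by
    intro s
    by_contra hne
    have h1 : β s ≠ s := fun h => hne (by rw [h, h])
    have h2 : β (β s) ≠ β s := fun h => h1 (β.injective h)
    have h3 := hpair' s (β s) (hqβ s).symm (hmβ s).symm h1.symm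
    have h4 := hpair' s (β (β s)) ((hqβ _).trans (hqβ s)).symm
      (((hmβ _).trans (hmβ s)).symm) (Ne.symm hne)
    have h5 : c (β s) ≠ c (β (β s)) := fun h =>
      h2 (hF3 _ _ (hqβ _).symm h).symm
    rcases h3 with ⟨h3, h3'⟩ | ⟨h3, h3'⟩ <;> rcases h4 with ⟨h4, h4'⟩ | ⟨h4, h4'⟩
    · omega
    · exact hE' _ h4 (by rw [← h4']; exact h3)
    · exact hE' _ h3 (by rw [← h3']; exact h4)
    · omega
  -- the flips at a label
  have hflip : ∀ x ∈ E', ∀ s, c s = x + 1 → c (β s) = x → r (β s) + 1 = r s := by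
    intro x hx s h1 h2
    have h3 : r (β s) < r s := by
      by_contra hlt
      rcases Nat.lt_or_eq_of_le (not_lt.mp hlt) with h | h
      · have := hcs s (β s) (hqβ s).symm h; omega
      · have := hinj s (β s) (hqβ s).symm h
        rw [← this] at h2
        omega
    have := hpair (β s) s (hqβ s) (hmβ s) h3
    omega
  have hFl : ∀ x ∈ E', Even (univ.filter fun s => c s = x + 1 ∧ c (β s) = x).card := by
    intro x hx
    have hxE : x ∈ E := (mem_filter.mp hx).1
    have hπx : π x = x + 1 := (mem_filter.mp hx).2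
    have hπx' : π (x + 1) = x := by rw [← hπx]; exact hπ.invol x
    set Fl := univ.filter fun s => c s = x + 1 ∧ c (β s) = x with hFldef
    set Y := univ.filter fun s => c s = x + 1 with hY
    set W := univ.filter fun s => c (β s) = x + 1 with hW
    -- `c (β s)` on `Y`
    have hY2 : ∀ s, c s = x + 1 → c (β s) = x ∨ c (β s) = x + 1 := by
      intro s h1
      by_cases h2 : β s = s
      · right; rw [h2, h1]
      · rcases hpair' s (β s) (hqβ s).symm (hmβ s).symm (Ne.symm h2) with ⟨h3, h4⟩ | ⟨h3, h4⟩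
        · rw [h1] at h3
          exact absurd h3 (hE' x hx)
        · left; omega
    have hW2 : ∀ s, c (β s) = x + 1 → c s = x ∨ c s = x + 1 := by
      intro s h1
      have h2 := hY2 (β s) h1
      rwa [hinv] at h2
    have e1 : ∑ s ∈ univ.filter (fun s => c s = x), r s = ∑ s ∈ W, r s := by
      have := hsum (fun i y => if y = x then i else 0)
      rw [Finset.sum_filter, Finset.sum_filter]
      rw [this]
      refine sum_congr rfl fun s _ => ?_
      have h1 : π (c (β s)) = x ↔ c (β s) = x + 1 := by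
        constructor
        · intro h
          rw [← hπ.invol (c (β s)), h, hπx]
        · intro h
          rw [h, hπx']
      simp only [h1]
    have e2 : ∑ s ∈ W, r s = ∑ s ∈ Y \ Fl, r s + ∑ s ∈ Fl, r (β s) := by
      have h1 : W = (Y \ Fl) ∪ Fl.image β := by
        ext s
        simp only [hW, hY, hFldef, mem_filter, mem_univ, true_and, mem_union, mem_sdiff, mem_image]
        constructor
        · intro h
          rcases hW2 s h with h2 | h2
          · right
            exact ⟨β s, ⟨h, by rw [hinv]; exact h2⟩, hinv s⟩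
          · left
            exact ⟨h2, fun h3 => by have := h3.2; omega⟩
        · rintro (⟨h2, h3⟩ | ⟨z, ⟨h2, h3⟩, rfl⟩)
          · rcases hY2 s h2 with h4 | h4
            · exact absurd ⟨h2, h4⟩ h3
            · exact h4
          · rw [hinv]; exact h2
      have hdisj : Disjoint (Y \ Fl) (Fl.image β) := by
        rw [Finset.disjoint_left]
        intro s hs hs2
        obtain ⟨z, hz, rfl⟩ := mem_image.mp hs2
        have h2 := (mem_filter.mp hz).2
        have h3 := (mem_filter.mp (mem_sdiff.mp hs).1).2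
        omega
      rw [h1, Finset.sum_union hdisj, Finset.sum_image (fun a _ b _ h => β.injective h)]
    have e3 : ∑ s ∈ Y, r s = ∑ s ∈ Y \ Fl, r s + ∑ s ∈ Fl, r s := by
      have hsub : Fl ⊆ Y := by
        intro s hs
        exact mem_filter.mpr ⟨mem_univ _, (mem_filter.mp hs).2.1⟩
      exact (Finset.sum_sdiff hsub).symm
    have e4 : ∑ s ∈ Fl, r s = ∑ s ∈ Fl, r (β s) + Fl.card := by
      rw [Finset.card_eq_sum_ones, ← Finset.sum_add_distrib]
      refine sum_congr rfl fun s hs => ?_
      have := mem_filter.mp hs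
      exact (hflip x hx s this.2.1 this.2.2).symm
    have e5 : ∑ s ∈ univ.filter (fun s => c s = x ∨ c s = x + 1), r s =
        ∑ s ∈ univ.filter (fun s => c s = x), r s + ∑ s ∈ Y, r s := by
      rw [Finset.filter_or, Finset.sum_union]
      rw [Finset.disjoint_left]
      intro s h1 h2
      have h3 := (mem_filter.mp h1).2
      have h4 := (mem_filter.mp h2).2
      omega
    have hp := hpar x hxE
    rw [e5] at hp
    obtain ⟨k, hk⟩ := hp
    rw [Nat.even_iff]
    omega
  -- the lower cells
  set Lo := univ.filter (fun s => β s ≠ s ∧ r (β s) < r s) with hLo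
  have hLo2 : ∀ s ∈ Lo, c (β s) ∈ E' ∧ c s = c (β s) + 1 := by
    intro s hs
    have h1 := (mem_filter.mp hs).2
    obtain ⟨a, b, _⟩ := hpair (β s) s (hqβ s) (hmβ s) h1.2
    exact ⟨a, b⟩
  have hLoEven : Even Lo.card := by
    have h1 : Lo.card = ∑ x ∈ E', (Lo.filter fun s => c (β s) = x).card :=
      Finset.card_eq_sum_card_fiberwise (fun s hs => (hLo2 s hs).1)
    rw [h1]
    apply Finset.even_sum
    intro x hx
    have h2 : (Lo.filter fun s => c (β s) = x) =
        univ.filter fun s => c s = x + 1 ∧ c (β s) = x := by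
      ext s
      simp only [mem_filter, mem_univ, true_and, hLo]
      constructor
      · rintro ⟨h3, h4⟩
        have := hLo2 s (by simp only [hLo, mem_filter, mem_univ, true_and]; exact h3)
        exact ⟨by omega, h4⟩
      · rintro ⟨h3, h4⟩
        have h5 : β s ≠ s := fun h => by rw [h] at h4; omega
        have := hflip x hx s h3 h4
        exact ⟨⟨h5, by omega⟩, h4⟩
    rw [h2]
    exact hFl x hx
  -- count moved points
  have hcard : Fintype.card S - Fintype.card (Function.fixedPoints β) = 2 * Lo.card := by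
    have hfix : Fintype.card (Function.fixedPoints β) = (univ.filter fun s => β s = s).card := by
      apply Fintype.card_of_subtype
      intro s
      simp [Function.mem_fixedPoints, Function.IsFixedPt]
    have h1 := Finset.card_filter_add_card_filter_not (s := (univ : Finset S)) (fun s => β s = s)
    have hN : (univ.filter fun s => ¬ β s = s).card = 2 * Lo.card := by
      set Hi := univ.filter (fun s => β s ≠ s ∧ r s < r (β s)) with hHi
      have h2 : (univ.filter fun s => ¬ β s = s) = Lo ∪ Hi := by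
        ext s
        simp only [mem_filter, mem_univ, true_and, mem_union, hLo, hHi]
        constructor
        · intro h
          have h3 : r (β s) ≠ r s := fun h4 => h (hinj _ _ (hqβ s) h4)
          rcases Nat.lt_or_gt_of_ne h3 with h4 | h4
          · exact Or.inl ⟨h, h4⟩
          · exact Or.inr ⟨h, h4⟩
        · rintro (h | h) <;> exact h.1
      have h3 : Disjoint Lo Hi := by
        rw [Finset.disjoint_left]
        intro s h4 h5
        have h6 := (mem_filter.mp h4).2.2
        have h7 := (mem_filter.mp h5).2.2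
        omega
      have h4 : Hi.card = Lo.card := by
        apply Finset.card_bij (fun s _ => β s)
        · intro s hs
          have := (mem_filter.mp hs).2
          simp only [hLo, mem_filter, mem_univ, true_and, hinv]
          exact ⟨Ne.symm this.1, this.2⟩
        · intro s _ s' _ h
          exact β.injective h
        · intro s hs
          have := (mem_filter.mp hs).2
          refine ⟨β s, ?_, hinv s⟩
          simp only [hHi, mem_filter, mem_univ, true_and, hinv]
          exact ⟨Ne.symm this.1, this.2⟩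
      rw [h2, Finset.card_union_of_disjoint h3, h4]
      ring
    rw [hfix, ← Finset.card_univ]
    omega
  have hpow : β ^ 2 = 1 := by
    ext s
    simp [pow_two, hinv]
  have hsign := Perm.sign_of_pow_two_eq_one hpow
  rw [hcard, Nat.mul_div_cancel_left _ (by norm_num : 0 < 2), hLoEven.neg_one_pow] at hsign
  simp [sgn, hsign]

/-- The subgroup of admissible permutations. -/
def admK (c : S → ℕ) (E : Finset ℕ) : Subgroup (Perm S) where
  carrier := {κ | Adm c E κ}
  mul_mem' := by
    rintro a b ⟨π1, h1, h2⟩ ⟨π2, h3, h4⟩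
    refine ⟨π1 ∘ π2, ⟨?_, ?_⟩, ?_⟩
    · intro y hy hy2
      simp only [Function.comp]
      rw [h3.1 y hy hy2, h1.1 y hy hy2]
    · intro x hx
      simp only [Function.comp]
      rcases h3.2 x hx with ⟨e1, e2⟩ | ⟨e1, e2⟩ <;> rw [e1, e2] <;>
        rcases h1.2 x hx with ⟨e3, e4⟩ | ⟨e3, e4⟩ <;> simp [e3, e4]
    · intro s
      simp only [Perm.mul_apply, Function.comp]
      rw [h2, h4]
  one_mem' := by
    refine ⟨id, ⟨fun _ _ _ => rfl, fun x _ => Or.inl ⟨rfl, rfl⟩⟩, fun s => rfl⟩
  inv_mem' := by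
    rintro a ⟨π1, h1, h2⟩
    refine ⟨π1, h1, fun s => ?_⟩
    have := h2 (a⁻¹ s)
    have e : a (a⁻¹ s) = s := by simp
    rw [e] at this
    rw [this, h1.invol]

/-- **Young step for a filling.** -/
theorem exists_fix_of_filling {μ : YoungDiagram} (T : Tab μ S) {c : S → ℕ} {E : Finset ℕ}
    (hE : ∀ x ∈ E, x + 1 ∉ E)
    (hcs : ∀ s s', colC T s = colC T s' → rowC T s < rowC T s' → c s < c s')
    (hpar : ∀ x ∈ E, Even (∑ s ∈ univ.filter (fun s => c s = x ∨ c s = x + 1), rowC T s))
    [FiniteDimensional ℂ V] {ρ : Representation ℂ (Perm S) V} (hρ : ρ.IsIrreducible)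
    (hlab : Label ρ μ) : ∃ v, v ≠ 0 ∧ ∀ κ, Adm c E κ → ρ κ v = v := by
  obtain ⟨v, hv, hfix⟩ := exists_fix_of_sign T (admK c E)
    (fun κ hκ β hβ h => sgn_eq_one T hE hcs hpar hκ hβ h) hρ hlab
  exact ⟨v, hv, fun κ hκ => hfix κ hκ⟩

end Filling

end Crest.Agent.Saxl.EFix
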