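import Crest.Agent.Lib.Saxl.Specht

/-!
# Moving slots between letters

`mv i j f w = ∑_{s : w s = j} f (update w s i)`: a slot moves from letter `i` to letter `j`.
The commutator of `mv i j` and `mv j i` is a scalar on each content, `mv j i` is the adjoint of
`mv i j`, so `mv i j` is injective on functions supported on words with more `i`s than `j`s.
-/

set_option autoImplicit false

open scoped BigOperators
open Equiv

namespace Crest.Agent.Saxl

section WordOps

variable {S : Type*} [Fintype S] [DecidableEq S]

/-- Number of slots with letter `a`. -/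
def lc (w : S → ℕ) (a : ℕ) : ℕ := (Finset.univ.filter fun s => w s = a).card

/-- The move operator. -/
noncomputable def mv (i j : ℕ) (f : Fn S) : Fn S :=
  fun w => ∑ s ∈ Finset.univ.filter (fun s => w s = j), f (Function.update w s i)

theorem mv_add (i j : ℕ) (f g : Fn S) : mv i j (f + g) = mv i j f + mv i j g := by
  funext w
  simp [mv, Finset.sum_add_distrib]

theorem mv_smul (i j : ℕ) (c : ℂ) (f : Fn S) : mv i j (c • f) = c • mv i j f := by
  funext w
  simp [mv, Finset.mul_sum]

/-- `mv` as a linear map. -/
noncomputable def mvL (i j : ℕ) : Fn S →ₗ[ℂ] Fn S where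
  toFun := mv i j
  map_add' := mv_add i j
  map_smul' := mv_smul i j

@[simp] theorem mvL_apply (i j : ℕ) (f : Fn S) : mvL i j f = mv i j f := rfl

/-- `mv` commutes with the group action. -/
theorem mv_equivariant (i j : ℕ) (g : Perm S) (f : Fn S) :
    mv i j (fnRep S g f) = fnRep S g (mv i j f) := by
  funext w
  simp only [mv, fnRep_apply, Function.comp]
  refine Finset.sum_bij' (fun s _ => g⁻¹ s) (fun s _ => g s) ?_ ?_ ?_ ?_ ?_
  · intro s hs
    have := (Finset.mem_filter.mp hs).2
    exact Finset.mem_filter.mpr ⟨Finset.mem_univ _, by simpa using this⟩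
  · intro s hs
    have := (Finset.mem_filter.mp hs).2
    exact Finset.mem_filter.mpr ⟨Finset.mem_univ _, this⟩
  · intro s _
    simp
  · intro s _
    simp
  · intro s _
    congr 1
    funext x
    by_cases hx : x = g⁻¹ s
    · subst hx
      simp
    · have hx' : g x ≠ s := fun h => hx (by rw [← h]; simp)
      simp only [Function.comp, Function.update_of_ne hx', Function.update_of_ne hx]

/-- The commutator identity, pointwise. -/
theorem mv_comm (i j : ℕ) (hij : i ≠ j) (f : Fn S) (w : S → ℕ) :
    mv j i (mv i j f) w = mv i j (mv j i f) w + ((lc w i : ℂ) - (lc w j : ℂ)) * f w := by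
  have hA : mv j i (mv i j f) w = (lc w i : ℂ) * f w +
      ∑ s ∈ Finset.univ.filter (fun s => w s = i), ∑ t ∈ Finset.univ.filter (fun t => w t = j),
        f (Function.update (Function.update w s j) t i) := by
    simp only [mv, lc]
    rw [Finset.card_eq_sum_ones, Nat.cast_sum, Finset.sum_mul, ← Finset.sum_add_distrib]
    refine Finset.sum_congr rfl fun s hs => ?_
    have hs' : w s = i := (Finset.mem_filter.mp hs).2
    have hfilter : (Finset.univ.filter fun t => Function.update w s j t = j) =
        insert s (Finset.univ.filter fun t => w t = j) := by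
      ext t
      simp only [Finset.mem_filter, Finset.mem_univ, true_and, Finset.mem_insert,
        Function.update_apply]
      by_cases ht : t = s
      · simp [ht]
      · simp [ht]
    have hns : s ∉ Finset.univ.filter (fun t => w t = j) := by
      simp only [Finset.mem_filter, Finset.mem_univ, true_and, hs']
      exact hij
    rw [hfilter, Finset.sum_insert hns]
    congr 1
    simp only [Function.update_idem, Nat.cast_one, one_mul]
    congr 1
    rw [← hs']
    simp
  have hB : mv i j (mv j i f) w = (lc w j : ℂ) * f w +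
      ∑ s ∈ Finset.univ.filter (fun s => w s = i), ∑ t ∈ Finset.univ.filter (fun t => w t = j),
        f (Function.update (Function.update w s j) t i) := by
    simp only [mv, lc]
    rw [Finset.sum_comm (s := Finset.univ.filter (fun s => w s = i))]
    rw [Finset.card_eq_sum_ones, Nat.cast_sum, Finset.sum_mul, ← Finset.sum_add_distrib]
    refine Finset.sum_congr rfl fun t ht => ?_
    have ht' : w t = j := (Finset.mem_filter.mp ht).2
    have hfilter : (Finset.univ.filter fun s => Function.update w t i s = i) =
        insert t (Finset.univ.filter fun s => w s = i) := by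
      ext s
      simp only [Finset.mem_filter, Finset.mem_univ, true_and, Finset.mem_insert,
        Function.update_apply]
      by_cases hs : s = t
      · simp [hs]
      · simp [hs]
    have hnt : t ∉ Finset.univ.filter (fun s => w s = i) := by
      simp only [Finset.mem_filter, Finset.mem_univ, true_and, ht']
      exact hij.symm
    rw [hfilter, Finset.sum_insert hnt]
    congr 1
    · simp only [Function.update_idem, Nat.cast_one, one_mul]
      congr 1
      rw [← ht']
      simp
    · refine Finset.sum_congr rfl fun s hs => ?_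
      have hs' : w s = i := (Finset.mem_filter.mp hs).2
      have hne : s ≠ t := by
        rintro rfl
        exact hij (hs'.symm.trans ht')
      rw [Function.update_comm hne.symm]
  rw [hA, hB]
  ring

/-- Words with letters `< K`. -/
def wordsLt (S : Type*) [Fintype S] [DecidableEq S] (K : ℕ) : Finset (S → ℕ) :=
  Fintype.piFinset fun _ => Finset.range K

@[simp] theorem mem_wordsLt {K : ℕ} {w : S → ℕ} : w ∈ wordsLt S K ↔ ∀ s, w s < K := by
  simp [wordsLt]

/-- The Hermitian form on functions on words with letters `< K`. -/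
noncomputable def ipK (K : ℕ) (f g : Fn S) : ℂ := ∑ w ∈ wordsLt S K, star (f w) * g w

/-- `mv j i` is the adjoint of `mv i j`. -/
theorem ipK_mv {K i j : ℕ} (hi : i < K) (hj : j < K) (f g : Fn S) :
    ipK K (mv i j f) g = ipK K f (mv j i g) := by
  simp only [ipK, mv, star_sum, Finset.sum_mul, Finset.mul_sum]
  have h1 : ∀ w : S → ℕ, (∑ s ∈ Finset.univ.filter (fun s => w s = j),
      star (f (Function.update w s i)) * g w) =
      ∑ s, if w s = j then star (f (Function.update w s i)) * g w else 0 := by
    intro w
    rw [Finset.sum_filter]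
  have h2 : ∀ w : S → ℕ, (∑ s ∈ Finset.univ.filter (fun s => w s = i),
      star (f w) * g (Function.update w s j)) =
      ∑ s, if w s = i then star (f w) * g (Function.update w s j) else 0 := by
    intro w
    rw [Finset.sum_filter]
  simp only [h1, h2]
  rw [Finset.sum_comm]
  conv_rhs => rw [Finset.sum_comm]
  refine Finset.sum_congr rfl fun s _ => ?_
  rw [← Finset.sum_filter, ← Finset.sum_filter]
  refine Finset.sum_bij' (fun w _ => Function.update w s i) (fun w _ => Function.update w s j)
    ?_ ?_ ?_ ?_ ?_
  · intro w hw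
    obtain ⟨h1, h2⟩ := Finset.mem_filter.mp hw
    refine Finset.mem_filter.mpr ⟨?_, by simp⟩
    rw [mem_wordsLt] at h1 ⊢
    intro x
    by_cases hx : x = s
    · simp [hx, hi]
    · simp [Function.update_of_ne hx, h1]
  · intro w hw
    obtain ⟨h1, h2⟩ := Finset.mem_filter.mp hw
    refine Finset.mem_filter.mpr ⟨?_, by simp⟩
    rw [mem_wordsLt] at h1 ⊢
    intro x
    by_cases hx : x = s
    · simp [hx, hj]
    · simp [Function.update_of_ne hx, h1]
  · intro w hw
    obtain ⟨_, h2⟩ := Finset.mem_filter.mp hw
    simp [← h2]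
  · intro w hw
    obtain ⟨_, h2⟩ := Finset.mem_filter.mp hw
    simp [← h2]
  · intro w hw
    obtain ⟨_, h2⟩ := Finset.mem_filter.mp hw
    simp only [Function.update_idem]
    congr 2
    simp [← h2]

theorem ipK_self_nonneg (K : ℕ) (f : Fn S) : 0 ≤ (ipK K f f).re ∧ (ipK K f f).im = 0 := by
  simp only [ipK, Complex.re_sum, Complex.im_sum]
  constructor
  · refine Finset.sum_nonneg fun w _ => ?_
    simp [Complex.mul_re]
    nlinarith [sq_nonneg (f w).re, sq_nonneg (f w).im]
  · refine Finset.sum_eq_zero fun w _ => ?_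
    simp [Complex.mul_im]
    ring

theorem aux_re (a b : ℕ) (z : ℂ) : (((a : ℂ) - (b : ℂ)) * (star z * z)).re =
    ((a : ℝ) - (b : ℝ)) * (z.re ^ 2 + z.im ^ 2) := by
  have h : ((a : ℂ) - (b : ℂ)) = (((a : ℝ) - (b : ℝ) : ℝ) : ℂ) := by push_cast; ring
  rw [h, Complex.re_ofReal_mul]
  congr 1
  simp [Complex.mul_re]
  ring

/-- Main injectivity statement. -/
theorem mv_inj {K i j : ℕ} (hij : i ≠ j) (hi : i < K) (hj : j < K) {f : Fn S}
    (hsupp : ∀ w, (∀ s, w s < K) → f w ≠ 0 → lc w j < lc w i)
    (h : ∀ w, (∀ s, w s < K) → mv i j f w = 0) :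
    ∀ w, (∀ s, w s < K) → f w = 0 := by
  have h1 : ipK K (mv i j f) (mv i j f) = 0 := by
    refine Finset.sum_eq_zero fun w hw => ?_
    rw [h w (mem_wordsLt.mp hw)]
    simp
  have h2 : ipK K (mv i j f) (mv i j f) = ipK K (mv j i f) (mv j i f) +
      ∑ w ∈ wordsLt S K, ((lc w i : ℂ) - (lc w j : ℂ)) * (star (f w) * f w) := by
    rw [ipK_mv hi hj, ipK]
    simp only [mv_comm i j hij f]
    simp only [mul_add, Finset.sum_add_distrib]
    rw [← ipK, ← ipK_mv hj hi]
    congr 1
    refine Finset.sum_congr rfl fun w _ => ?_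
    ring
  rw [h1] at h2
  have h3 := congrArg Complex.re h2
  simp only [Complex.zero_re, Complex.add_re, Complex.re_sum] at h3
  have h4 : ∀ w ∈ wordsLt S K, 0 ≤ ((((lc w i : ℂ) - (lc w j : ℂ)) * (star (f w) * f w))).re := by
    intro w hw
    by_cases hf : f w = 0
    · simp [hf]
    · have hlt := hsupp w (mem_wordsLt.mp hw) hf
      rw [aux_re]
      have : (lc w j : ℝ) < lc w i := by exact_mod_cast hlt
      have h5 : 0 ≤ (f w).re ^ 2 + (f w).im ^ 2 := by positivity
      exact mul_nonneg (by linarith) h5
  have h5 := (ipK_self_nonneg K (mv j i f)).1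
  have h6 : ∑ w ∈ wordsLt S K, ((((lc w i : ℂ) - (lc w j : ℂ)) * (star (f w) * f w))).re = 0 := by
    have := Finset.sum_nonneg h4
    linarith
  have h7 := (Finset.sum_eq_zero_iff_of_nonneg h4).mp h6
  intro w hw
  by_contra hf
  have h8 := h7 w (mem_wordsLt.mpr hw)
  have hlt := hsupp w hw hf
  rw [aux_re] at h8
  have hlt' : (lc w j : ℝ) < lc w i := by exact_mod_cast hlt
  have hpos : 0 < (f w).re ^ 2 + (f w).im ^ 2 := by
    by_contra hnp
    have h9 : (f w).re ^ 2 + (f w).im ^ 2 = 0 := le_antisymm (not_lt.mp hnp) (by positivity)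
    apply hf
    apply Complex.ext
    · simp only [Complex.zero_re]; nlinarith [sq_nonneg (f w).re, sq_nonneg (f w).im]
    · simp only [Complex.zero_im]; nlinarith [sq_nonneg (f w).re, sq_nonneg (f w).im]
  have := mul_pos (sub_pos.mpr hlt') hpos
  linarith

end WordOps

section Dominance

variable {S : Type*} [Fintype S] [DecidableEq S]
variable {V : Type*} [AddCommGroup V] [Module ℂ V]

/-- Words with the same content differ by a permutation. -/
theorem exists_perm_of_lc_eq {c d : S → ℕ} (h : ∀ a, lc c a = lc d a) :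
    ∃ g : Perm S, d = c ∘ g := by
  have e : ∀ a, Nonempty ({s // d s = a} ≃ {s // c s = a}) := by
    intro a
    refine ⟨Fintype.equivOfCardEq ?_⟩
    rw [Fintype.card_subtype, Fintype.card_subtype]
    exact (h a).symm
  let E := fun a => Classical.choice (e a)
  refine ⟨Equiv.ofFiberEquiv E, ?_⟩
  funext s
  exact (Equiv.ofFiberEquiv_map E s).symm

/-- An invariant functional gives a fixed vector. -/
theorem hasFix_of_functional {ρ : Representation ℂ (Perm S) V} {c : S → ℕ} (ℓ : V →ₗ[ℂ] ℂ)
    (hℓ : ∀ g ∈ stab c, ∀ x, ℓ (ρ g x) = ℓ x) {x : V} (hx : ℓ x ≠ 0) : HasFix ρ c := by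
  rw [hasFix_iff]
  refine ⟨x, fun h0 => ?_⟩
  have h1 := congrArg ℓ h0
  rw [gact_symE, map_sum, Finset.sum_congr rfl (fun g hg => hℓ g hg x), map_zero, Finset.sum_const,
    ← Nat.cast_smul_eq_nsmul ℂ, smul_eq_mul] at h1
  exact (mul_ne_zero (card_stab_ne_zero c) hx) h1

/-- A fixed vector gives an invariant functional. -/
theorem exists_functional {ρ : Representation ℂ (Perm S) V} {c : S → ℕ} (h : HasFix ρ c) :
    ∃ ℓ : V →ₗ[ℂ] ℂ, (∀ g ∈ stab c, ∀ x, ℓ (ρ g x) = ℓ x) ∧ ∃ x, ℓ x ≠ 0 := by
  obtain ⟨v, hv, hfix⟩ := h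
  obtain ⟨ℓ0, hℓ0⟩ : ∃ ℓ0 : V →ₗ[ℂ] ℂ, ℓ0 v ≠ 0 := by
    by_contra hcon
    push Not at hcon
    exact hv ((Module.forall_dual_apply_eq_zero_iff ℂ v).mp hcon)
  refine ⟨∑ g ∈ stab c, ℓ0 ∘ₗ ρ g, ?_, v, ?_⟩
  · intro g hg x
    simp only [LinearMap.sum_apply, LinearMap.comp_apply]
    rw [← sum_stab_mulRight c hg (fun k => ℓ0 (ρ k x))]
    refine Finset.sum_congr rfl fun k _ => ?_
    simp [map_mul]
  · simp only [LinearMap.sum_apply, LinearMap.comp_apply]
    rw [Finset.sum_congr rfl (fun g hg => by rw [hfix g hg]), Finset.sum_const,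
      ← Nat.cast_smul_eq_nsmul ℂ, smul_eq_mul]
    exact mul_ne_zero (card_stab_ne_zero c) hℓ0

theorem lc_comp (c : S → ℕ) (g : Perm S) (a : ℕ) : lc (c ∘ g) a = lc c a := by
  simp only [lc]
  refine Finset.card_bij (fun s _ => g s) ?_ ?_ ?_
  · intro s hs
    exact Finset.mem_filter.mpr ⟨Finset.mem_univ _, (Finset.mem_filter.mp hs).2⟩
  · intro s _ s' _ h
    exact g.injective h
  · intro s hs
    refine ⟨g⁻¹ s, Finset.mem_filter.mpr ⟨Finset.mem_univ _, ?_⟩, by simp⟩
    simpa using (Finset.mem_filter.mp hs).2

theorem lc_update (w : S → ℕ) (s : S) (i a : ℕ) :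
    lc (Function.update w s i) a + (if w s = a then 1 else 0) = lc w a + (if i = a then 1 else 0) := by
  simp only [lc, Finset.card_filter]
  rw [← Finset.add_sum_erase Finset.univ _ (Finset.mem_univ s),
    ← Finset.add_sum_erase Finset.univ (fun t => if w t = a then 1 else 0) (Finset.mem_univ s)]
  have : ∀ t ∈ Finset.univ.erase s, (if Function.update w s i t = a then 1 else 0) =
      if w t = a then 1 else 0 := by
    intro t ht
    rw [Function.update_of_ne (Finset.ne_of_mem_erase ht)]
  rw [Finset.sum_congr rfl this]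
  simp only [Function.update_self]
  ring

/-- One move: from content `c` with more `i`s than `j`s to the content with one slot moved. -/
theorem HasFix.move {ρ : Representation ℂ (Perm S) V} {c d : S → ℕ} {i j : ℕ} (hij : i ≠ j)
    (hlt : lc c j < lc c i)
    (hd : ∀ a, lc d a + (if i = a then 1 else 0) = lc c a + (if j = a then 1 else 0))
    (h : HasFix ρ c) : HasFix ρ d := by
  obtain ⟨ℓ, hℓ, x, hx⟩ := exists_functional h
  -- the map `T`
  let T : V →ₗ[ℂ] Fn S := ∑ g : Perm S, (LinearMap.toSpanSingleton ℂ (Fn S) (dlt (c ∘ g))) ∘ₗ ℓ ∘ₗ ρ g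
  have hT : ∀ y w, T y w = ∑ g : Perm S, ℓ (ρ g y) * dlt (c ∘ g) w := by
    intro y w
    simp [T, LinearMap.sum_apply, LinearMap.toSpanSingleton_apply]
  have hTeq : ∀ k y, T (ρ k y) = fnRep S k (T y) := by
    intro k y
    funext w
    rw [hT, fnRep_apply, hT]
    refine Fintype.sum_equiv (Equiv.mulRight k) _ _ ?_
    intro g
    simp only [Equiv.coe_mulRight, map_mul, Module.End.mul_apply]
    congr 1
    simp only [dlt]
    have : (w = c ∘ g) ↔ (w ∘ k = c ∘ (g * k)) := by
      constructor
      · rintro rfl
        rfl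
      · intro h
        funext s
        have := congrFun h (k⁻¹ s)
        simpa using this
    simp only [this]
  have hTsupp : ∀ y w, T y w ≠ 0 → ∃ g : Perm S, w = c ∘ g := by
    intro y w hw
    rw [hT] at hw
    obtain ⟨g, _, hg⟩ := Finset.exists_ne_zero_of_sum_ne_zero hw
    refine ⟨g, ?_⟩
    by_contra hne
    simp [dlt, hne] at hg
  have hTx : T x c ≠ 0 := by
    rw [hT]
    have : ∀ g : Perm S, ℓ (ρ g x) * dlt (c ∘ g) c = if g ∈ stab c then ℓ x else 0 := by
      intro g
      by_cases hg : g ∈ stab c
      · have hc : c = c ∘ g := by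
          funext s
          exact (mem_stab.mp hg s).symm
        rw [if_pos hg, hℓ g hg x]
        simp [dlt, ← hc]
      · have hc : c ≠ c ∘ g := by
          intro hc
          apply hg
          rw [mem_stab]
          intro s
          exact (congrFun hc s).symm
        rw [if_neg hg]
        simp [dlt, hc]
    simp only [this]
    rw [Finset.sum_ite_mem, Finset.univ_inter, Finset.sum_const, ← Nat.cast_smul_eq_nsmul ℂ,
      smul_eq_mul]
    exact mul_ne_zero (card_stab_ne_zero c) hx
  -- a bound `K` on the letters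
  obtain ⟨K, hK1, hK2, hK3⟩ : ∃ K : ℕ, i < K ∧ j < K ∧ ∀ s, c s < K := by
    refine ⟨i + j + 1 + ∑ s, c s, by omega, by omega, fun s => ?_⟩
    have := Finset.single_le_sum (f := c) (fun _ _ => Nat.zero_le _) (Finset.mem_univ s)
    omega
  -- the moved map does not kill `x`
  have hmv : ∃ w, (∀ s, w s < K) ∧ mv i j (T x) w ≠ 0 := by
    by_contra hcon
    push Not at hcon
    have := mv_inj hij hK1 hK2 (f := T x) ?_ hcon c hK3
    · exact hTx this
    · intro w _ hw
      obtain ⟨g, rfl⟩ := hTsupp _ _ hw
      rw [lc_comp, lc_comp]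
      exact hlt
  obtain ⟨w, _, hw⟩ := hmv
  -- the content of `w` is that of `d`
  have hcont : ∃ g : Perm S, w = d ∘ g := by
    obtain ⟨s, hs, hs2⟩ := Finset.exists_ne_zero_of_sum_ne_zero hw
    have hsj : w s = j := (Finset.mem_filter.mp hs).2
    obtain ⟨g, hg⟩ := hTsupp _ _ hs2
    apply exists_perm_of_lc_eq
    intro a
    have h1 := lc_update w s i a
    rw [hg, lc_comp, hsj] at h1
    have h2 := hd a
    omega
  obtain ⟨g1, hg1⟩ := hcont
  -- the functional on `d`
  refine hasFix_of_functional (c := d)
    ((LinearMap.proj d) ∘ₗ (mvL i j) ∘ₗ T) ?_ (x := ρ g1 x) ?_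
  · intro k hk y
    simp only [LinearMap.comp_apply, mvL_apply, LinearMap.proj_apply]
    rw [hTeq, mv_equivariant, fnRep_apply]
    congr 1
    funext s
    exact mem_stab.mp hk s
  · simp only [LinearMap.comp_apply, mvL_apply, LinearMap.proj_apply]
    rw [hTeq, mv_equivariant, fnRep_apply, ← hg1]
    exact hw

/-- Number of slots with letter below `k`. -/
def pc (c : S → ℕ) (k : ℕ) : ℕ := (Finset.univ.filter fun s => c s < k).card

theorem pc_succ (c : S → ℕ) (k : ℕ) : pc c (k + 1) = pc c k + lc c k := by
  simp only [pc, lc]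
  rw [← Finset.card_union_of_disjoint]
  · congr 1
    ext s
    simp only [Finset.mem_filter, Finset.mem_univ, true_and, Finset.mem_union]
    omega
  · rw [Finset.disjoint_left]
    intro s hs hs2
    have h1 := (Finset.mem_filter.mp hs).2
    have h2 := (Finset.mem_filter.mp hs2).2
    omega

theorem pc_update (c : S → ℕ) (s : S) (j k : ℕ) :
    pc (Function.update c s j) k + (if c s < k then 1 else 0) = pc c k + (if j < k then 1 else 0) := by
  simp only [pc, Finset.card_filter]
  rw [← Finset.add_sum_erase Finset.univ _ (Finset.mem_univ s),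
    ← Finset.add_sum_erase Finset.univ (fun t => if c t < k then 1 else 0) (Finset.mem_univ s)]
  have : ∀ t ∈ Finset.univ.erase s, (if Function.update c s j t < k then 1 else 0) =
      if c t < k then 1 else 0 := by
    intro t ht
    rw [Function.update_of_ne (Finset.ne_of_mem_erase ht)]
  rw [Finset.sum_congr rfl this]
  simp only [Function.update_self]
  ring

theorem pc_eq_card_of_bound {c : S → ℕ} {K : ℕ} (h : ∀ s, c s < K) : pc c K = Fintype.card S := by
  simp only [pc, Finset.filter_true_of_mem (fun s _ => h s), Finset.card_univ]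

/-- Dominance of contents gives a fixed vector: chain of moves. -/
theorem HasFix.of_pc {ρ : Representation ℂ (Perm S) V} {c d : S → ℕ}
    (hd : Antitone (lc d)) (hP : ∀ k, pc d k ≤ pc c k) (h : HasFix ρ c) : HasFix ρ d := by
  classical
  obtain ⟨K, hK⟩ : ∃ K : ℕ, (∀ s, c s < K) ∧ ∀ s, d s < K := by
    refine ⟨(∑ s, c s) + (∑ s, d s) + 1, fun s => ?_, fun s => ?_⟩
    · have := Finset.single_le_sum (f := c) (fun _ _ => Nat.zero_le _) (Finset.mem_univ s)
      omega
    · have := Finset.single_le_sum (f := d) (fun _ _ => Nat.zero_le _) (Finset.mem_univ s)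
      omega
  -- induction on the sum of partial sums
  induction' hn : ∑ k ∈ Finset.range (K + 1), pc c k using Nat.strong_induction_on with n ih
    generalizing c
  by_cases heq : ∀ a, lc c a = lc d a
  · obtain ⟨g, rfl⟩ := exists_perm_of_lc_eq heq
    exact h.comp g
  -- first difference
  push Not at heq
  let i := Nat.find heq
  have hi : lc c i ≠ lc d i := Nat.find_spec heq
  have hbelow : ∀ a < i, lc c a = lc d a := fun a ha => by
    by_contra h0
    exact Nat.find_min heq ha h0
  have hPi : ∀ a ≤ i, pc c a = pc d a := by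
    intro a ha
    induction a with
    | zero => simp [pc]
    | succ a iha =>
      rw [pc_succ, pc_succ, iha (by omega), hbelow a (by omega)]
  have hgt : lc d i < lc c i := by
    have h1 := hP (i + 1)
    rw [pc_succ, pc_succ, hPi i le_rfl] at h1
    omega
  -- first return of the partial sums
  have hex : ∃ j, i < j ∧ pc c (j + 1) = pc d (j + 1) := by
    have h1 := pc_eq_card_of_bound (c := c) (K := K + i + 1) (fun s => by have := hK.1 s; omega)
    have h2 := pc_eq_card_of_bound (c := d) (K := K + i + 1) (fun s => by have := hK.2 s; omega)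
    exact ⟨K + i, by
      have : K ≠ 0 := by
        intro h0
        have hs : lc c i ≠ 0 := by omega
        have : ∃ s, c s = i := by
          by_contra hno
          push Not at hno
          apply hs
          simp [lc, Finset.filter_false_of_mem (fun s _ => hno s)]
        obtain ⟨s, _⟩ := this
        have := hK.1 s
        omega
      omega, by rw [h1, h2]⟩
  let j := Nat.find hex
  have hj : i < j ∧ pc c (j + 1) = pc d (j + 1) := Nat.find_spec hex
  have hstrict : ∀ k, i < k → k ≤ j → pc d k < pc c k := by
    intro k hk hkj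
    obtain ⟨k', rfl⟩ : ∃ k', k = k' + 1 := ⟨k - 1, by omega⟩
    by_contra hnot
    have heq2 : pc c (k' + 1) = pc d (k' + 1) := le_antisymm (by omega) (hP _)
    by_cases hk' : i < k'
    · exact Nat.find_min hex (m := k') (by omega) ⟨hk', heq2⟩
    · have : k' = i := by omega
      subst this
      rw [pc_succ, pc_succ, hPi _ le_rfl] at heq2
      omega
  have hjlt : lc c j < lc d j := by
    have h1 := hstrict j hj.1 le_rfl
    have h2 := hj.2
    rw [pc_succ, pc_succ] at h2
    omega
  have hanti : lc d j ≤ lc d i := hd hj.1.le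
  -- a slot with letter `i`
  obtain ⟨s, hs⟩ : ∃ s, c s = i := by
    by_contra hno
    push Not at hno
    have : lc c i = 0 := by
      simp [lc, Finset.filter_false_of_mem (fun s _ => hno s)]
    omega
  have hjK : j < K := by
    by_contra hcon
    have h1 := pc_eq_card_of_bound (c := c) (K := K) hK.1
    have h2 := pc_eq_card_of_bound (c := d) (K := K) hK.2
    have hiK : i < K := by
      rw [← hs]
      exact hK.1 s
    have h3 := hstrict K hiK (by omega)
    omega
  -- the move
  set c' := Function.update c s j with hc'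
  have hij : i ≠ j := by omega
  have hfix' : HasFix ρ c' := by
    refine HasFix.move hij (by omega) ?_ h
    intro a
    have := lc_update c s j a
    rw [hs] at this
    omega
  have hpc' : ∀ k, pc c' k + (if i < k then 1 else 0) = pc c k + (if j < k then 1 else 0) := by
    intro k
    have := pc_update c s j k
    rwa [hs] at this
  refine ih (∑ k ∈ Finset.range (K + 1), pc c' k) ?_ ?_ hfix' ?_ rfl
  · -- the sum decreases
    rw [← hn]
    refine Finset.sum_lt_sum ?_ ⟨j, Finset.mem_range.mpr (by omega), ?_⟩
    · intro k _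
      have := hpc' k
      split_ifs at this <;> omega
    · have := hpc' j
      rw [if_pos hj.1, if_neg (lt_irrefl j)] at this
      omega
  · intro k
    have h1 := hpc' k
    have h2 := hP k
    by_cases h3 : i < k ∧ k ≤ j
    · have := hstrict k h3.1 h3.2
      rw [if_pos h3.1, if_neg (by omega)] at h1
      omega
    · by_cases h4 : i < k
      · rw [if_pos h4, if_pos (by omega)] at h1
        omega
      · rw [if_neg h4, if_neg (by omega)] at h1
        omega
  · constructor
    · intro t
      by_cases ht : t = s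
      · subst ht
        simp [hc', hjK]
      · simp [hc', Function.update_of_ne ht, hK.1 t]
    · exact hK.2

omit [DecidableEq S] in
theorem pc_rowC {ν : YoungDiagram} (t : Tab ν S) (k : ℕ) : pc (rowC t) k = rowsBelow ν k :=
  card_rowC_lt t k

omit [DecidableEq S] in
/-- The row content of a tableau is the row length function. -/
theorem lc_rowC {ν : YoungDiagram} (t : Tab ν S) (a : ℕ) : lc (rowC t) a = ν.rowLen a := by
  rw [YoungDiagram.rowLen_eq_card]
  refine Finset.card_bij (fun s _ => (t.symm s).1) ?_ ?_ ?_
  · intro s hs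
    have hs' := (Finset.mem_filter.mp hs).2
    rw [YoungDiagram.mem_row_iff]
    exact ⟨(t.symm s).2, hs'⟩
  · intro s _ s' _ h
    exact t.symm.injective (Subtype.ext h)
  · intro c hc
    rw [YoungDiagram.mem_row_iff] at hc
    refine ⟨t ⟨c, hc.1⟩, ?_, ?_⟩
    · refine Finset.mem_filter.mpr ⟨Finset.mem_univ _, ?_⟩
      simp [rowC, hc.2]
    · simp

omit [DecidableEq S] in
theorem lc_rowC_antitone {ν : YoungDiagram} (t : Tab ν S) : Antitone (lc (rowC t)) := by
  intro a b hab
  rw [lc_rowC, lc_rowC]
  exact ν.rowLen_anti _ _ hab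

/-- Dominance of Young diagrams gives a fixed vector. -/
theorem HasFix.of_domLE {ρ : Representation ℂ (Perm S) V} {ν α : YoungDiagram} (t : Tab ν S)
    (u : Tab α S) (hdom : DomLE α ν) (h : HasFix ρ (rowC t)) : HasFix ρ (rowC u) := by
  refine HasFix.of_pc (lc_rowC_antitone u) ?_ h
  intro k
  rw [pc_rowC, pc_rowC]
  exact hdom k

end Dominance

end Crest.Agent.Saxl
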