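import Crest.Agent.Lib.Saxl.EFix
import Crest.Agent.Lib.Saxl.WordOps

/-!
# Fixed vectors for doubles placed in pairs of adjacent rows (row 195, S0298)

`exists_fix_of_rows`: let `ν` be the label of the irreducible `ρ`.  Each double `i ∈ I` (of size
`2 h i`) is placed in the rows `r i, r i + 1` of a tableau, with an even number of cells in each of
the two rows, `r` injective on `I`.  The other labels only need to be dominated by the remainders of
the rows.  Then `ρ` has a nonzero vector fixed by the group of the target configuration.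
-/

set_option autoImplicit false

open Finset Equiv

namespace Crest.Agent.Saxl.EFix

variable {S : Type*} [Fintype S] [DecidableEq S]
variable {V : Type*} [AddCommGroup V] [Module ℂ V]

/-- Dominance moves on a part of the slots, in the fixed space of a group acting on the other
slots. -/
theorem of_pc_on_part (ρ : Representation ℂ (Perm S) V) (P : S → Prop) [DecidablePred P]
    (KZ : Set (Perm S)) (hKZ : ∀ κ ∈ KZ, ∀ s, P s → κ s = s)
    {d0 d1 : {s // P s} → ℕ} (hanti : Antitone (lc d1)) (hP : ∀ k, pc d1 k ≤ pc d0 k)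
    {v0 : V} (hv0 : v0 ≠ 0) (hK : ∀ κ ∈ KZ, ρ κ v0 = v0)
    (hd0 : ∀ g ∈ stab d0, ρ (Perm.ofSubtype g) v0 = v0) :
    ∃ v, v ≠ 0 ∧ (∀ κ ∈ KZ, ρ κ v = v) ∧ ∀ g ∈ stab d1, ρ (Perm.ofSubtype g) v = v := by
  let W : Submodule ℂ V :=
    { carrier := {v | ∀ κ ∈ KZ, ρ κ v = v}
      add_mem' := by
        intro a b ha hb κ hκ
        rw [map_add, ha κ hκ, hb κ hκ]
      zero_mem' := by
        intro κ _
        simp
      smul_mem' := by
        intro x a ha κ hκ
        rw [map_smul, ha κ hκ] }
  have hcomm : ∀ κ ∈ KZ, ∀ g : Perm {s // P s},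
      κ * Perm.ofSubtype g = Perm.ofSubtype g * κ := by
    intro κ hκ g
    apply Perm.Disjoint.commute
    intro s
    by_cases hs : P s
    · exact Or.inl (hKZ κ hκ s hs)
    · exact Or.inr (Perm.ofSubtype_apply_of_not_mem g hs)
  have hstable : ∀ (g : Perm {s // P s}), ∀ v ∈ W, ρ (Perm.ofSubtype g) v ∈ W := by
    intro g v hv κ hκ
    rw [← Module.End.mul_apply, ← map_mul, hcomm κ hκ g, map_mul, Module.End.mul_apply, hv κ hκ]
  let ρW : Representation ℂ (Perm {s // P s}) W :=
    { toFun := fun g => (ρ (Perm.ofSubtype g)).restrict (hstable g)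
      map_one' := by
        ext x
        simp
      map_mul' := by
        intro a b
        ext x
        simp }
  have hfix : HasFix ρW d0 := by
    refine ⟨⟨v0, hK⟩, fun h => hv0 (congrArg Subtype.val h), fun g hg => ?_⟩
    exact Subtype.ext (hd0 g hg)
  obtain ⟨⟨v, hv⟩, hne, hfix2⟩ := HasFix.of_pc hanti hP hfix
  refine ⟨v, fun h => hne (Subtype.ext h), hv, fun g hg => ?_⟩
  exact congrArg Subtype.val (hfix2 g hg)

/-- Functions with fibres of the same sizes differ by a permutation. -/
lemma exists_perm_of_fibers {γ : Type*} [DecidableEq γ] (f f' : S → γ)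
    (h : ∀ a, (univ.filter fun s => f s = a).card = (univ.filter fun s => f' s = a).card) :
    ∃ g : Perm S, ∀ s, f (g s) = f' s := by
  have e : ∀ a, Nonempty ({s // f' s = a} ≃ {s // f s = a}) := by
    intro a
    refine ⟨Fintype.equivOfCardEq ?_⟩
    rw [Fintype.card_subtype, Fintype.card_subtype]
    exact (h a).symm
  let E := fun a => Classical.choice (e a)
  exact ⟨Equiv.ofFiberEquiv E, fun s => Equiv.ofFiberEquiv_map E s⟩

/-- **The fixed vector, by placing the doubles in pairs of rows.** -/
theorem exists_fix_of_rows {ν : YoungDiagram} (T : Tab ν S)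
    {ι : Type*} [DecidableEq ι] (I : Finset ι) (B0 : S → ι) (r : ι → ℕ)
    (hr : Set.InjOn r I)
    (h1 : ∀ s, B0 s ∈ I → rowC T s = r (B0 s) ∨ rowC T s = r (B0 s) + 1)
    (h2 : ∀ i ∈ I, Even (univ.filter fun s => B0 s = i ∧ rowC T s = r i).card)
    (h3 : ∀ i ∈ I, Even (univ.filter fun s => B0 s = i ∧ rowC T s = r i + 1).card)
    (B : S → ι) (A : ι → Finset S) (hA : ∀ i ∈ I, ∀ s ∈ A i, B s = i)
    (hcB : ∀ i ∈ I, (univ.filter fun s => B s = i).card = (univ.filter fun s => B0 s = i).card)
    (hcA : ∀ i ∈ I, 2 * (A i).card = (univ.filter fun s => B s = i).card)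
    (c : S → ℕ) (sl : ℕ → ℕ)
    (hsl : ∀ s s', B0 s ∉ I → B0 s' ∉ I → sl (rowC T s) = sl (rowC T s') → rowC T s = rowC T s')
    (hanti : Antitone (lc fun s : {s // B s ∉ I} => c s))
    (hP : ∀ k, pc (fun s : {s // B s ∉ I} => c s) k ≤
      (univ.filter fun s => B0 s ∉ I ∧ sl (rowC T s) < k).card)
    [FiniteDimensional ℂ V] {ρ : Representation ℂ (Perm S) V} (hρ : ρ.IsIrreducible)
    (hlab : Label ρ ν) :
    ∃ v, v ≠ 0 ∧ ∀ g : Perm S,
      (∀ s, B s ∈ I → B (g s) = B s) → (∀ s, B s ∉ I → B (g s) ∉ I ∧ c (g s) = c s) →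
      (∀ i ∈ I, (∀ s, B s = i → (g s ∈ A i ↔ s ∈ A i)) ∨
        (∀ s, B s = i → (g s ∈ A i ↔ s ∉ A i))) → ρ g v = v := by
  classical
  set R := rowC T with hR
  set Q := colC T with hQ
  have hinj : ∀ s s', Q s = Q s' → R s = R s' → s = s' := fun s s' h1 h2 =>
    rowC_colC_injective T (Prod.ext h2 h1)
  -- Step 0: the sides in the source
  let Z : ι → Finset S := fun i => univ.filter fun s => B0 s = i
  have hZcard : ∀ i ∈ I, Even (Z i).card := by
    intro i hi
    have h4 : Z i = (univ.filter fun s => B0 s = i ∧ R s = r i) ∪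
        (univ.filter fun s => B0 s = i ∧ R s = r i + 1) := by
      ext s
      simp only [Z, mem_filter, mem_univ, true_and, mem_union]
      constructor
      · intro h
        rcases h1 s (h ▸ hi) with h5 | h5
        · left; rw [h] at h5; exact ⟨h, h5⟩
        · right; rw [h] at h5; exact ⟨h, h5⟩
      · rintro (h | h) <;> exact h.1
    rw [h4, Finset.card_union_of_disjoint]
    · exact (h2 i hi).add (h3 i hi)
    · rw [Finset.disjoint_left]
      intro s h5 h6
      have h7 := (mem_filter.mp h5).2.2
      have h8 := (mem_filter.mp h6).2.2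
      omega
  have hside : ∀ i, ∃ A0 : Finset S, i ∈ I → A0 ⊆ Z i ∧ 2 * A0.card = (Z i).card ∧
      (∀ s s', s ∈ Z i → s' ∈ Z i → Q s = Q s' → R s = r i → R s' = r i + 1 →
        s ∉ A0 ∧ s' ∈ A0) := by
    intro i
    by_cases hi : i ∈ I
    swap
    · exact ⟨∅, fun h => absurd h hi⟩
    let Up := (Z i).filter fun s => R s = r i ∧ ∃ u ∈ Z i, R u = r i + 1 ∧ Q u = Q s
    let Lo := (Z i).filter fun s => R s = r i + 1 ∧ ∃ u ∈ Z i, R u = r i ∧ Q u = Q s
    have hUpLo : Up.card = Lo.card := by
      have e1 : Up.card = (Up.image Q).card := by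
        rw [Finset.card_image_of_injOn]
        intro a ha b hb hab
        have ha' := (mem_filter.mp (mem_coe.mp ha)).2.1
        have hb' := (mem_filter.mp (mem_coe.mp hb)).2.1
        exact hinj a b hab (ha'.trans hb'.symm)
      have e2 : Lo.card = (Lo.image Q).card := by
        rw [Finset.card_image_of_injOn]
        intro a ha b hb hab
        have ha' := (mem_filter.mp (mem_coe.mp ha)).2.1
        have hb' := (mem_filter.mp (mem_coe.mp hb)).2.1
        exact hinj a b hab (ha'.trans hb'.symm)
      rw [e1, e2]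
      congr 1
      ext j
      simp only [mem_image, Up, Lo, mem_filter]
      constructor
      · rintro ⟨a, ⟨ha, hrow, u, hu, hu2, hu3⟩, rfl⟩
        exact ⟨u, ⟨hu, hu2, a, ha, hrow, hu3.symm⟩, hu3⟩
      · rintro ⟨a, ⟨ha, hrow, u, hu, hu2, hu3⟩, rfl⟩
        exact ⟨u, ⟨hu, hu2, a, ha, hrow, hu3.symm⟩, hu3⟩
    have hdisj : Disjoint Up Lo := by
      rw [Finset.disjoint_left]
      intro s h4 h5
      have h6 := (mem_filter.mp h4).2.1
      have h7 := (mem_filter.mp h5).2.1
      omega
    have hsub : Up ∪ Lo ⊆ Z i := union_subset (filter_subset _ _) (filter_subset _ _)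
    have hcard2 := card_le_card hsub
    rw [Finset.card_union_of_disjoint hdisj] at hcard2
    obtain ⟨m, hm⟩ := hZcard i hi
    have hLoSub : Lo ⊆ Z i \ Up := by
      intro s hs
      refine mem_sdiff.mpr ⟨(mem_filter.mp hs).1, fun h => ?_⟩
      exact (Finset.disjoint_left.mp hdisj h) hs
    have hcdiff : (Z i \ Up).card = (Z i).card - Up.card :=
      card_sdiff_of_subset (filter_subset _ _)
    obtain ⟨A0, h4, h5, h6⟩ := Finset.exists_subsuperset_card_eq (n := m) hLoSub (by omega) (by omega)
    refine ⟨A0, fun _ => ⟨h5.trans sdiff_subset, by omega, ?_⟩⟩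
    intro s s' hs hs' hq h7 h8
    constructor
    · intro h9
      have h10 := mem_sdiff.mp (h5 h9)
      apply h10.2
      exact mem_filter.mpr ⟨hs, h7, s', hs', h8, hq.symm⟩
    · apply h4
      exact mem_filter.mpr ⟨hs', h8, s, hs, h7, hq⟩
  choose A0 hA0 using hside
  -- Step 1: the source labels
  let c0 : S → ℕ := fun s =>
    if B0 s ∈ I then 3 * r (B0 s) + 1 + (if s ∈ A0 (B0 s) then 1 else 0) else 3 * R s
  have hc0E : ∀ s, B0 s ∈ I → c0 s = 3 * r (B0 s) + 1 + (if s ∈ A0 (B0 s) then 1 else 0) :=
    fun s hs => if_pos hs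
  have hc0R : ∀ s, B0 s ∉ I → c0 s = 3 * R s := fun s hs => if_neg hs
  let E0 : Finset ℕ := I.image fun i => 3 * r i + 1
  have hE0 : ∀ x ∈ E0, x + 1 ∉ E0 := by
    intro x hx hn
    obtain ⟨i, _, rfl⟩ := mem_image.mp hx
    obtain ⟨j, _, hj⟩ := mem_image.mp hn
    omega
  have hcs : ∀ s s', Q s = Q s' → R s < R s' → c0 s < c0 s' := by
    intro s s' hq hlt
    by_cases hs : B0 s ∈ I <;> by_cases hs' : B0 s' ∈ I
    · rw [hc0E s hs, hc0E s' hs']
      have h4 := h1 s hs
      have h5 := h1 s' hs'
      by_cases hb : B0 s = B0 s'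
      · have h6 : R s = r (B0 s) := by
          rw [← hb] at h5
          have : R s = rowC T s := rfl
          omega
        have h7 : R s' = r (B0 s) + 1 := by
          rw [← hb] at h5
          have : R s = rowC T s := rfl
          have : R s' = rowC T s' := rfl
          omega
        have h8 := ((hA0 (B0 s) hs).2.2 s s' (by simp [Z]) (by simp [Z, hb]) hq h6 h7)
        rw [← hb, if_neg h8.1, if_pos h8.2]
        omega
      · have hrne : r (B0 s) ≠ r (B0 s') := fun h => hb (hr hs hs' h)
        have h6 : R s = rowC T s := rfl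
        have h7 : R s' = rowC T s' := rfl
        split_ifs <;> omega
    · rw [hc0E s hs, hc0R s' hs']
      have h4 := h1 s hs
      have h6 : R s = rowC T s := rfl
      split_ifs <;> omega
    · rw [hc0R s hs, hc0E s' hs']
      have h4 := h1 s' hs'
      have h6 : R s' = rowC T s' := rfl
      split_ifs <;> omega
    · rw [hc0R s hs, hc0R s' hs']
      omega
  have hpar : ∀ x ∈ E0, Even (∑ s ∈ univ.filter (fun s => c0 s = x ∨ c0 s = x + 1), rowC T s) := by
    intro x hx
    obtain ⟨i, hi, rfl⟩ := mem_image.mp hx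
    have h4 : (univ.filter fun s => c0 s = 3 * r i + 1 ∨ c0 s = 3 * r i + 1 + 1) =
        (univ.filter fun s => B0 s = i ∧ R s = r i) ∪
        (univ.filter fun s => B0 s = i ∧ R s = r i + 1) := by
      ext s
      simp only [mem_filter, mem_univ, true_and, mem_union]
      by_cases hs : B0 s ∈ I
      · rw [hc0E s hs]
        have h5 := h1 s hs
        have h6 : R s = rowC T s := rfl
        constructor
        · intro h
          have h7 : r (B0 s) = r i := by split_ifs at h <;> omega
          have h8 : B0 s = i := hr hs hi h7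
          rw [h8] at h5
          rcases h5 with h5 | h5
          · left; exact ⟨h8, h6.trans h5⟩
          · right; exact ⟨h8, h6.trans h5⟩
        · rintro (⟨h, _⟩ | ⟨h, _⟩) <;> rw [h] <;> split_ifs <;> omega
      · rw [hc0R s hs]
        constructor
        · intro h; omega
        · rintro (⟨h, _⟩ | ⟨h, _⟩) <;> exact absurd (h ▸ hi) hs
    rw [h4, Finset.sum_union]
    · apply Even.add
      · rw [Finset.sum_congr rfl (g := fun _ => r i)
          (fun s hs => (mem_filter.mp hs).2.2), Finset.sum_const, smul_eq_mul]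
        exact (h2 i hi).mul_right _
      · rw [Finset.sum_congr rfl (g := fun _ => r i + 1)
          (fun s hs => (mem_filter.mp hs).2.2), Finset.sum_const, smul_eq_mul]
        exact (h3 i hi).mul_right _
    · rw [Finset.disjoint_left]
      intro s h5 h6
      have h7 := (mem_filter.mp h5).2.2
      have h8 := (mem_filter.mp h6).2.2
      omega
  obtain ⟨v0, hv0, hfix0⟩ := exists_fix_of_filling T hE0 hcs hpar hρ hlab
  -- Step 2: the permutation
  let L : S → Option (ι × Bool) := fun s =>
    if B s ∈ I then some (B s, decide (s ∈ A (B s))) else none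
  let L0 : S → Option (ι × Bool) := fun s =>
    if B0 s ∈ I then some (B0 s, decide (s ∈ A0 (B0 s))) else none
  have hfib : ∀ a, (univ.filter fun s => L s = a).card = (univ.filter fun s => L0 s = a).card := by
    intro a
    cases a with
    | none =>
      have e1 : (univ.filter fun s => L s = none) = univ.filter fun s => B s ∉ I := by
        ext s
        simp only [L, mem_filter, mem_univ, true_and]
        split_ifs with h <;> simp [h]
      have e2 : (univ.filter fun s => L0 s = none) = univ.filter fun s => B0 s ∉ I := by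
        ext s
        simp only [L0, mem_filter, mem_univ, true_and]
        split_ifs with h <;> simp [h]
      rw [e1, e2]
      have e3 : (univ.filter fun s => B s ∈ I).card = (univ.filter fun s => B0 s ∈ I).card := by
        rw [Finset.card_eq_sum_card_fiberwise (f := B) (t := I)
          (fun s hs => by simpa using hs),
          Finset.card_eq_sum_card_fiberwise (f := B0) (t := I)
          (fun s hs => by simpa using hs)]
        refine sum_congr rfl fun i hi => ?_
        have e4 : (univ.filter fun s => B s ∈ I).filter (fun s => B s = i) =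
            univ.filter fun s => B s = i := by
          ext s
          simp only [mem_filter, mem_univ, true_and]
          constructor
          · exact fun h => h.2
          · intro h; exact ⟨h ▸ hi, h⟩
        have e5 : (univ.filter fun s => B0 s ∈ I).filter (fun s => B0 s = i) =
            univ.filter fun s => B0 s = i := by
          ext s
          simp only [mem_filter, mem_univ, true_and]
          constructor
          · exact fun h => h.2
          · intro h; exact ⟨h ▸ hi, h⟩
        rw [e4, e5]
        exact hcB i hi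
      have e6 := Finset.card_filter_add_card_filter_not (s := (univ : Finset S)) (fun s => B s ∈ I)
      have e7 := Finset.card_filter_add_card_filter_not (s := (univ : Finset S)) (fun s => B0 s ∈ I)
      omega
    | some p =>
      obtain ⟨i, b⟩ := p
      by_cases hi : i ∈ I
      · have e1 : ∀ s, L s = some (i, b) ↔ B s = i ∧ (decide (s ∈ A i) = b) := by
          intro s
          simp only [L]
          by_cases h : B s ∈ I
          · rw [if_pos h]
            simp only [Option.some.injEq, Prod.mk.injEq]
            constructor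
            · rintro ⟨h1, h2⟩
              subst h1
              exact ⟨rfl, h2⟩
            · rintro ⟨h1, h2⟩
              subst h1
              exact ⟨rfl, h2⟩
          · rw [if_neg h]
            simp only [reduceCtorEq, false_iff, not_and]
            intro h1
            exact absurd (h1 ▸ hi) h
        have e2 : ∀ s, L0 s = some (i, b) ↔ B0 s = i ∧ (decide (s ∈ A0 i) = b) := by
          intro s
          simp only [L0]
          by_cases h : B0 s ∈ I
          · rw [if_pos h]
            simp only [Option.some.injEq, Prod.mk.injEq]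
            constructor
            · rintro ⟨h1, h2⟩
              subst h1
              exact ⟨rfl, h2⟩
            · rintro ⟨h1, h2⟩
              subst h1
              exact ⟨rfl, h2⟩
          · rw [if_neg h]
            simp only [reduceCtorEq, false_iff, not_and]
            intro h1
            exact absurd (h1 ▸ hi) h
        simp only [e1, e2]
        obtain ⟨h4, h5, h6⟩ := hA0 i hi
        have hAsub : A i ⊆ univ.filter fun s => B s = i := fun s hs => by
          simpa using hA i hi s hs
        have hAc := hcA i hi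
        have hBc := hcB i hi
        cases b with
        | true =>
          have e3 : (univ.filter fun s => B s = i ∧ decide (s ∈ A i) = true) = A i := by
            ext s
            simp only [mem_filter, mem_univ, true_and, decide_eq_true_eq]
            exact ⟨fun h => h.2, fun h => ⟨hA i hi s h, h⟩⟩
          have e4 : (univ.filter fun s => B0 s = i ∧ decide (s ∈ A0 i) = true) = A0 i := by
            ext s
            simp only [mem_filter, mem_univ, true_and, decide_eq_true_eq]
            exact ⟨fun h => h.2, fun h => ⟨(mem_filter.mp (h4 h)).2, h⟩⟩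
          rw [e3, e4]
          have : (Z i).card = (univ.filter fun s => B0 s = i).card := rfl
          omega
        | false =>
          have e3 : (univ.filter fun s => B s = i ∧ decide (s ∈ A i) = false) =
              (univ.filter fun s => B s = i) \ A i := by
            ext s
            simp only [mem_filter, mem_univ, true_and, decide_eq_false_iff_not, mem_sdiff]
          have e4 : (univ.filter fun s => B0 s = i ∧ decide (s ∈ A0 i) = false) = Z i \ A0 i := by
            ext s
            simp only [Z, mem_filter, mem_univ, true_and, decide_eq_false_iff_not, mem_sdiff]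
          rw [e3, e4, card_sdiff_of_subset hAsub, card_sdiff_of_subset h4]
          have : (Z i).card = (univ.filter fun s => B0 s = i).card := rfl
          omega
      · have e1 : ∀ s, L s ≠ some (i, b) := by
          intro s h
          simp only [L] at h
          split_ifs at h with h1
          simp only [Option.some.injEq, Prod.mk.injEq] at h
          exact hi (h.1 ▸ h1)
        have e2 : ∀ s, L0 s ≠ some (i, b) := by
          intro s h
          simp only [L0] at h
          split_ifs at h with h1
          simp only [Option.some.injEq, Prod.mk.injEq] at h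
          exact hi (h.1 ▸ h1)
        simp [e1, e2]
  obtain ⟨g0, hg0⟩ := exists_perm_of_fibers L L0 hfib
  have hE1 : ∀ s, B0 s ∈ I → B (g0 s) = B0 s ∧ (g0 s ∈ A (B0 s) ↔ s ∈ A0 (B0 s)) := by
    intro s hs
    have h4 := hg0 s
    simp only [L, L0, if_pos hs] at h4
    split_ifs at h4 with h5
    simp only [Option.some.injEq, Prod.mk.injEq, decide_eq_decide] at h4
    obtain ⟨h6, h7⟩ := h4
    rw [h6] at h7
    exact ⟨h6, h7⟩
  have hE2 : ∀ s, B0 s ∉ I → B (g0 s) ∉ I := by
    intro s hs
    have h4 := hg0 s
    simp only [L, L0, if_neg hs] at h4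
    split_ifs at h4 with h5
    exact h5
  have hE3 : ∀ s, B (g0 s) ∈ I → B0 s ∈ I := fun s h => by
    by_contra h5
    exact hE2 s h5 h
  have hE4 : ∀ s, B0 s ∉ I ↔ B (g0 s) ∉ I := fun s =>
    ⟨hE2 s, fun h5 h6 => h5 ((hE1 s h6).1.symm ▸ h6)⟩
  -- Step 3: the rest
  let P : S → Prop := fun s => B0 s ∉ I
  let d0 : {s // P s} → ℕ := fun x => sl (R x)
  let d1 : {s // P s} → ℕ := fun x => c (g0 x)
  let e0 : {s // P s} ≃ {s // B s ∉ I} := g0.subtypeEquiv hE4
  have hlc : ∀ a, lc d1 a = lc (fun s : {s // B s ∉ I} => c s) a := by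
    intro a
    simp only [lc]
    apply Finset.card_bij (fun x _ => e0 x)
    · intro x hx
      simpa [e0, d1] using hx
    · intro x _ y _ h
      exact e0.injective h
    · intro y hy
      refine ⟨e0.symm y, ?_, by simp⟩
      have h4 : d1 (e0.symm y) = c (e0 (e0.symm y)) := rfl
      simp only [mem_filter, mem_univ, true_and] at hy ⊢
      rw [h4, e0.apply_symm_apply]
      exact hy
  have hanti' : Antitone (lc d1) := by
    have : lc d1 = lc (fun s : {s // B s ∉ I} => c s) := funext hlc
    rw [this]
    exact hanti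
  have hP' : ∀ k, pc d1 k ≤ pc d0 k := by
    intro k
    have e1 : pc d1 k = pc (fun s : {s // B s ∉ I} => c s) k := by
      simp only [pc]
      apply Finset.card_bij (fun x _ => e0 x)
      · intro x hx
        simpa [e0, d1] using hx
      · intro x _ y _ h
        exact e0.injective h
      · intro y hy
        refine ⟨e0.symm y, ?_, by simp⟩
        have h4 : d1 (e0.symm y) = c (e0 (e0.symm y)) := rfl
        simp only [mem_filter, mem_univ, true_and] at hy ⊢
        rw [h4, e0.apply_symm_apply]
        exact hy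
    have e2 : pc d0 k = (univ.filter fun s => B0 s ∉ I ∧ sl (rowC T s) < k).card := by
      simp only [pc]
      apply Finset.card_bij (fun (x : {s // P s}) _ => (x : S))
      · intro x hx
        simp only [mem_filter, mem_univ, true_and] at hx ⊢
        exact ⟨x.2, hx⟩
      · intro x _ y _ h
        exact Subtype.ext h
      · intro y hy
        simp only [mem_filter, mem_univ, true_and] at hy
        exact ⟨⟨y, hy.1⟩, by simpa [d0] using hy.2, rfl⟩
    rw [e1, e2]
    exact hP k
  let KZ : Set (Perm S) := {κ | (∀ s, P s → κ s = s) ∧ Adm c0 E0 κ}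
  have hd0 : ∀ g ∈ stab d0, ρ (Perm.ofSubtype g) v0 = v0 := by
    intro g hg
    apply hfix0
    refine ⟨id, ⟨fun _ _ _ => rfl, fun x _ => Or.inl ⟨rfl, rfl⟩⟩, fun s => ?_⟩
    by_cases hs : P s
    · have h4 : Perm.ofSubtype g s = g ⟨s, hs⟩ := Perm.ofSubtype_apply_of_mem g hs
      rw [h4]
      have h5 := (g ⟨s, hs⟩).2
      simp only [id]
      rw [hc0R _ h5, hc0R s hs]
      have h6 : d0 (g ⟨s, hs⟩) = d0 ⟨s, hs⟩ := mem_stab.mp hg _
      have h7 : R (g ⟨s, hs⟩ : S) = R s := hsl _ _ h5 hs h6
      show 3 * R (g ⟨s, hs⟩ : S) = 3 * R s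
      rw [h7]
    · rw [Perm.ofSubtype_apply_of_not_mem g hs]
      rfl
  obtain ⟨v1, hv1, hKv1, hd1v1⟩ := of_pc_on_part ρ P KZ (fun κ hκ => hκ.1) hanti' hP' hv0
    (fun κ hκ => hfix0 κ hκ.2) hd0
  refine ⟨ρ g0 v1, ?_, ?_⟩
  · intro h
    apply hv1
    have h4 := congrArg (ρ g0⁻¹) h
    rw [← Module.End.mul_apply, ← map_mul, inv_mul_cancel, map_one, map_zero] at h4
    simpa using h4
  intro g hg1 hg2 hg3
  set κ1 : Perm S := g0⁻¹ * g * g0 with hκ1
  have hkey : ∀ s, g0 (κ1 s) = g (g0 s) := by
    intro s
    simp [hκ1]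
  have hP1 : ∀ s, B0 s ∉ I → B0 (κ1 s) ∉ I := by
    intro s hs h4
    have h5 := (hE1 _ h4).1
    rw [hkey] at h5
    have h6 := (hg2 _ (hE2 s hs)).1
    rw [h5] at h6
    exact h6 h4
  have hP2 : ∀ s, B0 s ∈ I → B0 (κ1 s) = B0 s := by
    intro s hs
    have h4 := (hE1 s hs).1
    have h5 := hg1 (g0 s) (h4 ▸ hs)
    rw [← hkey, h4] at h5
    have h6 := hE3 (κ1 s) (h5 ▸ hs)
    have h7 := (hE1 _ h6).1
    exact h7.symm.trans h5
  have hP3 : ∀ s, P (κ1 s) ↔ P s := by
    intro s
    constructor
    · intro h4 h5
      exact h4 ((hP2 s h5).symm ▸ h5)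
    · exact hP1 s
  let h : Perm {s // P s} := κ1.subtypePerm hP3
  have hh : h ∈ stab d1 := by
    rw [mem_stab]
    intro x
    show c (g0 (κ1 x)) = c (g0 x)
    rw [hkey]
    exact (hg2 _ (hE2 x x.2)).2
  have hρ1 := hd1v1 h hh
  set κZ : Perm S := κ1 * (Perm.ofSubtype h)⁻¹ with hκZ
  have hκZ1 : ∀ s, P s → κZ s = s := by
    intro s hs
    set z := (Perm.ofSubtype h)⁻¹ s with hz
    have h4 : Perm.ofSubtype h z = s := by simp [hz]
    have h5 : P z := (Perm.ofSubtype_apply_mem_iff_mem h z).mp (h4 ▸ hs)
    have h6 : Perm.ofSubtype h z = κ1 z := Perm.ofSubtype_apply_of_mem h h5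
    show κ1 z = s
    rw [← h6, h4]
  have hκZ2 : ∀ s, ¬ P s → κZ s = κ1 s := by
    intro s hs
    have h4 : Perm.ofSubtype h s = s := Perm.ofSubtype_apply_of_not_mem h hs
    have h5 : (Perm.ofSubtype h)⁻¹ s = s := by
      rw [Perm.inv_eq_iff_eq, h4]
    show κ1 ((Perm.ofSubtype h)⁻¹ s) = κ1 s
    rw [h5]
  -- the swap of labels
  let F : ι → Prop := fun i => ∀ s, B s = i → (g s ∈ A i ↔ s ∉ A i)
  let π : ℕ → ℕ := fun y =>
    if ∃ i ∈ I, F i ∧ y = 3 * r i + 1 then y + 1
    else if ∃ i ∈ I, F i ∧ y = 3 * r i + 2 then y - 1 else y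
  have π1 : ∀ i ∈ I, F i → π (3 * r i + 1) = 3 * r i + 2 := by
    intro i hi hF
    simp only [π]
    rw [if_pos ⟨i, hi, hF, rfl⟩]
  have π2 : ∀ i ∈ I, F i → π (3 * r i + 2) = 3 * r i + 1 := by
    intro i hi hF
    simp only [π]
    rw [if_neg, if_pos ⟨i, hi, hF, rfl⟩]
    · rfl
    · rintro ⟨j, _, _, hj⟩
      omega
  have π3 : ∀ i ∈ I, ¬ F i → π (3 * r i + 1) = 3 * r i + 1 := by
    intro i hi hF
    simp only [π]
    rw [if_neg, if_neg]
    · rintro ⟨j, _, _, hj⟩
      omega
    · rintro ⟨j, hj, hFj, hj2⟩
      have : r i = r j := by omega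
      have := hr hi hj this
      exact hF (this ▸ hFj)
  have π4 : ∀ i ∈ I, ¬ F i → π (3 * r i + 2) = 3 * r i + 2 := by
    intro i hi hF
    simp only [π]
    rw [if_neg, if_neg]
    · rintro ⟨j, hj, hFj, hj2⟩
      have : r i = r j := by omega
      have := hr hi hj this
      exact hF (this ▸ hFj)
    · rintro ⟨j, _, _, hj⟩
      omega
  have π5 : ∀ y, y % 3 = 0 → π y = y := by
    intro y hy
    simp only [π]
    rw [if_neg, if_neg]
    · rintro ⟨j, _, _, hj⟩
      omega
    · rintro ⟨j, _, _, hj⟩
      omega
  have hπ : IsSwap E0 π := by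
    constructor
    · intro y hy hy2
      simp only [π]
      rw [if_neg, if_neg]
      · rintro ⟨j, hj, _, hj2⟩
        exact hy2 _ (mem_image_of_mem _ hj) (by omega)
      · rintro ⟨j, hj, _, hj2⟩
        exact hy (hj2 ▸ mem_image_of_mem _ hj)
    · intro x hx
      obtain ⟨i, hi, rfl⟩ := mem_image.mp hx
      by_cases hF : F i
      · right
        exact ⟨π1 i hi hF, π2 i hi hF⟩
      · left
        exact ⟨π3 i hi hF, π4 i hi hF⟩
  have hAdm : Adm c0 E0 κZ := by
    refine ⟨π, hπ, fun s => ?_⟩
    by_cases hs : P s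
    · rw [hκZ1 s hs, hc0R s hs, π5]
      omega
    · have hs' : B0 s ∈ I := by
        by_contra h4
        exact hs h4
      rw [hκZ2 s hs]
      set i := B0 s with hi
      have h4 := hP2 s hs'
      have hs2 : B0 (κ1 s) ∈ I := h4 ▸ hs'
      rw [hc0E _ hs2, hc0E s hs', h4, ← hi]
      have h5 := (hE1 (κ1 s) hs2).2
      rw [h4, hkey, ← hi] at h5
      have h6 := (hE1 s hs').2
      rw [← hi] at h6
      have h7 : B (g0 s) = i := (hE1 s hs').1
      by_cases hF : F i
      · have h8 := hF (g0 s) h7
        by_cases h9 : s ∈ A0 i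
        · have h10 : κ1 s ∉ A0 i := by
            rw [← h5, h8, h6]
            simpa using h9
          rw [if_pos h9, if_neg h10]
          exact (π2 i hs' hF).symm
        · have h10 : κ1 s ∈ A0 i := by
            rw [← h5, h8, h6]
            exact h9
          rw [if_neg h9, if_pos h10]
          exact (π1 i hs' hF).symm
      · have h8 := ((hg3 i hs').resolve_right hF) (g0 s) h7
        by_cases h9 : s ∈ A0 i
        · have h10 : κ1 s ∈ A0 i := by
            rw [← h5, h8, h6]
            exact h9
          rw [if_pos h9, if_pos h10]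
          exact (π4 i hs' hF).symm
        · have h10 : κ1 s ∉ A0 i := by
            rw [← h5, h8, h6]
            exact h9
          rw [if_neg h9, if_neg h10]
          exact (π3 i hs' hF).symm
  have hfinal : ρ κ1 v1 = v1 := by
    have e : κ1 = κZ * Perm.ofSubtype h := by simp [hκZ]
    rw [e, map_mul, Module.End.mul_apply, hρ1]
    exact hKv1 κZ ⟨hκZ1, hAdm⟩
  have e : g * g0 = g0 * κ1 := by simp [hκ1, mul_assoc]
  rw [← Module.End.mul_apply, ← map_mul, e, map_mul, Module.End.mul_apply, hfinal]

end Crest.Agent.Saxl.EFix
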