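import Crest.Agent.Lib.Saxl.Column
import Crest.Agent.Lib.Saxl.Conj
import Crest.Agent.Lib.Saxl.Bridge

/-!
# The Specht modules of Young diagrams are irreducible

James' argument in the language of functions on words.
-/

set_option autoImplicit false

open scoped BigOperators ComplexConjugate
open Equiv Crest.AlgebraR.Specht

namespace Crest.Agent.Saxl

section Words

variable {S : Type*} [Fintype S] [DecidableEq S]

omit [DecidableEq S] in
/-- **Pigeonhole**: a word with the content of the diagram and no repeated letter in a column fills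
the diagram. -/
theorem cell_mem {μ : YoungDiagram} (t : Tab μ S) (w : S → ℕ) (hcont : ∀ b, lc w b = μ.rowLen b)
    (hinj : ∀ s s', colC t s = colC t s' → w s = w s' → s = s') : ∀ s, (w s, colC t s) ∈ μ := by
  have key : ∀ b, ∀ s, w s = b → (b, colC t s) ∈ μ := by
    intro b
    induction b using Nat.strong_induction_on with
    | _ b ih =>
      intro s hs
      by_contra hnot
      set j := colC t s with hj
      have hh : μ.colLen j ≤ b := by
        by_contra h
        exact hnot (YoungDiagram.mem_iff_lt_colLen.mpr (by omega))
      have hexists : ∀ a < μ.colLen j, ∃ s', colC t s' = j ∧ w s' = a := by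
        intro a ha
        have hab : a < b := by omega
        have hsub : (Finset.univ.filter fun s' => w s' = a).image (colC t) ⊆
            Finset.range (μ.rowLen a) := by
          intro x hx
          obtain ⟨s', hs', rfl⟩ := Finset.mem_image.mp hx
          have h1 := ih a hab s' (Finset.mem_filter.mp hs').2
          exact Finset.mem_range.mpr (YoungDiagram.mem_iff_lt_rowLen.mp h1)
        have himg : (Finset.univ.filter fun s' => w s' = a).image (colC t) =
            Finset.range (μ.rowLen a) := by
          refine Finset.eq_of_subset_of_card_le hsub ?_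
          rw [Finset.card_image_of_injOn, Finset.card_range, ← hcont a]
          · rfl
          · intro x hx y hy hxy
            have hx' : w x = a := (Finset.mem_filter.mp (Finset.mem_coe.mp hx)).2
            have hy' : w y = a := (Finset.mem_filter.mp (Finset.mem_coe.mp hy)).2
            exact hinj x y hxy (hx'.trans hy'.symm)
        have hjm : j ∈ Finset.range (μ.rowLen a) := by
          have h1 : (a, j) ∈ μ := YoungDiagram.mem_iff_lt_colLen.mpr ha
          exact Finset.mem_range.mpr (YoungDiagram.mem_iff_lt_rowLen.mp h1)
        rw [← himg] at hjm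
        obtain ⟨s', hs', hc⟩ := Finset.mem_image.mp hjm
        exact ⟨s', hc, (Finset.mem_filter.mp hs').2⟩
      have hsub : insert b (Finset.range (μ.colLen j)) ⊆
          (Finset.univ.filter fun s' => colC t s' = j).image w := by
        intro a ha
        rcases Finset.mem_insert.mp ha with rfl | ha
        · exact Finset.mem_image.mpr ⟨s, Finset.mem_filter.mpr ⟨Finset.mem_univ _, rfl⟩, hs⟩
        · obtain ⟨s', h1, h2⟩ := hexists a (Finset.mem_range.mp ha)
          exact Finset.mem_image.mpr ⟨s', Finset.mem_filter.mpr ⟨Finset.mem_univ _, h1⟩, h2⟩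
      have h1 := Finset.card_le_card hsub
      have h2 := Finset.card_image_le (s := Finset.univ.filter fun s' => colC t s' = j) (f := w)
      rw [card_colC_eq] at h2
      rw [Finset.card_insert_of_notMem (by simpa using hh), Finset.card_range] at h1
      omega
  exact fun s => key _ s rfl

/-- **Pigeonhole**: such a word is a column permutation of the row word. -/
theorem exists_perm_of_content {μ : YoungDiagram} (t : Tab μ S) (w : S → ℕ)
    (hcont : ∀ b, lc w b = μ.rowLen b)
    (hinj : ∀ s s', colC t s = colC t s' → w s = w s' → s = s') :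
    ∃ ψ : Perm S, ψ ∈ stab (colC t) ∧ w = rowC t ∘ ψ := by
  let f : S → S := fun s => t ⟨(w s, colC t s), cell_mem t w hcont hinj s⟩
  have hr : ∀ s, rowC t (f s) = w s := fun s => by simp [rowC, f]
  have hc : ∀ s, colC t (f s) = colC t s := fun s => by simp [colC, f]
  have hfinj : Function.Injective f := by
    intro s s' h
    have h1 : w s = w s' := by rw [← hr, ← hr, h]
    have h2 : colC t s = colC t s' := by rw [← hc s, ← hc s', h]
    exact hinj s s' h2 h1
  let ψ : Perm S := Equiv.ofBijective f (Finite.injective_iff_bijective.mp hfinj)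
  refine ⟨ψ, ?_, ?_⟩
  · rw [mem_stab]
    exact hc
  · funext s
    exact (hr s).symm

/-- The coefficient of a function on the polytabloid of `t`. -/
noncomputable def KK {μ : YoungDiagram} (t : Tab μ S) (u : Fn S) : ℂ :=
  ∑ σ ∈ stab (colC t), sgn σ * u (rowC t ∘ σ)

/-- **Key**: antisymmetrizing a function of the right content gives a multiple of a polytabloid. -/
theorem symB_apply {μ : YoungDiagram} (t : Tab μ S) (u : Fn S)
    (hu : ∀ w, u w ≠ 0 → ∀ b, lc w b = μ.rowLen b) :
    gact (fnRep S) (symB (colC t)) u = KK t u • poly t := by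
  rw [gact_symB]
  funext w
  simp only [Finset.sum_apply, Pi.smul_apply, fnRep_apply, smul_eq_mul]
  have hpoly : ∀ σ ∈ stab (colC t), ∀ b, lc (rowC t ∘ σ) b = μ.rowLen b := by
    intro σ _ b
    rw [lc_comp, lc_rowC]
  by_cases hcont : ∀ b, lc w b = μ.rowLen b
  · by_cases hinj : ∀ s s', colC t s = colC t s' → w s = w s' → s = s'
    · obtain ⟨ψ, hψ, rfl⟩ := exists_perm_of_content t w hcont hinj
      have h1 : poly t (rowC t ∘ ψ) = sgn ψ := by
        have h2 := polyRC_eval (r := rowC t) (c := colC t) (rowC_colC_injective t)
          (inv_mem_stab hψ)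
        rw [inv_inv, sgn_inv] at h2
        exact h2
      rw [h1, KK, ← sum_stab_mulLeft (colC t) hψ (fun g => sgn g * u (rowC t ∘ g)), Finset.sum_mul]
      refine Finset.sum_congr rfl fun g _ => ?_
      have h2 : rowC t ∘ ⇑(ψ * g) = (rowC t ∘ ⇑ψ) ∘ ⇑g := rfl
      rw [h2, sgn_mul]
      linear_combination (-(sgn g * u ((rowC t ∘ ⇑ψ) ∘ ⇑g))) * sgn_mul_self ψ
    · push Not at hinj
      obtain ⟨s, s', hc, hw, hne⟩ := hinj
      have hτ : swap s s' ∈ stab (colC t) := swap_mem_stab hc
      have hfix : w ∘ ⇑(swap s s') = w := by
        funext a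
        by_cases h1 : a = s
        · subst h1
          simp [hw]
        · by_cases h2 : a = s'
          · subst h2
            simp [hw]
          · simp [swap_apply_of_ne_of_ne h1 h2]
      have hzero : ∑ x ∈ stab (colC t), sgn x * u (w ∘ ⇑x) = 0 := by
        have h3 := sum_stab_mulLeft (colC t) hτ (fun g => sgn g * u (w ∘ ⇑g))
        have h4 : ∑ g ∈ stab (colC t), sgn (swap s s' * g) * u (w ∘ ⇑(swap s s' * g)) =
            - ∑ g ∈ stab (colC t), sgn g * u (w ∘ ⇑g) := by
          rw [← Finset.sum_neg_distrib]
          refine Finset.sum_congr rfl fun g _ => ?_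
          have h5 : w ∘ ⇑(swap s s' * g) = (w ∘ ⇑(swap s s')) ∘ ⇑g := rfl
          rw [h5, hfix, sgn_mul, sgn_swap hne]
          ring
        rw [h4] at h3
        have h6 : (2 : ℂ) * ∑ g ∈ stab (colC t), sgn g * u (w ∘ ⇑g) = 0 := by
          linear_combination -h3
        simpa using h6
      have hpolyzero : poly t w = 0 := by
        by_contra hne0
        obtain ⟨σ, hσ, rfl⟩ := exists_of_polyRC_ne_zero hne0
        apply hne
        have h7 := inv_mem_stab hσ
        rw [mem_stab] at h7
        have h8 : σ⁻¹ s = σ⁻¹ s' := by
          apply rowC_colC_injective t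
          refine Prod.ext hw ?_
          change colOf t (σ⁻¹ s) = colOf t (σ⁻¹ s')
          rw [h7, h7]
          exact hc
        exact σ⁻¹.injective h8
      rw [hzero, hpolyzero, mul_zero]
  · have hzero : ∑ x ∈ stab (colC t), sgn x * u (w ∘ ⇑x) = 0 := by
      refine Finset.sum_eq_zero fun g _ => ?_
      rw [mul_eq_zero]
      right
      by_contra h0
      apply hcont
      intro b
      rw [← hu _ h0 b, lc_comp]
    have hpolyzero : poly t w = 0 := by
      by_contra hne0
      obtain ⟨σ, hσ, h⟩ := exists_of_polyRC_ne_zero hne0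
      apply hcont
      intro b
      rw [h]
      exact (lc_comp _ _ b).trans (lc_rowC t b)
    rw [hzero, hpolyzero, mul_zero]

/-- The coefficient of `f` is its pairing with the polytabloid. -/
theorem KK_eq_sum {μ : YoungDiagram} (t : Tab μ S) (f : Fn S) :
    ∑ w ∈ wordsOf S μ.cells, poly t w * f w = KK t f := by
  have h1 := sum_poly_mul t 1 f
  have h2 : t.trans (1 : Perm S) = t := by
    ext c
    rfl
  rw [h2] at h1
  rw [h1, KK]
  refine Finset.sum_bij' (fun σ _ => σ⁻¹) (fun σ _ => σ⁻¹) ?_ ?_ ?_ ?_ ?_
  · exact fun σ hσ => inv_mem_stab hσ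
  · exact fun σ hσ => inv_mem_stab hσ
  · simp
  · simp
  · intro σ _
    rw [sgn_inv]
    rfl

/-- The functions in the span of the polytabloids of `μ`. -/
noncomputable def spanPoly (S : Type*) [Fintype S] [DecidableEq S] (μ : YoungDiagram) :
    Submodule ℂ (Fn S) :=
  Submodule.span ℂ (Set.range fun t : Tab μ S => poly t)

theorem spanPoly_support {μ : YoungDiagram} {f : Fn S} (hf : f ∈ spanPoly S μ) (w : S → ℕ)
    (h : w ∉ wordsOf S μ.cells) : f w = 0 := by
  induction hf using Submodule.span_induction with
  | mem x hx =>
    obtain ⟨t, rfl⟩ := hx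
    exact poly_eq_zero t h
  | zero => rfl
  | add x y _ _ hx hy =>
    change x w + y w = 0
    rw [hx, hy, add_zero]
  | smul a x _ hx =>
    change a * x w = 0
    rw [hx, mul_zero]

theorem spanPoly_content {μ : YoungDiagram} {f : Fn S} (hf : f ∈ spanPoly S μ) (w : S → ℕ)
    (h : f w ≠ 0) : ∀ b, lc w b = μ.rowLen b := by
  by_contra hn
  apply h
  clear h
  induction hf using Submodule.span_induction with
  | mem x hx =>
    obtain ⟨t, rfl⟩ := hx
    by_contra hne0
    obtain ⟨σ, hσ, h⟩ := exists_of_polyRC_ne_zero hne0
    apply hn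
    intro b
    rw [h]
    exact (lc_comp _ _ b).trans (lc_rowC t b)
  | zero => rfl
  | add x y _ _ hx hy =>
    change x w + y w = 0
    rw [hx, hy, add_zero]
  | smul a x _ hx =>
    change a * x w = 0
    rw [hx, mul_zero]

/-- A nonzero function in the span of the polytabloids pairs nontrivially with one of them. -/
theorem exists_KK_ne_zero {μ : YoungDiagram} {f : Fn S} (hf : f ∈ spanPoly S μ) (hne : f ≠ 0) :
    ∃ t : Tab μ S, KK t f ≠ 0 := by
  by_contra hall
  push Not at hall
  apply hne
  have horth : ∀ G ∈ spanPoly S μ, ∑ w ∈ wordsOf S μ.cells, conj (G w) * f w = 0 := by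
    intro G hG
    induction hG using Submodule.span_induction with
    | mem x hx =>
      obtain ⟨t, rfl⟩ := hx
      simp only [conj_poly]
      rw [KK_eq_sum, hall]
    | zero => simp
    | add x y _ _ hx hy =>
      simp only [Pi.add_apply, map_add, add_mul, Finset.sum_add_distrib, hx, hy, add_zero]
    | smul a x _ hx =>
      simp only [Pi.smul_apply, smul_eq_mul, map_mul, mul_assoc, ← Finset.mul_sum, hx, mul_zero]
  have h1 := horth f hf
  have h2 : ∑ w ∈ wordsOf S μ.cells, Complex.normSq (f w) = 0 := by
    have h3 : ((∑ w ∈ wordsOf S μ.cells, Complex.normSq (f w) : ℝ) : ℂ) = 0 := by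
      push_cast
      simp only [Complex.normSq_eq_conj_mul_self]
      exact h1
    exact_mod_cast h3
  rw [Finset.sum_eq_zero_iff_of_nonneg (fun _ _ => Complex.normSq_nonneg _)] at h2
  funext w
  by_cases hw : w ∈ wordsOf S μ.cells
  · exact Complex.normSq_eq_zero.mp (h2 w hw)
  · exact spanPoly_support hf w hw

end Words

section Prelude

variable {D : Finset (ℕ × ℕ)}

/-- Renaming a polytabloid. -/
theorem rowWordRep_polytabloid (t : D ≃ Fin D.card) (g : Perm (Fin D.card)) :
    rowWordRep D.card g (polytabloid t) = polytabloid (t.trans g) := by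
  ext w
  rw [rowWordRep_apply, polytabloid_apply, polytabloid_apply, ← fnRep_poly]
  rfl

/-- The Specht module is the span of the polytabloids. -/
theorem specht_eq_span (D : Finset (ℕ × ℕ)) :
    (spechtSubrep D).toSubmodule =
      Submodule.span ℂ (Set.range fun t : D ≃ Fin D.card => polytabloid t) := by
  apply le_antisymm
  · refine sInf_le ⟨Submodule.subset_span, fun g v hv => ?_⟩
    induction hv using Submodule.span_induction with
    | mem x hx =>
      obtain ⟨t, rfl⟩ := hx
      rw [rowWordRep_polytabloid]
      exact Submodule.subset_span ⟨_, rfl⟩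
    | zero => simp
    | add x y _ _ hx hy =>
      rw [map_add]
      exact Submodule.add_mem _ hx hy
    | smul a x _ hx =>
      rw [map_smul]
      exact Submodule.smul_mem _ a hx
  · rw [Submodule.span_le]
    rintro _ ⟨t, rfl⟩
    exact polytabloid_mem t

/-- The Specht module is finite dimensional. -/
instance specht_finiteDimensional (D : Finset (ℕ × ℕ)) :
    FiniteDimensional ℂ (spechtSubrep D).toSubmodule := by
  rw [specht_eq_span]
  exact FiniteDimensional.span_of_finite ℂ (Set.finite_range _)

theorem coe_mem_spanPoly (μ : YoungDiagram) {v : RowWord μ.cells.card →₀ ℂ}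
    (hv : v ∈ (spechtSubrep μ.cells).toSubmodule) :
    (⇑v : Fn (Fin μ.cells.card)) ∈ spanPoly (Fin μ.cells.card) μ := by
  rw [specht_eq_span] at hv
  induction hv using Submodule.span_induction with
  | mem x hx =>
    obtain ⟨t, rfl⟩ := hx
    have : (⇑(polytabloid t) : Fn (Fin μ.cells.card)) = poly t := funext (polytabloid_apply t)
    rw [this]
    exact Submodule.subset_span ⟨t, rfl⟩
  | zero => exact Submodule.zero_mem _
  | add x y _ _ hx hy => exact Submodule.add_mem _ hx hy
  | smul a x _ hx => exact Submodule.smul_mem _ a hx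

/-- **The Specht module of a Young diagram is irreducible.** -/
theorem spechtRep_isIrreducible (μ : YoungDiagram) :
    IsSimpleOrder (Subrepresentation (spechtRep μ.cells)) := by
  set D := μ.cells with hD
  have t0 : D ≃ Fin D.card := D.equivFin
  have hmem : ∀ t : D ≃ Fin D.card, polytabloid t ∈ (spechtSubrep D).toSubmodule := polytabloid_mem
  refine { exists_pair_ne := ⟨⊥, ⊤, ?_⟩, eq_bot_or_eq_top := fun U => ?_ }
  · intro h0
    have h1 : (⟨polytabloid t0, hmem t0⟩ : (spechtSubrep D).toSubmodule) ∈
        (⊤ : Subrepresentation (spechtRep D)) := trivial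
    rw [← h0] at h1
    have h2 : (⟨polytabloid t0, hmem t0⟩ : (spechtSubrep D).toSubmodule) = 0 := h1
    have h3 : polytabloid t0 = 0 := congrArg Subtype.val h2
    have h4 : poly t0 (rowOf t0) = 0 := by
      rw [← polytabloid_apply, h3]
      rfl
    have h5 := polyRC_eval (r := rowOf t0) (c := colOf t0) (rowOf_colOf_injective t0)
      (one_mem_stab _)
    simp only [inv_one, Perm.coe_one, Function.comp_id, sgn_one] at h5
    have h6 : poly t0 (rowOf t0) = 1 := h5
    rw [h4] at h6
    exact zero_ne_one h6
  · by_cases hU : U = ⊥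
    · exact Or.inl hU
    right
    -- a nonzero vector of `U`
    obtain ⟨u, huU, hu0⟩ : ∃ u ∈ U, u ≠ 0 := by
      by_contra hall
      push Not at hall
      apply hU
      apply Subrepresentation.toSubmodule_injective
      apply le_antisymm
      · intro v hv
        rw [hall v hv]
        exact Submodule.zero_mem _
      · intro v hv
        have h : v = 0 := hv
        rw [h]
        exact Submodule.zero_mem _
    set f : Fn (Fin D.card) := ⇑(u : RowWord D.card →₀ ℂ) with hf
    have hfs : f ∈ spanPoly (Fin D.card) μ := coe_mem_spanPoly μ u.2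
    have hfne : f ≠ 0 := by
      intro h
      apply hu0
      apply Subtype.ext
      exact DFunLike.coe_injective h
    obtain ⟨t, ht⟩ := exists_KK_ne_zero hfs hfne
    -- the antisymmetrization of `u`
    set e : (spechtSubrep D).toSubmodule :=
      ∑ g ∈ stab (colC t), sgn g • spechtRep D g u with he
    have heU : e ∈ U := by
      refine U.toSubmodule.sum_mem fun g _ => U.toSubmodule.smul_mem _ ?_
      exact U.apply_mem_toSubmodule g huU
    have hecoe : (e : RowWord D.card →₀ ℂ) = KK t f • polytabloid t := by
      ext w
      have h1 := congrFun (symB_apply t f (spanPoly_content hfs)) w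
      rw [gact_symB] at h1
      simp only [Finset.sum_apply, Pi.smul_apply, fnRep_apply, smul_eq_mul] at h1
      rw [he]
      simp only [Submodule.coe_sum, Submodule.coe_smul, Finsupp.finsetSum_apply, Finsupp.smul_apply,
        smul_eq_mul]
      have h2 : ∀ g : Perm (Fin D.card), ((spechtRep D g u : (spechtSubrep D).toSubmodule) :
          RowWord D.card →₀ ℂ) w = f (w ∘ g) := by
        intro g
        exact rowWordRep_apply _ g _ w
      simp only [h2]
      rw [polytabloid_apply]
      exact h1
    have ht0 : ∀ t' : D ≃ Fin D.card, (⟨polytabloid t', hmem t'⟩ : (spechtSubrep D).toSubmodule) ∈ U := by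
      have h1 : (⟨polytabloid t, hmem t⟩ : (spechtSubrep D).toSubmodule) = (KK t f)⁻¹ • e := by
        apply Subtype.ext
        rw [Submodule.coe_smul, hecoe, smul_smul, inv_mul_cancel₀ ht, one_smul]
      have h2 : (⟨polytabloid t, hmem t⟩ : (spechtSubrep D).toSubmodule) ∈ U := by
        rw [h1]
        exact U.toSubmodule.smul_mem _ heU
      intro t'
      have h3 : t.trans (t.symm.trans t') = t' := trans_symm_trans t t'
      have h4 := U.apply_mem_toSubmodule (t.symm.trans t') h2
      have h5 : spechtRep D (t.symm.trans t') ⟨polytabloid t, hmem t⟩ = ⟨polytabloid t', hmem t'⟩ := by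
        apply Subtype.ext
        change rowWordRep D.card _ (polytabloid t) = polytabloid t'
        rw [rowWordRep_polytabloid, h3]
      rw [h5] at h4
      exact h4
    -- everything
    apply Subrepresentation.toSubmodule_injective
    apply le_antisymm
    · intro v _
      exact trivial
    rintro ⟨v, hv⟩ -
    have hv' := hv
    rw [specht_eq_span] at hv'
    have key : ∀ x (hx : x ∈ Submodule.span ℂ (Set.range fun t : D ≃ Fin D.card => polytabloid t))
        (hx' : x ∈ (spechtSubrep D).toSubmodule), (⟨x, hx'⟩ : (spechtSubrep D).toSubmodule) ∈ U := by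
      intro x hx
      induction hx using Submodule.span_induction with
      | mem y hy =>
        obtain ⟨t', rfl⟩ := hy
        exact fun _ => ht0 t'
      | zero => exact fun _ => U.toSubmodule.zero_mem
      | add a b ha hb iha ihb =>
        intro h
        have ha' : a ∈ (spechtSubrep D).toSubmodule := by rw [specht_eq_span]; exact ha
        have hb' : b ∈ (spechtSubrep D).toSubmodule := by rw [specht_eq_span]; exact hb
        exact U.toSubmodule.add_mem (iha ha') (ihb hb')
      | smul c a ha iha =>
        intro h
        have ha' : a ∈ (spechtSubrep D).toSubmodule := by rw [specht_eq_span]; exact ha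
        exact U.toSubmodule.smul_mem c (iha ha')
    exact key v hv' hv

/-- **Final step for the existence of a universal representation (S0298)**: a Young diagram whose
tensor square sees all the irreducibles. -/
theorem exists_rep_of_occurs (n : ℕ) (μ : YoungDiagram) (hn : μ.cells.card = n)
    (hocc : ∀ (W : Type) [AddCommGroup W] [Module ℂ W] [FiniteDimensional ℂ W]
      (σ : Representation ℂ (Perm (Fin n)) W), σ.IsIrreducible → Occurs σ μ.cells μ.cells) :
    ∃ (V : Type) (_ : AddCommGroup V) (_ : Module ℂ V) (_ : FiniteDimensional ℂ V)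
      (ρ : Representation ℂ (Perm (Fin n)) V), ρ.IsIrreducible ∧
      ∀ (W : Type) [AddCommGroup W] [Module ℂ W] [FiniteDimensional ℂ W]
        (σ : Representation ℂ (Perm (Fin n)) W), σ.IsIrreducible →
        Nontrivial (Representation.IntertwiningMap σ (Representation.tprod ρ ρ)) := by
  subst hn
  refine ⟨(spechtSubrep μ.cells).toSubmodule, inferInstance, inferInstance,
    specht_finiteDimensional _, spechtRep μ.cells, spechtRep_isIrreducible μ, ?_⟩
  intro W _ _ _ σ hσ
  exact nontrivial_of_occurs (hocc W σ hσ)

end Prelude

end Crest.Agent.Saxl
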