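import Crest.Agent.Lib.Saxl.Column
import Crest.Agent.Lib.Saxl.SpechtIrr

/-!
# Self-conjugate shapes built from hooks (row 195, S0298)

`hookWrap c K` puts a hook with arm and leg `c - 1` around `K`.  `cellsH H` is the shape with column
heights `H`.  The double wrap of a shape given by heights is again given by heights.
-/

set_option autoImplicit false

open scoped BigOperators
open Equiv

namespace Crest.Agent.Saxl.Family

/-- Every irreducible representation occurs in the tensor square of the shape. -/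
def Universal (L : Finset (ℕ × ℕ)) : Prop :=
  ∀ (S : Type) [Fintype S] [DecidableEq S], Fintype.card S = L.card →
    ∀ (V : Type) [AddCommGroup V] [Module ℂ V] [FiniteDimensional ℂ V]
      (ρ : Representation ℂ (Perm S) V), ρ.IsIrreducible → Occurs ρ L L

/-- From a universal Young diagram of every size to the statement of the row. -/
theorem main_of_family (n : ℕ) (μ : YoungDiagram) (hn : μ.cells.card = n) (hU : Universal μ.cells) :
    ∃ (V : Type) (_ : AddCommGroup V) (_ : Module ℂ V) (_ : FiniteDimensional ℂ V)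
      (ρ : Representation ℂ (Perm (Fin n)) V), ρ.IsIrreducible ∧
      ∀ (W : Type) [AddCommGroup W] [Module ℂ W] [FiniteDimensional ℂ W]
        (σ : Representation ℂ (Perm (Fin n)) W), σ.IsIrreducible →
        Nontrivial (Representation.IntertwiningMap σ (Representation.tprod ρ ρ)) :=
  exists_rep_of_occurs n μ hn fun W _ _ _ σ hσ =>
    hU (Fin n) (by rw [Fintype.card_fin, hn]) W σ hσ

/-- The first row of a hook around `K`, without the corner. -/
def rowPart (c : ℕ) (K : Finset (ℕ × ℕ)) : Finset (ℕ × ℕ) :=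
  (Finset.range (c - 1)).image (fun j => (0, j)) ∪ K.image fun q => (q.1 + 1, q.2)

theorem mem_rowPart {c : ℕ} {K : Finset (ℕ × ℕ)} {i j : ℕ} :
    (i, j) ∈ rowPart c K ↔ (i = 0 ∧ j + 1 < c) ∨ ∃ i', i = i' + 1 ∧ (i', j) ∈ K := by
  simp only [rowPart, Finset.mem_union, Finset.mem_image, Finset.mem_range, Prod.mk.injEq]
  constructor
  · rintro (⟨a, h1, rfl, rfl⟩ | ⟨⟨a, b⟩, h1, rfl, rfl⟩)
    · exact Or.inl ⟨rfl, by omega⟩
    · exact Or.inr ⟨a, rfl, h1⟩
  · rintro (⟨rfl, h⟩ | ⟨a, rfl, h⟩)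
    · exact Or.inl ⟨j, by omega, rfl, rfl⟩
    · exact Or.inr ⟨(a, j), h, rfl, rfl⟩

/-- A hook with arm and leg `c - 1` around `K`. -/
def hookWrap (c : ℕ) (K : Finset (ℕ × ℕ)) : Finset (ℕ × ℕ) := addCol c (rowPart c K)

theorem mem_hookWrap {c : ℕ} {K : Finset (ℕ × ℕ)} {i j : ℕ} :
    (i, j) ∈ hookWrap c K ↔ (i = 0 ∧ j < c) ∨ (j = 0 ∧ i < c) ∨
      ∃ i' j', i = i' + 1 ∧ j = j' + 1 ∧ (i', j') ∈ K := by
  simp only [hookWrap, addCol, Finset.mem_union, mem_colShape, mem_shiftCol, mem_rowPart]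
  constructor
  · rintro (⟨h1, h2⟩ | ⟨k, h1, h2 | ⟨i', h2, h3⟩⟩)
    · exact Or.inr (Or.inl ⟨h2, h1⟩)
    · exact Or.inl ⟨h2.1, by omega⟩
    · exact Or.inr (Or.inr ⟨i', k, h2, h1, h3⟩)
  · rintro (⟨rfl, h⟩ | ⟨rfl, h⟩ | ⟨i', j', rfl, rfl, h⟩)
    · rcases j with _ | j
      · exact Or.inl ⟨by simpa using h, rfl⟩
      · exact Or.inr ⟨j, rfl, Or.inl ⟨rfl, h⟩⟩
    · exact Or.inl ⟨h, rfl⟩
    · exact Or.inr ⟨j', rfl, Or.inr ⟨i', rfl, h⟩⟩

/-- Self-conjugate sets of cells. -/
def SelfConj (K : Finset (ℕ × ℕ)) : Prop := ∀ q, q ∈ K ↔ q.swap ∈ K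

theorem SelfConj.hookWrap {K : Finset (ℕ × ℕ)} (hK : SelfConj K) (c : ℕ) :
    SelfConj (hookWrap c K) := by
  rintro ⟨i, j⟩
  simp only [Prod.swap_prod_mk, mem_hookWrap]
  constructor
  · rintro (h | h | ⟨a, b, h1, h2, h3⟩)
    · exact Or.inr (Or.inl h)
    · exact Or.inl h
    · exact Or.inr (Or.inr ⟨b, a, h2, h1, (hK (a, b)).mp h3⟩)
  · rintro (h | h | ⟨a, b, h1, h2, h3⟩)
    · exact Or.inr (Or.inl h)
    · exact Or.inl h
    · exact Or.inr (Or.inr ⟨b, a, h2, h1, (hK (a, b)).mp h3⟩)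

/-- The conjugate of `rowPart` is a column added to the conjugate of `K`. -/
theorem rowPart_swap {K : Finset (ℕ × ℕ)} (hK : SelfConj K) (c : ℕ) (q : ℕ × ℕ) :
    q ∈ rowPart c K ↔ q.swap ∈ addCol (c - 1) K := by
  rcases q with ⟨i, j⟩
  simp only [Prod.swap_prod_mk, addCol, Finset.mem_union, mem_colShape, mem_shiftCol, mem_rowPart]
  constructor
  · rintro (⟨rfl, h⟩ | ⟨a, rfl, h⟩)
    · exact Or.inl ⟨by omega, rfl⟩
    · exact Or.inr ⟨a, rfl, (hK (a, j)).mp h⟩
  · rintro (⟨h, rfl⟩ | ⟨a, h1, h2⟩)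
    · exact Or.inl ⟨rfl, by omega⟩
    · exact Or.inr ⟨a, h1, (hK (a, j)).mpr h2⟩

/-- Cells of `K` stay in a square. -/
def Boxed (K : Finset (ℕ × ℕ)) (c : ℕ) : Prop := ∀ q ∈ K, q.1 < c ∧ q.2 < c

/-- Downward closed sets of cells. -/
def Lower (K : Finset (ℕ × ℕ)) : Prop :=
  ∀ i j i' j', (i, j) ∈ K → i' ≤ i → j' ≤ j → (i', j') ∈ K

theorem Lower.hookWrap {K : Finset (ℕ × ℕ)} (hK : Lower K) {c : ℕ} (hb : Boxed K (c - 1)) :
    Lower (hookWrap c K) := by
  intro i j i' j' h h1 h2
  rw [mem_hookWrap] at h ⊢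
  rcases h with ⟨rfl, h⟩ | ⟨rfl, h⟩ | ⟨a, b, rfl, rfl, h⟩
  · exact Or.inl ⟨by omega, by omega⟩
  · exact Or.inr (Or.inl ⟨by omega, by omega⟩)
  · have hb' := hb _ h
    simp only at hb'
    rcases i' with _ | i'
    · exact Or.inl ⟨rfl, by omega⟩
    · rcases j' with _ | j'
      · exact Or.inr (Or.inl ⟨rfl, by omega⟩)
      · exact Or.inr (Or.inr ⟨i', j', rfl, rfl, hK _ _ _ _ h (by omega) (by omega)⟩)

theorem Boxed.hookWrap {K : Finset (ℕ × ℕ)} {c d : ℕ} (hb : Boxed K (c - 1)) (hcd : c ≤ d) :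
    Boxed (hookWrap c K) d := by
  rintro ⟨i, j⟩ h
  rw [mem_hookWrap] at h
  rcases h with ⟨rfl, h⟩ | ⟨rfl, h⟩ | ⟨a, b, rfl, rfl, h⟩
  · exact ⟨by simp only; omega, by simp only; omega⟩
  · exact ⟨by simp only; omega, by simp only; omega⟩
  · have hb' := hb _ h
    simp only at hb'
    exact ⟨by simp only; omega, by simp only; omega⟩

/-- The Young diagram of a lower set. -/
def toDiagram (K : Finset (ℕ × ℕ)) (hK : Lower K) : YoungDiagram where
  cells := K
  isLowerSet := by
    rintro ⟨i, j⟩ ⟨a, b⟩ ⟨h1, h2⟩ h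
    exact hK i j a b h h1 h2

theorem card_hookWrap {K : Finset (ℕ × ℕ)} {c : ℕ} (hc : 0 < c) :
    (hookWrap c K).card = 2 * c - 1 + K.card := by
  have h1 : hookWrap c K = colShape c ∪ shiftCol (rowPart c K) := rfl
  have hdisj1 : Disjoint (colShape c) (shiftCol (rowPart c K)) := by
    rw [Finset.disjoint_left]
    intro q h2 h3
    obtain ⟨_, h4⟩ := mem_colShape.mp h2
    obtain ⟨k, h5, _⟩ := mem_shiftCol.mp h3
    omega
  have hshift : ∀ X : Finset (ℕ × ℕ), (shiftCol X).card = X.card := fun X => by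
    apply Finset.card_image_of_injective
    rintro ⟨a, b⟩ ⟨a', b'⟩ h
    simp only [Prod.mk.injEq] at h
    ext <;> simp <;> omega
  have hdisj2 : Disjoint ((Finset.range (c - 1)).image (fun j => ((0 : ℕ), j)))
      (K.image fun q => (q.1 + 1, q.2)) := by
    rw [Finset.disjoint_left]
    intro q h2 h3
    obtain ⟨a, _, rfl⟩ := Finset.mem_image.mp h2
    obtain ⟨⟨b, b'⟩, _, h5⟩ := Finset.mem_image.mp h3
    simp only [Prod.mk.injEq] at h5
    omega
  rw [h1, Finset.card_union_of_disjoint hdisj1, card_colShape, hshift, rowPart,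
    Finset.card_union_of_disjoint hdisj2,
    Finset.card_image_of_injective _ (fun a b h => by simpa using h), Finset.card_range,
    Finset.card_image_of_injective _ (by
      rintro ⟨a, b⟩ ⟨a', b'⟩ h
      simp only [Prod.mk.injEq] at h
      ext <;> simp <;> omega)]
  omega

/-- The shape with column heights `H`. -/
def cellsH (H : List ℕ) : Finset (ℕ × ℕ) :=
  (Finset.range H.length).biUnion fun j => (Finset.range (H.getD j 0)).image fun i => (i, j)

theorem mem_cellsH {H : List ℕ} {i j : ℕ} : (i, j) ∈ cellsH H ↔ i < H.getD j 0 := by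
  simp only [cellsH, Finset.mem_biUnion, Finset.mem_image, Finset.mem_range, Prod.mk.injEq]
  constructor
  · rintro ⟨a, _, b, hb, rfl, rfl⟩
    exact hb
  · intro h
    refine ⟨j, ?_, i, h, rfl, rfl⟩
    by_contra hj
    rw [List.getD_eq_default _ _ (by omega)] at h
    omega

/-- Heights of the double wrap. -/
def dwrapH (c c' : ℕ) (H : List ℕ) : List ℕ :=
  [c, c' + 1] ++ H.map (· + 2) ++ List.replicate (c' - 1 - H.length) 2 ++ List.replicate (c - c' - 1) 1

theorem getD_dwrapH (c c' : ℕ) (H : List ℕ) (hw : H.length + 1 ≤ c') (hc : c' + 1 ≤ c) (j : ℕ) :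
    (dwrapH c c' H).getD (j + 2) 0 =
      if j < H.length then H.getD j 0 + 2 else if j + 1 < c' then 2 else if j + 2 < c then 1 else 0 := by
  have e : dwrapH c c' H = c :: (c' + 1) :: (H.map (· + 2) ++
      (List.replicate (c' - 1 - H.length) 2 ++ List.replicate (c - c' - 1) 1)) := by
    simp [dwrapH]
  rw [e, List.getD_eq_getElem?_getD, List.getElem?_cons_succ, List.getElem?_cons_succ]
  by_cases h1 : j < H.length
  · rw [if_pos h1, List.getElem?_append_left (by simpa using h1), List.getD_eq_getElem?_getD,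
      List.getElem?_map, List.getElem?_eq_getElem h1]
    simp
  · rw [if_neg h1, List.getElem?_append_right (by simpa using h1), List.length_map]
    by_cases h2 : j + 1 < c'
    · rw [if_pos h2, List.getElem?_append_left (by simp; omega), List.getElem?_replicate,
        if_pos (by omega)]
      simp
    · rw [if_neg h2, List.getElem?_append_right (by simp; omega), List.getElem?_replicate,
        List.length_replicate]
      by_cases h3 : j + 2 < c
      · rw [if_pos h3, if_pos (by omega)]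
        simp
      · rw [if_neg h3, if_neg (by omega)]
        simp

/-- The double wrap in terms of column heights. -/
theorem hookWrap_hookWrap_cellsH (c c' : ℕ) (H : List ℕ) (hw : H.length + 1 ≤ c') (hc : c' + 1 ≤ c) :
    hookWrap c (hookWrap c' (cellsH H)) = cellsH (dwrapH c c' H) := by
  ext ⟨i, j⟩
  rw [mem_hookWrap, mem_cellsH]
  rcases j with _ | _ | j
  · have e : (dwrapH c c' H).getD 0 0 = c := by simp [dwrapH]
    rw [e]
    constructor
    · rintro (⟨rfl, h⟩ | ⟨_, h⟩ | ⟨a, b, _, h, _⟩)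
      · exact h
      · exact h
      · omega
    · intro h
      exact Or.inr (Or.inl ⟨rfl, h⟩)
  · have e : (dwrapH c c' H).getD 1 0 = c' + 1 := by simp [dwrapH]
    rw [e]
    constructor
    · rintro (⟨rfl, h⟩ | ⟨h, _⟩ | ⟨a, b, rfl, h, h2⟩)
      · omega
      · omega
      · have hb : b = 0 := by omega
        subst hb
        rw [mem_hookWrap] at h2
        rcases h2 with ⟨rfl, h3⟩ | ⟨_, h3⟩ | ⟨_, b', _, h3, _⟩
        · omega
        · omega
        · omega
    · intro h
      rcases i with _ | i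
      · exact Or.inl ⟨rfl, by omega⟩
      · refine Or.inr (Or.inr ⟨i, 0, rfl, rfl, ?_⟩)
        rw [mem_hookWrap]
        exact Or.inr (Or.inl ⟨rfl, by omega⟩)
  · rw [getD_dwrapH c c' H hw hc]
    have hH : j < H.length ∨ H.getD j 0 = 0 := by
      by_cases h : j < H.length
      · exact Or.inl h
      · exact Or.inr (List.getD_eq_default _ _ (by omega))
    constructor
    · rintro (⟨rfl, h⟩ | ⟨h, _⟩ | ⟨a, b, rfl, h, h2⟩)
      · split_ifs <;> omega
      · omega
      · have hb : b = j + 1 := by omega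
        subst hb
        rw [mem_hookWrap] at h2
        rcases h2 with ⟨rfl, h3⟩ | ⟨h3, _⟩ | ⟨a', b', rfl, h3, h4⟩
        · split_ifs <;> omega
        · omega
        · have hb' : b' = j := by omega
          subst hb'
          rw [mem_cellsH] at h4
          rcases hH with hH | hH
          · rw [if_pos hH]
            omega
          · omega
    · intro h
      rcases i with _ | i
      · refine Or.inl ⟨rfl, ?_⟩
        split_ifs at h with h1 h2 h3 <;> omega
      · refine Or.inr (Or.inr ⟨i, j + 1, rfl, rfl, ?_⟩)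
        rw [mem_hookWrap]
        rcases i with _ | i
        · refine Or.inl ⟨rfl, ?_⟩
          split_ifs at h with h1 h2 h3 <;> omega
        · refine Or.inr (Or.inr ⟨i, j, rfl, rfl, ?_⟩)
          rw [mem_cellsH]
          split_ifs at h with h1 h2 h3 <;> omega

/-- Inside the staircase with first row `c`. -/
def InStair (K : Finset (ℕ × ℕ)) (c : ℕ) : Prop := ∀ q ∈ K, q.1 + q.2 < c

theorem InStair.hookWrap {K : Finset (ℕ × ℕ)} {c : ℕ} (h : InStair K (c - 2)) (hc : 2 ≤ c) :
    InStair (hookWrap c K) c := by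
  rintro ⟨i, j⟩ hq
  rw [mem_hookWrap] at hq
  rcases hq with ⟨rfl, h1⟩ | ⟨rfl, h1⟩ | ⟨a, b, rfl, rfl, h1⟩
  · simpa using h1
  · simpa using h1
  · have := h _ h1
    simp only at this ⊢
    omega

/-- Row counts of `rowPart` inside a staircase: the hypothesis of the column peel for `τ = π = id`. -/
theorem rowCnt_hookWrap_le {K : Finset (ℕ × ℕ)} {c : ℕ} (h : InStair K (c - 2))
    (hc : 2 ≤ c) (k : ℕ) (hk : k < c) : rowCnt (rowPart c K) k + k + 1 ≤ c := by
  have hsub : (rowPart c K).filter (fun q => q.1 = k) ⊆ (Finset.range (c - k - 1)).image fun j => (k, j) := by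
    rintro ⟨i, j⟩ hq
    obtain ⟨h1, h2⟩ := Finset.mem_filter.mp hq
    simp only at h2
    subst h2
    rw [mem_rowPart] at h1
    refine Finset.mem_image.mpr ⟨j, Finset.mem_range.mpr ?_, rfl⟩
    rcases h1 with ⟨rfl, h1⟩ | ⟨a, rfl, h1⟩
    · omega
    · have := h _ h1
      simp only at this
      omega
  have hcard := Finset.card_le_card hsub
  rw [Finset.card_image_of_injective _ (fun a b h => by simpa using h), Finset.card_range] at hcard
  unfold rowCnt
  omega

end Crest.Agent.Saxl.Family
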