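import Crest.Agent.Lib.Saxl.Column
import Crest.Agent.Lib.Saxl.Conj
import Crest.Agent.Lib.Saxl.WordOps
import Crest.Agent.Lib.Saxl.Alpha4

/-!
# Peeling columns with non-universal inner shapes (row 195, helper62)

`Column.occurs_of_fix_column` asks that *every* irreducible representation of the symmetric group of
the complement occurs for the inner shapes.  Here the hypothesis is only on one irreducible piece of
the `Sym A`-fixed vectors, which allows double peels through non-self-conjugate shapes.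
-/

set_option autoImplicit false

open scoped BigOperators
open Equiv

namespace Crest.Agent.Saxl

section Main

variable {S : Type} [Fintype S] [DecidableEq S]
variable {V : Type} [AddCommGroup V] [Module ℂ V]

/-- Theorem B from a local map: the proof of `occurs_of_fix_column` after its first step. -/
theorem occurs_of_local_map (ρ : Representation ℂ (Perm S) V)
    {A : Finset S} {c : ℕ} (hA : A.card = c) (X Y : Finset (ℕ × ℕ))
    (ψ : V →ₗ[ℂ] Fn2 {s // s ∉ A}) (hψ0 : ψ ≠ 0)
    (hψeq : ∀ σ x, ψ (ρ (Perm.ofSubtype σ) x) = fn2Rep _ σ (ψ x))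
    (hψinv : ∀ g x, (∀ s, s ∉ A → g s = s) → ψ (ρ g x) = ψ x)
    (hψX : ∀ x, ψ x ∈ XX _ X Y)
    (τc : Perm (Fin c)) (τ : ℕ → ℕ) (hτ : ∀ i : Fin c, τ i = τc i)
    (π : ℕ → ℕ) (hπ : (Finset.range c).image π = Finset.range c)
    (hcnt : ∀ k < c, min (rowCnt X (π k)) (rowCnt Y (τ (π k))) + k + 1 ≤ c) :
    Occurs ρ (addCol c X) (addCol c Y) := by
  classical
  -- the map before averaging
  let Ψ : V →ₗ[ℂ] Fn2 S :=
    { toFun := fun x w₁ w₂ => colE c A w₁ w₂ * ψ x (w₁ ∘ (↑)) (w₂ ∘ (↑))
      map_add' := by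
        intro x y
        funext w₁ w₂
        simp [mul_add]
      map_smul' := by
        intro a x
        funext w₁ w₂
        simp only [map_smul, Pi.smul_apply, smul_eq_mul, RingHom.id_apply]
        ring }
  have hΨ : ∀ x w₁ w₂, Ψ x w₁ w₂ = colE c A w₁ w₂ * ψ x (w₁ ∘ (↑)) (w₂ ∘ (↑)) := fun _ _ _ => rfl
  let Φ := avgMap ρ (fn2Rep S) Ψ
  refine ⟨Φ, ?_, avgMap_equivariant ρ (fn2Rep S) Ψ, ?_⟩
  · -- nonzero
    intro hΦ
    have hψne : ∃ x u₁ u₂, ψ x u₁ u₂ ≠ 0 := by
      by_contra hcon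
      push Not at hcon
      apply hψ0
      ext1 x
      funext u₁ u₂
      exact hcon x u₁ u₂
    obtain ⟨x, u₁, u₂, hne⟩ := hψne
    -- the families
    let G : Finset S → Fn2 S := fun A' w₁ w₂ =>
      ∑ g ∈ Finset.univ.filter (fun g : Perm S => A.image g = A'),
        ψ (ρ g⁻¹ x) ((w₁ ∘ g) ∘ (↑)) ((w₂ ∘ g) ∘ (↑))
    have hsum : ∀ w₁ w₂, ∑ A' ∈ Finset.powersetCard c (Finset.univ : Finset S),
        colE c A' w₁ w₂ * G A' w₁ w₂ = 0 := by
      intro w₁ w₂
      have h0 : Φ x w₁ w₂ = 0 := by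
        rw [hΦ]
        rfl
      have h1 : Φ x w₁ w₂ = ∑ g : Perm S, colE c (A.image g) w₁ w₂ *
          ψ (ρ g⁻¹ x) ((w₁ ∘ g) ∘ (↑)) ((w₂ ∘ g) ∘ (↑)) := by
        show avgMap ρ (fn2Rep S) Ψ x w₁ w₂ = _
        rw [avgMap_apply]
        simp only [Finset.sum_apply]
        refine Finset.sum_congr rfl fun g _ => ?_
        rw [fn2Rep_apply, hΨ, colE_image hA]
      rw [← h0, h1]
      have hmaps : ∀ g ∈ (Finset.univ : Finset (Perm S)),
          A.image g ∈ Finset.powersetCard c (Finset.univ : Finset S) := by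
        intro g _
        refine Finset.mem_powersetCard.mpr ⟨Finset.subset_univ _, ?_⟩
        rw [Finset.card_image_of_injective _ g.injective, hA]
      rw [← Finset.sum_fiberwise_of_maps_to hmaps]
      refine Finset.sum_congr rfl fun A' _ => ?_
      simp only [G]
      rw [Finset.mul_sum]
      refine Finset.sum_congr rfl fun g hg => ?_
      rw [(Finset.mem_filter.mp hg).2]
    have hGzero := gp_injective (S := S) (c := c) τ (colE c) (sgn τc) (sgn_ne_zero τc)
      (fun A' hA' w₁ w₂ h => colE_support hA' h)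
      (fun A' hA' w₁ w₂ h1 h2 => colE_diag hA' τc τ hτ h1 h2)
      G
      (by
        intro A' w₁ w₁' w₂ w₂' h1 h2
        refine Finset.sum_congr rfl fun g hg => ?_
        have hg' := (Finset.mem_filter.mp hg).2
        have hoff : ∀ s : {s // s ∉ A}, g s.1 ∉ A' := by
          intro s h
          rw [← hg'] at h
          obtain ⟨y, hy, hyg⟩ := Finset.mem_image.mp h
          exact s.2 (g.injective hyg ▸ hy)
        have e1 : (w₁ ∘ g) ∘ ((↑) : {s // s ∉ A} → S) = (w₁' ∘ g) ∘ (↑) := by
          funext s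
          exact h1 _ (hoff s)
        have e2 : (w₂ ∘ g) ∘ ((↑) : {s // s ∉ A} → S) = (w₂' ∘ g) ∘ (↑) := by
          funext s
          exact h2 _ (hoff s)
        rw [e1, e2])
      π hπ
      (by
        intro A' _ w₁ w₂ hG k hk
        obtain ⟨g, hg, hgne⟩ := Finset.exists_ne_zero_of_sum_ne_zero hG
        have hg' := (Finset.mem_filter.mp hg).2
        obtain ⟨h1, h2⟩ := content_of_mem_XX (hψX _) hgne
        have e1 : ∀ b, cntOff A' w₁ b = rowCnt X b := by
          intro b
          rw [← h1 b, lc_off, hg']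
        have e2 : ∀ b, cntOff A' w₂ b = rowCnt Y b := by
          intro b
          rw [← h2 b, lc_off, hg']
        rw [e1, e2]
        exact hcnt k hk)
      hsum
    -- evaluate at `A`
    let w₁ : S → ℕ := fun s => if h : s ∉ A then u₁ ⟨s, h⟩ else 0
    let w₂ : S → ℕ := fun s => if h : s ∉ A then u₂ ⟨s, h⟩ else 0
    have hw₁ : w₁ ∘ ((↑) : {s // s ∉ A} → S) = u₁ := by
      funext s
      simp [w₁, s.2]
    have hw₂ : w₂ ∘ ((↑) : {s // s ∉ A} → S) = u₂ := by
      funext s
      simp [w₂, s.2]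
    have h1 := hGzero A hA w₁ w₂
    have hterm : ∀ g ∈ Finset.univ.filter (fun g : Perm S => A.image g = A),
        ψ (ρ g⁻¹ x) ((w₁ ∘ g) ∘ (↑)) ((w₂ ∘ g) ∘ (↑)) = ψ x u₁ u₂ := by
      intro g hg
      have hg' := (Finset.mem_filter.mp hg).2
      have hmem : ∀ s, s ∉ A ↔ g s ∉ A := by
        intro s
        constructor
        · intro hs h
          rw [← hg'] at h
          obtain ⟨y, hy, hyg⟩ := Finset.mem_image.mp h
          exact hs (g.injective hyg ▸ hy)
        · intro hs h
          apply hs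
          rw [← hg']
          exact Finset.mem_image_of_mem _ h
      let σ : Perm {s // s ∉ A} := g.subtypePerm (fun s => (hmem s).symm)
      have hσ : ∀ s : {s // s ∉ A}, ((σ s : {s // s ∉ A}) : S) = g s.1 := fun s => rfl
      -- `g⁻¹ = ℓ * ofSubtype σ⁻¹` with `ℓ` fixing the complement
      let ℓ : Perm S := g⁻¹ * Perm.ofSubtype σ
      have hℓ : ∀ s, s ∉ A → ℓ s = s := by
        intro s hs
        simp only [ℓ, Perm.coe_mul, Function.comp_apply]
        rw [Perm.ofSubtype_apply_of_mem σ hs, Perm.inv_eq_iff_eq, hσ]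
      have hdec : g⁻¹ = ℓ * Perm.ofSubtype σ⁻¹ := by
        simp only [ℓ, map_inv, mul_assoc, mul_inv_cancel, mul_one]
      have hval : ψ (ρ g⁻¹ x) = fn2Rep _ σ⁻¹ (ψ x) := by
        rw [hdec, map_mul, Module.End.mul_apply, hψinv ℓ _ hℓ, hψeq]
      rw [hval, fn2Rep_apply]
      have e : ∀ w : S → ℕ, ((w ∘ g) ∘ ((↑) : {s // s ∉ A} → S)) ∘ ⇑(σ⁻¹) = w ∘ (↑) := by
        intro w
        funext s
        simp only [Function.comp_apply]
        rw [← hσ]
        simp
      rw [e, e, hw₁, hw₂]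
    simp only [G] at h1
    rw [Finset.sum_congr rfl hterm, Finset.sum_const, nsmul_eq_mul] at h1
    have hcard : ((Finset.univ.filter (fun g : Perm S => A.image g = A)).card : ℂ) ≠ 0 := by
      have : (Finset.univ.filter (fun g : Perm S => A.image g = A)).Nonempty :=
        ⟨1, Finset.mem_filter.mpr ⟨Finset.mem_univ _, by simp⟩⟩
      exact_mod_cast this.card_pos.ne'
    exact hne ((mul_eq_zero.mp h1).resolve_left hcard)
  · -- the range
    intro x
    show avgMap ρ (fn2Rep S) Ψ x ∈ _
    rw [avgMap_apply]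
    refine Submodule.sum_mem _ fun g _ => fn2Rep_mem_XX g ?_
    exact colE_mul_mem_XX hA (hψX _)


/-! ### Pieces -/

section Piece

variable {V' : Type} [AddCommGroup V'] [Module ℂ V']

/-- `ρ'` (a representation of the symmetric group of the complement of `A`) embeds equivariantly
in the `Sym A`-fixed vectors of `ρ`. -/
def Piece (ρ : Representation ℂ (Perm S) V) (A : Finset S)
    (ρ' : Representation ℂ (Perm {s // s ∉ A}) V') : Prop :=
  ∃ ι : V' →ₗ[ℂ] V, Function.Injective ι ∧
    (∀ σ x, ι (ρ' σ x) = ρ (Perm.ofSubtype σ) (ι x)) ∧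
    ∀ x (g : Perm S), (∀ s, s ∉ A → g s = s) → ρ g (ι x) = ι x

/-- The retraction onto a piece. -/
theorem Piece.exists_retract {ρ : Representation ℂ (Perm S) V} {A : Finset S}
    {ρ' : Representation ℂ (Perm {s // s ∉ A}) V'} (h : Piece ρ A ρ') :
    ∃ (q : V →ₗ[ℂ] V') (m : ℂ), m ≠ 0 ∧
      (∀ σ x, q (ρ (Perm.ofSubtype σ) x) = ρ' σ (q x)) ∧
      (∀ g x, (∀ s, s ∉ A → g s = s) → q (ρ g x) = q x) ∧
      (∃ ι : V' →ₗ[ℂ] V, Function.Injective ι ∧ ∀ x, q (ι x) = m • x) := by
  classical
  obtain ⟨ι, hιinj, hιeq, hιfix⟩ := h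
  set L := pointwiseOff A with hL
  have hLone : (1 : Perm S) ∈ L := by
    rw [hL, mem_pointwiseOff]
    intro s _
    rfl
  have hLmul : ∀ g ∈ L, ∀ h ∈ L, g * h ∈ L := by
    intro g hg h hh
    rw [hL, mem_pointwiseOff] at hg hh ⊢
    intro s hs
    simp only [Perm.coe_mul, Function.comp_apply]
    rw [hh s hs, hg s hs]
  have hLinv : ∀ g ∈ L, g⁻¹ ∈ L := by
    intro g hg
    rw [hL, mem_pointwiseOff] at hg ⊢
    intro s hs
    rw [Perm.inv_eq_iff_eq, hg s hs]
  let eL : V →ₗ[ℂ] V := ∑ g ∈ L, ρ g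
  have heL : ∀ x, eL x = ∑ g ∈ L, ρ g x := by
    intro x
    simp [eL, LinearMap.sum_apply]
  have heL_inv : ∀ g ∈ L, ∀ x, eL (ρ g x) = eL x := by
    intro g hg x
    rw [heL, heL]
    refine Finset.sum_nbij' (fun h => h * g) (fun h => h * g⁻¹) ?_ ?_ ?_ ?_ ?_
    · intro h hh
      exact hLmul h hh g hg
    · intro h hh
      exact hLmul h hh _ (hLinv g hg)
    · intro h _
      simp
    · intro h _
      simp
    · intro h _
      rw [map_mul, Module.End.mul_apply]
  have heL_comm : ∀ (σ : Perm {s // s ∉ A}) x,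
      eL (ρ (Perm.ofSubtype σ) x) = ρ (Perm.ofSubtype σ) (eL x) := by
    intro σ x
    rw [heL, heL, map_sum]
    refine Finset.sum_congr rfl fun g hg => ?_
    rw [← Module.End.mul_apply, ← map_mul, ← Module.End.mul_apply, ← map_mul, ofSubtype_comm A σ hg]
  let R := resOff ρ A
  let P : Subrepresentation R :=
    { toSubmodule := LinearMap.range ι
      apply_mem_toSubmodule := by
        rintro σ _ ⟨x, rfl⟩
        exact ⟨ρ' σ x, hιeq σ x⟩ }
  obtain ⟨r, hr1, hr2, hr3⟩ := exists_retraction R P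
  let j : V' ≃ₗ[ℂ] LinearMap.range ι := LinearEquiv.ofInjective ι hιinj
  let q1 : V →ₗ[ℂ] LinearMap.range ι :=
    LinearMap.codRestrict (LinearMap.range ι) (r ∘ₗ eL) (fun x => hr1 (eL x))
  have hq1 : ∀ x, ((q1 x : LinearMap.range ι) : V) = r (eL x) := fun x => rfl
  have hj : ∀ y : V', ((j y : LinearMap.range ι) : V) = ι y := fun y => rfl
  refine ⟨j.symm.toLinearMap ∘ₗ q1, (L.card : ℂ), ?_, ?_, ?_, ι, hιinj, ?_⟩
  · exact_mod_cast (Finset.card_pos.mpr ⟨1, hLone⟩).ne'
  · intro σ x
    apply j.injective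
    apply Subtype.ext
    simp only [LinearMap.comp_apply, LinearEquiv.coe_coe, LinearEquiv.apply_symm_apply]
    rw [hq1, hj, heL_comm]
    have h1 : ι (ρ' σ (j.symm (q1 x))) = ρ (Perm.ofSubtype σ) (ι (j.symm (q1 x))) := hιeq _ _
    rw [h1]
    have h2 : ι (j.symm (q1 x)) = r (eL x) := by
      rw [← hj, LinearEquiv.apply_symm_apply, hq1]
    rw [h2]
    exact hr3 σ (eL x)
  · intro g x hg
    have hgL : g ∈ L := by
      rw [hL, mem_pointwiseOff]
      exact hg
    simp only [LinearMap.comp_apply, LinearEquiv.coe_coe]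
    congr 1
    apply Subtype.ext
    rw [hq1, hq1, heL_inv g hgL]
  · intro x
    apply j.injective
    apply Subtype.ext
    simp only [LinearMap.comp_apply, LinearEquiv.coe_coe, LinearEquiv.apply_symm_apply]
    rw [hq1]
    have h1 : eL (ι x) = (L.card : ℂ) • ι x := by
      rw [heL]
      have : ∀ g ∈ L, ρ g (ι x) = ι x := fun g hg => hιfix x g (by
        rw [hL, mem_pointwiseOff] at hg
        exact hg)
      rw [Finset.sum_congr rfl this, Finset.sum_const, Nat.cast_smul_eq_nsmul]
    rw [h1, map_smul, hr2 _ ⟨x, rfl⟩]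
    rw [map_smul]
    simp only [Submodule.coe_smul]
    rw [hj]

/-- **Theorem B with a non-universal inner shape.** -/
theorem occurs_of_piece {ρ : Representation ℂ (Perm S) V} {A : Finset S} {c : ℕ} (hA : A.card = c)
    {ρ' : Representation ℂ (Perm {s // s ∉ A}) V'} (hp : Piece ρ A ρ')
    {X Y : Finset (ℕ × ℕ)} (hocc : Occurs ρ' X Y)
    (τc : Perm (Fin c)) (τ : ℕ → ℕ) (hτ : ∀ i : Fin c, τ i = τc i)
    (π : ℕ → ℕ) (hπ : (Finset.range c).image π = Finset.range c)
    (hcnt : ∀ k < c, min (rowCnt X (π k)) (rowCnt Y (τ (π k))) + k + 1 ≤ c) :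
    Occurs ρ (addCol c X) (addCol c Y) := by
  obtain ⟨φ, hφ0, hφeq, hφX⟩ := hocc
  obtain ⟨q, m, hm, hqeq, hqinv, ι, -, hqι⟩ := hp.exists_retract
  refine occurs_of_local_map ρ hA X Y (φ ∘ₗ q) ?_ ?_ ?_ ?_ τc τ hτ π hπ hcnt
  · intro h0
    apply hφ0
    ext1 y
    have h1 : (φ ∘ₗ q) (ι y) = 0 := by rw [h0]; rfl
    rw [LinearMap.comp_apply, hqι, map_smul] at h1
    rw [(smul_eq_zero.mp h1).resolve_left hm]
    rfl
  · intro σ x
    simp only [LinearMap.comp_apply]
    rw [hqeq, hφeq]
  · intro g x hg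
    simp only [LinearMap.comp_apply]
    rw [hqinv g x hg]
  · intro x
    exact hφX _

end Piece

/-! ### Existence of pieces -/

/-- The `Sym A`-fixed vectors. -/
noncomputable def fixSub (ρ : Representation ℂ (Perm S) V) (A : Finset S) :
    Subrepresentation (resOff ρ A) where
  toSubmodule :=
    { carrier := {x | ∀ g : Perm S, (∀ s, s ∉ A → g s = s) → ρ g x = x}
      add_mem' := by
        intro a b ha hb g hg
        rw [map_add, ha g hg, hb g hg]
      zero_mem' := by
        intro g _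
        simp
      smul_mem' := by
        intro c x hx g hg
        rw [map_smul, hx g hg] }
  apply_mem_toSubmodule := by
    intro σ x hx g hg
    show ρ g (ρ (Perm.ofSubtype σ) x) = ρ (Perm.ofSubtype σ) x
    have hgL : g ∈ pointwiseOff A := mem_pointwiseOff.mpr hg
    rw [← Module.End.mul_apply, ← map_mul, ← ofSubtype_comm A σ hgL, map_mul,
      Module.End.mul_apply, hx g hg]

theorem mem_fixSub {ρ : Representation ℂ (Perm S) V} {A : Finset S} {x : V} :
    x ∈ (fixSub ρ A).toSubmodule ↔ ∀ g : Perm S, (∀ s, s ∉ A → g s = s) → ρ g x = x := Iff.rfl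

/-- A subrepresentation of the fixed vectors is a piece. -/
theorem piece_of_sub (ρ : Representation ℂ (Perm S) V) (A : Finset S)
    (p : Subrepresentation (fixSub ρ A).toRepresentation) : Piece ρ A p.toRepresentation := by
  refine ⟨(fixSub ρ A).toSubmodule.subtype ∘ₗ p.toSubmodule.subtype, ?_, ?_, ?_⟩
  · intro x y h
    exact Subtype.ext (Subtype.ext h)
  · intro σ x
    rfl
  · intro x g hg
    exact (x : p.toSubmodule).1.2 g hg

instance (ρ : Representation ℂ (Perm S) V) (A : Finset S) [FiniteDimensional ℂ V] :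
    FiniteDimensional ℂ (fixSub ρ A).toSubmodule :=
  inferInstanceAs (FiniteDimensional ℂ (↥((fixSub ρ A).toSubmodule)))

/-- The permutations fixing the complement of `A` are in the stabilizer of a colouring constant on
`A`. -/
theorem mem_stab_of_off {A : Finset S} {d : S → ℕ} (hd : ∀ s ∈ A, ∀ t ∈ A, d s = d t) {g : Perm S}
    (hg : ∀ s, s ∉ A → g s = s) : g ∈ stab d := by
  rw [mem_stab]
  intro s
  by_cases hs : s ∈ A
  · have h1 : g s ∈ A := by
      by_contra h2
      have h3 := hg _ h2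
      have h4 := g.injective h3
      rw [h4] at h2
      exact h2 hs
    exact hd _ h1 _ hs
  · rw [hg s hs]

theorem ofSubtype_mem_stab {A : Finset S} {d : S → ℕ} {σ : Perm {s // s ∉ A}}
    (hσ : σ ∈ stab (d ∘ ((↑) : {s // s ∉ A} → S))) : Perm.ofSubtype σ ∈ stab d := by
  rw [mem_stab] at hσ ⊢
  intro s
  by_cases hs : s ∉ A
  · rw [Perm.ofSubtype_apply_of_mem σ hs]
    exact hσ ⟨s, hs⟩
  · rw [Perm.ofSubtype_apply_of_not_mem σ hs]

/-- If `ρ` has a vector fixed by the Young subgroup of `d` with `A` inside a colour class, there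
is an irreducible piece with a vector fixed by the Young subgroup of the restricted colouring. -/
theorem exists_piece_hasFix [FiniteDimensional ℂ V] {ρ : Representation ℂ (Perm S) V} {d : S → ℕ}
    (hfix : HasFix ρ d) (A : Finset S) (hd : ∀ s ∈ A, ∀ t ∈ A, d s = d t) :
    ∃ p : Subrepresentation (fixSub ρ A).toRepresentation,
      p.toRepresentation.IsIrreducible ∧ Piece ρ A p.toRepresentation ∧
        HasFix p.toRepresentation (d ∘ ((↑) : {s // s ∉ A} → S)) := by
  classical
  obtain ⟨v, hv, hvfix⟩ := hfix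
  have hvW : v ∈ (fixSub ρ A).toSubmodule := fun g hg => hvfix g (mem_stab_of_off hd hg)
  set d' := d ∘ ((↑) : {s // s ∉ A} → S) with hd'
  have hne : ∃ x, gact (fixSub ρ A).toRepresentation (symE d') x ≠ 0 := by
    refine ⟨⟨v, hvW⟩, fun h0 => ?_⟩
    have h1 := congrArg Subtype.val h0
    rw [gact_symE] at h1
    have h2 : ∑ g ∈ stab d', ((fixSub ρ A).toRepresentation g ⟨v, hvW⟩ : (fixSub ρ A).toSubmodule).1
        = ((stab d').card : ℂ) • v := by
      have : ∀ g ∈ stab d', ((fixSub ρ A).toRepresentation g ⟨v, hvW⟩ :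
          (fixSub ρ A).toSubmodule).1 = v := fun g hg => hvfix _ (ofSubtype_mem_stab hg)
      rw [Finset.sum_congr rfl this, Finset.sum_const, Nat.cast_smul_eq_nsmul]
    have h3 : ((stab d').card : ℂ) • v = 0 := by
      rw [← h2]
      simpa using h1
    exact hv ((smul_eq_zero.mp h3).resolve_left (card_stab_ne_zero d'))
  obtain ⟨p, hp, x, hxp, hx⟩ := exists_irreducible_gact_ne_zero _ (symE d') hne
  refine ⟨p, hp, piece_of_sub ρ A p, ?_⟩
  refine ⟨⟨gact (fixSub ρ A).toRepresentation (symE d') x, gact_mem p _ hxp⟩, ?_, ?_⟩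
  · intro h0
    exact hx (congrArg Subtype.val h0)
  · intro g hg
    exact Subtype.ext (gact_symE_fixed (fixSub ρ A).toRepresentation d' x hg)


/-! ### Columns of a piece -/

/-- The number of cells in the first `k` columns. -/
def colsBelow (μ : YoungDiagram) (k : ℕ) : ℕ := ∑ j ∈ Finset.range k, μ.colLen j

section Cols

variable {V' : Type} [AddCommGroup V'] [Module ℂ V']

theorem exists_ne_zero_of_irreducible {G : Type} [Group G] {ρ : Representation ℂ G V'}
    (h : ρ.IsIrreducible) : ∃ y : V', y ≠ 0 := by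
  by_contra hcon
  push Not at hcon
  have h1 : (⊥ : Subrepresentation ρ) = ⊤ := by
    apply Subrepresentation.toSubmodule_injective
    ext x
    simp only [hcon x]
    simp
  exact bot_ne_top h1

/-- The columns of an alternating colouring in a piece: a conjugate of the column colouring of `ρ`
has at most one slot of `A` in each class, and restricts to an alternating colouring of the piece. -/
theorem Piece.alt_bound {ρ : Representation ℂ (Perm S) V} (hρ : ρ.IsIrreducible) {A : Finset S}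
    {ρ' : Representation ℂ (Perm {s // s ∉ A}) V'} (hp : Piece ρ A ρ') (hne : ∃ y : V', y ≠ 0)
    {e : S → ℕ} (halt : HasAlt ρ e) :
    ∃ g : Perm S, (∀ s ∈ A, ∀ t ∈ A, e (g s) = e (g t) → s = t) ∧
      HasAlt ρ' ((e ∘ g) ∘ ((↑) : {s // s ∉ A} → S)) := by
  classical
  obtain ⟨q, m, hm, hqeq, hqinv, ι, -, hqι⟩ := hp.exists_retract
  obtain ⟨v, hv, hvalt⟩ := halt
  have hq0 : q ≠ 0 := by
    obtain ⟨y, hy⟩ := hne
    intro h0
    have h1 : q (ι y) = 0 := by rw [h0]; rfl
    rw [hqι] at h1
    exact hy ((smul_eq_zero.mp h1).resolve_left hm)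
  obtain ⟨g', hg'⟩ := exists_translate_ne_zero ρ hρ v hv q hq0
  -- `g = g'⁻¹`, `u = ρ g' v`
  set u := ρ g' v with hu
  have hualt : ∀ h ∈ stab (e ∘ ⇑g'⁻¹), ρ h u = sgn h • u := by
    intro h hh
    have h1 : g'⁻¹ * h * g' ∈ stab e := by
      rw [mem_stab] at hh ⊢
      intro s
      have := hh (g' s)
      simpa using this
    have h2 := hvalt _ h1
    have h3 : ρ h u = ρ g' (ρ (g'⁻¹ * h * g') v) := by
      rw [hu, ← Module.End.mul_apply, ← Module.End.mul_apply, ← map_mul, ← map_mul]
      congr 2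
      group
    rw [h3, h2, map_smul]
    congr 1
    rw [sgn_mul, sgn_mul, sgn_inv]
    linear_combination (sgn h) * sgn_mul_self g'
  refine ⟨g'⁻¹, ?_, q u, hg', ?_⟩
  · intro s hs t ht hst
    by_contra hne'
    have hsw : swap s t ∈ stab (e ∘ ⇑g'⁻¹) := swap_mem_stab hst
    have h1 := hualt _ hsw
    rw [sgn_swap hne'] at h1
    have hoff : ∀ x, x ∉ A → swap s t x = x := by
      intro x hx
      apply swap_apply_of_ne_of_ne
      · rintro rfl
        exact hx hs
      · rintro rfl
        exact hx ht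
    have h2 := hqinv (swap s t) u hoff
    rw [h1] at h2
    simp only [neg_smul, one_smul, map_neg] at h2
    have h3 : (2 : ℂ) • q u = 0 := by
      rw [two_smul]
      nth_rewrite 1 [← h2]
      simp
    exact hg' ((smul_eq_zero.mp h3).resolve_left two_ne_zero)
  · intro σ hσ
    have h1 : Perm.ofSubtype σ ∈ stab (e ∘ ⇑g'⁻¹) := ofSubtype_mem_stab hσ
    have h2 := hualt _ h1
    have h3 : sgn (Perm.ofSubtype σ) = sgn σ := by
      simp [sgn, Perm.sign_ofSubtype]
    rw [← hqeq, h2, h3, map_smul]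

/-- Counting: if the rows of `μ` carry distinct colours, a set of `k` colours has at most `k` slots
per row. -/
theorem sum_lc_le_colsBelow {S' : Type} [Fintype S'] [DecidableEq S'] {W : Type} [AddCommGroup W]
    [Module ℂ W] {ρ : Representation ℂ (Perm S') W} (hρ : ρ.IsIrreducible) {η : YoungDiagram}
    (hlab : Label ρ η) {d : S' → ℕ} (hd : HasAlt ρ d) (K : Finset ℕ) :
    ∑ j ∈ K, lc d j ≤ colsBelow η K.card := by
  classical
  obtain ⟨t, hfix, -⟩ := hlab
  obtain ⟨g, hinj⟩ := pairing hρ hfix hd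
  -- colour of a slot
  let d' : S' → ℕ := fun s => d (g⁻¹ s)
  have hlc : ∀ j, lc d j = (Finset.univ.filter fun s => d' s = j).card := by
    intro j
    have : d' = d ∘ ⇑g⁻¹ := rfl
    rw [this]
    exact (lc_comp d g⁻¹ j).symm
  have h1 : ∑ j ∈ K, lc d j = (Finset.univ.filter fun s => d' s ∈ K).card := by
    simp only [hlc]
    rw [Finset.card_eq_sum_card_fiberwise (s := Finset.univ.filter fun s => d' s ∈ K) (t := K)
      (f := d') (fun s hs => (Finset.mem_filter.mp hs).2)]
    refine Finset.sum_congr rfl fun j hj => ?_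
    congr 1
    ext s
    simp only [Finset.mem_filter, Finset.mem_univ, true_and]
    constructor
    · intro h
      exact ⟨by rw [h]; exact hj, h⟩
    · intro h
      exact h.2
  -- per row
  set k := K.card with hk
  have hrows : ∀ r, ((Finset.univ.filter fun s => d' s ∈ K).filter fun s => rowC t s = r).card ≤
      min (η.rowLen r) k := by
    intro r
    apply le_min
    · refine le_trans (Finset.card_le_card ?_) (le_of_eq (lc_rowC t r))
      intro s hs
      simp only [Finset.mem_filter, Finset.mem_univ, true_and] at hs ⊢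
      exact hs.2
    · rw [hk]
      refine Finset.card_le_card_of_injOn d' ?_ ?_
      · intro s hs
        have hs' := Finset.mem_coe.mp hs
        simp only [Finset.mem_filter, Finset.mem_univ, true_and] at hs'
        exact hs'.1
      · intro s hs s' hs' hss
        have hs1 := Finset.mem_coe.mp hs
        have hs2 := Finset.mem_coe.mp hs'
        simp only [Finset.mem_filter, Finset.mem_univ, true_and] at hs1 hs2
        apply hinj
        simp only [Prod.mk.injEq]
        exact ⟨by rw [hs1.2, hs2.2], hss⟩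
  -- the number of cells in the first `k` columns, by rows
  have hcols : colsBelow η k = ∑ r ∈ Finset.range (η.colLen 0), min (η.rowLen r) k := by
    have h2 : colsBelow η k = (η.cells.filter fun q => q.2 < k).card := by
      unfold colsBelow
      rw [Finset.card_eq_sum_card_fiberwise (s := η.cells.filter fun q => q.2 < k)
        (t := Finset.range k) (f := fun q => q.2)
        (fun q hq => Finset.mem_range.mpr (Finset.mem_filter.mp hq).2)]
      refine Finset.sum_congr rfl fun j hj => ?_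
      rw [YoungDiagram.colLen_eq_card]
      congr 1
      ext q
      simp only [Finset.mem_filter, YoungDiagram.mem_col_iff, YoungDiagram.mem_cells]
      constructor
      · rintro ⟨h1, h2⟩
        exact ⟨⟨h1, h2 ▸ Finset.mem_range.mp hj⟩, h2⟩
      · rintro ⟨⟨h1, _⟩, h2⟩
        exact ⟨h1, h2⟩
    rw [h2, Finset.card_eq_sum_card_fiberwise (s := η.cells.filter fun q => q.2 < k)
        (t := Finset.range (η.colLen 0)) (f := fun q => q.1)]
    · refine Finset.sum_congr rfl fun r _ => ?_
      have h3 : ((η.cells.filter fun q => q.2 < k).filter fun q => q.1 = r) =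
          (Finset.range (min (η.rowLen r) k)).image (fun c => (r, c)) := by
        ext ⟨a, b⟩
        simp only [Finset.mem_filter, YoungDiagram.mem_cells, Finset.mem_image, Finset.mem_range,
          Prod.mk.injEq, lt_min_iff]
        constructor
        · rintro ⟨⟨h1, h2⟩, rfl⟩
          exact ⟨b, ⟨YoungDiagram.mem_iff_lt_rowLen.mp h1, h2⟩, rfl, rfl⟩
        · rintro ⟨c, ⟨h1, h2⟩, rfl, rfl⟩
          exact ⟨⟨YoungDiagram.mem_iff_lt_rowLen.mpr h1, h2⟩, rfl⟩
      rw [h3, Finset.card_image_of_injective _ (fun a b h => by simpa using h), Finset.card_range]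
    · intro q hq
      have hq1 := (Finset.mem_filter.mp hq).1
      simp only [Finset.coe_range, Set.mem_Iio]
      have h5 : (q.1, 0) ∈ η := η.up_left_mem (le_refl _) (Nat.zero_le _) (by simpa using hq1)
      exact YoungDiagram.mem_iff_lt_colLen.mp h5
  rw [h1, hcols]
  -- slots with colours in `K` lie in rows `< colLen 0`
  have hmaps : ∀ s ∈ (Finset.univ.filter fun s => d' s ∈ K), rowC t s ∈ Finset.range (η.colLen 0) := by
    intro s _
    have h5 : (t.symm s).1 ∈ η := (t.symm s).2
    have h6 : ((t.symm s).1.1, 0) ∈ η := η.up_left_mem (le_refl _) (Nat.zero_le _) h5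
    exact Finset.mem_range.mpr (YoungDiagram.mem_iff_lt_colLen.mp h6)
  rw [Finset.card_eq_sum_card_fiberwise hmaps]
  exact Finset.sum_le_sum fun r _ => hrows r

/-- The content of a colouring after a permutation (as a filter on column colours). -/
theorem lc_comp_col {μ : YoungDiagram} (T : Tab μ S) (g : Perm S) (j : ℕ) :
    (Finset.univ.filter fun s => (colC T ∘ g) s = j).card =
      (Finset.univ.filter fun s => colC T s = j).card :=
  lc_comp (colC T) g j

/-- Removing a set meeting every class in at most one slot removes at most one slot per class. -/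
theorem col_bound (A : Finset S) (e : S → ℕ) (hinj : ∀ s ∈ A, ∀ t ∈ A, e s = e t → s = t) (j : ℕ) :
    (Finset.univ.filter fun s => e s = j).card ≤
      lc (e ∘ ((↑) : {s // s ∉ A} → S)) j + 1 := by
  classical
  have h1 : (Finset.univ.filter fun s => e s = j) ⊆
      ((Finset.univ.filter fun s : {s // s ∉ A} => e s.1 = j).map (Function.Embedding.subtype _)) ∪
        (A.filter fun s => e s = j) := by
    intro s hs
    have hs' := (Finset.mem_filter.mp hs).2
    by_cases hsA : s ∈ A
    · exact Finset.mem_union_right _ (Finset.mem_filter.mpr ⟨hsA, hs'⟩)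
    · refine Finset.mem_union_left _ (Finset.mem_map.mpr ⟨⟨s, hsA⟩, ?_, rfl⟩)
      simp [hs']
  have h2 : (A.filter fun s => e s = j).card ≤ 1 := by
    rw [Finset.card_le_one]
    intro a ha b hb
    have ha' := Finset.mem_filter.mp ha
    have hb' := Finset.mem_filter.mp hb
    exact hinj a ha'.1 b hb'.1 (by rw [ha'.2, hb'.2])
  calc _ ≤ _ := Finset.card_le_card h1
    _ ≤ _ := Finset.card_union_le _ _
    _ ≤ _ := by
      rw [Finset.card_map]
      exact Nat.add_le_add le_rfl h2

/-- Columns drop by at most one per column from `ρ` to an irreducible piece. -/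
theorem Piece.cols_le {ρ : Representation ℂ (Perm S) V} (hρ : ρ.IsIrreducible) {A : Finset S}
    {ρ' : Representation ℂ (Perm {s // s ∉ A}) V'} (hp : Piece ρ A ρ') (hρ' : ρ'.IsIrreducible)
    {ν η : YoungDiagram} (hν : Label ρ ν) (hη : Label ρ' η) (k : ℕ) :
    colsBelow ν k ≤ colsBelow η k + k := by
  classical
  obtain ⟨T, -, halt⟩ := hν
  obtain ⟨g, hinj, hg⟩ := hp.alt_bound hρ (exists_ne_zero_of_irreducible hρ') halt
  have h1 := sum_lc_le_colsBelow hρ' hη hg (Finset.range k)
  rw [Finset.card_range] at h1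
  have h2 : ∀ j, ν.colLen j ≤ lc ((colC T ∘ g) ∘ ((↑) : {s // s ∉ A} → S)) j + 1 := by
    intro j
    rw [← card_colC_eq T j, ← lc_comp_col T g j]
    exact col_bound A (colC T ∘ g) hinj j
  unfold colsBelow at *
  calc ∑ j ∈ Finset.range k, ν.colLen j
      ≤ ∑ j ∈ Finset.range k, (lc ((colC T ∘ g) ∘ ((↑) : {s // s ∉ A} → S)) j + 1) :=
        Finset.sum_le_sum fun j _ => h2 j
    _ = ∑ j ∈ Finset.range k, lc ((colC T ∘ g) ∘ ((↑) : {s // s ∉ A} → S)) j + k := by
        rw [Finset.sum_add_distrib]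
        simp
    _ ≤ _ := by omega

end Cols

/-! ### From labels to fixed vectors -/

section Fix

theorem pc_colC {ν : YoungDiagram} (t : Tab ν S) (k : ℕ) : pc (colC t) k = colsBelow ν k := by
  induction k with
  | zero => simp [pc, colsBelow]
  | succ k ih =>
    rw [pc_succ, ih, colsBelow, colsBelow, Finset.sum_range_succ]
    congr 1
    exact card_colC_eq t k

/-- A label gives fixed vectors for all colourings below it in dominance. -/
theorem hasFix_of_rows {ρ : Representation ℂ (Perm S) V} {ν : YoungDiagram} (hlab : Label ρ ν)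
    {d : S → ℕ} (hd : Antitone (lc d)) (hP : ∀ k, pc d k ≤ rowsBelow ν k) : HasFix ρ d := by
  obtain ⟨t, h1, -⟩ := hlab
  refine HasFix.of_pc hd ?_ h1
  intro k
  rw [pc_rowC]
  exact hP k

/-- Alternating vectors of `ρ` are fixed vectors of the sign twist. -/
theorem hasFix_sgnTwist_of_hasAlt {ρ : Representation ℂ (Perm S) V} {c : S → ℕ} (h : HasAlt ρ c) :
    HasFix (sgnTwist ρ) c := by
  obtain ⟨v, hv, halt⟩ := h
  refine ⟨v, hv, fun g hg => ?_⟩
  rw [sgnTwist_apply, halt g hg, smul_smul, sgn_mul_self, one_smul]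

/-- A label gives fixed vectors of the sign twist for colourings below the columns in dominance. -/
theorem hasFix_twist_of_cols {ρ : Representation ℂ (Perm S) V} {ν : YoungDiagram}
    (hlab : Label ρ ν) {d : S → ℕ} (hd : Antitone (lc d)) (hP : ∀ k, pc d k ≤ colsBelow ν k) :
    HasFix (sgnTwist ρ) d := by
  obtain ⟨t, -, h2⟩ := hlab
  refine HasFix.of_pc hd ?_ (hasFix_sgnTwist_of_hasAlt h2)
  intro k
  rw [pc_colC]
  exact hP k

end Fix

/-! ### The double peel -/

section Double

/-- A self-conjugate shape occurs for `ρ` as soon as it occurs for the sign twist. -/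
theorem occurs_of_twist_selfConj {ρ : Representation ℂ (Perm S) V} {L : Finset (ℕ × ℕ)}
    (hL : ∀ q, q ∈ L ↔ q.swap ∈ L) (h : Occurs (sgnTwist ρ) L L) : Occurs ρ L L := by
  have := occurs_twist hL h
  rwa [sgnTwist_sgnTwist] at this

/-- **One peel**: for an irreducible `ρ` with fixed vector for `d` and `A` a subset of a colour
class, the shapes with an added column occur provided the inner shapes occur for every irreducible
`ρ'` of the complement with the fixed vector for the restricted colouring and the column bound. -/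
theorem peel_one [FiniteDimensional ℂ V] {ρ : Representation ℂ (Perm S) V} (hρ : ρ.IsIrreducible)
    {ν : YoungDiagram} (hν : Label ρ ν) {d : S → ℕ} (hfix : HasFix ρ d)
    {A : Finset S} {c : ℕ} (hA : A.card = c) (hd : ∀ s ∈ A, ∀ t ∈ A, d s = d t)
    {X Y : Finset (ℕ × ℕ)}
    (τc : Perm (Fin c)) (τ : ℕ → ℕ) (hτ : ∀ i : Fin c, τ i = τc i)
    (π : ℕ → ℕ) (hπ : (Finset.range c).image π = Finset.range c)
    (hcnt : ∀ k < c, min (rowCnt X (π k)) (rowCnt Y (τ (π k))) + k + 1 ≤ c)
    (IH : ∀ (V' : Type) [AddCommGroup V'] [Module ℂ V'] [FiniteDimensional ℂ V']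
      (ρ' : Representation ℂ (Perm {s // s ∉ A}) V'), ρ'.IsIrreducible →
      HasFix ρ' (d ∘ ((↑) : {s // s ∉ A} → S)) →
      (∀ η, Label ρ' η → ∀ k, colsBelow ν k ≤ colsBelow η k + k) → Occurs ρ' X Y) :
    Occurs ρ (addCol c X) (addCol c Y) := by
  obtain ⟨p, hp, hpiece, hpfix⟩ := exists_piece_hasFix hfix A hd
  refine occurs_of_piece hA hpiece (IH _ p.toRepresentation hp hpfix ?_) τc τ hτ π hπ hcnt
  intro η hη k
  exact hpiece.cols_le hρ hp hν hη k

/-- **Two peels**: through a shape whose transpose has an added column. -/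
theorem peel_two [FiniteDimensional ℂ V] {ρ : Representation ℂ (Perm S) V} (hρ : ρ.IsIrreducible)
    {ν : YoungDiagram} (hν : Label ρ ν) {d : S → ℕ} (hfix : HasFix ρ d)
    {A : Finset S} {c : ℕ} (hA : A.card = c) (hd : ∀ s ∈ A, ∀ t ∈ A, d s = d t)
    {B : Finset {s // s ∉ A}} {b : ℕ} (hB : B.card = b)
    (hdB : ∀ s ∈ B, ∀ t ∈ B, d s.1 = d t.1)
    {X K : Finset (ℕ × ℕ)} (hX : ∀ q, q ∈ X ↔ q.swap ∈ addCol b K)
    (τc : Perm (Fin c)) (τ : ℕ → ℕ) (hτ : ∀ i : Fin c, τ i = τc i)
    (π : ℕ → ℕ) (hπ : (Finset.range c).image π = Finset.range c)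
    (hcnt : ∀ k < c, min (rowCnt X (π k)) (rowCnt X (τ (π k))) + k + 1 ≤ c)
    (τc' : Perm (Fin b)) (τ' : ℕ → ℕ) (hτ' : ∀ i : Fin b, τ' i = τc' i)
    (π' : ℕ → ℕ) (hπ' : (Finset.range b).image π' = Finset.range b)
    (hcnt' : ∀ k < b, min (rowCnt K (π' k)) (rowCnt K (τ' (π' k))) + k + 1 ≤ b)
    (IH : ∀ (V' : Type) [AddCommGroup V'] [Module ℂ V'] [FiniteDimensional ℂ V']
      (ρ' : Representation ℂ (Perm {s' : {s // s ∉ A} // s' ∉ B}) V'), ρ'.IsIrreducible →
      HasFix ρ' (d ∘ ((↑) : {s // s ∉ A} → S) ∘ ((↑) : {s' : {s // s ∉ A} // s' ∉ B} → _)) →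
      (∀ η, Label ρ' η → ∀ k, colsBelow ν k ≤ colsBelow η k + 2 * k) → Occurs ρ' K K) :
    Occurs ρ (addCol c X) (addCol c X) := by
  refine peel_one hρ hν hfix hA hd τc τ hτ π hπ hcnt ?_
  intro V₁ _ _ _ ρ₁ hρ₁ hfix₁ hcols₁
  obtain ⟨η₁, -, hη₁⟩ := exists_label hρ₁
  have hocc : Occurs ρ₁ (addCol b K) (addCol b K) := by
    refine peel_one hρ₁ hη₁ hfix₁ hB (fun s hs t ht => hdB s hs t ht) τc' τ' hτ' π' hπ' hcnt' ?_
    intro V₂ _ _ _ ρ₂ hρ₂ hfix₂ hcols₂
    refine IH V₂ ρ₂ hρ₂ hfix₂ ?_
    intro η hη k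
    have h1 := hcols₁ η₁ hη₁ k
    have h2 := hcols₂ η hη k
    omega
  exact occurs_conj hX hX hocc

/-- The sign twist of an irreducible representation is irreducible. -/
theorem sgnTwist_isIrreducible {ρ : Representation ℂ (Perm S) V} (hρ : ρ.IsIrreducible) :
    (sgnTwist ρ).IsIrreducible := by
  obtain ⟨y, hy⟩ := exists_ne_zero_of_irreducible hρ
  have hnt : (⊥ : Subrepresentation (sgnTwist ρ)) ≠ ⊤ := by
    intro h
    have h1 : y ∈ (⊤ : Subrepresentation (sgnTwist ρ)).toSubmodule := trivial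
    rw [← h] at h1
    exact hy h1
  have : Nontrivial (Subrepresentation (sgnTwist ρ)) := ⟨⟨_, _, hnt⟩⟩
  refine { eq_bot_or_eq_top := ?_ }
  intro p
  let p' : Subrepresentation ρ :=
    { toSubmodule := p.toSubmodule
      apply_mem_toSubmodule := by
        intro g v hv
        have h1 := p.apply_mem_toSubmodule g hv
        rw [sgnTwist_apply] at h1
        have h2 := p.toSubmodule.smul_mem (sgn g) h1
        rwa [smul_smul, sgn_mul_self, one_smul] at h2 }
  rcases hρ.eq_bot_or_eq_top p' with h | h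
  · left
    apply Subrepresentation.toSubmodule_injective
    have h' := congrArg Subrepresentation.toSubmodule h
    exact h'
  · right
    apply Subrepresentation.toSubmodule_injective
    have h' := congrArg Subrepresentation.toSubmodule h
    exact h'

/-- The transposed tableau. -/
def tabTranspose {μ : YoungDiagram} (t : Tab μ S) : Tab μ.transpose S :=
  (Equiv.subtypeEquiv (Equiv.prodComm ℕ ℕ) (fun q => by
    simp only [YoungDiagram.mem_cells, YoungDiagram.mem_transpose, Equiv.prodComm_apply,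
      Prod.swap])).trans t

omit [Fintype S] [DecidableEq S] in
theorem rowC_tabTranspose {μ : YoungDiagram} (t : Tab μ S) : rowC (tabTranspose t) = colC t := rfl

omit [Fintype S] [DecidableEq S] in
theorem colC_tabTranspose {μ : YoungDiagram} (t : Tab μ S) : colC (tabTranspose t) = rowC t := rfl

/-- The label of the sign twist. -/
theorem Label.sgnTwist {ρ : Representation ℂ (Perm S) V} {ν : YoungDiagram} (h : Label ρ ν) :
    Label (sgnTwist ρ) ν.transpose := by
  obtain ⟨t, h1, h2⟩ := h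
  refine ⟨tabTranspose t, ?_, ?_⟩
  · rw [rowC_tabTranspose]
    exact hasFix_sgnTwist_of_hasAlt h2
  · rw [colC_tabTranspose]
    obtain ⟨v, hv, hfix⟩ := h1
    refine ⟨v, hv, fun g hg => ?_⟩
    rw [sgnTwist_apply, hfix g hg]

theorem rowsBelow_transpose {ν : YoungDiagram} (t : Tab ν S) (k : ℕ) :
    rowsBelow ν.transpose k = colsBelow ν k := by
  rw [← pc_colC t, ← rowC_tabTranspose, pc_rowC]

theorem colsBelow_transpose {ν : YoungDiagram} (t : Tab ν S) (k : ℕ) :
    colsBelow ν.transpose k = rowsBelow ν k := by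
  rw [← pc_rowC t, ← colC_tabTranspose, pc_colC]

end Double

/-! ### Counting helpers -/

section Count

theorem rowsBelow_le_card (ν : YoungDiagram) (k : ℕ) : rowsBelow ν k ≤ ν.card := by
  unfold rowsBelow
  exact Finset.card_filter_le _ _

theorem rowsBelow_eq_card_of_rowLen_eq_zero {ν : YoungDiagram} {k : ℕ} (h : ν.rowLen k = 0) :
    rowsBelow ν k = ν.card := by
  unfold rowsBelow YoungDiagram.card
  congr 1
  apply Finset.filter_true_of_mem
  intro q hq
  by_contra hlt
  push Not at hlt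
  have h1 : (k, 0) ∈ ν := ν.up_left_mem hlt (Nat.zero_le _) hq
  have h2 := YoungDiagram.mem_iff_lt_rowLen.mp h1
  omega

/-- Each further nonempty row adds at least one cell. -/
theorem rowsBelow_add_ge (ν : YoungDiagram) (k r : ℕ) :
    min ν.card (rowsBelow ν k + r) ≤ rowsBelow ν (k + r) := by
  induction r with
  | zero => exact min_le_right _ _
  | succ r ih =>
    rw [← add_assoc k r 1, rowsBelow_succ]
    by_cases h : ν.rowLen (k + r) = 0
    · rw [rowsBelow_eq_card_of_rowLen_eq_zero h, h]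
      omega
    · omega

theorem colsBelow_eq_rowsBelow_transpose (ν : YoungDiagram) (k : ℕ) :
    colsBelow ν k = rowsBelow ν.transpose k := by
  induction k with
  | zero => simp [colsBelow, rowsBelow]
  | succ k ih =>
    rw [rowsBelow_succ, ← ih, colsBelow, colsBelow, Finset.sum_range_succ]
    simp

theorem colsBelow_add_ge (ν : YoungDiagram) (k r : ℕ) :
    min ν.card (colsBelow ν k + r) ≤ colsBelow ν (k + r) := by
  rw [colsBelow_eq_rowsBelow_transpose, colsBelow_eq_rowsBelow_transpose]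
  have := rowsBelow_add_ge ν.transpose k r
  have h : ν.transpose.card = ν.card := by
    have h1 : ν.transpose.cells = ν.cells.map (Equiv.prodComm ℕ ℕ).toEmbedding := rfl
    unfold YoungDiagram.card
    rw [h1, Finset.card_map]
  rwa [h] at this

theorem colLen_succ_le (ν : YoungDiagram) (j : ℕ) : ν.colLen (j + 1) ≤ ν.colLen j :=
  ν.colLen_anti _ _ (Nat.le_succ j)

omit [DecidableEq S] in
theorem lc_comp_of_range {S₂ : Type} [Fintype S₂] [DecidableEq S₂] (j : S₂ → S)
    (hj : Function.Injective j) (d : S → ℕ) {e : ℕ} (he : ∀ s, d s = e → ∃ t, j t = s) :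
    lc (d ∘ j) e = lc d e := by
  classical
  unfold lc
  refine Finset.card_bij (fun t _ => j t) ?_ ?_ ?_
  · intro t ht
    simpa using ht
  · intro a _ b _ h
    exact hj h
  · intro s hs
    have hs' : d s = e := by simpa using hs
    obtain ⟨t, rfl⟩ := he s hs'
    exact ⟨t, by simpa using hs', rfl⟩

end Count

/-! ### Hook peel steps -/

section Level

/-- One hook peel: `L` is a column of height `c` plus `X`, and the transpose of `X` is a column of
height `b` plus `L₁`, with the two Pieri conditions. -/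
def PeelStep (L L₁ : Finset (ℕ × ℕ)) (c b : ℕ) : Prop :=
  ∃ X : Finset (ℕ × ℕ), L = addCol c X ∧ (∀ q, q ∈ X ↔ q.swap ∈ addCol b L₁) ∧
    (∃ (τc : Perm (Fin c)) (τ π : ℕ → ℕ), (∀ i : Fin c, τ i = τc i) ∧
      (Finset.range c).image π = Finset.range c ∧
      ∀ k < c, min (rowCnt X (π k)) (rowCnt X (τ (π k))) + k + 1 ≤ c) ∧
    (∃ (τc : Perm (Fin b)) (τ π : ℕ → ℕ), (∀ i : Fin b, τ i = τc i) ∧
      (Finset.range b).image π = Finset.range b ∧
      ∀ k < b, min (rowCnt L₁ (π k)) (rowCnt L₁ (τ (π k))) + k + 1 ≤ b)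

theorem PeelStep.occurs_aux {L L₁ : Finset (ℕ × ℕ)} {c b : ℕ} (h : PeelStep L L₁ c b)
    [FiniteDimensional ℂ V] {ρ : Representation ℂ (Perm S) V} (hρ : ρ.IsIrreducible)
    {ν : YoungDiagram} (hν : Label ρ ν) {d : S → ℕ} (hfix : HasFix ρ d) {a a' : ℕ}
    (A : Finset S) (hAm : ∀ s, s ∈ A ↔ d s = a) (hA : A.card = c)
    (B : Finset {s // s ∉ A}) (hBm : ∀ s, s ∈ B ↔ d s.1 = a') (hB : B.card = b)
    (IH : ∀ (S₂ : Type) [Fintype S₂] [DecidableEq S₂] (j : S₂ → S), Function.Injective j →
      (∀ s, (∃ t, j t = s) ↔ d s ≠ a ∧ d s ≠ a') → Fintype.card S₂ + c + b = Fintype.card S →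
      ∀ (V' : Type) [AddCommGroup V'] [Module ℂ V'] [FiniteDimensional ℂ V']
      (ρ' : Representation ℂ (Perm S₂) V'), ρ'.IsIrreducible → HasFix ρ' (d ∘ j) →
      (∀ η, Label ρ' η → ∀ k, colsBelow ν k ≤ colsBelow η k + 2 * k) → Occurs ρ' L₁ L₁) :
    Occurs ρ L L := by
  obtain ⟨X, rfl, hX, ⟨τc, τ, π, hτ, hπ, hcnt⟩, ⟨τc', τ', π', hτ', hπ', hcnt'⟩⟩ := h
  refine peel_two hρ hν hfix hA ?_ hB ?_ hX τc τ hτ π hπ hcnt τc' τ' hτ' π' hπ' hcnt' ?_
  · intro s hs t ht
    rw [(hAm s).mp hs, (hAm t).mp ht]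
  · intro s hs t ht
    rw [(hBm s).mp hs, (hBm t).mp ht]
  · intro V' _ _ _ ρ' hρ' hfix' hcols
    refine IH {s' : {s // s ∉ A} // s' ∉ B} (((↑) : {s // s ∉ A} → S) ∘ ((↑) : {s' : {s // s ∉ A} // s' ∉ B} → {s // s ∉ A})) ?_ ?_ ?_ V'
      ρ' hρ' ?_ hcols
    · exact Subtype.val_injective.comp Subtype.val_injective
    · intro s
      constructor
      · rintro ⟨t, rfl⟩
        constructor
        · intro h0
          exact t.1.2 ((hAm _).mpr h0)
        · intro h0
          exact t.2 ((hBm _).mpr h0)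
      · rintro ⟨h1, h2⟩
        have h3 : s ∉ A := fun hs => h1 ((hAm s).mp hs)
        exact ⟨⟨⟨s, h3⟩, fun hs => h2 ((hBm _).mp hs)⟩, rfl⟩
    · have h1 : Fintype.card {s' : {s // s ∉ A} // s' ∉ B} = Fintype.card {s // s ∉ A} - B.card := by
        rw [Fintype.card_subtype_compl, Fintype.card_coe]
      have h2 : Fintype.card {s // s ∉ A} = Fintype.card S - A.card := by
        rw [Fintype.card_subtype_compl, Fintype.card_coe]
      have h3 : A.card ≤ Fintype.card S := Finset.card_le_univ A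
      have h4 : B.card ≤ Fintype.card {s // s ∉ A} := Finset.card_le_univ B
      omega
    · exact hfix'

/-- A hook peel along two colour classes of a colouring with a fixed vector. -/
theorem PeelStep.occurs {L L₁ : Finset (ℕ × ℕ)} {c b : ℕ} (h : PeelStep L L₁ c b)
    [FiniteDimensional ℂ V] {ρ : Representation ℂ (Perm S) V} (hρ : ρ.IsIrreducible)
    {ν : YoungDiagram} (hν : Label ρ ν) {d : S → ℕ} (hfix : HasFix ρ d) {a a' : ℕ} (haa' : a ≠ a')
    (hca : lc d a = c) (hcb : lc d a' = b)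
    (IH : ∀ (S₂ : Type) [Fintype S₂] [DecidableEq S₂] (j : S₂ → S), Function.Injective j →
      (∀ s, (∃ t, j t = s) ↔ d s ≠ a ∧ d s ≠ a') → Fintype.card S₂ + c + b = Fintype.card S →
      ∀ (V' : Type) [AddCommGroup V'] [Module ℂ V'] [FiniteDimensional ℂ V']
      (ρ' : Representation ℂ (Perm S₂) V'), ρ'.IsIrreducible → HasFix ρ' (d ∘ j) →
      (∀ η, Label ρ' η → ∀ k, colsBelow ν k ≤ colsBelow η k + 2 * k) → Occurs ρ' L₁ L₁) :
    Occurs ρ L L := by
  refine h.occurs_aux hρ hν hfix (Finset.univ.filter fun s => d s = a) (by simp) hca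
    (Finset.univ.filter fun s => d s.1 = a') (by simp) ?_ IH
  rw [← hcb]
  have h1 : lc (d ∘ ((↑) : {s // s ∉ Finset.univ.filter fun s => d s = a} → S)) a' = lc d a' := by
    refine lc_comp_of_range _ Subtype.val_injective d ?_
    intro s hs
    refine ⟨⟨s, ?_⟩, rfl⟩
    simp only [Finset.mem_filter, Finset.mem_univ, true_and]
    rw [hs]
    exact haa'.symm
  rw [← h1]
  rfl

theorem Label.card_eq {ρ : Representation ℂ (Perm S) V} {ν : YoungDiagram} (h : Label ρ ν) :
    ν.card = Fintype.card S := by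
  obtain ⟨t, -, -⟩ := h
  have := Fintype.card_congr t
  rw [Fintype.card_coe] at this
  exact this

/-- A colouring of given content with a fixed vector, from dominance. -/
theorem exists_fix_of_content {ρ : Representation ℂ (Perm S) V} {ν : YoungDiagram}
    (hlab : Label ρ ν) (p : ℕ → ℕ) (K : ℕ) (hK : ∀ a, K ≤ a → p a = 0)
    (hsum : ∑ a ∈ Finset.range K, p a = Fintype.card S) (hanti : Antitone p)
    (hdom : ∀ k, ∑ a ∈ Finset.range k, p a ≤ rowsBelow ν k) :
    ∃ d : S → ℕ, (∀ a, lc d a = p a) ∧ HasFix ρ d := by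
  obtain ⟨d, hd⟩ := exists_colouring p K hK hsum
  refine ⟨d, hd, hasFix_of_rows hlab ?_ ?_⟩
  · intro a b hab
    rw [hd, hd]
    exact hanti hab
  · intro k
    rw [pc_eq_sum]
    simp only [hd]
    exact hdom k

/-- The same for the sign twist and the columns. -/
theorem exists_fix_twist_of_content {ρ : Representation ℂ (Perm S) V} {ν : YoungDiagram}
    (hlab : Label ρ ν) (p : ℕ → ℕ) (K : ℕ) (hK : ∀ a, K ≤ a → p a = 0)
    (hsum : ∑ a ∈ Finset.range K, p a = Fintype.card S) (hanti : Antitone p)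
    (hdom : ∀ k, ∑ a ∈ Finset.range k, p a ≤ colsBelow ν k) :
    ∃ d : S → ℕ, (∀ a, lc d a = p a) ∧ HasFix (sgnTwist ρ) d := by
  obtain ⟨d, hd⟩ := exists_colouring p K hK hsum
  refine ⟨d, hd, hasFix_twist_of_cols hlab ?_ ?_⟩
  · intro a b hab
    rw [hd, hd]
    exact hanti hab
  · intro k
    rw [pc_eq_sum]
    simp only [hd]
    exact hdom k

/-- Content `(x, y, 1, 1, ..)` with `m` ones. -/
def hookContent (x y m : ℕ) (a : ℕ) : ℕ :=
  if a = 0 then x else if a = 1 then y else if a < 2 + m then 1 else 0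

theorem hookContent_anti {x y m : ℕ} (hxy : y ≤ x) (hy : 1 ≤ y) : Antitone (hookContent x y m) := by
  intro a b hab
  unfold hookContent
  split_ifs <;> omega

theorem hookContent_sum (x y m r : ℕ) :
    ∑ a ∈ Finset.range (2 + r), hookContent x y m a = x + y + min r m := by
  induction r with
  | zero =>
    simp [Finset.sum_range_succ, hookContent]
  | succ r ih =>
    rw [← add_assoc, Finset.sum_range_succ, ih]
    unfold hookContent
    split_ifs <;> omega

/-- Content `(c, b, c₁, b₁, 1, 1, ..)` with `m` ones. -/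
def hook2Content (c b c₁ b₁ m : ℕ) (a : ℕ) : ℕ :=
  if a = 0 then c else if a = 1 then b else if a = 2 then c₁ else if a = 3 then b₁ else
    if a < 4 + m then 1 else 0

theorem hook2Content_anti {c b c₁ b₁ m : ℕ} (h1 : b ≤ c) (h2 : c₁ ≤ b) (h3 : b₁ ≤ c₁) (h4 : 1 ≤ b₁) :
    Antitone (hook2Content c b c₁ b₁ m) := by
  intro a a' hab
  unfold hook2Content
  split_ifs <;> omega

theorem hook2Content_sum (c b c₁ b₁ m r : ℕ) :
    ∑ a ∈ Finset.range (4 + r), hook2Content c b c₁ b₁ m a = c + b + c₁ + b₁ + min r m := by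
  induction r with
  | zero =>
    simp [Finset.sum_range_succ, hook2Content]
  | succ r ih =>
    rw [← add_assoc, Finset.sum_range_succ, ih]
    unfold hook2Content
    split_ifs <;> omega

/-- Universality of a shape at size `m`. -/
def Universal (L : Finset (ℕ × ℕ)) (m : ℕ) : Prop :=
  ∀ (S : Type) [Fintype S] [DecidableEq S], Fintype.card S = m →
    ∀ (V : Type) [AddCommGroup V] [Module ℂ V] [FiniteDimensional ℂ V]
    (ρ : Representation ℂ (Perm S) V), ρ.IsIrreducible → Occurs ρ L L

/-- **Four horizontal strips.** (#2021 (b)) -/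
theorem occurs_long {L₀ L₁ L₂ : Finset (ℕ × ℕ)} {c b c₁ b₁ m : ℕ}
    (h0 : PeelStep L₀ L₁ c b) (h1 : PeelStep L₁ L₂ c₁ b₁) (U : Universal L₂ m)
    (hcard : Fintype.card S = c + b + c₁ + b₁ + m)
    [FiniteDimensional ℂ V] {ρ : Representation ℂ (Perm S) V} (hρ : ρ.IsIrreducible)
    {ν : YoungDiagram} (hν : Label ρ ν)
    (ha1 : b ≤ c) (ha2 : c₁ ≤ b) (ha3 : b₁ ≤ c₁) (ha4 : 1 ≤ b₁)
    (hS1 : c ≤ rowsBelow ν 1) (hS2 : c + b ≤ rowsBelow ν 2) (hS3 : c + b + c₁ ≤ rowsBelow ν 3)
    (hS4 : c + b + c₁ + b₁ ≤ rowsBelow ν 4) :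
    Occurs ρ L₀ L₀ := by
  have hνc := hν.card_eq
  obtain ⟨d, hd, hfix⟩ := exists_fix_of_content hν (hook2Content c b c₁ b₁ m) (4 + m)
    (by
      intro a ha
      unfold hook2Content
      split_ifs <;> omega)
    (by
      rw [hook2Content_sum, hcard]
      omega)
    (hook2Content_anti ha1 ha2 ha3 ha4)
    (by
      intro k
      rcases k with _ | _ | _ | _ | r
      · simp
      · simpa [Finset.sum_range_succ, hook2Content] using hS1
      · simpa [Finset.sum_range_succ, hook2Content] using hS2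
      · simpa [Finset.sum_range_succ, hook2Content, add_assoc] using (by omega : c + (b + c₁) ≤ rowsBelow ν 3)
      · have e : r + 1 + 1 + 1 + 1 = 4 + r := by omega
        rw [e, hook2Content_sum]
        have h2 := rowsBelow_add_ge ν 4 r
        rw [hνc, hcard] at h2
        omega)
  refine h0.occurs hρ hν hfix (a := 0) (a' := 1) (by omega) ?_ ?_ ?_
  · rw [hd]
    simp [hook2Content]
  · rw [hd]
    simp [hook2Content]
  · intro S₂ _ _ j hj hjr hcard₂ V' _ _ _ ρ' hρ' hfix' _
    have hl2 : lc (d ∘ j) 2 = c₁ := by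
      rw [lc_comp_of_range j hj d (fun s hs => (hjr s).mpr (by omega)), hd]
      simp [hook2Content]
    have hl3 : lc (d ∘ j) 3 = b₁ := by
      rw [lc_comp_of_range j hj d (fun s hs => (hjr s).mpr (by omega)), hd]
      simp [hook2Content]
    obtain ⟨η, -, hη⟩ := exists_label hρ'
    refine h1.occurs hρ' hη hfix' (a := 2) (a' := 3) (by omega) hl2 hl3 ?_
    intro S₄ _ _ j' _ _ hcard₄ V₄ _ _ _ ρ₄ hρ₄ _ _
    exact U S₄ (by omega) V₄ ρ₄ hρ₄

/-- **Two horizontal and two vertical strips.** (#2021 (a)) -/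
theorem occurs_fat {L₀ L₁ L₂ : Finset (ℕ × ℕ)} {c b c₁ b₁ m : ℕ}
    (h0 : PeelStep L₀ L₁ c b) (h1 : PeelStep L₁ L₂ c₁ b₁) (hL₁ : ∀ q, q ∈ L₁ ↔ q.swap ∈ L₁)
    (U : Universal L₂ m)
    (hcard : Fintype.card S = c + b + c₁ + b₁ + m)
    [FiniteDimensional ℂ V] {ρ : Representation ℂ (Perm S) V} (hρ : ρ.IsIrreducible)
    {ν : YoungDiagram} (hν : Label ρ ν)
    (ha1 : b ≤ c) (ha2 : 1 ≤ b) (ha3 : b₁ ≤ c₁) (ha4 : 1 ≤ b₁) (ha5 : c₁ ≤ b₁ + 1)
    (hS1 : c ≤ rowsBelow ν 1) (hS2 : c + b ≤ rowsBelow ν 2)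
    (hC : c₁ + b₁ + 4 ≤ colsBelow ν 2) :
    Occurs ρ L₀ L₀ := by
  have hνc := hν.card_eq
  obtain ⟨d, hd, hfix⟩ := exists_fix_of_content hν (hookContent c b (c₁ + b₁ + m)) (2 + (c₁ + b₁ + m))
    (by
      intro a ha
      unfold hookContent
      split_ifs <;> omega)
    (by
      rw [hookContent_sum, hcard]
      omega)
    (hookContent_anti ha1 ha2)
    (by
      intro k
      rcases k with _ | _ | r
      · simp
      · simpa [Finset.sum_range_succ, hookContent] using hS1
      · have e : r + 1 + 1 = 2 + r := by omega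
        rw [e, hookContent_sum]
        have h2 := rowsBelow_add_ge ν 2 r
        rw [hνc, hcard] at h2
        omega)
  refine h0.occurs hρ hν hfix (a := 0) (a' := 1) (by omega) ?_ ?_ ?_
  · rw [hd]
    simp [hookContent]
  · rw [hd]
    simp [hookContent]
  · intro S₂ _ _ j hj hjr hcard₂ V' _ _ _ ρ' hρ' hfix' hcols
    obtain ⟨η, -, hη⟩ := exists_label hρ'
    have hηc := hη.card_eq
    have hC2 : c₁ + b₁ ≤ colsBelow η 2 := by
      have := hcols η hη 2
      omega
    have hC1 : c₁ ≤ colsBelow η 1 := by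
      have h3 : colsBelow η 2 = η.colLen 0 + η.colLen 1 := by
        simp [colsBelow, Finset.sum_range_succ]
      have h4 : colsBelow η 1 = η.colLen 0 := by
        simp [colsBelow]
      have h5 : η.colLen 1 ≤ η.colLen 0 := colLen_succ_le η 0
      omega
    obtain ⟨d', hd', hfix₂⟩ := exists_fix_twist_of_content hη (hookContent c₁ b₁ m) (2 + m)
      (by
        intro a ha
        unfold hookContent
        split_ifs <;> omega)
      (by
        rw [hookContent_sum]
        omega)
      (hookContent_anti ha3 ha4)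
      (by
        intro k
        rcases k with _ | _ | r
        · simp
        · simpa [Finset.sum_range_succ, hookContent] using hC1
        · have e : r + 1 + 1 = 2 + r := by omega
          rw [e, hookContent_sum]
          have h2 := colsBelow_add_ge η 2 r
          rw [hηc] at h2
          omega)
    obtain ⟨θ, -, hθ⟩ := exists_label (sgnTwist_isIrreducible hρ')
    refine occurs_of_twist_selfConj hL₁ ?_
    refine h1.occurs (sgnTwist_isIrreducible hρ') hθ hfix₂ (a := 0) (a' := 1) (by omega) ?_ ?_ ?_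
    · rw [hd']
      simp [hookContent]
    · rw [hd']
      simp [hookContent]
    · intro S₄ _ _ j' _ _ hcard₄ V₄ _ _ _ ρ₄ hρ₄ _ _
      exact U S₄ (by omega) V₄ ρ₄ hρ₄

end Level

end Main

end Crest.Agent.Saxl
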