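import Crest.Agent.Lib.Saxl.BlockTest
import Crest.Agent.Lib.Saxl.Peel

/-!
# The level theorem (row 195, helper86)

If `L₂` (the shape `L₀` minus two hooks) is universal, and every diagram `ν` or its transpose passes
one of the tests: four strips (`LongOK`), two horizontal and two vertical strips (`FatOK`), or the
block test for a list of blocks of `L₀` (`BlockOK`), then `L₀` is universal.
-/

set_option autoImplicit false

open scoped BigOperators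
open Equiv

namespace Crest.Agent.Saxl

/-- Two horizontal and two vertical strips exist. -/
def FatOK (c b c₁ b₁ : ℕ) (ν : YoungDiagram) : Prop :=
  c ≤ rowsBelow ν 1 ∧ c + b ≤ rowsBelow ν 2 ∧ c₁ + b₁ + 4 ≤ colsBelow ν 2

/-- Four horizontal strips exist. -/
def LongOK (c b c₁ b₁ : ℕ) (ν : YoungDiagram) : Prop :=
  c ≤ rowsBelow ν 1 ∧ c + b ≤ rowsBelow ν 2 ∧ c + b + c₁ ≤ rowsBelow ν 3 ∧
    c + b + c₁ + b₁ ≤ rowsBelow ν 4

/-- The block test at `ν` for a list of blocks, with given parts of the blocks. -/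
def BlockOK (l : List BK) (ps : Fin l.length → List ℕ) (ν : YoungDiagram) : Prop :=
  ∃ (P : Finset (Fin l.length)) (r a b : Fin l.length → ℕ) (sl : ℕ → ℕ),
    (∀ i ∈ P, ∃ d, l[i.1] = BK.dbl d) ∧ Set.InjOn r P ∧
    (∀ i ∈ P, Even (a i)) ∧ (∀ i ∈ P, Even (b i)) ∧ (∀ i ∈ P, a i + b i = (l[i.1]).size) ∧
    (∀ y, (∑ i ∈ P, if r i = y then a i else 0) +
      (∑ i ∈ P, if r i + 1 = y then b i else 0) ≤ ν.rowLen y) ∧
    Set.InjOn sl (Set.Iio (ν.colLen 0)) ∧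
    ∀ T : Finset (Σ i, Fin (ps i).length), (∀ p ∈ T, p.1 ∉ P) →
      ∑ p ∈ T, (ps p.1)[p.2.1] ≤
      ∑ y ∈ Finset.range (ν.colLen 0), if sl y < T.card then
        ν.rowLen y - ((∑ i ∈ P, if r i = y then a i else 0) +
          (∑ i ∈ P, if r i + 1 = y then b i else 0)) else 0

section

variable {S : Type} [Fintype S] [DecidableEq S] {V : Type} [AddCommGroup V] [Module ℂ V]

theorem occurs_of_blockOK {l : List BK} (hpw : l.Pairwise fun K K' => K'.hi < K.lo)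
    {ps : Fin l.length → List ℕ} (hps : ∀ i, (ps i).sum = (l[i.1]).size)
    (hOK : ∀ i : Fin l.length, (l[i.1]).PartsOK (ps i))
    {ν : YoungDiagram} (hcard : ν.card = Fintype.card S)
    (hS : (l.map BK.size).sum = Fintype.card S) (h : BlockOK l ps ν)
    [FiniteDimensional ℂ V] {ρ : Representation ℂ (Perm S) V} (hρ : ρ.IsIrreducible)
    (hlab : Label ρ ν) : Occurs ρ (cellsL l) (cellsL l) := by
  obtain ⟨P, r, a, b, sl, hP, hr, ha, hb, hab, hcap, hsl, hdom⟩ := h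
  exact occurs_of_list l hpw ps hps hOK hcard hS P hP r a b hr ha hb hab hcap sl hsl hdom hρ hlab

/-- The three tests at `ν` give the occurrence. -/
theorem occurs_of_tests {L₀ L₁ L₂ : Finset (ℕ × ℕ)} {c b c₁ b₁ m : ℕ}
    {l : List BK} {ps : Fin l.length → List ℕ}
    (hL₁ : ∀ q, q ∈ L₁ ↔ q.swap ∈ L₁) (hl : L₀ = cellsL l)
    (hpw : l.Pairwise fun K K' => K'.hi < K.lo)
    (hps : ∀ i, (ps i).sum = (l[i.1]).size) (hOK : ∀ i : Fin l.length, (l[i.1]).PartsOK (ps i))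
    (h0 : PeelStep L₀ L₁ c b) (h1 : PeelStep L₁ L₂ c₁ b₁) (U : Universal L₂ m)
    (hb : b ≤ c) (hb1 : 1 ≤ b) (hc₁ : c₁ ≤ b) (hb₁ : b₁ ≤ c₁) (hb₁1 : 1 ≤ b₁) (hc₁' : c₁ ≤ b₁ + 1)
    (hsize : (l.map BK.size).sum = c + b + c₁ + b₁ + m)
    (hcard : Fintype.card S = c + b + c₁ + b₁ + m)
    [FiniteDimensional ℂ V] {ρ : Representation ℂ (Perm S) V} (hρ : ρ.IsIrreducible)
    {ν : YoungDiagram} (hν : Label ρ ν) (hνc : ν.card = Fintype.card S)
    (htest : FatOK c b c₁ b₁ ν ∨ LongOK c b c₁ b₁ ν ∨ BlockOK l ps ν) : Occurs ρ L₀ L₀ := by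
  rcases htest with ⟨h2, h3, h4⟩ | ⟨h2, h3, h4, h5⟩ | h
  · exact occurs_fat h0 h1 hL₁ U hcard hρ hν hb hb1 hb₁ hb₁1 hc₁' h2 h3 h4
  · exact occurs_long h0 h1 U hcard hρ hν hb hc₁ hb₁ hb₁1 h2 h3 h4 h5
  · rw [hl]
    exact occurs_of_blockOK hpw hps hOK hνc (hsize.trans hcard.symm) h hρ hν

end

/-- **The level theorem.** -/
theorem universal_of_level {L₀ L₁ L₂ : Finset (ℕ × ℕ)} {c b c₁ b₁ m : ℕ}
    {l : List BK} {ps : Fin l.length → List ℕ}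
    (hL₀ : ∀ q, q ∈ L₀ ↔ q.swap ∈ L₀)
    (hL₁ : ∀ q, q ∈ L₁ ↔ q.swap ∈ L₁) (hl : L₀ = cellsL l)
    (hpw : l.Pairwise fun K K' => K'.hi < K.lo)
    (hps : ∀ i, (ps i).sum = (l[i.1]).size) (hOK : ∀ i : Fin l.length, (l[i.1]).PartsOK (ps i))
    (h0 : PeelStep L₀ L₁ c b) (h1 : PeelStep L₁ L₂ c₁ b₁) (U : Universal L₂ m)
    (hb : b ≤ c) (hb1 : 1 ≤ b) (hc₁ : c₁ ≤ b) (hb₁ : b₁ ≤ c₁) (hb₁1 : 1 ≤ b₁) (hc₁' : c₁ ≤ b₁ + 1)
    (hsize : (l.map BK.size).sum = c + b + c₁ + b₁ + m)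
    (hcover : ∀ ν : YoungDiagram, ν.card = c + b + c₁ + b₁ + m →
      (FatOK c b c₁ b₁ ν ∨ LongOK c b c₁ b₁ ν ∨ BlockOK l ps ν) ∨
      (FatOK c b c₁ b₁ ν.transpose ∨ LongOK c b c₁ b₁ ν.transpose ∨ BlockOK l ps ν.transpose)) :
    Universal L₀ (c + b + c₁ + b₁ + m) := by
  intro S _ _ hcard V _ _ _ ρ hρ
  obtain ⟨ν, hνc, hlab⟩ := exists_label hρ
  have hcν : ν.card = c + b + c₁ + b₁ + m := hνc.trans hcard
  rcases hcover ν hcν with h | h
  · exact occurs_of_tests hL₁ hl hpw hps hOK h0 h1 U hb hb1 hc₁ hb₁ hb₁1 hc₁' hsize hcard hρ hlab hνc h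
  · apply occurs_of_twist_selfConj hL₀
    have hcν' : ν.transpose.card = Fintype.card S := by
      rw [← hνc]
      have h1 : ν.transpose.cells = ν.cells.map (Equiv.prodComm ℕ ℕ).toEmbedding := rfl
      show ν.transpose.cells.card = ν.cells.card
      rw [h1, Finset.card_map]
    exact occurs_of_tests hL₁ hl hpw hps hOK h0 h1 U hb hb1 hc₁ hb₁ hb₁1 hc₁' hsize hcard
      (sgnTwist_isIrreducible hρ) hlab.sgnTwist hcν' h

end Crest.Agent.Saxl
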