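import Crest.Agent.Lib.Saxl.PeelHook
import Crest.Agent.Lib.Saxl.Level
import Crest.Agent.Lib.Saxl.SpechtIrr

/-!
# Block lists of the hook family (row 195, S0298)

`stepL d l` is the block list of two new hooks around the shape of `l`; `d = true` makes a defect
(gap 6 between the hooks).  `Good l` is stable under `stepL`, and gives all the peel steps.
-/

set_option autoImplicit false

open scoped BigOperators
open Equiv

namespace Crest.Agent.Saxl.Family

/-- From a universal Young diagram of every size to the statement of the row. -/
theorem main_of_universal (n : ℕ) (μ : YoungDiagram) (hn : μ.cells.card = n)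
    (hU : Saxl.Universal μ.cells n) :
    ∃ (V : Type) (_ : AddCommGroup V) (_ : Module ℂ V) (_ : FiniteDimensional ℂ V)
      (ρ : Representation ℂ (Perm (Fin n)) V), ρ.IsIrreducible ∧
      ∀ (W : Type) [AddCommGroup W] [Module ℂ W] [FiniteDimensional ℂ W]
        (σ : Representation ℂ (Perm (Fin n)) W), σ.IsIrreducible →
        Nontrivial (Representation.IntertwiningMap σ (Representation.tprod ρ ρ)) :=
  exists_rep_of_occurs n μ hn fun W _ _ _ σ hσ =>
    hU (Fin n) (Fintype.card_fin n) W σ hσ

/-! ### Lists of blocks -/

/-- Raise the column heights of a block. -/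
def shiftB (t : ℕ) : BK → BK
  | BK.single x => BK.single (x + t)
  | BK.pair x => BK.pair (x + t)
  | BK.dbl d => BK.dbl (d + t)

theorem width_shiftB (t : ℕ) (K : BK) : (shiftB t K).width = K.width := by
  rcases K with x | x | d <;> rfl

theorem colH_shiftB (t : ℕ) (K : BK) {y : ℕ} (h : y < K.width) :
    (shiftB t K).colH y = K.colH y + t := by
  rcases K with x | x | d
  · rcases y with _ | y
    · rfl
    · simp [BK.width] at h
  · rcases y with _ | _ | y
    · simp [shiftB, BK.colH]
      omega
    · rfl
    · simp [BK.width] at h
  · rcases y with _ | _ | y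
    · rfl
    · rfl
    · simp [BK.width] at h

/-- The total width of a list of blocks. -/
def twidth (l : List BK) : ℕ := (l.map BK.width).sum

theorem colHL_eq_zero {l : List BK} {y : ℕ} (h : twidth l ≤ y) : colHL l y = 0 := by
  induction l generalizing y with
  | nil => rfl
  | cons K l ih =>
    simp only [twidth, List.map_cons, List.sum_cons] at h
    simp only [colHL]
    rw [if_neg (by omega)]
    exact ih (by simp only [twidth]; omega)

theorem colHL_map_shift (t : ℕ) (l : List BK) {y : ℕ} (h : y < twidth l) :
    colHL (l.map (shiftB t)) y = colHL l y + t := by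
  induction l generalizing y with
  | nil => simp [twidth] at h
  | cons K l ih =>
    simp only [twidth, List.map_cons, List.sum_cons] at h
    simp only [List.map_cons, colHL, width_shiftB]
    by_cases hy : y < K.width
    · rw [if_pos hy, if_pos hy, colH_shiftB t K hy]
    · rw [if_neg hy, if_neg hy]
      exact ih (by simp only [twidth]; omega)

theorem twidth_map_shift (t : ℕ) (l : List BK) : twidth (l.map (shiftB t)) = twidth l := by
  induction l with
  | nil => rfl
  | cons K l ih =>
    simp only [twidth, List.map_cons, List.sum_cons, width_shiftB] at ih ⊢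
    omega

theorem twidth_append (l l' : List BK) : twidth (l ++ l') = twidth l + twidth l' := by
  simp [twidth]

theorem colHL_append (l l' : List BK) (y : ℕ) :
    colHL (l ++ l') y = if y < twidth l then colHL l y else colHL l' (y - twidth l) := by
  induction l generalizing y with
  | nil => simp [twidth]
  | cons K l ih =>
    simp only [List.cons_append, colHL, twidth, List.map_cons, List.sum_cons]
    by_cases hy : y < K.width
    · rw [if_pos hy, if_pos (by omega), if_pos hy]
    · rw [if_neg hy, ih]
      simp only [twidth]
      by_cases hy' : y - K.width < (l.map BK.width).sum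
      · rw [if_pos hy', if_pos (by omega), if_neg hy]
      · rw [if_neg hy', if_neg (by omega)]
        congr 1
        omega

/-- One double wrap of a list of blocks: `d = false`: consecutive hooks, `d = true`: a defect. -/
def stepL (d : Bool) (l : List BK) : List BK :=
  if d then BK.pair (twidth l + 4) :: (l.map (shiftB 2) ++ [BK.dbl 2, BK.single 1])
  else BK.pair (twidth l + 3) :: (l.map (shiftB 2) ++ [BK.pair 1])

/-- The first row of the outer hook of `stepL d l`. -/
def cOf (d : Bool) (l : List BK) : ℕ := if d then twidth l + 5 else twidth l + 4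

theorem twidth_stepL (d : Bool) (l : List BK) : twidth (stepL d l) = cOf d l := by
  cases d
  · simp only [stepL, cOf, if_false, Bool.false_eq_true]
    have := twidth_map_shift 2 l
    simp only [twidth, List.map_cons, List.sum_cons, List.map_append, List.sum_append,
      List.map_nil, List.sum_nil, BK.width] at this ⊢
    omega
  · simp only [stepL, cOf, if_true]
    have := twidth_map_shift 2 l
    simp only [twidth, List.map_cons, List.sum_cons, List.map_append, List.sum_append,
      List.map_nil, List.sum_nil, BK.width] at this ⊢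
    omega

theorem colHL_stepL_zero (d : Bool) (l : List BK) : colHL (stepL d l) 0 = cOf d l := by
  cases d <;> simp [stepL, cOf, colHL, BK.width, BK.colH]

theorem colHL_stepL_one (d : Bool) (l : List BK) : colHL (stepL d l) 1 = cOf d l - 1 := by
  cases d <;> simp [stepL, cOf, colHL, BK.width, BK.colH]

theorem colHL_stepL_add_two (d : Bool) (l : List BK) (y : ℕ) :
    colHL (stepL d l) (y + 2) =
      if y < twidth l then colHL l y + 2
      else if y + 1 < cOf d l - 2 then 2 else if y + 2 < cOf d l then 1 else 0 := by
  cases d
  · simp only [stepL, if_false, Bool.false_eq_true, cOf, colHL, BK.width]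
    rw [if_neg (by omega), colHL_append]
    have e : y + 2 - 2 = y := by omega
    rw [e, twidth_map_shift]
    by_cases hy : y < twidth l
    · rw [if_pos hy, if_pos hy, colHL_map_shift 2 l hy]
    · rw [if_neg hy, if_neg hy]
      have hw : y = twidth l + (y - twidth l) := by omega
      generalize y - twidth l = z at hw ⊢
      subst hw
      rcases z with _ | _ | z
      · simp [colHL, BK.width, BK.colH]
      · simp [colHL, BK.width, BK.colH]
      · simp [colHL, BK.width]
  · simp only [stepL, if_true, cOf, colHL, BK.width]
    rw [if_neg (by omega), colHL_append]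
    have e : y + 2 - 2 = y := by omega
    rw [e, twidth_map_shift]
    by_cases hy : y < twidth l
    · rw [if_pos hy, if_pos hy, colHL_map_shift 2 l hy]
    · rw [if_neg hy, if_neg hy]
      have hw : y = twidth l + (y - twidth l) := by omega
      generalize y - twidth l = z at hw ⊢
      subst hw
      rcases z with _ | _ | _ | z
      · simp [colHL, BK.width, BK.colH]
      · simp [colHL, BK.width, BK.colH]
      · simp [colHL, BK.width, BK.colH]
      · simp [colHL, BK.width]

/-- The block list of a double wrap is the double hook wrap. -/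
theorem cellsL_stepL (d : Bool) (l : List BK) (hw : ∀ q ∈ cellsL l, q.2 < twidth l) :
    cellsL (stepL d l) = hookWrap (cOf d l) (hookWrap (cOf d l - 2) (cellsL l)) := by
  have hc : 4 ≤ cOf d l ∧ twidth l + 4 ≤ cOf d l := by
    cases d <;> simp [cOf]
  ext ⟨i, j⟩
  rw [mem_cellsL, mem_hookWrap]
  simp only []
  rcases j with _ | _ | j
  · rw [colHL_stepL_zero]
    constructor
    · intro h
      exact Or.inr (Or.inl ⟨rfl, h⟩)
    · rintro (⟨rfl, h⟩ | ⟨_, h⟩ | ⟨a, b, _, h, _⟩)
      · exact h
      · exact h
      · omega
  · have e1 : colHL (stepL d l) (0 + 1) = cOf d l - 1 := colHL_stepL_one d l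
    rw [e1]
    constructor
    · intro h
      rcases i with _ | i
      · exact Or.inl ⟨rfl, by omega⟩
      · exact Or.inr (Or.inr ⟨i, 0, rfl, rfl, mem_hookWrap.mpr (Or.inr (Or.inl ⟨rfl, by omega⟩))⟩)
    · rintro (⟨rfl, h⟩ | ⟨h, _⟩ | ⟨a, b, rfl, h, h2⟩)
      · omega
      · omega
      · have hb : b = 0 := by omega
        subst hb
        rw [mem_hookWrap] at h2
        rcases h2 with ⟨rfl, h3⟩ | ⟨_, h3⟩ | ⟨_, b', _, h3, _⟩
        · omega
        · omega
        · omega
  · have e2 : colHL (stepL d l) (j + 1 + 1) =
        if j < twidth l then colHL l j + 2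
        else if j + 1 < cOf d l - 2 then 2 else if j + 2 < cOf d l then 1 else 0 :=
      colHL_stepL_add_two d l j
    rw [e2]
    constructor
    · intro h
      rcases i with _ | i
      · refine Or.inl ⟨rfl, ?_⟩
        split_ifs at h with h1 h2 h3 <;> omega
      · refine Or.inr (Or.inr ⟨i, j + 1, rfl, rfl, mem_hookWrap.mpr ?_⟩)
        rcases i with _ | i
        · refine Or.inl ⟨rfl, ?_⟩
          split_ifs at h with h1 h2 h3 <;> omega
        · refine Or.inr (Or.inr ⟨i, j, rfl, rfl, ?_⟩)
          rw [mem_cellsL]
          simp only []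
          split_ifs at h with h1 h2 h3 <;> omega
    · rintro (⟨rfl, h⟩ | ⟨h, _⟩ | ⟨a, b, rfl, h, h2⟩)
      · split_ifs <;> omega
      · omega
      · have hb : b = j + 1 := by omega
        subst hb
        rw [mem_hookWrap] at h2
        rcases h2 with ⟨rfl, h3⟩ | ⟨h3, _⟩ | ⟨a', b', rfl, h3, h4⟩
        · split_ifs <;> omega
        · omega
        · have hb' : b' = j := by omega
          subst hb'
          have hwj := hw _ h4
          simp only at hwj
          rw [if_pos hwj]
          rw [mem_cellsL] at h4
          simp only at h4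
          omega

/-- Non-degenerate blocks. -/
def Nondeg : BK → Prop
  | BK.single x => 0 < x
  | BK.pair x => 0 < x
  | BK.dbl d => 0 < d

theorem Nondeg.shiftB {K : BK} (h : Nondeg K) (t : ℕ) : Nondeg (shiftB t K) := by
  rcases K with x | x | d
  · exact Nat.add_pos_left h t
  · exact Nat.add_pos_left h t
  · exact Nat.add_pos_left h t

theorem hi_shiftB {K : BK} (h : Nondeg K) (t : ℕ) : (shiftB t K).hi = K.hi + t := by
  rcases K with x | x | d
  · simp only [Nondeg] at h
    simp only [shiftB, BK.hi]
    omega
  · simp only [shiftB, BK.hi]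
  · simp only [Nondeg] at h
    simp only [shiftB, BK.hi]
    omega

theorem lo_shiftB {K : BK} (h : Nondeg K) (t : ℕ) : (shiftB t K).lo = K.lo + t := by
  rcases K with x | x | d
  · simp only [Nondeg] at h
    simp only [shiftB, BK.lo]
    omega
  · simp only [Nondeg] at h
    simp only [shiftB, BK.lo]
    omega
  · simp only [Nondeg] at h
    simp only [shiftB, BK.lo]
    omega

/-- The Pieri test on the lower half of a shape. -/
def Half (K : Finset (ℕ × ℕ)) (c : ℕ) : Prop :=
  ∀ i j, (i, j) ∈ K → c ≤ 2 * i + 3 → j + 2 * i + 5 ≤ 2 * c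

theorem Half.mono {K : Finset (ℕ × ℕ)} {c d : ℕ} (h : Half K c) (hcd : c ≤ d) : Half K d := by
  intro i j hq hd
  have := h i j hq (by omega)
  omega

theorem Half.hookWrap {K : Finset (ℕ × ℕ)} {c'' c' c : ℕ} (h : Half K c'') (h1 : c' + 2 ≤ c)
    (h2 : c'' + 2 ≤ c) (h3 : 4 ≤ c) : Half (hookWrap c' K) c := by
  intro i j hq hc
  rw [mem_hookWrap] at hq
  rcases hq with ⟨rfl, h4⟩ | ⟨rfl, h4⟩ | ⟨a, b, rfl, rfl, h4⟩
  · omega
  · omega
  · have := h a b h4 (by omega)
    omega

theorem Half.of_inStair {K : Finset (ℕ × ℕ)} {w : ℕ} (h : InStair K w) : Half K (w + 2) := by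
  intro i j hq _
  have := h _ hq
  simp only at this
  omega

theorem Boxed.mono {K : Finset (ℕ × ℕ)} {c d : ℕ} (h : Boxed K c) (hcd : c ≤ d) : Boxed K d :=
  fun q hq => ⟨lt_of_lt_of_le (h q hq).1 hcd, lt_of_lt_of_le (h q hq).2 hcd⟩

/-- What a block list must satisfy to serve as a self-conjugate shape in the family. -/
structure Good (l : List BK) : Prop where
  self : SelfConj (cellsL l)
  low : Lower (cellsL l)
  box : Boxed (cellsL l) (twidth l)
  half : Half (cellsL l) (twidth l + 2)
  nd : ∀ K ∈ l, Nondeg K
  hi : ∀ K ∈ l, K.hi < twidth l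
  pw : l.Pairwise fun K K' => K'.hi < K.lo

theorem Good.width {l : List BK} (h : Good l) : ∀ q ∈ cellsL l, q.2 < twidth l :=
  fun q hq => (h.box q hq).2

theorem cOf_ge (d : Bool) (l : List BK) : twidth l + 4 ≤ cOf d l := by
  cases d <;> simp [cOf]

theorem stepL_pw {d : Bool} {l : List BK} (h : Good l) :
    (stepL d l).Pairwise fun K K' => K'.hi < K.lo := by
  have hmap : (l.map (shiftB 2)).Pairwise fun K K' => K'.hi < K.lo := by
    rw [List.pairwise_map]
    have hp : l.Pairwise fun K K' => Nondeg K ∧ Nondeg K' ∧ K'.hi < K.lo := by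
      have h1 := h.pw
      exact (List.pairwise_iff_forall_sublist.mpr (fun {a b} hab => by
        have ha := h.nd a (hab.subset (by simp))
        have hb := h.nd b (hab.subset (by simp))
        exact ⟨ha, hb, List.pairwise_iff_forall_sublist.mp h1 hab⟩))
    refine hp.imp ?_
    rintro K K' ⟨h1, h2, h3⟩
    rw [hi_shiftB h2, lo_shiftB h1]
    omega
  have hmem : ∀ K ∈ l.map (shiftB 2), K.hi < twidth l + 2 ∧ 2 ≤ K.lo := by
    intro K hK
    obtain ⟨K₀, h0, rfl⟩ := List.mem_map.mp hK
    rw [hi_shiftB (h.nd _ h0), lo_shiftB (h.nd _ h0)]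
    have := h.hi _ h0
    exact ⟨by omega, by omega⟩
  cases d
  · simp only [stepL, if_false, Bool.false_eq_true]
    rw [List.pairwise_cons]
    refine ⟨?_, ?_⟩
    · intro K hK
      rcases List.mem_append.mp hK with hK | hK
      · have := (hmem K hK).1
        simp only [BK.lo]
        omega
      · rw [List.mem_singleton] at hK
        subst hK
        simp only [BK.lo, BK.hi]
        omega
    · rw [List.pairwise_append]
      refine ⟨hmap, by simp, ?_⟩
      intro K hK K' hK'
      rw [List.mem_singleton] at hK'
      subst hK'
      have := (hmem K hK).2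
      simp only [BK.hi]
      omega
  · simp only [stepL, if_true]
    rw [List.pairwise_cons]
    refine ⟨?_, ?_⟩
    · intro K hK
      rcases List.mem_append.mp hK with hK | hK
      · have := (hmem K hK).1
        simp only [BK.lo]
        omega
      · simp only [List.mem_cons, List.not_mem_nil, or_false] at hK
        rcases hK with rfl | rfl
        · simp only [BK.lo, BK.hi]
          omega
        · simp only [BK.lo, BK.hi]
          omega
    · rw [List.pairwise_append]
      refine ⟨hmap, by simp [BK.lo, BK.hi], ?_⟩
      intro K hK K' hK'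
      have := (hmem K hK).2
      simp only [List.mem_cons, List.not_mem_nil, or_false] at hK'
      rcases hK' with rfl | rfl
      · simp only [BK.hi]
        omega
      · simp only [BK.hi]
        omega

/-- The shape after the first new hook. -/
def midL (d : Bool) (l : List BK) : Finset (ℕ × ℕ) := hookWrap (cOf d l - 2) (cellsL l)

theorem Good.halfMid {l : List BK} (h : Good l) (d : Bool) : Half (midL d l) (cOf d l) := by
  have hc := cOf_ge d l
  exact h.half.hookWrap (by omega) (by omega) (by omega)

theorem Good.stepL {l : List BK} (h : Good l) (d : Bool) : Good (stepL d l) := by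
  have hc := cOf_ge d l
  have hw := twidth_stepL d l
  have he := cellsL_stepL d l h.width
  have hbox : Boxed (cellsL l) (cOf d l - 2 - 1) := h.box.mono (by omega)
  have hL1low : Lower (hookWrap (cOf d l - 2) (cellsL l)) := h.low.hookWrap hbox
  have hL1box : Boxed (hookWrap (cOf d l - 2) (cellsL l)) (cOf d l - 1) := hbox.hookWrap (by omega)
  refine ⟨?_, ?_, ?_, ?_, ?_, ?_, stepL_pw h⟩
  · rw [he]
    exact (h.self.hookWrap _).hookWrap _
  · rw [he]
    exact hL1low.hookWrap hL1box
  · rw [he, hw]
    exact hL1box.hookWrap le_rfl
  · rw [he, hw]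
    exact (h.halfMid d).hookWrap (by omega) (by omega) (by omega)
  · intro K hK
    cases d
    · simp only [Family.stepL, if_false, Bool.false_eq_true, List.mem_cons, List.mem_append,
        List.mem_map, List.not_mem_nil, or_false] at hK
      rcases hK with rfl | ⟨K₀, h0, rfl⟩ | rfl
      · exact Nat.succ_pos _
      · exact (h.nd _ h0).shiftB 2
      · exact Nat.one_pos
    · simp only [Family.stepL, if_true, List.mem_cons, List.mem_append,
        List.mem_map, List.not_mem_nil, or_false] at hK
      rcases hK with rfl | ⟨K₀, h0, rfl⟩ | rfl | rfl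
      · exact Nat.succ_pos _
      · exact (h.nd _ h0).shiftB 2
      · exact Nat.two_pos
      · exact Nat.one_pos
  · intro K hK
    rw [hw]
    cases d
    · simp only [Family.stepL, if_false, Bool.false_eq_true, List.mem_cons, List.mem_append,
        List.mem_map, List.not_mem_nil, or_false] at hK
      rcases hK with rfl | ⟨K₀, h0, rfl⟩ | rfl
      · simp only [BK.hi, cOf, if_false, Bool.false_eq_true]
        omega
      · rw [hi_shiftB (h.nd _ h0)]
        have := h.hi _ h0
        omega
      · simp only [BK.hi]
        omega
    · simp only [Family.stepL, if_true, List.mem_cons, List.mem_append,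
        List.mem_map, List.not_mem_nil, or_false] at hK
      rcases hK with rfl | ⟨K₀, h0, rfl⟩ | rfl | rfl
      · simp only [BK.hi, cOf, if_true]
        omega
      · rw [hi_shiftB (h.nd _ h0)]
        have := h.hi _ h0
        omega
      · simp only [BK.hi]
        omega
      · simp only [BK.hi]
        omega

theorem Good.selfMid {l : List BK} (h : Good l) (d : Bool) : SelfConj (midL d l) :=
  h.self.hookWrap _

theorem Good.peel₀ {l : List BK} (h : Good l) (d : Bool) :
    PeelStep (cellsL (Family.stepL d l)) (midL d l) (cOf d l) (cOf d l - 1) := by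
  rw [cellsL_stepL d l h.width]
  exact peelStep_hookWrap_of_cells (h.selfMid d) (h.halfMid d)

theorem Good.peel₁ {l : List BK} (h : Good l) (d : Bool) :
    PeelStep (midL d l) (cellsL l) (cOf d l - 2) (cOf d l - 3) := by
  have hc := cOf_ge d l
  exact peelStep_hookWrap_of_cells h.self (h.half.mono (by omega))

/-- The size of a double wrap. -/
theorem card_stepL {l : List BK} (h : Good l) (d : Bool) :
    (cellsL (Family.stepL d l)).card = cOf d l + (cOf d l - 1) + (cOf d l - 2) + (cOf d l - 3) +
      (cellsL l).card := by
  have hc := cOf_ge d l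
  rw [cellsL_stepL d l h.width, card_hookWrap (by omega), card_hookWrap (by omega)]
  omega

/-- The empty list. -/
theorem good_nil : Good [] := by
  refine ⟨?_, ?_, ?_, ?_, ?_, ?_, List.Pairwise.nil⟩
  · intro q
    simp [cellsL]
  · intro i j i' j' h
    simp [cellsL] at h
  · intro q hq
    simp [cellsL] at hq
  · intro i j hq
    simp [cellsL] at hq
  · simp
  · simp

/-- **The level theorem for the family.** If the inner shape is universal and every diagram passes a
test for the parts `ps`, the double wrap is universal. -/
theorem universal_stepL {l : List BK} (h : Good l) (d : Bool) {m : ℕ}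
    (U : Saxl.Universal (cellsL l) m) (hm : (cellsL l).card = m)
    (ps : Fin (Family.stepL d l).length → List ℕ)
    (hps : ∀ i, (ps i).sum = ((Family.stepL d l)[i.1]).size)
    (hOK : ∀ i : Fin (Family.stepL d l).length, ((Family.stepL d l)[i.1]).PartsOK (ps i))
    (hcover : ∀ ν : YoungDiagram,
      ν.card = cOf d l + (cOf d l - 1) + (cOf d l - 2) + (cOf d l - 3) + m →
      (FatOK (cOf d l) (cOf d l - 1) (cOf d l - 2) (cOf d l - 3) ν ∨
        LongOK (cOf d l) (cOf d l - 1) (cOf d l - 2) (cOf d l - 3) ν ∨
        BlockOK (Family.stepL d l) ps ν) ∨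
      (FatOK (cOf d l) (cOf d l - 1) (cOf d l - 2) (cOf d l - 3) ν.transpose ∨
        LongOK (cOf d l) (cOf d l - 1) (cOf d l - 2) (cOf d l - 3) ν.transpose ∨
        BlockOK (Family.stepL d l) ps ν.transpose)) :
    Saxl.Universal (cellsL (Family.stepL d l))
      (cOf d l + (cOf d l - 1) + (cOf d l - 2) + (cOf d l - 3) + m) := by
  have hc := cOf_ge d l
  have hg := h.stepL d
  refine universal_of_level (L₁ := midL d l) (L₂ := cellsL l) (l := Family.stepL d l) hg.self
    (h.selfMid d) rfl hg.pw hps hOK (h.peel₀ d) (h.peel₁ d) U (by omega) (by omega) (by omega)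
    (by omega) (by omega) (by omega) ?_ ?_
  · rw [← card_cellsL, card_stepL h d, hm]
  · intro ν hν
    exact hcover ν hν

end Crest.Agent.Saxl.Family
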