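import Crest.Agent.Lib.Saxl.FamilyNums

/-!
# The levels of the family with `c ≥ 46` (row 195, S0298)

For each of the sixteen bases: every level of a chain with first column at least `46` is a step,
by the numbers of `FamilyNums`.  Generated text: one theorem for each base.
-/

set_option autoImplicit false
set_option linter.unusedSimpArgs false
set_option linter.unusedTactic false

namespace Crest.Agent.Saxl.Family

theorem step_large_0_0 {P a b : ℕ} (hv : b = a + 1 ∨ b = a + 2 ∨ (a = 0 ∧ b = 0)) (hb : b ≤ P + 1)
    (hs : 1 ≤ a → 4 * (a + b) + 10 ≤ 10 + 4 + 4 * (P + 1))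
    (hc : 46 ≤ 4 + 4 * (P + 1) + ((if a = 0 then 0 else 1) + (if b = 0 then 0 else 1))) :
    StepOK (patt a b 1) (famL (baseL 0 0) P (patt (a - 1) (b - 1))) := by
  have hG : Good (baseL 0 0) := good_baseL (by norm_num) (by norm_num)
  have hw : twidth (baseL 0 0) = 4 := rfl
  have hz : szL (baseL 0 0) = 10 := rfl
  by_cases ha0 : a = 0
  · by_cases hb0 : b = 0
    · subst ha0 hb0
      simp only [if_true, eq_self_iff_true] at hc
      apply step_core_none (c := 4 + 4 * (P + 1) + 0) (π := 0) (u := 2 * (P + 1) + 1)
        (β₁ := 2 * (P + 1) + 2) (ν := (((4 + 4 * (P + 1) + 0 : ℕ) : ℤ)) + (0)) hG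
        (Or.inr ⟨rfl, rfl⟩) hb
      · simp only [if_true, eq_self_iff_true, hw]
      · omega
      · omega
      · omega
      · omega
      · simp only [if_true, eq_self_iff_true, gE, baseL, List.map_cons, List.map_nil, exL_cons, exL_nil, shiftB, exK_single, exK_dbl, exK_pair, lenS]
        omega
      · intro n hn
        rw [hw, hz] at hn
        simp only [if_true, eq_self_iff_true, gE, baseL, List.map_cons, List.map_nil, exL_cons, exL_nil, shiftB, exK_single, exK_dbl, exK_pair, lenS]
        refine ⟨by omega, by omega, by omega, ?_, ?_, by omega, by omega, by omega, ?_, by omega, by omega,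
          ?_, ?_, by omega⟩
        · have hn' : 2 * (n : ℤ) + 4 * (4 + 1) = 2 * 10 + (4 + 4 * ((P : ℤ) + 1)) * (4 + 4 * ((P : ℤ) + 1) + 1)
              + 8 * ((0 : ℤ) + 0) := by exact_mod_cast hn
          push_cast
          linear_combination hn'
        · push_cast
          omega
        · push_cast
          omega
        · omega
        · omega
    · subst ha0
      simp only [hb0, if_true, if_false, eq_self_iff_true] at hc
      apply step_core_none (c := 4 + 4 * (P + 1) + 1) (π := 1) (u := 2 * (P + 1) + 1)
        (β₁ := 2 * (P + 1) + 3) (ν := (0) + 4 * (b : ℤ)) hG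
        (by omega) hb
      · simp only [hb0, if_true, if_false, eq_self_iff_true, hw]
      · omega
      · omega
      · omega
      · omega
      · simp only [hb0, if_true, if_false, eq_self_iff_true, gE, baseL, List.map_cons, List.map_nil, exL_cons, exL_nil, shiftB, exK_single, exK_dbl, exK_pair, lenS]
        omega
      · intro n hn
        rw [hw, hz] at hn
        simp only [hb0, if_true, if_false, eq_self_iff_true, gE, baseL, List.map_cons, List.map_nil, exL_cons, exL_nil, shiftB, exK_single, exK_dbl, exK_pair, lenS]
        refine ⟨by omega, by omega, by omega, ?_, ?_, by omega, by omega, by omega, ?_, by omega, by omega,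
          ?_, ?_, by omega⟩
        · have hn' : 2 * (n : ℤ) + 4 * (4 + 1) = 2 * 10 + (4 + 4 * ((P : ℤ) + 1)) * (4 + 4 * ((P : ℤ) + 1) + 1)
              + 8 * ((0 : ℤ) + b) := by exact_mod_cast hn
          push_cast
          linear_combination hn'
        · push_cast
          omega
        · push_cast
          omega
        · omega
        · omega
  · have hb0 : b ≠ 0 := by omega
    simp only [ha0, hb0, if_false] at hc
    apply step_core_none (c := 4 + 4 * (P + 1) + 2) (π := 0) (u := 2 * (P + 1) + 2)
      (β₁ := max (2 * (P + 1) + 3) (4 * b)) (ν := 1 - ((4 + 4 * (P + 1) + 2 : ℕ) : ℤ) + (0) + 4 * ((a : ℤ) + b)) hG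
      (by omega) hb
    · simp only [ha0, hb0, if_false, hw]
    · omega
    · omega
    · omega
    · omega
    · simp only [ha0, hb0, if_false, gE, baseL, List.map_cons, List.map_nil, exL_cons, exL_nil, shiftB, exK_single, exK_dbl, exK_pair, lenS]
      omega
    · intro n hn
      rw [hw, hz] at hn
      simp only [ha0, hb0, if_false, gE, baseL, List.map_cons, List.map_nil, exL_cons, exL_nil, shiftB, exK_single, exK_dbl, exK_pair, lenS]
      refine ⟨by omega, by omega, by omega, ?_, ?_, by omega, by omega, by omega, ?_, by omega, by omega,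
        ?_, ?_, by omega⟩
      · have hn' : 2 * (n : ℤ) + 4 * (4 + 1) = 2 * 10 + (4 + 4 * ((P : ℤ) + 1)) * (4 + 4 * ((P : ℤ) + 1) + 1)
            + 8 * ((a : ℤ) + b) := by exact_mod_cast hn
        push_cast
        linear_combination hn'
      · push_cast
        omega
      · push_cast
        omega
      · omega
      · omega

theorem step_large_0_1 {P a b : ℕ} (hv : b = a + 1 ∨ b = a + 2 ∨ (a = 0 ∧ b = 0)) (hb : b ≤ P + 1)
    (hs : 1 ≤ a → 4 * (a + b) + 11 ≤ 10 + 4 + 4 * (P + 1))
    (hc : 46 ≤ 4 + 4 * (P + 1) + ((if a = 0 then 0 else 1) + (if b = 0 then 0 else 1))) :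
    StepOK (patt a b 1) (famL (baseL 0 1) P (patt (a - 1) (b - 1))) := by
  have hG : Good (baseL 0 1) := good_baseL (by norm_num) (by norm_num)
  have hw : twidth (baseL 0 1) = 4 := rfl
  have hz : szL (baseL 0 1) = 11 := rfl
  by_cases ha0 : a = 0
  · by_cases hb0 : b = 0
    · subst ha0 hb0
      simp only [if_true, eq_self_iff_true] at hc
      apply step_core_dbl (d₀ := 3) (c := 4 + 4 * (P + 1) + 0) (π := 0) (u := 2 * (P + 1) + 1)
        (β₁ := 2 * (P + 1) + 4) (ν := (((4 + 4 * (P + 1) + 0 : ℕ) : ℤ)) + (1)) hG
        (by simp [baseL]) (by norm_num) (Or.inr ⟨rfl, rfl⟩) hb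
      · simp only [if_true, eq_self_iff_true, hw]
      · omega
      · omega
      · omega
      · omega
      · simp only [if_true, eq_self_iff_true, gE, baseL, List.map_cons, List.map_nil, exL_cons, exL_nil, shiftB, exK_single, exK_dbl, exK_pair, lenS]
        omega
      · intro n hn
        rw [hw, hz] at hn
        simp only [if_true, eq_self_iff_true, gE, baseL, List.map_cons, List.map_nil, exL_cons, exL_nil, shiftB, exK_single, exK_dbl, exK_pair, lenS]
        refine ⟨by omega, by omega, by omega, ?_, ?_, by omega, by omega, by omega, ?_, by omega, by omega,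
          ?_, ?_, by omega⟩
        · have hn' : 2 * (n : ℤ) + 4 * (4 + 1) = 2 * 11 + (4 + 4 * ((P : ℤ) + 1)) * (4 + 4 * ((P : ℤ) + 1) + 1)
              + 8 * ((0 : ℤ) + 0) := by exact_mod_cast hn
          push_cast
          linear_combination hn'
        · push_cast
          omega
        · push_cast
          omega
        · omega
        · omega
    · subst ha0
      simp only [hb0, if_true, if_false, eq_self_iff_true] at hc
      apply step_core_dbl (d₀ := 3) (c := 4 + 4 * (P + 1) + 1) (π := 1) (u := 2 * (P + 1) + 1)
        (β₁ := 2 * (P + 1) + 4) (ν := (1) + 4 * (b : ℤ)) hG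
        (by simp [baseL]) (by norm_num) (by omega) hb
      · simp only [hb0, if_true, if_false, eq_self_iff_true, hw]
      · omega
      · omega
      · omega
      · omega
      · simp only [hb0, if_true, if_false, eq_self_iff_true, gE, baseL, List.map_cons, List.map_nil, exL_cons, exL_nil, shiftB, exK_single, exK_dbl, exK_pair, lenS]
        omega
      · intro n hn
        rw [hw, hz] at hn
        simp only [hb0, if_true, if_false, eq_self_iff_true, gE, baseL, List.map_cons, List.map_nil, exL_cons, exL_nil, shiftB, exK_single, exK_dbl, exK_pair, lenS]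
        refine ⟨by omega, by omega, by omega, ?_, ?_, by omega, by omega, by omega, ?_, by omega, by omega,
          ?_, ?_, by omega⟩
        · have hn' : 2 * (n : ℤ) + 4 * (4 + 1) = 2 * 11 + (4 + 4 * ((P : ℤ) + 1)) * (4 + 4 * ((P : ℤ) + 1) + 1)
              + 8 * ((0 : ℤ) + b) := by exact_mod_cast hn
          push_cast
          linear_combination hn'
        · push_cast
          omega
        · push_cast
          omega
        · omega
        · omega
  · have hb0 : b ≠ 0 := by omega
    simp only [ha0, hb0, if_false] at hc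
    apply step_core_dbl (d₀ := 3) (c := 4 + 4 * (P + 1) + 2) (π := 0) (u := 2 * (P + 1) + 2)
      (β₁ := max (2 * (P + 1) + 4) (4 * b)) (ν := 1 - ((4 + 4 * (P + 1) + 2 : ℕ) : ℤ) + (1) + 4 * ((a : ℤ) + b)) hG
      (by simp [baseL]) (by norm_num) (by omega) hb
    · simp only [ha0, hb0, if_false, hw]
    · omega
    · omega
    · omega
    · omega
    · simp only [ha0, hb0, if_false, gE, baseL, List.map_cons, List.map_nil, exL_cons, exL_nil, shiftB, exK_single, exK_dbl, exK_pair, lenS]
      omega
    · intro n hn
      rw [hw, hz] at hn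
      simp only [ha0, hb0, if_false, gE, baseL, List.map_cons, List.map_nil, exL_cons, exL_nil, shiftB, exK_single, exK_dbl, exK_pair, lenS]
      refine ⟨by omega, by omega, by omega, ?_, ?_, by omega, by omega, by omega, ?_, by omega, by omega,
        ?_, ?_, by omega⟩
      · have hn' : 2 * (n : ℤ) + 4 * (4 + 1) = 2 * 11 + (4 + 4 * ((P : ℤ) + 1)) * (4 + 4 * ((P : ℤ) + 1) + 1)
            + 8 * ((a : ℤ) + b) := by exact_mod_cast hn
        push_cast
        linear_combination hn'
      · push_cast
        omega
      · push_cast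
        omega
      · omega
      · omega

theorem step_large_0_2 {P a b : ℕ} (hv : b = a + 1 ∨ b = a + 2 ∨ (a = 0 ∧ b = 0)) (hb : b ≤ P + 1)
    (hs : 1 ≤ a → 4 * (a + b) + 8 ≤ 10 + 4 + 4 * (P + 1))
    (hc : 46 ≤ 4 + 4 * (P + 1) + ((if a = 0 then 0 else 1) + (if b = 0 then 0 else 1))) :
    StepOK (patt a b 1) (famL (baseL 0 2) P (patt (a - 1) (b - 1))) := by
  have hG : Good (baseL 0 2) := good_baseL (by norm_num) (by norm_num)
  have hw : twidth (baseL 0 2) = 4 := rfl
  have hz : szL (baseL 0 2) = 8 := rfl
  by_cases ha0 : a = 0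
  · by_cases hb0 : b = 0
    · subst ha0 hb0
      simp only [if_true, eq_self_iff_true] at hc
      apply step_core_dbl (d₀ := 1) (c := 4 + 4 * (P + 1) + 0) (π := 0) (u := 2 * (P + 1) + 1)
        (β₁ := 2 * (P + 1) + 4) (ν := (((4 + 4 * (P + 1) + 0 : ℕ) : ℤ)) + (-2)) hG
        (by simp [baseL]) (by norm_num) (Or.inr ⟨rfl, rfl⟩) hb
      · simp only [if_true, eq_self_iff_true, hw]
      · omega
      · omega
      · omega
      · omega
      · simp only [if_true, eq_self_iff_true, gE, baseL, List.map_cons, List.map_nil, exL_cons, exL_nil, shiftB, exK_single, exK_dbl, exK_pair, lenS]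
        omega
      · intro n hn
        rw [hw, hz] at hn
        simp only [if_true, eq_self_iff_true, gE, baseL, List.map_cons, List.map_nil, exL_cons, exL_nil, shiftB, exK_single, exK_dbl, exK_pair, lenS]
        refine ⟨by omega, by omega, by omega, ?_, ?_, by omega, by omega, by omega, ?_, by omega, by omega,
          ?_, ?_, by omega⟩
        · have hn' : 2 * (n : ℤ) + 4 * (4 + 1) = 2 * 8 + (4 + 4 * ((P : ℤ) + 1)) * (4 + 4 * ((P : ℤ) + 1) + 1)
              + 8 * ((0 : ℤ) + 0) := by exact_mod_cast hn
          push_cast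
          linear_combination hn'
        · push_cast
          omega
        · push_cast
          omega
        · omega
        · omega
    · subst ha0
      simp only [hb0, if_true, if_false, eq_self_iff_true] at hc
      apply step_core_dbl (d₀ := 1) (c := 4 + 4 * (P + 1) + 1) (π := 1) (u := 2 * (P + 1) + 1)
        (β₁ := 2 * (P + 1) + 4) (ν := (-2) + 4 * (b : ℤ)) hG
        (by simp [baseL]) (by norm_num) (by omega) hb
      · simp only [hb0, if_true, if_false, eq_self_iff_true, hw]
      · omega
      · omega
      · omega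
      · omega
      · simp only [hb0, if_true, if_false, eq_self_iff_true, gE, baseL, List.map_cons, List.map_nil, exL_cons, exL_nil, shiftB, exK_single, exK_dbl, exK_pair, lenS]
        omega
      · intro n hn
        rw [hw, hz] at hn
        simp only [hb0, if_true, if_false, eq_self_iff_true, gE, baseL, List.map_cons, List.map_nil, exL_cons, exL_nil, shiftB, exK_single, exK_dbl, exK_pair, lenS]
        refine ⟨by omega, by omega, by omega, ?_, ?_, by omega, by omega, by omega, ?_, by omega, by omega,
          ?_, ?_, by omega⟩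
        · have hn' : 2 * (n : ℤ) + 4 * (4 + 1) = 2 * 8 + (4 + 4 * ((P : ℤ) + 1)) * (4 + 4 * ((P : ℤ) + 1) + 1)
              + 8 * ((0 : ℤ) + b) := by exact_mod_cast hn
          push_cast
          linear_combination hn'
        · push_cast
          omega
        · push_cast
          omega
        · omega
        · omega
  · have hb0 : b ≠ 0 := by omega
    simp only [ha0, hb0, if_false] at hc
    apply step_core_dbl (d₀ := 1) (c := 4 + 4 * (P + 1) + 2) (π := 0) (u := 2 * (P + 1) + 2)
      (β₁ := max (2 * (P + 1) + 4) (4 * b)) (ν := 1 - ((4 + 4 * (P + 1) + 2 : ℕ) : ℤ) + (-2) + 4 * ((a : ℤ) + b)) hG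
      (by simp [baseL]) (by norm_num) (by omega) hb
    · simp only [ha0, hb0, if_false, hw]
    · omega
    · omega
    · omega
    · omega
    · simp only [ha0, hb0, if_false, gE, baseL, List.map_cons, List.map_nil, exL_cons, exL_nil, shiftB, exK_single, exK_dbl, exK_pair, lenS]
      omega
    · intro n hn
      rw [hw, hz] at hn
      simp only [ha0, hb0, if_false, gE, baseL, List.map_cons, List.map_nil, exL_cons, exL_nil, shiftB, exK_single, exK_dbl, exK_pair, lenS]
      refine ⟨by omega, by omega, by omega, ?_, ?_, by omega, by omega, by omega, ?_, by omega, by omega,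
        ?_, ?_, by omega⟩
      · have hn' : 2 * (n : ℤ) + 4 * (4 + 1) = 2 * 8 + (4 + 4 * ((P : ℤ) + 1)) * (4 + 4 * ((P : ℤ) + 1) + 1)
            + 8 * ((a : ℤ) + b) := by exact_mod_cast hn
        push_cast
        linear_combination hn'
      · push_cast
        omega
      · push_cast
        omega
      · omega
      · omega

theorem step_large_0_3 {P a b : ℕ} (hv : b = a + 1 ∨ b = a + 2 ∨ (a = 0 ∧ b = 0)) (hb : b ≤ P + 1)
    (hs : 1 ≤ a → 4 * (a + b) + 13 ≤ 10 + 4 + 4 * (P + 1))
    (hc : 46 ≤ 4 + 4 * (P + 1) + ((if a = 0 then 0 else 1) + (if b = 0 then 0 else 1))) :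
    StepOK (patt a b 1) (famL (baseL 0 3) P (patt (a - 1) (b - 1))) := by
  have hG : Good (baseL 0 3) := good_baseL (by norm_num) (by norm_num)
  have hw : twidth (baseL 0 3) = 4 := rfl
  have hz : szL (baseL 0 3) = 13 := rfl
  by_cases ha0 : a = 0
  · by_cases hb0 : b = 0
    · subst ha0 hb0
      simp only [if_true, eq_self_iff_true] at hc
      apply step_core_dbl (d₀ := 4) (c := 4 + 4 * (P + 1) + 0) (π := 0) (u := 2 * (P + 1) + 1)
        (β₁ := 2 * (P + 1) + 2) (ν := (((4 + 4 * (P + 1) + 0 : ℕ) : ℤ)) + (3)) hG
        (by simp [baseL]) (by norm_num) (Or.inr ⟨rfl, rfl⟩) hb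
      · simp only [if_true, eq_self_iff_true, hw]
      · omega
      · omega
      · omega
      · omega
      · simp only [if_true, eq_self_iff_true, gE, baseL, List.map_cons, List.map_nil, exL_cons, exL_nil, shiftB, exK_single, exK_dbl, exK_pair, lenS]
        omega
      · intro n hn
        rw [hw, hz] at hn
        simp only [if_true, eq_self_iff_true, gE, baseL, List.map_cons, List.map_nil, exL_cons, exL_nil, shiftB, exK_single, exK_dbl, exK_pair, lenS]
        refine ⟨by omega, by omega, by omega, ?_, ?_, by omega, by omega, by omega, ?_, by omega, by omega,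
          ?_, ?_, by omega⟩
        · have hn' : 2 * (n : ℤ) + 4 * (4 + 1) = 2 * 13 + (4 + 4 * ((P : ℤ) + 1)) * (4 + 4 * ((P : ℤ) + 1) + 1)
              + 8 * ((0 : ℤ) + 0) := by exact_mod_cast hn
          push_cast
          linear_combination hn'
        · push_cast
          omega
        · push_cast
          omega
        · omega
        · omega
    · subst ha0
      simp only [hb0, if_true, if_false, eq_self_iff_true] at hc
      apply step_core_dbl (d₀ := 4) (c := 4 + 4 * (P + 1) + 1) (π := 1) (u := 2 * (P + 1) + 1)
        (β₁ := 2 * (P + 1) + 3) (ν := (3) + 4 * (b : ℤ)) hG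
        (by simp [baseL]) (by norm_num) (by omega) hb
      · simp only [hb0, if_true, if_false, eq_self_iff_true, hw]
      · omega
      · omega
      · omega
      · omega
      · simp only [hb0, if_true, if_false, eq_self_iff_true, gE, baseL, List.map_cons, List.map_nil, exL_cons, exL_nil, shiftB, exK_single, exK_dbl, exK_pair, lenS]
        omega
      · intro n hn
        rw [hw, hz] at hn
        simp only [hb0, if_true, if_false, eq_self_iff_true, gE, baseL, List.map_cons, List.map_nil, exL_cons, exL_nil, shiftB, exK_single, exK_dbl, exK_pair, lenS]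
        refine ⟨by omega, by omega, by omega, ?_, ?_, by omega, by omega, by omega, ?_, by omega, by omega,
          ?_, ?_, by omega⟩
        · have hn' : 2 * (n : ℤ) + 4 * (4 + 1) = 2 * 13 + (4 + 4 * ((P : ℤ) + 1)) * (4 + 4 * ((P : ℤ) + 1) + 1)
              + 8 * ((0 : ℤ) + b) := by exact_mod_cast hn
          push_cast
          linear_combination hn'
        · push_cast
          omega
        · push_cast
          omega
        · omega
        · omega
  · have hb0 : b ≠ 0 := by omega
    simp only [ha0, hb0, if_false] at hc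
    apply step_core_dbl (d₀ := 4) (c := 4 + 4 * (P + 1) + 2) (π := 0) (u := 2 * (P + 1) + 2)
      (β₁ := max (2 * (P + 1) + 3) (4 * b)) (ν := 1 - ((4 + 4 * (P + 1) + 2 : ℕ) : ℤ) + (3) + 4 * ((a : ℤ) + b)) hG
      (by simp [baseL]) (by norm_num) (by omega) hb
    · simp only [ha0, hb0, if_false, hw]
    · omega
    · omega
    · omega
    · omega
    · simp only [ha0, hb0, if_false, gE, baseL, List.map_cons, List.map_nil, exL_cons, exL_nil, shiftB, exK_single, exK_dbl, exK_pair, lenS]
      omega
    · intro n hn
      rw [hw, hz] at hn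
      simp only [ha0, hb0, if_false, gE, baseL, List.map_cons, List.map_nil, exL_cons, exL_nil, shiftB, exK_single, exK_dbl, exK_pair, lenS]
      refine ⟨by omega, by omega, by omega, ?_, ?_, by omega, by omega, by omega, ?_, by omega, by omega,
        ?_, ?_, by omega⟩
      · have hn' : 2 * (n : ℤ) + 4 * (4 + 1) = 2 * 13 + (4 + 4 * ((P : ℤ) + 1)) * (4 + 4 * ((P : ℤ) + 1) + 1)
            + 8 * ((a : ℤ) + b) := by exact_mod_cast hn
        push_cast
        linear_combination hn'
      · push_cast
        omega
      · push_cast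
        omega
      · omega
      · omega

theorem step_large_1_0 {P a b : ℕ} (hv : b = a + 1 ∨ b = a + 2 ∨ (a = 0 ∧ b = 0)) (hb : b ≤ P + 1)
    (hs : 1 ≤ a → 4 * (a + b) + 1 ≤ 1 + 1 + 4 * (P + 1))
    (hc : 46 ≤ 1 + 4 * (P + 1) + ((if a = 0 then 0 else 1) + (if b = 0 then 0 else 1))) :
    StepOK (patt a b 1) (famL (baseL 1 0) P (patt (a - 1) (b - 1))) := by
  have hG : Good (baseL 1 0) := good_baseL (by norm_num) (by norm_num)
  have hw : twidth (baseL 1 0) = 1 := rfl
  have hz : szL (baseL 1 0) = 1 := rfl
  by_cases ha0 : a = 0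
  · by_cases hb0 : b = 0
    · subst ha0 hb0
      simp only [if_true, eq_self_iff_true] at hc
      apply step_core_none (c := 1 + 4 * (P + 1) + 0) (π := 1) (u := 2 * (P + 1) - 1)
        (β₁ := 2 * (P + 1) + 1) (ν := (((1 + 4 * (P + 1) + 0 : ℕ) : ℤ)) + (0)) hG
        (Or.inr ⟨rfl, rfl⟩) hb
      · simp only [if_true, eq_self_iff_true, hw]
      · omega
      · omega
      · omega
      · omega
      · simp only [if_true, eq_self_iff_true, gE, baseL, List.map_cons, List.map_nil, exL_cons, exL_nil, shiftB, exK_single, exK_dbl, exK_pair, lenS]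
        omega
      · intro n hn
        rw [hw, hz] at hn
        simp only [if_true, eq_self_iff_true, gE, baseL, List.map_cons, List.map_nil, exL_cons, exL_nil, shiftB, exK_single, exK_dbl, exK_pair, lenS]
        refine ⟨by omega, by omega, by omega, ?_, ?_, by omega, by omega, by omega, ?_, by omega, by omega,
          ?_, ?_, by omega⟩
        · have hn' : 2 * (n : ℤ) + 1 * (1 + 1) = 2 * 1 + (1 + 4 * ((P : ℤ) + 1)) * (1 + 4 * ((P : ℤ) + 1) + 1)
              + 8 * ((0 : ℤ) + 0) := by exact_mod_cast hn
          push_cast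
          linear_combination hn'
        · push_cast
          omega
        · push_cast
          omega
        · omega
        · omega
    · subst ha0
      simp only [hb0, if_true, if_false, eq_self_iff_true] at hc
      apply step_core_none (c := 1 + 4 * (P + 1) + 1) (π := 0) (u := 2 * (P + 1) + 0)
        (β₁ := 2 * (P + 1) + 1) (ν := (0) + 4 * (b : ℤ)) hG
        (by omega) hb
      · simp only [hb0, if_true, if_false, eq_self_iff_true, hw]
      · omega
      · omega
      · omega
      · omega
      · simp only [hb0, if_true, if_false, eq_self_iff_true, gE, baseL, List.map_cons, List.map_nil, exL_cons, exL_nil, shiftB, exK_single, exK_dbl, exK_pair, lenS]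
        omega
      · intro n hn
        rw [hw, hz] at hn
        simp only [hb0, if_true, if_false, eq_self_iff_true, gE, baseL, List.map_cons, List.map_nil, exL_cons, exL_nil, shiftB, exK_single, exK_dbl, exK_pair, lenS]
        refine ⟨by omega, by omega, by omega, ?_, ?_, by omega, by omega, by omega, ?_, by omega, by omega,
          ?_, ?_, by omega⟩
        · have hn' : 2 * (n : ℤ) + 1 * (1 + 1) = 2 * 1 + (1 + 4 * ((P : ℤ) + 1)) * (1 + 4 * ((P : ℤ) + 1) + 1)
              + 8 * ((0 : ℤ) + b) := by exact_mod_cast hn
          push_cast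
          linear_combination hn'
        · push_cast
          omega
        · push_cast
          omega
        · omega
        · omega
  · have hb0 : b ≠ 0 := by omega
    simp only [ha0, hb0, if_false] at hc
    apply step_core_none (c := 1 + 4 * (P + 1) + 2) (π := 1) (u := 2 * (P + 1) + 0)
      (β₁ := max (2 * (P + 1) + 2) (4 * b)) (ν := 1 - ((1 + 4 * (P + 1) + 2 : ℕ) : ℤ) + (0) + 4 * ((a : ℤ) + b)) hG
      (by omega) hb
    · simp only [ha0, hb0, if_false, hw]
    · omega
    · omega
    · omega
    · omega
    · simp only [ha0, hb0, if_false, gE, baseL, List.map_cons, List.map_nil, exL_cons, exL_nil, shiftB, exK_single, exK_dbl, exK_pair, lenS]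
      omega
    · intro n hn
      rw [hw, hz] at hn
      simp only [ha0, hb0, if_false, gE, baseL, List.map_cons, List.map_nil, exL_cons, exL_nil, shiftB, exK_single, exK_dbl, exK_pair, lenS]
      refine ⟨by omega, by omega, by omega, ?_, ?_, by omega, by omega, by omega, ?_, by omega, by omega,
        ?_, ?_, by omega⟩
      · have hn' : 2 * (n : ℤ) + 1 * (1 + 1) = 2 * 1 + (1 + 4 * ((P : ℤ) + 1)) * (1 + 4 * ((P : ℤ) + 1) + 1)
            + 8 * ((a : ℤ) + b) := by exact_mod_cast hn
        push_cast
        linear_combination hn'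
      · push_cast
        omega
      · push_cast
        omega
      · omega
      · omega

theorem step_large_1_1 {P a b : ℕ} (hv : b = a + 1 ∨ b = a + 2 ∨ (a = 0 ∧ b = 0)) (hb : b ≤ P + 1)
    (hs : 1 ≤ a → 4 * (a + b) + 12 ≤ 15 + 5 + 4 * (P + 1))
    (hc : 46 ≤ 5 + 4 * (P + 1) + ((if a = 0 then 0 else 1) + (if b = 0 then 0 else 1))) :
    StepOK (patt a b 1) (famL (baseL 1 1) P (patt (a - 1) (b - 1))) := by
  have hG : Good (baseL 1 1) := good_baseL (by norm_num) (by norm_num)
  have hw : twidth (baseL 1 1) = 5 := rfl
  have hz : szL (baseL 1 1) = 12 := rfl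
  by_cases ha0 : a = 0
  · by_cases hb0 : b = 0
    · subst ha0 hb0
      simp only [if_true, eq_self_iff_true] at hc
      apply step_core_dbl (d₀ := 1) (c := 5 + 4 * (P + 1) + 0) (π := 1) (u := 2 * (P + 1) + 1)
        (β₁ := 2 * (P + 1) + 5) (ν := (((5 + 4 * (P + 1) + 0 : ℕ) : ℤ)) + (-3)) hG
        (by simp [baseL]) (by norm_num) (Or.inr ⟨rfl, rfl⟩) hb
      · simp only [if_true, eq_self_iff_true, hw]
      · omega
      · omega
      · omega
      · omega
      · simp only [if_true, eq_self_iff_true, gE, baseL, List.map_cons, List.map_nil, exL_cons, exL_nil, shiftB, exK_single, exK_dbl, exK_pair, lenS]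
        omega
      · intro n hn
        rw [hw, hz] at hn
        simp only [if_true, eq_self_iff_true, gE, baseL, List.map_cons, List.map_nil, exL_cons, exL_nil, shiftB, exK_single, exK_dbl, exK_pair, lenS]
        refine ⟨by omega, by omega, by omega, ?_, ?_, by omega, by omega, by omega, ?_, by omega, by omega,
          ?_, ?_, by omega⟩
        · have hn' : 2 * (n : ℤ) + 5 * (5 + 1) = 2 * 12 + (5 + 4 * ((P : ℤ) + 1)) * (5 + 4 * ((P : ℤ) + 1) + 1)
              + 8 * ((0 : ℤ) + 0) := by exact_mod_cast hn
          push_cast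
          linear_combination hn'
        · push_cast
          omega
        · push_cast
          omega
        · omega
        · omega
    · subst ha0
      simp only [hb0, if_true, if_false, eq_self_iff_true] at hc
      apply step_core_dbl (d₀ := 1) (c := 5 + 4 * (P + 1) + 1) (π := 0) (u := 2 * (P + 1) + 2)
        (β₁ := 2 * (P + 1) + 5) (ν := (-3) + 4 * (b : ℤ)) hG
        (by simp [baseL]) (by norm_num) (by omega) hb
      · simp only [hb0, if_true, if_false, eq_self_iff_true, hw]
      · omega
      · omega
      · omega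
      · omega
      · simp only [hb0, if_true, if_false, eq_self_iff_true, gE, baseL, List.map_cons, List.map_nil, exL_cons, exL_nil, shiftB, exK_single, exK_dbl, exK_pair, lenS]
        omega
      · intro n hn
        rw [hw, hz] at hn
        simp only [hb0, if_true, if_false, eq_self_iff_true, gE, baseL, List.map_cons, List.map_nil, exL_cons, exL_nil, shiftB, exK_single, exK_dbl, exK_pair, lenS]
        refine ⟨by omega, by omega, by omega, ?_, ?_, by omega, by omega, by omega, ?_, by omega, by omega,
          ?_, ?_, by omega⟩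
        · have hn' : 2 * (n : ℤ) + 5 * (5 + 1) = 2 * 12 + (5 + 4 * ((P : ℤ) + 1)) * (5 + 4 * ((P : ℤ) + 1) + 1)
              + 8 * ((0 : ℤ) + b) := by exact_mod_cast hn
          push_cast
          linear_combination hn'
        · push_cast
          omega
        · push_cast
          omega
        · omega
        · omega
  · have hb0 : b ≠ 0 := by omega
    simp only [ha0, hb0, if_false] at hc
    apply step_core_dbl (d₀ := 1) (c := 5 + 4 * (P + 1) + 2) (π := 1) (u := 2 * (P + 1) + 2)
      (β₁ := max (2 * (P + 1) + 5) (4 * b)) (ν := 1 - ((5 + 4 * (P + 1) + 2 : ℕ) : ℤ) + (-3) + 4 * ((a : ℤ) + b)) hG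
      (by simp [baseL]) (by norm_num) (by omega) hb
    · simp only [ha0, hb0, if_false, hw]
    · omega
    · omega
    · omega
    · omega
    · simp only [ha0, hb0, if_false, gE, baseL, List.map_cons, List.map_nil, exL_cons, exL_nil, shiftB, exK_single, exK_dbl, exK_pair, lenS]
      omega
    · intro n hn
      rw [hw, hz] at hn
      simp only [ha0, hb0, if_false, gE, baseL, List.map_cons, List.map_nil, exL_cons, exL_nil, shiftB, exK_single, exK_dbl, exK_pair, lenS]
      refine ⟨by omega, by omega, by omega, ?_, ?_, by omega, by omega, by omega, ?_, by omega, by omega,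
        ?_, ?_, by omega⟩
      · have hn' : 2 * (n : ℤ) + 5 * (5 + 1) = 2 * 12 + (5 + 4 * ((P : ℤ) + 1)) * (5 + 4 * ((P : ℤ) + 1) + 1)
            + 8 * ((a : ℤ) + b) := by exact_mod_cast hn
        push_cast
        linear_combination hn'
      · push_cast
        omega
      · push_cast
        omega
      · omega
      · omega

theorem step_large_1_2 {P a b : ℕ} (hv : b = a + 1 ∨ b = a + 2 ∨ (a = 0 ∧ b = 0)) (hb : b ≤ P + 1)
    (hs : 1 ≤ a → 4 * (a + b) + 17 ≤ 15 + 5 + 4 * (P + 1))
    (hc : 46 ≤ 5 + 4 * (P + 1) + ((if a = 0 then 0 else 1) + (if b = 0 then 0 else 1))) :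
    StepOK (patt a b 1) (famL (baseL 1 2) P (patt (a - 1) (b - 1))) := by
  have hG : Good (baseL 1 2) := good_baseL (by norm_num) (by norm_num)
  have hw : twidth (baseL 1 2) = 5 := rfl
  have hz : szL (baseL 1 2) = 17 := rfl
  by_cases ha0 : a = 0
  · by_cases hb0 : b = 0
    · subst ha0 hb0
      simp only [if_true, eq_self_iff_true] at hc
      apply step_core_dbl (d₀ := 4) (c := 5 + 4 * (P + 1) + 0) (π := 1) (u := 2 * (P + 1) + 1)
        (β₁ := 2 * (P + 1) + 5) (ν := (((5 + 4 * (P + 1) + 0 : ℕ) : ℤ)) + (2)) hG
        (by simp [baseL]) (by norm_num) (Or.inr ⟨rfl, rfl⟩) hb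
      · simp only [if_true, eq_self_iff_true, hw]
      · omega
      · omega
      · omega
      · omega
      · simp only [if_true, eq_self_iff_true, gE, baseL, List.map_cons, List.map_nil, exL_cons, exL_nil, shiftB, exK_single, exK_dbl, exK_pair, lenS]
        omega
      · intro n hn
        rw [hw, hz] at hn
        simp only [if_true, eq_self_iff_true, gE, baseL, List.map_cons, List.map_nil, exL_cons, exL_nil, shiftB, exK_single, exK_dbl, exK_pair, lenS]
        refine ⟨by omega, by omega, by omega, ?_, ?_, by omega, by omega, by omega, ?_, by omega, by omega,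
          ?_, ?_, by omega⟩
        · have hn' : 2 * (n : ℤ) + 5 * (5 + 1) = 2 * 17 + (5 + 4 * ((P : ℤ) + 1)) * (5 + 4 * ((P : ℤ) + 1) + 1)
              + 8 * ((0 : ℤ) + 0) := by exact_mod_cast hn
          push_cast
          linear_combination hn'
        · push_cast
          omega
        · push_cast
          omega
        · omega
        · omega
    · subst ha0
      simp only [hb0, if_true, if_false, eq_self_iff_true] at hc
      apply step_core_dbl (d₀ := 4) (c := 5 + 4 * (P + 1) + 1) (π := 0) (u := 2 * (P + 1) + 2)
        (β₁ := 2 * (P + 1) + 5) (ν := (2) + 4 * (b : ℤ)) hG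
        (by simp [baseL]) (by norm_num) (by omega) hb
      · simp only [hb0, if_true, if_false, eq_self_iff_true, hw]
      · omega
      · omega
      · omega
      · omega
      · simp only [hb0, if_true, if_false, eq_self_iff_true, gE, baseL, List.map_cons, List.map_nil, exL_cons, exL_nil, shiftB, exK_single, exK_dbl, exK_pair, lenS]
        omega
      · intro n hn
        rw [hw, hz] at hn
        simp only [hb0, if_true, if_false, eq_self_iff_true, gE, baseL, List.map_cons, List.map_nil, exL_cons, exL_nil, shiftB, exK_single, exK_dbl, exK_pair, lenS]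
        refine ⟨by omega, by omega, by omega, ?_, ?_, by omega, by omega, by omega, ?_, by omega, by omega,
          ?_, ?_, by omega⟩
        · have hn' : 2 * (n : ℤ) + 5 * (5 + 1) = 2 * 17 + (5 + 4 * ((P : ℤ) + 1)) * (5 + 4 * ((P : ℤ) + 1) + 1)
              + 8 * ((0 : ℤ) + b) := by exact_mod_cast hn
          push_cast
          linear_combination hn'
        · push_cast
          omega
        · push_cast
          omega
        · omega
        · omega
  · have hb0 : b ≠ 0 := by omega
    simp only [ha0, hb0, if_false] at hc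
    apply step_core_dbl (d₀ := 4) (c := 5 + 4 * (P + 1) + 2) (π := 1) (u := 2 * (P + 1) + 2)
      (β₁ := max (2 * (P + 1) + 5) (4 * b)) (ν := 1 - ((5 + 4 * (P + 1) + 2 : ℕ) : ℤ) + (2) + 4 * ((a : ℤ) + b)) hG
      (by simp [baseL]) (by norm_num) (by omega) hb
    · simp only [ha0, hb0, if_false, hw]
    · omega
    · omega
    · omega
    · omega
    · simp only [ha0, hb0, if_false, gE, baseL, List.map_cons, List.map_nil, exL_cons, exL_nil, shiftB, exK_single, exK_dbl, exK_pair, lenS]
      omega
    · intro n hn
      rw [hw, hz] at hn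
      simp only [ha0, hb0, if_false, gE, baseL, List.map_cons, List.map_nil, exL_cons, exL_nil, shiftB, exK_single, exK_dbl, exK_pair, lenS]
      refine ⟨by omega, by omega, by omega, ?_, ?_, by omega, by omega, by omega, ?_, by omega, by omega,
        ?_, ?_, by omega⟩
      · have hn' : 2 * (n : ℤ) + 5 * (5 + 1) = 2 * 17 + (5 + 4 * ((P : ℤ) + 1)) * (5 + 4 * ((P : ℤ) + 1) + 1)
            + 8 * ((a : ℤ) + b) := by exact_mod_cast hn
        push_cast
        linear_combination hn'
      · push_cast
        omega
      · push_cast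
        omega
      · omega
      · omega

theorem step_large_1_3 {P a b : ℕ} (hv : b = a + 1 ∨ b = a + 2 ∨ (a = 0 ∧ b = 0)) (hb : b ≤ P + 1)
    (hs : 1 ≤ a → 4 * (a + b) + 14 ≤ 15 + 5 + 4 * (P + 1))
    (hc : 46 ≤ 5 + 4 * (P + 1) + ((if a = 0 then 0 else 1) + (if b = 0 then 0 else 1))) :
    StepOK (patt a b 1) (famL (baseL 1 3) P (patt (a - 1) (b - 1))) := by
  have hG : Good (baseL 1 3) := good_baseL (by norm_num) (by norm_num)
  have hw : twidth (baseL 1 3) = 5 := rfl
  have hz : szL (baseL 1 3) = 14 := rfl
  by_cases ha0 : a = 0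
  · by_cases hb0 : b = 0
    · subst ha0 hb0
      simp only [if_true, eq_self_iff_true] at hc
      apply step_core_dbl (d₀ := 2) (c := 5 + 4 * (P + 1) + 0) (π := 1) (u := 2 * (P + 1) + 1)
        (β₁ := 2 * (P + 1) + 3) (ν := (((5 + 4 * (P + 1) + 0 : ℕ) : ℤ)) + (-1)) hG
        (by simp [baseL]) (by norm_num) (Or.inr ⟨rfl, rfl⟩) hb
      · simp only [if_true, eq_self_iff_true, hw]
      · omega
      · omega
      · omega
      · omega
      · simp only [if_true, eq_self_iff_true, gE, baseL, List.map_cons, List.map_nil, exL_cons, exL_nil, shiftB, exK_single, exK_dbl, exK_pair, lenS]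
        omega
      · intro n hn
        rw [hw, hz] at hn
        simp only [if_true, eq_self_iff_true, gE, baseL, List.map_cons, List.map_nil, exL_cons, exL_nil, shiftB, exK_single, exK_dbl, exK_pair, lenS]
        refine ⟨by omega, by omega, by omega, ?_, ?_, by omega, by omega, by omega, ?_, by omega, by omega,
          ?_, ?_, by omega⟩
        · have hn' : 2 * (n : ℤ) + 5 * (5 + 1) = 2 * 14 + (5 + 4 * ((P : ℤ) + 1)) * (5 + 4 * ((P : ℤ) + 1) + 1)
              + 8 * ((0 : ℤ) + 0) := by exact_mod_cast hn
          push_cast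
          linear_combination hn'
        · push_cast
          omega
        · push_cast
          omega
        · omega
        · omega
    · subst ha0
      simp only [hb0, if_true, if_false, eq_self_iff_true] at hc
      apply step_core_dbl (d₀ := 2) (c := 5 + 4 * (P + 1) + 1) (π := 0) (u := 2 * (P + 1) + 2)
        (β₁ := 2 * (P + 1) + 3) (ν := (-1) + 4 * (b : ℤ)) hG
        (by simp [baseL]) (by norm_num) (by omega) hb
      · simp only [hb0, if_true, if_false, eq_self_iff_true, hw]
      · omega
      · omega
      · omega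
      · omega
      · simp only [hb0, if_true, if_false, eq_self_iff_true, gE, baseL, List.map_cons, List.map_nil, exL_cons, exL_nil, shiftB, exK_single, exK_dbl, exK_pair, lenS]
        omega
      · intro n hn
        rw [hw, hz] at hn
        simp only [hb0, if_true, if_false, eq_self_iff_true, gE, baseL, List.map_cons, List.map_nil, exL_cons, exL_nil, shiftB, exK_single, exK_dbl, exK_pair, lenS]
        refine ⟨by omega, by omega, by omega, ?_, ?_, by omega, by omega, by omega, ?_, by omega, by omega,
          ?_, ?_, by omega⟩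
        · have hn' : 2 * (n : ℤ) + 5 * (5 + 1) = 2 * 14 + (5 + 4 * ((P : ℤ) + 1)) * (5 + 4 * ((P : ℤ) + 1) + 1)
              + 8 * ((0 : ℤ) + b) := by exact_mod_cast hn
          push_cast
          linear_combination hn'
        · push_cast
          omega
        · push_cast
          omega
        · omega
        · omega
  · have hb0 : b ≠ 0 := by omega
    simp only [ha0, hb0, if_false] at hc
    apply step_core_dbl (d₀ := 2) (c := 5 + 4 * (P + 1) + 2) (π := 1) (u := 2 * (P + 1) + 2)
      (β₁ := max (2 * (P + 1) + 4) (4 * b)) (ν := 1 - ((5 + 4 * (P + 1) + 2 : ℕ) : ℤ) + (-1) + 4 * ((a : ℤ) + b)) hG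
      (by simp [baseL]) (by norm_num) (by omega) hb
    · simp only [ha0, hb0, if_false, hw]
    · omega
    · omega
    · omega
    · omega
    · simp only [ha0, hb0, if_false, gE, baseL, List.map_cons, List.map_nil, exL_cons, exL_nil, shiftB, exK_single, exK_dbl, exK_pair, lenS]
      omega
    · intro n hn
      rw [hw, hz] at hn
      simp only [ha0, hb0, if_false, gE, baseL, List.map_cons, List.map_nil, exL_cons, exL_nil, shiftB, exK_single, exK_dbl, exK_pair, lenS]
      refine ⟨by omega, by omega, by omega, ?_, ?_, by omega, by omega, by omega, ?_, by omega, by omega,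
        ?_, ?_, by omega⟩
      · have hn' : 2 * (n : ℤ) + 5 * (5 + 1) = 2 * 14 + (5 + 4 * ((P : ℤ) + 1)) * (5 + 4 * ((P : ℤ) + 1) + 1)
            + 8 * ((a : ℤ) + b) := by exact_mod_cast hn
        push_cast
        linear_combination hn'
      · push_cast
        omega
      · push_cast
        omega
      · omega
      · omega

theorem step_large_2_0 {P a b : ℕ} (hv : b = a + 1 ∨ b = a + 2 ∨ (a = 0 ∧ b = 0)) (hb : b ≤ P + 1)
    (hs : 1 ≤ a → 4 * (a + b) + 3 ≤ 3 + 2 + 4 * (P + 1))
    (hc : 46 ≤ 2 + 4 * (P + 1) + ((if a = 0 then 0 else 1) + (if b = 0 then 0 else 1))) :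
    StepOK (patt a b 1) (famL (baseL 2 0) P (patt (a - 1) (b - 1))) := by
  have hG : Good (baseL 2 0) := good_baseL (by norm_num) (by norm_num)
  have hw : twidth (baseL 2 0) = 2 := rfl
  have hz : szL (baseL 2 0) = 3 := rfl
  by_cases ha0 : a = 0
  · by_cases hb0 : b = 0
    · subst ha0 hb0
      simp only [if_true, eq_self_iff_true] at hc
      apply step_core_none (c := 2 + 4 * (P + 1) + 0) (π := 0) (u := 2 * (P + 1) + 0)
        (β₁ := 2 * (P + 1) + 1) (ν := (((2 + 4 * (P + 1) + 0 : ℕ) : ℤ)) + (0)) hG
        (Or.inr ⟨rfl, rfl⟩) hb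
      · simp only [if_true, eq_self_iff_true, hw]
      · omega
      · omega
      · omega
      · omega
      · simp only [if_true, eq_self_iff_true, gE, baseL, List.map_cons, List.map_nil, exL_cons, exL_nil, shiftB, exK_single, exK_dbl, exK_pair, lenS]
        omega
      · intro n hn
        rw [hw, hz] at hn
        simp only [if_true, eq_self_iff_true, gE, baseL, List.map_cons, List.map_nil, exL_cons, exL_nil, shiftB, exK_single, exK_dbl, exK_pair, lenS]
        refine ⟨by omega, by omega, by omega, ?_, ?_, by omega, by omega, by omega, ?_, by omega, by omega,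
          ?_, ?_, by omega⟩
        · have hn' : 2 * (n : ℤ) + 2 * (2 + 1) = 2 * 3 + (2 + 4 * ((P : ℤ) + 1)) * (2 + 4 * ((P : ℤ) + 1) + 1)
              + 8 * ((0 : ℤ) + 0) := by exact_mod_cast hn
          push_cast
          linear_combination hn'
        · push_cast
          omega
        · push_cast
          omega
        · omega
        · omega
    · subst ha0
      simp only [hb0, if_true, if_false, eq_self_iff_true] at hc
      apply step_core_none (c := 2 + 4 * (P + 1) + 1) (π := 1) (u := 2 * (P + 1) + 0)
        (β₁ := 2 * (P + 1) + 2) (ν := (0) + 4 * (b : ℤ)) hG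
        (by omega) hb
      · simp only [hb0, if_true, if_false, eq_self_iff_true, hw]
      · omega
      · omega
      · omega
      · omega
      · simp only [hb0, if_true, if_false, eq_self_iff_true, gE, baseL, List.map_cons, List.map_nil, exL_cons, exL_nil, shiftB, exK_single, exK_dbl, exK_pair, lenS]
        omega
      · intro n hn
        rw [hw, hz] at hn
        simp only [hb0, if_true, if_false, eq_self_iff_true, gE, baseL, List.map_cons, List.map_nil, exL_cons, exL_nil, shiftB, exK_single, exK_dbl, exK_pair, lenS]
        refine ⟨by omega, by omega, by omega, ?_, ?_, by omega, by omega, by omega, ?_, by omega, by omega,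
          ?_, ?_, by omega⟩
        · have hn' : 2 * (n : ℤ) + 2 * (2 + 1) = 2 * 3 + (2 + 4 * ((P : ℤ) + 1)) * (2 + 4 * ((P : ℤ) + 1) + 1)
              + 8 * ((0 : ℤ) + b) := by exact_mod_cast hn
          push_cast
          linear_combination hn'
        · push_cast
          omega
        · push_cast
          omega
        · omega
        · omega
  · have hb0 : b ≠ 0 := by omega
    simp only [ha0, hb0, if_false] at hc
    apply step_core_none (c := 2 + 4 * (P + 1) + 2) (π := 0) (u := 2 * (P + 1) + 1)
      (β₁ := max (2 * (P + 1) + 2) (4 * b)) (ν := 1 - ((2 + 4 * (P + 1) + 2 : ℕ) : ℤ) + (0) + 4 * ((a : ℤ) + b)) hG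
      (by omega) hb
    · simp only [ha0, hb0, if_false, hw]
    · omega
    · omega
    · omega
    · omega
    · simp only [ha0, hb0, if_false, gE, baseL, List.map_cons, List.map_nil, exL_cons, exL_nil, shiftB, exK_single, exK_dbl, exK_pair, lenS]
      omega
    · intro n hn
      rw [hw, hz] at hn
      simp only [ha0, hb0, if_false, gE, baseL, List.map_cons, List.map_nil, exL_cons, exL_nil, shiftB, exK_single, exK_dbl, exK_pair, lenS]
      refine ⟨by omega, by omega, by omega, ?_, ?_, by omega, by omega, by omega, ?_, by omega, by omega,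
        ?_, ?_, by omega⟩
      · have hn' : 2 * (n : ℤ) + 2 * (2 + 1) = 2 * 3 + (2 + 4 * ((P : ℤ) + 1)) * (2 + 4 * ((P : ℤ) + 1) + 1)
            + 8 * ((a : ℤ) + b) := by exact_mod_cast hn
        push_cast
        linear_combination hn'
      · push_cast
        omega
      · push_cast
        omega
      · omega
      · omega

theorem step_large_2_1 {P a b : ℕ} (hv : b = a + 1 ∨ b = a + 2 ∨ (a = 0 ∧ b = 0)) (hb : b ≤ P + 1)
    (hs : 1 ≤ a → 4 * (a + b) + 22 ≤ 21 + 6 + 4 * (P + 1))
    (hc : 46 ≤ 6 + 4 * (P + 1) + ((if a = 0 then 0 else 1) + (if b = 0 then 0 else 1))) :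
    StepOK (patt a b 1) (famL (baseL 2 1) P (patt (a - 1) (b - 1))) := by
  have hG : Good (baseL 2 1) := good_baseL (by norm_num) (by norm_num)
  have hw : twidth (baseL 2 1) = 6 := rfl
  have hz : szL (baseL 2 1) = 22 := rfl
  by_cases ha0 : a = 0
  · by_cases hb0 : b = 0
    · subst ha0 hb0
      simp only [if_true, eq_self_iff_true] at hc
      apply step_core_dbl (d₀ := 4) (c := 6 + 4 * (P + 1) + 0) (π := 0) (u := 2 * (P + 1) + 2)
        (β₁ := 2 * (P + 1) + 3) (ν := (((6 + 4 * (P + 1) + 0 : ℕ) : ℤ)) + (1)) hG
        (by simp [baseL]) (by norm_num) (Or.inr ⟨rfl, rfl⟩) hb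
      · simp only [if_true, eq_self_iff_true, hw]
      · omega
      · omega
      · omega
      · omega
      · simp only [if_true, eq_self_iff_true, gE, baseL, List.map_cons, List.map_nil, exL_cons, exL_nil, shiftB, exK_single, exK_dbl, exK_pair, lenS]
        omega
      · intro n hn
        rw [hw, hz] at hn
        simp only [if_true, eq_self_iff_true, gE, baseL, List.map_cons, List.map_nil, exL_cons, exL_nil, shiftB, exK_single, exK_dbl, exK_pair, lenS]
        refine ⟨by omega, by omega, by omega, ?_, ?_, by omega, by omega, by omega, ?_, by omega, by omega,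
          ?_, ?_, by omega⟩
        · have hn' : 2 * (n : ℤ) + 6 * (6 + 1) = 2 * 22 + (6 + 4 * ((P : ℤ) + 1)) * (6 + 4 * ((P : ℤ) + 1) + 1)
              + 8 * ((0 : ℤ) + 0) := by exact_mod_cast hn
          push_cast
          linear_combination hn'
        · push_cast
          omega
        · push_cast
          omega
        · omega
        · omega
    · subst ha0
      simp only [hb0, if_true, if_false, eq_self_iff_true] at hc
      apply step_core_dbl (d₀ := 4) (c := 6 + 4 * (P + 1) + 1) (π := 1) (u := 2 * (P + 1) + 2)
        (β₁ := 2 * (P + 1) + 4) (ν := (1) + 4 * (b : ℤ)) hG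
        (by simp [baseL]) (by norm_num) (by omega) hb
      · simp only [hb0, if_true, if_false, eq_self_iff_true, hw]
      · omega
      · omega
      · omega
      · omega
      · simp only [hb0, if_true, if_false, eq_self_iff_true, gE, baseL, List.map_cons, List.map_nil, exL_cons, exL_nil, shiftB, exK_single, exK_dbl, exK_pair, lenS]
        omega
      · intro n hn
        rw [hw, hz] at hn
        simp only [hb0, if_true, if_false, eq_self_iff_true, gE, baseL, List.map_cons, List.map_nil, exL_cons, exL_nil, shiftB, exK_single, exK_dbl, exK_pair, lenS]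
        refine ⟨by omega, by omega, by omega, ?_, ?_, by omega, by omega, by omega, ?_, by omega, by omega,
          ?_, ?_, by omega⟩
        · have hn' : 2 * (n : ℤ) + 6 * (6 + 1) = 2 * 22 + (6 + 4 * ((P : ℤ) + 1)) * (6 + 4 * ((P : ℤ) + 1) + 1)
              + 8 * ((0 : ℤ) + b) := by exact_mod_cast hn
          push_cast
          linear_combination hn'
        · push_cast
          omega
        · push_cast
          omega
        · omega
        · omega
  · have hb0 : b ≠ 0 := by omega
    simp only [ha0, hb0, if_false] at hc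
    apply step_core_dbl (d₀ := 4) (c := 6 + 4 * (P + 1) + 2) (π := 0) (u := 2 * (P + 1) + 3)
      (β₁ := max (2 * (P + 1) + 4) (4 * b)) (ν := 1 - ((6 + 4 * (P + 1) + 2 : ℕ) : ℤ) + (1) + 4 * ((a : ℤ) + b)) hG
      (by simp [baseL]) (by norm_num) (by omega) hb
    · simp only [ha0, hb0, if_false, hw]
    · omega
    · omega
    · omega
    · omega
    · simp only [ha0, hb0, if_false, gE, baseL, List.map_cons, List.map_nil, exL_cons, exL_nil, shiftB, exK_single, exK_dbl, exK_pair, lenS]
      omega
    · intro n hn
      rw [hw, hz] at hn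
      simp only [ha0, hb0, if_false, gE, baseL, List.map_cons, List.map_nil, exL_cons, exL_nil, shiftB, exK_single, exK_dbl, exK_pair, lenS]
      refine ⟨by omega, by omega, by omega, ?_, ?_, by omega, by omega, by omega, ?_, by omega, by omega,
        ?_, ?_, by omega⟩
      · have hn' : 2 * (n : ℤ) + 6 * (6 + 1) = 2 * 22 + (6 + 4 * ((P : ℤ) + 1)) * (6 + 4 * ((P : ℤ) + 1) + 1)
            + 8 * ((a : ℤ) + b) := by exact_mod_cast hn
        push_cast
        linear_combination hn'
      · push_cast
        omega
      · push_cast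
        omega
      · omega
      · omega

theorem step_large_2_2 {P a b : ℕ} (hv : b = a + 1 ∨ b = a + 2 ∨ (a = 0 ∧ b = 0)) (hb : b ≤ P + 1)
    (hs : 1 ≤ a → 4 * (a + b) + 19 ≤ 21 + 6 + 4 * (P + 1))
    (hc : 46 ≤ 6 + 4 * (P + 1) + ((if a = 0 then 0 else 1) + (if b = 0 then 0 else 1))) :
    StepOK (patt a b 1) (famL (baseL 2 2) P (patt (a - 1) (b - 1))) := by
  have hG : Good (baseL 2 2) := good_baseL (by norm_num) (by norm_num)
  have hw : twidth (baseL 2 2) = 6 := rfl
  have hz : szL (baseL 2 2) = 19 := rfl
  by_cases ha0 : a = 0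
  · by_cases hb0 : b = 0
    · subst ha0 hb0
      simp only [if_true, eq_self_iff_true] at hc
      apply step_core_dbl (d₀ := 2) (c := 6 + 4 * (P + 1) + 0) (π := 0) (u := 2 * (P + 1) + 2)
        (β₁ := 2 * (P + 1) + 3) (ν := (((6 + 4 * (P + 1) + 0 : ℕ) : ℤ)) + (-2)) hG
        (by simp [baseL]) (by norm_num) (Or.inr ⟨rfl, rfl⟩) hb
      · simp only [if_true, eq_self_iff_true, hw]
      · omega
      · omega
      · omega
      · omega
      · simp only [if_true, eq_self_iff_true, gE, baseL, List.map_cons, List.map_nil, exL_cons, exL_nil, shiftB, exK_single, exK_dbl, exK_pair, lenS]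
        omega
      · intro n hn
        rw [hw, hz] at hn
        simp only [if_true, eq_self_iff_true, gE, baseL, List.map_cons, List.map_nil, exL_cons, exL_nil, shiftB, exK_single, exK_dbl, exK_pair, lenS]
        refine ⟨by omega, by omega, by omega, ?_, ?_, by omega, by omega, by omega, ?_, by omega, by omega,
          ?_, ?_, by omega⟩
        · have hn' : 2 * (n : ℤ) + 6 * (6 + 1) = 2 * 19 + (6 + 4 * ((P : ℤ) + 1)) * (6 + 4 * ((P : ℤ) + 1) + 1)
              + 8 * ((0 : ℤ) + 0) := by exact_mod_cast hn
          push_cast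
          linear_combination hn'
        · push_cast
          omega
        · push_cast
          omega
        · omega
        · omega
    · subst ha0
      simp only [hb0, if_true, if_false, eq_self_iff_true] at hc
      apply step_core_dbl (d₀ := 2) (c := 6 + 4 * (P + 1) + 1) (π := 1) (u := 2 * (P + 1) + 2)
        (β₁ := 2 * (P + 1) + 4) (ν := (-2) + 4 * (b : ℤ)) hG
        (by simp [baseL]) (by norm_num) (by omega) hb
      · simp only [hb0, if_true, if_false, eq_self_iff_true, hw]
      · omega
      · omega
      · omega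
      · omega
      · simp only [hb0, if_true, if_false, eq_self_iff_true, gE, baseL, List.map_cons, List.map_nil, exL_cons, exL_nil, shiftB, exK_single, exK_dbl, exK_pair, lenS]
        omega
      · intro n hn
        rw [hw, hz] at hn
        simp only [hb0, if_true, if_false, eq_self_iff_true, gE, baseL, List.map_cons, List.map_nil, exL_cons, exL_nil, shiftB, exK_single, exK_dbl, exK_pair, lenS]
        refine ⟨by omega, by omega, by omega, ?_, ?_, by omega, by omega, by omega, ?_, by omega, by omega,
          ?_, ?_, by omega⟩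
        · have hn' : 2 * (n : ℤ) + 6 * (6 + 1) = 2 * 19 + (6 + 4 * ((P : ℤ) + 1)) * (6 + 4 * ((P : ℤ) + 1) + 1)
              + 8 * ((0 : ℤ) + b) := by exact_mod_cast hn
          push_cast
          linear_combination hn'
        · push_cast
          omega
        · push_cast
          omega
        · omega
        · omega
  · have hb0 : b ≠ 0 := by omega
    simp only [ha0, hb0, if_false] at hc
    apply step_core_dbl (d₀ := 2) (c := 6 + 4 * (P + 1) + 2) (π := 0) (u := 2 * (P + 1) + 3)
      (β₁ := max (2 * (P + 1) + 4) (4 * b)) (ν := 1 - ((6 + 4 * (P + 1) + 2 : ℕ) : ℤ) + (-2) + 4 * ((a : ℤ) + b)) hG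
      (by simp [baseL]) (by norm_num) (by omega) hb
    · simp only [ha0, hb0, if_false, hw]
    · omega
    · omega
    · omega
    · omega
    · simp only [ha0, hb0, if_false, gE, baseL, List.map_cons, List.map_nil, exL_cons, exL_nil, shiftB, exK_single, exK_dbl, exK_pair, lenS]
      omega
    · intro n hn
      rw [hw, hz] at hn
      simp only [ha0, hb0, if_false, gE, baseL, List.map_cons, List.map_nil, exL_cons, exL_nil, shiftB, exK_single, exK_dbl, exK_pair, lenS]
      refine ⟨by omega, by omega, by omega, ?_, ?_, by omega, by omega, by omega, ?_, by omega, by omega,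
        ?_, ?_, by omega⟩
      · have hn' : 2 * (n : ℤ) + 6 * (6 + 1) = 2 * 19 + (6 + 4 * ((P : ℤ) + 1)) * (6 + 4 * ((P : ℤ) + 1) + 1)
            + 8 * ((a : ℤ) + b) := by exact_mod_cast hn
        push_cast
        linear_combination hn'
      · push_cast
        omega
      · push_cast
        omega
      · omega
      · omega

theorem step_large_2_3 {P a b : ℕ} (hv : b = a + 1 ∨ b = a + 2 ∨ (a = 0 ∧ b = 0)) (hb : b ≤ P + 1)
    (hs : 1 ≤ a → 4 * (a + b) + 24 ≤ 21 + 6 + 4 * (P + 1))
    (hc : 46 ≤ 6 + 4 * (P + 1) + ((if a = 0 then 0 else 1) + (if b = 0 then 0 else 1))) :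
    StepOK (patt a b 1) (famL (baseL 2 3) P (patt (a - 1) (b - 1))) := by
  have hG : Good (baseL 2 3) := good_baseL (by norm_num) (by norm_num)
  have hw : twidth (baseL 2 3) = 6 := rfl
  have hz : szL (baseL 2 3) = 24 := rfl
  by_cases ha0 : a = 0
  · by_cases hb0 : b = 0
    · subst ha0 hb0
      simp only [if_true, eq_self_iff_true] at hc
      apply step_core_dbl (d₀ := 5) (c := 6 + 4 * (P + 1) + 0) (π := 0) (u := 2 * (P + 1) + 2)
        (β₁ := 2 * (P + 1) + 6) (ν := (((6 + 4 * (P + 1) + 0 : ℕ) : ℤ)) + (3)) hG
        (by simp [baseL]) (by norm_num) (Or.inr ⟨rfl, rfl⟩) hb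
      · simp only [if_true, eq_self_iff_true, hw]
      · omega
      · omega
      · omega
      · omega
      · simp only [if_true, eq_self_iff_true, gE, baseL, List.map_cons, List.map_nil, exL_cons, exL_nil, shiftB, exK_single, exK_dbl, exK_pair, lenS]
        omega
      · intro n hn
        rw [hw, hz] at hn
        simp only [if_true, eq_self_iff_true, gE, baseL, List.map_cons, List.map_nil, exL_cons, exL_nil, shiftB, exK_single, exK_dbl, exK_pair, lenS]
        refine ⟨by omega, by omega, by omega, ?_, ?_, by omega, by omega, by omega, ?_, by omega, by omega,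
          ?_, ?_, by omega⟩
        · have hn' : 2 * (n : ℤ) + 6 * (6 + 1) = 2 * 24 + (6 + 4 * ((P : ℤ) + 1)) * (6 + 4 * ((P : ℤ) + 1) + 1)
              + 8 * ((0 : ℤ) + 0) := by exact_mod_cast hn
          push_cast
          linear_combination hn'
        · push_cast
          omega
        · push_cast
          omega
        · omega
        · omega
    · subst ha0
      simp only [hb0, if_true, if_false, eq_self_iff_true] at hc
      apply step_core_dbl (d₀ := 5) (c := 6 + 4 * (P + 1) + 1) (π := 1) (u := 2 * (P + 1) + 2)
        (β₁ := 2 * (P + 1) + 6) (ν := (3) + 4 * (b : ℤ)) hG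
        (by simp [baseL]) (by norm_num) (by omega) hb
      · simp only [hb0, if_true, if_false, eq_self_iff_true, hw]
      · omega
      · omega
      · omega
      · omega
      · simp only [hb0, if_true, if_false, eq_self_iff_true, gE, baseL, List.map_cons, List.map_nil, exL_cons, exL_nil, shiftB, exK_single, exK_dbl, exK_pair, lenS]
        omega
      · intro n hn
        rw [hw, hz] at hn
        simp only [hb0, if_true, if_false, eq_self_iff_true, gE, baseL, List.map_cons, List.map_nil, exL_cons, exL_nil, shiftB, exK_single, exK_dbl, exK_pair, lenS]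
        refine ⟨by omega, by omega, by omega, ?_, ?_, by omega, by omega, by omega, ?_, by omega, by omega,
          ?_, ?_, by omega⟩
        · have hn' : 2 * (n : ℤ) + 6 * (6 + 1) = 2 * 24 + (6 + 4 * ((P : ℤ) + 1)) * (6 + 4 * ((P : ℤ) + 1) + 1)
              + 8 * ((0 : ℤ) + b) := by exact_mod_cast hn
          push_cast
          linear_combination hn'
        · push_cast
          omega
        · push_cast
          omega
        · omega
        · omega
  · have hb0 : b ≠ 0 := by omega
    simp only [ha0, hb0, if_false] at hc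
    apply step_core_dbl (d₀ := 5) (c := 6 + 4 * (P + 1) + 2) (π := 0) (u := 2 * (P + 1) + 3)
      (β₁ := max (2 * (P + 1) + 6) (4 * b)) (ν := 1 - ((6 + 4 * (P + 1) + 2 : ℕ) : ℤ) + (3) + 4 * ((a : ℤ) + b)) hG
      (by simp [baseL]) (by norm_num) (by omega) hb
    · simp only [ha0, hb0, if_false, hw]
    · omega
    · omega
    · omega
    · omega
    · simp only [ha0, hb0, if_false, gE, baseL, List.map_cons, List.map_nil, exL_cons, exL_nil, shiftB, exK_single, exK_dbl, exK_pair, lenS]
      omega
    · intro n hn
      rw [hw, hz] at hn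
      simp only [ha0, hb0, if_false, gE, baseL, List.map_cons, List.map_nil, exL_cons, exL_nil, shiftB, exK_single, exK_dbl, exK_pair, lenS]
      refine ⟨by omega, by omega, by omega, ?_, ?_, by omega, by omega, by omega, ?_, by omega, by omega,
        ?_, ?_, by omega⟩
      · have hn' : 2 * (n : ℤ) + 6 * (6 + 1) = 2 * 24 + (6 + 4 * ((P : ℤ) + 1)) * (6 + 4 * ((P : ℤ) + 1) + 1)
            + 8 * ((a : ℤ) + b) := by exact_mod_cast hn
        push_cast
        linear_combination hn'
      · push_cast
        omega
      · push_cast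
        omega
      · omega
      · omega

theorem step_large_3_0 {P a b : ℕ} (hv : b = a + 1 ∨ b = a + 2 ∨ (a = 0 ∧ b = 0)) (hb : b ≤ P + 1)
    (hs : 1 ≤ a → 4 * (a + b) + 6 ≤ 6 + 3 + 4 * (P + 1))
    (hc : 46 ≤ 3 + 4 * (P + 1) + ((if a = 0 then 0 else 1) + (if b = 0 then 0 else 1))) :
    StepOK (patt a b 1) (famL (baseL 3 0) P (patt (a - 1) (b - 1))) := by
  have hG : Good (baseL 3 0) := good_baseL (by norm_num) (by norm_num)
  have hw : twidth (baseL 3 0) = 3 := rfl
  have hz : szL (baseL 3 0) = 6 := rfl
  by_cases ha0 : a = 0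
  · by_cases hb0 : b = 0
    · subst ha0 hb0
      simp only [if_true, eq_self_iff_true] at hc
      apply step_core_none (c := 3 + 4 * (P + 1) + 0) (π := 1) (u := 2 * (P + 1) + 0)
        (β₁ := 2 * (P + 1) + 2) (ν := (((3 + 4 * (P + 1) + 0 : ℕ) : ℤ)) + (0)) hG
        (Or.inr ⟨rfl, rfl⟩) hb
      · simp only [if_true, eq_self_iff_true, hw]
      · omega
      · omega
      · omega
      · omega
      · simp only [if_true, eq_self_iff_true, gE, baseL, List.map_cons, List.map_nil, exL_cons, exL_nil, shiftB, exK_single, exK_dbl, exK_pair, lenS]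
        omega
      · intro n hn
        rw [hw, hz] at hn
        simp only [if_true, eq_self_iff_true, gE, baseL, List.map_cons, List.map_nil, exL_cons, exL_nil, shiftB, exK_single, exK_dbl, exK_pair, lenS]
        refine ⟨by omega, by omega, by omega, ?_, ?_, by omega, by omega, by omega, ?_, by omega, by omega,
          ?_, ?_, by omega⟩
        · have hn' : 2 * (n : ℤ) + 3 * (3 + 1) = 2 * 6 + (3 + 4 * ((P : ℤ) + 1)) * (3 + 4 * ((P : ℤ) + 1) + 1)
              + 8 * ((0 : ℤ) + 0) := by exact_mod_cast hn
          push_cast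
          linear_combination hn'
        · push_cast
          omega
        · push_cast
          omega
        · omega
        · omega
    · subst ha0
      simp only [hb0, if_true, if_false, eq_self_iff_true] at hc
      apply step_core_none (c := 3 + 4 * (P + 1) + 1) (π := 0) (u := 2 * (P + 1) + 1)
        (β₁ := 2 * (P + 1) + 2) (ν := (0) + 4 * (b : ℤ)) hG
        (by omega) hb
      · simp only [hb0, if_true, if_false, eq_self_iff_true, hw]
      · omega
      · omega
      · omega
      · omega
      · simp only [hb0, if_true, if_false, eq_self_iff_true, gE, baseL, List.map_cons, List.map_nil, exL_cons, exL_nil, shiftB, exK_single, exK_dbl, exK_pair, lenS]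
        omega
      · intro n hn
        rw [hw, hz] at hn
        simp only [hb0, if_true, if_false, eq_self_iff_true, gE, baseL, List.map_cons, List.map_nil, exL_cons, exL_nil, shiftB, exK_single, exK_dbl, exK_pair, lenS]
        refine ⟨by omega, by omega, by omega, ?_, ?_, by omega, by omega, by omega, ?_, by omega, by omega,
          ?_, ?_, by omega⟩
        · have hn' : 2 * (n : ℤ) + 3 * (3 + 1) = 2 * 6 + (3 + 4 * ((P : ℤ) + 1)) * (3 + 4 * ((P : ℤ) + 1) + 1)
              + 8 * ((0 : ℤ) + b) := by exact_mod_cast hn
          push_cast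
          linear_combination hn'
        · push_cast
          omega
        · push_cast
          omega
        · omega
        · omega
  · have hb0 : b ≠ 0 := by omega
    simp only [ha0, hb0, if_false] at hc
    apply step_core_none (c := 3 + 4 * (P + 1) + 2) (π := 1) (u := 2 * (P + 1) + 1)
      (β₁ := max (2 * (P + 1) + 3) (4 * b)) (ν := 1 - ((3 + 4 * (P + 1) + 2 : ℕ) : ℤ) + (0) + 4 * ((a : ℤ) + b)) hG
      (by omega) hb
    · simp only [ha0, hb0, if_false, hw]
    · omega
    · omega
    · omega
    · omega
    · simp only [ha0, hb0, if_false, gE, baseL, List.map_cons, List.map_nil, exL_cons, exL_nil, shiftB, exK_single, exK_dbl, exK_pair, lenS]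
      omega
    · intro n hn
      rw [hw, hz] at hn
      simp only [ha0, hb0, if_false, gE, baseL, List.map_cons, List.map_nil, exL_cons, exL_nil, shiftB, exK_single, exK_dbl, exK_pair, lenS]
      refine ⟨by omega, by omega, by omega, ?_, ?_, by omega, by omega, by omega, ?_, by omega, by omega,
        ?_, ?_, by omega⟩
      · have hn' : 2 * (n : ℤ) + 3 * (3 + 1) = 2 * 6 + (3 + 4 * ((P : ℤ) + 1)) * (3 + 4 * ((P : ℤ) + 1) + 1)
            + 8 * ((a : ℤ) + b) := by exact_mod_cast hn
        push_cast
        linear_combination hn'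
      · push_cast
        omega
      · push_cast
        omega
      · omega
      · omega

theorem step_large_3_1 {P a b : ℕ} (hv : b = a + 1 ∨ b = a + 2 ∨ (a = 0 ∧ b = 0)) (hb : b ≤ P + 1)
    (hs : 1 ≤ a → 4 * (a + b) + 25 ≤ 28 + 7 + 4 * (P + 1))
    (hc : 46 ≤ 7 + 4 * (P + 1) + ((if a = 0 then 0 else 1) + (if b = 0 then 0 else 1))) :
    StepOK (patt a b 1) (famL (baseL 3 1) P (patt (a - 1) (b - 1))) := by
  have hG : Good (baseL 3 1) := good_baseL (by norm_num) (by norm_num)
  have hw : twidth (baseL 3 1) = 7 := rfl
  have hz : szL (baseL 3 1) = 25 := rfl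
  by_cases ha0 : a = 0
  · by_cases hb0 : b = 0
    · subst ha0 hb0
      simp only [if_true, eq_self_iff_true] at hc
      apply step_core_dbl (d₀ := 2) (c := 7 + 4 * (P + 1) + 0) (π := 1) (u := 2 * (P + 1) + 2)
        (β₁ := 2 * (P + 1) + 4) (ν := (((7 + 4 * (P + 1) + 0 : ℕ) : ℤ)) + (-3)) hG
        (by simp [baseL]) (by norm_num) (Or.inr ⟨rfl, rfl⟩) hb
      · simp only [if_true, eq_self_iff_true, hw]
      · omega
      · omega
      · omega
      · omega
      · simp only [if_true, eq_self_iff_true, gE, baseL, List.map_cons, List.map_nil, exL_cons, exL_nil, shiftB, exK_single, exK_dbl, exK_pair, lenS]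
        omega
      · intro n hn
        rw [hw, hz] at hn
        simp only [if_true, eq_self_iff_true, gE, baseL, List.map_cons, List.map_nil, exL_cons, exL_nil, shiftB, exK_single, exK_dbl, exK_pair, lenS]
        refine ⟨by omega, by omega, by omega, ?_, ?_, by omega, by omega, by omega, ?_, by omega, by omega,
          ?_, ?_, by omega⟩
        · have hn' : 2 * (n : ℤ) + 7 * (7 + 1) = 2 * 25 + (7 + 4 * ((P : ℤ) + 1)) * (7 + 4 * ((P : ℤ) + 1) + 1)
              + 8 * ((0 : ℤ) + 0) := by exact_mod_cast hn
          push_cast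
          linear_combination hn'
        · push_cast
          omega
        · push_cast
          omega
        · omega
        · omega
    · subst ha0
      simp only [hb0, if_true, if_false, eq_self_iff_true] at hc
      apply step_core_dbl (d₀ := 2) (c := 7 + 4 * (P + 1) + 1) (π := 0) (u := 2 * (P + 1) + 3)
        (β₁ := 2 * (P + 1) + 4) (ν := (-3) + 4 * (b : ℤ)) hG
        (by simp [baseL]) (by norm_num) (by omega) hb
      · simp only [hb0, if_true, if_false, eq_self_iff_true, hw]
      · omega
      · omega
      · omega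
      · omega
      · simp only [hb0, if_true, if_false, eq_self_iff_true, gE, baseL, List.map_cons, List.map_nil, exL_cons, exL_nil, shiftB, exK_single, exK_dbl, exK_pair, lenS]
        omega
      · intro n hn
        rw [hw, hz] at hn
        simp only [hb0, if_true, if_false, eq_self_iff_true, gE, baseL, List.map_cons, List.map_nil, exL_cons, exL_nil, shiftB, exK_single, exK_dbl, exK_pair, lenS]
        refine ⟨by omega, by omega, by omega, ?_, ?_, by omega, by omega, by omega, ?_, by omega, by omega,
          ?_, ?_, by omega⟩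
        · have hn' : 2 * (n : ℤ) + 7 * (7 + 1) = 2 * 25 + (7 + 4 * ((P : ℤ) + 1)) * (7 + 4 * ((P : ℤ) + 1) + 1)
              + 8 * ((0 : ℤ) + b) := by exact_mod_cast hn
          push_cast
          linear_combination hn'
        · push_cast
          omega
        · push_cast
          omega
        · omega
        · omega
  · have hb0 : b ≠ 0 := by omega
    simp only [ha0, hb0, if_false] at hc
    apply step_core_dbl (d₀ := 2) (c := 7 + 4 * (P + 1) + 2) (π := 1) (u := 2 * (P + 1) + 3)
      (β₁ := max (2 * (P + 1) + 5) (4 * b)) (ν := 1 - ((7 + 4 * (P + 1) + 2 : ℕ) : ℤ) + (-3) + 4 * ((a : ℤ) + b)) hG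
      (by simp [baseL]) (by norm_num) (by omega) hb
    · simp only [ha0, hb0, if_false, hw]
    · omega
    · omega
    · omega
    · omega
    · simp only [ha0, hb0, if_false, gE, baseL, List.map_cons, List.map_nil, exL_cons, exL_nil, shiftB, exK_single, exK_dbl, exK_pair, lenS]
      omega
    · intro n hn
      rw [hw, hz] at hn
      simp only [ha0, hb0, if_false, gE, baseL, List.map_cons, List.map_nil, exL_cons, exL_nil, shiftB, exK_single, exK_dbl, exK_pair, lenS]
      refine ⟨by omega, by omega, by omega, ?_, ?_, by omega, by omega, by omega, ?_, by omega, by omega,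
        ?_, ?_, by omega⟩
      · have hn' : 2 * (n : ℤ) + 7 * (7 + 1) = 2 * 25 + (7 + 4 * ((P : ℤ) + 1)) * (7 + 4 * ((P : ℤ) + 1) + 1)
            + 8 * ((a : ℤ) + b) := by exact_mod_cast hn
        push_cast
        linear_combination hn'
      · push_cast
        omega
      · push_cast
        omega
      · omega
      · omega

theorem step_large_3_2 {P a b : ℕ} (hv : b = a + 1 ∨ b = a + 2 ∨ (a = 0 ∧ b = 0)) (hb : b ≤ P + 1)
    (hs : 1 ≤ a → 4 * (a + b) + 8 ≤ 6 + 3 + 4 * (P + 1))
    (hc : 46 ≤ 3 + 4 * (P + 1) + ((if a = 0 then 0 else 1) + (if b = 0 then 0 else 1))) :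
    StepOK (patt a b 1) (famL (baseL 3 2) P (patt (a - 1) (b - 1))) := by
  have hG : Good (baseL 3 2) := good_baseL (by norm_num) (by norm_num)
  have hw : twidth (baseL 3 2) = 3 := rfl
  have hz : szL (baseL 3 2) = 8 := rfl
  by_cases ha0 : a = 0
  · by_cases hb0 : b = 0
    · subst ha0 hb0
      simp only [if_true, eq_self_iff_true] at hc
      apply step_core_dbl (d₀ := 3) (c := 3 + 4 * (P + 1) + 0) (π := 1) (u := 2 * (P + 1) + 0)
        (β₁ := 2 * (P + 1) + 2) (ν := (((3 + 4 * (P + 1) + 0 : ℕ) : ℤ)) + (2)) hG
        (by simp [baseL]) (by norm_num) (Or.inr ⟨rfl, rfl⟩) hb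
      · simp only [if_true, eq_self_iff_true, hw]
      · omega
      · omega
      · omega
      · omega
      · simp only [if_true, eq_self_iff_true, gE, baseL, List.map_cons, List.map_nil, exL_cons, exL_nil, shiftB, exK_single, exK_dbl, exK_pair, lenS]
        omega
      · intro n hn
        rw [hw, hz] at hn
        simp only [if_true, eq_self_iff_true, gE, baseL, List.map_cons, List.map_nil, exL_cons, exL_nil, shiftB, exK_single, exK_dbl, exK_pair, lenS]
        refine ⟨by omega, by omega, by omega, ?_, ?_, by omega, by omega, by omega, ?_, by omega, by omega,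
          ?_, ?_, by omega⟩
        · have hn' : 2 * (n : ℤ) + 3 * (3 + 1) = 2 * 8 + (3 + 4 * ((P : ℤ) + 1)) * (3 + 4 * ((P : ℤ) + 1) + 1)
              + 8 * ((0 : ℤ) + 0) := by exact_mod_cast hn
          push_cast
          linear_combination hn'
        · push_cast
          omega
        · push_cast
          omega
        · omega
        · omega
    · subst ha0
      simp only [hb0, if_true, if_false, eq_self_iff_true] at hc
      apply step_core_dbl (d₀ := 3) (c := 3 + 4 * (P + 1) + 1) (π := 0) (u := 2 * (P + 1) + 1)
        (β₁ := 2 * (P + 1) + 2) (ν := (2) + 4 * (b : ℤ)) hG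
        (by simp [baseL]) (by norm_num) (by omega) hb
      · simp only [hb0, if_true, if_false, eq_self_iff_true, hw]
      · omega
      · omega
      · omega
      · omega
      · simp only [hb0, if_true, if_false, eq_self_iff_true, gE, baseL, List.map_cons, List.map_nil, exL_cons, exL_nil, shiftB, exK_single, exK_dbl, exK_pair, lenS]
        omega
      · intro n hn
        rw [hw, hz] at hn
        simp only [hb0, if_true, if_false, eq_self_iff_true, gE, baseL, List.map_cons, List.map_nil, exL_cons, exL_nil, shiftB, exK_single, exK_dbl, exK_pair, lenS]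
        refine ⟨by omega, by omega, by omega, ?_, ?_, by omega, by omega, by omega, ?_, by omega, by omega,
          ?_, ?_, by omega⟩
        · have hn' : 2 * (n : ℤ) + 3 * (3 + 1) = 2 * 8 + (3 + 4 * ((P : ℤ) + 1)) * (3 + 4 * ((P : ℤ) + 1) + 1)
              + 8 * ((0 : ℤ) + b) := by exact_mod_cast hn
          push_cast
          linear_combination hn'
        · push_cast
          omega
        · push_cast
          omega
        · omega
        · omega
  · have hb0 : b ≠ 0 := by omega
    simp only [ha0, hb0, if_false] at hc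
    apply step_core_dbl (d₀ := 3) (c := 3 + 4 * (P + 1) + 2) (π := 1) (u := 2 * (P + 1) + 1)
      (β₁ := max (2 * (P + 1) + 3) (4 * b)) (ν := 1 - ((3 + 4 * (P + 1) + 2 : ℕ) : ℤ) + (2) + 4 * ((a : ℤ) + b)) hG
      (by simp [baseL]) (by norm_num) (by omega) hb
    · simp only [ha0, hb0, if_false, hw]
    · omega
    · omega
    · omega
    · omega
    · simp only [ha0, hb0, if_false, gE, baseL, List.map_cons, List.map_nil, exL_cons, exL_nil, shiftB, exK_single, exK_dbl, exK_pair, lenS]
      omega
    · intro n hn
      rw [hw, hz] at hn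
      simp only [ha0, hb0, if_false, gE, baseL, List.map_cons, List.map_nil, exL_cons, exL_nil, shiftB, exK_single, exK_dbl, exK_pair, lenS]
      refine ⟨by omega, by omega, by omega, ?_, ?_, by omega, by omega, by omega, ?_, by omega, by omega,
        ?_, ?_, by omega⟩
      · have hn' : 2 * (n : ℤ) + 3 * (3 + 1) = 2 * 8 + (3 + 4 * ((P : ℤ) + 1)) * (3 + 4 * ((P : ℤ) + 1) + 1)
            + 8 * ((a : ℤ) + b) := by exact_mod_cast hn
        push_cast
        linear_combination hn'
      · push_cast
        omega
      · push_cast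
        omega
      · omega
      · omega

theorem step_large_3_3 {P a b : ℕ} (hv : b = a + 1 ∨ b = a + 2 ∨ (a = 0 ∧ b = 0)) (hb : b ≤ P + 1)
    (hs : 1 ≤ a → 4 * (a + b) + 5 ≤ 6 + 3 + 4 * (P + 1))
    (hc : 46 ≤ 3 + 4 * (P + 1) + ((if a = 0 then 0 else 1) + (if b = 0 then 0 else 1))) :
    StepOK (patt a b 1) (famL (baseL 3 3) P (patt (a - 1) (b - 1))) := by
  have hG : Good (baseL 3 3) := good_baseL (by norm_num) (by norm_num)
  have hw : twidth (baseL 3 3) = 3 := rfl
  have hz : szL (baseL 3 3) = 5 := rfl
  by_cases ha0 : a = 0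
  · by_cases hb0 : b = 0
    · subst ha0 hb0
      simp only [if_true, eq_self_iff_true] at hc
      apply step_core_dbl (d₀ := 1) (c := 3 + 4 * (P + 1) + 0) (π := 1) (u := 2 * (P + 1) + 0)
        (β₁ := 2 * (P + 1) + 3) (ν := (((3 + 4 * (P + 1) + 0 : ℕ) : ℤ)) + (-1)) hG
        (by simp [baseL]) (by norm_num) (Or.inr ⟨rfl, rfl⟩) hb
      · simp only [if_true, eq_self_iff_true, hw]
      · omega
      · omega
      · omega
      · omega
      · simp only [if_true, eq_self_iff_true, gE, baseL, List.map_cons, List.map_nil, exL_cons, exL_nil, shiftB, exK_single, exK_dbl, exK_pair, lenS]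
        omega
      · intro n hn
        rw [hw, hz] at hn
        simp only [if_true, eq_self_iff_true, gE, baseL, List.map_cons, List.map_nil, exL_cons, exL_nil, shiftB, exK_single, exK_dbl, exK_pair, lenS]
        refine ⟨by omega, by omega, by omega, ?_, ?_, by omega, by omega, by omega, ?_, by omega, by omega,
          ?_, ?_, by omega⟩
        · have hn' : 2 * (n : ℤ) + 3 * (3 + 1) = 2 * 5 + (3 + 4 * ((P : ℤ) + 1)) * (3 + 4 * ((P : ℤ) + 1) + 1)
              + 8 * ((0 : ℤ) + 0) := by exact_mod_cast hn
          push_cast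
          linear_combination hn'
        · push_cast
          omega
        · push_cast
          omega
        · omega
        · omega
    · subst ha0
      simp only [hb0, if_true, if_false, eq_self_iff_true] at hc
      apply step_core_dbl (d₀ := 1) (c := 3 + 4 * (P + 1) + 1) (π := 0) (u := 2 * (P + 1) + 1)
        (β₁ := 2 * (P + 1) + 3) (ν := (-1) + 4 * (b : ℤ)) hG
        (by simp [baseL]) (by norm_num) (by omega) hb
      · simp only [hb0, if_true, if_false, eq_self_iff_true, hw]
      · omega
      · omega
      · omega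
      · omega
      · simp only [hb0, if_true, if_false, eq_self_iff_true, gE, baseL, List.map_cons, List.map_nil, exL_cons, exL_nil, shiftB, exK_single, exK_dbl, exK_pair, lenS]
        omega
      · intro n hn
        rw [hw, hz] at hn
        simp only [hb0, if_true, if_false, eq_self_iff_true, gE, baseL, List.map_cons, List.map_nil, exL_cons, exL_nil, shiftB, exK_single, exK_dbl, exK_pair, lenS]
        refine ⟨by omega, by omega, by omega, ?_, ?_, by omega, by omega, by omega, ?_, by omega, by omega,
          ?_, ?_, by omega⟩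
        · have hn' : 2 * (n : ℤ) + 3 * (3 + 1) = 2 * 5 + (3 + 4 * ((P : ℤ) + 1)) * (3 + 4 * ((P : ℤ) + 1) + 1)
              + 8 * ((0 : ℤ) + b) := by exact_mod_cast hn
          push_cast
          linear_combination hn'
        · push_cast
          omega
        · push_cast
          omega
        · omega
        · omega
  · have hb0 : b ≠ 0 := by omega
    simp only [ha0, hb0, if_false] at hc
    apply step_core_dbl (d₀ := 1) (c := 3 + 4 * (P + 1) + 2) (π := 1) (u := 2 * (P + 1) + 1)
      (β₁ := max (2 * (P + 1) + 3) (4 * b)) (ν := 1 - ((3 + 4 * (P + 1) + 2 : ℕ) : ℤ) + (-1) + 4 * ((a : ℤ) + b)) hG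
      (by simp [baseL]) (by norm_num) (by omega) hb
    · simp only [ha0, hb0, if_false, hw]
    · omega
    · omega
    · omega
    · omega
    · simp only [ha0, hb0, if_false, gE, baseL, List.map_cons, List.map_nil, exL_cons, exL_nil, shiftB, exK_single, exK_dbl, exK_pair, lenS]
      omega
    · intro n hn
      rw [hw, hz] at hn
      simp only [ha0, hb0, if_false, gE, baseL, List.map_cons, List.map_nil, exL_cons, exL_nil, shiftB, exK_single, exK_dbl, exK_pair, lenS]
      refine ⟨by omega, by omega, by omega, ?_, ?_, by omega, by omega, by omega, ?_, by omega, by omega,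
        ?_, ?_, by omega⟩
      · have hn' : 2 * (n : ℤ) + 3 * (3 + 1) = 2 * 5 + (3 + 4 * ((P : ℤ) + 1)) * (3 + 4 * ((P : ℤ) + 1) + 1)
            + 8 * ((a : ℤ) + b) := by exact_mod_cast hn
        push_cast
        linear_combination hn'
      · push_cast
        omega
      · push_cast
        omega
      · omega
      · omega

/-- What is known on the levels of the chains, more. -/
theorem OnChain.props2 {i j P a b : ℕ} (h : OnChain i j P a b) :
    b ≤ P + 1 ∧ (a < b ∨ (a = 0 ∧ b = 0)) ∧
    (1 ≤ a → 4 * (a + b) + (cellsL (baseL i j)).card ≤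
      twidth (baseL i j) * (twidth (baseL i j) + 1) / 2 + twidth (baseL i j) + 4 * (P + 1)) := by
  obtain ⟨m, r, t, hr, hn, rfl, rfl, ht, rfl, rfl, rfl⟩ := h
  have hm := exc_m hr hn
  obtain ⟨h1, h2, h3, h4, h5, h6, h7⟩ := sel_spec hm hr
  generalize twidth (baseL (m % 4) (r % 4)) * (twidth (baseL (m % 4) (r % 4)) + 1) / 2 = T at *
  generalize twidth (baseL (m % 4) (r % 4)) = w at *
  generalize (cellsL (baseL (m % 4) (r % 4))).card = K at *
  refine ⟨by omega, by omega, ?_⟩
  intro ha
  omega

/-- **Every level of a chain with first column at least `46` is a step.** -/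
theorem stepOK_large {i j P a b : ℕ} (h : OnChain i j P a b)
    (hc : 46 ≤ cOf (patt a b 1) (famL (baseL i j) P (patt (a - 1) (b - 1)))) :
    StepOK (patt a b 1) (famL (baseL i j) P (patt (a - 1) (b - 1))) := by
  obtain ⟨hi, hj, hv, -⟩ := h.props
  obtain ⟨hb, hab, hs⟩ := h.props2
  rw [cOf_eq_level _ P a b hab hb] at hc
  rw [card_cellsL] at hs
  interval_cases i <;> interval_cases j
  · exact step_large_0_0 hv hb hs hc
  · exact step_large_0_1 hv hb hs hc
  · exact step_large_0_2 hv hb hs hc
  · exact step_large_0_3 hv hb hs hc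
  · exact step_large_1_0 hv hb hs hc
  · exact step_large_1_1 hv hb hs hc
  · exact step_large_1_2 hv hb hs hc
  · exact step_large_1_3 hv hb hs hc
  · exact step_large_2_0 hv hb hs hc
  · exact step_large_2_1 hv hb hs hc
  · exact step_large_2_2 hv hb hs hc
  · exact step_large_2_3 hv hb hs hc
  · exact step_large_3_0 hv hb hs hc
  · exact step_large_3_1 hv hb hs hc
  · exact step_large_3_2 hv hb hs hc
  · exact step_large_3_3 hv hb hs hc


end Crest.Agent.Saxl.Family
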