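import Crest.Agent.Lib.Saxl.FamilyL
import Crest.Agent.Lib.Saxl.Coverage

/-!
# The parts of the blocks of the hook family, as numbers (row 195, S0298)

`stdParts K`: a single is one part, a pair of height `x` is the flat partition of `2x+1` into four
parts, a double `d` is one part `2d`.  `exL b l`: the sum of the excesses `(part - b)^+`, `lenL l`:
the number of parts.  `sum_T_le_line`, `sum_T_add_le`: the majorants for a set of parts off some
blocks.  Along a chain `W B ds` of `stepL` all these numbers are given by recursions.
-/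

set_option autoImplicit false

open scoped BigOperators

namespace Crest.Agent.Saxl.Family

/-- The flat partition of `s` into at most four parts, without zero parts. -/
def flat4 (s : ℕ) : List ℕ := [(s + 3) / 4, (s + 2) / 4, (s + 1) / 4, s / 4].filter (0 < ·)

theorem flat4_of_ge {s : ℕ} (h : 4 ≤ s) : flat4 s = [(s + 3) / 4, (s + 2) / 4, (s + 1) / 4, s / 4] := by
  have h1 : 0 < (s + 3) / 4 := by omega
  have h2 : 0 < (s + 2) / 4 := by omega
  have h3 : 0 < (s + 1) / 4 := by omega
  have h4 : 0 < s / 4 := by omega
  simp [flat4, h1, h2, h3, h4]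

theorem flat4_sum (s : ℕ) : (flat4 s).sum = s := by
  by_cases h : 4 ≤ s
  · rw [flat4_of_ge h]
    simp only [List.sum_cons, List.sum_nil]
    omega
  · have : s < 4 := by omega
    interval_cases s <;> decide

theorem flat4_length_le (s : ℕ) : (flat4 s).length ≤ 4 :=
  (List.length_filter_le _ _).trans (by simp)

theorem flat4_pos {s x : ℕ} (h : x ∈ flat4 s) : 0 < x := by
  simpa using (List.mem_filter.mp h).2

/-- The standard parts of a block. -/
def stdParts : BK → List ℕ
  | BK.single x => [x]
  | BK.pair x => flat4 (2 * x + 1)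
  | BK.dbl d => [2 * d]

theorem stdParts_sum (K : BK) : (stdParts K).sum = K.size := by
  rcases K with x | x | d
  · simp [stdParts, BK.size]
  · simp [stdParts, BK.size, flat4_sum]
  · simp [stdParts, BK.size]

theorem stdParts_ok {K : BK} (h : Nondeg K) : K.PartsOK (stdParts K) := by
  rcases K with x | x | d
  · simp [stdParts, BK.PartsOK]
  · exact flat4_length_le _
  · exact ⟨h, by simp [stdParts]⟩

theorem stdParts_pos {K : BK} (h : Nondeg K) {x : ℕ} (hx : x ∈ stdParts K) : 0 < x := by
  rcases K with y | y | d
  · simp only [stdParts, List.mem_singleton] at hx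
    subst hx
    exact h
  · exact flat4_pos hx
  · simp only [stdParts, List.mem_singleton] at hx
    subst hx
    have : 0 < d := h
    omega

/-- The excess of a block over `b`. -/
def exK (b : ℕ) (K : BK) : ℕ := ((stdParts K).map (· - b)).sum

@[simp] theorem exK_single (b x : ℕ) : exK b (BK.single x) = x - b := by
  simp [exK, stdParts]

@[simp] theorem exK_dbl (b d : ℕ) : exK b (BK.dbl d) = 2 * d - b := by
  simp [exK, stdParts]

@[simp] theorem exK_pair (b x : ℕ) : exK b (BK.pair x) = 2 * x + 1 - 4 * b := by
  simp only [exK, stdParts]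
  by_cases h : 4 ≤ 2 * x + 1
  · rw [flat4_of_ge h]
    simp only [List.map_cons, List.map_nil, List.sum_cons, List.sum_nil]
    omega
  · have hx : x = 0 ∨ x = 1 := by omega
    rcases hx with rfl | rfl
    · have : flat4 (2 * 0 + 1) = [1] := by decide
      rw [this]
      simp only [List.map_cons, List.map_nil, List.sum_cons, List.sum_nil]
      omega
    · have : flat4 (2 * 1 + 1) = [1, 1, 1] := by decide
      rw [this]
      simp only [List.map_cons, List.map_nil, List.sum_cons, List.sum_nil]
      omega

/-- The number of parts of a block. -/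
def lenK (K : BK) : ℕ := (stdParts K).length

@[simp] theorem lenK_single (x : ℕ) : lenK (BK.single x) = 1 := rfl
@[simp] theorem lenK_dbl (d : ℕ) : lenK (BK.dbl d) = 1 := rfl

theorem lenK_pair_of_ge {x : ℕ} (h : 2 ≤ x) : lenK (BK.pair x) = 4 := by
  simp only [lenK, stdParts]
  rw [flat4_of_ge (by omega)]
  rfl

theorem lenK_pair_one : lenK (BK.pair 1) = 3 := by decide

/-- Excess of a list of blocks. -/
def exL (b : ℕ) (l : List BK) : ℕ := (l.map (exK b)).sum

/-- Number of parts of a list of blocks. -/
def lenL (l : List BK) : ℕ := (l.map lenK).sum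

/-- Total size of a list of blocks. -/
def szL (l : List BK) : ℕ := (l.map BK.size).sum

@[simp] theorem exL_nil (b : ℕ) : exL b [] = 0 := rfl
@[simp] theorem exL_cons (b : ℕ) (K : BK) (l : List BK) : exL b (K :: l) = exK b K + exL b l := by
  simp [exL]
@[simp] theorem exL_append (b : ℕ) (l l' : List BK) : exL b (l ++ l') = exL b l + exL b l' := by
  simp [exL]
@[simp] theorem lenL_nil : lenL [] = 0 := rfl
@[simp] theorem lenL_cons (K : BK) (l : List BK) : lenL (K :: l) = lenK K + lenL l := by
  simp [lenL]
@[simp] theorem lenL_append (l l' : List BK) : lenL (l ++ l') = lenL l + lenL l' := by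
  simp [lenL]
@[simp] theorem szL_nil : szL [] = 0 := rfl
@[simp] theorem szL_cons (K : BK) (l : List BK) : szL (K :: l) = K.size + szL l := by
  simp [szL]
@[simp] theorem szL_append (l l' : List BK) : szL (l ++ l') = szL l + szL l' := by
  simp [szL]

section Sets

/-- The parts attached to a list of blocks. -/
def psL (l : List BK) : Fin l.length → List ℕ := fun i => stdParts l[i.1]

theorem psL_sum (l : List BK) (i : Fin l.length) : (psL l i).sum = (l[i.1]).size :=
  stdParts_sum _

theorem psL_ok {l : List BK} (h : ∀ K ∈ l, Nondeg K) (i : Fin l.length) :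
    (l[i.1]).PartsOK (psL l i) :=
  stdParts_ok (h _ (List.getElem_mem i.2))

theorem psL_pos {l : List BK} (h : ∀ K ∈ l, Nondeg K) (p : Σ i, Fin (psL l i).length) :
    0 < (psL l p.1)[p.2.1] :=
  stdParts_pos (h _ (List.getElem_mem p.1.2)) (List.getElem_mem p.2.2)

variable {l : List BK}

/-- The sum of the excesses over the parts in a set of blocks. -/
theorem sum_excess_filter (b : ℕ) (Q : Fin l.length → Prop) [DecidablePred Q] :
    ∑ p ∈ Finset.univ.filter (fun p : (Σ i, Fin (psL l i).length) => Q p.1),
        ((psL l p.1)[p.2.1] - b) = ∑ i ∈ Finset.univ.filter Q, exK b l[i.1] := by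
  rw [Finset.sum_filter, Finset.sum_filter, Fintype.sum_sigma]
  apply Finset.sum_congr rfl
  intro i _
  by_cases h : Q i
  · simp only [h, if_true]
    exact Fin.sum_univ_fun_getElem (psL l i) (· - b)
  · simp [h]

/-- The line: a set of parts in the blocks `Q` sums to at most `|T| b + excess`. -/
theorem sum_T_le_line (b : ℕ) (Q : Fin l.length → Prop) [DecidablePred Q]
    (T : Finset (Σ i, Fin (psL l i).length)) (hT : ∀ p ∈ T, Q p.1) :
    ∑ p ∈ T, (psL l p.1)[p.2.1] ≤ T.card * b + ∑ i ∈ Finset.univ.filter Q, exK b l[i.1] := by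
  classical
  rw [← sum_excess_filter b Q]
  calc ∑ p ∈ T, (psL l p.1)[p.2.1]
      ≤ ∑ p ∈ T, (b + ((psL l p.1)[p.2.1] - b)) := by
        apply Finset.sum_le_sum
        intro p _
        omega
    _ = T.card * b + ∑ p ∈ T, ((psL l p.1)[p.2.1] - b) := by
        rw [Finset.sum_add_distrib, Finset.sum_const, smul_eq_mul]
    _ ≤ T.card * b + ∑ p ∈ Finset.univ.filter
          (fun p : (Σ i, Fin (psL l i).length) => Q p.1), ((psL l p.1)[p.2.1] - b) := by
        apply Nat.add_le_add_left
        apply Finset.sum_le_sum_of_subset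
        intro p hp
        exact Finset.mem_filter.mpr ⟨Finset.mem_univ _, hT p hp⟩

theorem sum_erase_getElem (f : BK → ℕ) (i₀ : Fin l.length) :
    ∑ i ∈ Finset.univ.filter (fun i : Fin l.length => i ≠ i₀), f l[i.1] =
      (l.map f).sum - f l[i₀.1] := by
  have h1 : (l.map f).sum = ∑ i : Fin l.length, f l[i.1] :=
    (Fin.sum_univ_fun_getElem l f).symm
  rw [h1, ← Finset.add_sum_erase _ _ (Finset.mem_univ i₀), Nat.add_sub_cancel_left]
  apply Finset.sum_congr
  · ext i
    simp
  · intro i _
    rfl

/-- The line off one block. -/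
theorem sum_T_le_line_off (b : ℕ) (i₀ : Fin l.length)
    (T : Finset (Σ i, Fin (psL l i).length)) (hT : ∀ p ∈ T, p.1 ≠ i₀) :
    ∑ p ∈ T, (psL l p.1)[p.2.1] ≤ T.card * b + (exL b l - exK b l[i₀.1]) := by
  have h := sum_T_le_line b (fun i => i ≠ i₀) T hT
  rwa [sum_erase_getElem (exK b) i₀] at h

/-- The line with all blocks. -/
theorem sum_T_le_line_all (b : ℕ) (T : Finset (Σ i, Fin (psL l i).length)) :
    ∑ p ∈ T, (psL l p.1)[p.2.1] ≤ T.card * b + exL b l := by
  have h := sum_T_le_line b (fun _ => True) T (by simp)
  have h2 : (Finset.univ.filter fun i : Fin l.length => True) = Finset.univ := by simp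
  rw [h2] at h
  have h1 : exL b l = ∑ i : Fin l.length, exK b l[i.1] :=
    (Fin.sum_univ_fun_getElem l (exK b)).symm
  rwa [h1]

/-- All parts off one block are at most `b` if the excess vanishes. -/
theorem part_le_of_ex {b : ℕ} {i₀ : Fin l.length} (h : exL b l - exK b l[i₀.1] = 0)
    (p : Σ i, Fin (psL l i).length) (hp : p.1 ≠ i₀) : (psL l p.1)[p.2.1] ≤ b := by
  have h1 := sum_T_le_line_off b i₀ {p} (by simpa using hp)
  simpa [h] using h1

/-- The number of parts off one block. -/
theorem card_off (i₀ : Fin l.length) :
    (Finset.univ.filter (fun p : (Σ i, Fin (psL l i).length) => p.1 ≠ i₀)).card =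
      lenL l - lenK l[i₀.1] := by
  rw [card_filter_sigma (ps := psL l) (fun i => i ≠ i₀)]
  exact sum_erase_getElem lenK i₀

/-- The number of all parts. -/
theorem card_all : Fintype.card (Σ i, Fin (psL l i).length) = lenL l := by
  rw [Fintype.card_sigma]
  simp only [Fintype.card_fin]
  exact Fin.sum_univ_fun_getElem l lenK

/-- Every set of parts off a block misses at least `t - |T|` positive parts. -/
theorem sum_T_add_le_off (h : ∀ K ∈ l, Nondeg K) (i₀ : Fin l.length) {t : ℕ}
    (ht : t + lenK l[i₀.1] ≤ lenL l)
    (T : Finset (Σ i, Fin (psL l i).length)) (hT : ∀ p ∈ T, p.1 ≠ i₀) :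
    ∑ p ∈ T, (psL l p.1)[p.2.1] + (t - T.card) ≤ szL l - (l[i₀.1]).size := by
  apply hL2_of_count (Q := fun i => i ≠ i₀) (fun p _ => psL_pos h p) _ _ T hT
  · exact sum_rest_one (psL_sum l) i₀
  · rw [card_off]
    omega

theorem sum_T_add_le_all (h : ∀ K ∈ l, Nondeg K) {t : ℕ} (ht : t ≤ lenL l)
    (T : Finset (Σ i, Fin (psL l i).length)) :
    ∑ p ∈ T, (psL l p.1)[p.2.1] + (t - T.card) ≤ szL l := by
  apply hL2_of_count (Q := fun _ => True) (fun p _ => psL_pos h p) _ _ T (by simp)
  · simpa [szL] using sum_rest_none (psL_sum l)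
  · rw [Finset.filter_true_of_mem (by simp), Finset.card_univ, card_all]
    exact ht

end Sets

/-! ### Chains -/

/-- The chain of double wraps: head of `ds` is the outermost step. -/
def W (B : List BK) : List Bool → List BK
  | [] => B
  | d :: ds => stepL d (W B ds)

@[simp] theorem W_nil (B : List BK) : W B [] = B := rfl
@[simp] theorem W_cons (B : List BK) (d : Bool) (ds : List Bool) :
    W B (d :: ds) = stepL d (W B ds) := rfl

theorem Good.W {B : List BK} (h : Good B) (ds : List Bool) : Good (W B ds) := by
  induction ds with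
  | nil => exact h
  | cons d ds ih => exact ih.stepL d

/-- Number of defects. -/
def nd (ds : List Bool) : ℕ := ds.count true

@[simp] theorem nd_nil : nd [] = 0 := rfl
@[simp] theorem nd_cons_true (ds : List Bool) : nd (true :: ds) = nd ds + 1 := by simp [nd]
@[simp] theorem nd_cons_false (ds : List Bool) : nd (false :: ds) = nd ds := by simp [nd]

theorem twidth_W (B : List BK) (ds : List Bool) :
    twidth (W B ds) = twidth B + 4 * ds.length + nd ds := by
  induction ds with
  | nil => simp
  | cons d ds ih =>
    rw [W_cons, twidth_stepL]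
    cases d
    · simp only [cOf, if_false, Bool.false_eq_true, List.length_cons, nd_cons_false, ih]
      omega
    · simp only [cOf, if_true, List.length_cons, nd_cons_true, ih]
      omega

theorem size_shiftB (t : ℕ) (K : BK) : (shiftB t K).size = K.size + t * K.width := by
  rcases K with x | x | d
  · simp [shiftB, BK.size, BK.width]
  · simp [shiftB, BK.size, BK.width]
    ring
  · simp [shiftB, BK.size, BK.width]
    ring

theorem szL_map_shift (t : ℕ) (l : List BK) : szL (l.map (shiftB t)) = szL l + t * twidth l := by
  induction l with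
  | nil => simp [twidth]
  | cons K l ih =>
    simp only [List.map_cons, szL_cons, ih, size_shiftB, twidth, List.sum_cons]
    simp only [twidth] at ih
    ring

theorem szL_stepL (d : Bool) (l : List BK) :
    szL (stepL d l) = szL l + 4 * cOf d l - 6 := by
  have h := szL_map_shift 2 l
  cases d
  · simp only [stepL, if_false, Bool.false_eq_true, cOf, szL_cons, szL_append, szL_nil, h,
      BK.size]
    omega
  · simp only [stepL, if_true, cOf, szL_cons, szL_append, szL_nil, h, BK.size]
    omega

/-- The number of parts once every pair has four parts. -/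
def lenS : List BK → ℕ
  | [] => 0
  | BK.single _ :: l => 1 + lenS l
  | BK.pair _ :: l => 4 + lenS l
  | BK.dbl _ :: l => 1 + lenS l

@[simp] theorem lenS_append (l l' : List BK) : lenS (l ++ l') = lenS l + lenS l' := by
  induction l with
  | nil => simp [lenS]
  | cons K l ih =>
    rcases K with x | x | d <;> simp only [List.cons_append, lenS, ih] <;> omega

theorem lenS_map_shift (t : ℕ) (l : List BK) : lenS (l.map (shiftB t)) = lenS l := by
  induction l with
  | nil => rfl
  | cons K l ih =>
    rcases K with x | x | d <;> simp only [List.map_cons, shiftB, lenS, ih]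

theorem lenL_map_shift_two (t : ℕ) (ht : 1 ≤ t) (l : List BK) (hl : ∀ K ∈ l, Nondeg K) :
    lenL (l.map (shiftB t)) = lenS l := by
  induction l with
  | nil => rfl
  | cons K l ih =>
    have h1 := ih (fun K' hK' => hl K' (List.mem_cons_of_mem _ hK'))
    have h2 : Nondeg K := hl K (List.mem_cons_self)
    rcases K with x | x | d
    · simp only [List.map_cons, lenL_cons, shiftB, lenK_single, lenS, h1]
    · have h3 : 0 < x := h2
      simp only [List.map_cons, lenL_cons, shiftB, lenS, h1]
      rw [lenK_pair_of_ge (by omega)]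
    · simp only [List.map_cons, lenL_cons, shiftB, lenK_dbl, lenS, h1]

theorem lenS_stepL (d : Bool) (l : List BK) :
    lenS (stepL d l) = lenS l + (if d then 6 else 8) := by
  cases d
  · simp only [stepL, if_false, Bool.false_eq_true, lenS, lenS_append, lenS_map_shift]
    omega
  · simp only [stepL, if_true, lenS, lenS_append, lenS_map_shift]
    omega

theorem lenS_W (B : List BK) (ds : List Bool) :
    lenS (W B ds) + 2 * nd ds = lenS B + 8 * ds.length := by
  induction ds with
  | nil => simp
  | cons d ds ih =>
    rw [W_cons, lenS_stepL]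
    cases d
    · simp only [if_false, Bool.false_eq_true, nd_cons_false, List.length_cons]
      omega
    · simp only [if_true, nd_cons_true, List.length_cons]
      omega

theorem lenL_stepL (d : Bool) (l : List BK) (hl : ∀ K ∈ l, Nondeg K) :
    lenL (stepL d l) = lenS l + (if d then 6 else 7) := by
  have h2 := lenL_map_shift_two 2 (by omega) l hl
  cases d
  · simp only [stepL, if_false, Bool.false_eq_true, lenL_cons, lenL_append, h2, lenL_nil]
    rw [lenK_pair_of_ge (by omega), lenK_pair_one]
    omega
  · simp only [stepL, if_true, lenL_cons, lenL_append, h2, lenL_nil, lenK_dbl, lenK_single]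
    rw [lenK_pair_of_ge (by omega)]
    omega

end Crest.Agent.Saxl.Family
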