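import Crest.Agent.Lib.Saxl.LevelFinal
import Crest.Agent.Lib.Saxl.FamW
import Crest.Agent.Lib.Saxl.FamilyParts

set_option autoImplicit false

open scoped BigOperators

namespace Crest.Agent.Saxl.Family

/-- The inequalities of a level, all linear in `u` and `ν` once `c = 2 u + 2 + π`. -/
structure LevelHyp (c n h β₁ e E u π M : ℕ) (ν : ℤ) : Prop where
  hc : 46 ≤ c
  hπ : π ≤ 1
  hu : c = 2 * u + 2 + π
  hn : 2 * (n : ℤ) = c * c - c + 2 * ν
  hν : 10 - (c : ℤ) ≤ ν
  hh : 2 * h ≤ c + 4
  hβ : 2 * β₁ ≤ c + 9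
  hβl : 1 ≤ β₁
  hy : 2 * β₁ ≤ c + 7 ∨ -2 ≤ ν
  hX : 2 * (E + 2 * h + 1) ≤ 3 * c + 17
  hE : E + 10 ≤ c
  hQ1 : (e : ℤ) ≤ (2 + π) * u + 2 * π + ν
  hQ2 : (e : ℤ) + 2 * h ≤ (4 + π) * u + 2 * π + ν
  hM : 2 * c ≤ M + 16

/-- The majorant of a level. -/
def majB (n h β₁ e E u M : ℕ) (k : ℕ) : ℕ :=
  min (k * β₁) (min (k * u + e) (min (E + (k - 1) * (u + 1)) (n - 2 * h - (M - k))))

section

variable {c n h β₁ e E u π M : ℕ} {ν : ℤ}

theorem LevelHyp.n_ge (H : LevelHyp c n h β₁ e E u π M ν) : (c : ℤ) * c - 3 * c + 20 ≤ 2 * n := by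
  have h1 := H.hn
  have h2 := H.hν
  linarith

/-- The numbers of a level. -/
def LevelHyp.nums (H : LevelHyp c n h β₁ e E u π M ν) :
    LevelNums c n h (majB n h β₁ e E u M) where
  β₁ := β₁
  P := c - 10
  Y₀ := u + 6
  v₁ := u + 4
  w₁ := u + 1
  Y₂ := c - 9
  b := u
  e := e
  E := E
  v₂ := max 2 ((E + 2 * h + 1 + 8 - c) / 2)
  w₂ := 13
  hB1 := fun k => min_le_left _ _
  hB2 := fun k => (min_le_right _ _).trans (min_le_left _ _)
  hB3 := fun k => by
    simp only [majB]
    exact (min_le_right _ _).trans ((min_le_right _ _).trans (min_le_left _ _))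
  hβ₁ := H.hβl
  hb := by have := H.hc; have := H.hu; have := H.hπ; omega
  hv₁ := by omega
  hw₁ := by omega
  hv₂ := le_max_left _ _
  hw₂ := by omega
  hY₀c := by have := H.hc; have := H.hu; have := H.hπ; omega
  hY₀ := by
    obtain ⟨hc, hπ, hu, hn, hν⟩ := (⟨H.hc, H.hπ, H.hu, H.hn, H.hν⟩ : _ ∧ _ ∧ _ ∧ _ ∧ _)
    have h1 : u + 6 - 1 = u + 5 := by omega
    rw [h1]
    have h2 := H.n_ge
    have hu2 : 22 ≤ u := by omega
    zify
    subst hu
    push_cast at h2
    have hπ2 : (π : ℤ) ≤ 1 := by exact_mod_cast hπ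
    have hπ0 : (0 : ℤ) ≤ π := by positivity
    have hu3 : (22 : ℤ) ≤ u := by exact_mod_cast hu2
    nlinarith
  hY₀h := by have := H.hh; have := H.hu; have := H.hπ; omega
  hY₂P := by have := H.hc; omega
  hY₂c := by omega
  hY₂E := by have := H.hE; omega
  hY₂h := by have := H.hh; have := H.hc; omega
  hP1 := by
    have hc := H.hc
    have h2 := H.n_ge
    have hb := H.hβ
    have hn := H.hn
    obtain ⟨k, rfl⟩ : ∃ k, c = k + 46 := ⟨c - 46, by omega⟩
    have e1 : k + 46 - 10 = k + 36 := by omega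
    rw [e1]
    push_cast at h2 hn
    rcases H.hy with hy | hy
    · have h3 := Nat.mul_le_mul_left (k + 36) hy
      zify at h3 ⊢
      nlinarith
    · have h3 := Nat.mul_le_mul_left (k + 36) hb
      zify at h3 ⊢
      nlinarith
  hP2 := by
    have hc := H.hc
    have h2 := H.n_ge
    have hb := H.hβ
    have hn := H.hn
    have hh := H.hh
    obtain ⟨k, rfl⟩ : ∃ k, c = k + 46 := ⟨c - 46, by omega⟩
    have e1 : k + 46 - 10 = k + 36 := by omega
    rw [e1]
    push_cast at h2 hn
    rcases H.hy with hy | hy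
    · have h3 := Nat.mul_le_mul_left (k + 34) hy
      zify at h3 hh ⊢
      nlinarith
    · have h3 := Nat.mul_le_mul_left (k + 34) hb
      zify at h3 hh ⊢
      nlinarith
  hP3 := by
    have hc := H.hc
    have h2 := H.n_ge
    have hh := H.hh
    obtain ⟨k, rfl⟩ : ∃ k, c = k + 46 := ⟨c - 46, by omega⟩
    have e1 : k + 46 - 10 = k + 36 := by omega
    rw [e1]
    push_cast at h2
    zify at hh ⊢
    nlinarith
  hP4 := by have := H.hh; have := H.hβ; have := H.hu; have := H.hπ; omega
  hP5 := by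
    have hc := H.hc
    have h2 := H.n_ge
    have hb := H.hβ
    have hh := H.hh
    have hu := H.hu
    have hπ := H.hπ
    obtain ⟨k, rfl⟩ : ∃ k, c = k + 46 := ⟨c - 46, by omega⟩
    have e1 : k + 46 - 10 - 3 = k + 33 := by omega
    rw [e1]
    push_cast at h2
    have h3 : 2 * (u + 4) ≤ k + 52 := by omega
    have h4 := Nat.mul_le_mul_left (k + 33) h3
    zify at h4 hh hb ⊢
    nlinarith
  hP6 := by
    have hc := H.hc
    have h2 := H.n_ge
    have hb := H.hβ
    have hh := H.hh
    obtain ⟨k, rfl⟩ : ∃ k, c = k + 46 := ⟨c - 46, by omega⟩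
    have e1 : k + 46 - 10 = k + 36 := by omega
    rw [e1]
    push_cast at h2
    zify at hh hb ⊢
    nlinarith
  hP7 := by have := H.hh; have := H.hu; have := H.hπ; omega
  hP8 := by
    have hc := H.hc
    have h2 := H.n_ge
    have hh := H.hh
    have hu := H.hu
    have hπ := H.hπ
    obtain ⟨k, rfl⟩ : ∃ k, c = k + 46 := ⟨c - 46, by omega⟩
    have e1 : k + 46 - 10 - 2 = k + 34 := by omega
    rw [e1]
    push_cast at h2
    have h3 : 2 * (u + 1) ≤ k + 46 := by omega
    have h4 := Nat.mul_le_mul_left (k + 34) h3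
    zify at h4 hh ⊢
    nlinarith
  hQ1 := by
    have hn := H.hn
    have h1 := H.hQ1
    have hu := H.hu
    have hπ := H.hπ
    have hc := H.hc
    obtain rfl | rfl : π = 0 ∨ π = 1 := by omega
    · subst hu
      have e1 : 2 * u + 2 + 0 - 1 = 2 * u + 1 := by omega
      rw [e1]
      push_cast at hn h1
      zify
      nlinarith
    · subst hu
      have e1 : 2 * u + 2 + 1 - 1 = 2 * u + 2 := by omega
      rw [e1]
      push_cast at hn h1
      zify
      nlinarith
  hQ2 := by
    have hn := H.hn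
    have h1 := H.hQ2
    have hu := H.hu
    have hπ := H.hπ
    have hc := H.hc
    obtain rfl | rfl : π = 0 ∨ π = 1 := by omega
    · subst hu
      have e1 : 2 * u + 2 + 0 - 3 = 2 * u - 1 := by omega
      rw [e1]
      obtain ⟨v, rfl⟩ : ∃ v, u = v + 1 := ⟨u - 1, by omega⟩
      have e2 : 2 * (v + 1) - 1 = 2 * v + 1 := by omega
      rw [e2]
      push_cast at hn h1
      zify
      nlinarith
    · subst hu
      have e1 : 2 * u + 2 + 1 - 3 = 2 * u := by omega
      rw [e1]
      push_cast at hn h1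
      zify
      nlinarith
  hQ3 := by
    have hn := H.hn
    have h1 := H.hQ1
    have hu := H.hu
    have hπ := H.hπ
    have hc := H.hc
    have hh := H.hh
    obtain rfl | rfl : π = 0 ∨ π = 1 := by omega
    · subst hu
      have e1 : 2 * u + 2 + 0 - 1 = 2 * u + 1 := by omega
      rw [e1]
      have hu2 : 22 ≤ u := by omega
      push_cast at hn h1
      zify at hu2 hh ⊢
      nlinarith
    · subst hu
      have e1 : 2 * u + 2 + 1 - 1 = 2 * u + 2 := by omega
      rw [e1]
      have hu2 : 22 ≤ u := by omega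
      push_cast at hn h1
      zify at hu2 hh ⊢
      nlinarith
  hQ4 := by
    have h1 := le_max_right 2 ((E + 2 * h + 1 + 8 - c) / 2)
    have := H.hc
    omega
  hQ5 := by
    have hc := H.hc
    have h2 := H.n_ge
    have hX := H.hX
    generalize hV : max 2 ((E + 2 * h + 1 + 8 - c) / 2) = V
    have hV4 : 4 * V ≤ c + 33 := by
      rcases max_cases 2 ((E + 2 * h + 1 + 8 - c) / 2) with ⟨h1, _⟩ | ⟨h1, _⟩ <;> omega
    obtain ⟨k, rfl⟩ : ∃ k, c = k + 46 := ⟨c - 46, by omega⟩
    have e1 : k + 46 - 4 = k + 42 := by omega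
    rw [e1]
    have h3 := Nat.mul_le_mul_left (k + 42) hV4
    push_cast at h2
    zify at h3 hX ⊢
    nlinarith
  hQ6 := by
    have hc := H.hc
    have h2 := H.n_ge
    have hX := H.hX
    obtain ⟨k, rfl⟩ : ∃ k, c = k + 46 := ⟨c - 46, by omega⟩
    have e1 : k + 46 - 1 = k + 45 := by omega
    rw [e1]
    push_cast at h2
    zify at hX ⊢
    nlinarith
  hQ7 := by have := H.hh; have := H.hc; omega
  hQ8 := by
    have hc := H.hc
    have h2 := H.n_ge
    have hh := H.hh
    obtain ⟨k, rfl⟩ : ∃ k, c = k + 46 := ⟨c - 46, by omega⟩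
    have e1 : k + 46 - 3 = k + 43 := by omega
    rw [e1]
    push_cast at h2
    zify at hh ⊢
    nlinarith

end

theorem LevelHyp.large {c n h β₁ e E u π M : ℕ} {ν : ℤ} (hyp : LevelHyp c n h β₁ e E u π M ν) :
    2 * h ≤ n ∧ 13 * c + 2 * (c - 1) ≤ n := by
  have hq := hyp.n_ge
  have hc46 := hyp.hc
  have hhh := hyp.hh
  obtain ⟨k, rfl⟩ : ∃ k, c = k + 46 := ⟨c - 46, by omega⟩
  have e1 : k + 46 - 1 = k + 45 := by omega
  rw [e1]
  push_cast at hq
  constructor
  · zify at hhh ⊢
    nlinarith
  · zify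
    nlinarith

theorem majB_tail {n h β₁ e E u M : ℕ} (hM : M + 2 * h ≤ n) (k : ℕ) :
    majB n h β₁ e E u M k + 2 * h + (M - k) ≤ n := by
  have h1 : majB n h β₁ e E u M k ≤ n - 2 * h - (M - k) :=
    (min_le_right _ _).trans ((min_le_right _ _).trans (min_le_right _ _))
  omega

/-! ### From the hypotheses to a step -/

section Step

variable {l : List BK} {d : Bool}

theorem szL_eq_card (l : List BK) : szL l = (cellsL l).card := (card_cellsL l).symm

/-- The majorant bounds the sums of the parts off one block. -/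
theorem majB_bound {L : List BK} (hnd : ∀ K ∈ L, Nondeg K) (i₀ : Fin L.length) {H n β₁ e E u M : ℕ}
    (hH : L[i₀.1] = BK.dbl H) (hn : n = szL L) (hlen : M + 1 ≤ lenL L)
    (hex0 : exL β₁ L - exK β₁ (BK.dbl H) = 0)
    (hexu : exL u L - exK u (BK.dbl H) ≤ e)
    (hexu1 : (exL (u + 1) L - exK (u + 1) (BK.dbl H)) + (u + 1) ≤ E)
    (T : Finset (Σ i, Fin (psL L i).length)) (hT : ∀ p ∈ T, p.1 ≠ i₀) :
    ∑ p ∈ T, (psL L p.1)[p.2.1] ≤ majB n H β₁ e E u M T.card := by
  have h1 := sum_T_le_line_off β₁ i₀ T hT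
  have h2 := sum_T_le_line_off u i₀ T hT
  have h3 := sum_T_le_line_off (u + 1) i₀ T hT
  rw [hH] at h1 h2 h3
  have h4 := sum_T_add_le_off hnd i₀ (t := M) (by rw [hH]; simpa using hlen) T hT
  rw [hH, ← hn] at h4
  simp only [BK.size] at h4
  simp only [majB]
  refine le_min ?_ (le_min ?_ (le_min ?_ ?_))
  · omega
  · omega
  · rcases T.eq_empty_or_nonempty with rfl | hne
    · simp
    · have hk : 1 ≤ T.card := Finset.card_pos.mpr hne
      obtain ⟨j, hj⟩ := Nat.exists_eq_add_of_le hk
      rw [hj] at h3 ⊢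
      have e1 : 1 + j - 1 = j := by omega
      rw [e1]
      have e2 : (1 + j) * (u + 1) = j * (u + 1) + (u + 1) := by ring
      rw [e2] at h3
      omega
  · omega

/-- **A step from the hypotheses, with a placed double.** -/
theorem stepOK_of_hyp (hl : Good l) (d : Bool) (i₀ : Fin (stepL d l).length) {H β₁ e E u π M : ℕ}
    {ν : ℤ} (hH : (stepL d l)[i₀.1] = BK.dbl H) (hH1 : 1 ≤ H)
    (hyp : LevelHyp (cOf d l) (szL (stepL d l)) H β₁ e E u π M ν)
    (hlen : M + 1 ≤ lenL (stepL d l))
    (hex0 : exL β₁ (stepL d l) - exK β₁ (BK.dbl H) = 0)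
    (hexu : exL u (stepL d l) - exK u (BK.dbl H) ≤ e)
    (hexu1 : (exL (u + 1) (stepL d l) - exK (u + 1) (BK.dbl H)) + (u + 1) ≤ E) : StepOK d l := by
  intro m hU hm
  have hnd := (hl.stepL d).nd
  have hc := card_stepL hl d
  rw [hm] at hc
  have hsz : szL (stepL d l) = cOf d l + (cOf d l - 1) + (cOf d l - 2) + (cOf d l - 3) + m := by
    rw [szL_eq_card, hc]
  rw [hc]
  have hN := hyp.nums
  have hMM := hyp.hM
  have hc46 := hyp.hc
  obtain ⟨hl1, hl2⟩ := hyp.large
  rw [hsz] at hN hl1 hl2
  have h4 := sum_T_add_le_off hnd i₀ (t := M) (by rw [hH]; simpa using hlen) ∅ (by simp)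
  rw [hH, hsz] at h4
  simp only [BK.size, Finset.sum_empty, Finset.card_empty, Nat.sub_zero, zero_add] at h4
  apply universal_stepL_of_nums hl d hU hm (psL _) (psL_sum _) (psL_ok hnd) i₀ hH hH1
    (majB _ H β₁ e E u M) _ hN (M := M) (t₀ := 12)
  · exact majB_tail (by omega)
  · omega
  · omega
  · omega
  · omega
  · exact fun T hT => majB_bound hnd i₀ hH hsz.symm hlen hex0 hexu hexu1 T hT

/-- The majorant bounds the sums of all the parts. -/
theorem majB_bound_none {L : List BK} (hnd : ∀ K ∈ L, Nondeg K) {n β₁ e E u M : ℕ}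
    (hn : n = szL L) (hlen : M ≤ lenL L)
    (hex0 : exL β₁ L = 0) (hexu : exL u L ≤ e) (hexu1 : exL (u + 1) L + (u + 1) ≤ E)
    (T : Finset (Σ i, Fin (psL L i).length)) :
    ∑ p ∈ T, (psL L p.1)[p.2.1] ≤ majB n 0 β₁ e E u M T.card := by
  have h1 := sum_T_le_line_all β₁ T
  have h2 := sum_T_le_line_all u T
  have h3 := sum_T_le_line_all (u + 1) T
  have h4 := sum_T_add_le_all hnd hlen T
  rw [← hn] at h4
  simp only [majB]
  refine le_min ?_ (le_min ?_ (le_min ?_ ?_))
  · omega
  · omega
  · rcases T.eq_empty_or_nonempty with rfl | hne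
    · simp
    · have hk : 1 ≤ T.card := Finset.card_pos.mpr hne
      obtain ⟨j, hj⟩ := Nat.exists_eq_add_of_le hk
      rw [hj] at h3 ⊢
      have e1 : 1 + j - 1 = j := by omega
      rw [e1]
      have e2 : (1 + j) * (u + 1) = j * (u + 1) + (u + 1) := by ring
      rw [e2] at h3
      omega
  · omega

/-- **A step from the hypotheses, no placed double.** -/
theorem stepOK_of_hyp_none (hl : Good l) (d : Bool) {β₁ e E u π M : ℕ} {ν : ℤ}
    (hyp : LevelHyp (cOf d l) (szL (stepL d l)) 0 β₁ e E u π M ν)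
    (hlen : M ≤ lenL (stepL d l))
    (hex0 : exL β₁ (stepL d l) = 0) (hexu : exL u (stepL d l) ≤ e)
    (hexu1 : exL (u + 1) (stepL d l) + (u + 1) ≤ E) : StepOK d l := by
  intro m hU hm
  have hnd := (hl.stepL d).nd
  have hc := card_stepL hl d
  rw [hm] at hc
  have hsz : szL (stepL d l) = cOf d l + (cOf d l - 1) + (cOf d l - 2) + (cOf d l - 3) + m := by
    rw [szL_eq_card, hc]
  rw [hc]
  have hN := hyp.nums
  have hMM := hyp.hM
  have hc46 := hyp.hc
  obtain ⟨hl1, hl2⟩ := hyp.large
  rw [hsz] at hN hl2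
  have h4 := sum_T_add_le_all hnd hlen ∅
  rw [hsz] at h4
  simp only [Finset.sum_empty, Finset.card_empty, Nat.sub_zero, zero_add] at h4
  apply universal_stepL_of_nums_none hl d hU hm (psL _) (psL_sum _) (psL_ok hnd)
    (majB _ 0 β₁ e E u M) _ hN (M := M) (t₀ := 13)
  · intro k
    have := majB_tail (n := cOf d l + (cOf d l - 1) + (cOf d l - 2) + (cOf d l - 3) + m) (h := 0)
      (β₁ := β₁) (e := e) (E := E) (u := u) (M := M) (by omega) k
    omega
  · omega
  · omega
  · omega
  · exact fun T => majB_bound_none hnd hsz.symm hlen hex0 hexu hexu1 T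

end Step

/-! ### The excess along a chain -/

section Chain

theorem shiftB_shiftB (s t : ℕ) (K : BK) : shiftB t (shiftB s K) = shiftB (t + s) K := by
  rcases K with x | x | d <;> simp only [shiftB] <;> congr 1 <;> omega

theorem map_shiftB_zero (l : List BK) : l.map (shiftB 0) = l := by
  induction l with
  | nil => rfl
  | cons K l ih =>
    rw [List.map_cons, ih]
    rcases K with x | x | d <;> rfl

/-- The excess of the low blocks of the defects. -/
def defE (β : ℕ) : ℕ → ℕ → (ℕ → Bool) → ℕ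
  | _, 0, _ => 0
  | t, P + 1, J => (if J 1 then (2 * (2 + t) - β) + (1 + t - β) else 0) + defE β (t + 2) P fun j => J (j + 1)

theorem defE_congr (β t P : ℕ) {J J' : ℕ → Bool} (h : ∀ j, 1 ≤ j → J j = J' j) :
    defE β t P J = defE β t P J' := by
  induction P generalizing t J J' with
  | zero => rfl
  | succ P ih =>
    simp only [defE]
    rw [h 1 le_rfl, ih (t + 2) fun j _ => h (j + 1) (by omega)]

/-- **The excess of a chain.** -/
theorem exL_famL_le (base : List BK) (β : ℕ) (P : ℕ) (J : ℕ → Bool) (t : ℕ)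
    (hs : 2 * twidth (famL base P J) + 2 * t - 1 - 4 * β ≤ 8) (hP : t + 2 * P + 1 ≤ 2 * β) :
    exL β ((famL base P J).map (shiftB t)) ≤
      (2 * twidth (famL base P J) + 2 * t - 1 - 4 * β) +
      (2 * twidth (famL base P J) + 2 * t - 1 - 4 * β - 4) +
      defE β t P J + exL β (base.map (shiftB (t + 2 * P))) := by
  induction P generalizing J t with
  | zero =>
    simp only [famL, defE, Nat.mul_zero, add_zero]
    omega
  | succ P ih =>
    simp only [famL, defE]
    set l := famL base P fun j => J (j + 1) with hl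
    have hw := twidth_stepL (J 1) l
    have hm : (l.map (shiftB 2)).map (shiftB t) = l.map (shiftB (t + 2)) := by
      rw [List.map_map]
      apply List.map_congr_left
      intro K _
      exact shiftB_shiftB 2 t K
    have hc := cOf_eq (J 1) l
    have hfl : famL base (P + 1) J = stepL (J 1) l := rfl
    rw [hfl, hw] at hs
    rw [hw]
    have ih1 := ih (fun j => J (j + 1)) (t + 2) (by
      rw [← hl]
      split_ifs at hc <;> omega) (by omega)
    rw [← hl] at ih1
    have e1 : t + 2 + 2 * P = t + 2 * (P + 1) := by omega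
    rw [e1] at ih1
    by_cases h1 : J 1 = true
    · rw [h1] at hc hs ⊢
      simp only [stepL, if_true, List.map_cons, List.map_append, hm,
        List.map_nil, exL_cons, exL_append, exL_nil, shiftB, exK_pair, exK_dbl, exK_single] at hc ih1 ⊢
      omega
    · have h2 : J 1 = false := by simpa using h1
      rw [h2] at hc hs ⊢
      simp only [stepL, if_false, Bool.false_eq_true, List.map_cons, List.map_append, hm,
        List.map_nil, exL_cons, exL_append, exL_nil, shiftB, exK_pair] at hc ih1 ⊢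
      omega

/-- The excess of the low blocks of a defect at position `j`. -/
def gE (β t j : ℕ) : ℕ := (4 * j + 2 * t - β) + (2 * j + t - 1 - β)

theorem defE_patt (β : ℕ) (P a b t : ℕ) (hab : a < b ∨ (a = 0 ∧ b = 0)) (hb : b ≤ P) :
    defE β t P (patt a b) = (if a = 0 then 0 else gE β t a) + (if b = 0 then 0 else gE β t b) := by
  induction P generalizing a b t with
  | zero =>
    have hb0 : b = 0 := by omega
    have ha0 : a = 0 := by omega
    subst hb0 ha0
    rfl
  | succ P ih =>
    have hs : ∀ j, 1 ≤ j → patt a b (j + 1) = patt (a - 1) (b - 1) j := fun j hj =>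
      patt_shift a b 1 j hj
    have h1 := ih (a - 1) (b - 1) (t + 2) (by omega) (by omega)
    have h3 := defE_congr β (t + 2) P hs
    have hJ : patt a b 1 = decide (a = 1 ∨ b = 1) := by
      simp only [patt]
      by_cases h5 : a = 1 <;> by_cases h6 : b = 1 <;> simp [h5, h6, eq_comm]
    have hg : ∀ j, 2 ≤ j → gE β (t + 2) (j - 1) = gE β t j := by
      intro j hj
      simp only [gE]
      congr 1 <;> congr 1 <;> omega
    have hg1 : gE β t 1 = (2 * (2 + t) - β) + (1 + t - β) := by
      simp only [gE]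
      congr 1 <;> congr 1 <;> omega
    simp only [defE]
    rw [h3, h1, hJ]
    clear h1 h3 hJ hs ih
    by_cases h5 : a = 1
    · subst h5
      have h6 : b ≠ 1 := by omega
      have h7 : b ≠ 0 := by omega
      have h8 : b - 1 ≠ 0 := by omega
      simp only [true_or, decide_true, if_true, Nat.sub_self, h6, h7, h8, if_false, hg1,
        hg b (by omega), one_ne_zero]
      omega
    · by_cases h6 : b = 1
      · subst h6
        have h7 : a = 0 := by omega
        subst h7
        simp [hg1]
      · by_cases h7 : a = 0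
        · subst h7
          by_cases h8 : b = 0
          · subst h8
            simp
          · have h9 : b - 1 ≠ 0 := by omega
            simp only [h6, h8, h9, if_false, zero_ne_one, or_self, decide_false, Bool.false_eq_true,
              Nat.zero_sub, if_true, hg b (by omega)]
            omega
        · have h8 : b ≠ 0 := by omega
          have h9 : b - 1 ≠ 0 := by omega
          have h10 : a - 1 ≠ 0 := by omega
          simp only [h5, h6, h7, h8, h9, h10, if_false, or_self, decide_false, Bool.false_eq_true,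
            hg a (by omega), hg b (by omega)]
          omega

/-- The excess of a level at `t = 0`. -/
theorem exL_level_le (base : List BK) (β P a b : ℕ) (hab : a < b ∨ (a = 0 ∧ b = 0)) (hb : b ≤ P)
    (hs : 2 * twidth (famL base P (patt a b)) - 1 - 4 * β ≤ 8) (hP : 2 * P + 1 ≤ 2 * β) :
    exL β (famL base P (patt a b)) ≤
      (2 * twidth (famL base P (patt a b)) - 1 - 4 * β) +
      (2 * twidth (famL base P (patt a b)) - 1 - 4 * β - 4) +
      ((if a = 0 then 0 else gE β 0 a) + (if b = 0 then 0 else gE β 0 b)) +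
      exL β (base.map (shiftB (2 * P))) := by
  have h := exL_famL_le base β P (patt a b) 0 (by simpa using hs) (by simpa using hP)
  rw [map_shiftB_zero, defE_patt β P a b 0 hab hb] at h
  simpa using h

/-- A block of the base stays in the chain. -/
theorem mem_famL {base : List BK} {K : BK} (hK : K ∈ base) (P : ℕ) (J : ℕ → Bool) :
    shiftB (2 * P) K ∈ famL base P J := by
  induction P generalizing J with
  | zero =>
    simp only [Nat.mul_zero, famL]
    rw [show shiftB 0 K = K by rcases K with x | x | d <;> rfl]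
    exact hK
  | succ P ih =>
    simp only [famL]
    have h1 := ih fun j => J (j + 1)
    have h2 : shiftB (2 * (P + 1)) K = shiftB 2 (shiftB (2 * P) K) := by
      rw [shiftB_shiftB]
      congr 1
      omega
    rw [h2]
    have h3 := List.mem_map_of_mem (f := shiftB 2) h1
    cases J 1
    · simp only [stepL, if_false, Bool.false_eq_true]
      exact List.mem_cons_of_mem _ (List.mem_append_left _ h3)
    · simp only [stepL, if_true]
      exact List.mem_cons_of_mem _ (List.mem_append_left _ h3)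

/-- The number of parts along a chain. -/
theorem lenS_famL (base : List BK) (P : ℕ) (J : ℕ → Bool) :
    lenS (famL base P J) + 2 * defs P J = lenS base + 8 * P := by
  induction P generalizing J with
  | zero => simp [famL, defs]
  | succ P ih =>
    simp only [famL, defs]
    rw [lenS_stepL]
    have h1 := ih fun j => J (j + 1)
    cases J 1
    · simp only [if_false, Bool.false_eq_true]
      omega
    · simp only [if_true]
      omega

end Chain

/-! ### The levels of a chain -/

section Core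

theorem stepL_eq_famL (base : List BK) (P a b : ℕ) :
    stepL (patt a b 1) (famL base P (patt (a - 1) (b - 1))) = famL base (P + 1) (patt a b) := by
  simp only [famL]
  congr 1
  apply famL_congr
  intro j hj
  exact (patt_shift a b 1 j hj).symm

theorem cOf_eq_level (base : List BK) (P a b : ℕ) (hab : a < b ∨ (a = 0 ∧ b = 0)) (hb : b ≤ P + 1) :
    cOf (patt a b 1) (famL base P (patt (a - 1) (b - 1))) =
      twidth base + 4 * (P + 1) + ((if a = 0 then 0 else 1) + (if b = 0 then 0 else 1)) := by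
  rw [← twidth_stepL, stepL_eq_famL, twidth_famL, (defs_wSum_patt (P + 1) a b hab hb).1]

theorem twidth_level (base : List BK) (P a b : ℕ) (hab : a < b ∨ (a = 0 ∧ b = 0)) (hb : b ≤ P + 1) :
    twidth (famL base (P + 1) (patt a b)) =
      twidth base + 4 * (P + 1) + ((if a = 0 then 0 else 1) + (if b = 0 then 0 else 1)) := by
  rw [twidth_famL, (defs_wSum_patt (P + 1) a b hab hb).1]

theorem szL_level {base : List BK} (hG : Good base) (P a b : ℕ) (hab : a < b ∨ (a = 0 ∧ b = 0))
    (hb : b ≤ P + 1) :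
    2 * szL (stepL (patt a b 1) (famL base P (patt (a - 1) (b - 1)))) +
        twidth base * (twidth base + 1) =
      2 * szL base + (twidth base + 4 * (P + 1)) * (twidth base + 4 * (P + 1) + 1) + 8 * (a + b) := by
  rw [stepL_eq_famL, szL_eq_card, szL_eq_card, card_famL hG, (defs_wSum_patt (P + 1) a b hab hb).2]

theorem lenL_level {base : List BK} (hG : Good base) (P a b : ℕ) (hab : a < b ∨ (a = 0 ∧ b = 0))
    (hb : b ≤ P + 1) :
    lenS base + 8 * (P + 1) ≤ lenL (stepL (patt a b 1) (famL base P (patt (a - 1) (b - 1)))) + 1 +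
      2 * ((if a = 0 then 0 else 1) + (if b = 0 then 0 else 1)) := by
  have hg := good_famL hG P (patt (a - 1) (b - 1))
  have h1 := lenL_stepL (patt a b 1) _ hg.nd
  have h2 := lenS_stepL (patt a b 1) (famL base P (patt (a - 1) (b - 1)))
  have h3 := lenS_famL base (P + 1) (patt a b)
  rw [← stepL_eq_famL, (defs_wSum_patt (P + 1) a b hab hb).1] at h3
  rw [h1]
  have h4 : (if patt a b 1 = true then 6 else 8) ≤ (if patt a b 1 = true then 6 else 7) + 1 := by
    split_ifs <;> omega
  omega

/-- **A level with a placed double, from the hypotheses.** -/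
theorem step_core_dbl {base : List BK} (hG : Good base) {d₀ : ℕ} (hd₀ : BK.dbl d₀ ∈ base) (hd₀1 : 1 ≤ d₀)
    {P a b : ℕ} (hab : a < b ∨ (a = 0 ∧ b = 0)) (hb : b ≤ P + 1) {c β₁ u π : ℕ} {ν : ℤ}
    (hcw : c = twidth base + 4 * (P + 1) + ((if a = 0 then 0 else 1) + (if b = 0 then 0 else 1)))
    (hπ : π ≤ 1) (hu : c = 2 * u + 2 + π) (hP1 : 2 * (P + 1) + 2 ≤ 2 * u) (hβ₁c : c ≤ 2 * β₁)
    (h0 : ((if a = 0 then 0 else gE β₁ 0 a) + (if b = 0 then 0 else gE β₁ 0 b) +
        exL β₁ (base.map (shiftB (2 * (P + 1))))) - (2 * (d₀ + 2 * (P + 1)) - β₁) = 0)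
    (hyp : ∀ n : ℕ, 2 * n + twidth base * (twidth base + 1) =
        2 * szL base + (twidth base + 4 * (P + 1)) * (twidth base + 4 * (P + 1) + 1) + 8 * (a + b) →
      LevelHyp c n (d₀ + 2 * (P + 1)) β₁
        (((3 + 2 * π) + (3 + 2 * π - 4) + ((if a = 0 then 0 else gE u 0 a) + (if b = 0 then 0 else gE u 0 b)) +
          exL u (base.map (shiftB (2 * (P + 1))))) - (2 * (d₀ + 2 * (P + 1)) - u))
        ((((2 * π - 1) + (2 * π - 1 - 4) +
          ((if a = 0 then 0 else gE (u + 1) 0 a) + (if b = 0 then 0 else gE (u + 1) 0 b)) +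
          exL (u + 1) (base.map (shiftB (2 * (P + 1))))) - (2 * (d₀ + 2 * (P + 1)) - (u + 1))) + (u + 1))
        u π (lenS base + 8 * (P + 1) - 2 * ((if a = 0 then 0 else 1) + (if b = 0 then 0 else 1)) - 2) ν) :
    StepOK (patt a b 1) (famL base P (patt (a - 1) (b - 1))) := by
  have hl := good_famL hG P (patt (a - 1) (b - 1))
  have hL := stepL_eq_famL base P a b
  have hw := twidth_level base P a b hab hb
  have hcO := cOf_eq_level base P a b hab hb
  have hmem : BK.dbl (d₀ + 2 * (P + 1)) ∈ stepL (patt a b 1) (famL base P (patt (a - 1) (b - 1))) := by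
    rw [hL]
    exact mem_famL hd₀ (P + 1) (patt a b)
  obtain ⟨i, hi, hiE⟩ := List.mem_iff_getElem.mp hmem
  have hcc := hcO.trans hcw.symm
  have hg1 : (if a = 0 then 0 else 1) ≤ 1 := by split_ifs <;> omega
  have hg2 : (if b = 0 then 0 else 1) ≤ 1 := by split_ifs <;> omega
  have hyp' := hyp _ (szL_level hG P a b hab hb)
  have hex := fun β hs hP => exL_level_le base β (P + 1) a b hab hb hs hP
  rw [← hL, twidth_stepL, hcc] at hex
  have h1 := hex β₁ (by omega) (by have := hyp'.hβ; omega)
  have h2 := hex u (by omega) (by omega)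
  have h3 := hex (u + 1) (by omega) (by omega)
  have e0 : 2 * c - 1 - 4 * u = 3 + 2 * π := by omega
  have e1 : 2 * c - 1 - 4 * (u + 1) = 2 * π - 1 := by omega
  have e2 : 2 * c - 1 - 4 * β₁ = 0 := by omega
  rw [e0] at h2
  rw [e1] at h3
  rw [e2] at h1
  refine stepOK_of_hyp hl _ ⟨i, hi⟩ hiE (by omega) (by rwa [hcc]) (by
    have := lenL_level hG P a b hab hb
    omega) ?_ ?_ ?_
  · simp only [exK_dbl]
    omega
  · simp only [exK_dbl]
    omega
  · simp only [exK_dbl]
    omega

/-- **A level with no placed double, from the hypotheses.** -/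
theorem step_core_none {base : List BK} (hG : Good base)
    {P a b : ℕ} (hab : a < b ∨ (a = 0 ∧ b = 0)) (hb : b ≤ P + 1) {c β₁ u π : ℕ} {ν : ℤ}
    (hcw : c = twidth base + 4 * (P + 1) + ((if a = 0 then 0 else 1) + (if b = 0 then 0 else 1)))
    (hπ : π ≤ 1) (hu : c = 2 * u + 2 + π) (hP1 : 2 * (P + 1) + 2 ≤ 2 * u) (hβ₁c : c ≤ 2 * β₁)
    (h0 : (if a = 0 then 0 else gE β₁ 0 a) + (if b = 0 then 0 else gE β₁ 0 b) +
        exL β₁ (base.map (shiftB (2 * (P + 1)))) = 0)
    (hyp : ∀ n : ℕ, 2 * n + twidth base * (twidth base + 1) =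
        2 * szL base + (twidth base + 4 * (P + 1)) * (twidth base + 4 * (P + 1) + 1) + 8 * (a + b) →
      LevelHyp c n 0 β₁
        ((3 + 2 * π) + (3 + 2 * π - 4) + ((if a = 0 then 0 else gE u 0 a) + (if b = 0 then 0 else gE u 0 b)) +
          exL u (base.map (shiftB (2 * (P + 1)))))
        (((2 * π - 1) + (2 * π - 1 - 4) +
          ((if a = 0 then 0 else gE (u + 1) 0 a) + (if b = 0 then 0 else gE (u + 1) 0 b)) +
          exL (u + 1) (base.map (shiftB (2 * (P + 1))))) + (u + 1))
        u π (lenS base + 8 * (P + 1) - 2 * ((if a = 0 then 0 else 1) + (if b = 0 then 0 else 1)) - 1) ν) :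
    StepOK (patt a b 1) (famL base P (patt (a - 1) (b - 1))) := by
  have hl := good_famL hG P (patt (a - 1) (b - 1))
  have hL := stepL_eq_famL base P a b
  have hcO := cOf_eq_level base P a b hab hb
  have hcc := hcO.trans hcw.symm
  have hg1 : (if a = 0 then 0 else 1) ≤ 1 := by split_ifs <;> omega
  have hg2 : (if b = 0 then 0 else 1) ≤ 1 := by split_ifs <;> omega
  have hyp' := hyp _ (szL_level hG P a b hab hb)
  have hex := fun β hs hP => exL_level_le base β (P + 1) a b hab hb hs hP
  rw [← hL, twidth_stepL, hcc] at hex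
  have h1 := hex β₁ (by omega) (by have := hyp'.hβ; omega)
  have h2 := hex u (by omega) (by omega)
  have h3 := hex (u + 1) (by omega) (by omega)
  have e0 : 2 * c - 1 - 4 * u = 3 + 2 * π := by omega
  have e1 : 2 * c - 1 - 4 * (u + 1) = 2 * π - 1 := by omega
  have e2 : 2 * c - 1 - 4 * β₁ = 0 := by omega
  rw [e0] at h2
  rw [e1] at h3
  rw [e2] at h1
  refine stepOK_of_hyp_none hl _ (by rwa [hcc]) (by
    have := lenL_level hG P a b hab hb
    omega) ?_ ?_ ?_
  · omega
  · omega
  · omega

end Core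

end Crest.Agent.Saxl.Family
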