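import Crest.Agent.Lib.Saxl.FamWList
import Crest.Agent.Lib.Saxl.FamilyLevels
import Crest.Agent.Lib.Saxl.Bases.All
import Crest.Agent.Lib.Saxl.KronSmall

/-!
# The assembly of S0298 (row 195)

What is left are the listed small levels of the chains, and the small `n` from `30` on.
-/

set_option autoImplicit false

open Equiv

namespace Crest.Agent.Saxl.Family

/-- The levels of the chains from what is proved for large levels, and the list of small levels. -/
theorem hstep_of_small (hS : ∀ e ∈ smallLevels, LevelStep e) :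
    ∀ i j P a b, OnChain i j P a b →
      StepOK (patt a b 1) (famL (baseL i j) P (patt (a - 1) (b - 1))) := by
  refine hstep_of_cases ?_ hS
  intro i j P a b h hc
  refine stepOK_large h ?_
  obtain ⟨hab, hb⟩ := h.pat
  rw [cOf_eq_level _ P a b hab hb]
  simp only [lvlC] at hc
  omega

/-- The small universal shapes. -/
theorem hsmall_of (hT : ∀ n, 30 ≤ n → ExcN n →
      ∃ μ : YoungDiagram, μ.cells.card = n ∧ Saxl.Universal μ.cells n) :
    ∀ n, 0 < n → n ≠ 2 → n ≠ 4 → n ≠ 9 → ExcN n →
      ∃ μ : YoungDiagram, μ.cells.card = n ∧ Saxl.Universal μ.cells n := by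
  intro n h0 h2 h4 h9 hE
  by_cases h30 : 30 ≤ n
  · exact hT n h30 hE
  · obtain ⟨D, hD, hU⟩ := Kron.small_uni n h0 (by omega) h2 h4 h9
    refine ⟨D, hD, ?_⟩
    intro S _ _ hcard V _ _ _ ρ hρ
    exact hU S (hcard.trans hD.symm) V ρ hρ

/-- **S0298 from the two remaining inputs.** -/
theorem s0298_of_rest (hS : ∀ e ∈ smallLevels, LevelStep e)
    (hT : ∀ n, 30 ≤ n → ExcN n →
      ∃ μ : YoungDiagram, μ.cells.card = n ∧ Saxl.Universal μ.cells n)
    (n : ℕ) (hn : 0 < n) (h2 : n ≠ 2) (h4 : n ≠ 4) (h9 : n ≠ 9) :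
    ∃ (V : Type) (_ : AddCommGroup V) (_ : Module ℂ V) (_ : FiniteDimensional ℂ V)
      (ρ : Representation ℂ (Perm (Fin n)) V), ρ.IsIrreducible ∧
      ∀ (W : Type) [AddCommGroup W] [Module ℂ W] [FiniteDimensional ℂ W]
        (σ : Representation ℂ (Perm (Fin n)) W), σ.IsIrreducible →
        Nontrivial (Representation.IntertwiningMap σ (Representation.tprod ρ ρ)) :=
  s0298_of_data (hsmall_of hT) Kron.hbase (hstep_of_small hS) n hn h2 h4 h9

end Crest.Agent.Saxl.Family
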