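import Crest.Agent.Lib.Saxl.Specht

/-!
# Four rows: every diagram with at most four rows occurs in `(x+1,x) ⊗ (x+1,x)`

Let `T` be a tableau of a diagram `a` with at most four rows and an odd number of cells.  We produce
two words `l₁, l₂` through the slots (each pairs up the slots, one singleton left) such that the
function `F w₁ w₂ = pp l₁ w₁ * pp l₂ w₂`, a product of two polytabloids of the two-row shape
`(x+1,x)`, is not killed by the Young symmetrizer of `T`.

The proof is a polynomial trick with explicit integer `2 × 2` matrices instead of a semigroup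
argument and a case analysis:  to a function `G` on pairs of words in `{0,1}` we attach
`Φ G = ∑ G (w₁, w₂) ∏_s (A (r s)) (w₁ s) (w₂ s)` with `A ρ = g u_ρ h`, where `u = (1, I, J, K)` are
four matrices (the quaternion units, up to the split form) and `r` is the row colouring of `T`.
`Φ` does not see row permutations, and on `F` it gives the `00`-entry of an alternating word in the
matrices `A`, which is easy to antisymmetrize, column by column.
-/

set_option autoImplicit false

open scoped BigOperators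
open Equiv Matrix

namespace Crest.Agent.Saxl.FourRows

/-! ## The matrices -/

/-- Integer `2 × 2` matrices. -/
abbrev M2 := Matrix (Fin 2) (Fin 2) ℤ

/-- The symplectic form. -/
def EE : M2 := !![0, 1; -1, 0]

/-- The twist `B ↦ E Bᵀ E` (it is minus the adjugate). -/
def tw (B : M2) : M2 := EE * B.transpose * EE

/-- Alternating word: `B₁ · tw B₂ · B₃ · tw B₄ ⋯`, if the flag is `false`. -/
def altW : Bool → List M2 → M2
  | _, [] => 1
  | false, B :: l => B * altW true l
  | true, B :: l => tw B * altW false l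

theorem altW_append (l₁ l₂ : List M2) (π : Bool) :
    altW π (l₁ ++ l₂) = altW π l₁ * altW (xor π (Nat.bodd l₁.length)) l₂ := by
  induction l₁ generalizing π with
  | nil => simp [altW]
  | cons B l ih =>
    cases π <;> simp [altW, ih, Matrix.mul_assoc, Nat.bodd_succ]

def gg : M2 := !![1, 2; 0, 1]
def hh : M2 := !![1, 0; 3, 1]

/-- The four units. -/
def uu : Fin 4 → M2 := ![1, !![0, 1; -1, 0], !![0, 1; 1, 0], !![1, 0; 0, -1]]

/-- The matrix of the row `i`. -/
def AA (i : ℕ) : M2 := gg * uu (Fin.ofNat 4 i) * hh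

def Lm : Bool → M2
  | false => gg
  | true => tw hh

def Rm : Bool → M2
  | true => hh
  | false => tw gg

/-- The group of units `±1, ±I, ±J, ±K`. -/
def units8 : Finset M2 :=
  {1, -1, !![0, 1; -1, 0], !![0, -1; 1, 0], !![0, 1; 1, 0], !![0, -1; -1, 0], !![1, 0; 0, -1],
    !![-1, 0; 0, 1]}

theorem units8_mul : ∀ e ∈ units8, ∀ f ∈ units8, e * f ∈ units8 := by decide +kernel

theorem one_mem_units8 : (1 : M2) ∈ units8 := by decide +kernel

theorem corner_ne_zero : ∀ e ∈ units8, (gg * e * hh) 0 0 ≠ 0 := by decide +kernel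

theorem Rm_mul_Lm : ∀ π : Bool, Rm π * Lm π = -1 := by decide +kernel

/-- The antisymmetrization of a single column of height `k`. -/
def colU (k : ℕ) (π : Bool) : M2 :=
  ∑ τ : Perm (Fin k), ((Perm.sign τ : ℤˣ) : ℤ) • altW π ((List.finRange k).map fun i => AA (τ i))

theorem colU_spec : ∀ k : Fin 5, ∀ π : Bool, ∃ n ∈ ({1, 2, 6, 24, -1} : Finset ℤ), ∃ e ∈ units8,
    colU k π = n • (Lm π * e * Rm (xor π (Nat.bodd k))) := by
  decide +kernel

/-! ## Slots: a diagram, column by column -/

/-- The slots of a diagram with the given column heights. -/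
def Slots : List ℕ → Type
  | [] => Empty
  | k :: hs => Fin k ⊕ Slots hs

instance instFintypeSlots : ∀ hs, Fintype (Slots hs)
  | [] => inferInstanceAs (Fintype Empty)
  | k :: hs => by
    haveI := instFintypeSlots hs
    exact inferInstanceAs (Fintype (Fin k ⊕ Slots hs))

instance instDecEqSlots : ∀ hs, DecidableEq (Slots hs)
  | [] => inferInstanceAs (DecidableEq Empty)
  | k :: hs => by
    haveI := instDecEqSlots hs
    exact inferInstanceAs (DecidableEq (Fin k ⊕ Slots hs))

/-- A slot of the first column. -/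
def inlS {k : ℕ} {hs : List ℕ} (i : Fin k) : Slots (k :: hs) := Sum.inl i

/-- A slot of a later column. -/
def inrS {k : ℕ} {hs : List ℕ} (s : Slots hs) : Slots (k :: hs) := Sum.inr s

theorem inlS_injective {k : ℕ} {hs : List ℕ} :
    Function.Injective (inlS : Fin k → Slots (k :: hs)) := Sum.inl_injective

theorem inrS_injective {k : ℕ} {hs : List ℕ} :
    Function.Injective (inrS : Slots hs → Slots (k :: hs)) := Sum.inr_injective

theorem inlS_ne_inrS {k : ℕ} {hs : List ℕ} (i : Fin k) (s : Slots hs) :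
    (inlS i : Slots (k :: hs)) ≠ inrS s := by
  intro h
  cases h

/-- Case analysis on a slot. -/
theorem slots_cases {k : ℕ} {hs : List ℕ} (s : Slots (k :: hs)) :
    (∃ i, s = inlS i) ∨ ∃ s', s = inrS s' := by
  rcases s with i | s'
  · exact Or.inl ⟨i, rfl⟩
  · exact Or.inr ⟨s', rfl⟩

/-- Row of a slot. -/
def rowS : ∀ {hs : List ℕ}, Slots hs → ℕ
  | [], s => nomatch s
  | _ :: _, Sum.inl i => i
  | _ :: _, Sum.inr s => rowS s

/-- Column of a slot. -/
def colS : ∀ {hs : List ℕ}, Slots hs → ℕ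
  | [], s => nomatch s
  | _ :: _, Sum.inl _ => 0
  | _ :: _, Sum.inr s => colS s + 1

@[simp] theorem rowS_inl {k : ℕ} {hs : List ℕ} (i : Fin k) : rowS (inlS i : Slots (k :: hs)) = i :=
  rfl
@[simp] theorem rowS_inr {k : ℕ} {hs : List ℕ} (s : Slots hs) :
    rowS (inrS s : Slots (k :: hs)) = rowS s := rfl
@[simp] theorem colS_inl {k : ℕ} {hs : List ℕ} (i : Fin k) : colS (inlS i : Slots (k :: hs)) = 0 :=
  rfl
@[simp] theorem colS_inr {k : ℕ} {hs : List ℕ} (s : Slots hs) :
    colS (inrS s : Slots (k :: hs)) = colS s + 1 := rfl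

/-- The slots, column by column. -/
def pathS : ∀ hs : List ℕ, List (Slots hs)
  | [] => []
  | k :: hs => (List.finRange k).map inlS ++ (pathS hs).map inrS

theorem pathS_nodup : ∀ hs, (pathS hs).Nodup
  | [] => List.nodup_nil
  | k :: hs => by
    refine List.Nodup.append ?_ ?_ ?_
    · exact (List.nodup_finRange k).map inlS_injective
    · exact (pathS_nodup hs).map inrS_injective
    · intro a ha hb
      simp only [List.mem_map] at ha hb
      obtain ⟨i, -, rfl⟩ := ha
      obtain ⟨s, -, hs'⟩ := hb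
      exact inlS_ne_inrS _ _ hs'.symm

theorem mem_pathS : ∀ (hs : List ℕ) (s : Slots hs), s ∈ pathS hs
  | [], s => nomatch s
  | k :: hs, s => by
    simp only [pathS, List.mem_append, List.mem_map]
    rcases slots_cases s with ⟨i, rfl⟩ | ⟨s', rfl⟩
    · exact Or.inl ⟨i, List.mem_finRange i, rfl⟩
    · exact Or.inr ⟨s', mem_pathS hs s', rfl⟩

theorem length_pathS : ∀ hs, (pathS hs).length = hs.sum
  | [] => rfl
  | k :: hs => by
    simp [pathS, length_pathS hs]

theorem card_slots : ∀ hs, Fintype.card (Slots hs) = hs.sum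
  | [] => rfl
  | k :: hs => by
    have := card_slots hs
    change Fintype.card (Fin k ⊕ Slots hs) = _
    simp [this]

/-- Glueing permutations of the first and of the later columns. -/
def cg {k : ℕ} {hs : List ℕ} (a : Perm (Fin k)) (b : Perm (Slots hs)) : Perm (Slots (k :: hs)) :=
  Equiv.Perm.sumCongr a b

@[simp] theorem cg_inl {k : ℕ} {hs : List ℕ} (a : Perm (Fin k)) (b : Perm (Slots hs)) (i : Fin k) :
    cg a b (inlS i) = inlS (a i) := rfl

@[simp] theorem cg_inr {k : ℕ} {hs : List ℕ} (a : Perm (Fin k)) (b : Perm (Slots hs))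
    (s : Slots hs) : cg a b (inrS s) = inrS (b s) := rfl

theorem sign_cg {k : ℕ} {hs : List ℕ} (a : Perm (Fin k)) (b : Perm (Slots hs)) :
    ((Perm.sign (cg a b) : ℤˣ) : ℤ) = ((Perm.sign a : ℤˣ) : ℤ) * ((Perm.sign b : ℤˣ) : ℤ) := by
  have h : Perm.sign (cg a b) = Perm.sign a * Perm.sign b := Equiv.Perm.sign_sumCongr a b
  rw [h]
  simp

/-- A permutation of the slots preserving the columns splits. -/
theorem sum_stab_colS (k : ℕ) (hs : List ℕ) {M : Type*} [AddCommMonoid M]
    (f : Perm (Slots (k :: hs)) → M) :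
    ∑ τ ∈ stab (colS (hs := k :: hs)), f τ =
      ∑ τ₁ : Perm (Fin k), ∑ τ₂ ∈ stab (colS (hs := hs)), f (cg τ₁ τ₂) := by
  rw [← Finset.sum_product' (s := Finset.univ) (t := stab (colS (hs := hs)))
    (f := fun τ₁ τ₂ => f (cg τ₁ τ₂))]
  symm
  refine Finset.sum_bij (fun p _ => cg p.1 p.2) ?_ ?_ ?_ ?_
  · rintro ⟨τ₁, τ₂⟩ hp
    simp only [Finset.mem_product, Finset.mem_univ, true_and, mem_stab] at hp
    rw [mem_stab]
    intro s
    rcases slots_cases s with ⟨i, rfl⟩ | ⟨s', rfl⟩
    · simp
    · simpa using hp s'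
  · rintro ⟨a, b⟩ _ ⟨c, d⟩ _ h
    have h1 : (Equiv.Perm.sumCongrHom (Fin k) (Slots hs)) (a, b) =
        (Equiv.Perm.sumCongrHom (Fin k) (Slots hs)) (c, d) := h
    exact Equiv.Perm.sumCongrHom_injective h1
  · intro τ hτ
    rw [mem_stab] at hτ
    have hmaps : Set.MapsTo (τ : Fin k ⊕ Slots hs → Fin k ⊕ Slots hs)
        (Set.range Sum.inl) (Set.range Sum.inl) := by
      rintro _ ⟨i, rfl⟩
      have h0 := hτ (inlS i)
      rcases slots_cases (τ (inlS i)) with ⟨j, hj⟩ | ⟨s, hs'⟩
      · exact ⟨j, hj.symm⟩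
      · rw [hs'] at h0
        simp at h0
    obtain ⟨⟨a, b⟩, hab⟩ := Equiv.Perm.mem_sumCongrHom_range_of_perm_mapsTo_inl hmaps
    have hab' : cg a b = τ := hab
    refine ⟨(a, b), ?_, hab'⟩
    simp only [Finset.mem_product, Finset.mem_univ, true_and, mem_stab]
    intro s
    have h0 := hτ (inrS s)
    rw [← hab'] at h0
    simpa using h0
  · intro _ _
    rfl

/-- The antisymmetrization over all the columns. -/
def antiW (hs : List ℕ) (π : Bool) : M2 :=
  ∑ τ ∈ stab (colS (hs := hs)), ((Perm.sign τ : ℤˣ) : ℤ) •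
    altW π ((pathS hs).map fun s => AA (rowS (τ s)))

theorem antiW_cons (k : ℕ) (hs : List ℕ) (π : Bool) :
    antiW (k :: hs) π = colU k π * antiW hs (xor π (Nat.bodd k)) := by
  unfold antiW colU
  rw [sum_stab_colS, Finset.sum_mul]
  refine Finset.sum_congr rfl fun τ₁ _ => ?_
  rw [smul_mul_assoc, Finset.mul_sum, Finset.smul_sum]
  refine Finset.sum_congr rfl fun τ₂ _ => ?_
  rw [sign_cg, mul_smul, mul_smul_comm]
  congr 2
  simp only [pathS, List.map_append, List.map_map]
  rw [altW_append]
  simp only [List.length_map, List.length_finRange]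
  rfl

theorem antiW_spec : ∀ (hs : List ℕ), (∀ k ∈ hs, k ≤ 4) → ∀ π : Bool,
    ∃ n : ℤ, n ≠ 0 ∧ ∃ e ∈ units8, antiW hs π = n • (Lm π * e * Rm (xor π (Nat.bodd hs.sum))) := by
  intro hs
  induction hs with
  | nil =>
    intro _ π
    refine ⟨-1, by norm_num, 1, one_mem_units8, ?_⟩
    have h1 : antiW [] π = 1 := by
      simp only [antiW, pathS, List.map_nil]
      have : stab (colS (hs := [])) = {1} := by
        ext τ
        simp only [mem_stab, Finset.mem_singleton]
        constructor
        · intro _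
          exact Equiv.ext fun s => nomatch s
        · rintro rfl s
          rfl
      rw [this]
      simp [altW]
    rw [h1]
    revert π
    decide +kernel
  | cons k hs ih =>
    intro hk π
    have hk4 : k ≤ 4 := hk k (by simp)
    obtain ⟨n₂, hn₂, e₂, he₂, h₂⟩ := ih (fun j hj => hk j (by simp [hj])) (xor π (Nat.bodd k))
    obtain ⟨n₁, hn₁, e₁, he₁, h₁⟩ := colU_spec ⟨k, by omega⟩ π
    have hn₁' : n₁ ≠ 0 := by
      simp only [Finset.mem_insert, Finset.mem_singleton] at hn₁
      rcases hn₁ with rfl | rfl | rfl | rfl | rfl <;> norm_num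
    refine ⟨-(n₁ * n₂), neg_ne_zero.mpr (mul_ne_zero hn₁' hn₂), e₁ * e₂, units8_mul _ he₁ _ he₂, ?_⟩
    rw [antiW_cons, h₂]
    simp only at h₁
    rw [h₁]
    have hx : xor π (Nat.bodd (k :: hs).sum) = xor (xor π (Nat.bodd k)) (Nat.bodd hs.sum) := by
      simp [List.sum_cons, Nat.bodd_add]
    rw [hx]
    set π' := xor π (Nat.bodd k)
    set π'' := xor π' (Nat.bodd hs.sum)
    have hRL := Rm_mul_Lm π'
    calc n₁ • (Lm π * e₁ * Rm π') * (n₂ • (Lm π' * e₂ * Rm π''))
        = (n₁ * n₂) • (Lm π * e₁ * (Rm π' * Lm π') * e₂ * Rm π'') := by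
          rw [smul_mul_assoc, mul_smul_comm, smul_smul]
          simp only [Matrix.mul_assoc]
      _ = -(n₁ * n₂) • (Lm π * (e₁ * e₂) * Rm π'') := by
          rw [hRL]
          simp only [Matrix.mul_neg, Matrix.neg_mul, Matrix.mul_one, neg_smul, smul_neg,
            Matrix.mul_assoc]

/-- The corner entry of the antisymmetrization is nonzero, for an odd number of slots. -/
theorem antiW_corner (hs : List ℕ) (h4 : ∀ k ∈ hs, k ≤ 4) (hodd : Nat.bodd hs.sum = true) :
    antiW hs false 0 0 ≠ 0 := by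
  obtain ⟨n, hn, e, he, h⟩ := antiW_spec hs h4 false
  rw [h, hodd]
  simp only [Bool.xor_true, Bool.not_false, Lm, Rm, Matrix.smul_apply, smul_eq_mul]
  exact mul_ne_zero hn (corner_ne_zero e he)

/-! ## Expanding the alternating word -/

/-- A slot carries a pair of letters. -/
abbrev PP := Fin 2 × Fin 2

/-- The coefficient of a sequence of letter pairs in an entry of an alternating word. -/
def Cc : Bool → Fin 2 → List PP → Fin 2 → ℤ
  | _, a, [], b => if a = b then 1 else 0
  | false, a, x :: l, b => (if x.1 = a then 1 else 0) * Cc true x.2 l b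
  | true, c, x :: l, b => EE c x.2 * ∑ d, EE x.1 d * Cc false d l b

theorem sum_fin_succ {n : ℕ} {M : Type*} [AddCommMonoid M] (f : (Fin (n + 1) → PP) → M) :
    ∑ x, f x = ∑ p : PP, ∑ y : Fin n → PP, f (Fin.cons p y) := by
  rw [← Fintype.sum_prod_type' (f := fun (p : PP) (y : Fin n → PP) => f (Fin.cons p y))]
  exact (Fintype.sum_equiv (Fin.consEquiv fun _ => PP) _ _ fun _ => rfl).symm

theorem altW_ofFn : ∀ (n : ℕ) (bs : Fin n → M2) (π : Bool) (a b : Fin 2),
    altW π (List.ofFn bs) a b =
      ∑ x : Fin n → PP, Cc π a (List.ofFn x) b * ∏ i, bs i (x i).1 (x i).2 := by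
  intro n
  induction n with
  | zero =>
    intro bs π a b
    cases π <;> simp [altW, Cc, Matrix.one_apply]
  | succ n ih =>
    intro bs π a b
    rw [sum_fin_succ, List.ofFn_succ]
    simp only [Fin.cons_zero, Fin.cons_succ, Fin.prod_univ_succ, List.ofFn_succ]
    cases π with
    | false =>
      simp only [altW, Cc, Matrix.mul_apply, ih, Fintype.sum_prod_type]
      symm
      rw [Finset.sum_eq_single a]
      · refine Finset.sum_congr rfl fun d _ => ?_
        rw [Finset.mul_sum]
        refine Finset.sum_congr rfl fun y _ => ?_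
        simp only [if_true]
        ring1
      · intro p _ hp
        simp [hp]
      · simp
    | true =>
      simp only [altW, Cc, Matrix.mul_apply, ih, Fintype.sum_prod_type, tw, EE, Matrix.transpose_apply,
        Fin.sum_univ_two]
      simp only [Finset.mul_sum, ← Finset.sum_add_distrib]
      refine Finset.sum_congr rfl fun y _ => ?_
      ring_nf

theorem altW_path {S : Type*} [Fintype S] [DecidableEq S] (path : List S) (hnd : path.Nodup)
    (hall : ∀ s, s ∈ path) (B : S → M2) (π : Bool) (a b : Fin 2) :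
    altW π (path.map B) a b =
      ∑ x : S → PP, Cc π a (path.map x) b * ∏ s, B s (x s).1 (x s).2 := by
  let e : Fin path.length ≃ S := List.Nodup.getEquivOfForallMemList path hnd hall
  have he : ∀ i, e i = path.get i := fun _ => rfl
  have hmap : ∀ {β : Type} (f : S → β), path.map f = List.ofFn (f ∘ e) := by
    intro β f
    have h1 : List.ofFn (f ∘ e) = (List.ofFn e).map f := by
      rw [List.map_ofFn]
    have h2 : List.ofFn e = path := by
      have : (e : Fin path.length → S) = path.get := funext he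
      rw [this, List.ofFn_get]
    rw [h1, h2]
  rw [hmap B, altW_ofFn]
  refine (Fintype.sum_equiv (Equiv.arrowCongr e (Equiv.refl PP)) _ _ fun x => ?_)
  have hx : ∀ i, (Equiv.arrowCongr e (Equiv.refl PP) x) (e i) = x i := by
    intro i
    simp [Equiv.arrowCongr]
  rw [hmap (Equiv.arrowCongr e (Equiv.refl PP) x)]
  have h3 : (Equiv.arrowCongr e (Equiv.refl PP) x) ∘ e = x := funext hx
  rw [h3]
  congr 1
  rw [← Equiv.prod_comp e]
  refine Finset.prod_congr rfl fun i _ => ?_
  simp only [Function.comp, hx]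

/-! ## The alternating word, in terms of two pairings -/

/-- The value of the symplectic form on letters. -/
def eps (a b : ℕ) : ℤ := if a = 0 ∧ b = 1 then 1 else if a = 1 ∧ b = 0 then -1 else 0

theorem EE_eq_eps : ∀ i j : Fin 2, EE i j = eps i j := by decide +kernel

/-- A list of slots, read as a pairing with at most one singleton left at the end: this function
of words is the polytabloid of the two-row tableau whose columns are the pairs. -/
def pp {S : Type*} : List S → (S → ℕ) → ℤ
  | [], _ => 1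
  | [p], w => if w p = 0 then 1 else 0
  | p :: q :: l, w => eps (w p) (w q) * pp l w

/-- The first letter word of `x`. -/
def wF {S : Type*} (x : S → PP) : S → ℕ := fun s => (x s).1

/-- The second letter word of `x`. -/
def wS {S : Type*} (x : S → PP) : S → ℕ := fun s => (x s).2

theorem Cc_true_chain {S : Type*} (x : S → PP) : ∀ (l : List S) (s : S), Even l.length →
    Cc true (x s).2 (l.map x) 0 = pp (s :: l) (wS x) * pp l (wF x)
  | [], s, _ => by
    have h : ∀ i : Fin 2, (if i = 0 then (1 : ℤ) else 0) = if (i : ℕ) = 0 then 1 else 0 := by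
      decide
    simp [Cc, pp, wS, h]
  | [_], _, h => by simp at h
  | p :: q :: l, s, h => by
    have hl : Even l.length := by
      simpa [Nat.even_add_one] using h
    have ih := Cc_true_chain x l q hl
    simp only [List.map_cons, Cc]
    have hsum : ∑ d, EE (x p).1 d * ((if (x q).1 = d then 1 else 0) * Cc true (x q).2 (l.map x) 0) =
        EE (x p).1 (x q).1 * Cc true (x q).2 (l.map x) 0 := by
      rw [Finset.sum_eq_single (x q).1]
      · simp
      · intro d _ hd
        simp [Ne.symm hd]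
      · simp
    rw [hsum, ih]
    simp only [pp, EE_eq_eps, wS, wF]
    ring1

/-- Moving the singleton to the end of a pairing. -/
theorem pp_snoc {S : Type*} (w : S → ℕ) (s : S) : ∀ l : List S, Even l.length →
    (if w s = 0 then (1 : ℤ) else 0) * pp l w = pp (l ++ [s]) w
  | [], _ => by simp [pp]
  | [_], h => by simp at h
  | p :: q :: l, h => by
    have hl : Even l.length := by
      simpa [Nat.even_add_one] using h
    have ih := pp_snoc w s l hl
    simp only [List.cons_append, pp, ← ih]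
    ring1

/-- The chain coefficient is the product of two pairings. -/
theorem Cc_false_eq {S : Type*} (x : S → PP) (s : S) (l : List S) (hl : Even l.length) :
    Cc false 0 ((s :: l).map x) 0 = pp (l ++ [s]) (wF x) * pp (s :: l) (wS x) := by
  have h : ∀ i : Fin 2, (if i = 0 then (1 : ℤ) else 0) = if (i : ℕ) = 0 then 1 else 0 := by
    decide
  simp only [List.map_cons, Cc]
  rw [Cc_true_chain x l s hl, ← pp_snoc _ s l hl, h]
  simp only [wF]
  ring_nf

/-! ## The functional `Φ` -/

section Phi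

variable {S : Type*} [Fintype S] [DecidableEq S]

/-- The weight of `x`. -/
def wgt (r : S → ℕ) (x : S → PP) : ℤ := ∏ s, AA (r s) (x s).1 (x s).2

/-- The functional `Φ`. -/
noncomputable def Phi (r : S → ℕ) (G : (S → ℕ) → (S → ℕ) → ℂ) : ℂ :=
  ∑ x : S → PP, G (wF x) (wS x) * (wgt r x : ℂ)

/-- Pulling a permutation through `Φ`. -/
theorem Phi_comp (r : S → ℕ) (G : (S → ℕ) → (S → ℕ) → ℂ) (τ : Perm S) :
    Phi r (fun w₁ w₂ => G (w₁ ∘ τ) (w₂ ∘ τ)) = Phi (r ∘ τ) G := by
  unfold Phi
  refine Fintype.sum_equiv (Equiv.arrowCongr τ.symm (Equiv.refl PP)) _ _ fun x => ?_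
  have hx : ∀ s, (Equiv.arrowCongr τ.symm (Equiv.refl PP) x) s = x (τ s) := by
    intro s
    simp [Equiv.arrowCongr]
  have h1 : wF x ∘ τ = wF (Equiv.arrowCongr τ.symm (Equiv.refl PP) x) := by
    funext s
    simp [wF, hx]
  have h2 : wS x ∘ τ = wS (Equiv.arrowCongr τ.symm (Equiv.refl PP) x) := by
    funext s
    simp [wS, hx]
  simp only [h1, h2]
  congr 2
  unfold wgt
  rw [← Equiv.prod_comp τ]
  refine Finset.prod_congr rfl fun s _ => ?_
  simp [hx]

/-- The column antisymmetrization of a function of two words. -/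
noncomputable def actB (c : S → ℕ) (F : (S → ℕ) → (S → ℕ) → ℂ) : (S → ℕ) → (S → ℕ) → ℂ :=
  fun w₁ w₂ => ∑ τ ∈ stab c, sgn τ * F (w₁ ∘ τ) (w₂ ∘ τ)

/-- The row symmetrization of a function of two words. -/
noncomputable def actE (r : S → ℕ) (G : (S → ℕ) → (S → ℕ) → ℂ) : (S → ℕ) → (S → ℕ) → ℂ :=
  fun w₁ w₂ => ∑ σ ∈ stab r, G (w₁ ∘ σ) (w₂ ∘ σ)

theorem Phi_actE (r : S → ℕ) (G : (S → ℕ) → (S → ℕ) → ℂ) :
    Phi r (actE r G) = ((stab r).card : ℂ) * Phi r G := by
  have h1 : Phi r (actE r G) = ∑ σ ∈ stab r, Phi r (fun w₁ w₂ => G (w₁ ∘ σ) (w₂ ∘ σ)) := by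
    unfold Phi actE
    simp only [Finset.sum_mul]
    rw [Finset.sum_comm]
  rw [h1, Finset.sum_congr rfl (g := fun _ => Phi r G), Finset.sum_const, nsmul_eq_mul]
  intro σ hσ
  rw [Phi_comp]
  have : r ∘ σ = r := funext (mem_stab.mp hσ)
  rw [this]

theorem Phi_actB (r c : S → ℕ) (F : (S → ℕ) → (S → ℕ) → ℂ) :
    Phi r (actB c F) = ∑ τ ∈ stab c, sgn τ * Phi (r ∘ τ) F := by
  unfold actB
  have h1 : Phi r (fun w₁ w₂ => ∑ τ ∈ stab c, sgn τ * F (w₁ ∘ τ) (w₂ ∘ τ)) =
      ∑ τ ∈ stab c, sgn τ * Phi r (fun w₁ w₂ => F (w₁ ∘ τ) (w₂ ∘ τ)) := by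
    unfold Phi
    simp only [Finset.sum_mul, Finset.mul_sum]
    rw [Finset.sum_comm]
    refine Finset.sum_congr rfl fun τ _ => Finset.sum_congr rfl fun x _ => ?_
    ring1
  rw [h1]
  refine Finset.sum_congr rfl fun τ _ => ?_
  rw [Phi_comp]

/-- `Φ` of a product of two pairings is a corner entry of an alternating word. -/
theorem Phi_pp (r : S → ℕ) (s : S) (l : List S) (hl : Even l.length) (hnd : (s :: l).Nodup)
    (hall : ∀ a, a ∈ s :: l) :
    Phi r (fun w₁ w₂ => ((pp (l ++ [s]) w₁ : ℤ) : ℂ) * ((pp (s :: l) w₂ : ℤ) : ℂ)) =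
      ((altW false ((s :: l).map fun a => AA (r a)) 0 0 : ℤ) : ℂ) := by
  rw [altW_path (s :: l) hnd hall]
  unfold Phi wgt
  push_cast
  refine Finset.sum_congr rfl fun x _ => ?_
  rw [Cc_false_eq x s l hl]
  push_cast
  ring1

/-- The outcome for a general pair of colourings coming from slots. -/
theorem actE_actB_ne_zero (hs : List ℕ) (h4 : ∀ k ∈ hs, k ≤ 4) (hodd : Nat.bodd hs.sum = true)
    (ψ : Slots hs ≃ S) (r c : S → ℕ) (hr : ∀ s, r (ψ s) = rowS s) (hc : ∀ s, c (ψ s) = colS s)
    (s : S) (l : List S) (hpath : (pathS hs).map ψ = s :: l) :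
    actE r (actB c fun w₁ w₂ => ((pp (l ++ [s]) w₁ : ℤ) : ℂ) * ((pp (s :: l) w₂ : ℤ) : ℂ)) ≠ 0 := by
  have hnd : (s :: l).Nodup := by
    rw [← hpath]
    exact (pathS_nodup hs).map ψ.injective
  have hall : ∀ a, a ∈ s :: l := by
    intro a
    rw [← hpath, List.mem_map]
    exact ⟨ψ.symm a, mem_pathS hs _, by simp⟩
  have hl : Even l.length := by
    have h1 : (s :: l).length = hs.sum := by
      rw [← hpath, List.length_map, length_pathS]
    have h2 : ¬ Even hs.sum := by
      have h3 := Nat.mod_two_of_bodd hs.sum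
      rw [hodd] at h3
      rw [Nat.not_even_iff]
      simpa using h3
    rw [← h1, List.length_cons, Nat.even_add_one] at h2
    simpa using h2
  set F : (S → ℕ) → (S → ℕ) → ℂ :=
    fun w₁ w₂ => ((pp (l ++ [s]) w₁ : ℤ) : ℂ) * ((pp (s :: l) w₂ : ℤ) : ℂ) with hF
  intro h0
  have h1 : Phi r (actE r (actB c F)) = 0 := by
    rw [h0]
    simp [Phi]
  rw [Phi_actE, Phi_actB] at h1
  have hcard : ((stab r).card : ℂ) ≠ 0 := by
    have : (stab r).Nonempty := ⟨1, one_mem_stab r⟩
    exact_mod_cast this.card_pos.ne'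
  have h2 := (mul_eq_zero.mp h1).resolve_left hcard
  -- computation of the sum
  have h3 : ∑ τ ∈ stab c, sgn τ * Phi (r ∘ τ) F = ((antiW hs false 0 0 : ℤ) : ℂ) := by
    have hsum : ∀ τ : Perm S, Phi (r ∘ τ) F =
        ((altW false ((s :: l).map fun a => AA (r (τ a))) 0 0 : ℤ) : ℂ) := fun τ =>
      Phi_pp (r ∘ τ) s l hl hnd hall
    simp only [hsum]
    unfold antiW
    rw [Matrix.sum_apply]
    push_cast
    refine (Finset.sum_bij (fun τ' _ => ψ.permCongr τ') ?_ ?_ ?_ ?_).symm
    · intro τ' hτ'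
      rw [mem_stab] at hτ' ⊢
      intro a
      have := hτ' (ψ.symm a)
      obtain ⟨a', rfl⟩ := ψ.surjective a
      simp only [Equiv.permCongr_apply, Equiv.symm_apply_apply, hc]
      simpa using this
    · intro a _ b _ h
      exact ψ.permCongr.injective h
    · intro τ hτ
      refine ⟨ψ.symm.permCongr τ, ?_, ?_⟩
      · rw [mem_stab] at hτ ⊢
        intro a
        have h5 := hτ (ψ a)
        have h6 : ∀ b, colS (ψ.symm b) = c b := fun b => by
          rw [← hc, Equiv.apply_symm_apply]
        simp only [Equiv.permCongr_apply, Equiv.symm_symm, h6]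
        simpa [hc] using h5
      · ext a
        simp [Equiv.permCongr_apply]
    · intro τ' _
      rw [← hpath]
      simp only [sgn, Equiv.Perm.sign_permCongr, List.map_map]
      simp only [Matrix.smul_apply, smul_eq_mul]
      push_cast
      congr 4
      funext a
      simp [Equiv.permCongr_apply, hr]
  rw [h3] at h2
  exact antiW_corner hs h4 hodd (by exact_mod_cast h2)

end Phi

/-! ## Tableaux are slots -/

theorem rowS_lt : ∀ (hs : List ℕ) (s : Slots hs), rowS s < hs.getD (colS s) 0
  | [], s => nomatch s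
  | k :: hs, s => by
    rcases slots_cases s with ⟨i, rfl⟩ | ⟨s', rfl⟩
    · simp
    · simpa using rowS_lt hs s'

theorem exists_slot : ∀ (hs : List ℕ) (j i : ℕ), i < hs.getD j 0 →
    ∃ s : Slots hs, rowS s = i ∧ colS s = j
  | [], j, i, h => by simp at h
  | k :: hs, 0, i, h => ⟨inlS ⟨i, by simpa using h⟩, rfl, rfl⟩
  | k :: hs, j + 1, i, h => by
    obtain ⟨s, h1, h2⟩ := exists_slot hs j i (by simpa using h)
    exact ⟨inrS s, by simpa using h1, by simpa using h2⟩

theorem slot_ext : ∀ (hs : List ℕ) (s s' : Slots hs), rowS s = rowS s' → colS s = colS s' → s = s'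
  | [], s, _, _, _ => nomatch s
  | k :: hs, s, s', h1, h2 => by
    rcases slots_cases s with ⟨i, rfl⟩ | ⟨t, rfl⟩ <;> rcases slots_cases s' with ⟨i', rfl⟩ | ⟨t', rfl⟩
    · congr 1
      exact Fin.ext h1
    · simp at h2
    · simp at h2
    · congr 1
      exact slot_ext hs t t' h1 (by simpa using h2)

/-- The slots of a diagram with the right column heights are its cells. -/
noncomputable def slotsEquiv (a : YoungDiagram) (hs : List ℕ) (h : ∀ j, hs.getD j 0 = a.colLen j) :
    Slots hs ≃ {x // x ∈ a.cells} :=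
  Equiv.ofBijective
    (fun s => ⟨(rowS s, colS s), by
      have := rowS_lt hs s
      rw [h] at this
      exact YoungDiagram.mem_iff_lt_colLen.mpr this⟩)
    (by
      constructor
      · intro s s' e
        have e' := congrArg Subtype.val e
        simp only [Prod.mk.injEq] at e'
        exact slot_ext hs s s' e'.1 e'.2
      · rintro ⟨⟨i, j⟩, hx⟩
        have h1 : i < a.colLen j := YoungDiagram.mem_iff_lt_colLen.mp hx
        rw [← h] at h1
        obtain ⟨s, h2, h3⟩ := exists_slot hs j i h1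
        exact ⟨s, Subtype.ext (by simp [h2, h3])⟩)

@[simp] theorem slotsEquiv_fst (a : YoungDiagram) (hs : List ℕ) (h : ∀ j, hs.getD j 0 = a.colLen j)
    (s : Slots hs) : (slotsEquiv a hs h s).1.1 = rowS s := rfl

@[simp] theorem slotsEquiv_snd (a : YoungDiagram) (hs : List ℕ) (h : ∀ j, hs.getD j 0 = a.colLen j)
    (s : Slots hs) : (slotsEquiv a hs h s).1.2 = colS s := rfl

/-- The column heights of a diagram. -/
def colLens (a : YoungDiagram) : List ℕ := (List.range (a.rowLen 0)).map a.colLen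

theorem colLens_getD (a : YoungDiagram) (j : ℕ) : (colLens a).getD j 0 = a.colLen j := by
  unfold colLens
  by_cases hj : j < a.rowLen 0
  · simp [List.getD_eq_getElem?_getD, hj]
  · rw [List.getD_eq_default _ _ (by simpa using hj)]
    by_contra hne
    have h0 : 0 < a.colLen j := Nat.pos_of_ne_zero (Ne.symm hne)
    have h1 : (0, j) ∈ a := YoungDiagram.mem_iff_lt_colLen.mpr h0
    exact hj (YoungDiagram.mem_iff_lt_rowLen.mp h1)

theorem colLens_le (a : YoungDiagram) (h4 : ∀ c ∈ a.cells, c.1 < 4) : ∀ k ∈ colLens a, k ≤ 4 := by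
  intro k hk
  simp only [colLens, List.mem_map, List.mem_range] at hk
  obtain ⟨j, -, rfl⟩ := hk
  by_contra hne
  have h0 : 4 < a.colLen j := by omega
  have h1 : (4, j) ∈ a := YoungDiagram.mem_iff_lt_colLen.mpr h0
  exact absurd (h4 _ h1) (by norm_num)

section Main

variable {S : Type*} [Fintype S] [DecidableEq S]

/-- **Four rows**, for plain functions. -/
theorem fourRows_plain (a : YoungDiagram) (T : Tab a S) (h4 : ∀ c ∈ a.cells, c.1 < 4)
    (hodd : Odd (Fintype.card S)) :
    ∃ (s : S) (l : List S), (s :: l).Nodup ∧ (∀ x, x ∈ s :: l) ∧ Even l.length ∧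
      actE (rowC T) (actB (colC T)
        fun w₁ w₂ => ((pp (l ++ [s]) w₁ : ℤ) : ℂ) * ((pp (s :: l) w₂ : ℤ) : ℂ)) ≠ 0 := by
  set hs := colLens a with hhs
  let ψ : Slots hs ≃ S := (slotsEquiv a hs (colLens_getD a)).trans T
  have hr : ∀ s, rowC T (ψ s) = rowS s := by
    intro s
    simp [rowC, ψ]
  have hc : ∀ s, colC T (ψ s) = colS s := by
    intro s
    simp [colC, ψ]
  have hsum : hs.sum = Fintype.card S := by
    rw [← card_slots, Fintype.card_congr ψ]
  have hb : Nat.bodd hs.sum = true := by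
    rw [hsum]
    have h3 := Nat.mod_two_of_bodd (Fintype.card S)
    rw [Nat.odd_iff] at hodd
    rw [hodd] at h3
    cases h : Nat.bodd (Fintype.card S)
    · simp [h] at h3
    · rfl
  have hlen : ((pathS hs).map ψ).length = Fintype.card S := by
    rw [List.length_map, length_pathS, hsum]
  rcases hp : (pathS hs).map ψ with _ | ⟨s, l⟩
  · rw [hp] at hlen
    simp only [List.length_nil] at hlen
    rw [← hlen] at hodd
    simp at hodd
  · have hnd : (s :: l).Nodup := by
      rw [← hp]
      exact (pathS_nodup hs).map ψ.injective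
    have hall : ∀ a, a ∈ s :: l := by
      intro a
      rw [← hp, List.mem_map]
      exact ⟨ψ.symm a, mem_pathS hs _, by simp⟩
    have hl : Even l.length := by
      have h2 : ¬ Even (Fintype.card S) := Nat.not_even_iff_odd.mpr hodd
      rw [← hlen, hp, List.length_cons, Nat.even_add_one] at h2
      simpa using h2
    exact ⟨s, l, hnd, hall, hl,
      actE_actB_ne_zero hs (colLens_le a h4) hb ψ _ _ hr hc s l hp⟩

/-! ## Pairings are polytabloids of the two-row shape -/

theorem pp_map {α β : Type*} (f : α → β) (w : β → ℕ) : ∀ l : List α,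
    pp (l.map f) w = pp l (w ∘ f)
  | [] => rfl
  | [_] => rfl
  | p :: q :: l => by
    simp only [List.map_cons, pp, Function.comp]
    rw [pp_map f w l]

/-- The polytabloid function on slots. -/
noncomputable def polyS (hs : List ℕ) (w : Slots hs → ℕ) : ℂ :=
  ∑ σ ∈ stab (colS (hs := hs)), sgn σ * (if w = rowS ∘ ⇑(σ⁻¹) then 1 else 0)

theorem sgn_cg {k : ℕ} {hs : List ℕ} (a : Perm (Fin k)) (b : Perm (Slots hs)) :
    sgn (cg a b) = sgn a * sgn b := by
  unfold sgn
  rw [sign_cg]
  push_cast
  rfl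

theorem polyS_cons (k : ℕ) (hs : List ℕ) (w : Slots (k :: hs) → ℕ) :
    polyS (k :: hs) w =
      (∑ τ : Perm (Fin k), sgn τ *
        (if (fun i => w (inlS i)) = fun i => (((τ⁻¹ i : Fin k)) : ℕ) then 1 else 0)) *
      polyS hs (fun s => w (inrS s)) := by
  unfold polyS
  rw [sum_stab_colS, Finset.sum_mul]
  refine Finset.sum_congr rfl fun τ₁ _ => ?_
  rw [Finset.mul_sum]
  refine Finset.sum_congr rfl fun τ₂ _ => ?_
  rw [sgn_cg]
  have hinv : ∀ s, (cg τ₁ τ₂)⁻¹ s = cg τ₁⁻¹ τ₂⁻¹ s := fun s => by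
    rcases slots_cases s with ⟨i, rfl⟩ | ⟨t, rfl⟩ <;> rfl
  have hiff : (w = rowS ∘ ⇑(cg τ₁ τ₂)⁻¹) ↔
      ((fun i => w (inlS i)) = fun i => (((τ₁⁻¹ i : Fin k)) : ℕ)) ∧
        ((fun s => w (inrS s)) = rowS ∘ ⇑τ₂⁻¹) := by
    constructor
    · intro h
      constructor
      · funext i
        have := congrFun h (inlS i)
        simp only [Function.comp_apply] at this
        rw [hinv, cg_inl, rowS_inl] at this
        exact this
      · funext t
        have := congrFun h (inrS t)
        simp only [Function.comp_apply] at this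
        rw [hinv, cg_inr, rowS_inr] at this
        exact this
    · rintro ⟨h1, h2⟩
      funext s
      rcases slots_cases s with ⟨i, rfl⟩ | ⟨t, rfl⟩
      · simp only [Function.comp_apply]
        rw [hinv, cg_inl, rowS_inl]
        exact congrFun h1 i
      · simp only [Function.comp_apply]
        rw [hinv, cg_inr, rowS_inr]
        exact congrFun h2 t
  simp only [hiff]
  by_cases h1 : ((fun i => w (inlS i)) = fun i => (((τ₁⁻¹ i : Fin k)) : ℕ)) <;>
    by_cases h2 : ((fun s => w (inrS s)) = rowS ∘ ⇑τ₂⁻¹) <;>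
    simp only [h1, h2, and_self, and_true, and_false, if_true, if_false, mul_one,
      mul_zero, zero_mul]

/-- The heights of the columns of the two-row diagram `(x+1, x)`. -/
def hsTwo : ℕ → List ℕ
  | 0 => [1]
  | x + 1 => 2 :: hsTwo x

theorem sum_hsTwo : ∀ x, (hsTwo x).sum = 2 * x + 1
  | 0 => rfl
  | x + 1 => by
    simp only [hsTwo, List.sum_cons, sum_hsTwo x]
    ring

theorem hsTwo_getD : ∀ x j, (hsTwo x).getD j 0 = if j < x then 2 else if j = x then 1 else 0
  | 0, 0 => rfl
  | 0, j + 1 => by simp [hsTwo]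
  | x + 1, 0 => by simp [hsTwo]
  | x + 1, j + 1 => by
    simp only [hsTwo, List.getD_cons_succ, hsTwo_getD x j]
    simp

theorem sum_perm_fin2 (u : Fin 2 → ℕ) :
    (∑ τ : Perm (Fin 2), sgn τ *
        (if u = fun i => (((τ⁻¹ i : Fin 2)) : ℕ) then (1 : ℂ) else 0)) = ((eps (u 0) (u 1) : ℤ) : ℂ) := by
  have huniv : (Finset.univ : Finset (Perm (Fin 2))) = {1, swap 0 1} := by decide
  rw [huniv, Finset.sum_pair (by decide)]
  have h1 : (u = fun i => (((1 : Perm (Fin 2))⁻¹ i : Fin 2) : ℕ)) ↔ (u 0 = 0 ∧ u 1 = 1) := by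
    constructor
    · intro h
      have h0 := congrFun h 0
      have h1 := congrFun h 1
      simpa using And.intro h0 h1
    · rintro ⟨h0, h1⟩
      funext i
      fin_cases i <;> simp [h0, h1]
  have h2 : (u = fun i => (((swap (0 : Fin 2) 1 : Perm (Fin 2))⁻¹ i : Fin 2) : ℕ)) ↔
      (u 0 = 1 ∧ u 1 = 0) := by
    constructor
    · intro h
      have h0 := congrFun h 0
      have h1 := congrFun h 1
      simpa using And.intro h0 h1
    · rintro ⟨h0, h1⟩
      funext i
      fin_cases i <;> simp [h0, h1]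
  simp only [h1, h2, sgn_one]
  rw [sgn_swap (by decide)]
  unfold eps
  by_cases a : u 0 = 0 ∧ u 1 = 1
  · have b : ¬ (u 0 = 1 ∧ u 1 = 0) := by omega
    simp [a]
  · by_cases b : u 0 = 1 ∧ u 1 = 0
    · simp [b]
    · simp [a, b]

theorem sum_perm_fin1 (u : Fin 1 → ℕ) :
    (∑ τ : Perm (Fin 1), sgn τ *
        (if u = fun i => (((τ⁻¹ i : Fin 1)) : ℕ) then (1 : ℂ) else 0)) =
      if u 0 = 0 then 1 else 0 := by
  have h1 : ∀ τ : Perm (Fin 1), τ = 1 := fun τ => Subsingleton.elim _ _
  have huniv : (Finset.univ : Finset (Perm (Fin 1))) = {1} := by decide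
  rw [huniv, Finset.sum_singleton, sgn_one, one_mul]
  have h2 : (u = fun i => (((1 : Perm (Fin 1))⁻¹ i : Fin 1) : ℕ)) ↔ u 0 = 0 := by
    constructor
    · intro h
      simpa using congrFun h 0
    · intro h
      funext i
      fin_cases i
      simpa using h
  simp only [h2]

theorem polyS_nil (w : Slots [] → ℕ) : polyS [] w = 1 := by
  unfold polyS
  have : stab (colS (hs := [])) = {1} := by
    ext τ
    simp only [mem_stab, Finset.mem_singleton]
    constructor
    · intro _
      exact Equiv.ext fun s => nomatch s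
    · rintro rfl s
      rfl
  rw [this, Finset.sum_singleton, sgn_one, one_mul, if_pos]
  funext s
  exact nomatch s

theorem pp_pathS_two_cons (hs : List ℕ) (w : Slots (2 :: hs) → ℕ) :
    pp (pathS (2 :: hs)) w = eps (w (inlS 0)) (w (inlS 1)) * pp (pathS hs) (fun s => w (inrS s)) := by
  change pp (inlS 0 :: inlS 1 :: (pathS hs).map inrS) w = _
  simp only [pp]
  rw [pp_map]
  rfl

theorem pp_pathS_hsTwo : ∀ (x : ℕ) (w : Slots (hsTwo x) → ℕ),
    polyS (hsTwo x) w = ((pp (pathS (hsTwo x)) w : ℤ) : ℂ)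
  | 0, w => by
    change polyS [1] w = _
    rw [polyS_cons, sum_perm_fin1, polyS_nil, mul_one]
    change _ = ((pp [inlS 0] w : ℤ) : ℂ)
    simp only [pp]
    split_ifs <;> simp
  | x + 1, w => by
    change polyS (2 :: hsTwo x) w = ((pp (pathS (2 :: hsTwo x)) w : ℤ) : ℂ)
    rw [polyS_cons, sum_perm_fin2, pp_pathS_hsTwo x, pp_pathS_two_cons]
    push_cast
    rfl

/-- A bijection carrying one complete list to another one. -/
theorem exists_equiv_of_lists {α β : Type*} (l₁ : List α) (l₂ : List β) (h₁ : l₁.Nodup)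
    (h₂ : l₂.Nodup) (a₁ : ∀ a, a ∈ l₁) (a₂ : ∀ b, b ∈ l₂) (hlen : l₁.length = l₂.length) :
    ∃ ψ : α ≃ β, l₁.map ψ = l₂ := by
  classical
  let e₁ : Fin l₁.length ≃ α := List.Nodup.getEquivOfForallMemList l₁ h₁ a₁
  let e₂ : Fin l₂.length ≃ β := List.Nodup.getEquivOfForallMemList l₂ h₂ a₂
  refine ⟨e₁.symm.trans ((finCongr hlen).trans e₂), ?_⟩
  refine List.ext_getElem (by simpa using hlen) fun i h₃ h₄ => ?_
  have h5 : i < l₁.length := by simpa using h₃
  have h6 : l₁[i] = e₁ ⟨i, h5⟩ := rfl
  simp only [List.getElem_map, h6]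
  simp only [Equiv.trans_apply, Equiv.symm_apply_apply]
  rfl

/-- The two-row diagram `(x+1, x)`. -/
def twoRow (x : ℕ) : YoungDiagram :=
  YoungDiagram.ofRowLens [x + 1, x] (by simp [List.sortedGE_iff_pairwise])

theorem mem_twoRow {x i j : ℕ} : (i, j) ∈ twoRow x ↔ (i = 0 ∧ j < x + 1) ∨ (i = 1 ∧ j < x) := by
  unfold twoRow
  rw [YoungDiagram.mem_ofRowLens]
  constructor
  · rintro ⟨h, h'⟩
    simp only [List.length_cons, List.length_nil] at h
    obtain rfl | rfl : i = 0 ∨ i = 1 := by omega
    · exact Or.inl ⟨rfl, by simpa using h'⟩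
    · exact Or.inr ⟨rfl, by simpa using h'⟩
  · rintro (⟨rfl, h⟩ | ⟨rfl, h⟩)
    · exact ⟨by simp, by simpa using h⟩
    · exact ⟨by simp, by simpa using h⟩

theorem hsTwo_colLen (x j : ℕ) : (hsTwo x).getD j 0 = (twoRow x).colLen j := by
  refine eq_of_forall_lt_iff fun i => ?_
  rw [← YoungDiagram.mem_iff_lt_colLen, mem_twoRow, hsTwo_getD]
  split_ifs <;> omega

/-- A pairing of the slots is the polytabloid of a tableau of the two-row shape. -/
theorem exists_tab_pp (x : ℕ) (m : List S) (hnd : m.Nodup) (hall : ∀ s, s ∈ m)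
    (hlen : m.length = 2 * x + 1) :
    ∃ t : Tab (twoRow x) S, ∀ w, poly t w = ((pp m w : ℤ) : ℂ) := by
  obtain ⟨ψ, hψ⟩ := exists_equiv_of_lists (pathS (hsTwo x)) m (pathS_nodup _) hnd (mem_pathS _) hall
    (by rw [hlen, length_pathS, sum_hsTwo])
  let ψ₀ := slotsEquiv (twoRow x) (hsTwo x) (hsTwo_colLen x)
  refine ⟨ψ₀.symm.trans ψ, fun w => ?_⟩
  have hr : ∀ s, rowOf (ψ₀.symm.trans ψ) (ψ s) = rowS s := by
    intro s
    simp [rowOf, ψ₀]
  have hc : ∀ s, colOf (ψ₀.symm.trans ψ) (ψ s) = colS s := by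
    intro s
    simp [colOf, ψ₀]
  have h1 : ((pp m w : ℤ) : ℂ) = polyS (hsTwo x) (w ∘ ψ) := by
    rw [pp_pathS_hsTwo, ← hψ, pp_map]
  rw [h1]
  unfold poly polyS
  symm
  refine Finset.sum_bij (fun τ' _ => ψ.permCongr τ') ?_ ?_ ?_ ?_
  · intro τ' hτ'
    rw [mem_stab] at hτ' ⊢
    intro a
    obtain ⟨a', rfl⟩ := ψ.surjective a
    simp only [Equiv.permCongr_apply, Equiv.symm_apply_apply, hc]
    exact hτ' a'
  · intro a _ b _ h
    exact ψ.permCongr.injective h
  · intro τ hτ
    refine ⟨ψ.symm.permCongr τ, ?_, ?_⟩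
    · rw [mem_stab] at hτ ⊢
      intro a
      have h5 := hτ (ψ a)
      have h6 : ∀ b, colS (ψ.symm b) = colOf (ψ₀.symm.trans ψ) b := fun b => by
        rw [← hc, Equiv.apply_symm_apply]
      simp only [Equiv.permCongr_apply, Equiv.symm_symm, h6]
      simpa [hc] using h5
    · ext a
      simp [Equiv.permCongr_apply]
  · intro τ' _
    have h7 : sgn (ψ.permCongr τ') = sgn τ' := by
      simp [sgn, Equiv.Perm.sign_permCongr]
    rw [h7]
    have h8 : ∀ a', (ψ.permCongr τ')⁻¹ (ψ a') = ψ (τ'⁻¹ a') := by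
      intro a'
      apply (ψ.permCongr τ').injective
      simp [Equiv.permCongr_apply]
    congr 2
    apply propext
    constructor
    · intro h
      funext a
      obtain ⟨a', rfl⟩ := ψ.surjective a
      have := congrFun h a'
      simp only [Function.comp_apply] at this ⊢
      rw [h8, hr]
      exact this
    · intro h
      funext a'
      have := congrFun h (ψ a')
      simp only [Function.comp_apply] at this ⊢
      rw [h8, hr] at this
      exact this

/-- **Four rows**: the Young symmetrizer of a tableau of a diagram with at most four rows does not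
kill a suitable product of two polytabloids of the two-row shape `(x+1, x)`. -/
theorem fourRows (a : YoungDiagram) (T : Tab a S) (h4 : ∀ c ∈ a.cells, c.1 < 4) (x : ℕ)
    (hcard : Fintype.card S = 2 * x + 1) :
    ∃ t u : Tab (twoRow x) S,
      gact (fn2Rep S) (symE (rowC T)) (gact (fn2Rep S) (symB (colC T)) (prod2 t u)) ≠ 0 := by
  obtain ⟨s, l, hnd, hall, hl, hne⟩ := fourRows_plain a T h4 (by rw [hcard]; exact odd_two_mul_add_one x)
  have hlen : (s :: l).length = 2 * x + 1 := by
    rw [← hcard, ← List.toFinset_card_of_nodup hnd]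
    exact congrArg Finset.card (Finset.eq_univ_iff_forall.mpr fun a => by simpa using hall a)
  have hnd' : (l ++ [s]).Nodup := by
    exact (List.perm_append_singleton s l).nodup_iff.mpr hnd
  have hall' : ∀ a, a ∈ l ++ [s] := by
    intro a
    have := hall a
    simp only [List.mem_cons] at this
    simp only [List.mem_append, List.mem_singleton]
    tauto
  have hlen' : (l ++ [s]).length = 2 * x + 1 := by
    simpa using hlen
  obtain ⟨t, ht⟩ := exists_tab_pp x (l ++ [s]) hnd' hall' hlen'
  obtain ⟨u, hu⟩ := exists_tab_pp x (s :: l) hnd hall hlen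
  refine ⟨t, u, ?_⟩
  have hF : prod2 t u = fun w₁ w₂ => ((pp (l ++ [s]) w₁ : ℤ) : ℂ) * ((pp (s :: l) w₂ : ℤ) : ℂ) := by
    funext w₁ w₂
    simp only [prod2, ht, hu]
  have hE : ∀ (r : S → ℕ) (G : Fn2 S), gact (fn2Rep S) (symE r) G = actE r G := by
    intro r G
    rw [gact_symE]
    funext w₁ w₂
    simp [actE, Finset.sum_apply, fn2Rep_apply]
  have hB : ∀ (c : S → ℕ) (G : Fn2 S), gact (fn2Rep S) (symB c) G = actB c G := by
    intro c G
    rw [gact_symB]
    funext w₁ w₂
    simp [actB, Finset.sum_apply, fn2Rep_apply]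
  rw [hE, hB, hF]
  exact hne

variable {V : Type*} [AddCommGroup V] [Module ℂ V] [FiniteDimensional ℂ V]

/-- Every irreducible whose label has at most four rows occurs in the tensor square of the two-row
shape. -/
theorem occurs_twoRow_of_label {ρ : Representation ℂ (Perm S) V} (hρ : ρ.IsIrreducible)
    {a : YoungDiagram} (hlab : Label ρ a) (h4 : ∀ c ∈ a.cells, c.1 < 4) (x : ℕ)
    (hcard : Fintype.card S = 2 * x + 1) :
    Occurs ρ (twoRow x).cells (twoRow x).cells := by
  obtain ⟨T, -, -⟩ := id hlab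
  obtain ⟨t, u, h⟩ := fourRows a T h4 x hcard
  exact occurs_of_symmetrizer T (Submodule.subset_span ⟨(t, u), rfl⟩) h hρ hlab

omit [FiniteDimensional ℂ V] in
/-- A fixed vector of a Young subgroup with at most four colours forces at most four rows. -/
theorem label_rows_lt_four {ρ : Representation ℂ (Perm S) V} (hρ : ρ.IsIrreducible)
    {a : YoungDiagram} (hlab : Label ρ a) {c : S → ℕ} (hc : (Finset.univ.image c).card ≤ 4)
    (hfix : HasFix ρ c) : ∀ z ∈ a.cells, z.1 < 4 := by
  obtain ⟨T, -, hT⟩ := hlab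
  obtain ⟨g, hg⟩ := pairing hρ hfix hT
  rintro ⟨i, j⟩ hz
  by_contra hi
  simp only [not_lt] at hi
  have hz' : (i, j) ∈ a := hz
  have hmem : ∀ k : Fin 5, ((k : ℕ), j) ∈ a.cells := by
    intro k
    have h1 : i < a.colLen j := YoungDiagram.mem_iff_lt_colLen.mp hz'
    have h2 : (k : ℕ) < a.colLen j := by omega
    exact YoungDiagram.mem_iff_lt_colLen.mpr h2
  let f : Fin 5 → S := fun k => g (T ⟨((k : ℕ), j), hmem k⟩)
  have hcol : ∀ k, colC T (g⁻¹ (f k)) = j := by
    intro k
    simp [f, colC]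
  have hinj : Function.Injective (c ∘ f) := by
    intro k k' h
    have h1 : f k = f k' := hg (Prod.ext h (by simp only [hcol]))
    have h2 := T.injective (g.injective h1)
    have h3 := congrArg (fun x => x.1.1) h2
    exact Fin.ext h3
  have h5 : Fintype.card (Fin 5) ≤ (Finset.univ.image c).card := by
    rw [← Fintype.card_coe]
    exact Fintype.card_le_of_injective
      (fun k => (⟨c (f k), Finset.mem_image_of_mem c (Finset.mem_univ _)⟩ :
        {y // y ∈ Finset.univ.image c}))
      (fun k k' h => hinj (congrArg Subtype.val h))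
  simp at h5
  omega

/-- **Four rows**, final form: an irreducible with a nonzero vector fixed by a Young subgroup with
at most four colours occurs in the tensor square of the two-row shape `(x+1, x)`. -/
theorem occurs_twoRow_of_hasFix {ρ : Representation ℂ (Perm S) V} (hρ : ρ.IsIrreducible)
    {c : S → ℕ} (hc : (Finset.univ.image c).card ≤ 4) (hfix : HasFix ρ c) (x : ℕ)
    (hcard : Fintype.card S = 2 * x + 1) :
    Occurs ρ (twoRow x).cells (twoRow x).cells := by
  obtain ⟨a, -, hlab⟩ := exists_label hρ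
  exact occurs_twoRow_of_label hρ hlab (label_rows_lt_four hρ hlab hc hfix) x hcard

end Main

end Crest.Agent.Saxl.FourRows
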