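import Crest.Agent.Lib.Saxl.Specht

/-!
# Semigroup property for Kronecker positivity, and all shapes with at most four rows in the
tensor square of a two-row shape `(x+1,x)` (row 195, S0297)

Plain functions on pairs of words.  `Phi N r G` is the polarisation polynomial of `G` for the
slot colouring `r`; it is multiplicative on disjoint blocks (`Phi_glue`), so the semigroup
property is the fact that the polynomial ring is a domain.

Main result: `fourRows_main`.
-/

set_option autoImplicit false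

namespace Crest.Agent.Saxl.FourRowsSemi

open Finset Equiv MvPolynomial

section Basic

variable {S : Type*} [Fintype S] [DecidableEq S]

/-- The action `(g F)(w1,w2) = F (w1 ∘ g, w2 ∘ g)`. -/
def act (g : Perm S) (F : Fn2 S) : Fn2 S := fun w1 w2 => F (w1 ∘ g) (w2 ∘ g)

/-- Row symmetriser. -/
noncomputable def rowSym (r : S → ℕ) (F : Fn2 S) : Fn2 S := ∑ g ∈ stab r, act g F

/-- Column antisymmetriser. -/
noncomputable def colAlt (c : S → ℕ) (F : Fn2 S) : Fn2 S := ∑ h ∈ stab c, sgn h • act h F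

/-- The polytabloid as a function on words: rows `r`, columns `c`. -/
noncomputable def polyRC (r c : S → ℕ) (w : S → ℕ) : ℂ :=
  ∑ σ ∈ stab c, sgn σ * (if w = r ∘ σ then 1 else 0)

/-- The product of two polytabloids, in the two word variables. -/
noncomputable def pp (r1 c1 r2 c2 : S → ℕ) : Fn2 S := fun w1 w2 => polyRC r1 c1 w1 * polyRC r2 c2 w2

omit [Fintype S] [DecidableEq S] in
lemma act_apply (g : Perm S) (F : Fn2 S) (w1 w2 : S → ℕ) :
    act g F w1 w2 = F (w1 ∘ g) (w2 ∘ g) := rfl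

/-- The polarisation polynomial. -/
noncomputable def Phi (N : ℕ) (r : S → ℕ) (G : Fn2 S) : MvPolynomial (ℕ × ℕ × ℕ) ℂ :=
  ∑ w1 : S → Fin N, ∑ w2 : S → Fin N,
    C (G (fun s => (w1 s : ℕ)) (fun s => (w2 s : ℕ))) * ∏ s, X ((w1 s : ℕ), (w2 s : ℕ), r s)

lemma Phi_zero (N : ℕ) (r : S → ℕ) : Phi N r 0 = 0 := by
  simp [Phi]

lemma Phi_sum {ι : Type*} (N : ℕ) (r : S → ℕ) (t : Finset ι) (G : ι → Fn2 S) :
    Phi N r (∑ i ∈ t, G i) = ∑ i ∈ t, Phi N r (G i) := by
  classical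
  induction t using Finset.induction_on with
  | empty => simp [Phi]
  | insert a t ha ih =>
    rw [sum_insert ha, sum_insert ha, ← ih]
    simp only [Phi, Pi.add_apply, map_add, add_mul, sum_add_distrib]

lemma Phi_smul (N : ℕ) (r : S → ℕ) (a : ℂ) (G : Fn2 S) :
    Phi N r (a • G) = C a * Phi N r G := by
  simp only [Phi, Pi.smul_apply, smul_eq_mul, map_mul, mul_sum, mul_assoc]

lemma sum_comp_perm {M : Type*} [AddCommMonoid M] (N : ℕ) (g : Perm S) (A : (S → Fin N) → M) :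
    ∑ w : S → Fin N, A (w ∘ g) = ∑ w, A w :=
  Equiv.sum_comp (Equiv.arrowCongr g.symm (Equiv.refl _)) A

/-- Substituting the action. -/
lemma Phi_act (N : ℕ) (r : S → ℕ) (g : Perm S) (G : Fn2 S) :
    Phi N r (act g G) = Phi N (r ∘ g) G := by
  simp only [Phi, act_apply]
  let B : (S → Fin N) → (S → Fin N) → MvPolynomial (ℕ × ℕ × ℕ) ℂ := fun u1 u2 =>
    C (G (fun s => (u1 s : ℕ)) (fun s => (u2 s : ℕ))) *
      ∏ s, X ((u1 s : ℕ), (u2 s : ℕ), (r ∘ g) s)
  have key : ∀ w1 w2 : S → Fin N,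
      C (G ((fun s => (w1 s : ℕ)) ∘ g) ((fun s => (w2 s : ℕ)) ∘ g)) *
          ∏ s, (X ((w1 s : ℕ), (w2 s : ℕ), r s) : MvPolynomial (ℕ × ℕ × ℕ) ℂ) =
        B (w1 ∘ g) (w2 ∘ g) := by
    intro u1 u2
    simp only [B]
    congr 1
    exact (Equiv.prod_comp g (fun s => (X ((u1 s : ℕ), (u2 s : ℕ), r s) :
      MvPolynomial (ℕ × ℕ × ℕ) ℂ))).symm
  calc _ = ∑ w1 : S → Fin N, ∑ w2 : S → Fin N, B (w1 ∘ g) (w2 ∘ g) :=
        sum_congr rfl fun w1 _ => sum_congr rfl fun w2 _ => key w1 w2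
    _ = ∑ w1 : S → Fin N, ∑ w2 : S → Fin N, B w1 (w2 ∘ g) :=
        sum_comp_perm N g (fun w1 => ∑ w2 : S → Fin N, B w1 (w2 ∘ g))
    _ = ∑ w1 : S → Fin N, ∑ w2 : S → Fin N, B w1 w2 :=
        sum_congr rfl fun w1 _ => sum_comp_perm N g (fun w2 => B w1 w2)

lemma Phi_rowSym (N : ℕ) (r : S → ℕ) (G : Fn2 S) :
    Phi N r (rowSym r G) = (stab r).card • Phi N r G := by
  rw [rowSym, Phi_sum, sum_congr rfl (g := fun _ => Phi N r G), sum_const]
  intro g hg
  rw [Phi_act]
  congr 1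
  funext s
  exact (mem_filter.mp hg).2 s

/-- Nonvanishing of the polynomial implies nonvanishing of the row symmetriser. -/
lemma rowSym_ne_zero {N : ℕ} {r : S → ℕ} {G : Fn2 S} (h : Phi N r G ≠ 0) : rowSym r G ≠ 0 := by
  intro h0
  have h1 := Phi_rowSym N r G
  rw [h0, Phi_zero] at h1
  have hc : (stab r).card ≠ 0 := (card_pos.mpr ⟨1, one_mem_stab r⟩).ne'
  exact h ((smul_eq_zero.mp h1.symm).resolve_left hc)

lemma Phi_colAlt (N : ℕ) (r c : S → ℕ) (F : Fn2 S) :
    Phi N r (colAlt c F) = ∑ h ∈ stab c, C (sgn h) * Phi N (r ∘ h) F := by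
  rw [colAlt, Phi_sum]
  refine sum_congr rfl fun h _ => ?_
  rw [Phi_smul, Phi_act]

lemma polyRC_congr {r c c' : S → ℕ} (h : ∀ s t, c s = c t ↔ c' s = c' t) : polyRC r c = polyRC r c' := by
  funext w
  rw [polyRC, polyRC, stab_congr h]

lemma colAlt_congr {c c' : S → ℕ} (h : ∀ s t, c s = c t ↔ c' s = c' t) (F : Fn2 S) :
    colAlt c F = colAlt c' F := by
  rw [colAlt, colAlt, stab_congr h]

/-- Closed formula: the triple alternating sum. -/
lemma Phi_pp {N : ℕ} (r r1 c1 r2 c2 : S → ℕ) (h1 : ∀ s, r1 s < N) (h2 : ∀ s, r2 s < N) :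
    Phi N r (pp r1 c1 r2 c2) = ∑ σ1 ∈ stab c1, ∑ σ2 ∈ stab c2, C (sgn σ1 * sgn σ2) *
      ∏ s, X (r1 (σ1 s), r2 (σ2 s), r s) := by
  let W1 : Perm S → S → Fin N := fun σ s => ⟨r1 (σ s), h1 _⟩
  let W2 : Perm S → S → Fin N := fun σ s => ⟨r2 (σ s), h2 _⟩
  have w1iff : ∀ (w : S → Fin N) (σ : Perm S), ((fun s => (w s : ℕ)) = r1 ∘ σ) ↔ w = W1 σ := by
    intro w σ
    constructor
    · intro h; funext s; ext; exact congrFun h s
    · intro h; subst h; rfl
  have w2iff : ∀ (w : S → Fin N) (σ : Perm S), ((fun s => (w s : ℕ)) = r2 ∘ σ) ↔ w = W2 σ := by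
    intro w σ
    constructor
    · intro h; funext s; ext; exact congrFun h s
    · intro h; subst h; rfl
  let P : (S → Fin N) → (S → Fin N) → MvPolynomial (ℕ × ℕ × ℕ) ℂ := fun w1 w2 =>
    ∏ s, X ((w1 s : ℕ), (w2 s : ℕ), r s)
  have expand : ∀ w1 w2 : S → Fin N,
      C (pp r1 c1 r2 c2 (fun s => (w1 s : ℕ)) (fun s => (w2 s : ℕ))) * P w1 w2 =
        ∑ σ1 ∈ stab c1, ∑ σ2 ∈ stab c2,
          if w1 = W1 σ1 then (if w2 = W2 σ2 then C (sgn σ1 * sgn σ2) * P w1 w2 else 0) else 0 := by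
    intro w1 w2
    simp only [pp, polyRC]
    rw [Finset.sum_mul_sum, map_sum, sum_mul]
    refine sum_congr rfl fun σ1 _ => ?_
    rw [map_sum, sum_mul]
    refine sum_congr rfl fun σ2 _ => ?_
    by_cases h : w1 = W1 σ1
    · by_cases h' : w2 = W2 σ2
      · simp only [if_pos h, if_pos h', if_pos ((w1iff _ _).mpr h), if_pos ((w2iff _ _).mpr h'),
          mul_one]
      · simp [if_pos h, if_neg h', if_neg (fun q => h' ((w2iff _ _).mp q))]
    · simp [if_neg h, if_neg (fun q => h ((w1iff _ _).mp q))]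
  calc Phi N r (pp r1 c1 r2 c2)
      = ∑ w1 : S → Fin N, ∑ w2 : S → Fin N, ∑ σ1 ∈ stab c1, ∑ σ2 ∈ stab c2,
          if w1 = W1 σ1 then (if w2 = W2 σ2 then C (sgn σ1 * sgn σ2) * P w1 w2 else 0) else 0 :=
        sum_congr rfl fun w1 _ => sum_congr rfl fun w2 _ => expand w1 w2
    _ = ∑ σ1 ∈ stab c1, ∑ σ2 ∈ stab c2, ∑ w1 : S → Fin N, ∑ w2 : S → Fin N,
          if w1 = W1 σ1 then (if w2 = W2 σ2 then C (sgn σ1 * sgn σ2) * P w1 w2 else 0) else 0 := by
        rw [sum_congr rfl fun w1 _ => sum_comm]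
        rw [sum_comm]
        refine sum_congr rfl fun σ1 _ => ?_
        rw [sum_congr rfl fun w1 _ => sum_comm]
        rw [sum_comm]
    _ = ∑ σ1 ∈ stab c1, ∑ σ2 ∈ stab c2, C (sgn σ1 * sgn σ2) *
          ∏ s, X (r1 (σ1 s), r2 (σ2 s), r s) := by
        refine sum_congr rfl fun σ1 _ => sum_congr rfl fun σ2 _ => ?_
        simp [P, W1, W2]

lemma Phi_colAlt_pp {N : ℕ} (r c r1 c1 r2 c2 : S → ℕ) (h1 : ∀ s, r1 s < N) (h2 : ∀ s, r2 s < N) :
    Phi N r (colAlt c (pp r1 c1 r2 c2)) = ∑ h ∈ stab c, ∑ σ1 ∈ stab c1, ∑ σ2 ∈ stab c2,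
      C (sgn h * (sgn σ1 * sgn σ2)) * ∏ s, X (r1 (σ1 s), r2 (σ2 s), r (h s)) := by
  rw [Phi_colAlt]
  refine sum_congr rfl fun h _ => ?_
  rw [Phi_pp _ _ _ _ _ h1 h2, mul_sum]
  refine sum_congr rfl fun σ1 _ => ?_
  rw [mul_sum]
  refine sum_congr rfl fun σ2 _ => ?_
  simp only [map_mul, mul_assoc, Function.comp]

/-- The triple alternating sum at an integer point. -/
def tripleSum (f : ℕ → ℕ → ℕ → ℤ) (r c r1 c1 r2 c2 : S → ℕ) : ℤ :=
  ∑ h ∈ stab c, ∑ σ1 ∈ stab c1, ∑ σ2 ∈ stab c2,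
    (((Perm.sign h : ℤˣ) : ℤ) * ((((Perm.sign σ1 : ℤˣ) : ℤ)) * (((Perm.sign σ2 : ℤˣ) : ℤ)))) *
      ∏ s, f (r1 (σ1 s)) (r2 (σ2 s)) (r (h s))

/-- A finite check certifying non-vanishing of the polynomial. -/
lemma Phi_ne_zero_of_tripleSum {N : ℕ} (f : ℕ → ℕ → ℕ → ℤ) (r c r1 c1 r2 c2 : S → ℕ)
    (h1 : ∀ s, r1 s < N) (h2 : ∀ s, r2 s < N) (h : tripleSum f r c r1 c1 r2 c2 ≠ 0) :
    Phi N r (colAlt c (pp r1 c1 r2 c2)) ≠ 0 := by
  intro h0
  rw [Phi_colAlt_pp _ _ _ _ _ _ h1 h2] at h0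
  have h3 := congrArg (MvPolynomial.eval (fun v : ℕ × ℕ × ℕ => ((f v.1 v.2.1 v.2.2 : ℤ) : ℂ))) h0
  simp only [map_sum, map_mul, eval_C, map_prod, eval_X, map_zero] at h3
  apply h
  have : ((tripleSum f r c r1 c1 r2 c2 : ℤ) : ℂ) = 0 := by
    rw [← h3]
    simp only [tripleSum, sgn]
    push_cast
    rfl
  exact_mod_cast this

end Basic

section Glue

variable {S₁ S₂ : Type*} [Fintype S₁] [DecidableEq S₁] [Fintype S₂] [DecidableEq S₂]

/-- Gluing two functions on disjoint blocks. -/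
def glue (F₁ : Fn2 S₁) (F₂ : Fn2 S₂) : Fn2 (S₁ ⊕ S₂) := fun w1 w2 =>
  F₁ (w1 ∘ Sum.inl) (w2 ∘ Sum.inl) * F₂ (w1 ∘ Sum.inr) (w2 ∘ Sum.inr)

lemma sum_stab_elim {M : Type*} [AddCommMonoid M] (c₁ : S₁ → ℕ) (c₂ : S₂ → ℕ)
    (hd : ∀ x y, c₁ x ≠ c₂ y) (φ : Perm (S₁ ⊕ S₂) → M) :
    ∑ h ∈ stab (Sum.elim c₁ c₂), φ h =
      ∑ g₁ ∈ stab c₁, ∑ g₂ ∈ stab c₂, φ (Perm.sumCongr g₁ g₂) := by
  rw [← Finset.sum_product']
  symm
  refine Finset.sum_bij (fun p _ => Perm.sumCongr p.1 p.2) ?_ ?_ ?_ ?_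
  · rintro ⟨g₁, g₂⟩ hp
    simp only [stab, mem_product, mem_filter, mem_univ, true_and] at hp ⊢
    rintro (x | y)
    · simpa using hp.1 x
    · simpa using hp.2 y
  · rintro ⟨g₁, g₂⟩ _ ⟨g₁', g₂'⟩ _ h
    have := Perm.sumCongrHom_injective (α := S₁) (β := S₂) (a₁ := (g₁, g₂)) (a₂ := (g₁', g₂')) h
    exact this
  · intro h hh
    have hh' : ∀ s, Sum.elim c₁ c₂ (h s) = Sum.elim c₁ c₂ s := (mem_filter.mp hh).2
    have hm : Set.MapsTo h (Set.range Sum.inl) (Set.range Sum.inl) := by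
      rintro _ ⟨x, rfl⟩
      rcases hx : h (Sum.inl x) with y | y
      · exact ⟨y, rfl⟩
      · have := hh' (Sum.inl x)
        rw [hx] at this
        simp only [Sum.elim_inr, Sum.elim_inl] at this
        exact absurd this.symm (hd x y)
    obtain ⟨⟨g₁, g₂⟩, hg⟩ := Perm.mem_sumCongrHom_range_of_perm_mapsTo_inl hm
    have hg' : Perm.sumCongr g₁ g₂ = h := hg
    refine ⟨(g₁, g₂), ?_, hg'⟩
    simp only [stab, mem_product, mem_filter, mem_univ, true_and]
    constructor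
    · intro x
      have := hh' (Sum.inl x)
      rw [← hg'] at this
      simpa using this
    · intro y
      have := hh' (Sum.inr y)
      rw [← hg'] at this
      simpa using this
  · intro _ _; rfl

lemma sgn_sumCongr (g₁ : Perm S₁) (g₂ : Perm S₂) :
    sgn (Perm.sumCongr g₁ g₂) = sgn g₁ * sgn g₂ := by
  simp [sgn, Perm.sign_sumCongr]

lemma polyRC_glue (r₁ c₁ : S₁ → ℕ) (r₂ c₂ : S₂ → ℕ) (hd : ∀ x y, c₁ x ≠ c₂ y) (w : S₁ ⊕ S₂ → ℕ) :
    polyRC (Sum.elim r₁ r₂) (Sum.elim c₁ c₂) w = polyRC r₁ c₁ (w ∘ Sum.inl) * polyRC r₂ c₂ (w ∘ Sum.inr) := by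
  rw [polyRC, sum_stab_elim _ _ hd, polyRC, polyRC, sum_mul_sum]
  refine sum_congr rfl fun g₁ _ => sum_congr rfl fun g₂ _ => ?_
  rw [sgn_sumCongr]
  have : (w = Sum.elim r₁ r₂ ∘ Perm.sumCongr g₁ g₂) ↔
      (w ∘ Sum.inl = r₁ ∘ g₁ ∧ w ∘ Sum.inr = r₂ ∘ g₂) := by
    constructor
    · intro h
      subst h
      constructor <;> · funext x; simp
    · rintro ⟨h, h'⟩
      funext x
      rcases x with x | y
      · simpa using congrFun h x
      · simpa using congrFun h' y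
  by_cases h1 : w ∘ Sum.inl = r₁ ∘ g₁
  · by_cases h2 : w ∘ Sum.inr = r₂ ∘ g₂
    · rw [if_pos (this.mpr ⟨h1, h2⟩), if_pos h1, if_pos h2]; ring
    · rw [if_neg (fun q => h2 (this.mp q).2), if_neg h2]; ring
  · rw [if_neg (fun q => h1 (this.mp q).1), if_neg h1]; ring

lemma colAlt_glue (c₁ : S₁ → ℕ) (c₂ : S₂ → ℕ) (hd : ∀ x y, c₁ x ≠ c₂ y) (F₁ : Fn2 S₁) (F₂ : Fn2 S₂) :
    colAlt (Sum.elim c₁ c₂) (glue F₁ F₂) = glue (colAlt c₁ F₁) (colAlt c₂ F₂) := by
  funext w1 w2
  simp only [colAlt, glue, Finset.sum_apply, Pi.smul_apply, smul_eq_mul, act_apply]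
  rw [sum_stab_elim _ _ hd, sum_mul_sum]
  refine sum_congr rfl fun g₁ _ => sum_congr rfl fun g₂ _ => ?_
  rw [sgn_sumCongr]
  have e1 : ∀ w : S₁ ⊕ S₂ → ℕ, w ∘ Perm.sumCongr g₁ g₂ ∘ Sum.inl = w ∘ Sum.inl ∘ g₁ := by
    intro w; funext x; simp
  have e2 : ∀ w : S₁ ⊕ S₂ → ℕ, w ∘ Perm.sumCongr g₁ g₂ ∘ Sum.inr = w ∘ Sum.inr ∘ g₂ := by
    intro w; funext x; simp
  simp only [Function.comp_assoc]
  rw [e1, e1, e2, e2]
  ring

lemma sum_words_elim {M : Type*} [AddCommMonoid M] (N : ℕ) (A : (S₁ ⊕ S₂ → Fin N) → M) :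
    ∑ w, A w = ∑ u₁ : S₁ → Fin N, ∑ u₂ : S₂ → Fin N, A (Sum.elim u₁ u₂) := by
  rw [← Fintype.sum_prod_type']
  exact (Equiv.sum_comp (Equiv.sumArrowEquivProdArrow S₁ S₂ (Fin N)).symm A).symm

/-- Multiplicativity of the polarisation polynomial. -/
lemma Phi_glue (N : ℕ) (r₁ : S₁ → ℕ) (r₂ : S₂ → ℕ) (F₁ : Fn2 S₁) (F₂ : Fn2 S₂) :
    Phi N (Sum.elim r₁ r₂) (glue F₁ F₂) = Phi N r₁ F₁ * Phi N r₂ F₂ := by
  simp only [Phi]
  rw [sum_words_elim]
  simp_rw [sum_words_elim (S₁ := S₁) (S₂ := S₂) N]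
  have key : ∀ (a₁ b₁ : S₁ → Fin N) (a₂ b₂ : S₂ → Fin N),
      C (glue F₁ F₂ (fun s => ((Sum.elim a₁ a₂ s : Fin N) : ℕ))
        (fun s => ((Sum.elim b₁ b₂ s : Fin N) : ℕ))) *
        ∏ s, (X (((Sum.elim a₁ a₂ s : Fin N) : ℕ), ((Sum.elim b₁ b₂ s : Fin N) : ℕ),
          Sum.elim r₁ r₂ s) : MvPolynomial (ℕ × ℕ × ℕ) ℂ) =
      (C (F₁ (fun s => (a₁ s : ℕ)) (fun s => (b₁ s : ℕ))) *
        ∏ s, X ((a₁ s : ℕ), (b₁ s : ℕ), r₁ s)) *
      (C (F₂ (fun s => (a₂ s : ℕ)) (fun s => (b₂ s : ℕ))) *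
        ∏ s, X ((a₂ s : ℕ), (b₂ s : ℕ), r₂ s)) := by
    intro a₁ b₁ a₂ b₂
    rw [Fintype.prod_sum_type]
    simp only [glue, Sum.elim_inl, Sum.elim_inr, map_mul]
    have h1 : ((fun s => ((Sum.elim a₁ a₂ s : Fin N) : ℕ)) ∘ Sum.inl) = fun s => (a₁ s : ℕ) := rfl
    have h2 : ((fun s => ((Sum.elim a₁ a₂ s : Fin N) : ℕ)) ∘ Sum.inr) = fun s => (a₂ s : ℕ) := rfl
    have h3 : ((fun s => ((Sum.elim b₁ b₂ s : Fin N) : ℕ)) ∘ Sum.inl) = fun s => (b₁ s : ℕ) := rfl
    have h4 : ((fun s => ((Sum.elim b₁ b₂ s : Fin N) : ℕ)) ∘ Sum.inr) = fun s => (b₂ s : ℕ) := rfl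
    rw [h1, h2, h3, h4]
    ring
  simp_rw [key]
  rw [Finset.sum_mul_sum]
  refine sum_congr rfl fun a₁ _ => ?_
  refine sum_congr rfl fun a₂ _ => ?_
  rw [Finset.sum_mul_sum]

/-- Labels on the two sides of a glued block. -/
def dbl {S : Type*} (c : S → ℕ) : S → ℕ := fun s => 2 * c s
/-- Labels on the two sides of a glued block. -/
def dbl1 {S : Type*} (c : S → ℕ) : S → ℕ := fun s => 2 * c s + 1

lemma dbl_iff {S : Type*} (c : S → ℕ) (s t : S) : dbl c s = dbl c t ↔ c s = c t := by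
  simp [dbl]

lemma dbl1_iff {S : Type*} (c : S → ℕ) (s t : S) : dbl1 c s = dbl1 c t ↔ c s = c t := by
  simp [dbl1]

lemma dbl_ne_dbl1 (c₁ : S₁ → ℕ) (c₂ : S₂ → ℕ) (x : S₁) (y : S₂) : dbl c₁ x ≠ dbl1 c₂ y := by
  simp only [dbl, dbl1]; omega

/-- The glued product of polytabloids. -/
lemma pp_glue (r1 c1 r2 c2 : S₁ → ℕ) (r1' c1' r2' c2' : S₂ → ℕ) :
    pp (Sum.elim r1 r1') (Sum.elim (dbl c1) (dbl1 c1')) (Sum.elim r2 r2')
        (Sum.elim (dbl c2) (dbl1 c2')) = glue (pp r1 c1 r2 c2) (pp r1' c1' r2' c2') := by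
  funext w1 w2
  simp only [pp, glue]
  rw [polyRC_glue _ _ _ _ (dbl_ne_dbl1 _ _), polyRC_glue _ _ _ _ (dbl_ne_dbl1 _ _),
    polyRC_congr (c := dbl c1) (c' := c1) (dbl_iff c1), polyRC_congr (c := dbl1 c1') (c' := c1') (dbl1_iff c1'),
    polyRC_congr (c := dbl c2) (c' := c2) (dbl_iff c2), polyRC_congr (c := dbl1 c2') (c' := c2') (dbl1_iff c2')]
  ring

/-- **Semigroup property** at the level of polynomials. -/
lemma Phi_semigroup {N : ℕ} {r c r1 c1 r2 c2 : S₁ → ℕ} {r' c' r1' c1' r2' c2' : S₂ → ℕ}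
    (h : Phi N r (colAlt c (pp r1 c1 r2 c2)) ≠ 0)
    (h' : Phi N r' (colAlt c' (pp r1' c1' r2' c2')) ≠ 0) :
    Phi N (Sum.elim r r') (colAlt (Sum.elim (dbl c) (dbl1 c'))
      (pp (Sum.elim r1 r1') (Sum.elim (dbl c1) (dbl1 c1')) (Sum.elim r2 r2')
        (Sum.elim (dbl c2) (dbl1 c2')))) ≠ 0 := by
  rw [pp_glue, colAlt_glue _ _ (dbl_ne_dbl1 _ _), Phi_glue,
    colAlt_congr (c := dbl c) (c' := c) (dbl_iff c), colAlt_congr (c := dbl1 c') (c' := c') (dbl1_iff c')]
  exact mul_ne_zero h h'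

end Glue

section Tabular

variable {S : Type*} [Fintype S] [DecidableEq S]

/-- `(r,c)` are the row and column labels of a filling of a (column-permuted) Young diagram:
each column is top-aligned. -/
def IsTabular (r c : S → ℕ) : Prop :=
  (∀ s t, r s = r t → c s = c t → s = t) ∧ ∀ s i, i < r s → ∃ t, c t = c s ∧ r t = i

/-- Number of slots in the column `j`. -/
def ht (c : S → ℕ) (j : ℕ) : ℕ := (univ.filter fun s => c s = j).card

/-- The multiset of the column heights. -/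
def heights (c : S → ℕ) : Multiset ℕ := (univ.image c).val.map (ht c)

omit [Fintype S] [DecidableEq S] in
lemma IsTabular.congr {r c c' : S → ℕ} (h : IsTabular r c) (hc : ∀ s t, c s = c t ↔ c' s = c' t) :
    IsTabular r c' := by
  refine ⟨fun s t h1 h2 => h.1 s t h1 ((hc s t).mpr h2), fun s i hi => ?_⟩
  obtain ⟨t, h1, h2⟩ := h.2 s i hi
  exact ⟨t, (hc t s).mp h1, h2⟩

lemma tab_lt {r c : S → ℕ} (h : IsTabular r c) (s : S) : r s < ht c (c s) := by
  have hsub : range (r s + 1) ⊆ (univ.filter fun t => c t = c s).image r := by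
    intro i hi
    rw [mem_range] at hi
    rw [mem_image]
    rcases Nat.lt_succ_iff_lt_or_eq.mp hi with hi | hi
    · obtain ⟨t, h1, h2⟩ := h.2 s i hi
      exact ⟨t, by simp [h1], h2⟩
    · exact ⟨s, by simp, hi.symm⟩
  have := (card_le_card hsub).trans card_image_le
  rw [card_range] at this
  exact this

lemma tab_cell {r c : S → ℕ} (h : IsTabular r c) {j i : ℕ} (hi : i < ht c j) :
    ∃ s, c s = j ∧ r s = i := by
  by_contra hno
  push Not at hno
  have hlt : ∀ s ∈ univ.filter (fun t => c t = j), r s ∈ range i := by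
    intro s hs
    have hs' : c s = j := (mem_filter.mp hs).2
    rw [mem_range]
    by_contra hge
    have hne := hno s hs'
    have : i < r s := lt_of_le_of_ne (not_lt.mp hge) (Ne.symm hne)
    obtain ⟨t, h1, h2⟩ := h.2 s i this
    exact hno t (h1.trans hs') h2
  have hinj : Set.InjOn r (univ.filter fun t => c t = j : Finset S) := by
    intro s hs t ht' hrr
    have hs' : c s = j := (mem_filter.mp hs).2
    have ht'' : c t = j := (mem_filter.mp ht').2
    exact h.1 s t hrr (hs'.trans ht''.symm)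
  have := card_le_card_of_injOn r hlt hinj
  rw [card_range] at this
  exact absurd hi (not_lt.mpr this)

omit [Fintype S] [DecidableEq S] in
lemma card_fiber_count [Fintype S] [DecidableEq S] (d : S → ℕ) (n : ℕ) :
    Fintype.card {j : ↥(univ.image d) // ht d j = n} = Multiset.count n (heights d) := by
  rw [heights, Multiset.count_map, Fintype.card_subtype]
  have : ((univ : Finset ↥(univ.image d)).filter fun j : ↥(univ.image d) => ht d j = n).card =
      ((univ.image d).filter fun j => ht d j = n).card := by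
    rw [← Finset.card_map (Function.Embedding.subtype _)]
    congr 1
    ext j
    simp only [mem_map, mem_filter, mem_univ, true_and, Function.Embedding.subtype_apply,
      Subtype.exists, exists_and_right, exists_eq_right]
    constructor
    · rintro ⟨hj, h2⟩; exact ⟨hj, h2⟩
    · rintro ⟨hj, h2⟩; exact ⟨hj, h2⟩
  rw [this]
  simp only [eq_comm]
  rfl

lemma exists_col_equiv {S' : Type*} [Fintype S'] [DecidableEq S'] {c : S → ℕ} {c' : S' → ℕ}
    (h : heights c = heights c') :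
    ∃ π : ↥(univ.image c) ≃ ↥(univ.image c'), ∀ j, ht c' (π j) = ht c j := by
  have hcount : ∀ n, Fintype.card {j : ↥(univ.image c) // ht c j = n} =
      Fintype.card {j : ↥(univ.image c') // ht c' j = n} := by
    intro n
    rw [card_fiber_count c, card_fiber_count c', h]
  let e : ∀ n, {j : ↥(univ.image c) // ht c j = n} ≃ {j : ↥(univ.image c') // ht c' j = n} :=
    fun n => Fintype.equivOfCardEq (hcount n)
  refine ⟨Equiv.ofFiberEquiv (f := fun j => ht c j) (g := fun j => ht c' j) e, fun j => ?_⟩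
  exact Equiv.ofFiberEquiv_map e j

/-- Two tabular fillings with the same column heights are isomorphic. -/
lemma exists_iso {S' : Type*} [Fintype S'] [DecidableEq S'] {r c : S → ℕ} {r' c' : S' → ℕ}
    (h : IsTabular r c) (h' : IsTabular r' c') (hh : heights c = heights c') :
    ∃ e : S ≃ S', (∀ s, r' (e s) = r s) ∧ ∀ s t, c' (e s) = c' (e t) ↔ c s = c t := by
  obtain ⟨π, hπ⟩ := exists_col_equiv hh
  have hmem : ∀ s, c s ∈ univ.image c := fun s => mem_image_of_mem c (mem_univ s)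
  have hmem' : ∀ s, c' s ∈ univ.image c' := fun s => mem_image_of_mem c' (mem_univ s)
  have hex : ∀ s, ∃ s', c' s' = π ⟨c s, hmem s⟩ ∧ r' s' = r s := by
    intro s
    apply tab_cell h'
    rw [hπ]
    exact tab_lt h s
  choose f hf1 hf2 using hex
  have finj : Function.Injective f := by
    intro s t hst
    have h1 : (π ⟨c s, hmem s⟩ : ℕ) = π ⟨c t, hmem t⟩ := by rw [← hf1, ← hf1, hst]
    have h2 := π.injective (Subtype.ext h1)
    have h3 : c s = c t := congrArg Subtype.val h2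
    have h4 : r s = r t := by rw [← hf2, ← hf2, hst]
    exact h.1 s t h4 h3
  have fsurj : Function.Surjective f := by
    intro s'
    obtain ⟨⟨j, hj⟩, hj'⟩ := π.surjective ⟨c' s', hmem' s'⟩
    have hlt : r' s' < ht c j := by
      have := hπ ⟨j, hj⟩
      simp only at this
      rw [← this, hj']
      exact tab_lt h' s'
    obtain ⟨s, hs1, hs2⟩ := tab_cell h hlt
    refine ⟨s, h'.1 _ _ ((hf2 s).trans hs2) ?_⟩
    rw [hf1]
    have : (⟨c s, hmem s⟩ : ↥(univ.image c)) = ⟨j, hj⟩ := Subtype.ext hs1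
    rw [this, hj']
  refine ⟨Equiv.ofBijective f ⟨finj, fsurj⟩, hf2, fun s t => ?_⟩
  simp only [Equiv.ofBijective_apply]
  rw [hf1, hf1]
  constructor
  · intro q
    have := π.injective (Subtype.ext q)
    exact congrArg Subtype.val this
  · intro q
    have : (⟨c s, hmem s⟩ : ↥(univ.image c)) = ⟨c t, hmem t⟩ := Subtype.ext q
    rw [this]

lemma ht_comp_equiv {S' : Type*} [Fintype S'] [DecidableEq S'] (e : S ≃ S') (c : S' → ℕ) (j : ℕ) :
    ht (c ∘ e) j = ht c j := by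
  refine Finset.card_equiv e fun s => ?_
  simp [Function.comp]

lemma IsTabular.comp_equiv {S' : Type*} {r c : S' → ℕ} (h : IsTabular r c) (e : S ≃ S') :
    IsTabular (r ∘ e) (c ∘ e) := by
  refine ⟨fun s t h1 h2 => e.injective (h.1 _ _ h1 h2), fun s i hi => ?_⟩
  obtain ⟨t, h1, h2⟩ := h.2 (e s) i hi
  refine ⟨e.symm t, ?_, ?_⟩ <;> simpa [Function.comp]

section Pull

variable {S' : Type*} [Fintype S'] [DecidableEq S']

/-- Transport of a function along a bijection of the slots. -/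
def pull (e : S ≃ S') (G : Fn2 S') : Fn2 S := fun w1 w2 => G (w1 ∘ e.symm) (w2 ∘ e.symm)

lemma sum_stab_conj {M : Type*} [AddCommMonoid M] (e : S ≃ S') (c' : S' → ℕ) (φ : Perm S' → M) :
    ∑ σ ∈ stab (c' ∘ e), φ (e.permCongr σ) = ∑ τ ∈ stab c', φ τ := by
  refine Finset.sum_equiv e.permCongr (fun σ => ?_) (fun _ _ => rfl)
  simp only [stab, mem_filter, mem_univ, true_and, Function.comp]
  constructor
  · intro h x
    have := h (e.symm x)
    simpa [Equiv.permCongr_apply] using this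
  · intro h s
    have := h (e s)
    simpa [Equiv.permCongr_apply] using this

lemma sgn_permCongr (e : S ≃ S') (σ : Perm S) : sgn (e.permCongr σ) = sgn σ := by
  simp [sgn, Perm.sign_permCongr]

lemma polyRC_pull (e : S ≃ S') (r' c' : S' → ℕ) (w : S → ℕ) :
    polyRC (r' ∘ e) (c' ∘ e) w = polyRC r' c' (w ∘ e.symm) := by
  rw [polyRC, polyRC, ← sum_stab_conj e c']
  refine sum_congr rfl fun σ _ => ?_
  rw [sgn_permCongr]
  have : (w = (r' ∘ e) ∘ σ) ↔ (w ∘ e.symm = r' ∘ e.permCongr σ) := by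
    constructor
    · intro h
      subst h
      funext x
      simp [Equiv.permCongr_apply]
    · intro h
      funext s
      have := congrFun h (e s)
      simpa [Equiv.permCongr_apply] using this
  by_cases h : w = (r' ∘ e) ∘ σ
  · rw [if_pos h, if_pos (this.mp h)]
  · rw [if_neg h, if_neg (fun q => h (this.mpr q))]

lemma pp_pull (e : S ≃ S') (r1 c1 r2 c2 : S' → ℕ) :
    pp (r1 ∘ e) (c1 ∘ e) (r2 ∘ e) (c2 ∘ e) = pull e (pp r1 c1 r2 c2) := by
  funext w1 w2
  simp only [pp, pull, polyRC_pull]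

lemma colAlt_pull (e : S ≃ S') (c' : S' → ℕ) (F : Fn2 S') :
    colAlt (c' ∘ e) (pull e F) = pull e (colAlt c' F) := by
  funext w1 w2
  simp only [colAlt, pull, Finset.sum_apply, Pi.smul_apply, smul_eq_mul, act_apply]
  rw [← sum_stab_conj e c']
  refine sum_congr rfl fun σ _ => ?_
  rw [sgn_permCongr]
  have : ∀ w : S → ℕ, w ∘ e.symm ∘ e.permCongr σ = w ∘ σ ∘ e.symm := by
    intro w; funext x; simp [Equiv.permCongr_apply]
  simp only [Function.comp_assoc, this]

lemma Phi_pull (N : ℕ) (e : S ≃ S') (r' : S' → ℕ) (G : Fn2 S') :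
    Phi N (r' ∘ e) (pull e G) = Phi N r' G := by
  simp only [Phi, pull]
  let E : (S → Fin N) ≃ (S' → Fin N) := Equiv.arrowCongr e (Equiv.refl _)
  have hE : ∀ w s', E w s' = w (e.symm s') := fun w s' => rfl
  let B : (S' → Fin N) → (S' → Fin N) → MvPolynomial (ℕ × ℕ × ℕ) ℂ := fun u1 u2 =>
    C (G (fun s => (u1 s : ℕ)) (fun s => (u2 s : ℕ))) * ∏ s, X ((u1 s : ℕ), (u2 s : ℕ), r' s)
  have key : ∀ w1 w2 : S → Fin N,
      C (G ((fun s => (w1 s : ℕ)) ∘ e.symm) ((fun s => (w2 s : ℕ)) ∘ e.symm)) *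
        ∏ s, (X ((w1 s : ℕ), (w2 s : ℕ), (r' ∘ e) s) : MvPolynomial (ℕ × ℕ × ℕ) ℂ) =
      B (E w1) (E w2) := by
    intro w1 w2
    simp only [B]
    congr 1
    rw [← Equiv.prod_comp e]
    refine prod_congr rfl fun s _ => ?_
    simp [hE]
  calc _ = ∑ w1 : S → Fin N, ∑ w2 : S → Fin N, B (E w1) (E w2) :=
        sum_congr rfl fun w1 _ => sum_congr rfl fun w2 _ => key w1 w2
    _ = ∑ u1 : S' → Fin N, ∑ w2 : S → Fin N, B u1 (E w2) :=
        Equiv.sum_comp E (fun u1 => ∑ w2 : S → Fin N, B u1 (E w2))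
    _ = ∑ u1 : S' → Fin N, ∑ u2 : S' → Fin N, B u1 u2 :=
        sum_congr rfl fun u1 _ => Equiv.sum_comp E (fun u2 => B u1 u2)

/-- Transport of the whole statement along a bijection of slots. -/
lemma Phi_transport (N : ℕ) (e : S ≃ S') {r c : S → ℕ} {r' c' r1 c1 r2 c2 : S' → ℕ}
    (hr : ∀ s, r' (e s) = r s) (hc : ∀ s t, c' (e s) = c' (e t) ↔ c s = c t) :
    Phi N r (colAlt c (pp (r1 ∘ e) (c1 ∘ e) (r2 ∘ e) (c2 ∘ e))) =
      Phi N r' (colAlt c' (pp r1 c1 r2 c2)) := by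
  have h1 : r = r' ∘ e := by funext s; exact (hr s).symm
  have h2 : ∀ s t, c s = c t ↔ (c' ∘ e) s = (c' ∘ e) t := fun s t => (hc s t).symm
  rw [colAlt_congr h2, h1, pp_pull, colAlt_pull, Phi_pull]

end Pull

end Tabular

section Build

/-- The column heights add up when gluing. -/
lemma ht_elim {S₁ S₂ : Type*} [Fintype S₁] [DecidableEq S₁] [Fintype S₂] [DecidableEq S₂]
    (a : S₁ → ℕ) (b : S₂ → ℕ) (j : ℕ) : ht (Sum.elim a b) j = ht a j + ht b j := by
  simp only [ht, Finset.card_filter]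
  rw [Fintype.sum_sum_type]
  rfl

lemma heights_elim {S₁ S₂ : Type*} [Fintype S₁] [DecidableEq S₁] [Fintype S₂] [DecidableEq S₂]
    (a : S₁ → ℕ) (b : S₂ → ℕ) (hd : ∀ x y, a x ≠ b y) :
    heights (Sum.elim a b) = heights a + heights b := by
  have hdis : Disjoint (univ.image a) (univ.image b) := by
    rw [Finset.disjoint_left]
    intro j hj hj'
    obtain ⟨x, -, rfl⟩ := mem_image.mp hj
    obtain ⟨y, -, hy⟩ := mem_image.mp hj'
    exact hd x y hy.symm
  have himg : univ.image (Sum.elim a b) = (univ.image a).disjUnion (univ.image b) hdis := by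
    rw [Finset.disjUnion_eq_union]
    ext j
    simp only [mem_image, mem_univ, true_and, mem_union, Sum.exists, Sum.elim_inl, Sum.elim_inr]
  simp only [heights]
  rw [himg, Finset.disjUnion_val, Multiset.map_add]
  congr 1
  · refine Multiset.map_congr rfl fun j hj => ?_
    rw [ht_elim]
    have : ht b j = 0 := by
      simp only [ht, card_eq_zero, filter_eq_empty_iff, mem_univ, forall_const]
      intro y hy
      have hj' : j ∈ univ.image a := hj
      obtain ⟨x, -, hx⟩ := mem_image.mp hj'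
      exact hd x y (hx.trans hy.symm)
    omega
  · refine Multiset.map_congr rfl fun j hj => ?_
    rw [ht_elim]
    have : ht a j = 0 := by
      simp only [ht, card_eq_zero, filter_eq_empty_iff, mem_univ, forall_const]
      intro x hx
      have hj' : j ∈ univ.image b := hj
      obtain ⟨y, -, hy⟩ := mem_image.mp hj'
      exact hd x y (hx.trans hy.symm)
    omega

lemma heights_relabel {S : Type*} [Fintype S] [DecidableEq S] (c : S → ℕ) (π : ℕ → ℕ)
    (hπ : Function.Injective π) : heights (π ∘ c) = heights c := by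
  simp only [heights]
  have himg : univ.image (π ∘ c) = (univ.image c).image π := by
    rw [Finset.image_image]
  rw [himg, Finset.image_val_of_injOn hπ.injOn, Multiset.map_map]
  refine Multiset.map_congr rfl fun j _ => ?_
  simp only [Function.comp, ht]
  congr 1
  ext s
  simp [hπ.eq_iff]

lemma IsTabular.glue {S₁ S₂ : Type*} {r c : S₁ → ℕ} {r' c' : S₂ → ℕ}
    (h : IsTabular r c) (h' : IsTabular r' c') :
    IsTabular (Sum.elim r r') (Sum.elim (dbl c) (dbl1 c')) := by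
  refine ⟨?_, ?_⟩
  · rintro (x | x) (y | y) h1 h2
    · simp only [Sum.elim_inl, dbl] at h1 h2
      rw [h.1 x y h1 (by omega)]
    · simp only [Sum.elim_inl, Sum.elim_inr, dbl, dbl1] at h2
      omega
    · simp only [Sum.elim_inl, Sum.elim_inr, dbl, dbl1] at h2
      omega
    · simp only [Sum.elim_inr, dbl1] at h1 h2
      rw [h'.1 x y h1 (by omega)]
  · rintro (x | x) i hi
    · obtain ⟨t, h1, h2⟩ := h.2 x i hi
      exact ⟨Sum.inl t, by simp [dbl, h1], h2⟩
    · obtain ⟨t, h1, h2⟩ := h'.2 x i hi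
      exact ⟨Sum.inr t, by simp [dbl1, h1], h2⟩

/-- A model on some finite set of slots with column heights `M`, such that the polynomial does
not vanish; the polytabloids have `x` columns of height two and `y` of height one. -/
def Real (M : Multiset ℕ) (x y : ℕ) : Prop :=
  ∃ (S : Type) (_ : Fintype S) (_ : DecidableEq S) (r c r1 c1 r2 c2 : S → ℕ),
    IsTabular r c ∧ IsTabular r1 c1 ∧ IsTabular r2 c2 ∧
    heights c = M ∧ heights c1 = x • {2} + y • {1} ∧ heights c2 = x • {2} + y • {1} ∧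
    Phi 2 r (colAlt c (pp r1 c1 r2 c2)) ≠ 0

lemma heights_dbl_add {S₁ S₂ : Type*} [Fintype S₁] [DecidableEq S₁] [Fintype S₂] [DecidableEq S₂]
    (c : S₁ → ℕ) (c' : S₂ → ℕ) :
    heights (Sum.elim (dbl c) (dbl1 c')) = heights c + heights c' := by
  rw [heights_elim _ _ (dbl_ne_dbl1 _ _)]
  have h1 : dbl c = (fun j => 2 * j) ∘ c := rfl
  have h2 : dbl1 c' = (fun j => 2 * j + 1) ∘ c' := rfl
  rw [h1, h2, heights_relabel _ _ (fun a b h => by simpa using h),
    heights_relabel _ _ (fun a b h => by simpa using h)]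

lemma Real.add {M M' : Multiset ℕ} {x y x' y' : ℕ} (h : Real M x y) (h' : Real M' x' y') :
    Real (M + M') (x + x') (y + y') := by
  obtain ⟨S, _, _, r, c, r1, c1, r2, c2, t0, t1, t2, hM, a1, a2, hP⟩ := h
  obtain ⟨S', _, _, r', c', r1', c1', r2', c2', t0', t1', t2', hM', a1', a2', hP'⟩ := h'
  refine ⟨S ⊕ S', inferInstance, inferInstance, Sum.elim r r', Sum.elim (dbl c) (dbl1 c'),
    Sum.elim r1 r1', Sum.elim (dbl c1) (dbl1 c1'), Sum.elim r2 r2', Sum.elim (dbl c2) (dbl1 c2'),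
    t0.glue t0', t1.glue t1', t2.glue t2', ?_, ?_, ?_, Phi_semigroup hP hP'⟩
  · rw [heights_dbl_add, hM, hM']
  · rw [heights_dbl_add, a1, a1', add_nsmul, add_nsmul]; abel
  · rw [heights_dbl_add, a2, a2', add_nsmul, add_nsmul]; abel

lemma Real.add_nsmul {M B : Multiset ℕ} {x y : ℕ} (h : Real M x 1) (hB : Real B y 0) (n : ℕ) :
    ∃ x', Real (M + n • B) x' 1 := by
  induction n with
  | zero => exact ⟨x, by simpa using h⟩
  | succ n ih =>
    obtain ⟨x', hx'⟩ := ih
    refine ⟨x' + y, ?_⟩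
    have := hx'.add hB
    have e : M + (n + 1) • B = M + n • B + B := by rw [succ_nsmul, add_assoc]
    rw [e]
    exact this

/-- The polynomial evaluation points. -/
def M1 (a b : ℕ) : ℤ := if a = b then 1 else 0
/-- The polynomial evaluation points. -/
def M2 (a b : ℕ) : ℤ := if a = b then (if a = 0 then 1 else -1) else 0
/-- The polynomial evaluation points. -/
def M3 (a b : ℕ) : ℤ := if a = b then 0 else 1
/-- The polynomial evaluation points. -/
def M4 (a b : ℕ) : ℤ := if a = b then 0 else (if a = 0 then 1 else -1)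
/-- The polynomial evaluation points. -/
def pt (m0 m1 m2 m3 : ℕ → ℕ → ℤ) (a b i : ℕ) : ℤ :=
  match i with
  | 0 => m0 a b
  | 1 => m1 a b
  | 2 => m2 a b
  | _ => m3 a b

set_option maxRecDepth 1000000 in
lemma real_1 : Real {1} 0 1 := by
  have hr1 : ∀ s, (![0] : Fin 1 → ℕ) s < 2 := by decide +kernel
  have hr2 : ∀ s, (![0] : Fin 1 → ℕ) s < 2 := by decide +kernel
  refine ⟨Fin 1, inferInstance, inferInstance, ![0], ![0], ![0], ![0], ![0], ![0],
    ?_, ?_, ?_, ?_, ?_, ?_, ?_⟩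
  · unfold IsTabular; decide +kernel
  · unfold IsTabular; decide +kernel
  · unfold IsTabular; decide +kernel
  · decide +kernel
  · decide +kernel
  · decide +kernel
  · exact Phi_ne_zero_of_tripleSum (pt M1 M2 M3 M4) _ _ _ _ _ _ hr1 hr2 (by decide +kernel)

set_option maxRecDepth 1000000 in
lemma real_11 : Real {1, 1} 1 0 := by
  have hr1 : ∀ s, (![0,1] : Fin 2 → ℕ) s < 2 := by decide +kernel
  have hr2 : ∀ s, (![0,1] : Fin 2 → ℕ) s < 2 := by decide +kernel
  refine ⟨Fin 2, inferInstance, inferInstance, ![0,0], ![0,1], ![0,1], ![0,0], ![0,1], ![0,0],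
    ?_, ?_, ?_, ?_, ?_, ?_, ?_⟩
  · unfold IsTabular; decide +kernel
  · unfold IsTabular; decide +kernel
  · unfold IsTabular; decide +kernel
  · decide +kernel
  · decide +kernel
  · decide +kernel
  · exact Phi_ne_zero_of_tripleSum (pt M1 M2 M3 M4) _ _ _ _ _ _ hr1 hr2 (by decide +kernel)

set_option maxRecDepth 1000000 in
lemma real_21 : Real {2, 1} 1 1 := by
  have hr1 : ∀ s, (![0,0,1] : Fin 3 → ℕ) s < 2 := by decide +kernel
  have hr2 : ∀ s, (![0,0,1] : Fin 3 → ℕ) s < 2 := by decide +kernel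
  refine ⟨Fin 3, inferInstance, inferInstance, ![0,1,0], ![0,0,1], ![0,0,1], ![0,1,0], ![0,0,1], ![0,1,0],
    ?_, ?_, ?_, ?_, ?_, ?_, ?_⟩
  · unfold IsTabular; decide +kernel
  · unfold IsTabular; decide +kernel
  · unfold IsTabular; decide +kernel
  · decide +kernel
  · decide +kernel
  · decide +kernel
  · exact Phi_ne_zero_of_tripleSum (pt M1 M2 M3 M4) _ _ _ _ _ _ hr1 hr2 (by decide +kernel)

set_option maxRecDepth 1000000 in
lemma real_22 : Real {2, 2} 2 0 := by
  have hr1 : ∀ s, (![0,0,1,1] : Fin 4 → ℕ) s < 2 := by decide +kernel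
  have hr2 : ∀ s, (![0,0,1,1] : Fin 4 → ℕ) s < 2 := by decide +kernel
  refine ⟨Fin 4, inferInstance, inferInstance, ![0,1,0,1], ![0,0,1,1], ![0,0,1,1], ![0,1,0,1], ![0,0,1,1], ![0,1,0,1],
    ?_, ?_, ?_, ?_, ?_, ?_, ?_⟩
  · unfold IsTabular; decide +kernel
  · unfold IsTabular; decide +kernel
  · unfold IsTabular; decide +kernel
  · decide +kernel
  · decide +kernel
  · decide +kernel
  · exact Phi_ne_zero_of_tripleSum (pt M1 M2 M3 M4) _ _ _ _ _ _ hr1 hr2 (by decide +kernel)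

set_option maxRecDepth 1000000 in
lemma real_3 : Real {3} 1 1 := by
  have hr1 : ∀ s, (![0,1,0] : Fin 3 → ℕ) s < 2 := by decide +kernel
  have hr2 : ∀ s, (![0,0,1] : Fin 3 → ℕ) s < 2 := by decide +kernel
  refine ⟨Fin 3, inferInstance, inferInstance, ![0,1,2], ![0,0,0], ![0,1,0], ![0,0,1], ![0,0,1], ![0,1,0],
    ?_, ?_, ?_, ?_, ?_, ?_, ?_⟩
  · unfold IsTabular; decide +kernel
  · unfold IsTabular; decide +kernel
  · unfold IsTabular; decide +kernel
  · decide +kernel
  · decide +kernel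
  · decide +kernel
  · exact Phi_ne_zero_of_tripleSum (pt M1 M3 M4 M2) _ _ _ _ _ _ hr1 hr2 (by decide +kernel)

set_option maxRecDepth 1000000 in
lemma real_32 : Real {3, 2} 2 1 := by
  have hr1 : ∀ s, (![0,0,0,1,1] : Fin 5 → ℕ) s < 2 := by decide +kernel
  have hr2 : ∀ s, (![0,0,0,1,1] : Fin 5 → ℕ) s < 2 := by decide +kernel
  refine ⟨Fin 5, inferInstance, inferInstance, ![0,1,2,0,1], ![0,0,0,1,1], ![0,0,0,1,1], ![0,1,2,0,1], ![0,0,0,1,1], ![0,1,2,0,1],
    ?_, ?_, ?_, ?_, ?_, ?_, ?_⟩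
  · unfold IsTabular; decide +kernel
  · unfold IsTabular; decide +kernel
  · unfold IsTabular; decide +kernel
  · decide +kernel
  · decide +kernel
  · decide +kernel
  · exact Phi_ne_zero_of_tripleSum (pt M1 M3 M2 M2) _ _ _ _ _ _ hr1 hr2 (by decide +kernel)

set_option maxRecDepth 1000000 in
lemma real_33 : Real {3, 3} 3 0 := by
  have hr1 : ∀ s, (![0,0,0,1,1,1] : Fin 6 → ℕ) s < 2 := by decide +kernel
  have hr2 : ∀ s, (![0,0,0,1,1,1] : Fin 6 → ℕ) s < 2 := by decide +kernel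
  refine ⟨Fin 6, inferInstance, inferInstance, ![0,1,2,0,1,2], ![0,0,0,1,1,1], ![0,0,0,1,1,1], ![0,1,2,0,1,2], ![0,0,0,1,1,1], ![0,1,2,0,1,2],
    ?_, ?_, ?_, ?_, ?_, ?_, ?_⟩
  · unfold IsTabular; decide +kernel
  · unfold IsTabular; decide +kernel
  · unfold IsTabular; decide +kernel
  · decide +kernel
  · decide +kernel
  · decide +kernel
  · exact Phi_ne_zero_of_tripleSum (pt M1 M2 M3 M4) _ _ _ _ _ _ hr1 hr2 (by decide +kernel)

set_option maxRecDepth 1000000 in
lemma real_4 : Real {4} 2 0 := by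
  have hr1 : ∀ s, (![0,1,0,1] : Fin 4 → ℕ) s < 2 := by decide +kernel
  have hr2 : ∀ s, (![0,0,1,1] : Fin 4 → ℕ) s < 2 := by decide +kernel
  refine ⟨Fin 4, inferInstance, inferInstance, ![0,1,2,3], ![0,0,0,0], ![0,1,0,1], ![0,0,1,1], ![0,0,1,1], ![0,1,0,1],
    ?_, ?_, ?_, ?_, ?_, ?_, ?_⟩
  · unfold IsTabular; decide +kernel
  · unfold IsTabular; decide +kernel
  · unfold IsTabular; decide +kernel
  · decide +kernel
  · decide +kernel
  · decide +kernel
  · exact Phi_ne_zero_of_tripleSum (pt M1 M2 M3 M4) _ _ _ _ _ _ hr1 hr2 (by decide +kernel)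

/-- All column-height multisets with heights at most four and odd size are realised. -/
lemma exists_real (n4 n3 n2 n1 : ℕ) (h : Odd (3 * n3 + n1)) :
    ∃ x, Real (n4 • {4} + n3 • {3} + n2 • {2} + n1 • {1}) x 1 := by
  have add3 : ∀ {M : Multiset ℕ} {x : ℕ}, Real M x 1 → ∀ (n4 a b d : ℕ),
      ∃ x', Real (M + n4 • {4} + a • {3, 3} + b • {2, 2} + d • {1, 1}) x' 1 := by
    intro M x hM n4 a b d
    obtain ⟨x1, h1⟩ := hM.add_nsmul real_4 n4
    obtain ⟨x2, h2⟩ := h1.add_nsmul real_33 a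
    obtain ⟨x3, h3⟩ := h2.add_nsmul real_22 b
    exact h3.add_nsmul real_11 d
  have e3 : ({3, 3} : Multiset ℕ) = 2 • {3} := by decide
  have e2 : ({2, 2} : Multiset ℕ) = 2 • {2} := by decide
  have e1 : ({1, 1} : Multiset ℕ) = 2 • {1} := by decide
  have e21 : ({2, 1} : Multiset ℕ) = {2} + {1} := by decide
  have e32 : ({3, 2} : Multiset ℕ) = {3} + {2} := by decide
  obtain ⟨a, e3a | e3a⟩ := n3.even_or_odd'
  · -- `n3` even, `n1` odd
    have hn1 : Odd n1 := by
      subst e3a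
      rcases n1.even_or_odd with h1 | h1
      · exact absurd h (by
          rw [Nat.not_odd_iff_even]
          exact (Even.mul_left (even_two_mul a) 3).add h1)
      · exact h1
    obtain ⟨d, e1d⟩ := hn1
    obtain ⟨b, e2b | e2b⟩ := n2.even_or_odd'
    · obtain ⟨x', hx'⟩ := add3 real_1 n4 a b d
      refine ⟨x', ?_⟩
      convert hx' using 1
      subst e3a e2b e1d
      rw [e3, e2, e1]
      simp only [mul_nsmul, add_nsmul, one_nsmul, mul_comm a, mul_comm b, mul_comm d]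
      abel
    · obtain ⟨x', hx'⟩ := add3 real_21 n4 a b d
      refine ⟨x', ?_⟩
      convert hx' using 1
      subst e3a e2b e1d
      rw [e3, e2, e1, e21]
      simp only [mul_nsmul, add_nsmul, one_nsmul, mul_comm a, mul_comm b, mul_comm d]
      abel
  · -- `n3` odd, `n1` even
    have hn1 : Even n1 := by
      subst e3a
      rcases n1.even_or_odd with h1 | h1
      · exact h1
      · exact absurd h (by
          rw [Nat.not_odd_iff_even]
          exact (Odd.mul (by decide : Odd 3) (odd_two_mul_add_one a)).add_odd h1)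
    obtain ⟨d, e1d⟩ := hn1.two_dvd
    obtain ⟨b, e2b | e2b⟩ := n2.even_or_odd'
    · obtain ⟨x', hx'⟩ := add3 real_3 n4 a b d
      refine ⟨x', ?_⟩
      convert hx' using 1
      subst e3a e2b e1d
      rw [e3, e2, e1]
      simp only [mul_nsmul, add_nsmul, one_nsmul, mul_comm a, mul_comm b, mul_comm d]
      abel
    · obtain ⟨x', hx'⟩ := add3 real_32 n4 a b d
      refine ⟨x', ?_⟩
      convert hx' using 1
      subst e3a e2b e1d
      rw [e3, e2, e1, e32]
      simp only [mul_nsmul, add_nsmul, one_nsmul, mul_comm a, mul_comm b, mul_comm d]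
      abel

lemma ht_pos {S : Type*} [Fintype S] [DecidableEq S] (c : S → ℕ) {j : ℕ}
    (hj : j ∈ univ.image c) : 0 < ht c j := by
  obtain ⟨s, -, rfl⟩ := mem_image.mp hj
  exact card_pos.mpr ⟨s, by simp⟩

lemma ht_le {S : Type*} [Fintype S] [DecidableEq S] {r c : S → ℕ} (h : IsTabular r c) (k : ℕ)
    (hr : ∀ s, r s < k) (j : ℕ) : ht c j ≤ k := by
  have hinj : Set.InjOn r (univ.filter fun t => c t = j : Finset S) := by
    intro s hs t ht' hrr
    have hs' : c s = j := (mem_filter.mp hs).2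
    have ht'' : c t = j := (mem_filter.mp ht').2
    exact h.1 s t hrr (hs'.trans ht''.symm)
  have := card_le_card_of_injOn (t := range k) r (fun s _ => mem_range.mpr (hr s)) hinj
  simpa [ht] using this

lemma sum_heights {S : Type*} [Fintype S] [DecidableEq S] (c : S → ℕ) :
    (heights c).sum = Fintype.card S := by
  have := Finset.card_eq_sum_card_image c (univ : Finset S)
  rw [Finset.card_univ] at this
  rw [this, heights]
  rfl

/-- **All shapes with at most four rows occur in the tensor square of `(x+1,x)`.**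
For every filling `(r,c)` of a Young diagram (column-permuted) with at most four rows and an odd
number of cells there are polytabloids of two-row shape `(x+1,x)` on which the Young symmetriser
of `(r,c)` does not vanish. -/
theorem fourRows_main {S : Type*} [Fintype S] [DecidableEq S] (r c : S → ℕ)
    (htab : IsTabular r c) (hr : ∀ s, r s < 4) (hodd : Odd (Fintype.card S)) :
    ∃ (r1 c1 r2 c2 : S → ℕ) (x : ℕ), IsTabular r1 c1 ∧ IsTabular r2 c2 ∧
      heights c1 = x • {2} + 1 • {1} ∧ heights c2 = x • {2} + 1 • {1} ∧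
      rowSym r (colAlt c (pp r1 c1 r2 c2)) ≠ 0 := by
  set M := heights c with hM
  have hmem : ∀ k ∈ M, k = 1 ∨ k = 2 ∨ k = 3 ∨ k = 4 := by
    intro k hk
    obtain ⟨j, hj, rfl⟩ := Multiset.mem_map.mp hk
    have h1 := ht_pos c (j := j) hj
    have h2 := ht_le htab 4 hr j
    omega
  have hdec : M = M.count 4 • {4} + M.count 3 • {3} + M.count 2 • {2} + M.count 1 • {1} := by
    ext k
    simp only [Multiset.count_add, Multiset.count_nsmul, Multiset.count_singleton]
    by_cases hk : k = 1 ∨ k = 2 ∨ k = 3 ∨ k = 4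
    · rcases hk with rfl | rfl | rfl | rfl <;> simp
    · push Not at hk
      have : M.count k = 0 := by
        apply Multiset.count_eq_zero_of_notMem
        intro hkm
        rcases hmem k hkm with h | h | h | h
        · exact hk.1 h
        · exact hk.2.1 h
        · exact hk.2.2.1 h
        · exact hk.2.2.2 h
      rw [this]
      simp [hk.1, hk.2.1, hk.2.2.1, hk.2.2.2]
  have hsum : Odd (3 * M.count 3 + M.count 1) := by
    have h1 : M.sum = Fintype.card S := sum_heights c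
    have h3 : M.sum = M.count 4 * 4 + M.count 3 * 3 + M.count 2 * 2 + M.count 1 * 1 := by
      conv_lhs => rw [hdec]
      simp only [Multiset.sum_add, Multiset.sum_nsmul, Multiset.sum_singleton, smul_eq_mul]
    rw [Nat.odd_iff] at hodd ⊢
    omega
  obtain ⟨x, S', _, _, r', c', r1', c1', r2', c2', t0, t1, t2, hM', a1, a2, hP⟩ :=
    exists_real (M.count 4) (M.count 3) (M.count 2) (M.count 1) hsum
  rw [← hdec] at hM'
  obtain ⟨e, he1, he2⟩ := exists_iso htab t0 (hM.symm.trans hM'.symm)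
  have hcomp : ∀ c0 : S' → ℕ, heights (c0 ∘ e) = heights c0 := by
    intro c0
    simp only [heights]
    have himg : univ.image (c0 ∘ e) = univ.image c0 := by
      ext j
      simp only [mem_image, mem_univ, true_and, Function.comp]
      constructor
      · rintro ⟨s, rfl⟩; exact ⟨e s, rfl⟩
      · rintro ⟨s, rfl⟩; exact ⟨e.symm s, by simp⟩
    rw [himg]
    exact Multiset.map_congr rfl fun j _ => ht_comp_equiv e c0 j
  refine ⟨r1' ∘ e, c1' ∘ e, r2' ∘ e, c2' ∘ e, x, t1.comp_equiv e, t2.comp_equiv e, ?_, ?_, ?_⟩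
  · rw [hcomp, a1]
  · rw [hcomp, a2]
  · apply rowSym_ne_zero (N := 2)
    rw [Phi_transport 2 e he1 he2]
    exact hP

end Build

section Bridge

/-- The two-row shape `(x+1,x)` as a set of cells. -/
def row2 (x : ℕ) : Finset (ℕ × ℕ) :=
  (range (x + 1)).image (fun j => ((0 : ℕ), j)) ∪ (range x).image (fun j => ((1 : ℕ), j))

lemma mem_row2 {x : ℕ} {p : ℕ × ℕ} : p ∈ row2 x ↔ (p.1 = 0 ∧ p.2 < x + 1) ∨ (p.1 = 1 ∧ p.2 < x) := by
  obtain ⟨a, b⟩ := p
  simp only [row2, mem_union, mem_image, mem_range, Prod.mk.injEq]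
  constructor
  · rintro (⟨j, hj, rfl, rfl⟩ | ⟨j, hj, rfl, rfl⟩)
    · exact Or.inl ⟨rfl, hj⟩
    · exact Or.inr ⟨rfl, hj⟩
  · rintro (⟨h, hj⟩ | ⟨h, hj⟩)
    · exact Or.inl ⟨b, hj, h.symm, rfl⟩
    · exact Or.inr ⟨b, hj, h.symm, rfl⟩

lemma tab_row2 (x : ℕ) :
    IsTabular (fun p : ↥(row2 x) => p.1.1) (fun p : ↥(row2 x) => p.1.2) := by
  refine ⟨fun s t h1 h2 => Subtype.ext (Prod.ext h1 h2), fun s i hi => ?_⟩
  have hs := mem_row2.mp s.2
  have hi0 : i = 0 := by
    rcases hs with h | h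
    · simp only at hi; omega
    · simp only at hi; omega
  have hmem : ((0 : ℕ), s.1.2) ∈ row2 x := by
    rw [mem_row2]
    rcases hs with h | h
    · exact Or.inl ⟨rfl, h.2⟩
    · exact Or.inl ⟨rfl, by simp only; omega⟩
  exact ⟨⟨_, hmem⟩, rfl, hi0.symm⟩

lemma heights_row2 (x : ℕ) :
    heights (fun p : ↥(row2 x) => p.1.2) = x • {2} + 1 • {1} := by
  have himg : univ.image (fun p : ↥(row2 x) => p.1.2) = range (x + 1) := by
    ext j
    simp only [mem_image, mem_univ, true_and, mem_range]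
    constructor
    · rintro ⟨⟨⟨a, b⟩, hp⟩, rfl⟩
      have := mem_row2.mp hp
      simp only at this ⊢
      omega
    · intro hj
      exact ⟨⟨(0, j), mem_row2.mpr (Or.inl ⟨rfl, hj⟩)⟩, rfl⟩
  have h2 : ∀ j, j < x → ht (fun p : ↥(row2 x) => p.1.2) j = 2 := by
    intro j hj
    have h0 : ((0 : ℕ), j) ∈ row2 x := mem_row2.mpr (Or.inl ⟨rfl, by simp only; omega⟩)
    have h1 : ((1 : ℕ), j) ∈ row2 x := mem_row2.mpr (Or.inr ⟨rfl, hj⟩)
    have : (univ.filter fun p : ↥(row2 x) => p.1.2 = j) = {⟨_, h0⟩, ⟨_, h1⟩} := by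
      ext ⟨⟨a, b⟩, hp⟩
      simp only [mem_filter, mem_univ, true_and, mem_insert, mem_singleton, Subtype.mk.injEq,
        Prod.mk.injEq]
      have := mem_row2.mp hp
      simp only at this
      constructor
      · rintro rfl
        rcases this with h | h
        · exact Or.inl ⟨h.1, rfl⟩
        · exact Or.inr ⟨h.1, rfl⟩
      · rintro (⟨_, h⟩ | ⟨_, h⟩) <;> exact h
    rw [ht, this, card_pair]
    simp
  have h1 : ht (fun p : ↥(row2 x) => p.1.2) x = 1 := by
    have h0 : ((0 : ℕ), x) ∈ row2 x := mem_row2.mpr (Or.inl ⟨rfl, by simp only; omega⟩)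
    have : (univ.filter fun p : ↥(row2 x) => p.1.2 = x) = {⟨_, h0⟩} := by
      ext ⟨⟨a, b⟩, hp⟩
      simp only [mem_filter, mem_univ, true_and, mem_singleton, Subtype.mk.injEq, Prod.mk.injEq]
      have := mem_row2.mp hp
      simp only at this
      constructor
      · rintro rfl
        rcases this with h | h
        · exact ⟨h.1, rfl⟩
        · omega
      · rintro ⟨_, h⟩; exact h
    rw [ht, this, card_singleton]
  rw [heights, himg, Finset.range_val, Multiset.range_succ, Multiset.map_cons, h1, one_nsmul]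
  rw [Multiset.map_congr rfl (fun j hj => h2 j (Multiset.mem_range.mp hj)), Multiset.map_const',
    Multiset.card_range, Multiset.nsmul_singleton, add_comm]
  rfl

lemma poly_eq_polyRC {S : Type*} [Fintype S] [DecidableEq S] {D : Finset (ℕ × ℕ)} (t : D ≃ S)
    {r c : S → ℕ} (hr : rowOf t = r) (hc : ∀ s s', colOf t s = colOf t s' ↔ c s = c s') :
    poly t = polyRC r c := by
  funext w
  rw [poly, polyRC, stab_congr hc]
  refine Finset.sum_bij' (fun σ _ => σ⁻¹) (fun σ _ => σ⁻¹) (fun σ hσ => inv_mem_stab hσ)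
    (fun σ hσ => inv_mem_stab hσ) (fun σ _ => inv_inv σ) (fun σ _ => inv_inv σ) ?_
  intro σ _
  rw [sgn_inv, hr]

variable {S : Type*} [Fintype S] [DecidableEq S]

lemma isTabular_tab {a : YoungDiagram} (T : Tab a S) : IsTabular (rowC T) (colC T) := by
  refine ⟨fun s t h1 h2 => rowC_colC_injective T (Prod.ext h1 h2), fun s i hi => ?_⟩
  have hmem : (rowC T s, colC T s) ∈ a.cells := (T.symm s).2
  have hmem' : (i, colC T s) ∈ a.cells := a.up_left_mem hi.le le_rfl hmem
  refine ⟨T ⟨_, hmem'⟩, ?_, ?_⟩ <;> simp [rowC, colC]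

/-- **Four rows.**  The Young symmetriser of a tableau with at most four rows does not vanish on
a product of polytabloids of two-row shape `(x+1,x)`. -/
theorem fourRows_symmetrizer {a : YoungDiagram} (T : Tab a S) (h4 : ∀ s, rowC T s < 4) (x : ℕ)
    (hS : Fintype.card S = 2 * x + 1) :
    ∃ (t t' : ↥(row2 x) ≃ S),
      gact (fn2Rep S) (symE (rowC T)) (gact (fn2Rep S) (symB (colC T)) (prod2 t t')) ≠ 0 := by
  obtain ⟨r1, c1, r2, c2, x', t1, t2, a1, a2, hne⟩ :=
    fourRows_main (rowC T) (colC T) (isTabular_tab T) h4 (by rw [hS]; exact odd_two_mul_add_one x)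
  have hx : x' = x := by
    have := sum_heights c1
    rw [a1, hS] at this
    simp only [Multiset.sum_add, Multiset.sum_nsmul, Multiset.sum_singleton, smul_eq_mul] at this
    omega
  subst hx
  obtain ⟨e, he1, he2⟩ := exists_iso t1 (tab_row2 x') (a1.trans (heights_row2 x').symm)
  obtain ⟨e', he1', he2'⟩ := exists_iso t2 (tab_row2 x') (a2.trans (heights_row2 x').symm)
  refine ⟨e.symm, e'.symm, ?_⟩
  have hp1 : poly e.symm = polyRC r1 c1 := by
    refine poly_eq_polyRC e.symm ?_ ?_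
    · funext s; simpa [rowOf] using he1 s
    · intro s s'; simpa [colOf] using he2 s s'
  have hp2 : poly e'.symm = polyRC r2 c2 := by
    refine poly_eq_polyRC e'.symm ?_ ?_
    · funext s; simpa [rowOf] using he1' s
    · intro s s'; simpa [colOf] using he2' s s'
  have hprod : prod2 e.symm e'.symm = pp r1 c1 r2 c2 := by
    funext w1 w2
    simp only [prod2, pp, hp1, hp2]
  rw [hprod, gact_symB, gact_symE]
  exact hne

/-- The form needed by the block glue: an irreducible representation with a fixed vector of a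
colouring with at most four colours occurs in the tensor square of `(x+1,x)`. -/
theorem occurs_row2 (x : ℕ) (hS : Fintype.card S = 2 * x + 1) (c : S → ℕ)
    (hc : (univ.image c).card ≤ 4) {V : Type*} [AddCommGroup V] [Module ℂ V]
    [FiniteDimensional ℂ V] (ρ : Representation ℂ (Perm S) V) (hρ : ρ.IsIrreducible)
    (hfix : HasFix ρ c) : Occurs ρ (row2 x) (row2 x) := by
  obtain ⟨a, _, hlab⟩ := exists_label hρ
  obtain ⟨T, hT1, hT2⟩ := hlab
  obtain ⟨g, hg⟩ := pairing hρ hfix hT2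
  have h4 : ∀ s, rowC T s < 4 := by
    intro s
    have hcell : ∀ i, i < rowC T s + 1 → (i, colC T s) ∈ a.cells := by
      intro i hi
      exact a.up_left_mem (Nat.lt_succ_iff.mp hi) le_rfl (T.symm s).2
    let f : ℕ → S := fun i => if hi : i < rowC T s + 1 then g (T ⟨_, hcell i hi⟩) else s
    have hinj : Set.InjOn (fun i => c (f i)) (range (rowC T s + 1) : Finset ℕ) := by
      intro i hi j hj hij
      have hi' := mem_range.mp hi
      have hj' := mem_range.mp hj
      have h1 : f i = g (T ⟨_, hcell i hi'⟩) := dif_pos hi'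
      have h2 : f j = g (T ⟨_, hcell j hj'⟩) := dif_pos hj'
      have hcol : colC T (g⁻¹ (f i)) = colC T (g⁻¹ (f j)) := by
        rw [h1, h2]
        simp [colC]
      have := hg (a₁ := f i) (a₂ := f j) (Prod.ext hij hcol)
      rw [h1, h2] at this
      have h3 := T.injective (g.injective this)
      have h4 := congrArg (fun p : {x // x ∈ a.cells} => p.1.1) h3
      simpa using h4
    have hmaps : ∀ i ∈ (range (rowC T s + 1) : Finset ℕ), c (f i) ∈ univ.image c :=
      fun i _ => mem_image_of_mem c (mem_univ _)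
    have := card_le_card_of_injOn (fun i => c (f i)) hmaps hinj
    rw [card_range] at this
    omega
  obtain ⟨t, t', hne⟩ := fourRows_symmetrizer T h4 x hS
  exact occurs_of_symmetrizer T (Submodule.subset_span ⟨(t, t'), rfl⟩) hne hρ ⟨T, hT1, hT2⟩

end Bridge

end Crest.Agent.Saxl.FourRowsSemi
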