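import Crest.Agent.Lib.Saxl.BlockGroup

/-!
# From the two-column blocks to a union of column pairs (row 195, helper86)
-/

set_option autoImplicit false

open scoped BigOperators
open Equiv

namespace Crest.Agent.Saxl

section KillsSpan

variable {S : Type} [Fintype S] [DecidableEq S]

theorem kills_span {H : Finset (Perm S)} {b : Perm S → ℂ} {E : Set (Fn2 S)}
    (h : ∀ F ∈ E, ∀ w₁ w₂, ∑ g ∈ H, b g * F (w₁ ∘ g) (w₂ ∘ g) = 0) :
    ∀ F ∈ Submodule.span ℂ E, ∀ w₁ w₂, ∑ g ∈ H, b g * F (w₁ ∘ g) (w₂ ∘ g) = 0 := by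
  intro F hF
  induction hF using Submodule.span_induction with
  | mem y hy => exact h y hy
  | zero => intro w₁ w₂; simp
  | add y z _ _ hy hz =>
    intro w₁ w₂
    simp only [Pi.add_apply, mul_add, Finset.sum_add_distrib, hy, hz, add_zero]
  | smul c y _ hy =>
    intro w₁ w₂
    have := hy w₁ w₂
    simp only [Pi.smul_apply, smul_eq_mul]
    calc ∑ g ∈ H, b g * (c * y (w₁ ∘ g) (w₂ ∘ g))
        = c * ∑ g ∈ H, b g * y (w₁ ∘ g) (w₂ ∘ g) := by
          rw [Finset.mul_sum]
          exact Finset.sum_congr rfl fun _ _ => by ring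
      _ = 0 := by rw [this, mul_zero]

end KillsSpan

section Glue

variable {S : Type} [Fintype S] [DecidableEq S] {ι : Type} [DecidableEq ι]

/-- Generators of the space of block `i`. -/
def genE (x : ι → ℕ) (B : S → ι) (i : ι) : Set (Fn2 S) :=
  Set.range fun p : (col2 (x i) ≃ Blk B i) × (col2 (x i) ≃ Blk B i) => resF i (prod2 p.1 p.2)

/-- Products over the blocks in `T`. -/
def ET (x : ι → ℕ) (B : S → ι) (T : Finset ι) : Set (Fn2 S) :=
  {F | ∃ t t' : ∀ i, col2 (x i) ≃ Blk B i,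
    ∀ w₁ w₂, F w₁ w₂ = ∏ i ∈ T, resF i (prod2 (t i) (t' i)) w₁ w₂}

/-- Test pairs. -/
def DT (x : ι → ℕ) (B : S → ι) (T : Finset ι) (w₁ w₂ : S → ℕ) : Prop :=
  ∀ i ∈ T, Zig (x i) (2 * x i + 1) (fun a : Blk B i => w₁ a.1) (fun a : Blk B i => w₂ a.1)

variable {x : ι → ℕ} {B : S → ι}

omit [Fintype S] [DecidableEq S] [DecidableEq ι] in
theorem resF_local {i : ι} (F : Fn2 (Blk B i)) {w₁ w₂ w₁' w₂' : S → ℕ}
    (h₁ : ∀ s, B s = i → w₁ s = w₁' s) (h₂ : ∀ s, B s = i → w₂ s = w₂' s) :
    resF i F w₁ w₂ = resF i F w₁' w₂' := by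
  unfold resF
  have e1 : (fun a : Blk B i => w₁ a.1) = fun a => w₁' a.1 := funext fun a => h₁ a.1 a.2
  have e2 : (fun a : Blk B i => w₂ a.1) = fun a => w₂' a.1 := funext fun a => h₂ a.1 a.2
  rw [e1, e2]

theorem genE_local {i : ι} {F : Fn2 S} (hF : F ∈ genE x B i)
    {w₁ w₂ w₁' w₂' : S → ℕ}
    (h₁ : ∀ s, B s = i → w₁ s = w₁' s) (h₂ : ∀ s, B s = i → w₂ s = w₂' s) :
    F w₁ w₂ = F w₁' w₂' := by
  obtain ⟨p, rfl⟩ := hF
  exact resF_local _ h₁ h₂

theorem ET_local {T : Finset ι} {F : Fn2 S} (hF : F ∈ ET x B T) {w₁ w₂ w₁' w₂' : S → ℕ}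
    (h₁ : ∀ s, B s ∈ T → w₁ s = w₁' s) (h₂ : ∀ s, B s ∈ T → w₂ s = w₂' s) :
    F w₁ w₂ = F w₁' w₂' := by
  obtain ⟨t, t', h⟩ := hF
  rw [h, h]
  refine Finset.prod_congr rfl fun i hi => ?_
  exact resF_local _ (fun s hs => h₁ s (hs ▸ hi)) (fun s hs => h₂ s (hs ▸ hi))

theorem ET_insert_mul {T : Finset ι} {i : ι} (hi : i ∉ T) {F₁ F₂ : Fn2 S} (h₁ : F₁ ∈ ET x B T)
    (h₂ : F₂ ∈ genE x B i) : (fun w₁ w₂ => F₁ w₁ w₂ * F₂ w₁ w₂) ∈ ET x B (insert i T) := by
  obtain ⟨t, t', h⟩ := h₁
  obtain ⟨p, rfl⟩ := h₂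
  refine ⟨Function.update t i p.1, Function.update t' i p.2, fun w₁ w₂ => ?_⟩
  rw [Finset.prod_insert hi, Function.update_self, Function.update_self, mul_comm]
  show F₁ w₁ w₂ * resF i (prod2 p.1 p.2) w₁ w₂ = _
  rw [h]
  congr 1
  refine Finset.prod_congr rfl fun j hj => ?_
  have hji : j ≠ i := fun e => hi (e ▸ hj)
  rw [Function.update_of_ne hji, Function.update_of_ne hji]

theorem ET_insert_sub {T : Finset ι} {i : ι} (hi : i ∉ T) :
    ET x B (insert i T) ⊆ mulSet (ET x B T) (genE x B i) := by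
  rintro F ⟨t, t', h⟩
  refine ⟨_, ⟨t, t', fun _ _ => rfl⟩, _, ⟨(t i, t' i), rfl⟩, fun w₁ w₂ => ?_⟩
  rw [h, Finset.prod_insert hi, mul_comm]

/-- Transfer of `Sees` from the symmetric group of the block. -/
theorem sees_block {c : S → ℕ} (hcB : ∀ s s', c s = c s' → B s = B s') {i : ι}
    (hs : Sees Finset.univ (stab fun a : Blk B i => c a.1)
      (XX (Blk B i) (col2 (x i)) (col2 (x i)) : Set (Fn2 (Blk B i)))) :
    Sees (HT B {i} B) (HT B {i} c) (genE x B i) := by
  intro b hb
  rw [sum_HT_single_stab hcB]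
  apply hs (fun g' => b (Perm.ofSubtype g'))
  refine kills_span ?_
  rintro F ⟨p, rfl⟩ u₁ u₂
  have h0 := hb _ ⟨p, rfl⟩ (extW u₁) (extW u₂)
  rw [sum_HT_single_B] at h0
  rw [← h0]
  refine Finset.sum_congr rfl fun g' _ => ?_
  congr 1
  show prod2 p.1 p.2 (u₁ ∘ ⇑g') (u₂ ∘ ⇑g') = prod2 p.1 p.2
    (fun a => (extW u₁ ∘ (Perm.ofSubtype g' : Perm S)) a.1)
    (fun a => (extW u₂ ∘ (Perm.ofSubtype g' : Perm S)) a.1)
  rw [comp_ofSubtype, comp_ofSubtype, extW_res, extW_res]

/-- `Sees` for all products. -/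
theorem sees_ET {c : S → ℕ} (hcB : ∀ s s', c s = c s' → B s = B s')
    (hblock : ∀ i, Sees Finset.univ (stab fun a : Blk B i => c a.1)
      (XX (Blk B i) (col2 (x i)) (col2 (x i)) : Set (Fn2 (Blk B i))))
    (hne : ∀ i, Nonempty (col2 (x i) ≃ Blk B i)) (T : Finset ι) :
    Sees (HT B T B) (HT B T c) (ET x B T) := by
  induction T using Finset.induction_on with
  | empty =>
    rw [HT_empty, HT_empty]
    intro b hb
    have hmem : (fun _ _ => 1 : Fn2 S) ∈ ET x B ∅ :=
      ⟨fun i => (hne i).some, fun i => (hne i).some, by simp⟩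
    have := hb _ hmem (fun _ => 0) (fun _ => 0)
    simpa using this
  | insert i T hi ih =>
    refine Sees.prod (H₁ := HT B T B) (H₂ := HT B {i} B) (K₁ := HT B T c) (K₂ := HT B {i} c)
      (E₁ := ET x B T) (E₂ := genE x B i)
      (sum_HT_insert (fun _ _ h => h) hi) (sum_HT_insert hcB hi) ?_ ?_ ?_ ?_ ih (sees_block hcB (hblock i))
    · intro F₁ h₁ F₂ h₂
      exact ET_insert_mul hi h₁ h₂
    · intro F₁ hF₁ h₁ _ h₂ hh₂ w₁ w₂
      have key : ∀ (w : S → ℕ) s, B s ∈ T → (w ∘ (h₁ * h₂ : Perm S)) s = (w ∘ h₁) s := by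
        intro w s hs
        have : h₂ s = s := (mem_HT.mp hh₂).2 s (by
          simp only [Finset.mem_singleton]
          rintro rfl
          exact hi hs)
        simp [this]
      exact ET_local hF₁ (key w₁) (key w₂)
    · intro F₂ hF₂ h₁ hh₁ h₂ hh₂ w₁ w₂
      have key : ∀ (w : S → ℕ) s, B s = i → (w ∘ (h₁ * h₂ : Perm S)) s = (w ∘ h₂) s := by
        intro w s hs
        have : h₁ (h₂ s) = h₂ s := (mem_HT.mp hh₁).2 _ (by
          rw [HT_block (fun _ _ h => h) hh₂, hs]
          exact hi)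
        simp [this]
      exact genE_local hF₂ (key w₁) (key w₂)
    · intro w₁ w₂ w₁' w₂'
      refine ⟨fun s => if B s ∈ T then w₁ s else w₁' s, fun s => if B s ∈ T then w₂ s else w₂' s,
        ?_, ?_⟩
      · intro F₁ hF₁ h₁ hh₁
        refine ET_local hF₁ (fun s hs => ?_) (fun s hs => ?_)
        · have : B (h₁ s) ∈ T := by rw [HT_block (fun _ _ h => h) hh₁]; exact hs
          simp [this]
        · have : B (h₁ s) ∈ T := by rw [HT_block (fun _ _ h => h) hh₁]; exact hs
          simp [this]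
      · intro F₂ hF₂ h₂ hh₂
        refine genE_local hF₂ (fun s hs => ?_) (fun s hs => ?_)
        · have : B (h₂ s) ∉ T := by rw [HT_block (fun _ _ h => h) hh₂, hs]; exact hi
          simp [this]
        · have : B (h₂ s) ∉ T := by rw [HT_block (fun _ _ h => h) hh₂, hs]; exact hi
          simp [this]

theorem Vis.mono' {E E' : Set (Fn2 S)} {D : (S → ℕ) → (S → ℕ) → Prop}
    (h : Vis E' D) (hE : E ⊆ E') : Vis E D :=
  fun F hF hD => h F (Submodule.span_mono hE hF) hD

/-- Visibility for one block: the block lemma. -/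
theorem vis_block (i : ι) : Vis (genE x B i) (DT x B {i}) := by
  intro F hF hD
  have hspan : F ∈ (XX (Blk B i) (col2 (x i)) (col2 (x i))).map (resL (B := B) i) := by
    unfold XX
    rw [Submodule.map_span]
    have : genE x B i = resL (B := B) i '' Set.range
        (fun p : (col2 (x i) ≃ Blk B i) × (col2 (x i) ≃ Blk B i) => prod2 p.1 p.2) := by
      unfold genE
      rw [← Set.range_comp]
      rfl
    rw [← this]
    exact hF
  obtain ⟨F', hF', rfl⟩ := hspan
  by_cases h0 : F' = 0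
  · rw [h0, map_zero]
  exfalso
  obtain ⟨u₁, u₂, hZ, hne⟩ := exists_zig_ne_zero hF' h0
  apply hne
  have h1 := hD (extW u₁) (extW u₂) (by
    intro j hj
    obtain rfl : j = i := by simpa using hj
    rw [extW_res, extW_res]
    exact hZ)
  have h2 : resL i F' (extW u₁) (extW u₂) = F' u₁ u₂ := by
    show F' _ _ = _
    rw [extW_res, extW_res]
  rw [← h2]
  exact h1

/-- Visibility for products. -/
theorem vis_ET (T : Finset ι) : Vis (ET x B T) (DT x B T) := by
  induction T using Finset.induction_on with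
  | empty =>
    intro F _ hD
    funext w₁ w₂
    exact hD w₁ w₂ (by intro i hi; simp at hi)
  | insert i T hi ih =>
    refine Vis.mono' ?_ (ET_insert_sub hi)
    refine Vis.prod (fun w w' s => if B s ∈ T then w s else w' s) ?_ ?_ ?_ ?_ ih (vis_block i)
    · intro F₁ hF₁ w₁ w₂ w₁' w₂'
      refine ET_local hF₁ (fun s hs => ?_) (fun s hs => ?_) <;> simp [hs]
    · intro F₂ hF₂ w₁ w₂ w₁' w₂'
      refine genE_local hF₂ (fun s hs => ?_) (fun s hs => ?_)
      · have : B s ∉ T := by rw [hs]; exact hi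
        simp [this]
      · have : B s ∉ T := by rw [hs]; exact hi
        simp [this]
    · intro w
      funext s
      simp
    · intro w₁ w₂ w₁' w₂' hD₁ hD₂ j hj
      rcases Finset.mem_insert.mp hj with rfl | hj
      · have h1 : ∀ w w' : S → ℕ, (fun a : Blk B j => (fun s => if B s ∈ T then w s else w' s) a.1)
            = fun a : Blk B j => w' a.1 := by
          intro w w'
          funext a
          have : B a.1 ∉ T := by rw [a.2]; exact hi
          simp [this]
        rw [h1, h1]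
        exact hD₂ j (by simp)
      · have h1 : ∀ w w' : S → ℕ, (fun a : Blk B j => (fun s => if B s ∈ T then w s else w' s) a.1)
            = fun a : Blk B j => w a.1 := by
          intro w w'
          funext a
          have : B a.1 ∈ T := by rw [a.2]; exact hj
          simp [this]
        rw [h1, h1]
        exact hD₁ j hj

end Glue

section Zigzag

theorem zig_onStripe {x k : ℕ} (hk : k < 2 * x + 1) : OnStripe x (zig x k).1 (zig x k).2 := by
  rcases Nat.even_or_odd' k with ⟨i, rfl | rfl⟩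
  · rw [zig_even]
    simp only [OnStripe]
    left
    omega
  · rw [zig_odd]
    simp only [OnStripe]
    right
    omega

theorem exists_zig_of_onStripe {x j k : ℕ} (h : OnStripe x j k) :
    ∃ n, n < 2 * x + 1 ∧ zig x n = (j, k) := by
  rcases h with h | h
  · refine ⟨2 * k, by omega, ?_⟩
    rw [zig_even]
    exact Prod.ext (by simp; omega) rfl
  · refine ⟨2 * k + 1, by omega, ?_⟩
    rw [zig_odd]
    exact Prod.ext (by simp; omega) rfl

theorem zig_inj {x n n' : ℕ} (h : n < 2 * x + 1) (h' : n' < 2 * x + 1)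
    (he : zig x n = zig x n') : n = n' := by
  rcases Nat.even_or_odd' n with ⟨i, rfl | rfl⟩ <;> rcases Nat.even_or_odd' n' with ⟨j, rfl | rfl⟩
  · rw [zig_even, zig_even] at he
    have := congrArg Prod.snd he
    simp only at this
    omega
  · rw [zig_even, zig_odd] at he
    have h1 := congrArg Prod.fst he
    have h2 := congrArg Prod.snd he
    simp only at h1 h2
    omega
  · rw [zig_odd, zig_even] at he
    have h1 := congrArg Prod.fst he
    have h2 := congrArg Prod.snd he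
    simp only at h1 h2
    omega
  · rw [zig_odd, zig_odd] at he
    have := congrArg Prod.snd he
    simp only at this
    omega

theorem onStripe_of_Zig {A : Type} [Fintype A] {x : ℕ} (hcard : Fintype.card A = 2 * x + 1)
    {w₁ w₂ : A → ℕ} (hZ : Zig x (2 * x + 1) w₁ w₂) (s : A) : OnStripe x (w₁ s) (w₂ s) := by
  choose f hf₁ hf₂ using hZ
  let g : Fin (2 * x + 1) → A := fun k => f k k.2
  have hg : Function.Injective g := by
    intro k k' h
    have e : zig x k = zig x k' := by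
      refine Prod.ext ?_ ?_
      · rw [← hf₁ k k.2, ← hf₁ k' k'.2]
        exact congrArg w₁ h
      · rw [← hf₂ k k.2, ← hf₂ k' k'.2]
        exact congrArg w₂ h
    exact Fin.ext (zig_inj k.2 k'.2 e)
  have hb : Function.Bijective g :=
    (Fintype.bijective_iff_injective_and_card g).mpr ⟨hg, by simp [hcard]⟩
  obtain ⟨k, rfl⟩ := hb.2 s
  have := zig_onStripe k.2
  rw [← hf₁ k k.2, ← hf₂ k k.2] at this
  exact this

end Zigzag

section Test

variable {S : Type} [Fintype S] [DecidableEq S] {ι : Type} [DecidableEq ι]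
variable {x : ι → ℕ} {B : S → ι}

theorem cntOn_of_isL {i : ι} {u : S → ℕ} {X : ℕ} (h : IsL X (fun a : Blk B i => u a.1)) (a : ℕ) :
    cntOn B i u a = multL X a := by
  have h1 := h a
  have h2 : multL X a = if a < X then 2 else if a = X then 1 else 0 := rfl
  rw [h2, ← h1]
  unfold cntOn cnt
  symm
  refine Finset.card_bij (fun a' _ => a'.1) ?_ ?_ ?_
  · intro a' ha'
    simp only [Finset.mem_filter, Finset.mem_univ, true_and] at ha' ⊢
    exact ⟨a'.2, ha'⟩
  · intro a₁ _ a₂ _ he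
    exact Subtype.ext he
  · intro s hs
    simp only [Finset.mem_filter, Finset.mem_univ, true_and] at hs
    exact ⟨⟨s, hs.1⟩, by simpa using hs.2, rfl⟩

/-- A nonzero value at a translate of a test pair forces the permutation to respect the blocks. -/
theorem test_mem_H [Fintype ι] (hgap : ∀ a b, a ≠ b → x a + 2 ≤ x b ∨ x b + 2 ≤ x a)
    (hcard : ∀ i, Fintype.card (Blk B i) = 2 * x i + 1)
    {F : Fn2 S} (hF : F ∈ ET x B Finset.univ) {w₁ w₂ : S → ℕ} (hD : DT x B Finset.univ w₁ w₂)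
    (g : Perm S) (hne : F (w₁ ∘ g) (w₂ ∘ g) ≠ 0) : g ∈ HT B Finset.univ B := by
  obtain ⟨t, t', hF⟩ := hF
  rw [hF, Finset.prod_ne_zero_iff] at hne
  set u₁ := w₁ ∘ ⇑g with hu₁
  set u₂ := w₂ ∘ ⇑g with hu₂
  have h1 : ∀ i, poly (t i) (fun a => u₁ a.1) ≠ 0 ∧ poly (t' i) (fun a => u₂ a.1) ≠ 0 := by
    intro i
    have := hne i (Finset.mem_univ i)
    exact ⟨left_ne_zero_of_mul this, right_ne_zero_of_mul this⟩
  have hc₁ : ∀ t a, cntOn B t u₁ a = multL (x t) a := fun i a =>
    cntOn_of_isL (isL_of_poly_ne_zero (h1 i).1) a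
  have hc₂ : ∀ t a, cntOn B t u₂ a = multL (x t) a := fun i a =>
    cntOn_of_isL (isL_of_poly_ne_zero (h1 i).2) a
  have hon : ∀ s, OnStripe (x (B (g s))) (u₁ s) (u₂ s) := by
    intro s
    exact onStripe_of_Zig (hcard (B (g s))) (hD (B (g s)) (Finset.mem_univ _)) ⟨g s, rfl⟩
  have hall : ∀ t j k, OnStripe (x t) j k → ∃ s, u₁ s = j ∧ u₂ s = k := by
    intro i j k hjk
    obtain ⟨n, hn, hz⟩ := exists_zig_of_onStripe hjk
    obtain ⟨a, ha₁, ha₂⟩ := hD i (Finset.mem_univ _) n hn
    refine ⟨g⁻¹ a.1, ?_, ?_⟩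
    · have e : g (g⁻¹ a.1) = a.1 := by simp
      show w₁ (g (g⁻¹ a.1)) = j
      rw [e]
      exact ha₁.trans (by rw [hz])
    · have e : g (g⁻¹ a.1) = a.1 := by simp
      show w₂ (g (g⁻¹ a.1)) = k
      rw [e]
      exact ha₂.trans (by rw [hz])
  have hst := stripes_unique x hgap B u₁ u₂ hc₁ hc₂ (fun s => ⟨_, hon s⟩) hall
  refine mem_HT.mpr ⟨fun s => ?_, fun s hs => absurd (Finset.mem_univ _) hs⟩
  by_contra hb
  have h2 := hgap _ _ hb
  have h3 := hon s
  have h4 := hst s
  unfold OnStripe at h3 h4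
  omega

/-- The products are stable under the block group. -/
theorem fn2Rep_mem_ET {T T' : Finset ι} {F : Fn2 S} (hF : F ∈ ET x B T) {h : Perm S}
    (hh : h ∈ HT B T' B) : fn2Rep S h F ∈ ET x B T := by
  obtain ⟨t, t', hF⟩ := hF
  have hb : ∀ i s, B (h s) = i ↔ B s = i := fun i s => by
    rw [HT_block (fun _ _ h => h) hh]
  let hi : ∀ i, Perm (Blk B i) := fun i => h.subtypePerm (p := fun s => B s = i) (hb i)
  refine ⟨fun i => (t i).trans (hi i), fun i => (t' i).trans (hi i), fun w₁ w₂ => ?_⟩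
  rw [fn2Rep_apply, hF]
  refine Finset.prod_congr rfl fun i _ => ?_
  show prod2 (t i) (t' i) (fun a => w₁ (h a.1)) (fun a => w₂ (h a.1)) =
    prod2 ((t i).trans (hi i)) ((t' i).trans (hi i)) (fun a => w₁ a.1) (fun a => w₂ a.1)
  have e := fn2Rep_prod2 (t i) (t' i) (hi i)
  rw [← e]
  rfl

end Test

section GlueTab

variable {S : Type} [Fintype S] [DecidableEq S] {ι : Type} [DecidableEq ι]
variable {x : ι → ℕ} {B : S → ι} {pos : ι → ℕ} {D : Finset (ℕ × ℕ)}

/-- The row of a slot in a family of block tableaux. -/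
def rowG (t : ∀ i, col2 (x i) ≃ Blk B i) (s : S) : ℕ := rowOf (t (B s)) ⟨s, rfl⟩

/-- The column of a slot in a family of block tableaux. -/
def colG (pos : ι → ℕ) (t : ∀ i, col2 (x i) ≃ Blk B i) (s : S) : ℕ :=
  pos (B s) + colOf (t (B s)) ⟨s, rfl⟩

omit [DecidableEq ι] in
theorem rowG_eq (t : ∀ i, col2 (x i) ≃ Blk B i) {i : ι} (a : Blk B i) :
    rowG t a.1 = rowOf (t i) a := by
  obtain ⟨s, rfl⟩ := a
  rfl

omit [DecidableEq ι] in
theorem colG_eq (t : ∀ i, col2 (x i) ≃ Blk B i) {i : ι} (a : Blk B i) :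
    colG pos t a.1 = pos i + colOf (t i) a := by
  obtain ⟨s, rfl⟩ := a
  rfl

/-- Positions of column pairs are separated. -/
def PosSep (pos : ι → ℕ) : Prop :=
  ∀ i j e e', e ≤ 1 → e' ≤ 1 → pos i + e = pos j + e' → i = j ∧ e = e'

/-- `D` is the union of the shifted column pairs. -/
def IsUnion (x pos : ι → ℕ) (D : Finset (ℕ × ℕ)) : Prop :=
  ∀ c, c ∈ D ↔ ∃ i e, (c.1, e) ∈ col2 (x i) ∧ c.2 = pos i + e

theorem colG_block (hp : PosSep pos) (t : ∀ i, col2 (x i) ≃ Blk B i) {s s' : S}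
    (h : colG pos t s = colG pos t s') : B s = B s' := by
  have h1 := colOf_two (t (B s)) ⟨s, rfl⟩
  have h2 := colOf_two (t (B s')) ⟨s', rfl⟩
  exact (hp _ _ _ _ (by omega) (by omega) h).1

/-- The glued tableau, as a bijection from slots to cells. -/
theorem glue_bijective (hp : PosSep pos) (hD : IsUnion x pos D) (t : ∀ i, col2 (x i) ≃ Blk B i) :
    ∃ e : S ≃ D, ∀ s, (e s).1 = (rowG t s, colG pos t s) := by
  have hmem : ∀ s, (rowG t s, colG pos t s) ∈ D := by
    intro s
    refine (hD _).mpr ⟨B s, colOf (t (B s)) ⟨s, rfl⟩, ?_, rfl⟩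
    exact ((t (B s)).symm ⟨s, rfl⟩).2
  let f : S → D := fun s => ⟨(rowG t s, colG pos t s), hmem s⟩
  have hf : Function.Bijective f := by
    constructor
    · intro s s' he
      have he' : (rowG t s, colG pos t s) = (rowG t s', colG pos t s') := congrArg Subtype.val he
      simp only [Prod.mk.injEq] at he'
      have hb := colG_block hp t he'.2
      have h1 : rowOf (t (B s)) ⟨s, rfl⟩ = rowOf (t (B s)) ⟨s', hb.symm⟩ := by
        rw [← rowG_eq t ⟨s, rfl⟩, ← rowG_eq t ⟨s', hb.symm⟩]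
        exact he'.1
      have h2 : colOf (t (B s)) ⟨s, rfl⟩ = colOf (t (B s)) ⟨s', hb.symm⟩ := by
        have e1 := colG_eq (pos := pos) t (⟨s, rfl⟩ : Blk B (B s))
        have e2 := colG_eq (pos := pos) t (⟨s', hb.symm⟩ : Blk B (B s))
        simp only at e1 e2
        rw [e1, e2] at he'
        omega
      have := rowOf_colOf_injective (t (B s)) (Prod.ext h1 h2)
      exact congrArg Subtype.val this
    · rintro ⟨c, hc⟩
      obtain ⟨i, e, hce, hc2⟩ := (hD c).mp hc
      let a := t i ⟨(c.1, e), hce⟩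
      refine ⟨a.1, Subtype.ext ?_⟩
      show (rowG t a.1, colG pos t a.1) = c
      rw [rowG_eq, colG_eq]
      refine Prod.ext ?_ ?_
      · simp [rowOf, a]
      · simp [colOf, a, hc2]
  exact ⟨Equiv.ofBijective f hf, fun s => rfl⟩

/-- The glued tableau. -/
noncomputable def glueTab (hp : PosSep pos) (hD : IsUnion x pos D)
    (t : ∀ i, col2 (x i) ≃ Blk B i) : D ≃ S := (Classical.choose (glue_bijective hp hD t)).symm

theorem rowOf_glueTab (hp : PosSep pos) (hD : IsUnion x pos D) (t : ∀ i, col2 (x i) ≃ Blk B i) :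
    rowOf (glueTab hp hD t) = rowG t := by
  funext s
  have := Classical.choose_spec (glue_bijective hp hD t) s
  show ((Classical.choose (glue_bijective hp hD t)) s).1.1 = _
  rw [this]

theorem colOf_glueTab (hp : PosSep pos) (hD : IsUnion x pos D) (t : ∀ i, col2 (x i) ≃ Blk B i) :
    colOf (glueTab hp hD t) = colG pos t := by
  funext s
  have := Classical.choose_spec (glue_bijective hp hD t) s
  show ((Classical.choose (glue_bijective hp hD t)) s).1.2 = _
  rw [this]

open Classical in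
/-- Partial polytabloid on the blocks in `T`. -/
noncomputable def partP (pos : ι → ℕ) (t : ∀ i, col2 (x i) ≃ Blk B i) (T : Finset ι)
    (w : S → ℕ) : ℂ :=
  ∑ σ ∈ HT B T (colG pos t), sgn σ * (if ∀ s, B s ∈ T → w s = rowG t (σ⁻¹ s) then 1 else 0)

theorem partP_single (hp : PosSep pos) (t : ∀ i, col2 (x i) ≃ Blk B i) (i : ι) (w : S → ℕ) :
    partP pos t {i} w = poly (t i) (fun a => w a.1) := by
  classical
  unfold partP poly
  rw [sum_HT_single_stab (fun _ _ h => colG_block hp t h)]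
  have hst : stab (fun a : Blk B i => colG pos t a.1) = stab (colOf (t i)) := by
    apply stab_congr
    intro a b
    rw [colG_eq, colG_eq]
    omega
  rw [hst]
  refine Finset.sum_congr rfl fun σ _ => ?_
  have h1 : sgn (Perm.ofSubtype σ) = sgn σ := by
    unfold sgn
    rw [Perm.sign_ofSubtype]
  rw [h1]
  congr 1
  refine if_congr ?_ rfl rfl
  constructor
  · intro h
    funext a
    have := h a.1 (by simp [a.2])
    rw [this]
    simp only [Function.comp_apply]
    rw [← map_inv, ofSub_mem _ a.2, rowG_eq]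
  · intro h s hs
    have hs' : B s = i := by simpa using hs
    have := congrFun h ⟨s, hs'⟩
    simp only [Function.comp_apply] at this
    rw [this, ← map_inv, ofSub_mem _ hs', rowG_eq]

theorem partP_insert (hp : PosSep pos) (t : ∀ i, col2 (x i) ≃ Blk B i) {T : Finset ι} {i : ι}
    (hi : i ∉ T) (w : S → ℕ) :
    partP pos t (insert i T) w = partP pos t T w * partP pos t {i} w := by
  classical
  unfold partP
  rw [sum_HT_insert (fun _ _ h => colG_block hp t h) hi, Finset.sum_mul_sum]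
  refine Finset.sum_congr rfl fun σ₁ h₁ => Finset.sum_congr rfl fun σ₂ h₂ => ?_
  have hinv₁ : ∀ s, B s = i → σ₁⁻¹ s = s := by
    intro s hs
    rw [Perm.inv_eq_iff_eq]
    exact ((mem_HT.mp h₁).2 s (by rw [hs]; exact hi)).symm
  have hb₁ : ∀ s, B (σ₁⁻¹ s) = B s := by
    intro s
    have := HT_block (fun _ _ h => colG_block hp t h) h₁ (σ₁⁻¹ s)
    rw [show σ₁ (σ₁⁻¹ s) = s by simp] at this
    exact this.symm
  have hinv₂ : ∀ s, B s ≠ i → σ₂⁻¹ s = s := by
    intro s hs
    rw [Perm.inv_eq_iff_eq]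
    exact ((mem_HT.mp h₂).2 s (by simpa using hs)).symm
  have hcond : (∀ s, B s ∈ insert i T → w s = rowG t ((σ₁ * σ₂)⁻¹ s)) ↔
      (∀ s, B s ∈ T → w s = rowG t (σ₁⁻¹ s)) ∧ (∀ s, B s ∈ ({i} : Finset ι) → w s = rowG t (σ₂⁻¹ s)) := by
    have e : ∀ s, (σ₁ * σ₂)⁻¹ s = σ₂⁻¹ (σ₁⁻¹ s) := by
      intro s
      simp [mul_inv_rev]
    constructor
    · intro h
      refine ⟨fun s hs => ?_, fun s hs => ?_⟩
      · rw [h s (Finset.mem_insert_of_mem hs), e, hinv₂]
        rw [hb₁]
        rintro rfl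
        exact hi hs
      · have hs' : B s = i := by simpa using hs
        rw [h s (by simp [hs']), e, hinv₁ s hs']
    · rintro ⟨h1, h2⟩ s hs
      rcases Finset.mem_insert.mp hs with hs | hs
      · rw [h2 s (by simp [hs]), e, hinv₁ s hs]
      · rw [h1 s hs, e, hinv₂]
        rw [hb₁]
        rintro he
        exact hi (he ▸ hs)
  rw [sgn_mul, if_congr hcond rfl rfl]
  by_cases c1 : ∀ s, B s ∈ T → w s = rowG t (σ₁⁻¹ s)
  · by_cases c2 : ∀ s, B s ∈ ({i} : Finset ι) → w s = rowG t (σ₂⁻¹ s)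
    · rw [if_pos ⟨c1, c2⟩, if_pos c1, if_pos c2]
      ring
    · rw [if_neg (fun h => c2 h.2), if_neg c2]
      ring
  · rw [if_neg (fun h => c1 h.1), if_neg c1]
    ring

theorem partP_eq_prod (hp : PosSep pos) (t : ∀ i, col2 (x i) ≃ Blk B i) (T : Finset ι)
    (w : S → ℕ) : partP pos t T w = ∏ i ∈ T, poly (t i) (fun a => w a.1) := by
  classical
  induction T using Finset.induction_on with
  | empty =>
    unfold partP
    rw [HT_empty]
    simp [sgn]
  | insert i T hi ih =>
    rw [partP_insert hp t hi, ih, Finset.prod_insert hi, partP_single hp, mul_comm]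

theorem poly_glueTab [Fintype ι] (hp : PosSep pos) (hD : IsUnion x pos D)
    (t : ∀ i, col2 (x i) ≃ Blk B i) (w : S → ℕ) :
    poly (glueTab hp hD t) w = ∏ i, poly (t i) (fun a => w a.1) := by
  classical
  rw [← partP_eq_prod hp t]
  unfold partP poly
  rw [HT_univ, colOf_glueTab, rowOf_glueTab]
  refine Finset.sum_congr rfl fun σ _ => ?_
  congr 1
  refine if_congr ?_ rfl rfl
  constructor
  · intro h s _
    have := congrFun h s
    simpa using this
  · intro h
    funext s
    simpa using h s (Finset.mem_univ _)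

/-- The full products lie in the space of the union shape. -/
theorem ET_subset_XX [Fintype ι] (hp : PosSep pos) (hD : IsUnion x pos D) :
    ET x B Finset.univ ⊆ (XX S D D : Set (Fn2 S)) := by
  rintro F ⟨t, t', hF⟩
  refine Submodule.subset_span ⟨(glueTab hp hD t, glueTab hp hD t'), ?_⟩
  funext w₁ w₂
  rw [hF]
  simp only [prod2, poly_glueTab]
  rw [← Finset.prod_mul_distrib]
  rfl

theorem card_col2 (x : ℕ) : (col2 x).card = 2 * x + 1 := by
  unfold col2
  rw [Finset.card_union_of_disjoint]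
  · simp
    ring
  · rw [Finset.disjoint_left]
    intro c h1 h2
    simp only [Finset.mem_product, Finset.mem_singleton] at h1 h2
    omega

/-- **Main theorem of the glue.** -/
theorem occurs_of_blocks [Fintype ι] (x : ι → ℕ)
    (hgap : ∀ a b, a ≠ b → x a + 2 ≤ x b ∨ x b + 2 ≤ x a)
    (B : S → ι) (hcard : ∀ i, Fintype.card (Blk B i) = 2 * x i + 1)
    (c : S → ℕ) (hcB : ∀ s s', c s = c s' → B s = B s')
    (hblock : ∀ i, Sees Finset.univ (stab fun a : Blk B i => c a.1)
      (XX (Blk B i) (col2 (x i)) (col2 (x i)) : Set (Fn2 (Blk B i))))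
    (pos : ι → ℕ) (D : Finset (ℕ × ℕ)) (hp : PosSep pos) (hD : IsUnion x pos D)
    {V : Type*} [AddCommGroup V] [Module ℂ V] {ρ : Representation ℂ (Perm S) V}
    (hfix : HasFix ρ c) : Occurs ρ D D := by
  have hne : ∀ i, Nonempty (col2 (x i) ≃ Blk B i) := by
    intro i
    apply Fintype.card_eq.mp
    rw [hcard, Fintype.card_coe, card_col2]
  have h1 := sees_ET hcB hblock hne Finset.univ
  have h2 : Sees Finset.univ (HT B Finset.univ c) (XX S D D : Set (Fn2 S)) := by
    refine Sees.of_test (ET_subset_XX hp hD) ?_ ?_ (vis_ET Finset.univ) h1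
    · intro F hF h hh
      exact Submodule.subset_span (fn2Rep_mem_ET hF hh)
    · intro F hF w₁ w₂ hd g hne
      exact test_mem_H hgap hcard hF hd g hne
  rw [HT_univ] at h2
  exact occurs_of_sees h2 hfix

end GlueTab

end Crest.Agent.Saxl
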