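import Crest.Agent.Lib.Saxl.Glue

/-!
# The product theorem for an arbitrary list of blocks (row 195, helper86)

Per block: a set of cells, generators among the products of two polytabloids, test pairs of words
and a finset of permutations of the block.  The only condition connecting the blocks is that the
test tables lie in separated bands of antidiagonals.
-/

set_option autoImplicit false

open scoped BigOperators
open Equiv

namespace Crest.Agent.Saxl

section SeesOn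

variable {S : Type*} [Fintype S] [DecidableEq S]

/-- `Sees` where only test pairs are used. -/
def SeesOn (H K : Finset (Perm S)) (E : Set (Fn2 S)) (Z : (S → ℕ) → (S → ℕ) → Prop) : Prop :=
  ∀ b : Perm S → ℂ, (∀ F ∈ E, ∀ w₁ w₂, Z w₁ w₂ → ∑ h ∈ H, b h * F (w₁ ∘ h) (w₂ ∘ h) = 0) →
    ∑ k ∈ K, b k = 0

theorem SeesOn.mono {H K : Finset (Perm S)} {E E' : Set (Fn2 S)} {Z : (S → ℕ) → (S → ℕ) → Prop}
    (h : SeesOn H K E Z) (hE : E ⊆ E') : SeesOn H K E' Z :=
  fun b hb => h b fun F hF => hb F (hE hF)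

/-- `Sees` plus visibility gives `SeesOn`. -/
theorem SeesOn.of_vis {H K : Finset (Perm S)} {E : Set (Fn2 S)} {Z : (S → ℕ) → (S → ℕ) → Prop}
    (hs : Sees H K E) (hv : Vis E Z) (hst : ∀ F ∈ E, ∀ h ∈ H, fn2Rep S h F ∈ Submodule.span ℂ E) :
    SeesOn H K E Z := by
  intro b hb
  apply hs b
  intro F hF w₁ w₂
  have hmem : (fun w₁ w₂ => ∑ h ∈ H, b h * F (w₁ ∘ h) (w₂ ∘ h)) ∈ Submodule.span ℂ E := by
    have : (fun (w₁ w₂ : S → ℕ) => ∑ h ∈ H, b h * F (w₁ ∘ h) (w₂ ∘ h))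
        = ∑ h ∈ H, b h • fn2Rep S h F := by
      funext w₁ w₂
      simp [Finset.sum_apply]
    rw [this]
    exact Submodule.sum_mem _ fun h hh => Submodule.smul_mem _ _ (hst F hF h hh)
  have := hv _ hmem (fun u₁ u₂ hu => hb F hF u₁ u₂ hu)
  exact congrFun (congrFun this w₁) w₂

/-- **Product rule.** -/
theorem SeesOn.prod {H₁ H₂ H K₁ K₂ K : Finset (Perm S)} {E₁ E₂ E : Set (Fn2 S)}
    {Z₁ Z₂ Z : (S → ℕ) → (S → ℕ) → Prop}
    (hH : ∀ f : Perm S → ℂ, ∑ h ∈ H, f h = ∑ h₁ ∈ H₁, ∑ h₂ ∈ H₂, f (h₁ * h₂))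
    (hK : ∀ f : Perm S → ℂ, ∑ k ∈ K, f k = ∑ k₁ ∈ K₁, ∑ k₂ ∈ K₂, f (k₁ * k₂))
    (hE : ∀ F₁ ∈ E₁, ∀ F₂ ∈ E₂, (fun w₁ w₂ => F₁ w₁ w₂ * F₂ w₁ w₂) ∈ E)
    (hloc₁ : ∀ F₁ ∈ E₁, ∀ h₁ ∈ H₁, ∀ h₂ ∈ H₂, ∀ w₁ w₂,
      F₁ (w₁ ∘ (h₁ * h₂ : Perm S)) (w₂ ∘ (h₁ * h₂ : Perm S)) = F₁ (w₁ ∘ h₁) (w₂ ∘ h₁))
    (hloc₂ : ∀ F₂ ∈ E₂, ∀ h₁ ∈ H₁, ∀ h₂ ∈ H₂, ∀ w₁ w₂,
      F₂ (w₁ ∘ (h₁ * h₂ : Perm S)) (w₂ ∘ (h₁ * h₂ : Perm S)) = F₂ (w₁ ∘ h₂) (w₂ ∘ h₂))
    (hglue : ∀ w₁ w₂ w₁' w₂' : S → ℕ, Z₁ w₁ w₂ → Z₂ w₁' w₂' → ∃ u₁ u₂ : S → ℕ, Z u₁ u₂ ∧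
      (∀ F₁ ∈ E₁, ∀ h₁ ∈ H₁, F₁ (u₁ ∘ h₁) (u₂ ∘ h₁) = F₁ (w₁ ∘ h₁) (w₂ ∘ h₁)) ∧
      (∀ F₂ ∈ E₂, ∀ h₂ ∈ H₂, F₂ (u₁ ∘ h₂) (u₂ ∘ h₂) = F₂ (w₁' ∘ h₂) (w₂' ∘ h₂)))
    (h₁ : SeesOn H₁ K₁ E₁ Z₁) (h₂ : SeesOn H₂ K₂ E₂ Z₂) : SeesOn H K E Z := by
  intro b hb
  rw [hK, Finset.sum_comm]
  apply h₂ (fun g => ∑ k₁ ∈ K₁, b (k₁ * g))
  intro F₂ hF₂ w₁' w₂' hZ₂
  simp only [Finset.sum_mul]
  rw [Finset.sum_comm]
  apply h₁ (fun g => ∑ h₂ ∈ H₂, b (g * h₂) * F₂ (w₁' ∘ h₂) (w₂' ∘ h₂))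
  intro F₁ hF₁ w₁ w₂ hZ₁
  obtain ⟨u₁, u₂, hZ, hu₁, hu₂⟩ := hglue w₁ w₂ w₁' w₂' hZ₁ hZ₂
  have key := hb _ (hE F₁ hF₁ F₂ hF₂) u₁ u₂ hZ
  rw [hH] at key
  rw [← key]
  refine Finset.sum_congr rfl fun g₁ hg₁ => ?_
  rw [Finset.sum_mul]
  refine Finset.sum_congr rfl fun g₂ hg₂ => ?_
  rw [hloc₁ F₁ hF₁ g₁ hg₁ g₂ hg₂, hloc₂ F₂ hF₂ g₁ hg₁ g₂ hg₂, hu₁ F₁ hF₁ g₁ hg₁,
    hu₂ F₂ hF₂ g₂ hg₂]
  ring

/-- Passing from the block group to the full group. -/
theorem SeesOn.to_univ {H K : Finset (Perm S)} {EH EG : Set (Fn2 S)}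
    {Z : (S → ℕ) → (S → ℕ) → Prop} (hsub : EH ⊆ EG)
    (hsupp : ∀ F ∈ EH, ∀ w₁ w₂, Z w₁ w₂ → ∀ g : Perm S, F (w₁ ∘ g) (w₂ ∘ g) ≠ 0 → g ∈ H)
    (hs : SeesOn H K EH Z) : Sees Finset.univ K EG := by
  intro b hb
  apply hs b
  intro F hF u₁ u₂ hu
  have h0 := hb F (hsub hF) u₁ u₂
  rw [← h0]
  apply Finset.sum_subset (Finset.subset_univ H)
  intro g _ hg
  by_cases hz : F (u₁ ∘ g) (u₂ ∘ g) = 0
  · rw [hz, mul_zero]
  · exact absurd (hsupp F hF u₁ u₂ hu g hz) hg

variable {V : Type*} [AddCommGroup V] [Module ℂ V]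

/-- `Sees` gives the occurrence, for any vector fixed by `K`. -/
theorem occurs_of_sees_fix {ρ : Representation ℂ (Perm S) V} {K : Finset (Perm S)}
    {D E : Finset (ℕ × ℕ)} (hs : Sees Finset.univ K (XX S D E : Set (Fn2 S)))
    (hK : K.Nonempty) {v₀ : V} (hv₀ : v₀ ≠ 0) (hfix : ∀ k ∈ K, ρ k⁻¹ v₀ = v₀) : Occurs ρ D E := by
  by_contra hno
  obtain ⟨lam, hlam⟩ : ∃ lam : V →ₗ[ℂ] ℂ, lam v₀ ≠ 0 := by
    by_contra hcon
    push Not at hcon
    exact hv₀ ((Module.forall_dual_apply_eq_zero_iff ℂ v₀).mp hcon)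
  have hsum := hs (fun g => lam (ρ g⁻¹ v₀)) (by
    intro F hF w₁ w₂
    have hzero : coefMap ρ lam F = 0 := by
      by_contra hne
      apply hno
      refine ⟨coefMap ρ lam F, hne, coefMap_equivariant ρ lam F, fun v => ?_⟩
      rw [coefMap_apply]
      exact Submodule.sum_mem _ fun g _ => Submodule.smul_mem _ _ (fn2Rep_mem_XX g hF)
    have h1 := congrFun (congrFun (LinearMap.congr_fun hzero v₀) w₁) w₂
    simp only [coefMap_apply, Finset.sum_apply, Pi.smul_apply, smul_eq_mul, fn2Rep_apply,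
      LinearMap.zero_apply, Pi.zero_apply] at h1
    exact h1)
  have h2 : ∀ k ∈ K, lam (ρ k⁻¹ v₀) = lam v₀ := fun k hk => by rw [hfix k hk]
  rw [Finset.sum_congr rfl h2, Finset.sum_const, nsmul_eq_mul] at hsum
  have hc : ((K.card : ℕ) : ℂ) ≠ 0 := by exact_mod_cast hK.card_ne_zero
  exact (mul_ne_zero hc hlam) hsum

end SeesOn

section Family

variable {S : Type} [Fintype S] [DecidableEq S] {ι : Type} [DecidableEq ι]
variable {B : S → ι}

/-- `g` coincides on block `i` with an element of `k i`. -/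
def OnBlock (k : ∀ i, Finset (Perm (Blk B i))) (i : ι) (g : Perm S) : Prop :=
  ∃ k' ∈ k i, ∀ s (hs : B s = i), g s = (k' ⟨s, hs⟩).1

open Classical in
/-- Block-preserving permutations, trivial outside `T`, whose restrictions lie in `k`. -/
noncomputable def KT (k : ∀ i, Finset (Perm (Blk B i))) (T : Finset ι) : Finset (Perm S) :=
  (HT B T B).filter fun g => ∀ i ∈ T, OnBlock k i g

omit [Fintype S] in
theorem mem_KT_iff [Fintype S] {k : ∀ i, Finset (Perm (Blk B i))} {T : Finset ι} {g : Perm S} :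
    g ∈ KT k T ↔ g ∈ HT B T B ∧ ∀ i ∈ T, OnBlock k i g := by
  classical
  simp [KT]

/-- The sum over the insertion of a block factorizes. -/
theorem sum_KT_insert {k : ∀ i, Finset (Perm (Blk B i))} {T : Finset ι} {i : ι} (hi : i ∉ T)
    (f : Perm S → ℂ) :
    ∑ g ∈ KT k (insert i T), f g = ∑ g₁ ∈ KT k T, ∑ g₂ ∈ KT k {i}, f (g₁ * g₂) := by
  have hcB : ∀ s s' : S, B s = B s' → B s = B s' := fun _ _ h => h
  rw [← Finset.sum_product']
  symm
  refine Finset.sum_bij (fun p _ => p.1 * p.2) ?_ ?_ ?_ ?_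
  · rintro ⟨g₁, g₂⟩ hp
    obtain ⟨h1, h2⟩ := Finset.mem_product.mp hp
    obtain ⟨a1, a2⟩ := mem_KT_iff.mp h1
    obtain ⟨b1, b2⟩ := mem_KT_iff.mp h2
    simp only at a1 a2 b1 b2 ⊢
    refine mem_KT_iff.mpr ⟨?_, ?_⟩
    · refine mem_HT.mpr ⟨fun s => ?_, fun s hs => ?_⟩
      · simp only [Perm.mul_apply]
        rw [HT_block hcB a1, HT_block hcB b1]
      · simp only [Finset.mem_insert, not_or] at hs
        simp only [Perm.mul_apply]
        rw [(mem_HT.mp b1).2 s (by simpa using hs.1), (mem_HT.mp a1).2 s hs.2]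
    · intro j hj
      rcases Finset.mem_insert.mp hj with rfl | hj
      · obtain ⟨k', hk', he⟩ := b2 j (by simp)
        refine ⟨k', hk', fun s hs => ?_⟩
        have : g₁ (g₂ s) = g₂ s :=
          (mem_HT.mp a1).2 _ (by rw [HT_block hcB b1, hs]; exact hi)
        simp only [Perm.mul_apply]
        rw [this, he s hs]
      · obtain ⟨k', hk', he⟩ := a2 j hj
        refine ⟨k', hk', fun s hs => ?_⟩
        have hne : B s ∉ ({i} : Finset ι) := by
          simp only [Finset.mem_singleton]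
          rintro e
          exact hi (by rw [← e, hs]; exact hj)
        have : g₂ s = s := (mem_HT.mp b1).2 s hne
        simp only [Perm.mul_apply]
        rw [this, he s hs]
  · rintro ⟨g₁, g₂⟩ hp ⟨g₁', g₂'⟩ hp' he
    obtain ⟨h1, h2⟩ := Finset.mem_product.mp hp
    obtain ⟨h1', h2'⟩ := Finset.mem_product.mp hp'
    have h1 := (mem_KT_iff.mp h1).1
    have h2 := (mem_KT_iff.mp h2).1
    have h1' := (mem_KT_iff.mp h1').1
    have h2' := (mem_KT_iff.mp h2').1
    simp only at h1 h2 h1' h2' he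
    have key : g₂ = g₂' := by
      ext s
      by_cases hs : B s = i
      · have e1 : g₁ (g₂ s) = g₂ s :=
          (mem_HT.mp h1).2 _ (by rw [HT_block hcB h2, hs]; exact hi)
        have e2 : g₁' (g₂' s) = g₂' s :=
          (mem_HT.mp h1').2 _ (by rw [HT_block hcB h2', hs]; exact hi)
        have := congrArg (fun g : Perm S => g s) he
        simp only [Perm.mul_apply, e1, e2] at this
        rw [this]
      · rw [(mem_HT.mp h2).2 s (by simpa using hs), (mem_HT.mp h2').2 s (by simpa using hs)]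
    subst key
    have : g₁ = g₁' := mul_right_cancel he
    rw [this]
  · intro g hg
    obtain ⟨hgH, hgk⟩ := mem_KT_iff.mp hg
    obtain ⟨a1, a2⟩ := mem_HT.mp hgH
    have hb : ∀ s, B (g s) = B s := a1
    set g₂ := blockPart g hb i with hg₂
    have hg₂H : g₂ ∈ HT B {i} B := by
      refine mem_HT.mpr ⟨fun s => ?_, fun s hs => ?_⟩
      · by_cases hs : B s = i
        · rw [hg₂, blockPart_of_mem hb hs, a1]
        · rw [hg₂, blockPart_of_not_mem hb hs]
      · exact blockPart_of_not_mem hb (by simpa using hs)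
    have h2 : g₂ ∈ KT k {i} := by
      refine mem_KT_iff.mpr ⟨hg₂H, fun j hj => ?_⟩
      obtain rfl : j = i := by simpa using hj
      obtain ⟨k', hk', he⟩ := hgk j (by simp)
      refine ⟨k', hk', fun s hs => ?_⟩
      rw [hg₂, blockPart_of_mem hb hs, he s hs]
    have hinv : ∀ s, B s = i → g₂⁻¹ s = g⁻¹ s := by
      intro s hs
      rw [Perm.inv_eq_iff_eq, hg₂, blockPart_of_mem hb (by
        have := hb (g⁻¹ s)
        rw [show g (g⁻¹ s) = s by simp] at this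
        rw [← this, hs])]
      simp
    have hinv' : ∀ s, B s ≠ i → g₂⁻¹ s = s := by
      intro s hs
      rw [Perm.inv_eq_iff_eq, hg₂, blockPart_of_not_mem hb hs]
    have h1 : g * g₂⁻¹ ∈ KT k T := by
      refine mem_KT_iff.mpr ⟨mem_HT.mpr ⟨fun s => ?_, fun s hs => ?_⟩, fun j hj => ?_⟩
      · have e : B (g₂⁻¹ s) = B s := by
          have := (mem_HT.mp hg₂H).1 (g₂⁻¹ s)
          simpa using this.symm
        simp only [Perm.mul_apply]
        rw [a1, e]
      · simp only [Perm.mul_apply]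
        by_cases hsi : B s = i
        · rw [hinv s hsi]
          simp
        · rw [hinv' s hsi]
          exact a2 s (by simp [hsi, hs])
      · obtain ⟨k', hk', he⟩ := hgk j (Finset.mem_insert_of_mem hj)
        refine ⟨k', hk', fun s hs => ?_⟩
        have hsi : B s ≠ i := by
          rw [hs]
          rintro rfl
          exact hi hj
        simp only [Perm.mul_apply]
        rw [hinv' s hsi, he s hs]
    exact ⟨(g * g₂⁻¹, g₂), Finset.mem_product.mpr ⟨h1, h2⟩, by simp⟩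
  · intro _ _
    rfl

theorem KT_empty (k : ∀ i, Finset (Perm (Blk B i))) : KT k ∅ = {(1 : Perm S)} := by
  ext g
  simp only [mem_KT_iff, HT_empty, Finset.mem_singleton, Finset.notMem_empty, false_imp_iff,
    implies_true, and_true]

/-- The sum over the permutations of a single block. -/
theorem sum_KT_single {k : ∀ i, Finset (Perm (Blk B i))} {i : ι} (f : Perm S → ℂ) :
    ∑ g ∈ KT k {i}, f g = ∑ k' ∈ k i, f (Perm.ofSubtype k') := by
  symm
  refine Finset.sum_bij (fun k' _ => Perm.ofSubtype k') ?_ ?_ ?_ ?_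
  · intro k' hk'
    refine mem_KT_iff.mpr ⟨mem_HT.mpr ⟨fun s => ?_, fun s hs => ?_⟩, fun j hj => ?_⟩
    · by_cases hs : B s = i
      · rw [ofSub_mem _ hs, (k' ⟨s, hs⟩).2, hs]
      · rw [ofSub_not _ hs]
    · exact ofSub_not _ (by simpa using hs)
    · obtain rfl : j = i := by simpa using hj
      exact ⟨k', hk', fun s hs => ofSub_mem _ hs⟩
  · intro a _ b _ h
    exact Perm.ofSubtype_injective h
  · intro g hg
    obtain ⟨hgH, hgk⟩ := mem_KT_iff.mp hg
    obtain ⟨k', hk', he⟩ := hgk i (by simp)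
    refine ⟨k', hk', ?_⟩
    ext s
    by_cases hs : B s = i
    · rw [ofSub_mem _ hs, he s hs]
    · rw [ofSub_not _ hs]
      exact ((mem_HT.mp hgH).2 s (by simpa using hs)).symm
  · intro _ _
    rfl

end Family

section Chain

variable {S : Type} [Fintype S] [DecidableEq S] {ι : Type} [DecidableEq ι]
variable {B : S → ι}

/-- Products over the blocks in `T`. -/
def ETG (E : ∀ i, Set (Fn2 (Blk B i))) (T : Finset ι) : Set (Fn2 S) :=
  {F | ∃ f : ∀ i, Fn2 (Blk B i), (∀ i, f i ∈ E i) ∧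
    ∀ w₁ w₂, F w₁ w₂ = ∏ i ∈ T, resF i (f i) w₁ w₂}

/-- Test pairs on the blocks in `T`. -/
def ZTG (Z : ∀ i, (Blk B i → ℕ) → (Blk B i → ℕ) → Prop) (T : Finset ι) (w₁ w₂ : S → ℕ) : Prop :=
  ∀ i ∈ T, Z i (fun a => w₁ a.1) (fun a => w₂ a.1)

variable {E : ∀ i, Set (Fn2 (Blk B i))} {Z : ∀ i, (Blk B i → ℕ) → (Blk B i → ℕ) → Prop}
  {k : ∀ i, Finset (Perm (Blk B i))}

omit [Fintype S] [DecidableEq S] in
theorem ETG_local {T : Finset ι} {F : Fn2 S} (hF : F ∈ ETG E T) {w₁ w₂ w₁' w₂' : S → ℕ}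
    (h₁ : ∀ s, B s ∈ T → w₁ s = w₁' s) (h₂ : ∀ s, B s ∈ T → w₂ s = w₂' s) :
    F w₁ w₂ = F w₁' w₂' := by
  obtain ⟨f, _, h⟩ := hF
  rw [h, h]
  refine Finset.prod_congr rfl fun i hi => ?_
  exact resF_local _ (fun s hs => h₁ s (hs ▸ hi)) (fun s hs => h₂ s (hs ▸ hi))

theorem seesOn_single {i : ι} (hs : SeesOn Finset.univ (k i) (E i) (Z i)) :
    SeesOn (HT B {i} B) (KT k {i}) (resF i '' E i) (ZTG Z {i}) := by
  intro b hb
  rw [sum_KT_single]
  apply hs (fun g' => b (Perm.ofSubtype g'))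
  intro F hF u₁ u₂ hZ
  have h0 := hb (resF i F) (Set.mem_image_of_mem _ hF) (extW u₁) (extW u₂) (by
    intro j hj
    obtain rfl : j = i := by simpa using hj
    rw [extW_res, extW_res]
    exact hZ)
  rw [sum_HT_single_B] at h0
  rw [← h0]
  refine Finset.sum_congr rfl fun g' _ => ?_
  congr 1
  show F (u₁ ∘ ⇑g') (u₂ ∘ ⇑g') = F
    (fun a => (extW u₁ ∘ (Perm.ofSubtype g' : Perm S)) a.1)
    (fun a => (extW u₂ ∘ (Perm.ofSubtype g' : Perm S)) a.1)
  rw [comp_ofSubtype, comp_ofSubtype, extW_res, extW_res]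

/-- The chain of product rules. -/
theorem seesOn_ETG (hne : ∀ i, (E i).Nonempty)
    (hs : ∀ i, SeesOn Finset.univ (k i) (E i) (Z i)) (T : Finset ι) :
    SeesOn (HT B T B) (KT k T) (ETG E T) (ZTG Z T) := by
  have hcB : ∀ s s' : S, B s = B s' → B s = B s' := fun _ _ h => h
  induction T using Finset.induction_on with
  | empty =>
    rw [HT_empty, KT_empty]
    intro b hb
    choose f hf using hne
    have hmem : (fun _ _ => 1 : Fn2 S) ∈ ETG E ∅ := ⟨f, hf, by simp⟩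
    have := hb _ hmem (fun _ => 0) (fun _ => 0) (by intro i hi; simp at hi)
    simpa using this
  | insert i T hi ih =>
    refine SeesOn.prod (H₁ := HT B T B) (H₂ := HT B {i} B) (K₁ := KT k T) (K₂ := KT k {i})
      (E₁ := ETG E T) (E₂ := resF i '' E i) (Z₁ := ZTG Z T) (Z₂ := ZTG Z {i})
      (sum_HT_insert hcB hi) (sum_KT_insert hi) ?_ ?_ ?_ ?_ ih (seesOn_single (hs i))
    · rintro F₁ ⟨f, hf, h⟩ _ ⟨f₂, hf₂, rfl⟩
      refine ⟨Function.update f i f₂, fun j => ?_, fun w₁ w₂ => ?_⟩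
      · by_cases hj : j = i
        · subst hj
          simpa using hf₂
        · rw [Function.update_of_ne hj]
          exact hf j
      · rw [Finset.prod_insert hi, Function.update_self, mul_comm]
        show F₁ w₁ w₂ * resF i f₂ w₁ w₂ = _
        rw [h]
        congr 1
        refine Finset.prod_congr rfl fun j hj => ?_
        have hji : j ≠ i := fun e => hi (e ▸ hj)
        rw [Function.update_of_ne hji]
    · intro F₁ hF₁ h₁ _ h₂ hh₂ w₁ w₂
      have key : ∀ (w : S → ℕ) s, B s ∈ T → (w ∘ (h₁ * h₂ : Perm S)) s = (w ∘ h₁) s := by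
        intro w s hs
        have : h₂ s = s := (mem_HT.mp hh₂).2 s (by
          simp only [Finset.mem_singleton]
          rintro rfl
          exact hi hs)
        simp [this]
      exact ETG_local hF₁ (key w₁) (key w₂)
    · rintro _ ⟨f₂, _, rfl⟩ h₁ hh₁ h₂ hh₂ w₁ w₂
      have key : ∀ (w : S → ℕ) s, B s = i → (w ∘ (h₁ * h₂ : Perm S)) s = (w ∘ h₂) s := by
        intro w s hs
        have : h₁ (h₂ s) = h₂ s := (mem_HT.mp hh₁).2 _ (by
          rw [HT_block hcB hh₂, hs]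
          exact hi)
        simp [this]
      exact resF_local _ (key w₁) (key w₂)
    · intro w₁ w₂ w₁' w₂' hZ₁ hZ₂
      refine ⟨fun s => if B s ∈ T then w₁ s else w₁' s, fun s => if B s ∈ T then w₂ s else w₂' s,
        ?_, ?_, ?_⟩
      · intro j hj
        rcases Finset.mem_insert.mp hj with rfl | hj
        · have h1 : ∀ w w' : S → ℕ,
              (fun a : Blk B j => (fun s => if B s ∈ T then w s else w' s) a.1)
              = fun a : Blk B j => w' a.1 := by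
            intro w w'
            funext a
            have : B a.1 ∉ T := by rw [a.2]; exact hi
            simp [this]
          rw [h1, h1]
          exact hZ₂ j (by simp)
        · have h1 : ∀ w w' : S → ℕ,
              (fun a : Blk B j => (fun s => if B s ∈ T then w s else w' s) a.1)
              = fun a : Blk B j => w a.1 := by
            intro w w'
            funext a
            have : B a.1 ∈ T := by rw [a.2]; exact hj
            simp [this]
          rw [h1, h1]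
          exact hZ₁ j hj
      · intro F₁ hF₁ h₁ hh₁
        refine ETG_local hF₁ (fun s hs => ?_) (fun s hs => ?_)
        · have : B (h₁ s) ∈ T := by rw [HT_block hcB hh₁]; exact hs
          simp [this]
        · have : B (h₁ s) ∈ T := by rw [HT_block hcB hh₁]; exact hs
          simp [this]
      · rintro _ ⟨f₂, _, rfl⟩ h₂ hh₂
        refine resF_local _ (fun s hs => ?_) (fun s hs => ?_)
        · have : B (h₂ s) ∉ T := by rw [HT_block hcB hh₂, hs]; exact hi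
          simp [this]
        · have : B (h₂ s) ∉ T := by rw [HT_block hcB hh₂, hs]; exact hi
          simp [this]

omit [Fintype S] [DecidableEq S] in
theorem sum_blk [Fintype S] (i : ι) (φ : S → ℕ) :
    ∑ a : Blk B i, φ a.1 = ∑ s ∈ Finset.univ.filter (fun s => B s = i), φ s := by
  symm
  refine Finset.sum_subtype _ (fun s => ?_) φ
  simp

/-- **Band uniqueness.** -/
theorem band_mem_H [Fintype ι] {W l h : ι → ℕ}
    (hband : ∀ i j, i ≠ j → h i < l j ∨ h j < l i)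
    (hFW : ∀ i, ∀ f ∈ E i, ∀ u₁ u₂, f u₁ u₂ ≠ 0 → ∑ a, (u₁ a + u₂ a) = W i)
    (hZ : ∀ i u₁ u₂, Z i u₁ u₂ → (∑ a, (u₁ a + u₂ a) = W i) ∧
      ∀ a, l i ≤ u₁ a + u₂ a ∧ u₁ a + u₂ a ≤ h i)
    {F : Fn2 S} (hF : F ∈ ETG E Finset.univ) {w₁ w₂ : S → ℕ} (hz : ZTG Z Finset.univ w₁ w₂)
    (g : Perm S) (hne : F (w₁ ∘ g) (w₂ ∘ g) ≠ 0) : g ∈ HT B Finset.univ B := by
  classical
  obtain ⟨f, hf, hF⟩ := hF
  rw [hF, Finset.prod_ne_zero_iff] at hne
  let W' : S → ℕ := fun s => w₁ s + w₂ s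
  let A : ι → Finset S := fun i => Finset.univ.filter (fun s => B s = i)
  have hA : ∀ i s, s ∈ A i ↔ B s = i := fun i s => by simp [A]
  have hsum₁ : ∀ i, ∑ s ∈ A i, W' (g s) = W i := by
    intro i
    rw [← sum_blk i (fun s => W' (g s))]
    exact hFW i (f i) (hf i) _ _ (hne i (Finset.mem_univ i))
  have hsum₂ : ∀ i, ∑ s ∈ A i, W' s = W i := by
    intro i
    rw [← sum_blk i W']
    exact (hZ i _ _ (hz i (Finset.mem_univ i))).1
  have hbd : ∀ s, l (B s) ≤ W' s ∧ W' s ≤ h (B s) := by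
    intro s
    exact (hZ (B s) _ _ (hz (B s) (Finset.mem_univ _))).2 ⟨s, rfl⟩
  refine mem_HT.mpr ⟨?_, fun s hs => absurd (Finset.mem_univ _) hs⟩
  by_contra hnot
  push Not at hnot
  obtain ⟨s₀, hs₀⟩ := hnot
  let Bad : Finset ι := Finset.univ.filter fun i => ∃ s, B s = i ∧ B (g s) ≠ i
  have hBad : Bad.Nonempty := ⟨B s₀, by
    simp only [Bad, Finset.mem_filter, Finset.mem_univ, true_and]
    exact ⟨s₀, rfl, hs₀⟩⟩
  obtain ⟨i, hi, hmax⟩ := Finset.exists_max_image Bad l hBad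
  -- blocks with higher `l` are preserved, hence mapped onto themselves
  have hpres : ∀ j, l i < l j → (A j).image g = A j := by
    intro j hj
    have hj' : j ∉ Bad := fun hm => absurd (hmax j hm) (by omega)
    have hgj : ∀ s, B s = j → B (g s) = j := by
      intro s hs
      by_contra hc
      apply hj'
      simp only [Bad, Finset.mem_filter, Finset.mem_univ, true_and]
      exact ⟨s, hs, hc⟩
    refine Finset.eq_of_subset_of_card_le ?_ ?_
    · intro s hs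
      obtain ⟨s', hs', rfl⟩ := Finset.mem_image.mp hs
      exact (hA _ _).mpr (hgj s' ((hA _ _).mp hs'))
    · rw [Finset.card_image_of_injective _ g.injective]
  set X := (A i).image g with hX
  have hcardX : X.card = (A i).card := Finset.card_image_of_injective _ g.injective
  have hsumX : ∑ s ∈ X, W' s = W i := by
    rw [hX, Finset.sum_image (fun a _ b _ e => g.injective e)]
    exact hsum₁ i
  -- the two differences
  have hlow : ∀ s ∈ X \ A i, W' s + 1 ≤ l i := by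
    intro s hs
    obtain ⟨hs1, hs2⟩ := Finset.mem_sdiff.mp hs
    obtain ⟨s', hs', rfl⟩ := Finset.mem_image.mp hs1
    have hb' : B s' = i := (hA _ _).mp hs'
    set j := B (g s') with hj
    have hji : i ≠ j := by
      rintro e
      apply hs2
      rw [hA]
      exact e.symm
    have hb1 : W' (g s') ≤ h j := (hbd (g s')).2
    have hb2 := hbd s'
    rw [hb'] at hb2
    rcases hband i j hji with h1 | h1
    · exfalso
      have hb3 : l j ≤ W' (g s') := (hbd (g s')).1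
      have hlt : l i < l j := by omega
      have himg := hpres j hlt
      have hmem : g s' ∈ (A j).image g := by
        rw [himg, hA]
      obtain ⟨s'', hs'', he⟩ := Finset.mem_image.mp hmem
      have := g.injective he
      rw [this] at hs''
      have h2 := (hA _ _).mp hs''
      exact hji (hb'.symm.trans h2)
    · omega
  have hhigh : ∀ s ∈ A i \ X, l i ≤ W' s := by
    intro s hs
    have hb' : B s = i := (hA _ _).mp (Finset.mem_sdiff.mp hs).1
    have := (hbd s).1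
    rwa [hb'] at this
  have hcomm : (X \ A i).card = (A i \ X).card := Finset.card_sdiff_comm hcardX
  have hpos : 0 < (X \ A i).card := by
    obtain ⟨s, hs, hsB⟩ : ∃ s, B s = i ∧ B (g s) ≠ i := by
      simpa [Bad] using hi
    refine Finset.card_pos.mpr ⟨g s, Finset.mem_sdiff.mpr ⟨?_, ?_⟩⟩
    · exact Finset.mem_image_of_mem _ ((hA _ _).mpr hs)
    · rw [hA]
      exact hsB
  have e1 := Finset.sum_inter_add_sum_sdiff X (A i) W'
  have e2 := Finset.sum_inter_add_sum_sdiff (A i) X W'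
  rw [Finset.inter_comm] at e2
  have e3 : ∑ s ∈ X \ A i, W' s = ∑ s ∈ A i \ X, W' s := by
    rw [hsumX] at e1
    rw [hsum₂] at e2
    omega
  have b1 : ∑ s ∈ X \ A i, (W' s + 1) ≤ (X \ A i).card • l i :=
    Finset.sum_le_card_nsmul _ _ _ hlow
  have b2 : (A i \ X).card • l i ≤ ∑ s ∈ A i \ X, W' s :=
    Finset.card_nsmul_le_sum _ _ _ hhigh
  rw [Finset.sum_add_distrib, Finset.sum_const, smul_eq_mul, mul_one] at b1
  rw [← hcomm] at b2
  omega

end Chain

section GlueGen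

variable {S : Type} [Fintype S] [DecidableEq S] {ι : Type} [DecidableEq ι]
variable {B : S → ι} {Dc : ι → Finset (ℕ × ℕ)} {pos : ι → ℕ → ℕ} {D : Finset (ℕ × ℕ)}

/-- The row of a slot in a family of block tableaux. -/
def rowGG (t : ∀ i, Dc i ≃ Blk B i) (s : S) : ℕ := rowOf (t (B s)) ⟨s, rfl⟩

/-- The column of a slot in a family of block tableaux. -/
def colGG (pos : ι → ℕ → ℕ) (t : ∀ i, Dc i ≃ Blk B i) (s : S) : ℕ :=
  pos (B s) (colOf (t (B s)) ⟨s, rfl⟩)

omit [DecidableEq ι] in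
theorem rowGG_eq (t : ∀ i, Dc i ≃ Blk B i) {i : ι} (a : Blk B i) :
    rowGG t a.1 = rowOf (t i) a := by
  obtain ⟨s, rfl⟩ := a
  rfl

omit [DecidableEq ι] in
theorem colGG_eq (t : ∀ i, Dc i ≃ Blk B i) {i : ι} (a : Blk B i) :
    colGG pos t a.1 = pos i (colOf (t i) a) := by
  obtain ⟨s, rfl⟩ := a
  rfl

/-- The columns of different blocks, and of one block, go to different columns. -/
def PosSepG (pos : ι → ℕ → ℕ) (Dc : ι → Finset (ℕ × ℕ)) : Prop :=
  ∀ i j (c c' : ℕ × ℕ), c ∈ Dc i → c' ∈ Dc j → pos i c.2 = pos j c'.2 → i = j ∧ c.2 = c'.2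

/-- `D` is the union of the shifted blocks. -/
def IsUnionG (pos : ι → ℕ → ℕ) (Dc : ι → Finset (ℕ × ℕ)) (D : Finset (ℕ × ℕ)) : Prop :=
  ∀ c, c ∈ D ↔ ∃ i, ∃ e ∈ Dc i, e.1 = c.1 ∧ c.2 = pos i e.2

omit [DecidableEq ι] in
theorem colGG_block (hp : PosSepG pos Dc) (t : ∀ i, Dc i ≃ Blk B i) {s s' : S}
    (h : colGG pos t s = colGG pos t s') :
    B s = B s' ∧ colOf (t (B s)) ⟨s, rfl⟩ = colOf (t (B s')) ⟨s', rfl⟩ :=
  hp _ _ _ _ ((t (B s)).symm ⟨s, rfl⟩).2 ((t (B s')).symm ⟨s', rfl⟩).2 h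

/-- The glued tableau, as a bijection from slots to cells. -/
theorem glueG_bijective (hp : PosSepG pos Dc) (hD : IsUnionG pos Dc D) (t : ∀ i, Dc i ≃ Blk B i) :
    ∃ e : S ≃ D, ∀ s, (e s).1 = (rowGG t s, colGG pos t s) := by
  have hmem : ∀ s, (rowGG t s, colGG pos t s) ∈ D := by
    intro s
    exact (hD _).mpr ⟨B s, _, ((t (B s)).symm ⟨s, rfl⟩).2, rfl, rfl⟩
  let f : S → D := fun s => ⟨(rowGG t s, colGG pos t s), hmem s⟩
  have hf : Function.Bijective f := by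
    constructor
    · intro s s' he
      have he' : (rowGG t s, colGG pos t s) = (rowGG t s', colGG pos t s') :=
        congrArg Subtype.val he
      simp only [Prod.mk.injEq] at he'
      obtain ⟨hb, hc⟩ := colGG_block hp t he'.2
      have h1 : rowOf (t (B s)) ⟨s, rfl⟩ = rowOf (t (B s)) ⟨s', hb.symm⟩ := by
        rw [← rowGG_eq t ⟨s, rfl⟩, ← rowGG_eq t ⟨s', hb.symm⟩]
        exact he'.1
      have h2 : colOf (t (B s)) ⟨s, rfl⟩ = colOf (t (B s)) ⟨s', hb.symm⟩ := by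
        have key : ∀ (j : ι) (hj : B s' = j), colOf (t (B s')) ⟨s', rfl⟩ = colOf (t j) ⟨s', hj⟩ := by
          intro j hj
          subst hj
          rfl
        rw [hc]
        exact key _ hb.symm
      have := rowOf_colOf_injective (t (B s)) (Prod.ext h1 h2)
      exact congrArg Subtype.val this
    · rintro ⟨c, hc⟩
      obtain ⟨i, e, hce, hc1, hc2⟩ := (hD c).mp hc
      let a := t i ⟨e, hce⟩
      refine ⟨a.1, Subtype.ext ?_⟩
      show (rowGG t a.1, colGG pos t a.1) = c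
      rw [rowGG_eq, colGG_eq]
      refine Prod.ext ?_ ?_
      · simp [rowOf, a, hc1]
      · simp [colOf, a, hc2]
  exact ⟨Equiv.ofBijective f hf, fun s => rfl⟩

/-- The glued tableau. -/
noncomputable def glueTabG (hp : PosSepG pos Dc) (hD : IsUnionG pos Dc D)
    (t : ∀ i, Dc i ≃ Blk B i) : D ≃ S := (Classical.choose (glueG_bijective hp hD t)).symm

theorem rowOf_glueTabG (hp : PosSepG pos Dc) (hD : IsUnionG pos Dc D) (t : ∀ i, Dc i ≃ Blk B i) :
    rowOf (glueTabG hp hD t) = rowGG t := by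
  funext s
  have := Classical.choose_spec (glueG_bijective hp hD t) s
  show ((Classical.choose (glueG_bijective hp hD t)) s).1.1 = _
  rw [this]

theorem colOf_glueTabG (hp : PosSepG pos Dc) (hD : IsUnionG pos Dc D) (t : ∀ i, Dc i ≃ Blk B i) :
    colOf (glueTabG hp hD t) = colGG pos t := by
  funext s
  have := Classical.choose_spec (glueG_bijective hp hD t) s
  show ((Classical.choose (glueG_bijective hp hD t)) s).1.2 = _
  rw [this]

open Classical in
/-- Partial polytabloid on the blocks in `T`. -/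
noncomputable def partPG (pos : ι → ℕ → ℕ) (t : ∀ i, Dc i ≃ Blk B i) (T : Finset ι)
    (w : S → ℕ) : ℂ :=
  ∑ σ ∈ HT B T (colGG pos t), sgn σ * (if ∀ s, B s ∈ T → w s = rowGG t (σ⁻¹ s) then 1 else 0)

theorem partPG_single (hp : PosSepG pos Dc) (t : ∀ i, Dc i ≃ Blk B i) (i : ι) (w : S → ℕ) :
    partPG pos t {i} w = poly (t i) (fun a => w a.1) := by
  classical
  unfold partPG poly
  rw [sum_HT_single_stab (fun _ _ h => (colGG_block hp t h).1)]
  have hst : stab (fun a : Blk B i => colGG pos t a.1) = stab (colOf (t i)) := by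
    apply stab_congr
    intro a b
    rw [colGG_eq, colGG_eq]
    constructor
    · intro h
      exact (hp _ _ _ _ ((t i).symm a).2 ((t i).symm b).2 h).2
    · intro h
      rw [h]
  rw [hst]
  refine Finset.sum_congr rfl fun σ _ => ?_
  have h1 : sgn (Perm.ofSubtype σ) = sgn σ := by
    unfold sgn
    rw [Perm.sign_ofSubtype]
  rw [h1]
  congr 1
  refine if_congr ?_ rfl rfl
  constructor
  · intro h
    funext a
    have := h a.1 (by simp [a.2])
    rw [this]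
    simp only [Function.comp_apply]
    rw [← map_inv, ofSub_mem _ a.2, rowGG_eq]
  · intro h s hs
    have hs' : B s = i := by simpa using hs
    have := congrFun h ⟨s, hs'⟩
    simp only [Function.comp_apply] at this
    rw [this, ← map_inv, ofSub_mem _ hs', rowGG_eq]

theorem partPG_insert (hp : PosSepG pos Dc) (t : ∀ i, Dc i ≃ Blk B i) {T : Finset ι} {i : ι}
    (hi : i ∉ T) (w : S → ℕ) :
    partPG pos t (insert i T) w = partPG pos t T w * partPG pos t {i} w := by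
  classical
  unfold partPG
  rw [sum_HT_insert (fun _ _ h => (colGG_block hp t h).1) hi, Finset.sum_mul_sum]
  refine Finset.sum_congr rfl fun σ₁ h₁ => Finset.sum_congr rfl fun σ₂ h₂ => ?_
  have hinv₁ : ∀ s, B s = i → σ₁⁻¹ s = s := by
    intro s hs
    rw [Perm.inv_eq_iff_eq]
    exact ((mem_HT.mp h₁).2 s (by rw [hs]; exact hi)).symm
  have hb₁ : ∀ s, B (σ₁⁻¹ s) = B s := by
    intro s
    have := HT_block (fun _ _ h => (colGG_block hp t h).1) h₁ (σ₁⁻¹ s)
    rw [show σ₁ (σ₁⁻¹ s) = s by simp] at this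
    exact this.symm
  have hinv₂ : ∀ s, B s ≠ i → σ₂⁻¹ s = s := by
    intro s hs
    rw [Perm.inv_eq_iff_eq]
    exact ((mem_HT.mp h₂).2 s (by simpa using hs)).symm
  have hcond : (∀ s, B s ∈ insert i T → w s = rowGG t ((σ₁ * σ₂)⁻¹ s)) ↔
      (∀ s, B s ∈ T → w s = rowGG t (σ₁⁻¹ s)) ∧
        (∀ s, B s ∈ ({i} : Finset ι) → w s = rowGG t (σ₂⁻¹ s)) := by
    have e : ∀ s, (σ₁ * σ₂)⁻¹ s = σ₂⁻¹ (σ₁⁻¹ s) := by
      intro s
      simp [mul_inv_rev]
    constructor
    · intro h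
      refine ⟨fun s hs => ?_, fun s hs => ?_⟩
      · rw [h s (Finset.mem_insert_of_mem hs), e, hinv₂]
        rw [hb₁]
        rintro rfl
        exact hi hs
      · have hs' : B s = i := by simpa using hs
        rw [h s (by simp [hs']), e, hinv₁ s hs']
    · rintro ⟨h1, h2⟩ s hs
      rcases Finset.mem_insert.mp hs with hs | hs
      · rw [h2 s (by simp [hs]), e, hinv₁ s hs]
      · rw [h1 s hs, e, hinv₂]
        rw [hb₁]
        rintro he
        exact hi (he ▸ hs)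
  rw [sgn_mul, if_congr hcond rfl rfl]
  by_cases c1 : ∀ s, B s ∈ T → w s = rowGG t (σ₁⁻¹ s)
  · by_cases c2 : ∀ s, B s ∈ ({i} : Finset ι) → w s = rowGG t (σ₂⁻¹ s)
    · rw [if_pos ⟨c1, c2⟩, if_pos c1, if_pos c2]
      ring
    · rw [if_neg (fun h => c2 h.2), if_neg c2]
      ring
  · rw [if_neg (fun h => c1 h.1), if_neg c1]
    ring

theorem partPG_eq_prod (hp : PosSepG pos Dc) (t : ∀ i, Dc i ≃ Blk B i) (T : Finset ι)
    (w : S → ℕ) : partPG pos t T w = ∏ i ∈ T, poly (t i) (fun a => w a.1) := by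
  classical
  induction T using Finset.induction_on with
  | empty =>
    unfold partPG
    rw [HT_empty]
    simp [sgn]
  | insert i T hi ih =>
    rw [partPG_insert hp t hi, ih, Finset.prod_insert hi, partPG_single hp, mul_comm]

theorem poly_glueTabG [Fintype ι] (hp : PosSepG pos Dc) (hD : IsUnionG pos Dc D)
    (t : ∀ i, Dc i ≃ Blk B i) (w : S → ℕ) :
    poly (glueTabG hp hD t) w = ∏ i, poly (t i) (fun a => w a.1) := by
  classical
  rw [← partPG_eq_prod hp t]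
  unfold partPG poly
  rw [HT_univ, colOf_glueTabG, rowOf_glueTabG]
  refine Finset.sum_congr rfl fun σ _ => ?_
  congr 1
  refine if_congr ?_ rfl rfl
  constructor
  · intro h s _
    have := congrFun h s
    simpa using this
  · intro h
    funext s
    simpa using h s (Finset.mem_univ _)

/-- The full products of generators lie in the space of the union shape. -/
theorem ETG_subset_XX [Fintype ι] (hp : PosSepG pos Dc) (hD : IsUnionG pos Dc D)
    {E : ∀ i, Set (Fn2 (Blk B i))}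
    (hE : ∀ i, E i ⊆ Set.range fun p : (Dc i ≃ Blk B i) × (Dc i ≃ Blk B i) => prod2 p.1 p.2) :
    ETG E Finset.univ ⊆ (XX S D D : Set (Fn2 S)) := by
  rintro F ⟨f, hf, hF⟩
  have hex : ∀ i, ∃ p : (Dc i ≃ Blk B i) × (Dc i ≃ Blk B i), prod2 p.1 p.2 = f i :=
    fun i => hE i (hf i)
  choose p hp' using hex
  refine Submodule.subset_span ⟨(glueTabG hp hD fun i => (p i).1,
    glueTabG hp hD fun i => (p i).2), ?_⟩
  funext w₁ w₂
  rw [hF]
  simp only [prod2, poly_glueTabG]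
  rw [← Finset.prod_mul_distrib]
  refine Finset.prod_congr rfl fun i _ => ?_
  rw [← hp' i]
  rfl

/-- The content of a word where a polytabloid does not vanish. -/
theorem sum_of_poly_ne_zero {S : Type} [Fintype S] [DecidableEq S] {D : Finset (ℕ × ℕ)}
    {t : D ≃ S} {u : S → ℕ} (h : poly t u ≠ 0) : ∑ a, u a = ∑ c ∈ D, c.1 := by
  obtain ⟨σ, _, rfl⟩ := exists_of_poly_ne_zero h
  have e1 : ∑ a, (rowOf t ∘ ⇑(σ⁻¹)) a = ∑ a, rowOf t a := Equiv.sum_comp (σ⁻¹ : Perm S) (rowOf t)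
  rw [e1]
  have e2 : ∑ a, rowOf t a = ∑ c : D, (c : ℕ × ℕ).1 := by
    refine Fintype.sum_equiv t.symm _ _ fun a => rfl
  rw [e2]
  exact Finset.sum_coe_sort D (fun c => c.1)

theorem weight_of_prod2 {S : Type} [Fintype S] [DecidableEq S] {D : Finset (ℕ × ℕ)}
    {t t' : D ≃ S} {u₁ u₂ : S → ℕ} (h : prod2 t t' u₁ u₂ ≠ 0) :
    ∑ a, (u₁ a + u₂ a) = 2 * ∑ c ∈ D, c.1 := by
  have h1 : poly t u₁ ≠ 0 := left_ne_zero_of_mul h
  have h2 : poly t' u₂ ≠ 0 := right_ne_zero_of_mul h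
  rw [Finset.sum_add_distrib, sum_of_poly_ne_zero h1, sum_of_poly_ne_zero h2]
  ring

/-- **Product theorem for an arbitrary list of blocks.** -/
theorem occurs_of_family [Fintype ι] (hp : PosSepG pos Dc) (hD : IsUnionG pos Dc D)
    {E : ∀ i, Set (Fn2 (Blk B i))}
    (hE : ∀ i, E i ⊆ Set.range fun p : (Dc i ≃ Blk B i) × (Dc i ≃ Blk B i) => prod2 p.1 p.2)
    (hEne : ∀ i, (E i).Nonempty)
    {Z : ∀ i, (Blk B i → ℕ) → (Blk B i → ℕ) → Prop}
    {k : ∀ i, Finset (Perm (Blk B i))} (hk1 : ∀ i, (1 : Perm (Blk B i)) ∈ k i)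
    (hs : ∀ i, SeesOn Finset.univ (k i) (E i) (Z i))
    {l h : ι → ℕ} (hband : ∀ i j, i ≠ j → h i < l j ∨ h j < l i)
    (hZ : ∀ i u₁ u₂, Z i u₁ u₂ → (∑ a, (u₁ a + u₂ a) = 2 * ∑ c ∈ Dc i, c.1) ∧
      ∀ a, l i ≤ u₁ a + u₂ a ∧ u₁ a + u₂ a ≤ h i)
    {V : Type*} [AddCommGroup V] [Module ℂ V] {ρ : Representation ℂ (Perm S) V}
    {v₀ : V} (hv₀ : v₀ ≠ 0) (hfix : ∀ g ∈ KT k Finset.univ, ρ g⁻¹ v₀ = v₀) : Occurs ρ D D := by
  have h1 := seesOn_ETG hEne hs Finset.univ
  have h2 : Sees Finset.univ (KT k Finset.univ) (XX S D D : Set (Fn2 S)) := by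
    refine SeesOn.to_univ (ETG_subset_XX hp hD hE) ?_ h1
    intro F hF w₁ w₂ hz g hne
    refine band_mem_H (W := fun i => 2 * ∑ c ∈ Dc i, c.1) hband ?_ hZ hF hz g hne
    intro i f hf u₁ u₂ hne'
    obtain ⟨p, rfl⟩ := hE i hf
    exact weight_of_prod2 hne'
  refine occurs_of_sees_fix h2 ⟨1, ?_⟩ hv₀ hfix
  refine mem_KT_iff.mpr ⟨mem_HT.mpr ⟨fun _ => rfl, fun s hs => absurd (Finset.mem_univ _) hs⟩,
    fun i _ => ⟨1, hk1 i, fun s hs => rfl⟩⟩

/-- The colouring form: a vector fixed by the stabilizer of a colouring refining the blocks. -/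
theorem KT_stab_subset {c : S → ℕ} [Fintype ι] :
    KT (B := B) (fun i => stab fun a : Blk B i => c a.1) Finset.univ ⊆ stab c := by
  intro g hg
  obtain ⟨hgH, hgk⟩ := mem_KT_iff.mp hg
  refine mem_stab.mpr fun s => ?_
  obtain ⟨k', hk', he⟩ := hgk (B s) (Finset.mem_univ _)
  rw [he s rfl]
  exact mem_stab.mp hk' ⟨s, rfl⟩

theorem occurs_of_family_fix [Fintype ι] (hp : PosSepG pos Dc) (hD : IsUnionG pos Dc D)
    {E : ∀ i, Set (Fn2 (Blk B i))}
    (hE : ∀ i, E i ⊆ Set.range fun p : (Dc i ≃ Blk B i) × (Dc i ≃ Blk B i) => prod2 p.1 p.2)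
    (hEne : ∀ i, (E i).Nonempty)
    {Z : ∀ i, (Blk B i → ℕ) → (Blk B i → ℕ) → Prop} {c : S → ℕ}
    (hs : ∀ i, SeesOn Finset.univ (stab fun a : Blk B i => c a.1) (E i) (Z i))
    {l h : ι → ℕ} (hband : ∀ i j, i ≠ j → h i < l j ∨ h j < l i)
    (hZ : ∀ i u₁ u₂, Z i u₁ u₂ → (∑ a, (u₁ a + u₂ a) = 2 * ∑ c ∈ Dc i, c.1) ∧
      ∀ a, l i ≤ u₁ a + u₂ a ∧ u₁ a + u₂ a ≤ h i)
    {V : Type*} [AddCommGroup V] [Module ℂ V] {ρ : Representation ℂ (Perm S) V}
    (hfix : HasFix ρ c) : Occurs ρ D D := by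
  obtain ⟨v₀, hv₀, hf⟩ := hfix
  refine occurs_of_family hp hD hE hEne (k := fun i => stab fun a : Blk B i => c a.1)
    (fun i => one_mem_stab _) hs hband hZ hv₀ (fun g hg => ?_)
  exact hf _ (inv_mem_stab (KT_stab_subset hg))

end GlueGen

end Crest.Agent.Saxl
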