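import Crest.Agent.Lib.Saxl.Alpha4
import Crest.Agent.Lib.Saxl.Column
import Crest.Agent.Lib.Saxl.Conj
import Crest.Agent.Lib.Saxl.Bridge

/-!
# Top level of the staircase theorem

`Occurs ρ (staircaseShape m) (staircaseShape m)` for every irreducible `ρ`, by induction on `m`:
diagrams with at most `m` rows are handled by the four-row blocks (`Step2Stmt`), diagrams with more
rows by peeling a column of the sign twist.
-/

set_option autoImplicit false

open scoped BigOperators
open Equiv

namespace Crest.Agent.Saxl.Top

open Crest.AlgebraR.Specht (staircaseShape)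

theorem mem_stair {m : ℕ} {q : ℕ × ℕ} : q ∈ staircaseShape m ↔ q.1 + q.2 < m := by
  unfold staircaseShape
  simp only [Finset.mem_filter, Finset.mem_product, Finset.mem_range]
  omega

theorem addCol_stair (m : ℕ) : addCol (m + 1) (staircaseShape m) = staircaseShape (m + 1) := by
  ext ⟨i, j⟩
  simp only [addCol, Finset.mem_union, mem_colShape, mem_shiftCol, mem_stair]
  constructor
  · rintro (⟨h1, h2⟩ | ⟨k, h1, h2⟩)
    · omega
    · omega
  · intro h
    rcases j with _ | j
    · left
      omega
    · right
      exact ⟨j, rfl, by omega⟩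

theorem stair_swap {m : ℕ} (q : ℕ × ℕ) : q ∈ staircaseShape m ↔ q.swap ∈ staircaseShape m := by
  simp only [mem_stair, Prod.fst_swap, Prod.snd_swap]
  omega

theorem rowCnt_stair (m k : ℕ) : rowCnt (staircaseShape m) k = m - k := by
  unfold rowCnt
  have : ((staircaseShape m).filter fun q => q.1 = k) =
      (Finset.range (m - k)).image fun j => (k, j) := by
    ext ⟨i, j⟩
    simp only [Finset.mem_filter, mem_stair, Finset.mem_image, Finset.mem_range, Prod.mk.injEq]
    constructor
    · rintro ⟨h1, rfl⟩
      exact ⟨j, by omega, rfl, rfl⟩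
    · rintro ⟨b, h1, rfl, rfl⟩
      exact ⟨by omega, rfl⟩
  rw [this, Finset.card_image_of_injective _ (fun a b h => by simpa using h), Finset.card_range]

theorem two_mul_card_stair (m : ℕ) : 2 * (staircaseShape m).card = m * (m + 1) := by
  induction m with
  | zero =>
    have : staircaseShape 0 = ∅ := by
      ext q
      simp [mem_stair]
    simp [this]
  | succ m ih =>
    rw [← addCol_stair m, addCol, Finset.card_union_of_disjoint, card_colShape]
    · have : (shiftCol (staircaseShape m)).card = (staircaseShape m).card := by
        unfold shiftCol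
        refine Finset.card_image_of_injective _ ?_
        rintro ⟨a, b⟩ ⟨c, d⟩ h
        simp only [Prod.mk.injEq] at h
        ext <;> simp <;> omega
      rw [this]
      nlinarith
    · rw [Finset.disjoint_left]
      intro q hq hq'
      rw [mem_colShape] at hq
      obtain ⟨j, hj, -⟩ := mem_shiftCol.mp hq'
      omega

/-- The statement of the four-row block gluing (`step2` of `Lib/Saxl/Glue`). -/
def Step2Stmt : Prop :=
  ∀ (m : ℕ) (S : Type) [Fintype S] [DecidableEq S] (B c : S → ℕ),
    (∀ s s', c s = c s' → B s = B s') →
    (∀ j, (Finset.univ.filter fun s => B s = j).card =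
      if j % 2 = 0 ∧ j < m then 2 * (m - 1 - j) + 1 else 0) →
    (∀ j, ((Finset.univ.filter fun s => B s = j).image c).card ≤ 4) →
    ∀ (V : Type) [AddCommGroup V] [Module ℂ V] [FiniteDimensional ℂ V]
      (ρ : Representation ℂ (Perm S) V), ρ.IsIrreducible → HasFix ρ c →
      Occurs ρ (staircaseShape m) (staircaseShape m)

section Main

variable (hstep : Step2Stmt)
include hstep

/-- Diagrams with at most `m` rows. -/
theorem occurs_few_rows (m : ℕ) {S : Type} [Fintype S] [DecidableEq S]
    (hS : 2 * Fintype.card S = m * (m + 1))
    {V : Type} [AddCommGroup V] [Module ℂ V] [FiniteDimensional ℂ V]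
    {ρ : Representation ℂ (Perm S) V} (hρ : ρ.IsIrreducible)
    {ν : YoungDiagram} (T : Tab ν S) (hlab : Label ρ ν) (hν : ∀ k, m ≤ k → ν.rowLen k = 0) :
    Occurs ρ (staircaseShape m) (staircaseShape m) := by
  obtain ⟨B, c, hcB, hB, hc4, hd, hP⟩ := exists_alpha4 (S := S) m hS
  have hfix : HasFix ρ (rowC T) := (hlab.all T).1
  have hfix' : HasFix ρ c := HasFix.of_alpha4 T hd (hP ν T hν) hfix
  exact hstep m S B c hcB hB hc4 V ρ hρ hfix'

/-- **The staircase theorem at the level of `Occurs`.** -/
theorem occurs_stair (m : ℕ) : ∀ {S : Type} [Fintype S] [DecidableEq S],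
    2 * Fintype.card S = m * (m + 1) →
    ∀ {V : Type} [AddCommGroup V] [Module ℂ V] [FiniteDimensional ℂ V]
      {ρ : Representation ℂ (Perm S) V}, ρ.IsIrreducible →
      Occurs ρ (staircaseShape m) (staircaseShape m) := by
  induction m with
  | zero =>
    intro S _ _ hS V _ _ _ ρ hρ
    obtain ⟨ν, hν, hlab⟩ := exists_label hρ
    obtain ⟨T⟩ := exists_tab (S := S) ν hν
    refine occurs_few_rows hstep 0 hS hρ T hlab ?_
    intro k _
    have h0 : ν.card = 0 := by
      rw [hν]
      omega
    have : ν.cells = ∅ := by
      rw [← Finset.card_eq_zero]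
      exact h0
    by_contra hne
    have hmem : (k, 0) ∈ ν := by
      rw [YoungDiagram.mem_iff_lt_rowLen]
      omega
    rw [← YoungDiagram.mem_cells, this] at hmem
    simp at hmem
  | succ m ih =>
    intro S _ _ hS V _ _ _ ρ hρ
    obtain ⟨ν, hν, hlab⟩ := exists_label hρ
    obtain ⟨T⟩ := exists_tab (S := S) ν hν
    by_cases hrows : ∀ k, m + 1 ≤ k → ν.rowLen k = 0
    · exact occurs_few_rows hstep (m + 1) hS hρ T hlab hrows
    · -- many rows: peel a column of the sign twist
      push Not at hrows
      obtain ⟨k, hk, hk0⟩ := hrows
      have hmem : (k, 0) ∈ ν := by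
        rw [YoungDiagram.mem_iff_lt_rowLen]
        omega
      have hcol : k < ν.colLen 0 := by
        rw [← YoungDiagram.mem_iff_lt_colLen]
        exact hmem
      have hcard : m + 1 ≤ (Finset.univ.filter fun s => colC T s = 0).card := by
        rw [card_colC_eq]
        omega
      obtain ⟨A, hAsub, hA⟩ := Finset.exists_subset_card_eq hcard
      obtain ⟨v, hv, hvalt⟩ := (hlab.all T).2
      have hfix : ∀ g : Perm S, (∀ s, s ∉ A → g s = s) → sgnTwist ρ g v = v := by
        intro g hg
        have hstab : g ∈ stab (colC T) := by
          rw [mem_stab]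
          intro s
          by_cases hs : s ∈ A
          · have h1 : g s ∈ A := by
              by_contra h2
              have h3 := hg _ h2
              have h4 := g.injective h3
              rw [h4] at h2
              exact h2 hs
            have h5 := (Finset.mem_filter.mp (hAsub h1)).2
            have h6 := (Finset.mem_filter.mp (hAsub hs)).2
            rw [h5, h6]
          · rw [hg s hs]
        rw [sgnTwist_apply, hvalt g hstab, smul_smul, sgn_mul_self, one_smul]
      have hcardA : 2 * Fintype.card {s // s ∉ A} = m * (m + 1) := by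
        have h1 : Fintype.card {s // s ∉ A} = Fintype.card S - A.card := by
          rw [Fintype.card_subtype_compl, Fintype.card_coe]
        rw [h1, hA]
        have : 2 * Fintype.card S = (m + 1) * (m + 2) := hS
        have h2 : m + 1 ≤ Fintype.card S := by nlinarith
        zify [h2]
        zify at this
        nlinarith
      have IH : ∀ (V' : Type) [AddCommGroup V'] [Module ℂ V'] [FiniteDimensional ℂ V']
          (ρ' : Representation ℂ (Perm {s // s ∉ A}) V'), ρ'.IsIrreducible →
          Occurs ρ' (staircaseShape m) (staircaseShape m) :=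
        fun V' _ _ _ ρ' hρ' => ih hcardA hρ'
      have hocc : Occurs (sgnTwist ρ) (addCol (m + 1) (staircaseShape m))
          (addCol (m + 1) (staircaseShape m)) := by
        refine occurs_of_fix_column (sgnTwist ρ) hA v hv hfix (staircaseShape m) (staircaseShape m)
          IH 1 id (fun i => by simp) id (by simp) ?_
        intro j hj
        simp only [id, rowCnt_stair, min_self]
        omega
      rw [addCol_stair] at hocc
      have htw := occurs_twist (D' := staircaseShape (m + 1)) (fun q => stair_swap q) hocc
      rwa [sgnTwist_sgnTwist] at htw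

/-- The statement in the form of `S0297`. -/
theorem main (m : ℕ)
    (W : Type) [AddCommGroup W] [Module ℂ W] [FiniteDimensional ℂ W]
    (σ : Representation ℂ (Perm (Fin (staircaseShape m).card)) W)
    (hσ : Representation.IsIrreducible σ) :
    Nontrivial (Representation.IntertwiningMap σ
      (Representation.tprod (Crest.AlgebraR.Specht.spechtRep (staircaseShape m))
        (Crest.AlgebraR.Specht.spechtRep (staircaseShape m)))) := by
  refine nontrivial_of_occurs (occurs_stair hstep m ?_ hσ)
  rw [Fintype.card_fin]
  exact two_mul_card_stair m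

end Main

end Crest.Agent.Saxl.Top
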