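import Crest.Agent.Lib.Saxl.Step2
import Crest.Agent.Lib.Saxl.FourRows
import Crest.Agent.Lib.Saxl.Top

/-!
# `Step2Stmt` of the top level (row 195, helper86)
-/

set_option autoImplicit false

open scoped BigOperators
open Equiv

namespace Crest.Agent.Saxl

/-- The block input: four rows (`FourRows`) and conjugation (`Conj`). -/
theorem block4 : Block4 := by
  intro x A _ _ hcard c hc V _ _ _ ρ hρ hfix
  have h := FourRows.occurs_twoRow_of_hasFix hρ hc hfix x hcard
  have hq : ∀ q, q ∈ col2 x ↔ q.swap ∈ (FourRows.twoRow x).cells := by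
    rintro ⟨i, j⟩
    rw [mem_col2]
    simp only [Prod.swap_prod_mk, YoungDiagram.mem_cells, FourRows.mem_twoRow]
  exact occurs_conj hq hq h

namespace Top

theorem step2Stmt : Step2Stmt := by
  intro m S _ _ B c hcB hB hc4 V _ _ _ ρ hρ hfix
  have hBm : ∀ s, B s % 2 = 0 ∧ B s < m := by
    intro s
    by_contra h
    have h1 := hB (B s)
    rw [if_neg h, Finset.card_eq_zero] at h1
    have h2 : s ∈ Finset.univ.filter fun s' => B s' = B s := by simp
    rw [h1] at h2
    simp at h2
  let B' : S → Fin ((m + 1) / 2) := fun s => ⟨B s / 2, by have := hBm s; omega⟩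
  have hB' : ∀ s (i : Fin ((m + 1) / 2)), B' s = i ↔ B s = 2 * (i : ℕ) := by
    intro s i
    have h := hBm s
    constructor
    · intro e
      have : B s / 2 = (i : ℕ) := congrArg Fin.val e
      omega
    · intro e
      apply Fin.ext
      show B s / 2 = (i : ℕ)
      omega
  refine step2 block4 m B' ?_ c ?_ ?_ hfix
  · intro i
    have hi := i.2
    rw [Fintype.card_subtype]
    have e : (Finset.univ.filter fun s => B' s = i) = Finset.univ.filter fun s => B s = 2 * (i : ℕ) := by
      ext s
      simp only [Finset.mem_filter, Finset.mem_univ, true_and, hB']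
    rw [e, hB, if_pos (by omega)]
  · intro s s' h
    apply Fin.ext
    show B s / 2 = B s' / 2
    rw [hcB s s' h]
  · intro i
    refine le_trans (Finset.card_le_card ?_) (hc4 (2 * (i : ℕ)))
    intro q hq
    obtain ⟨a, _, rfl⟩ := Finset.mem_image.mp hq
    refine Finset.mem_image.mpr ⟨a.1, ?_, rfl⟩
    simp only [Finset.mem_filter, Finset.mem_univ, true_and]
    exact (hB' _ _).mp a.2

end Top

end Crest.Agent.Saxl
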