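import Crest.Agent.Lib.Saxl.GlueGen
import Crest.Agent.Lib.Saxl.Step2Final

/-!
# Block inputs for `occurs_of_family` (row 195, helper86)
-/

set_option autoImplicit false

open scoped BigOperators
open Equiv

namespace Crest.Agent.Saxl

section Inst

variable {A : Type} [Fintype A] [DecidableEq A]

/-- The weight condition on a test pair: implied by the content of the shape `D`. -/
def ZW (D : Finset (ℕ × ℕ)) (u₁ u₂ : A → ℕ) : Prop := ∑ a, (u₁ a + u₂ a) = 2 * ∑ c ∈ D, c.1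

/-- All generators of `XX`. -/
def genXX (A : Type) [Fintype A] [DecidableEq A] (D : Finset (ℕ × ℕ)) : Set (Fn2 A) :=
  Set.range fun p : (D ≃ A) × (D ≃ A) => prod2 p.1 p.2

theorem zw_of_mem_XX {D : Finset (ℕ × ℕ)} {F : Fn2 A} (hF : F ∈ XX A D D) {u₁ u₂ : A → ℕ}
    (h : F u₁ u₂ ≠ 0) : ZW D u₁ u₂ := by
  by_contra hn
  have key : ∀ G ∈ XX A D D, G u₁ u₂ = 0 := by
    intro G hG
    induction hG using Submodule.span_induction with
    | mem y hy =>
      obtain ⟨p, rfl⟩ := hy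
      by_contra h0
      exact hn (weight_of_prod2 h0)
    | zero => rfl
    | add y z _ _ hy hz => simp [hy, hz]
    | smul c y _ hy => simp [hy]
  exact h (key F hF)

theorem fn2Rep_mem_genXX {D : Finset (ℕ × ℕ)} {F : Fn2 A} (hF : F ∈ genXX A D) (g : Perm A) :
    fn2Rep A g F ∈ genXX A D := by
  obtain ⟨p, rfl⟩ := hF
  exact ⟨(p.1.trans g, p.2.trans g), (fn2Rep_prod2 p.1 p.2 g).symm⟩

/-- **Generic block input**: `Sees` for the whole space and visibility on test pairs. -/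
theorem seesOn_of_block {D : Finset (ℕ × ℕ)} {K : Finset (Perm A)}
    {T : (A → ℕ) → (A → ℕ) → Prop}
    (hs : Sees Finset.univ K (XX A D D : Set (Fn2 A)))
    (hv : ∀ F ∈ XX A D D, F ≠ 0 → ∃ u₁ u₂, T u₁ u₂ ∧ F u₁ u₂ ≠ 0) :
    SeesOn Finset.univ K (genXX A D) (fun u₁ u₂ => T u₁ u₂ ∧ ZW D u₁ u₂) := by
  refine SeesOn.of_vis ?_ ?_ ?_
  · intro b hb
    exact hs b (kills_span hb)
  · intro F hF hD
    by_contra hne
    obtain ⟨u₁, u₂, hT, hne'⟩ := hv F hF hne
    exact hne' (hD _ _ ⟨hT, zw_of_mem_XX hF hne'⟩)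
  · intro F hF h _
    exact Submodule.subset_span (fn2Rep_mem_genXX hF h)

/-- The block `(x+1, x)`: a colouring with at most four colours. -/
theorem seesOn_col2 {x : ℕ} (hcard : Fintype.card A = 2 * x + 1) {c : A → ℕ}
    (hc : (Finset.univ.image c).card ≤ 4) :
    SeesOn Finset.univ (stab c) (genXX A (col2 x))
      (fun u₁ u₂ => Zig x (2 * x + 1) u₁ u₂ ∧ ZW (col2 x) u₁ u₂) :=
  seesOn_of_block (sees_of_occurs fun V _ _ _ ρ hρ hf => block4 x A hcard c hc V ρ hρ hf)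
    (fun _ hF hne => exists_zig_ne_zero hF hne)

/-- The band of the block `(x+1, x)`. -/
theorem band_col2 {x : ℕ} (hcard : Fintype.card A = 2 * x + 1) {u₁ u₂ : A → ℕ}
    (hZ : Zig x (2 * x + 1) u₁ u₂) (a : A) : x - 1 ≤ u₁ a + u₂ a ∧ u₁ a + u₂ a ≤ x := by
  have := onStripe_of_Zig hcard hZ a
  unfold OnStripe at this
  omega

end Inst

end Crest.Agent.Saxl
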