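import Crest.Agent.Lib.Saxl.GridTable
import Crest.Agent.Lib.Saxl.FamilyLevels

/-!
# All the levels of the chains (row 195, S0298, helper83)

`hstep_all` is the hypothesis `hstep` of `s0298_of_data`.
-/

set_option autoImplicit false

namespace Crest.Agent.Saxl.Family

/-- **All the levels of the chains are steps.** -/
theorem hstep_all (i j P a b : ℕ) (h : OnChain i j P a b) :
    StepOK (patt a b 1) (famL (baseL i j) P (patt (a - 1) (b - 1))) := by
  by_cases hc : cOf (patt a b 1) (famL (baseL i j) P (patt (a - 1) (b - 1))) ≤ 45
  · exact stepOK_small h hc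
  · exact stepOK_large h (by omega)

end Crest.Agent.Saxl.Family
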