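import Crest.Agent.Lib.Saxl.GridAllSteps
import Crest.Agent.Lib.Saxl.FinalAsm

/-!
# The assembly of S0298 from the table of small `n` (row 195, helper83)
-/

set_option autoImplicit false

open Equiv

namespace Crest.Agent.Saxl.Family

/-- **S0298 from the one remaining input.** -/
theorem s0298_of_hT
    (hT : ∀ n, 30 ≤ n → ExcN n →
      ∃ μ : YoungDiagram, μ.cells.card = n ∧ Saxl.Universal μ.cells n)
    (n : ℕ) (hn : 0 < n) (h2 : n ≠ 2) (h4 : n ≠ 4) (h9 : n ≠ 9) :
    ∃ (V : Type) (_ : AddCommGroup V) (_ : Module ℂ V) (_ : FiniteDimensional ℂ V)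
      (ρ : Representation ℂ (Perm (Fin n)) V), ρ.IsIrreducible ∧
      ∀ (W : Type) [AddCommGroup W] [Module ℂ W] [FiniteDimensional ℂ W]
        (σ : Representation ℂ (Perm (Fin n)) W), σ.IsIrreducible →
        Nontrivial (Representation.IntertwiningMap σ (Representation.tprod ρ ρ)) :=
  s0298_of_data (hsmall_of hT) Kron.hbase hstep_all n hn h2 h4 h9

end Crest.Agent.Saxl.Family
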