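import Crest.Agent.Lib.Saxl.LevelExtra
import Crest.Agent.Lib.Saxl.FamilyParts
import Crest.Agent.Lib.Saxl.FamW

/-!
# The grid check of a level (row 195, S0298, helper83)

A diagram `ν` of size `n` lies in the cell `(p, q)` if `ν'₀ = p`, `ν'₁ = q`.  All the tests of a level
(`LongOK`, `SimpleOK`, `DomOK`, `MixOK`) are monotone in the partial sums `S_k` of the rows, and `S_k` has
an explicit lower bound on a cell: the flat envelope, `geS_sound`, from the integer dichotomy
`rowsBelow_ge_of_line`.  So a level is a finite computation with `O(c²)` cells, for which the kernel is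
enough: `stepOK_of_levelOK`.
-/

set_option autoImplicit false

open scoped BigOperators

namespace Crest.Agent.Saxl.Family

/-! ### Forcing the evaluation in the kernel -/

/-- Evaluate a number before going on. -/
def withNat {α : Type} (n : ℕ) (k : ℕ → α) : α :=
  match n with
  | 0 => k 0
  | m + 1 => k (Nat.succ m)

theorem withNat_eq {α : Type} (n : ℕ) (k : ℕ → α) : withNat n k = k n := by
  cases n <;> rfl

/-- Evaluate a list of numbers before going on. -/
def withList {α : Type} : List ℕ → (List ℕ → α) → α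
  | [], k => k []
  | x :: xs, k => withNat x fun x' => withList xs fun r => k (x' :: r)

theorem withList_eq {α : Type} (l : List ℕ) (k : List ℕ → α) : withList l k = k l := by
  induction l generalizing k with
  | nil => rfl
  | cons x xs ih => simp only [withList, withNat_eq, ih]

/-- A loop. -/
def allBelow (f : ℕ → Bool) : ℕ → Bool
  | 0 => true
  | m + 1 => f m && allBelow f m

theorem allBelow_spec {f : ℕ → Bool} {m : ℕ} (h : allBelow f m = true) {x : ℕ} (hx : x < m) :
    f x = true := by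
  induction m with
  | zero => omega
  | succ m ih =>
    simp only [allBelow, Bool.and_eq_true] at h
    rcases Nat.lt_succ_iff_lt_or_eq.mp hx with h1 | rfl
    · exact ih h.2 h1
    · exact h.1

/-! ### The envelope on a cell -/

/-- A diagram in the block `(≤ p, q)`, with first row at least `y`. -/
structure InCell (ν : YoungDiagram) (n p q y : ℕ) : Prop where
  hn : ν.card = n
  hp : ν.colLen 0 ≤ p
  hq : ν.colLen 1 = q
  hy : y ≤ ν.rowLen 0

theorem InCell.S_q {ν : YoungDiagram} {n p q y : ℕ} (h : InCell ν n p q y) :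
    n - (p - q) ≤ rowsBelow ν q := by
  have h1 := rowsBelow_colLen_one ν
  have h2 := h.hp
  rw [h.hq, h.hn] at h1
  omega

/-- The test `X ≤ S_k` on the block `(≤ p, q)`, with first row at least `y`, and threshold `v`; any
`v` is fine. -/
def geS (n p q y v X k : ℕ) : Bool :=
  bif Nat.ble q k then Nat.ble (Nat.add X (Nat.sub p k)) n
  else Nat.ble X (Nat.add y (Nat.mul (Nat.sub k 1) v)) &&
    Nat.ble (Nat.add X (Nat.mul (Nat.sub q k) (Nat.sub v 1))) (Nat.sub n (Nat.sub p q))

/-- **The envelope.** -/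
theorem geS_sound {ν : YoungDiagram} {n p q y v X k : ℕ} (hc : InCell ν n p q y) (hk : 1 ≤ k)
    (h : geS n p q y v X k = true) : X ≤ rowsBelow ν k := by
  unfold geS at h
  cases hqk : Nat.ble q k with
  | true =>
    simp only [hqk, cond_true] at h
    have h1 : q ≤ k := Nat.le_of_ble_eq_true hqk
    have h2 : X + (p - k) ≤ n := Nat.le_of_ble_eq_true h
    have h3 := rowsBelow_tail ν (k := k) (by rw [hc.hq]; exact h1)
    have h4 := hc.hp
    rw [hc.hn] at h3
    omega
  | false =>
    simp only [hqk, cond_false, Bool.and_eq_true] at h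
    obtain ⟨h1, h2⟩ := h
    have h1' : X ≤ y + (k - 1) * v := Nat.le_of_ble_eq_true h1
    have h2' : X + (q - k) * (v - 1) ≤ n - (p - q) := Nat.le_of_ble_eq_true h2
    apply rowsBelow_ge_of_line ν (i := 1) (j := k) (q := q) (v := v - 1) hk
    · rw [rowsBelow_one]
      have h3 := hc.hy
      have h4 : (k - 1) * v ≤ (k - 1) * (v - 1 + 1) := Nat.mul_le_mul_left _ (by omega)
      omega
    · exact h2'.trans hc.S_q

/-! ### The tests on a cell -/

/-- The four strips. -/
def longT (n p q y v c A2 A3 A4 : ℕ) : Bool :=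
  geS n p q y v A4 4 && (geS n p q y v A3 3 && (geS n p q y v A2 2 && geS n p q y v c 1))

theorem longT_sound {ν : YoungDiagram} {n p q y v c : ℕ} (hc : InCell ν n p q y)
    (h : longT n p q y v c (c + (c - 1)) (c + (c - 1) + (c - 2)) (c + (c - 1) + (c - 2) + (c - 3)) = true) :
    LongOK c (c - 1) (c - 2) (c - 3) ν := by
  simp only [longT, Bool.and_eq_true] at h
  obtain ⟨h4, h3, h2, h1⟩ := h
  exact ⟨geS_sound hc le_rfl h1, geS_sound hc (by omega) h2, geS_sound hc (by omega) h3,
    geS_sound hc (by omega) h4⟩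

/-- The mixed rule. -/
def mixT (n p q y v c A2 U : ℕ) : Bool :=
  Nat.ble U p && (geS n p q y v (c + (1 - (p - U))) 1 && geS n p q y v (A2 + (2 - (p - U))) 2)

theorem mixT_sound {ν : YoungDiagram} {n p q y v c c₁ b₁ : ℕ} (hc : InCell ν n p q y)
    (hp : ν.colLen 0 = p)
    (h : mixT n p q y v c (c + (c - 1)) (c₁ + b₁) = true) : MixOK c (c - 1) c₁ b₁ ν := by
  simp only [mixT, Bool.and_eq_true] at h
  obtain ⟨h0, h1, h2⟩ := h
  refine ⟨?_, ?_, ?_⟩
  · rw [hp]
    exact Nat.le_of_ble_eq_true h0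
  · rw [hp]
    exact geS_sound hc le_rfl h1
  · rw [hp]
    exact geS_sound hc (by omega) h2

/-- The value of a list of partial sums: `B 0 = 0`, `B (k + 1) = Bs[k]`. -/
def bAt (Bs : List ℕ) (k : ℕ) : ℕ := (0 :: Bs).getD k 0

@[simp] theorem bAt_zero (Bs : List ℕ) : bAt Bs 0 = 0 := rfl
theorem bAt_succ (Bs : List ℕ) (k : ℕ) : bAt Bs (k + 1) = Bs.getD k 0 := by
  simp [bAt]

/-- The loop of the simple test. -/
def loopS (n p q y v D : ℕ) : List ℕ → ℕ → Bool
  | [], _ => true
  | x :: xs, k =>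
    bif Nat.ble k q then
      geS n p q y v (Nat.add x 1) k &&
        ((bif Nat.ble (Nat.add k 2) q then geS n p q y v (Nat.add x D) (Nat.add k 2) else true) &&
          loopS n p q y v D xs (Nat.succ k))
    else true

theorem loopS_sound {n p q y v D : ℕ} {xs : List ℕ} {k₀ : ℕ} (h : loopS n p q y v D xs k₀ = true)
    (j : ℕ) (hj : j < xs.length) (hjq : k₀ + j ≤ q) :
    geS n p q y v (xs.getD j 0 + 1) (k₀ + j) = true ∧
      (k₀ + j + 2 ≤ q → geS n p q y v (xs.getD j 0 + D) (k₀ + j + 2) = true) := by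
  induction xs generalizing k₀ j with
  | nil => simp at hj
  | cons x xs ih =>
    simp only [loopS] at h
    rw [show Nat.ble k₀ q = true from Nat.ble_eq_true_of_le (by omega)] at h
    simp only [cond_true, Bool.and_eq_true] at h
    obtain ⟨h1, h2, h3⟩ := h
    cases j with
    | zero =>
      simp only [List.getD_cons_zero, add_zero]
      refine ⟨h1, fun hq => ?_⟩
      have h4 : Nat.ble (Nat.add k₀ 2) q = true := Nat.ble_eq_true_of_le hq
      rw [h4] at h2
      simpa using h2
    | succ j =>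
      simp only [List.length_cons] at hj
      have h5 := ih h3 j (by omega) (by simp only [Nat.succ_eq_add_one]; omega)
      simp only [List.getD_cons_succ]
      have e : k₀ + (j + 1) = k₀.succ + j := by simp only [Nat.succ_eq_add_one]; omega
      rw [e]
      exact h5

/-- The simple test. -/
def simpleT (n p q y v H D M : ℕ) (Bs : List ℕ) : Bool :=
  Nat.ble p (Nat.succ M) && (Nat.ble q M && (geS n p q y v (Nat.succ H) 1 &&
    (geS n p q y v D 2 && loopS n p q y v D Bs 1)))

theorem simpleT_sound {ν : YoungDiagram} {n p q y v H M : ℕ} {Bs : List ℕ} (hc : InCell ν n p q y)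
    (hM : M ≤ Bs.length) (h : simpleT n p q y v H (2 * H + 1) M Bs = true) :
    SimpleOK (bAt Bs) H M ν := by
  simp only [simpleT, Bool.and_eq_true] at h
  obtain ⟨h1, h2, h3, h4, h5⟩ := h
  have hp : p ≤ M + 1 := Nat.le_of_ble_eq_true h1
  have hq : q ≤ M := Nat.le_of_ble_eq_true h2
  have h6 : H + 1 ≤ rowsBelow ν 1 := geS_sound hc le_rfl h3
  rw [rowsBelow_one] at h6
  refine ⟨h6, geS_sound hc (by omega) h4, hc.hp.trans hp, by rw [hc.hq]; exact hq, ?_, ?_⟩
  · intro k hk hkq
    rw [hc.hq] at hkq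
    obtain ⟨j, rfl⟩ : ∃ j, k = j + 1 := ⟨k - 1, by omega⟩
    have h7 := (loopS_sound h5 j (by omega) (by omega)).1
    rw [bAt_succ]
    have e : 1 + j = j + 1 := by omega
    rw [e] at h7
    exact geS_sound hc hk h7
  · intro k hk hkq
    rw [hc.hq] at hkq
    obtain ⟨j, rfl⟩ : ∃ j, k = j + 1 := ⟨k - 1, by omega⟩
    have h7 := (loopS_sound h5 j (by omega) (by omega)).2 (by omega)
    rw [bAt_succ]
    have e : 1 + j + 2 = j + 1 + 2 := by omega
    rw [e] at h7
    have h8 := geS_sound hc (by omega) h7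
    omega

/-- The loop of the test without placed double. -/
def loopD (n p q y v : ℕ) : List ℕ → ℕ → Bool
  | [], _ => true
  | x :: xs, k =>
    bif Nat.ble k q then geS n p q y v x k && loopD n p q y v xs (Nat.succ k) else true

theorem loopD_sound {n p q y v : ℕ} {xs : List ℕ} {k₀ : ℕ} (h : loopD n p q y v xs k₀ = true)
    (j : ℕ) (hj : j < xs.length) (hjq : k₀ + j ≤ q) :
    geS n p q y v (xs.getD j 0) (k₀ + j) = true := by
  induction xs generalizing k₀ j with
  | nil => simp at hj
  | cons x xs ih =>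
    simp only [loopD] at h
    rw [show Nat.ble k₀ q = true from Nat.ble_eq_true_of_le (by omega)] at h
    simp only [cond_true, Bool.and_eq_true] at h
    obtain ⟨h1, h3⟩ := h
    cases j with
    | zero =>
      simpa using h1
    | succ j =>
      simp only [List.length_cons] at hj
      have h5 := ih h3 j (by omega) (by simp only [Nat.succ_eq_add_one]; omega)
      simp only [List.getD_cons_succ]
      have e : k₀ + (j + 1) = k₀.succ + j := by simp only [Nat.succ_eq_add_one]; omega
      rw [e]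
      exact h5

/-- The test without placed double. -/
def domT (n p q y v M : ℕ) (Bs : List ℕ) : Bool :=
  Nat.ble p M && loopD n p q y v Bs 1

theorem domT_sound {ν : YoungDiagram} {n p q y v M : ℕ} {Bs : List ℕ} (hc : InCell ν n p q y)
    (hM : M ≤ Bs.length) (h : domT n p q y v M Bs = true) : DomOK (bAt Bs) M ν := by
  simp only [domT, Bool.and_eq_true] at h
  obtain ⟨h1, h2⟩ := h
  have hp : p ≤ M := Nat.le_of_ble_eq_true h1
  refine ⟨hc.hp.trans hp, ?_⟩
  intro k hk hkq
  have hqp : ν.colLen 1 ≤ ν.colLen 0 := ν.colLen_anti 0 1 (by omega)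
  have hqp' := hc.hp
  rw [hc.hq] at hkq
  rw [hc.hq] at hqp
  obtain ⟨j, rfl⟩ : ∃ j, k = j + 1 := ⟨k - 1, by omega⟩
  have h7 := loopD_sound h2 j (by omega) (by omega)
  rw [bAt_succ]
  have e : 1 + j = j + 1 := by omega
  rw [e] at h7
  exact geS_sound hc hk h7

/-! ### A cell -/

/-- The rows of a diagram with exactly `q` rows of length at least two. -/
theorem InCell.rows {ν : YoungDiagram} {n p q y : ℕ} (h : InCell ν n p q y) (hq : 1 ≤ q)
    (hp : ν.colLen 0 = p) : ν.rowLen 0 + 2 * (q - 1) ≤ n - (p - q) := by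
  have hS : rowsBelow ν q = n - (p - q) := by
    have h1 := rowsBelow_colLen_one ν
    rw [h.hq, h.hn, hp] at h1
    omega
  obtain ⟨d, rfl⟩ : ∃ d, q = d + 1 := ⟨q - 1, by omega⟩
  rw [← hS, Nat.add_sub_cancel]
  rcases d with _ | e
  · rw [rowsBelow_one]
    simp
  · have h1 := rowsBelow_add_mul_le ν 1 e
    rw [rowsBelow_one] at h1
    have h3 : rowsBelow ν (e + 1 + 1) = rowsBelow ν (1 + e) + ν.rowLen (1 + e) := by
      rw [add_comm 1 e]
      exact rowsBelow_succ ν (e + 1)
    have h2 : 2 ≤ ν.rowLen (1 + e) := by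
      have h4 : (1 + e, 1) ∈ ν := YoungDiagram.mem_iff_lt_colLen.mpr (by rw [h.hq]; omega)
      have := YoungDiagram.mem_iff_lt_rowLen.mp h4
      omega
    have h4 : e * 2 ≤ e * ν.rowLen (1 + e) := Nat.mul_le_mul_left _ h2
    omega

/-- The average row. -/
theorem InCell.avg {ν : YoungDiagram} {n p q y : ℕ} (h : InCell ν n p q y) :
    (n - (p - q) + q - 1) / q ≤ ν.rowLen 0 := by
  rcases Nat.eq_zero_or_pos q with hq0 | hq0
  · subst hq0
    simp
  have h1 : n - (p - q) ≤ q * ν.rowLen 0 := by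
    have h2 := rowsBelow_add_le ν 0 q
    rw [zero_add] at h2
    have h3 : rowsBelow ν 0 = 0 := by simp [rowsBelow]
    have h4 := h.S_q
    omega
  have h5 : (n - (p - q) + q - 1) / q < ν.rowLen 0 + 1 := by
    apply Nat.div_lt_of_lt_mul
    rw [Nat.mul_succ]
    omega
  omega

/-- The first row of a block. -/
def rowY (y₀ w : ℕ) : ℕ := bif Nat.ble y₀ w then w else y₀

theorem rowY_le {y₀ w r : ℕ} (h1 : y₀ ≤ r) (h2 : w ≤ r) : rowY y₀ w ≤ r := by
  unfold rowY
  cases Nat.ble y₀ w
  · exact h1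
  · exact h2

theorem InCell.y {ν : YoungDiagram} {n p q y : ℕ} (h : InCell ν n p q y) :
    InCell ν n p q (rowY y (Nat.div (Nat.sub (Nat.add (Nat.sub n (Nat.sub p q)) q) 1) q)) :=
  ⟨h.hn, h.hp, h.hq, rowY_le h.hy h.avg⟩

/-- One block: the test on the largest `p`. -/
def blockG (t : ℕ → ℕ → ℕ → ℕ → Bool) (n c A2 A3 A4 p q y₀ : ℕ) : Bool :=
  withNat (Nat.sub n (Nat.sub p q)) fun N =>
  withNat (rowY y₀ (Nat.div (Nat.sub (Nat.add N q) 1) q)) fun y =>
  withNat (Nat.div (Nat.sub (Nat.add (Nat.sub N y) q) 2) (Nat.sub q 1)) fun v =>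
    longT n p q y v c A2 A3 A4 || t p q y v

/-- The test of a block. -/
theorem blockG_sound {ν : YoungDiagram} {n p q y₀ c : ℕ} {t : ℕ → ℕ → ℕ → ℕ → Bool}
    {Q : YoungDiagram → Prop} (ht : ∀ p q y v, InCell ν n p q y → t p q y v = true → Q ν)
    (hc : InCell ν n p q y₀)
    (h : blockG t n c (c + (c - 1)) (c + (c - 1) + (c - 2)) (c + (c - 1) + (c - 2) + (c - 3))
      p q y₀ = true) :
    LongOK c (c - 1) (c - 2) (c - 3) ν ∨ Q ν := by
  simp only [blockG, withNat_eq, Bool.or_eq_true] at h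
  rcases h with h | h
  · exact Or.inl (longT_sound hc.y h)
  · exact Or.inr (ht _ _ _ _ hc.y h)

/-- One cell, with `t` the test which depends on the cell. -/
def cellG (t : ℕ → ℕ → ℕ → ℕ → Bool) (n c A2 A3 A4 U p q y₀ : ℕ) : Bool :=
  withNat (Nat.sub n (Nat.sub p q)) fun N =>
  withNat (rowY y₀ (Nat.div (Nat.sub (Nat.add N q) 1) q)) fun y =>
  (bif Nat.beq q 0 then !(Nat.beq N 0) else Nat.blt N (Nat.add y (Nat.mul 2 (Nat.sub q 1)))) ||
  withNat (Nat.div (Nat.sub (Nat.add (Nat.sub N y) q) 2) (Nat.sub q 1)) fun v =>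
    longT n p q y v c A2 A3 A4 || (t p q y v || mixT n p q y v c A2 U)

/-- The test of a cell. -/
theorem cellG_sound {ν : YoungDiagram} {n p q y₀ c c₁ b₁ : ℕ} {t : ℕ → ℕ → ℕ → ℕ → Bool}
    {Q : YoungDiagram → Prop} (ht : ∀ p q y v, InCell ν n p q y → t p q y v = true → Q ν)
    (hc : InCell ν n p q y₀) (hp : ν.colLen 0 = p)
    (h : cellG t n c (c + (c - 1)) (c + (c - 1) + (c - 2)) (c + (c - 1) + (c - 2) + (c - 3)) (c₁ + b₁)
      p q y₀ = true) :
    LongOK c (c - 1) (c - 2) (c - 3) ν ∨ Q ν ∨ MixOK c (c - 1) c₁ b₁ ν := by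
  simp only [cellG, withNat_eq, Bool.or_eq_true] at h
  have hc' := hc.y
  rcases h with h | h
  · exfalso
    cases hq0 : Nat.beq q 0 with
    | true =>
      rw [hq0] at h
      have hq : q = 0 := Nat.eq_of_beq_eq_true hq0
      simp only [cond_true, Bool.not_eq_true'] at h
      subst hq
      have h1 := rowsBelow_colLen_one ν
      rw [hc.hq, hc.hn, hp] at h1
      have h2 : rowsBelow ν 0 = 0 := by simp [rowsBelow]
      have h3 : Nat.sub n (Nat.sub p 0) = 0 := by
        simp only [Nat.sub_eq]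
        omega
      rw [h3] at h
      simp at h
    | false =>
      rw [hq0] at h
      have hq : q ≠ 0 := Nat.ne_of_beq_eq_false hq0
      simp only [cond_false] at h
      have h3 := Nat.le_of_ble_eq_true h
      simp only [Nat.add_eq, Nat.mul_eq, Nat.sub_eq, Nat.succ_eq_add_one] at h3
      have h4 := hc'.rows (by omega) hp
      have h5 := hc'.hy
      simp only [Nat.add_eq, Nat.sub_eq] at h3 h4 h5
      omega
  · rcases h with h | h | h
    · exact Or.inl (longT_sound hc' h)
    · exact Or.inr (Or.inl (ht _ _ _ _ hc' h))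
    · exact Or.inr (Or.inr (mixT_sound hc' hp h))

/-! ### The grid -/

/-- One value of `q`: two blocks, or else all the cells; `skip` says which to leave out. -/
def rowG (t : ℕ → ℕ → ℕ → ℕ → Bool) (skip : ℕ → ℕ → Bool) (n c A2 A3 A4 U W q : ℕ) : Bool :=
  (blockG t n c A2 A3 A4 (Nat.sub W q) q c && blockG t n c A2 A3 A4 (Nat.sub c 1) q q) ||
    allBelow (fun p => !(Nat.ble q p) || (skip p q ||
      cellG t n c A2 A3 A4 U p q (bif Nat.ble c p then c else p))) (Nat.sub (Nat.succ W) q)

/-- All the cells. `W = 2 (c - 1)`. -/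
def gridG (t : ℕ → ℕ → ℕ → ℕ → Bool) (skip : ℕ → ℕ → Bool) (n c A2 A3 A4 U W : ℕ) : Bool :=
  allBelow (rowG t skip n c A2 A3 A4 U W) c

/-- **The grid.** -/
theorem gridG_sound {ν : YoungDiagram} {n c c₁ b₁ : ℕ} {t : ℕ → ℕ → ℕ → ℕ → Bool}
    {skip : ℕ → ℕ → Bool} {Q : YoungDiagram → Prop}
    (ht : ∀ p q y v, InCell ν n p q y → t p q y v = true → Q ν)
    (hg : gridG t skip n c (c + (c - 1)) (c + (c - 1) + (c - 2)) (c + (c - 1) + (c - 2) + (c - 3))
      (c₁ + b₁) (2 * (c - 1)) = true) (hc1 : 1 ≤ c)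
    (hn : ν.card = n) (hq : ν.colLen 0 + ν.colLen 1 ≤ 2 * (c - 1))
    (hor : c ≤ ν.rowLen 0 ∨ ν.colLen 0 ≤ ν.rowLen 0) :
    skip (ν.colLen 0) (ν.colLen 1) = true ∨ LongOK c (c - 1) (c - 2) (c - 3) ν ∨ Q ν ∨
      MixOK c (c - 1) c₁ b₁ ν := by
  have hqp : ν.colLen 1 ≤ ν.colLen 0 := ν.colLen_anti 0 1 (by omega)
  set p := ν.colLen 0 with hp
  set q := ν.colLen 1 with hq'
  set W := 2 * (c - 1) with hW
  have h1 := allBelow_spec hg (x := q) (by omega)
  simp only [rowG, Bool.or_eq_true, Bool.and_eq_true] at h1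
  rcases h1 with ⟨h1, h2⟩ | h1
  · refine Or.inr ?_
    by_cases hcp : c ≤ p
    · have hy : c ≤ ν.rowLen 0 := by rcases hor with h6 | h6 <;> omega
      have hc' : InCell ν n (Nat.sub W q) q c :=
        ⟨hn, by simp only [Nat.sub_eq]; omega, rfl, hy⟩
      rcases blockG_sound ht hc' h1 with h | h
      · exact Or.inl h
      · exact Or.inr (Or.inl h)
    · have hy : q ≤ ν.rowLen 0 := by rcases hor with h6 | h6 <;> omega
      have hc' : InCell ν n (Nat.sub c 1) q q :=
        ⟨hn, by simp only [Nat.sub_eq]; omega, rfl, hy⟩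
      rcases blockG_sound ht hc' h2 with h | h
      · exact Or.inl h
      · exact Or.inr (Or.inl h)
  · have h3 := allBelow_spec h1 (x := p) (by simp only [Nat.sub_eq, Nat.succ_eq_add_one]; omega)
    simp only [Bool.or_eq_true, Bool.not_eq_true'] at h3
    rcases h3 with h3 | h3 | h3
    · have := Nat.ble_eq_true_of_le hqp
      rw [this] at h3
      cases h3
    · exact Or.inl h3
    · refine Or.inr (cellG_sound ht ⟨hn, le_rfl, rfl, ?_⟩ rfl h3)
      cases h4 : Nat.ble c p
      · simp only [cond_false]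
        have h5 : ¬ c ≤ p := fun h6 => by
          have := Nat.ble_eq_true_of_le h6
          rw [this] at h4
          cases h4
        rcases hor with h6 | h6 <;> omega
      · simp only [cond_true]
        have h5 : c ≤ p := Nat.le_of_ble_eq_true h4
        rcases hor with h6 | h6 <;> omega

/-! ### The parts as lists of numbers -/

/-- All the parts of a list of blocks. -/
def psAll : List BK → List ℕ
  | [] => []
  | K :: l => stdParts K ++ psAll l

/-- The excess of a list of parts over `b`. -/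
def exP (b : ℕ) : List ℕ → ℕ
  | [] => 0
  | x :: xs => Nat.add (Nat.sub x b) (exP b xs)

theorem exP_append (b : ℕ) (l l' : List ℕ) : exP b (l ++ l') = exP b l + exP b l' := by
  induction l with
  | nil => simp [exP]
  | cons x xs ih =>
    simp only [List.cons_append, exP, ih, Nat.add_eq, Nat.sub_eq]
    omega

theorem exP_map (b : ℕ) (l : List ℕ) : exP b l = (l.map (· - b)).sum := by
  induction l with
  | nil => rfl
  | cons x xs ih => simp [exP, ih]

theorem exP_psAll (b : ℕ) (l : List BK) : exP b (psAll l) = exL b l := by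
  induction l with
  | nil => rfl
  | cons K l ih =>
    simp only [psAll, exP_append, ih, exL_cons]
    congr 1
    exact exP_map b _

/-- The check of a list of partial sums against the lines `k b + f b`; `e₀ = f b₀` is kept. -/
def linesG (f : ℕ → ℕ) : ℕ → ℕ → ℕ → ℕ → List ℕ → Bool
  | _, _, _, _, [] => true
  | prev, b₀, e₀, k, x :: xs =>
    withNat (Nat.sub x prev) fun b =>
    bif Nat.beq b b₀ then
      Nat.ble (Nat.add (Nat.mul k b₀) e₀) x && linesG f x b₀ e₀ (Nat.succ k) xs
    else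
      withNat (f b) fun e => Nat.ble (Nat.add (Nat.mul k b) e) x && linesG f x b e (Nat.succ k) xs

theorem linesG_sound {f : ℕ → ℕ} {xs : List ℕ} {prev b₀ e₀ k₀ : ℕ} (he : e₀ = f b₀)
    (h : linesG f prev b₀ e₀ k₀ xs = true) (j : ℕ) (hj : j < xs.length) :
    ∃ b, (k₀ + j) * b + f b ≤ xs.getD j 0 := by
  induction xs generalizing prev b₀ e₀ k₀ j with
  | nil => simp at hj
  | cons x xs ih =>
    simp only [linesG, withNat_eq] at h
    have e : ∀ j, k₀ + (j + 1) = k₀.succ + j := fun j => by simp only [Nat.succ_eq_add_one]; omega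
    cases hb : Nat.beq (Nat.sub x prev) b₀ with
    | true =>
      rw [hb] at h
      simp only [cond_true, Bool.and_eq_true] at h
      obtain ⟨h1, h2⟩ := h
      cases j with
      | zero =>
        refine ⟨b₀, ?_⟩
        rw [← he]
        simpa using Nat.le_of_ble_eq_true h1
      | succ j =>
        simp only [List.length_cons] at hj
        obtain ⟨b, hb'⟩ := ih he h2 j (by omega)
        refine ⟨b, ?_⟩
        rw [e]
        simpa using hb'
    | false =>
      rw [hb] at h
      simp only [cond_false, Bool.and_eq_true] at h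
      obtain ⟨h1, h2⟩ := h
      cases j with
      | zero =>
        refine ⟨Nat.sub x prev, ?_⟩
        simpa using Nat.le_of_ble_eq_true h1
      | succ j =>
        simp only [List.length_cons] at hj
        obtain ⟨b, hb'⟩ := ih rfl h2 j (by omega)
        refine ⟨b, ?_⟩
        rw [e]
        simpa using hb'

/-- The excess off a double of size `2 H`. -/
def exOff (ps : List ℕ) (H b : ℕ) : ℕ := Nat.sub (exP b ps) (Nat.sub (Nat.mul 2 H) b)

/-- Insertion in a decreasing list. -/
def insD (x : ℕ) : List ℕ → List ℕ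
  | [] => [x]
  | y :: ys => bif Nat.ble y x then x :: y :: ys else y :: insD x ys

/-- Sort in decreasing order. -/
def sortD : List ℕ → List ℕ
  | [] => []
  | x :: xs => insD x (sortD xs)

/-- Remove one copy. -/
def erase1 (x : ℕ) : List ℕ → List ℕ
  | [] => []
  | y :: ys => bif Nat.beq x y then ys else y :: erase1 x ys

/-- The partial sums. -/
def psumsFrom : ℕ → List ℕ → List ℕ
  | _, [] => []
  | s, x :: xs => Nat.add s x :: psumsFrom (Nat.add s x) xs

/-- The doubles of a list of blocks. -/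
def dbls : List BK → List ℕ
  | [] => []
  | BK.dbl d :: l => d :: dbls l
  | _ :: l => dbls l

theorem mem_dbls {H : ℕ} {l : List BK} (h : H ∈ dbls l) : BK.dbl H ∈ l := by
  induction l with
  | nil => simp [dbls] at h
  | cons K l ih =>
    rcases K with x | x | d
    · exact List.mem_cons_of_mem _ (ih h)
    · exact List.mem_cons_of_mem _ (ih h)
    · simp only [dbls, List.mem_cons] at h
      rcases h with rfl | h
      · exact List.mem_cons_self
      · exact List.mem_cons_of_mem _ (ih h)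

/-! ### A level -/

/-- The level with a placed double `2 H`. `t` is the number of the parts, `ps` the parts. -/
def tryS (c n t : ℕ) (ps : List ℕ) (H : ℕ) : Bool :=
  withList (psumsFrom 0 (sortD (erase1 (Nat.mul 2 H) ps))) fun Bs =>
  withNat (Nat.sub t 1) fun M =>
  Nat.ble M Bs.length && (Nat.ble (Nat.mul 2 H) n && (linesG (exOff ps H) 0 0 (exOff ps H 0) 1 Bs &&
    withNat (Nat.mul 2 (Nat.sub c 1)) fun W =>
    withNat (c + (c - 1)) fun A2 => withNat (A2 + (c - 2)) fun A3 => withNat (A3 + (c - 3)) fun A4 =>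
    withNat ((c - 2) + (c - 3)) fun U =>
    withNat (Nat.succ (Nat.mul 2 H)) fun D =>
    gridG (fun p q y v => simpleT n p q y v H D M Bs) (fun _ _ => false) n c A2 A3 A4 U W))

/-- The level without placed double. -/
def tryD (c n t : ℕ) (ps : List ℕ) : Bool :=
  withList (psumsFrom 0 (sortD ps)) fun Bs =>
  Nat.ble t Bs.length && (linesG (fun b => exP b ps) 0 0 (exP 0 ps) 1 Bs &&
    withNat (Nat.mul 2 (Nat.sub c 1)) fun W =>
    withNat (c + (c - 1)) fun A2 => withNat (A2 + (c - 2)) fun A3 => withNat (A3 + (c - 3)) fun A4 =>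
    withNat ((c - 2) + (c - 3)) fun U =>
    gridG (fun p q y v => domT n p q y v t Bs) (fun _ _ => false) n c A2 A3 A4 U W)

/-- **The check of a level.** -/
def levelOK (d : Bool) (l : List BK) : Bool :=
  withNat (cOf d l) fun c => withNat (szL (stepL d l)) fun n => withNat (lenL (stepL d l)) fun t =>
  withList (psAll (stepL d l)) fun ps =>
    (dbls (stepL d l)).any (tryS c n t ps) || tryD c n t ps

/-- A majorant from the lines, off a double. -/
theorem bAt_major_S {L : List BK} {i₀ : Fin L.length} {H M : ℕ} {Bs : List ℕ}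
    (hH : L[i₀.1] = BK.dbl H) (hlen : lenL L - 1 ≤ M) (hM : M ≤ Bs.length)
    (hl : linesG (exOff (psAll L) H) 0 0 (exOff (psAll L) H 0) 1 Bs = true)
    (T : Finset (Σ i, Fin (psL L i).length)) (hT : ∀ p ∈ T, p.1 ≠ i₀) :
    ∑ p ∈ T, (psL L p.1)[p.2.1] ≤ bAt Bs T.card := by
  classical
  rcases Nat.eq_zero_or_pos T.card with h0 | h0
  · rw [Finset.card_eq_zero.mp h0]
    simp
  · have hcard : T.card ≤ lenL L - lenK L[i₀.1] := by
      rw [← card_off i₀]
      apply Finset.card_le_card
      intro p hp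
      exact Finset.mem_filter.mpr ⟨Finset.mem_univ _, hT p hp⟩
    rw [hH, lenK_dbl] at hcard
    obtain ⟨j, hj⟩ : ∃ j, T.card = j + 1 := ⟨T.card - 1, by omega⟩
    obtain ⟨b, hb⟩ := linesG_sound rfl hl j (by omega)
    rw [hj, bAt_succ]
    have h1 := sum_T_le_line_off b i₀ T hT
    rw [hH, exK_dbl, ← exP_psAll, hj] at h1
    have e : 1 + j = j + 1 := by omega
    rw [e] at hb
    simp only [exOff, Nat.sub_eq, Nat.mul_eq] at hb
    omega

/-- A majorant from the lines, all parts. -/
theorem bAt_major_D {L : List BK} {M : ℕ} {Bs : List ℕ}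
    (hlen : lenL L ≤ M) (hM : M ≤ Bs.length)
    (hl : linesG (fun b => exP b (psAll L)) 0 0 (exP 0 (psAll L)) 1 Bs = true)
    (T : Finset (Σ i, Fin (psL L i).length)) :
    ∑ p ∈ T, (psL L p.1)[p.2.1] ≤ bAt Bs T.card := by
  classical
  rcases Nat.eq_zero_or_pos T.card with h0 | h0
  · rw [Finset.card_eq_zero.mp h0]
    simp
  · have hcard : T.card ≤ lenL L := by
      rw [← card_all]
      exact Finset.card_le_univ T
    obtain ⟨j, hj⟩ : ∃ j, T.card = j + 1 := ⟨T.card - 1, by omega⟩
    obtain ⟨b, hb⟩ := linesG_sound rfl hl j (by omega)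
    rw [hj, bAt_succ]
    have h1 := sum_T_le_line_all b T
    rw [← exP_psAll, hj] at h1
    have e : 1 + j = j + 1 := by omega
    rw [e] at hb
    omega

theorem card_eq_szL (l : List BK) : (cellsL l).card = szL l := card_cellsL l

/-- The tail off a double. -/
theorem tail_off {L : List BK} (hnd : ∀ K ∈ L, Nondeg K) {i : ℕ} (hi : i < L.length) {H : ℕ}
    (hiH : L[i] = BK.dbl H) (h2H : 2 * H ≤ szL L)
    (T : Finset (Σ i, Fin (psL L i).length)) (hT : ∀ p ∈ T, p.1 ≠ (⟨i, hi⟩ : Fin L.length)) :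
    T.card ≤ lenL L - 1 ∧ ∑ p ∈ T, (psL L p.1)[p.2.1] + (lenL L - 1 - T.card) + 2 * H ≤ szL L := by
  classical
  have hcard : T.card ≤ lenL L - lenK L[i] := by
    rw [show lenL L - lenK L[i] = lenL L - lenK L[(⟨i, hi⟩ : Fin L.length).1] from rfl, ← card_off]
    apply Finset.card_le_card
    intro p hp
    exact Finset.mem_filter.mpr ⟨Finset.mem_univ _, hT p hp⟩
  rw [hiH, lenK_dbl] at hcard
  refine ⟨hcard, ?_⟩
  have hlen : lenL L - 1 + lenK L[i] ≤ lenL L := by
    rw [hiH, lenK_dbl]
    have : 1 ≤ lenL L := by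
      have h6 : lenK L[i] ≤ lenL L := by
        have hmem : lenK L[i] ∈ L.map lenK := List.mem_map.mpr ⟨_, List.getElem_mem hi, rfl⟩
        exact List.single_le_sum (by simp) _ hmem
      rwa [hiH, lenK_dbl] at h6
    omega
  have h5 := sum_T_add_le_off hnd ⟨i, hi⟩ (t := lenL L - 1) hlen T hT
  have hsz : (L[i]).size = 2 * H := by rw [hiH]; rfl
  change _ ≤ szL L - (L[i]).size at h5
  rw [hsz] at h5
  omega

/-- **A level with a placed double from the check.** -/
theorem stepOK_of_tryS {l : List BK} (hl : Good l) {d : Bool} {H : ℕ} (hH : H ∈ dbls (stepL d l))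
    (h : tryS (cOf d l) (szL (stepL d l)) (lenL (stepL d l)) (psAll (stepL d l)) H = true) :
    StepOK d l := by
  intro m hU hm
  have hg := hl.stepL d
  obtain ⟨i, hi, hiH⟩ := List.getElem_of_mem (mem_dbls hH)
  have hH1 : 1 ≤ H := hg.nd _ (mem_dbls hH)
  set L := stepL d l with hL
  simp only [tryS, withList_eq, withNat_eq, Bool.and_eq_true] at h
  obtain ⟨h1, h2, h3, h4⟩ := h
  set Bs := psumsFrom 0 (sortD (erase1 (Nat.mul 2 H) (psAll L))) with hBs
  have hM : lenL L - 1 ≤ Bs.length := Nat.le_of_ble_eq_true h1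
  have h2H : 2 * H ≤ szL L := Nat.le_of_ble_eq_true h2
  have hc := card_stepL hl d
  rw [← hL, hm, card_eq_szL] at hc
  rw [card_eq_szL]
  refine universal_stepL_of_simple_mix hl d hU hm (psL _) (psL_sum _) (psL_ok hg.nd) ⟨i, hi⟩ hiH hH1
    (bAt Bs) (M := lenL L - 1) (n := szL L) hc
    (fun T hT => bAt_major_S hiH le_rfl hM h3 T hT) ?_ ?_
  · exact fun T hT => tail_off hg.nd hi hiH h2H T hT
  · intro ν hν hq hor
    have key := gridG_sound (c₁ := cOf d l - 2) (b₁ := cOf d l - 3)
      (t := fun p q y v => simpleT (szL L) p q y v H (2 * H + 1) (lenL L - 1) Bs)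
      (skip := fun _ _ => false) (Q := SimpleOK (bAt Bs) H (lenL L - 1) )
      (fun p q y v hc' ht => simpleT_sound hc' hM ht) h4 (by have := cOf_ge d l; omega) hν hq hor
    rcases key with h0 | h0
    · simp at h0
    · exact h0

/-- **A level without placed double from the check.** -/
theorem stepOK_of_tryD {l : List BK} (hl : Good l) {d : Bool}
    (h : tryD (cOf d l) (szL (stepL d l)) (lenL (stepL d l)) (psAll (stepL d l)) = true) :
    StepOK d l := by
  intro m hU hm
  have hg := hl.stepL d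
  set L := stepL d l with hL
  simp only [tryD, withList_eq, withNat_eq, Bool.and_eq_true] at h
  obtain ⟨h1, h3, h4⟩ := h
  set Bs := psumsFrom 0 (sortD (psAll L)) with hBs
  have hM : lenL L ≤ Bs.length := Nat.le_of_ble_eq_true h1
  have hc := card_stepL hl d
  rw [← hL, hm, card_eq_szL] at hc
  rw [card_eq_szL]
  refine universal_stepL_of_dom_mix hl d hU hm (psL _) (psL_sum _) (psL_ok hg.nd)
    (bAt Bs) (M := lenL L) (n := szL L) hc
    (fun T => bAt_major_D le_rfl hM h3 T) ?_ ?_
  · intro T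
    have hcard : T.card ≤ lenL L := by
      rw [← card_all]
      exact Finset.card_le_univ T
    exact ⟨hcard, sum_T_add_le_all hg.nd le_rfl T⟩
  · intro ν hν hq hor
    have key := gridG_sound (c₁ := cOf d l - 2) (b₁ := cOf d l - 3)
      (t := fun p q y v => domT (szL L) p q y v (lenL L) Bs)
      (skip := fun _ _ => false) (Q := DomOK (bAt Bs) (lenL L))
      (fun p q y v hc' ht => domT_sound hc' hM ht) h4 (by have := cOf_ge d l; omega) hν hq hor
    rcases key with h0 | h0
    · simp at h0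
    · exact h0

/-- **A level from the check.** -/
theorem stepOK_of_levelOK {l : List BK} (hl : Good l) {d : Bool} (h : levelOK d l = true) :
    StepOK d l := by
  simp only [levelOK, withNat_eq, withList_eq, Bool.or_eq_true, List.any_eq_true] at h
  rcases h with ⟨H, hH, h⟩ | h
  · exact stepOK_of_tryS hl hH h
  · exact stepOK_of_tryD hl h

/-! ### A level with some cells done by hand -/

/-- The exact rule with one placement of the double. -/
def PlacedOK (B : ℕ → ℕ) (H : ℕ) (ν : YoungDiagram) : Prop :=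
  ∃ a b, Even a ∧ Even b ∧ b ≤ a ∧ a + b = 2 * H ∧ a ≤ ν.rowLen 0 ∧ b ≤ ν.rowLen 1 ∧
    ∀ k, 1 ≤ k → B k + (a - ν.rowLen k) + (b - ν.rowLen (k + 1)) ≤ rowsBelow ν k

/-- **A level with a placed double, some cells by hand.** -/
theorem stepOK_of_gridSkip {l : List BK} (hl : Good l) {d : Bool} {H : ℕ}
    (hH : H ∈ dbls (stepL d l)) {Bs : List ℕ} (hM : lenL (stepL d l) - 1 ≤ Bs.length)
    (h2H : 2 * H ≤ szL (stepL d l)) (h3 : linesG (exOff (psAll (stepL d l)) H) 0 0 (exOff (psAll (stepL d l)) H 0) 1 Bs = true)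
    {skip : ℕ → ℕ → Bool}
    (h4 : gridG (fun p q y v => simpleT (szL (stepL d l)) p q y v H (2 * H + 1)
        (lenL (stepL d l) - 1) Bs) skip (szL (stepL d l)) (cOf d l)
        (cOf d l + (cOf d l - 1)) (cOf d l + (cOf d l - 1) + (cOf d l - 2))
        (cOf d l + (cOf d l - 1) + (cOf d l - 2) + (cOf d l - 3))
        ((cOf d l - 2) + (cOf d l - 3)) (2 * (cOf d l - 1)) = true)
    (hskip : ∀ ν : YoungDiagram, ν.card = szL (stepL d l) →
      skip (ν.colLen 0) (ν.colLen 1) = true → ν.colLen 0 + ν.colLen 1 ≤ 2 * (cOf d l - 1) →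
      (cOf d l ≤ ν.rowLen 0 ∨ ν.colLen 0 ≤ ν.rowLen 0) →
      SimpleOK (bAt Bs) H (lenL (stepL d l) - 1) ν ∨ PlacedOK (bAt Bs) H ν) :
    StepOK d l := by
  intro m hU hm
  have hg := hl.stepL d
  obtain ⟨i, hi, hiH⟩ := List.getElem_of_mem (mem_dbls hH)
  have hH1 : 1 ≤ H := hg.nd _ (mem_dbls hH)
  set L := stepL d l with hL
  have hc := card_stepL hl d
  rw [← hL, hm, card_eq_szL] at hc
  rw [card_eq_szL]
  have hB : ∀ T : Finset (Σ i, Fin (psL L i).length), (∀ p ∈ T, p.1 ≠ (⟨i, hi⟩ : Fin L.length)) →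
      ∑ p ∈ T, (psL L p.1)[p.2.1] ≤ bAt Bs T.card :=
    fun T hT => bAt_major_S hiH le_rfl hM h3 T hT
  have hTail : ∀ T : Finset (Σ i, Fin (psL L i).length), (∀ p ∈ T, p.1 ≠ (⟨i, hi⟩ : Fin L.length)) →
      T.card ≤ lenL L - 1 ∧ ∑ p ∈ T, (psL L p.1)[p.2.1] + (lenL L - 1 - T.card) + 2 * H ≤ szL L :=
    fun T hT => tail_off hg.nd hi hiH h2H T hT
  have hSimple : ∀ ν : YoungDiagram, ν.card = szL L → SimpleOK (bAt Bs) H (lenL L - 1) ν →
      ChainOK L (psL L) ν := fun ν hν hS =>
    chainOK_of_simple ⟨i, hi⟩ hiH hH1 (bAt Bs) hB (fun T hT => by rw [hν]; exact hTail T hT) hS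
  have hPlaced : ∀ ν : YoungDiagram, PlacedOK (bAt Bs) H ν → ChainOK L (psL L) ν := by
    rintro ν ⟨a, b, ha, hb, hba, hab, ha0, hb1, hk⟩
    exact chainOK_of_placed ⟨i, hi⟩ hiH hba ha hb hab ha0 hb1 (bAt Bs) hB hk
  have hmain := universal_stepL_of_rule hl d hU hm (psL _) (psL_sum _) (psL_ok hg.nd)
    (Q := ChainOK L (psL L)) (R := MixOK (cOf d l) (cOf d l - 1) (cOf d l - 2) (cOf d l - 3))
    (fun _ h => h) (fun ν hν => labelOcc_mix hl d hU hν) ?_
  · rw [hc]
    exact hmain
  · intro ν hν hq hor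
    rw [← hc] at hν
    have key := gridG_sound (c₁ := cOf d l - 2) (b₁ := cOf d l - 3)
      (t := fun p q y v => simpleT (szL L) p q y v H (2 * H + 1) (lenL L - 1) Bs)
      (skip := skip) (Q := SimpleOK (bAt Bs) H (lenL L - 1))
      (fun p q y v hc' ht => simpleT_sound hc' hM ht) h4 (by have := cOf_ge d l; omega) hν hq hor
    rcases key with h0 | h0 | h0 | h0
    · rcases hskip ν hν h0 hq hor with h5 | h5
      · exact Or.inr (Or.inl (hSimple ν hν h5))
      · exact Or.inr (Or.inl (hPlaced ν h5))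
    · exact Or.inl h0
    · exact Or.inr (Or.inl (hSimple ν hν h0))
    · exact Or.inr (Or.inr h0)

/-- The facts on the rows of a diagram in a cell, for the hand proofs. -/
theorem rows_facts (ν : YoungDiagram) (k : ℕ) :
    rowsBelow ν (k + 1) = rowsBelow ν k + ν.rowLen k ∧ ν.rowLen (k + 1) ≤ ν.rowLen k :=
  ⟨rowsBelow_succ ν k, ν.rowLen_anti _ _ (Nat.le_succ k)⟩

theorem rowsBelow_zero' (ν : YoungDiagram) : rowsBelow ν 0 = 0 := by
  simp [rowsBelow]

theorem rowLen_of_colLen_le {ν : YoungDiagram} {k : ℕ} (h : ν.colLen 0 ≤ k) : ν.rowLen k = 0 := by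
  have h1 := rowLen_colLen_zero ν
  have h2 := ν.rowLen_anti _ _ h
  omega

theorem rowsBelow_of_colLen_le {ν : YoungDiagram} {k : ℕ} (h : ν.colLen 0 ≤ k) :
    rowsBelow ν k = ν.card :=
  rowsBelow_eq_card_of_rowLen_eq_zero (rowLen_of_colLen_le h)

theorem two_le_rowLen {ν : YoungDiagram} {k : ℕ} (h : k < ν.colLen 1) : 2 ≤ ν.rowLen k := by
  have h3 : (k, 1) ∈ ν := YoungDiagram.mem_iff_lt_colLen.mpr h
  have := YoungDiagram.mem_iff_lt_rowLen.mp h3
  omega

theorem bAt_le {Bs : List ℕ} {X : ℕ} (h : ∀ x ∈ Bs, x ≤ X) (k : ℕ) : bAt Bs k ≤ X := by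
  cases k with
  | zero => simp
  | succ k =>
    rw [bAt_succ]
    by_cases hk : k < Bs.length
    · rw [List.getD_eq_getElem _ _ hk]
      exact h _ (List.getElem_mem hk)
    · rw [List.getD_eq_default _ _ (by omega)]
      exact Nat.zero_le _

end Crest.Agent.Saxl.Family
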