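import Crest.Agent.Lib.Saxl.GridSpecial
import Crest.Agent.Lib.Saxl.FamilyNums

/-!
# The levels of the family with `c ≤ 45` (row 195, S0298, helper83)
-/

set_option autoImplicit false

namespace Crest.Agent.Saxl.Family

instance decExcN (n : ℕ) : Decidable (ExcN n) :=
  inferInstanceAs (Decidable (n < 350 ∨ n = 350 ∨ n = 377 ∨ n = 432))

/-- The selection of a level in a chain, with the numbers of the level. -/
abbrev ChainJ (i j P t J : ℕ) : Prop :=
  twidth (baseL i j) * (twidth (baseL i j) + 1) / 2 ≤ 4 * J + szL (baseL i j) ∧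
  4 * J + szL (baseL i j) - twidth (baseL i j) * (twidth (baseL i j) + 1) / 2 ≤
    twidth (baseL i j) + 4 * (P + 1 + t) ∧
  ¬ ExcN (((twidth (baseL i j) + 4 * (P + 1 + t)) * (twidth (baseL i j) + 4 * (P + 1 + t) + 1) +
    2 * (4 * J + szL (baseL i j) - twidth (baseL i j) * (twidth (baseL i j) + 1) / 2)) / 2)


/-- The guard of a level. -/
abbrev GridG (i j P a b : ℕ) : Prop :=
  twidth (baseL i j) + 4 * (P + 1) + ((if a = 0 then 0 else 1) + (if b = 0 then 0 else 1)) ≤ 45 ∧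
  (b = a + 1 ∨ b = a + 2 ∨ (a = 0 ∧ b = 0)) ∧
  (b = 0 ∨ ∃ t, t < 20 ∧ ((1 ≤ a ∧ ChainJ i j P t (a + b + 2 * t)) ∨
    (a = 0 ∧ (ChainJ i j P t (2 * t + 2 * b - 1) ∨ ChainJ i j P t (2 * t + 2 * b - 2))))) ∧
  ¬ (i = 1 ∧ j = 2 ∧ P = 0 ∧ a = 0 ∧ b = 0) ∧ ¬ (i = 2 ∧ j = 3 ∧ P = 0 ∧ a = 0 ∧ b = 0)

/-- The check of one tuple. -/
def tupleOK (i j P a b : ℕ) : Bool :=
  !(decide (GridG i j P a b)) || levelOK (patt a b 1) (famL (baseL i j) P (patt (a - 1) (b - 1)))

/-- The check of all the tuples of one base. -/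
def smallOK (i j : ℕ) : Bool :=
  allBelow (fun P => allBelow (fun b => allBelow (fun a => tupleOK i j P a b) (b + 1)) (P + 2)) 11

theorem onChain_chainJ {i j P a b : ℕ} (h : OnChain i j P a b) (hb : 1 ≤ b) (hP : P < 11) :
    ∃ t, t < 20 ∧ ((1 ≤ a ∧ ChainJ i j P t (a + b + 2 * t)) ∨
      (a = 0 ∧ (ChainJ i j P t (2 * t + 2 * b - 1) ∨ ChainJ i j P t (2 * t + 2 * b - 2)))) := by
  obtain ⟨m, r, t, hr, hn, rfl, rfl, ht, rfl, rfl, rfl⟩ := h
  have hm := exc_m hr hn
  obtain ⟨h1, h2, h3, h4, h5, h6, h7⟩ := sel_spec hm hr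
  have hi : m % 4 < 4 := Nat.mod_lt _ (by omega)
  have hj : r % 4 < 4 := Nat.mod_lt _ (by omega)
  obtain ⟨t1, t2, t3, t4, t5, t6⟩ := base_table _ hi _ hj
  have hT28 : twidth (baseL (m % 4) (r % 4)) * (twidth (baseL (m % 4) (r % 4)) + 1) / 2 ≤ 28 := by
    have h8 := Nat.mul_le_mul t1 (Nat.add_le_add_right t1 1)
    omega
  rw [card_eq_szL] at h2
  have e1 : twidth (baseL (m % 4) (r % 4)) + 4 * (selP m r - 1 - t + 1 + t) = m := by omega
  have ht20 : t < 20 := by omega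
  refine ⟨t, ht20, ?_⟩
  simp only [ChainJ, e1]
  generalize twidth (baseL (m % 4) (r % 4)) * (twidth (baseL (m % 4) (r % 4)) + 1) / 2 = T at *
  generalize szL (baseL (m % 4) (r % 4)) = K at *
  generalize twidth (baseL (m % 4) (r % 4)) = w at *
  by_cases ha : 1 ≤ selA m r - t
  · left
    refine ⟨ha, ?_⟩
    have e2 : 4 * (selA m r - t + (selB m r - t) + 2 * t) + K - T = r := by omega
    rw [e2]
    exact ⟨by omega, hr, hn⟩
  · right
    refine ⟨by omega, ?_⟩
    by_cases h8 : selB m r = selA m r + 1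
    · left
      have e2 : 4 * (2 * t + 2 * (selB m r - t) - 1) + K - T = r := by omega
      rw [e2]
      exact ⟨by omega, hr, hn⟩
    · right
      have e2 : 4 * (2 * t + 2 * (selB m r - t) - 2) + K - T = r := by omega
      rw [e2]
      exact ⟨by omega, hr, hn⟩

/-- **A tuple which passes the check is a step.** -/
theorem stepOK_of_smallOK {i j P a b : ℕ} (h : OnChain i j P a b)
    (hc : cOf (patt a b 1) (famL (baseL i j) P (patt (a - 1) (b - 1))) ≤ 45)
    (hs : smallOK i j = true)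
    (h12 : StepOK false (baseL 1 2)) (h23 : StepOK false (baseL 2 3)) :
    StepOK (patt a b 1) (famL (baseL i j) P (patt (a - 1) (b - 1))) := by
  obtain ⟨hi, hj, hv, h2b⟩ := h.props
  have hab : a < b ∨ (a = 0 ∧ b = 0) := by omega
  have hG : Good (baseL i j) := good_baseL hi hj
  obtain ⟨m, r, t, hr, hn, h1, h2, ht, h3, h4, h5⟩ := id h
  have hbP : b ≤ P + 1 := by
    have hm := exc_m hr hn
    obtain ⟨_, _, _, _, h6, _, _⟩ := sel_spec hm hr
    omega
  have hc' := hc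
  rw [cOf_eq_level _ P a b hab hbP] at hc'
  have hP : P < 11 := by omega
  by_cases hsp1 : i = 1 ∧ j = 2 ∧ P = 0 ∧ a = 0 ∧ b = 0
  · obtain ⟨rfl, rfl, rfl, rfl, rfl⟩ := hsp1
    exact h12
  by_cases hsp2 : i = 2 ∧ j = 3 ∧ P = 0 ∧ a = 0 ∧ b = 0
  · obtain ⟨rfl, rfl, rfl, rfl, rfl⟩ := hsp2
    exact h23
  have k1 := allBelow_spec hs hP
  have k2 := allBelow_spec k1 (x := b) (by omega)
  have k3 := allBelow_spec k2 (x := a) (by omega)
  have hguard : GridG i j P a b := by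
    refine ⟨hc', hv, ?_, hsp1, hsp2⟩
    rcases Nat.eq_zero_or_pos b with hb0 | hb0
    · exact Or.inl hb0
    · exact Or.inr (onChain_chainJ h hb0 hP)
  simp only [tupleOK, Bool.or_eq_true, Bool.not_eq_true', decide_eq_false_iff_not] at k3
  rcases k3 with k3 | k3
  · exact absurd hguard k3
  · exact stepOK_of_levelOK (good_famL hG _ _) k3

end Crest.Agent.Saxl.Family
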