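import Crest.Agent.Lib.Saxl.GridCheck
import Crest.Agent.Lib.Saxl.FamW

/-!
# Two levels of the family with cells done by hand (row 195, S0298, helper83)

`[17 13 9 5 3]` has one cell `(7, 7)`, `[19 15 11 7 5 1]` has two cells `(8, 8)`, `(9, 9)` where the simple
test with the flat envelope fails; the exact rule passes on the few diagrams left.
-/

set_option autoImplicit false

namespace Crest.Agent.Saxl.Family

/-- **The level `[17 13 9 5 3]`.** -/
theorem step_special_1_2 : StepOK false (baseL 1 2) := by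
  have hG : Good (baseL 1 2) := good_baseL (by norm_num) (by norm_num)
  refine stepOK_of_gridSkip hG (H := 6) (Bs := [7, 12, 17, 21, 25, 29, 32, 33, 34, 35])
    (skip := fun p q => Nat.beq p 7 && Nat.beq q 7) (by decide) (by decide) (by decide) (by decide)
    (by decide +kernel) ?_
  intro ν hν hs hq hor
  have hs' := hs
  simp only [Bool.and_eq_true] at hs'
  have hp : ν.colLen 0 = 7 := Nat.eq_of_beq_eq_true hs'.1
  have hq' : ν.colLen 1 = 7 := Nat.eq_of_beq_eq_true hs'.2
  have hn : ν.card = 47 := hν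
  have hS7 : rowsBelow ν 7 = 47 := by
    rw [rowsBelow_of_colLen_le (by omega), hn]
  have h0 := rowsBelow_zero' ν
  obtain ⟨s0, a0⟩ := rows_facts ν 0
  obtain ⟨s1, a1⟩ := rows_facts ν 1
  obtain ⟨s2, a2⟩ := rows_facts ν 2
  obtain ⟨s3, a3⟩ := rows_facts ν 3
  obtain ⟨s4, a4⟩ := rows_facts ν 4
  obtain ⟨s5, a5⟩ := rows_facts ν 5
  obtain ⟨s6, a6⟩ := rows_facts ν 6
  have h2 : 2 ≤ ν.rowLen 6 := two_le_rowLen (by omega)
  have hc9 : cOf false (baseL 1 2) = 9 := by decide
  rw [hc9, hp] at hor
  simp only [zero_add] at s0 a0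
  simp only [Nat.reduceAdd] at s1 s2 s3 s4 s5 s6 a1 a2 a3 a4 a5 a6
  by_cases h8 : 8 ≤ ν.rowLen 0
  · left
    have hl : lenL (stepL false (baseL 1 2)) - 1 = 10 := by decide
    rw [hl]
    refine ⟨by omega, by omega, by omega, by omega, ?_, ?_⟩
    · intro k hk hkq
      rw [hq'] at hkq
      interval_cases k <;> simp only [bAt, List.getD_cons_succ, List.getD_cons_zero] <;> omega
    · intro k hk hkq
      rw [hq'] at hkq
      have : k ≤ 5 := by omega
      interval_cases k <;> simp only [bAt, List.getD_cons_succ, List.getD_cons_zero, Nat.reduceAdd] <;> omega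
  · right
    refine ⟨6, 6, by decide, by decide, le_rfl, by norm_num, by omega, by omega, ?_⟩
    intro k hk
    by_cases hk7 : 7 ≤ k
    · have h3 := bAt_le (Bs := [7, 12, 17, 21, 25, 29, 32, 33, 34, 35]) (X := 35) (by decide) k
      rw [rowsBelow_of_colLen_le (by omega), hn]
      omega
    · have : k ≤ 6 := by omega
      have h7 : ν.rowLen 7 = 0 := rowLen_of_colLen_le (by omega)
      interval_cases k <;> simp only [bAt, List.getD_cons_succ, List.getD_cons_zero, Nat.reduceAdd] <;> omega

/-- **The level `[19 15 11 7 5 1]`.** -/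
theorem step_special_2_3 : StepOK false (baseL 2 3) := by
  have hG : Good (baseL 2 3) := good_baseL (by norm_num) (by norm_num)
  refine stepOK_of_gridSkip hG (H := 7) (Bs := [8, 13, 18, 23, 27, 30, 33, 36, 39, 41, 42, 43, 44])
    (skip := fun p q => (Nat.beq p 8 && Nat.beq q 8) || (Nat.beq p 9 && Nat.beq q 9))
    (by decide) (by decide) (by decide) (by decide) (by decide +kernel) ?_
  intro ν hν hs hq hor
  have hs' := hs
  simp only [Bool.and_eq_true, Bool.or_eq_true] at hs'
  have hn : ν.card = 58 := hν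
  have hc9 : cOf false (baseL 2 3) = 10 := by decide
  rw [hc9] at hor
  have hl : lenL (stepL false (baseL 2 3)) - 1 = 13 := by decide
  rw [hl]
  have h0 := rowsBelow_zero' ν
  obtain ⟨s0, a0⟩ := rows_facts ν 0
  obtain ⟨s1, a1⟩ := rows_facts ν 1
  obtain ⟨s2, a2⟩ := rows_facts ν 2
  obtain ⟨s3, a3⟩ := rows_facts ν 3
  obtain ⟨s4, a4⟩ := rows_facts ν 4
  obtain ⟨s5, a5⟩ := rows_facts ν 5
  obtain ⟨s6, a6⟩ := rows_facts ν 6
  obtain ⟨s7, a7⟩ := rows_facts ν 7
  obtain ⟨s8, a8⟩ := rows_facts ν 8
  simp only [zero_add] at s0 a0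
  simp only [Nat.reduceAdd] at s1 s2 s3 s4 s5 s6 s7 s8 a1 a2 a3 a4 a5 a6 a7 a8
  rcases hs' with ⟨hp1, hq1⟩ | ⟨hp1, hq1⟩
  · have hp : ν.colLen 0 = 8 := Nat.eq_of_beq_eq_true hp1
    have hq' : ν.colLen 1 = 8 := Nat.eq_of_beq_eq_true hq1
    have hS8 : rowsBelow ν 8 = 58 := by
      rw [rowsBelow_of_colLen_le (by omega), hn]
    have h2 : 2 ≤ ν.rowLen 7 := two_le_rowLen (by omega)
    rw [hp] at hor
    by_cases h8 : 9 ≤ ν.rowLen 0
    · left
      refine ⟨by omega, by omega, by omega, by omega, ?_, ?_⟩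
      · intro k hk hkq
        rw [hq'] at hkq
        interval_cases k <;> simp only [bAt, List.getD_cons_succ, List.getD_cons_zero] <;> omega
      · intro k hk hkq
        rw [hq'] at hkq
        have : k ≤ 6 := by omega
        interval_cases k <;> simp only [bAt, List.getD_cons_succ, List.getD_cons_zero, Nat.reduceAdd] <;> omega
    · right
      refine ⟨8, 6, by decide, by decide, by norm_num, by norm_num, by omega, by omega, ?_⟩
      intro k hk
      by_cases hk7 : 8 ≤ k
      · have h3 := bAt_le (Bs := [8, 13, 18, 23, 27, 30, 33, 36, 39, 41, 42, 43, 44]) (X := 44) (by decide) k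
        rw [rowsBelow_of_colLen_le (by omega), hn]
        omega
      · have : k ≤ 7 := by omega
        have h7 : ν.rowLen 8 = 0 := rowLen_of_colLen_le (by omega)
        interval_cases k <;> simp only [bAt, List.getD_cons_succ, List.getD_cons_zero, Nat.reduceAdd] <;> omega
  · have hp : ν.colLen 0 = 9 := Nat.eq_of_beq_eq_true hp1
    have hq' : ν.colLen 1 = 9 := Nat.eq_of_beq_eq_true hq1
    have hS9 : rowsBelow ν 9 = 58 := by
      rw [rowsBelow_of_colLen_le (by omega), hn]
    have h2 : 2 ≤ ν.rowLen 8 := two_le_rowLen (by omega)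
    rw [hp] at hor
    by_cases h8 : 23 ≤ rowsBelow ν 3
    · left
      refine ⟨by omega, by omega, by omega, by omega, ?_, ?_⟩
      · intro k hk hkq
        rw [hq'] at hkq
        interval_cases k <;> simp only [bAt, List.getD_cons_succ, List.getD_cons_zero] <;> omega
      · intro k hk hkq
        rw [hq'] at hkq
        have : k ≤ 7 := by omega
        interval_cases k <;> simp only [bAt, List.getD_cons_succ, List.getD_cons_zero, Nat.reduceAdd] <;> omega
    · right
      refine ⟨8, 6, by decide, by decide, by norm_num, by norm_num, by omega, by omega, ?_⟩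
      intro k hk
      by_cases hk7 : 9 ≤ k
      · have h3 := bAt_le (Bs := [8, 13, 18, 23, 27, 30, 33, 36, 39, 41, 42, 43, 44]) (X := 44) (by decide) k
        rw [rowsBelow_of_colLen_le (by omega), hn]
        omega
      · have : k ≤ 8 := by omega
        have h7 : ν.rowLen 9 = 0 := rowLen_of_colLen_le (by omega)
        interval_cases k <;> simp only [bAt, List.getD_cons_succ, List.getD_cons_zero, Nat.reduceAdd] <;> omega

end Crest.Agent.Saxl.Family
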