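import Crest.Agent.Lib.Saxl.GridFinal

/-!
# The table of the levels with `c ≤ 45`, bases `2 _` (row 195, S0298, helper83)

One kernel computation for each base.
-/

set_option autoImplicit false

namespace Crest.Agent.Saxl.Family

theorem smallOK_2_0 : smallOK 2 0 = true := by decide +kernel
theorem smallOK_2_1 : smallOK 2 1 = true := by decide +kernel
theorem smallOK_2_2 : smallOK 2 2 = true := by decide +kernel
theorem smallOK_2_3 : smallOK 2 3 = true := by decide +kernel

end Crest.Agent.Saxl.Family
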