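import Crest.Agent.Lib.Saxl.GridTable0
import Crest.Agent.Lib.Saxl.GridTable1
import Crest.Agent.Lib.Saxl.GridTable2
import Crest.Agent.Lib.Saxl.GridTable3

/-!
# The table of the levels with `c ≤ 45` (row 195, S0298, helper83)

One kernel computation for each of the sixteen bases; `stepOK_small` is the finite part of `hstep`.
-/

set_option autoImplicit false

namespace Crest.Agent.Saxl.Family

theorem smallOK_all {i j : ℕ} (hi : i < 4) (hj : j < 4) : smallOK i j = true := by
  interval_cases i <;> interval_cases j
  · exact smallOK_0_0
  · exact smallOK_0_1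
  · exact smallOK_0_2
  · exact smallOK_0_3
  · exact smallOK_1_0
  · exact smallOK_1_1
  · exact smallOK_1_2
  · exact smallOK_1_3
  · exact smallOK_2_0
  · exact smallOK_2_1
  · exact smallOK_2_2
  · exact smallOK_2_3
  · exact smallOK_3_0
  · exact smallOK_3_1
  · exact smallOK_3_2
  · exact smallOK_3_3

/-- **Every level of a chain with first column at most `45` is a step.** -/
theorem stepOK_small {i j P a b : ℕ} (h : OnChain i j P a b)
    (hc : cOf (patt a b 1) (famL (baseL i j) P (patt (a - 1) (b - 1))) ≤ 45) :
    StepOK (patt a b 1) (famL (baseL i j) P (patt (a - 1) (b - 1))) := by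
  obtain ⟨hi, hj, -, -⟩ := h.props
  exact stepOK_of_smallOK h hc (smallOK_all hi hj) step_special_1_2 step_special_2_3

end Crest.Agent.Saxl.Family
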