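import Crest.Agent.Lib.Saxl.SmallCert

/-!
# Fast evaluation of the triple alternating sum (row 195, S0298)

`tripleSum` is a sum over three stabilisers of column functions.  Expanding the three permutations
along the element `0` (Laplace, three times) gives a recursion `hdet` on lists: its evaluation on a
sparse tensor visits few nodes, whereas the sum itself has astronomically many terms.
This gives `Real3` certificates for much larger shapes than a naive evaluation.
-/

set_option autoImplicit false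

open Finset Equiv

namespace Crest.Agent.Saxl.Kron

open Crest.Agent.Saxl.FourRowsSemi

section Expansion

variable {k : ℕ}

/-- The permutation of `Fin (k+1)` with `0 ↦ p` and `s+1 ↦ p.succAbove (e s)`. -/
def pcomb (p : Fin (k + 1)) (e : Perm (Fin k)) : Perm (Fin (k + 1)) :=
  p.cycleRange.symm * Perm.decomposeFin.symm (0, e)

lemma comb_zero (p : Fin (k + 1)) (e : Perm (Fin k)) : pcomb p e 0 = p := by
  simp [pcomb, Perm.mul_apply, Perm.decomposeFin_symm_apply_zero, Fin.cycleRange_symm_zero]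

lemma comb_succ (p : Fin (k + 1)) (e : Perm (Fin k)) (s : Fin k) :
    pcomb p e s.succ = p.succAbove (e s) := by
  simp [pcomb, Perm.mul_apply, Perm.decomposeFin_symm_apply_succ, Fin.cycleRange_symm_succ]

lemma sign_comb (p : Fin (k + 1)) (e : Perm (Fin k)) :
    ((Perm.sign (pcomb p e) : ℤˣ) : ℤ) = (-1) ^ (p : ℕ) * ((Perm.sign e : ℤˣ) : ℤ) := by
  have h1 : Perm.sign (p.cycleRange.symm) = (-1) ^ (p : ℕ) := by
    have h2 : Perm.sign p.cycleRange.symm = Perm.sign p.cycleRange := Perm.sign_symm _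
    rw [h2, Fin.sign_cycleRange]
  simp only [pcomb, map_mul, h1, Perm.decomposeFin.symm_sign, if_true, one_mul]
  push_cast
  rfl

lemma comb_bijective :
    Function.Bijective fun x : Fin (k + 1) × Perm (Fin k) => pcomb x.1 x.2 := by
  have hinj : Function.Injective fun x : Fin (k + 1) × Perm (Fin k) => pcomb x.1 x.2 := by
    rintro ⟨p, e⟩ ⟨p', e'⟩ h
    simp only at h
    have hp : p = p' := by
      have := congrArg (fun σ : Perm (Fin (k + 1)) => σ 0) h
      simpa only [comb_zero] using this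
    subst hp
    have he : e = e' := by
      ext s
      have h1 := congrArg (fun σ : Perm (Fin (k + 1)) => σ s.succ) h
      simp only [comb_succ] at h1
      exact congrArg Fin.val (Fin.succAbove_right_injective h1)
    rw [he]
  refine (Fintype.bijective_iff_injective_and_card _).mpr ⟨hinj, ?_⟩
  simp [Fintype.card_perm, Fintype.card_fin, Nat.factorial_succ]

lemma sum_perm_succ (G : Perm (Fin (k + 1)) → ℤ) :
    ∑ σ, G σ = ∑ p, ∑ e, G (pcomb p e) := by
  rw [← comb_bijective.sum_comp G]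
  exact Fintype.sum_prod_type _

/-- The triple alternating sum for a general tensor. -/
def H3 (F : Fin k → Fin k → Fin k → Fin k → ℤ) : ℤ :=
  ∑ h : Perm (Fin k), ∑ σ1 : Perm (Fin k), ∑ σ2 : Perm (Fin k),
    (((Perm.sign h : ℤˣ) : ℤ) * (((Perm.sign σ1 : ℤˣ) : ℤ) * ((Perm.sign σ2 : ℤˣ) : ℤ))) *
      ∏ s, F s (σ1 s) (σ2 s) (h s)

theorem H3_zero (F : Fin 0 → Fin 0 → Fin 0 → Fin 0 → ℤ) : H3 F = 1 := by
  simp [H3, Finset.univ_unique]

/-- Laplace expansion. -/
theorem H3_succ (F : Fin (k + 1) → Fin (k + 1) → Fin (k + 1) → Fin (k + 1) → ℤ) :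
    H3 F = ∑ p3 : Fin (k + 1), ∑ p1 : Fin (k + 1), ∑ p2 : Fin (k + 1),
      ((-1) ^ (p3 : ℕ) * ((-1) ^ (p1 : ℕ) * (-1) ^ (p2 : ℕ))) * F 0 p1 p2 p3 *
      H3 (fun s x1 x2 x3 => F s.succ (p1.succAbove x1) (p2.succAbove x2) (p3.succAbove x3)) := by
  unfold H3
  rw [sum_perm_succ]
  refine sum_congr rfl fun p3 _ => ?_
  have step : ∀ e3 : Perm (Fin k), ∑ σ1 : Perm (Fin (k + 1)), ∑ σ2 : Perm (Fin (k + 1)),
      (((Perm.sign (pcomb p3 e3) : ℤˣ) : ℤ) * (((Perm.sign σ1 : ℤˣ) : ℤ) *
        ((Perm.sign σ2 : ℤˣ) : ℤ))) * ∏ s, F s (σ1 s) (σ2 s) (pcomb p3 e3 s) =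
      ∑ p1 : Fin (k + 1), ∑ p2 : Fin (k + 1), ∑ e1 : Perm (Fin k), ∑ e2 : Perm (Fin k),
        ((-1) ^ (p3 : ℕ) * ((-1) ^ (p1 : ℕ) * (-1) ^ (p2 : ℕ))) * F 0 p1 p2 p3 *
        ((((Perm.sign e3 : ℤˣ) : ℤ) * (((Perm.sign e1 : ℤˣ) : ℤ) * ((Perm.sign e2 : ℤˣ) : ℤ))) *
          ∏ s, F s.succ (p1.succAbove (e1 s)) (p2.succAbove (e2 s)) (p3.succAbove (e3 s))) := by
    intro e3
    rw [sum_perm_succ]
    refine sum_congr rfl fun p1 _ => ?_
    have : ∀ e1 : Perm (Fin k), ∑ σ2 : Perm (Fin (k + 1)),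
        (((Perm.sign (pcomb p3 e3) : ℤˣ) : ℤ) * (((Perm.sign (pcomb p1 e1) : ℤˣ) : ℤ) *
          ((Perm.sign σ2 : ℤˣ) : ℤ))) * ∏ s, F s (pcomb p1 e1 s) (σ2 s) (pcomb p3 e3 s) =
        ∑ p2 : Fin (k + 1), ∑ e2 : Perm (Fin k),
          ((-1) ^ (p3 : ℕ) * ((-1) ^ (p1 : ℕ) * (-1) ^ (p2 : ℕ))) * F 0 p1 p2 p3 *
          ((((Perm.sign e3 : ℤˣ) : ℤ) * (((Perm.sign e1 : ℤˣ) : ℤ) * ((Perm.sign e2 : ℤˣ) : ℤ))) *
            ∏ s, F s.succ (p1.succAbove (e1 s)) (p2.succAbove (e2 s)) (p3.succAbove (e3 s))) := by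
      intro e1
      rw [sum_perm_succ]
      refine sum_congr rfl fun p2 _ => sum_congr rfl fun e2 _ => ?_
      rw [Fin.prod_univ_succ, sign_comb, sign_comb, sign_comb]
      simp only [comb_zero, comb_succ]
      ring
    rw [sum_congr rfl fun e1 _ => this e1, sum_comm]
  rw [sum_congr rfl fun e3 _ => step e3, sum_comm]
  refine sum_congr rfl fun p1 _ => ?_
  rw [sum_comm]
  refine sum_congr rfl fun p2 _ => ?_
  simp only [mul_sum]

end Expansion

section Lists

/-- All ways to remove one element from a list, with the sign of its position. -/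
def picks : List ℕ → List (ℕ × ℤ × List ℕ)
  | [] => []
  | x :: xs => (x, 1, xs) :: (picks xs).map fun q => (q.1, -q.2.1, x :: q.2.2)

/-- A sum over a list. -/
def lsum {α : Type} (l : List α) (g : α → ℤ) : ℤ := (l.map g).sum

theorem sumL_picks (L : List ℕ) (k : ℕ) (hL : L.length = k) (g : ℕ → List ℕ → ℤ) :
    ∑ p : Fin k, (-1) ^ (p : ℕ) * g (L.getD p 0) (L.eraseIdx p) =
      lsum (picks L) fun q => q.2.1 * g q.1 q.2.2 := by
  induction L generalizing k g with
  | nil =>
    subst hL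
    simp [picks, lsum]
  | cons x xs ih =>
    obtain ⟨m, rfl⟩ : ∃ m, k = m + 1 := ⟨xs.length, by simpa using hL.symm⟩
    have hm : xs.length = m := by simpa using hL
    rw [Fin.sum_univ_succ]
    have h1 := ih m hm (fun y ys => g y (x :: ys))
    have h2 : ∑ p : Fin m, (-1 : ℤ) ^ ((p.succ : Fin (m + 1)) : ℕ) *
        g ((x :: xs).getD (p.succ : Fin (m + 1)) 0) ((x :: xs).eraseIdx (p.succ : Fin (m + 1))) =
        - ∑ p : Fin m, (-1 : ℤ) ^ (p : ℕ) * g (xs.getD p 0) (x :: xs.eraseIdx p) := by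
      rw [← sum_neg_distrib]
      refine sum_congr rfl fun p _ => ?_
      simp only [Fin.val_succ, List.getD_cons_succ, List.eraseIdx_cons_succ, pow_succ]
      ring
    rw [h2, h1]
    simp only [picks, lsum, List.map_cons, List.sum_cons, List.map_map, Fin.val_zero, pow_zero,
      one_mul, List.getD_cons_zero, List.eraseIdx_cons_zero]
    congr 1
    generalize picks xs = l
    induction l with
    | nil => simp
    | cons q l ih2 =>
      simp only [List.map_cons, List.sum_cons, neg_add_rev, Function.comp]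
      rw [← ih2]
      ring

lemma getD_eraseIdx_succAbove {k : ℕ} (L : List ℕ) (p : Fin (k + 1)) (x : Fin k) :
    (L.eraseIdx p).getD x 0 = L.getD (p.succAbove x) 0 := by
  simp only [List.getD_eq_getElem?_getD, List.getElem?_eraseIdx]
  rcases lt_or_ge (x : ℕ) (p : ℕ) with h | h
  · rw [if_pos h, Fin.succAbove_of_castSucc_lt _ _ (by simpa [Fin.lt_def] using h)]
    rfl
  · rw [if_neg (by omega), Fin.succAbove_of_le_castSucc _ _ (by simpa [Fin.le_def] using h)]
    rfl

/-- The recursive evaluator, with pruning: `g1 s x` says that `x` may be the image of `s` under the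
first permutation, and so on. -/
def hdet {α : Type} (g1 g2 g3 : α → ℕ → Bool) (f : ℕ → ℕ → ℕ → ℤ) :
    List α → List ℕ → List ℕ → List ℕ → ℤ
  | [], _, _, _ => 1
  | s :: E, L1, L2, L3 =>
    lsum (picks L3) fun q3 => if g3 s q3.1 then
      lsum (picks L1) fun q1 => if g1 s q1.1 then
        lsum (picks L2) fun q2 => if g2 s q2.1 then
          (if f q1.1 q2.1 q3.1 = 0 then 0 else
            (q3.2.1 * (q1.2.1 * q2.2.1)) * f q1.1 q2.1 q3.1 *
              hdet g1 g2 g3 f E q1.2.2 q2.2.2 q3.2.2)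
        else 0
      else 0
    else 0

/-- The tensor with guards. -/
def guardT {α : Type} (g1 g2 g3 : α → ℕ → Bool) (f : ℕ → ℕ → ℕ → ℤ) (s : α) (x1 x2 x3 : ℕ) : ℤ :=
  if g1 s x1 = true ∧ g2 s x2 = true ∧ g3 s x3 = true then f x1 x2 x3 else 0

theorem hdet_eq {α : Type} (d : α) (g1 g2 g3 : α → ℕ → Bool) (f : ℕ → ℕ → ℕ → ℤ) (E : List α)
    (L1 L2 L3 : List ℕ) (k : ℕ)
    (hE : E.length = k) (h1 : L1.length = k) (h2 : L2.length = k) (h3 : L3.length = k) :
    H3 (fun (s x1 x2 x3 : Fin k) => guardT g1 g2 g3 f (E.getD s d) (L1.getD x1 0) (L2.getD x2 0)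
      (L3.getD x3 0)) = hdet g1 g2 g3 f E L1 L2 L3 := by
  induction E generalizing k L1 L2 L3 with
  | nil =>
    subst hE
    rw [H3_zero]
    rfl
  | cons s E ih =>
    obtain ⟨m, rfl⟩ : ∃ m, k = m + 1 := ⟨E.length, by simpa using hE.symm⟩
    have hm : E.length = m := by simpa using hE
    rw [H3_succ]
    simp only [hdet]
    have key : ∀ (p1 p2 p3 : Fin (m + 1)), H3 (fun (s' x1 x2 x3 : Fin m) =>
        guardT g1 g2 g3 f ((s :: E).getD (s'.succ : Fin (m + 1)) d)
          (L1.getD (p1.succAbove x1 : Fin (m + 1)) 0) (L2.getD (p2.succAbove x2 : Fin (m + 1)) 0)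
          (L3.getD (p3.succAbove x3 : Fin (m + 1)) 0)) =
        hdet g1 g2 g3 f E (L1.eraseIdx p1) (L2.eraseIdx p2) (L3.eraseIdx p3) := by
      intro p1 p2 p3
      rw [← ih (L1.eraseIdx p1) (L2.eraseIdx p2) (L3.eraseIdx p3) m hm
        (by rw [List.length_eraseIdx_of_lt (by omega)]; omega)
        (by rw [List.length_eraseIdx_of_lt (by omega)]; omega)
        (by rw [List.length_eraseIdx_of_lt (by omega)]; omega)]
      congr 1
      funext s' x1 x2 x3
      simp only [getD_eraseIdx_succAbove, Fin.val_succ, List.getD_cons_succ]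
    simp only [key]
    have e : ∀ p3 p1 p2 : Fin (m + 1),
        ((-1 : ℤ) ^ (p3 : ℕ) * ((-1) ^ (p1 : ℕ) * (-1) ^ (p2 : ℕ))) *
          guardT g1 g2 g3 f ((s :: E).getD ((0 : Fin (m + 1)) : ℕ) d) (L1.getD p1 0) (L2.getD p2 0)
            (L3.getD p3 0) *
          hdet g1 g2 g3 f E (L1.eraseIdx p1) (L2.eraseIdx p2) (L3.eraseIdx p3) =
        (-1) ^ (p3 : ℕ) * ((-1) ^ (p1 : ℕ) * ((-1) ^ (p2 : ℕ) *
          (guardT g1 g2 g3 f s (L1.getD p1 0) (L2.getD p2 0) (L3.getD p3 0) *
            hdet g1 g2 g3 f E (L1.eraseIdx p1) (L2.eraseIdx p2) (L3.eraseIdx p3)))) := by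
      intro p3 p1 p2
      simp only [Fin.val_zero, List.getD_cons_zero]
      ring
    simp only [e, ← mul_sum]
    rw [sumL_picks L3 (m + 1) h3 (fun x3 R3 => ∑ p1 : Fin (m + 1), (-1) ^ (p1 : ℕ) *
      ∑ p2 : Fin (m + 1), (-1) ^ (p2 : ℕ) *
        (guardT g1 g2 g3 f s (L1.getD p1 0) (L2.getD p2 0) x3 *
          hdet g1 g2 g3 f E (L1.eraseIdx p1) (L2.eraseIdx p2) R3))]
    unfold lsum
    congr 1
    refine List.map_congr_left fun q3 _ => ?_
    by_cases hg3 : g3 s q3.1 = true
    · rw [if_pos hg3]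
      rw [sumL_picks L1 (m + 1) h1 (fun x1 R1 => ∑ p2 : Fin (m + 1), (-1) ^ (p2 : ℕ) *
        (guardT g1 g2 g3 f s x1 (L2.getD p2 0) q3.1 *
          hdet g1 g2 g3 f E R1 (L2.eraseIdx p2) q3.2.2))]
      unfold lsum
      rw [← List.sum_map_mul_left]
      congr 1
      refine List.map_congr_left fun q1 _ => ?_
      by_cases hg1 : g1 s q1.1 = true
      · rw [if_pos hg1]
        rw [sumL_picks L2 (m + 1) h2 (fun x2 R2 =>
          (guardT g1 g2 g3 f s q1.1 x2 q3.1 * hdet g1 g2 g3 f E q1.2.2 R2 q3.2.2))]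
        unfold lsum
        rw [← List.sum_map_mul_left, ← List.sum_map_mul_left]
        congr 1
        refine List.map_congr_left fun q2 _ => ?_
        by_cases hg2 : g2 s q2.1 = true
        · rw [if_pos hg2]
          by_cases hv : f q1.1 q2.1 q3.1 = 0
          · rw [if_pos hv]
            simp [guardT, hv]
          · rw [if_neg hv]
            simp only [guardT, hg1, hg2, hg3, and_self, if_true]
            ring
        · rw [if_neg hg2]
          simp [guardT, hg2]
      · rw [if_neg hg1]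
        simp [guardT, hg1]
    · rw [if_neg hg3]
      simp [guardT, hg3]

/-- The sum over `picks` without building the list. -/
def sumPick (sg : ℤ) (pre : List ℕ) : List ℕ → (ℕ → ℤ → List ℕ → ℤ) → ℤ
  | [], _ => 0
  | x :: xs, g => g x sg (pre.reverseAux xs) + sumPick (-sg) (x :: pre) xs g

theorem sumPick_eq (sg : ℤ) (pre L : List ℕ) (g : ℕ → ℤ → List ℕ → ℤ) :
    sumPick sg pre L g = lsum (picks L) fun q => g q.1 (sg * q.2.1) (pre.reverseAux q.2.2) := by
  induction L generalizing sg pre with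
  | nil => simp [sumPick, picks, lsum]
  | cons x xs ih =>
    rw [sumPick, ih]
    simp only [picks, lsum, List.map_cons, List.sum_cons, List.map_map, mul_one]
    congr 2
    refine List.map_congr_left fun q _ => ?_
    simp [List.reverseAux, mul_neg, neg_mul]

/-- The fast evaluator: elements are triples of column labels, the lists hold codes
`column * N + row`, and the tensor is a Boolean function on codes. -/
def lvl2 (N : ℕ) (fb : ℕ → ℕ → ℕ → Bool) (s : ℕ × ℕ × ℕ) (ih : List ℕ → List ℕ → List ℕ → ℤ)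
    (x3 : ℕ) (e3 : ℤ) (R3 : List ℕ) (x1 : ℕ) (e1 : ℤ) (R1 : List ℕ) (x2 : ℕ) (e2 : ℤ)
    (R2 : List ℕ) : ℤ :=
  bif Nat.beq (x2 / N) s.2.1 then
    (bif fb x1 x2 x3 then (e3 * (e1 * e2)) * ih R1 R2 R3 else 0)
  else 0

/-- See `lvl2`. -/
def lvl1 (N : ℕ) (fb : ℕ → ℕ → ℕ → Bool) (s : ℕ × ℕ × ℕ) (ih : List ℕ → List ℕ → List ℕ → ℤ)
    (L2 : List ℕ) (x3 : ℕ) (e3 : ℤ) (R3 : List ℕ) (x1 : ℕ) (e1 : ℤ) (R1 : List ℕ) : ℤ :=
  bif Nat.beq (x1 / N) s.1 then sumPick 1 [] L2 (lvl2 N fb s ih x3 e3 R3 x1 e1 R1) else 0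

/-- See `lvl2`. -/
def lvl3 (N : ℕ) (fb : ℕ → ℕ → ℕ → Bool) (s : ℕ × ℕ × ℕ) (ih : List ℕ → List ℕ → List ℕ → ℤ)
    (L1 L2 : List ℕ) (x3 : ℕ) (e3 : ℤ) (R3 : List ℕ) : ℤ :=
  bif Nat.beq (x3 / N) s.2.2 then sumPick 1 [] L1 (lvl1 N fb s ih L2 x3 e3 R3) else 0

/-- See `lvl2`. -/
def stepH (N : ℕ) (fb : ℕ → ℕ → ℕ → Bool) (s : ℕ × ℕ × ℕ) (ih : List ℕ → List ℕ → List ℕ → ℤ)
    (L1 L2 L3 : List ℕ) : ℤ :=
  sumPick 1 [] L3 (lvl3 N fb s ih L1 L2)

/-- See `lvl2`. -/
def hdet2 (N : ℕ) (fb : ℕ → ℕ → ℕ → Bool) (E : List (ℕ × ℕ × ℕ)) :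
    List ℕ → List ℕ → List ℕ → ℤ :=
  E.foldr (stepH N fb) (fun _ _ _ => 1)

theorem hdet2_eq (N : ℕ) (fb : ℕ → ℕ → ℕ → Bool) (E : List (ℕ × ℕ × ℕ)) (L1 L2 L3 : List ℕ) :
    hdet2 N fb E L1 L2 L3 = hdet (fun s x => Nat.beq (x / N) s.1) (fun s x => Nat.beq (x / N) s.2.1)
      (fun s x => Nat.beq (x / N) s.2.2) (fun a b i => if fb a b i = true then 1 else 0)
      E L1 L2 L3 := by
  induction E generalizing L1 L2 L3 with
  | nil => rfl
  | cons s E ih =>
    have e0 : hdet2 N fb (s :: E) L1 L2 L3 = stepH N fb s (hdet2 N fb E) L1 L2 L3 := rfl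
    rw [e0]
    simp only [stepH, hdet, sumPick_eq, lvl3, lvl1, lvl2, cond_eq_ite, List.reverseAux, one_mul]
    unfold lsum
    congr 1
    refine List.map_congr_left fun q3 _ => ?_
    by_cases h3 : Nat.beq (q3.1 / N) s.2.2 = true
    · simp only [h3, if_true]
      congr 1
      refine List.map_congr_left fun q1 _ => ?_
      by_cases h1 : Nat.beq (q1.1 / N) s.1 = true
      · simp only [h1, if_true]
        congr 1
        refine List.map_congr_left fun q2 _ => ?_
        by_cases h2 : Nat.beq (q2.1 / N) s.2.1 = true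
        · simp only [h2, if_true]
          by_cases hb : fb q1.1 q2.1 q3.1 = true
          · simp [hb, ih]
          · simp [hb]
        · simp [h2]
      · simp [h1]
    · simp [h3]

end Lists

section Triple

variable {k : ℕ}

theorem tripleSum_eq_H3 (f : ℕ → ℕ → ℕ → ℤ) (r c r1 c1 r2 c2 : Fin k → ℕ) :
    tripleSum f r c r1 c1 r2 c2 = H3 (fun s x1 x2 x3 =>
      if c1 x1 = c1 s ∧ c2 x2 = c2 s ∧ c x3 = c s then f (r1 x1) (r2 x2) (r x3) else 0) := by
  unfold tripleSum H3
  simp only [stab, sum_filter]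
  refine sum_congr rfl fun h _ => ?_
  by_cases hh : ∀ s, c (h s) = c s
  · rw [if_pos hh]
    refine sum_congr rfl fun σ1 _ => ?_
    by_cases h1 : ∀ s, c1 (σ1 s) = c1 s
    · rw [if_pos h1]
      refine sum_congr rfl fun σ2 _ => ?_
      by_cases h2 : ∀ s, c2 (σ2 s) = c2 s
      · rw [if_pos h2]
        congr 1
        refine prod_congr rfl fun s _ => ?_
        rw [if_pos ⟨h1 s, h2 s, hh s⟩]
      · rw [if_neg h2]
        push Not at h2
        obtain ⟨s, hs⟩ := h2
        rw [prod_eq_zero (mem_univ s) (by rw [if_neg (fun h' => hs h'.2.1)]), mul_zero]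
    · rw [if_neg h1]
      push Not at h1
      obtain ⟨s, hs⟩ := h1
      symm
      refine sum_eq_zero fun σ2 _ => ?_
      rw [prod_eq_zero (mem_univ s) (by rw [if_neg (fun h' => hs h'.1)]), mul_zero]
  · rw [if_neg hh]
    push Not at hh
    obtain ⟨s, hs⟩ := hh
    symm
    refine sum_eq_zero fun σ1 _ => sum_eq_zero fun σ2 _ => ?_
    rw [prod_eq_zero (mem_univ s) (by rw [if_neg (fun h' => hs h'.2.2)]), mul_zero]

end Triple

section Cert

/-- Certificates: three tabular fillings of `Fin k`, as lists of codes `column * N + row`, and a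
tensor given by a bit set on triples of rows. -/
structure Cert where
  L : List ℕ
  L1 : List ℕ
  L2 : List ℕ
  N : ℕ
  T : ℕ

/-- Boolean version of `IsTabular` for a list of codes. -/
def tabC (N : ℕ) (L : List ℕ) : Bool :=
  decide L.Nodup && L.all fun x => Nat.beq (x % N) 0 || L.contains (x - 1)

theorem isTabular_of_tabC {k N : ℕ} {L : List ℕ} (hN : 0 < N) (hk : L.length = k)
    (h : tabC N L = true) :
    IsTabular (fun s : Fin k => (L.map (· % N)).getD s 0) (fun s : Fin k => (L.map (· / N)).getD s 0) := by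
  have hg : ∀ (g : ℕ → ℕ) (s : Fin k), (L.map g).getD s 0 = g (L[(s : ℕ)]'(by omega)) := by
    intro g s
    rw [List.getD_eq_getElem _ _ (by simp; omega), List.getElem_map]
  simp only [tabC, Bool.and_eq_true, decide_eq_true_eq, List.all_eq_true, Bool.or_eq_true,
    List.contains_iff_mem] at h
  obtain ⟨hnd, hcl⟩ := h
  have hdown : ∀ x ∈ L, ∀ d, d ≤ x % N → N * (x / N) + (x % N - d) ∈ L := by
    intro x hx d
    induction d with
    | zero =>
      intro _
      have := Nat.div_add_mod x N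
      simpa [this] using hx
    | succ d ih =>
      intro hd
      have h1 := ih (by omega)
      have hlt : x % N < N := Nat.mod_lt _ hN
      have hm : (N * (x / N) + (x % N - d)) % N = x % N - d := by
        rw [Nat.mul_add_mod]
        exact Nat.mod_eq_of_lt (by omega)
      rcases hcl _ h1 with h2 | h2
      · have h2' : (N * (x / N) + (x % N - d)) % N = 0 := Nat.eq_of_beq_eq_true h2
        rw [hm] at h2'
        omega
      · have e : N * (x / N) + (x % N - d) - 1 = N * (x / N) + (x % N - (d + 1)) := by omega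
        rwa [e] at h2
  refine ⟨fun s t h1 h2 => ?_, fun s i hi => ?_⟩
  · simp only [hg] at h1 h2
    have h3 : L[(s : ℕ)]'(by omega) = L[(t : ℕ)]'(by omega) := by
      rw [← Nat.div_add_mod (L[(s : ℕ)]'(by omega)) N, ← Nat.div_add_mod (L[(t : ℕ)]'(by omega)) N,
        h1, h2]
    exact Fin.ext ((List.Nodup.getElem_inj_iff hnd).mp h3)
  · simp only [hg] at hi ⊢
    set x := L[(s : ℕ)]'(by omega) with hx
    have hxm : x ∈ L := List.getElem_mem _
    have h1 := hdown x hxm (x % N - i) (by omega)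
    obtain ⟨t, ht, e⟩ := List.getElem_of_mem h1
    have hlt := Nat.mod_lt x hN
    have hi' : x % N - (x % N - i) = i := by omega
    rw [hi'] at e
    have hiN : i < N := by omega
    refine ⟨⟨t, by omega⟩, ?_, ?_⟩
    · simp only [e]
      rw [Nat.mul_add_div hN, Nat.div_eq_of_lt hiN]
      simp
    · simp only [e]
      rw [Nat.mul_add_mod]
      exact Nat.mod_eq_of_lt hiN

/-- Column heights of a list of column labels. -/
def hL (c : List ℕ) : List ℕ := c.dedup.map fun j => c.count j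

lemma ht_getD (c : List ℕ) (j k : ℕ) (hk : c.length = k) :
    ht (fun s : Fin k => c.getD s 0) j = c.count j := by
  unfold ht
  induction c generalizing k with
  | nil =>
    subst hk
    simp
  | cons x xs ih =>
    obtain ⟨m, rfl⟩ : ∃ m, k = m + 1 := ⟨xs.length, by simpa using hk.symm⟩
    have hm : xs.length = m := by simpa using hk
    rw [Fin.card_filter_univ_succ]
    simp only [Fin.val_zero, List.getD_cons_zero, Fin.val_succ, List.getD_cons_succ]
    rw [ih m hm, List.count_cons]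
    by_cases hx : x = j
    · simp [hx]
    · simp [hx]

lemma heights_getD (c : List ℕ) (k : ℕ) (hk : c.length = k) :
    heights (fun s : Fin k => c.getD s 0) = (hL c : Multiset ℕ) := by
  subst hk
  unfold heights hL
  have h1 : (univ.image fun s : Fin c.length => c.getD s 0) = c.toFinset := by
    ext j
    simp only [mem_image, mem_univ, true_and, List.mem_toFinset]
    constructor
    · rintro ⟨s, rfl⟩
      rw [List.getD_eq_getElem _ _ s.2]
      exact List.getElem_mem _
    · intro hj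
      obtain ⟨i, hi, rfl⟩ := List.getElem_of_mem hj
      exact ⟨⟨i, hi⟩, List.getD_eq_getElem _ _ hi⟩
  rw [h1, List.toFinset_val, Multiset.map_coe]
  congr 1
  refine List.map_congr_left fun j _ => ht_getD c j _ rfl

/-- The Boolean tensor of a certificate, on codes. -/
def Cert.fb (C : Cert) (x1 x2 x3 : ℕ) : Bool :=
  C.T.testBit ((x1 % C.N * C.N + x2 % C.N) * C.N + x3 % C.N)

/-- The list of elements of a certificate: triples of column labels. -/
def Cert.E (C : Cert) : List (ℕ × ℕ × ℕ) :=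
  (List.range C.L.length).map fun s =>
    (C.L1.getD s 0 / C.N, C.L2.getD s 0 / C.N, C.L.getD s 0 / C.N)

/-- The value computed by a certificate. -/
def Cert.val (C : Cert) : ℤ := hdet2 C.N C.fb C.E C.L1 C.L2 C.L

/-- The check of a certificate. -/
def Cert.ok (C : Cert) : Bool :=
  Nat.blt 0 C.N && Nat.beq C.L1.length C.L.length && Nat.beq C.L2.length C.L.length &&
    tabC C.N C.L && tabC C.N C.L1 && tabC C.N C.L2 && !(C.val == 0)

/-- The triple of a certificate. -/
def Cert.triple (C : Cert) : Triple :=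
  (hL (C.L.map (· / C.N)), hL (C.L1.map (· / C.N)), hL (C.L2.map (· / C.N)))

theorem Cert.good (C : Cert) (h : C.ok = true) : C.triple.Good := by
  simp only [Cert.ok, Bool.and_eq_true, Nat.blt_eq, Bool.not_eq_true',
    beq_eq_false_iff_ne] at h
  obtain ⟨⟨⟨⟨⟨⟨hN, h1'⟩, h2'⟩, h3⟩, h4⟩, h5⟩, h6⟩ := h
  have hN' : 0 < C.N := hN
  have h1 := Nat.eq_of_beq_eq_true h1'
  have h2 := Nat.eq_of_beq_eq_true h2'
  set k := C.L.length with hk
  have hg : ∀ (l : List ℕ) (g : ℕ → ℕ), l.length = k → ∀ (s : Fin k),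
      (l.map g).getD s 0 = g (l.getD s 0) := by
    intro l g hl s
    rw [List.getD_eq_getElem _ _ (by simp; omega), List.getElem_map,
      List.getD_eq_getElem _ _ (by omega)]
  have t0 := isTabular_of_tabC hN' rfl h3
  have t1 := isTabular_of_tabC hN' h1 h4
  have t2 := isTabular_of_tabC hN' h2 h5
  have main := Real3.of_tripleSum (k := k) (fun a b i => if C.T.testBit ((a * C.N + b) * C.N + i) then 1 else 0)
    _ _ _ _ _ _ t0 t1 t2 ?_
  · rw [heights_getD _ k (by simp [hk]), heights_getD _ k (by simp [h1]),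
      heights_getD _ k (by simp [h2])] at main
    exact main
  · rw [tripleSum_eq_H3]
    rw [Cert.val, hdet2_eq, ← hdet_eq (0, 0, 0) _ _ _ _ _ _ _ _ k (by simp [Cert.E, hk]) h1 h2 rfl] at h6
    convert h6 using 2
    funext s x1 x2 x3
    have hE : C.E.getD s (0, 0, 0) = (C.L1.getD s 0 / C.N, C.L2.getD s 0 / C.N, C.L.getD s 0 / C.N) := by
      rw [Cert.E, List.getD_eq_getElem _ _ (by simp [hk]), List.getElem_map, List.getElem_range]
    have hb : ∀ a b : ℕ, (Nat.beq a b = true) = (a = b) := fun a b =>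
      propext ⟨Nat.eq_of_beq_eq_true, fun h => h ▸ Nat.beq_refl a⟩
    simp only [guardT, hE, hb, hg _ _ h1, hg _ _ h2, hg _ _ rfl, Cert.fb]
    congr!

/-- **Universality of a shape from certificates and a table.** -/
theorem universal_of_certs {L : YoungDiagram} {n : ℕ} {H : List ℕ}
    (hH : hts L = (H : Multiset ℕ)) (certs : List Cert) (ds : List Der)
    (h : (certs.all Cert.ok && tableOK (certs.map Cert.triple) H (partsF n n n) ds) = true) :
    Universal L.cells n := by
  simp only [Bool.and_eq_true, List.all_eq_true] at h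
  refine universal_of_table hH (seeds := certs.map Cert.triple) ?_ h.2
  intro t ht
  obtain ⟨C, hC, rfl⟩ := List.mem_map.mp ht
  exact C.good (h.1 C hC)

end Cert

end Crest.Agent.Saxl.Kron
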