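import Crest.Agent.Lib.Saxl.Peel

/-!
# More rules for a level (row 195, helper62)

`occurs_one_hook`: one hook, two horizontal strips, when the inner shape is universal.
`universal_of_local`: universality of a self-conjugate shape, diagram by diagram.
-/

set_option autoImplicit false

open scoped BigOperators
open Equiv

namespace Crest.Agent.Saxl

section

variable {S : Type} [Fintype S] [DecidableEq S] {V : Type} [AddCommGroup V] [Module ℂ V]

/-- **One hook, two horizontal strips.** -/
theorem occurs_one_hook {L₀ L₁ : Finset (ℕ × ℕ)} {c b m : ℕ}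
    (h0 : PeelStep L₀ L₁ c b) (U : Universal L₁ m)
    (hcard : Fintype.card S = c + b + m)
    [FiniteDimensional ℂ V] {ρ : Representation ℂ (Perm S) V} (hρ : ρ.IsIrreducible)
    {ν : YoungDiagram} (hν : Label ρ ν)
    (ha1 : b ≤ c) (ha2 : 1 ≤ b)
    (hS1 : c ≤ rowsBelow ν 1) (hS2 : c + b ≤ rowsBelow ν 2) :
    Occurs ρ L₀ L₀ := by
  have hνc := hν.card_eq
  obtain ⟨d, hd, hfix⟩ := exists_fix_of_content hν (hookContent c b m) (2 + m)
    (by
      intro a ha
      unfold hookContent
      split_ifs <;> omega)
    (by
      rw [hookContent_sum, hcard]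
      omega)
    (hookContent_anti ha1 ha2)
    (by
      intro k
      rcases k with _ | _ | r
      · simp
      · simpa [Finset.sum_range_succ, hookContent] using hS1
      · have e : r + 1 + 1 = 2 + r := by omega
        rw [e, hookContent_sum]
        have h2 := rowsBelow_add_ge ν 2 r
        rw [hνc, hcard] at h2
        omega)
  refine h0.occurs hρ hν hfix (a := 0) (a' := 1) (by omega) ?_ ?_ ?_
  · rw [hd]
    simp [hookContent]
  · rw [hd]
    simp [hookContent]
  · intro S₂ _ _ j _ _ hcard₂ V' _ _ _ ρ' hρ' _ _
    exact U S₂ (by omega) V' ρ' hρ'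

end

/-- **Universality, diagram by diagram.** For a self-conjugate shape, for each diagram `ν` the
occurrence is needed for the label `ν` or for the label `ν'`. -/
theorem universal_of_local {L : Finset (ℕ × ℕ)} {m : ℕ} (hL : ∀ q, q ∈ L ↔ q.swap ∈ L)
    (h : ∀ ν : YoungDiagram, ν.card = m →
      (∀ (S : Type) [Fintype S] [DecidableEq S], Fintype.card S = m →
        ∀ (V : Type) [AddCommGroup V] [Module ℂ V] [FiniteDimensional ℂ V]
        (ρ : Representation ℂ (Perm S) V), ρ.IsIrreducible → Label ρ ν → Occurs ρ L L) ∨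
      (∀ (S : Type) [Fintype S] [DecidableEq S], Fintype.card S = m →
        ∀ (V : Type) [AddCommGroup V] [Module ℂ V] [FiniteDimensional ℂ V]
        (ρ : Representation ℂ (Perm S) V), ρ.IsIrreducible → Label ρ ν.transpose → Occurs ρ L L)) :
    Universal L m := by
  intro S _ _ hcard V _ _ _ ρ hρ
  obtain ⟨ν, hνc, hlab⟩ := exists_label hρ
  rcases h ν (hνc.trans hcard) with h1 | h1
  · exact h1 S hcard V ρ hρ hlab
  · exact occurs_of_twist_selfConj hL (h1 S hcard V (sgnTwist ρ) (sgnTwist_isIrreducible hρ)
      hlab.sgnTwist)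

end Crest.Agent.Saxl
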