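import Crest.Agent.Lib.Saxl.Peel
import Crest.Agent.Lib.Saxl.Family

/-!
# A hook around a shape is a peel step (row 195, helper62)

The Pieri test of `PeelStep` with `τ` the reversal and `π` the centre-out order only asks for a bound
on the rows of the lower half.
-/

set_option autoImplicit false

open scoped BigOperators
open Equiv

namespace Crest.Agent.Saxl

/-- The centre-out order of `range c`. -/
def centreOut (c k : ℕ) : ℕ :=
  if (k + c) % 2 = 1 then (k + c - 1) / 2 else c - 1 - (k + c) / 2

theorem centreOut_image (c : ℕ) : (Finset.range c).image (centreOut c) = Finset.range c := by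
  apply Finset.eq_of_subset_of_card_le
  · intro q hq
    obtain ⟨k, hk, rfl⟩ := Finset.mem_image.mp hq
    rw [Finset.mem_range] at hk ⊢
    unfold centreOut
    split_ifs <;> omega
  · rw [Finset.card_image_of_injOn]
    intro a ha b hb hab
    have ha' : a < c := by simpa using ha
    have hb' : b < c := by simpa using hb
    simp only [centreOut] at hab
    split_ifs at hab <;> omega

/-- **The test with reversal and centre-out order.** -/
theorem pieri_test_of_half (c : ℕ) (x : ℕ → ℕ)
    (h : ∀ r, r < c → c ≤ 2 * r + 1 → x r ≤ 2 * (c - 1 - r)) :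
    ∃ (τc : Perm (Fin c)) (τ π : ℕ → ℕ), (∀ i : Fin c, τ i = τc i) ∧
      (Finset.range c).image π = Finset.range c ∧
      ∀ k < c, min (x (π k)) (x (τ (π k))) + k + 1 ≤ c := by
  refine ⟨Fin.revPerm, fun i => c - 1 - i, centreOut c, ?_, centreOut_image c, ?_⟩
  · intro i
    simp only [Fin.revPerm_apply, Fin.val_rev]
    omega
  · intro k hk
    by_cases hp : (k + c) % 2 = 1
    · have e : centreOut c k = (k + c - 1) / 2 := by simp only [centreOut, if_pos hp]
      have h1 := h ((k + c - 1) / 2) (by omega) (by omega)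
      rw [e]
      have := min_le_left (x ((k + c - 1) / 2)) (x (c - 1 - (k + c - 1) / 2))
      omega
    · have e : centreOut c k = c - 1 - (k + c) / 2 := by simp only [centreOut, if_neg hp]
      have h1 := h ((k + c) / 2) (by omega) (by omega)
      have e2 : c - 1 - (c - 1 - (k + c) / 2) = (k + c) / 2 := by omega
      rw [e]
      show min (x (c - 1 - (k + c) / 2)) (x (c - 1 - (c - 1 - (k + c) / 2))) + k + 1 ≤ c
      rw [e2]
      have := min_le_right (x (c - 1 - (k + c) / 2)) (x ((k + c) / 2))
      omega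

open Family in
theorem rowCnt_rowPart_zero (c : ℕ) (K : Finset (ℕ × ℕ)) : rowCnt (rowPart c K) 0 = c - 1 := by
  have : (rowPart c K).filter (fun q => q.1 = 0) = (Finset.range (c - 1)).image (fun j => (0, j)) := by
    ext ⟨i, j⟩
    simp only [Finset.mem_filter, mem_rowPart, Finset.mem_image, Finset.mem_range, Prod.mk.injEq]
    constructor
    · rintro ⟨h | ⟨a, h, _⟩, h2⟩
      · exact ⟨j, by omega, by omega, rfl⟩
      · omega
    · rintro ⟨a, h, rfl, rfl⟩
      exact ⟨Or.inl ⟨rfl, by omega⟩, rfl⟩
  rw [rowCnt, this, Finset.card_image_of_injective _ (fun a b h => by simpa using h), Finset.card_range]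

open Family in
theorem rowCnt_rowPart_succ (c : ℕ) (K : Finset (ℕ × ℕ)) (r : ℕ) :
    rowCnt (rowPart c K) (r + 1) = rowCnt K r := by
  have : (rowPart c K).filter (fun q => q.1 = r + 1) =
      (K.filter fun q => q.1 = r).image (fun q => (q.1 + 1, q.2)) := by
    ext ⟨i, j⟩
    simp only [Finset.mem_filter, mem_rowPart, Finset.mem_image, Prod.mk.injEq, Prod.exists]
    constructor
    · rintro ⟨h | ⟨a, h, h'⟩, h2⟩
      · omega
      · exact ⟨a, j, ⟨h', by omega⟩, h.symm, rfl⟩
    · rintro ⟨a, b, ⟨h, rfl⟩, rfl, rfl⟩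
      exact ⟨Or.inr ⟨a, rfl, h⟩, rfl⟩
  rw [rowCnt, this, Finset.card_image_of_injective, rowCnt]
  rintro ⟨a, b⟩ ⟨a', b'⟩ h
  simp only [Prod.mk.injEq] at h
  ext <;> simp <;> omega

open Family in
/-- **A hook around `K` is a peel step**, under a bound on the rows of `K` in the lower half. -/
theorem peelStep_hookWrap {K : Finset (ℕ × ℕ)} (hK : SelfConj K) {c : ℕ}
    (h : ∀ r, r + 2 ≤ c → c ≤ 2 * r + 3 → rowCnt K r ≤ 2 * (c - 2 - r)) :
    PeelStep (hookWrap c K) K c (c - 1) := by
  refine ⟨rowPart c K, rfl, rowPart_swap hK c, ?_, ?_⟩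
  · apply pieri_test_of_half
    intro r hr hc
    rcases r with _ | r
    · rw [rowCnt_rowPart_zero]
      omega
    · rw [rowCnt_rowPart_succ]
      have := h r (by omega) (by omega)
      omega
  · apply pieri_test_of_half
    intro r hr hc
    have := h r (by omega) (by omega)
    omega

/-- Rows are bounded by the largest column used. -/
theorem rowCnt_le_of_cells {K : Finset (ℕ × ℕ)} {r B : ℕ} (h : ∀ j, (r, j) ∈ K → j < B) :
    rowCnt K r ≤ B := by
  have : (K.filter fun q => q.1 = r) ⊆ (Finset.range B).image (fun j => (r, j)) := by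
    rintro ⟨i, j⟩ hq
    obtain ⟨h1, h2⟩ := Finset.mem_filter.mp hq
    simp only at h2
    subst h2
    exact Finset.mem_image.mpr ⟨j, Finset.mem_range.mpr (h j h1), rfl⟩
  calc rowCnt K r ≤ ((Finset.range B).image (fun j => (r, j))).card := Finset.card_le_card this
    _ ≤ B := by
      rw [Finset.card_image_of_injective _ (fun a b h => by simpa using h), Finset.card_range]

open Family in
/-- **A hook around `K` is a peel step**, the bound on cells. -/
theorem peelStep_hookWrap_of_cells {K : Finset (ℕ × ℕ)} (hK : SelfConj K) {c : ℕ}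
    (h : ∀ i j, (i, j) ∈ K → c ≤ 2 * i + 3 → j + 2 * i + 5 ≤ 2 * c) :
    PeelStep (hookWrap c K) K c (c - 1) := by
  apply peelStep_hookWrap hK
  intro r hr hc
  apply rowCnt_le_of_cells
  intro j hj
  have := h r j hj hc
  omega

end Crest.Agent.Saxl
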