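import Crest.Agent.Lib.Saxl.BaseCert
import Crest.Agent.Lib.Saxl.PeelExtra
import Crest.Agent.Lib.Saxl.PeelHook

/-!
# One hook around a universal shape, and a table for the partitions in a box (row 195, S0298)

If `D₀` is a hook of arm and leg `c - 1` around the universal shape `D₁`, every `ν` with
`ν₀ + ν₁ ≥ 2c - 1`, or the same for the conjugate of `ν`, is settled by the one-hook rule.  The other
partitions lie in a box: they form a short list, which is handled by `Real3` (certificates).
-/

set_option autoImplicit false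

open Equiv

namespace Crest.Agent.Saxl.Kron

open Crest.Agent.Saxl

/-- The test of a partition, as a list of column heights. -/
def hookTest (s : ℕ) (box : List (List ℕ)) (l : List ℕ) : Bool :=
  Nat.ble s (l.countP (fun x => decide (0 < x)) + l.countP (fun x => decide (1 < x))) ||
    Nat.ble s (l.getD 0 0 + l.getD 1 0) || box.contains l

lemma rowsBelow_two (ν : YoungDiagram) : rowsBelow ν 2 = ν.rowLen 0 + ν.rowLen 1 := by
  have h0 : rowsBelow ν 0 = 0 := by simp [rowsBelow]
  rw [rowsBelow_succ, rowsBelow_succ, h0]
  omega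

lemma rowsBelow_one (ν : YoungDiagram) : rowsBelow ν 1 = ν.rowLen 0 := by
  have h0 : rowsBelow ν 0 = 0 := by simp [rowsBelow]
  rw [rowsBelow_succ, h0]
  omega

lemma colLensL_getD (ν : YoungDiagram) (k : ℕ) : (colLensL ν).getD k 0 = ν.colLen k := by
  by_cases hk : k < ν.rowLen 0
  · rw [colLensL, List.getD_eq_getElem _ _ (by simpa using hk), List.getElem_map,
      List.getElem_range]
  · rw [List.getD_eq_default _ _ (by simp [colLensL]; omega)]
    by_contra hne
    have h1 : (0, k) ∈ ν := YoungDiagram.mem_iff_lt_colLen.mpr (Nat.pos_of_ne_zero (Ne.symm hne))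
    exact hk (YoungDiagram.mem_iff_lt_rowLen.mp h1)

/-- **One hook around a universal shape, and a table for a box.** -/
theorem universal_of_hook_box {D₀ D₁ : YoungDiagram} {c b m n F : ℕ} {H : List ℕ}
    (hsc : ∀ q, q ∈ D₀.cells ↔ q.swap ∈ D₀.cells)
    (hH : hts D₀ = (H : Multiset ℕ))
    (h0 : PeelStep D₀.cells D₁.cells c b) (hb : b + 1 = c) (hb1 : 1 ≤ b)
    (U : Universal D₁.cells m) (hn : n = c + b + m)
    {box : List (List ℕ)}
    (hbox : ∀ l ∈ box, Real3 (l : Multiset ℕ) (H : Multiset ℕ) (H : Multiset ℕ))
    (hF : F + 1 = c + b)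
    (hall : (partsF F n F).all (hookTest (c + b) box) = true) :
    Universal D₀.cells n := by
  refine universal_of_local hsc ?_
  intro ν hν
  have hrule : ∀ μ : YoungDiagram, c + b ≤ rowsBelow μ 2 →
      ∀ (S : Type) [Fintype S] [DecidableEq S], Fintype.card S = n →
        ∀ (V : Type) [AddCommGroup V] [Module ℂ V] [FiniteDimensional ℂ V]
        (ρ : Representation ℂ (Perm S) V), ρ.IsIrreducible → Label ρ μ →
          Occurs ρ D₀.cells D₀.cells := by
    intro μ hμ S _ _ hS V _ _ _ ρ hρ hlab
    have h2 := rowsBelow_two μ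
    have h3 : μ.rowLen 1 ≤ μ.rowLen 0 := μ.rowLen_anti 0 1 (by omega)
    exact occurs_one_hook h0 U (by omega) hρ hlab (by omega) hb1
      (by rw [rowsBelow_one]; omega) hμ
  by_cases hA : c + b ≤ rowsBelow ν 2
  · exact Or.inl (hrule ν hA)
  by_cases hB : c + b ≤ rowsBelow ν.transpose 2
  · exact Or.inr (hrule ν.transpose hB)
  refine Or.inl ?_
  rw [rowsBelow_two] at hA hB
  simp only [YoungDiagram.rowLen_transpose] at hB
  have hmem : colLensL ν ∈ partsF F n F := by
    refine mem_partsF F (colLensL_pairwise ν) (colLensL_pos ν) ?_ ((colLensL_sum ν).trans hν) ?_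
    · intro x hx
      simp only [colLensL, List.mem_map, List.mem_range] at hx
      obtain ⟨j, -, rfl⟩ := hx
      have := colLen_anti ν j
      omega
    · simp only [colLensL, List.length_map, List.length_range]
      omega
  have ht := List.all_eq_true.mp hall _ hmem
  simp only [hookTest, Bool.or_eq_true, Nat.ble_eq, List.contains_iff_mem, colLensL_getD] at ht
  rw [countP_colLensL, countP_colLensL] at ht
  rcases ht with (ht | ht) | ht
  · exact absurd ht hA
  · exact absurd ht hB
  · intro S _ _ hS V _ _ _ ρ hρ hlab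
    obtain ⟨T⟩ := exists_tab (S := S) ν (by omega)
    have h1 := hbox _ ht
    rw [← hts_eq_colLensL, ← hH] at h1
    exact occurs_of_real3 T h1 hρ hlab

end Crest.Agent.Saxl.Kron

namespace Crest.Agent.Saxl.Kron

open Crest.Agent.Saxl Crest.Agent.Saxl.Family

lemma mem_ofRowLens_iff {a : List ℕ} (hs : a.SortedGE) (i j : ℕ) :
    (i, j) ∈ YoungDiagram.ofRowLens a hs ↔ j < a.getD i 0 := by
  rw [YoungDiagram.mem_iff_lt_rowLen, rowLen_ofRowLens']

/-- A sorted list with `a_j > i ↔ a_i > j` on a box gives a self-conjugate diagram. -/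
theorem selfConj_ofRowLens {a : List ℕ} (hs : a.SortedGE) {N : ℕ} (hN : a.length ≤ N)
    (hm : ∀ i, a.getD i 0 ≤ N)
    (h : ∀ i < N, ∀ j < N, (j < a.getD i 0 ↔ i < a.getD j 0)) :
    SelfConj (YoungDiagram.ofRowLens a hs).cells := by
  have hd : ∀ i, N ≤ i → a.getD i 0 = 0 := fun i hi => List.getD_eq_default _ _ (by omega)
  have key : ∀ i j, (j < a.getD i 0 ↔ i < a.getD j 0) := by
    intro i j
    by_cases hi : i < N
    · by_cases hj : j < N
      · exact h i hi j hj
      · rw [hd j (by omega)]
        have := hm i
        omega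
    · rw [hd i (by omega)]
      have := hm j
      omega
  rintro ⟨i, j⟩
  simp only [YoungDiagram.mem_cells, Prod.swap_prod_mk, mem_ofRowLens_iff]
  exact key i j

/-- A sorted list is a hook around another one. -/
theorem cells_ofRowLens_eq_hookWrap {a b : List ℕ} (ha : a.SortedGE) (hb : b.SortedGE) {c : ℕ}
    (h0 : a.getD 0 0 = c) (h1 : ∀ i, a.getD (i + 1) 0 = if i + 1 < c then b.getD i 0 + 1 else 0)
    (hbl : b.length + 1 ≤ c) :
    (YoungDiagram.ofRowLens a ha).cells = hookWrap c (YoungDiagram.ofRowLens b hb).cells := by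
  ext ⟨i, j⟩
  simp only [YoungDiagram.mem_cells, mem_hookWrap, mem_ofRowLens_iff]
  rcases i with _ | i
  · rw [h0]
    constructor
    · intro h
      exact Or.inl ⟨rfl, h⟩
    · rintro (h | h | h)
      · exact h.2
      · omega
      · obtain ⟨i', j', h1, -⟩ := h
        omega
  · rw [h1 i]
    rcases j with _ | j
    · constructor
      · intro h
        split_ifs at h with hc
        · exact Or.inr (Or.inl ⟨rfl, hc⟩)
        · omega
      · rintro (h | h | h)
        · omega
        · rw [if_pos h.2]
          omega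
        · obtain ⟨i', j', -, h2, -⟩ := h
          omega
    · constructor
      · intro h
        split_ifs at h with hc
        · exact Or.inr (Or.inr ⟨i, j, rfl, rfl, by omega⟩)
        · omega
      · rintro (h | h | h)
        · omega
        · omega
        · obtain ⟨i', j', h2, h3, h4⟩ := h
          have e1 : i' = i := by omega
          have e2 : j' = j := by omega
          subst e1 e2
          split_ifs with hc
          · omega
          · rw [List.getD_eq_default _ _ (by omega)] at h4
            omega

end Crest.Agent.Saxl.Kron
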