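import Crest.Agent.Lib.Saxl.HookBox

/-!
# The one-hook rule with a pruned enumeration of the box (row 195, S0298, helper58)

`universal_of_hook_box` asks to run through all the partitions of `n`.  For large `n` this is costly;
here only the partitions in the box are enumerated (`enumTop`).
-/

set_option autoImplicit false

namespace Crest.Agent.Saxl.Kron

open Crest.Agent.Saxl

/-- The cost of a column of height `h`: it occupies one place in the first row, and one place in the
second row if `h > 1`. -/
def hcost (h : ℕ) : ℕ := if 1 < h then 2 else 1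

/-- The cost of a list of columns. -/
def lcost : List ℕ → ℕ
  | [] => 0
  | h :: t => hcost h + lcost t

/-- Decreasing lists of positive numbers at most `x` with sum `r` and cost at most `B`. -/
def enumB : ℕ → ℕ → ℕ → ℕ → List (List ℕ)
  | 0, _, r, _ => if r = 0 then [[]] else []
  | f + 1, x, r, B =>
    if r = 0 then [[]] else
      if 2 * r ≤ max x 2 * B then
        (List.range (min x r)).flatMap fun a =>
          if hcost (a + 1) ≤ B then
            (enumB f (a + 1) (r - (a + 1)) (B - hcost (a + 1))).map ((a + 1) :: ·)
          else []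
      else []

/-- All the lists in the box: the two first entries have sum at most `F`, and the cost is at most
`F`. -/
def enumTop (F n : ℕ) : List (List ℕ) :=
  (List.range F).flatMap fun a =>
    if hcost (a + 1) ≤ F then
      (enumB n (min (a + 1) (F - (a + 1))) (n - (a + 1)) (F - hcost (a + 1))).map ((a + 1) :: ·)
    else []

lemma two_sum_le (x : ℕ) {l : List ℕ} (hp : ∀ h ∈ l, 0 < h) (hx : ∀ h ∈ l, h ≤ x) :
    2 * l.sum ≤ max x 2 * lcost l := by
  induction l with
  | nil => simp [lcost]
  | cons h t ih =>
    have h1 := ih (fun y hy => hp y (by simp [hy])) (fun y hy => hx y (by simp [hy]))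
    have h2 : 0 < h := hp h (by simp)
    have h3 : h ≤ x := hx h (by simp)
    simp only [List.sum_cons, lcost, mul_add]
    have h4 : 2 * h ≤ max x 2 * hcost h := by
      unfold hcost
      split_ifs with h5
      · have : h ≤ max x 2 := le_trans h3 (le_max_left _ _)
        nlinarith
      · have : 2 ≤ max x 2 := le_max_right _ _
        omega
    omega

theorem mem_enumB {l : List ℕ} {f x r B : ℕ} (hs : l.Pairwise (· ≥ ·)) (hp : ∀ h ∈ l, 0 < h)
    (hx : ∀ h ∈ l, h ≤ x) (hr : l.sum = r) (hc : lcost l ≤ B) (hf : l.length ≤ f) :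
    l ∈ enumB f x r B := by
  induction l generalizing f x r B with
  | nil =>
    simp only [List.sum_nil] at hr
    subst hr
    cases f <;> simp [enumB]
  | cons h t ih =>
    rcases f with _ | f
    · simp at hf
    have h0 : 0 < h := hp h (by simp)
    have hhx : h ≤ x := hx h (by simp)
    have hsum := hr
    simp only [List.sum_cons] at hsum
    have hr0 : r ≠ 0 := by omega
    have hb := two_sum_le x hp hx
    rw [hr] at hb
    have hb2 : 2 * r ≤ max x 2 * B := le_trans hb (Nat.mul_le_mul_left _ hc)
    simp only [lcost] at hc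
    rw [enumB, if_neg hr0, if_pos hb2, List.mem_flatMap]
    refine ⟨h - 1, ?_, ?_⟩
    · rw [List.mem_range]
      have : h ≤ min x r := le_min hhx (by omega)
      omega
    · have e : h - 1 + 1 = h := by omega
      rw [e, if_pos (by omega), List.mem_map]
      refine ⟨t, ?_, rfl⟩
      have hpw := List.pairwise_cons.mp hs
      refine ih hpw.2 (fun y hy => hp y (by simp [hy])) (fun y hy => hpw.1 y hy) (by omega)
        (by omega) (by simpa using hf)

theorem mem_enumTop {l : List ℕ} {F n : ℕ} (hs : l.Pairwise (· ≥ ·)) (hp : ∀ h ∈ l, 0 < h)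
    (hr : l.sum = n) (hn : 0 < n) (hc : lcost l ≤ F)
    (h2 : l.getD 0 0 + l.getD 1 0 ≤ F) : l ∈ enumTop F n := by
  rcases l with _ | ⟨h, t⟩
  · simp at hr
    omega
  have h0 : 0 < h := hp h (by simp)
  simp only [List.sum_cons] at hr
  simp only [lcost] at hc
  have hhF : h ≤ F := by
    simpa using le_trans (Nat.le_add_right _ _) h2
  have hlen : t.length ≤ n := by
    have : t.length ≤ t.sum := by
      have key : ∀ u : List ℕ, (∀ y ∈ u, 0 < y) → u.length ≤ u.sum := by
        intro u
        induction u with
        | nil => simp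
        | cons a u ih =>
          intro hu
          have h1 := ih (fun y hy => hu y (by simp [hy]))
          have h3 := hu a (by simp)
          simp only [List.length_cons, List.sum_cons]
          omega
      exact key t (fun y hy => hp y (by simp [hy]))
    omega
  rw [enumTop, List.mem_flatMap]
  refine ⟨h - 1, List.mem_range.mpr (by omega), ?_⟩
  have e : h - 1 + 1 = h := by omega
  rw [e, if_pos (by omega), List.mem_map]
  refine ⟨t, ?_, rfl⟩
  have hpw := List.pairwise_cons.mp hs
  refine mem_enumB hpw.2 (fun y hy => hp y (by simp [hy])) ?_ (by omega) (by omega) hlen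
  intro y hy
  refine le_min (hpw.1 y hy) ?_
  -- every entry of `t` is at most the first one
  rcases t with _ | ⟨a, t⟩
  · simp at hy
  have hay : y ≤ a := by
    rcases List.mem_cons.mp hy with rfl | hy'
    · exact le_rfl
    · exact (List.pairwise_cons.mp hpw.2).1 y hy'
  have : h + a ≤ F := by simpa using h2
  omega

lemma lcost_eq {l : List ℕ} (hp : ∀ h ∈ l, 0 < h) :
    lcost l = l.countP (fun x => decide (0 < x)) + l.countP (fun x => decide (1 < x)) := by
  induction l with
  | nil => simp [lcost]
  | cons h t ih =>
    have h1 := ih (fun y hy => hp y (by simp [hy]))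
    have h0 : 0 < h := hp h (by simp)
    simp only [lcost, List.countP_cons, h1, decide_eq_true_eq, hcost]
    split_ifs <;> omega

/-- **One hook around a universal shape, and a table for the box**: here the box is given by the
pruned enumeration. -/
theorem universal_of_hook_enum {D₀ D₁ : YoungDiagram} {c b m n F : ℕ} {H : List ℕ}
    (hsc : ∀ q, q ∈ D₀.cells ↔ q.swap ∈ D₀.cells)
    (hH : hts D₀ = (H : Multiset ℕ))
    (h0 : PeelStep D₀.cells D₁.cells c b) (hb : b + 1 = c) (hb1 : 1 ≤ b)
    (U : Universal D₁.cells m) (hn : n = c + b + m)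
    (hF : F + 1 = c + b)
    (hbox : ∀ l ∈ enumTop F n, Real3 (l : Multiset ℕ) (H : Multiset ℕ) (H : Multiset ℕ)) :
    Universal D₀.cells n := by
  refine universal_of_local hsc ?_
  intro ν hν
  have hrule : ∀ μ : YoungDiagram, c + b ≤ rowsBelow μ 2 →
      ∀ (S : Type) [Fintype S] [DecidableEq S], Fintype.card S = n →
        ∀ (V : Type) [AddCommGroup V] [Module ℂ V] [FiniteDimensional ℂ V]
        (ρ : Representation ℂ (Equiv.Perm S) V), ρ.IsIrreducible → Label ρ μ →
          Occurs ρ D₀.cells D₀.cells := by
    intro μ hμ S _ _ hS V _ _ _ ρ hρ hlab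
    have h2 := rowsBelow_two μ
    have h3 : μ.rowLen 1 ≤ μ.rowLen 0 := μ.rowLen_anti 0 1 (by omega)
    exact occurs_one_hook h0 U (by omega) hρ hlab (by omega) hb1
      (by rw [rowsBelow_one]; omega) hμ
  by_cases hA : c + b ≤ rowsBelow ν 2
  · exact Or.inl (hrule ν hA)
  by_cases hB : c + b ≤ rowsBelow ν.transpose 2
  · exact Or.inr (hrule ν.transpose hB)
  refine Or.inl ?_
  rw [rowsBelow_two] at hA hB
  simp only [YoungDiagram.rowLen_transpose] at hB
  have hmem : colLensL ν ∈ enumTop F n := by
    refine mem_enumTop (colLensL_pairwise ν) (colLensL_pos ν) ((colLensL_sum ν).trans hν)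
      (by omega) ?_ ?_
    · rw [lcost_eq (colLensL_pos ν), countP_colLensL, countP_colLensL]
      omega
    · rw [colLensL_getD, colLensL_getD]
      omega
  intro S _ _ hS V _ _ _ ρ hρ hlab
  obtain ⟨T⟩ := exists_tab (S := S) ν (by omega)
  have h1 := hbox _ hmem
  rw [← hts_eq_colLensL, ← hH] at h1
  exact occurs_of_real3 T h1 hρ hlab

end Crest.Agent.Saxl.Kron
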