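import Crest.Agent.Lib.Saxl.Specht

/-!
# The Kronecker semigroup at the level of Young symmetrizers

For a colouring `r` of the slots, `Phi N r G` is the polynomial
`∑_{u₁,u₂ : S → Fin N} G(u₁,u₂) ∏_s X(u₁ s, u₂ s, r s)`.  It is invariant under the Young subgroup of
`r`, its kernel on invariant functions is trivial, and it is multiplicative on disjoint unions of slots.
So the nonvanishing of a Young symmetrizer is stable under column concatenation.
-/

set_option autoImplicit false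

open scoped BigOperators
open Equiv MvPolynomial

namespace Crest.Agent.Saxl

set_option linter.unusedSectionVars false

section Phi

variable {S : Type*} [Fintype S] [DecidableEq S]

/-- The word of letters attached to a `Fin N`-valued word. -/
def valW {N : ℕ} (u : S → Fin N) : S → ℕ := fun s => (u s : ℕ)

/-- The monomial of a pair of words and a colouring. -/
noncomputable def monoOf (r : S → ℕ) (w₁ w₂ : S → ℕ) : MvPolynomial (ℕ × ℕ × ℕ) ℂ :=
  ∏ s, X (w₁ s, w₂ s, r s)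

/-- The polynomial transform. -/
noncomputable def Phi (N : ℕ) (r : S → ℕ) (G : Fn2 S) : MvPolynomial (ℕ × ℕ × ℕ) ℂ :=
  ∑ u : (S → Fin N) × (S → Fin N), C (G (valW u.1) (valW u.2)) * monoOf r (valW u.1) (valW u.2)

theorem Phi_add (N : ℕ) (r : S → ℕ) (G H : Fn2 S) : Phi N r (G + H) = Phi N r G + Phi N r H := by
  simp only [Phi, Pi.add_apply, map_add, add_mul, Finset.sum_add_distrib]

theorem Phi_smul (N : ℕ) (r : S → ℕ) (c : ℂ) (G : Fn2 S) : Phi N r (c • G) = C c * Phi N r G := by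
  simp only [Phi, Pi.smul_apply, smul_eq_mul, map_mul, Finset.mul_sum, mul_assoc]

theorem Phi_sum {ι : Type*} (N : ℕ) (r : S → ℕ) (A : Finset ι) (G : ι → Fn2 S) :
    Phi N r (∑ i ∈ A, G i) = ∑ i ∈ A, Phi N r (G i) := by
  classical
  induction A using Finset.induction_on with
  | empty =>
    simp only [Finset.sum_empty]
    simp [Phi]
  | insert a A ha ih => rw [Finset.sum_insert ha, Finset.sum_insert ha, Phi_add, ih]

theorem monoOf_comp (r : S → ℕ) (w₁ w₂ : S → ℕ) {g : Perm S} (hg : g ∈ stab r) :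
    monoOf r (w₁ ∘ g) (w₂ ∘ g) = monoOf r w₁ w₂ := by
  unfold monoOf
  rw [mem_stab] at hg
  refine Fintype.prod_equiv g _ _ fun s => ?_
  simp [hg]

/-- Invariance of the transform under the Young subgroup. -/
theorem Phi_fn2Rep (N : ℕ) (r : S → ℕ) (G : Fn2 S) {g : Perm S} (hg : g ∈ stab r) :
    Phi N r (fn2Rep S g G) = Phi N r G := by
  unfold Phi
  let e : (S → Fin N) × (S → Fin N) ≃ (S → Fin N) × (S → Fin N) :=
    (Equiv.arrowCongr g (Equiv.refl _)).symm.prodCongr (Equiv.arrowCongr g (Equiv.refl _)).symm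
  refine Fintype.sum_equiv e _ _ fun u => ?_
  have h1 : valW (e u).1 = valW u.1 ∘ g := by
    funext s; simp [e, valW, Equiv.arrowCongr]
  have h2 : valW (e u).2 = valW u.2 ∘ g := by
    funext s; simp [e, valW, Equiv.arrowCongr]
  rw [h1, h2, monoOf_comp r _ _ hg, fn2Rep_apply]

/-- The transform of a symmetrized function. -/
theorem Phi_symE (N : ℕ) (r : S → ℕ) (G : Fn2 S) :
    Phi N r (gact (fn2Rep S) (symE r) G) = C ((stab r).card : ℂ) * Phi N r G := by
  rw [gact_symE, Phi_sum]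
  rw [Finset.sum_congr rfl (fun g hg => Phi_fn2Rep N r G hg)]
  simp [Finset.sum_const, nsmul_eq_mul]

/-- Functions with the same fibres differ by a permutation. -/
theorem exists_perm_of_fibers {α : Type*} [DecidableEq α] {τ τ' : S → α}
    (h : ∀ x, (Finset.univ.filter fun s => τ s = x).card = (Finset.univ.filter fun s => τ' s = x).card) :
    ∃ g : Perm S, τ' ∘ g = τ := by
  have he : ∀ c, { a // τ a = c } ≃ { b // τ' b = c } := fun c =>
    Fintype.equivOfCardEq (by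
      rw [Fintype.card_subtype, Fintype.card_subtype]
      exact h c)
  refine ⟨Equiv.ofFiberEquiv he, ?_⟩
  funext s
  exact Equiv.ofFiberEquiv_map he s

/-- The exponent of the monomial. -/
noncomputable def expOf (r : S → ℕ) (w₁ w₂ : S → ℕ) : (ℕ × ℕ × ℕ) →₀ ℕ :=
  ∑ s, Finsupp.single (w₁ s, w₂ s, r s) 1

theorem monoOf_eq_monomial (r : S → ℕ) (w₁ w₂ : S → ℕ) :
    monoOf r w₁ w₂ = monomial (expOf r w₁ w₂) 1 := by
  unfold monoOf expOf
  rw [monomial_sum_one]
  rfl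

theorem expOf_apply (r : S → ℕ) (w₁ w₂ : S → ℕ) (x : ℕ × ℕ × ℕ) :
    expOf r w₁ w₂ x = (Finset.univ.filter fun s => (w₁ s, w₂ s, r s) = x).card := by
  classical
  unfold expOf
  rw [Finsupp.finsetSum_apply, Finset.card_filter]
  refine Finset.sum_congr rfl fun s _ => ?_
  rw [Finsupp.single_apply]

/-- Same monomial: the pairs of words differ by an element of the Young subgroup. -/
theorem exists_stab_of_expOf {r : S → ℕ} {w₁ w₂ v₁ v₂ : S → ℕ}
    (h : expOf r w₁ w₂ = expOf r v₁ v₂) :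
    ∃ g ∈ stab r, w₁ ∘ g = v₁ ∧ w₂ ∘ g = v₂ := by
  obtain ⟨g, hg⟩ := exists_perm_of_fibers (τ := fun s => (v₁ s, v₂ s, r s))
    (τ' := fun s => (w₁ s, w₂ s, r s)) (fun x => by
      rw [← expOf_apply, ← expOf_apply, h])
  refine ⟨g, ?_, ?_, ?_⟩
  · rw [mem_stab]
    intro s
    have := congrFun hg s
    simp only [Function.comp, Prod.mk.injEq] at this
    exact this.2.2
  · funext s
    have := congrFun hg s
    simp only [Function.comp, Prod.mk.injEq] at this
    exact this.1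
  · funext s
    have := congrFun hg s
    simp only [Function.comp, Prod.mk.injEq] at this
    exact this.2.1

/-- A word with letters below `N` comes from a `Fin N`-word. -/
theorem exists_fin_word {N : ℕ} {w : S → ℕ} (h : ∀ s, w s < N) : ∃ u : S → Fin N, valW u = w :=
  ⟨fun s => ⟨w s, h s⟩, rfl⟩

/-- The transform is nonzero on invariant functions that are nonzero on words below `N`. -/
theorem Phi_ne_zero_of_invariant {N : ℕ} {r : S → ℕ} {H : Fn2 S}
    (hH : ∀ g ∈ stab r, fn2Rep S g H = H) {w₁ w₂ : S → ℕ} (h1 : ∀ s, w₁ s < N) (h2 : ∀ s, w₂ s < N)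
    (hne : H w₁ w₂ ≠ 0) : Phi N r H ≠ 0 := by
  classical
  intro h0
  have hc := congrArg (MvPolynomial.coeff (expOf r w₁ w₂)) h0
  simp only [Phi, coeff_zero, coeff_sum, monoOf_eq_monomial, coeff_C_mul, coeff_monomial] at hc
  have hterm : ∀ u : (S → Fin N) × (S → Fin N),
      H (valW u.1) (valW u.2) * (if expOf r (valW u.1) (valW u.2) = expOf r w₁ w₂ then 1 else 0)
        = (if expOf r (valW u.1) (valW u.2) = expOf r w₁ w₂ then H w₁ w₂ else 0) := by
    intro u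
    split_ifs with hu
    · obtain ⟨g, hg, hg1, hg2⟩ := exists_stab_of_expOf hu.symm
      have := congrFun (congrFun (hH g hg) w₁) w₂
      rw [fn2Rep_apply, hg1, hg2] at this
      rw [this, mul_one]
    · simp
  rw [Finset.sum_congr rfl (fun u _ => hterm u), Finset.sum_ite, Finset.sum_const_zero, add_zero,
    Finset.sum_const, nsmul_eq_mul] at hc
  have hpos : 0 < (Finset.univ.filter fun u : (S → Fin N) × (S → Fin N) =>
      expOf r (valW u.1) (valW u.2) = expOf r w₁ w₂).card := by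
    obtain ⟨u₁, rfl⟩ := exists_fin_word h1
    obtain ⟨u₂, rfl⟩ := exists_fin_word h2
    exact Finset.card_pos.mpr ⟨(u₁, u₂), by simp⟩
  have hcast : ((Finset.univ.filter fun u : (S → Fin N) × (S → Fin N) =>
      expOf r (valW u.1) (valW u.2) = expOf r w₁ w₂).card : ℂ) ≠ 0 := by
    exact_mod_cast hpos.ne'
  exact (mul_ne_zero hcast hne) hc

/-- The symmetrized function is invariant. -/
theorem symE_invariant (r : S → ℕ) (G : Fn2 S) :
    ∀ g ∈ stab r, fn2Rep S g (gact (fn2Rep S) (symE r) G) = gact (fn2Rep S) (symE r) G :=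
  fun _ hg => gact_symE_fixed (fn2Rep S) r G hg

/-- Nonvanishing of a symmetrizer implies nonvanishing of the transform, for large alphabets. -/
theorem Phi_ne_zero_of_symE {r : S → ℕ} {G : Fn2 S} {w₁ w₂ : S → ℕ}
    (hne : gact (fn2Rep S) (symE r) G w₁ w₂ ≠ 0) {N : ℕ} (h1 : ∀ s, w₁ s < N) (h2 : ∀ s, w₂ s < N) :
    Phi N r G ≠ 0 := by
  intro h0
  have := Phi_ne_zero_of_invariant (symE_invariant r G) h1 h2 hne
  apply this
  rw [Phi_symE, h0, mul_zero]

/-- Conversely a nonzero transform implies the symmetrizer does not vanish. -/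
theorem symE_ne_zero_of_Phi {N : ℕ} {r : S → ℕ} {G : Fn2 S} (h : Phi N r G ≠ 0) :
    gact (fn2Rep S) (symE r) G ≠ 0 := by
  intro h0
  have h1 := Phi_symE N r G
  rw [h0] at h1
  have h2 : Phi N r (0 : Fn2 S) = 0 := by simp [Phi]
  rw [h2] at h1
  have hne : C ((stab r).card : ℂ) ≠ (0 : MvPolynomial (ℕ × ℕ × ℕ) ℂ) := by
    simpa using card_stab_ne_zero r
  exact (mul_ne_zero hne h) h1.symm

end Phi

section Box

variable {S₁ S₂ : Type*} [Fintype S₁] [DecidableEq S₁] [Fintype S₂] [DecidableEq S₂]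

/-- The product of functions on pairs of words on disjoint slots. -/
def box (F₁ : Fn2 S₁) (F₂ : Fn2 S₂) : Fn2 (S₁ ⊕ S₂) :=
  fun w₁ w₂ => F₁ (w₁ ∘ Sum.inl) (w₂ ∘ Sum.inl) * F₂ (w₁ ∘ Sum.inr) (w₂ ∘ Sum.inr)

theorem monoOf_sum (r₁ : S₁ → ℕ) (r₂ : S₂ → ℕ) (w₁ w₂ : S₁ ⊕ S₂ → ℕ) :
    monoOf (Sum.elim r₁ r₂) w₁ w₂ =
      monoOf r₁ (w₁ ∘ Sum.inl) (w₂ ∘ Sum.inl) * monoOf r₂ (w₁ ∘ Sum.inr) (w₂ ∘ Sum.inr) := by
  unfold monoOf
  rw [Fintype.prod_sum_type]
  rfl

/-- Multiplicativity of the transform. -/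
theorem Phi_box (N : ℕ) (r₁ : S₁ → ℕ) (r₂ : S₂ → ℕ) (G₁ : Fn2 S₁) (G₂ : Fn2 S₂) :
    Phi N (Sum.elim r₁ r₂) (box G₁ G₂) = Phi N r₁ G₁ * Phi N r₂ G₂ := by
  unfold Phi
  rw [Finset.sum_mul_sum, ← Finset.sum_product']
  let e1 := Equiv.sumArrowEquivProdArrow S₁ S₂ (Fin N)
  let e : (S₁ ⊕ S₂ → Fin N) × (S₁ ⊕ S₂ → Fin N) ≃
      ((S₁ → Fin N) × (S₁ → Fin N)) × ((S₂ → Fin N) × (S₂ → Fin N)) :=
    (e1.prodCongr e1).trans (Equiv.prodProdProdComm _ _ _ _)
  refine Fintype.sum_equiv e _ _ fun u => ?_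
  have h1 : (valW u.1) ∘ Sum.inl = valW (e u).1.1 := rfl
  have h2 : (valW u.2) ∘ Sum.inl = valW (e u).1.2 := rfl
  have h3 : (valW u.1) ∘ Sum.inr = valW (e u).2.1 := rfl
  have h4 : (valW u.2) ∘ Sum.inr = valW (e u).2.2 := rfl
  simp only [box, monoOf_sum, map_mul, h1, h2, h3, h4]
  ring

/-- The action of a product permutation on a box. -/
theorem fn2Rep_box (g₁ : Perm S₁) (g₂ : Perm S₂) (F₁ : Fn2 S₁) (F₂ : Fn2 S₂) :
    fn2Rep (S₁ ⊕ S₂) (Equiv.sumCongr g₁ g₂) (box F₁ F₂) = box (fn2Rep S₁ g₁ F₁) (fn2Rep S₂ g₂ F₂) := by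
  funext w₁ w₂
  simp only [fn2Rep_apply, box]
  rfl

/-- The sign of a product permutation. -/
theorem sgn_sumCongr (g₁ : Perm S₁) (g₂ : Perm S₂) :
    sgn (Equiv.sumCongr g₁ g₂) = sgn g₁ * sgn g₂ := by
  simp [sgn, Equiv.Perm.sign_sumCongr]

/-- Colourings with the column structure of a concatenation: the Young subgroup is a product. -/
structure IsConcatCol (c : S₁ ⊕ S₂ → ℕ) (c₁ : S₁ → ℕ) (c₂ : S₂ → ℕ) : Prop where
  ll : ∀ x y, c (Sum.inl x) = c (Sum.inl y) ↔ c₁ x = c₁ y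
  rr : ∀ x y, c (Sum.inr x) = c (Sum.inr y) ↔ c₂ x = c₂ y
  lr : ∀ x y, c (Sum.inl x) ≠ c (Sum.inr y)

/-- An element of the Young subgroup of a concatenation is a product. -/
theorem exists_sumCongr_of_mem_stab {c : S₁ ⊕ S₂ → ℕ} {c₁ : S₁ → ℕ} {c₂ : S₂ → ℕ}
    (hc : IsConcatCol c c₁ c₂) {g : Perm (S₁ ⊕ S₂)} (hg : g ∈ stab c) :
    ∃ g₁ ∈ stab c₁, ∃ g₂ ∈ stab c₂, g = Equiv.sumCongr g₁ g₂ := by
  rw [mem_stab] at hg
  have hl : ∀ x, ∃ y, g (Sum.inl x) = Sum.inl y := by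
    intro x
    cases h : g (Sum.inl x) with
    | inl y => exact ⟨y, rfl⟩
    | inr y =>
      exfalso
      have := hg (Sum.inl x)
      rw [h] at this
      exact hc.lr x y this.symm
  have hr : ∀ x, ∃ y, g (Sum.inr x) = Sum.inr y := by
    intro x
    cases h : g (Sum.inr x) with
    | inr y => exact ⟨y, rfl⟩
    | inl y =>
      exfalso
      have := hg (Sum.inr x)
      rw [h] at this
      exact hc.lr y x this
  have hl' : ∀ x, ∃ y, g⁻¹ (Sum.inl x) = Sum.inl y := by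
    intro x
    cases h : g⁻¹ (Sum.inl x) with
    | inl y => exact ⟨y, rfl⟩
    | inr y =>
      exfalso
      obtain ⟨z, hz⟩ := hr y
      have h2 : g (Sum.inr y) = Sum.inl x := by
        rw [← h]; simp
      rw [hz] at h2
      cases h2
  have hr' : ∀ x, ∃ y, g⁻¹ (Sum.inr x) = Sum.inr y := by
    intro x
    cases h : g⁻¹ (Sum.inr x) with
    | inr y => exact ⟨y, rfl⟩
    | inl y =>
      exfalso
      obtain ⟨z, hz⟩ := hl y
      have h2 : g (Sum.inl y) = Sum.inr x := by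
        rw [← h]; simp
      rw [hz] at h2
      cases h2
  choose f₁ hf₁ using hl
  choose f₂ hf₂ using hr
  choose f₁' hf₁' using hl'
  choose f₂' hf₂' using hr'
  let g₁ : Perm S₁ :=
    { toFun := f₁, invFun := f₁'
      left_inv := fun x => by
        have h : g⁻¹ (g (Sum.inl x)) = Sum.inl x := by simp
        rw [hf₁, hf₁'] at h
        exact Sum.inl.inj h
      right_inv := fun x => by
        have h : g (g⁻¹ (Sum.inl x)) = Sum.inl x := by simp
        rw [hf₁', hf₁] at h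
        exact Sum.inl.inj h }
  let g₂ : Perm S₂ :=
    { toFun := f₂, invFun := f₂'
      left_inv := fun x => by
        have h : g⁻¹ (g (Sum.inr x)) = Sum.inr x := by simp
        rw [hf₂, hf₂'] at h
        exact Sum.inr.inj h
      right_inv := fun x => by
        have h : g (g⁻¹ (Sum.inr x)) = Sum.inr x := by simp
        rw [hf₂', hf₂] at h
        exact Sum.inr.inj h }
  refine ⟨g₁, ?_, g₂, ?_, ?_⟩
  · rw [mem_stab]
    intro x
    have := hg (Sum.inl x)
    rw [hf₁] at this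
    exact (hc.ll _ _).mp this
  · rw [mem_stab]
    intro x
    have := hg (Sum.inr x)
    rw [hf₂] at this
    exact (hc.rr _ _).mp this
  · ext x
    cases x with
    | inl x => simp [g₁, hf₁]
    | inr x => simp [g₂, hf₂]

/-- The antisymmetrizer of a concatenation is the product of the antisymmetrizers. -/
theorem symB_box {c : S₁ ⊕ S₂ → ℕ} {c₁ : S₁ → ℕ} {c₂ : S₂ → ℕ} (hc : IsConcatCol c c₁ c₂)
    (F₁ : Fn2 S₁) (F₂ : Fn2 S₂) :
    gact (fn2Rep (S₁ ⊕ S₂)) (symB c) (box F₁ F₂) =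
      box (gact (fn2Rep S₁) (symB c₁) F₁) (gact (fn2Rep S₂) (symB c₂) F₂) := by
  rw [gact_symB, gact_symB, gact_symB]
  have hmem : ∀ p ∈ stab c₁ ×ˢ stab c₂, Equiv.sumCongr p.1 p.2 ∈ stab c := by
    intro p hp
    rw [Finset.mem_product] at hp
    rw [mem_stab]
    have h1 := mem_stab.mp hp.1
    have h2 := mem_stab.mp hp.2
    intro x
    cases x with
    | inl x =>
      simp only [Equiv.sumCongr_apply, Sum.map_inl]
      exact (hc.ll _ _).mpr (h1 x)
    | inr x =>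
      simp only [Equiv.sumCongr_apply, Sum.map_inr]
      exact (hc.rr _ _).mpr (h2 x)
  have hsum : ∑ g ∈ stab c, sgn g • fn2Rep (S₁ ⊕ S₂) g (box F₁ F₂) =
      ∑ p ∈ stab c₁ ×ˢ stab c₂, sgn (Equiv.sumCongr p.1 p.2) •
        fn2Rep (S₁ ⊕ S₂) (Equiv.sumCongr p.1 p.2) (box F₁ F₂) := by
    symm
    refine Finset.sum_bij (fun p _ => Equiv.sumCongr p.1 p.2) hmem ?_ ?_ (fun _ _ => rfl)
    · intro p _ q _ h
      have h1 : p.1 = q.1 := by
        ext x
        have := congrArg (fun g : Perm (S₁ ⊕ S₂) => g (Sum.inl x)) h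
        simpa using this
      have h2 : p.2 = q.2 := by
        ext x
        have := congrArg (fun g : Perm (S₁ ⊕ S₂) => g (Sum.inr x)) h
        simpa using this
      exact Prod.ext h1 h2
    · intro g hg
      obtain ⟨g₁, h1, g₂, h2, rfl⟩ := exists_sumCongr_of_mem_stab hc hg
      exact ⟨(g₁, g₂), Finset.mem_product.mpr ⟨h1, h2⟩, rfl⟩
  rw [hsum]
  funext w₁ w₂
  simp only [Finset.sum_apply, Pi.smul_apply, smul_eq_mul, box, fn2Rep_box]
  rw [Finset.sum_product, Finset.sum_mul_sum]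
  refine Finset.sum_congr rfl fun g₁ _ => Finset.sum_congr rfl fun g₂ _ => ?_
  rw [sgn_sumCongr]
  dsimp only
  ring

/-- **The semigroup step**: if the Young symmetrizers of `(r₁,c₁)` and `(r₂,c₂)` do not vanish on
`F₁`, `F₂`, then the Young symmetrizer of the concatenation does not vanish on `box F₁ F₂`. -/
theorem symmetrizer_box_ne_zero {r₁ c₁ : S₁ → ℕ} {r₂ c₂ : S₂ → ℕ} {c : S₁ ⊕ S₂ → ℕ}
    (hc : IsConcatCol c c₁ c₂) {F₁ : Fn2 S₁} {F₂ : Fn2 S₂}
    (h₁ : gact (fn2Rep S₁) (symE r₁) (gact (fn2Rep S₁) (symB c₁) F₁) ≠ 0)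
    (h₂ : gact (fn2Rep S₂) (symE r₂) (gact (fn2Rep S₂) (symB c₂) F₂) ≠ 0) :
    gact (fn2Rep (S₁ ⊕ S₂)) (symE (Sum.elim r₁ r₂)) (gact (fn2Rep (S₁ ⊕ S₂)) (symB c) (box F₁ F₂)) ≠ 0 := by
  rw [symB_box hc]
  obtain ⟨a₁, ha₁⟩ := Function.ne_iff.mp h₁
  obtain ⟨a₂, ha₂⟩ := Function.ne_iff.mp ha₁
  obtain ⟨b₁, hb₁⟩ := Function.ne_iff.mp h₂
  obtain ⟨b₂, hb₂⟩ := Function.ne_iff.mp hb₁
  -- a common alphabet
  obtain ⟨N, hN⟩ : ∃ N : ℕ, (∀ s, a₁ s < N) ∧ (∀ s, a₂ s < N) ∧ (∀ s, b₁ s < N) ∧ (∀ s, b₂ s < N) := by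
    refine ⟨(Finset.univ.sup a₁ + Finset.univ.sup a₂ + Finset.univ.sup b₁ + Finset.univ.sup b₂) + 1,
      ?_, ?_, ?_, ?_⟩ <;> intro s
    · have := Finset.le_sup (f := a₁) (Finset.mem_univ s); omega
    · have := Finset.le_sup (f := a₂) (Finset.mem_univ s); omega
    · have := Finset.le_sup (f := b₁) (Finset.mem_univ s); omega
    · have := Finset.le_sup (f := b₂) (Finset.mem_univ s); omega
  have p1 := Phi_ne_zero_of_symE ha₂ hN.1 hN.2.1
  have p2 := Phi_ne_zero_of_symE hb₂ hN.2.2.1 hN.2.2.2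
  apply symE_ne_zero_of_Phi (N := N)
  rw [Phi_box]
  exact mul_ne_zero p1 p2

end Box

end Crest.Agent.Saxl
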