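import Crest.Agent.Lib.Saxl.FourRowsSemi
import Crest.Agent.Lib.Saxl.Semigroup

/-!
# Kronecker positivity for triples of shapes, at the level of polynomials

A shape is given by the multiset of its column heights (`FourRowsSemi.heights`).  `Real3 M A B` says
that there are tabular fillings with these column heights whose triple alternating polynomial `Psi`
does not vanish.  It is stable under addition of shapes (`Real3.add`), symmetric in the three shapes
(`Real3.swap12`, `Real3.swap13`), it implies `Occurs` (`occurs_of_real3`) and is implied by it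
(`real3_of_occurs`).  Base cases come from integer evaluations (`Real3.of_tripleSum`).
-/

set_option autoImplicit false

open Finset Equiv MvPolynomial

namespace Crest.Agent.Saxl.Kron

open Crest.Agent.Saxl.FourRowsSemi

section Psi

variable {S : Type*} [Fintype S] [DecidableEq S]

/-- The triple alternating polynomial. -/
noncomputable def Psi (r c r1 c1 r2 c2 : S → ℕ) : MvPolynomial (ℕ × ℕ × ℕ) ℂ :=
  ∑ h ∈ stab c, ∑ σ1 ∈ stab c1, ∑ σ2 ∈ stab c2,
    C (sgn h * (sgn σ1 * sgn σ2)) * ∏ s, X (r1 (σ1 s), r2 (σ2 s), r (h s))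

lemma Phi_eq_Psi {N : ℕ} (r c r1 c1 r2 c2 : S → ℕ) (h1 : ∀ s, r1 s < N) (h2 : ∀ s, r2 s < N) :
    FourRowsSemi.Phi N r (colAlt c (pp r1 c1 r2 c2)) = Psi r c r1 c1 r2 c2 :=
  Phi_colAlt_pp r c r1 c1 r2 c2 h1 h2

omit [DecidableEq S] in
lemma exists_bound (f g : S → ℕ) : ∃ N, (∀ s, f s < N) ∧ ∀ s, g s < N := by
  refine ⟨(univ.sup f) + (univ.sup g) + 1, fun s => ?_, fun s => ?_⟩
  · have := Finset.le_sup (f := f) (mem_univ s)
    omega
  · have := Finset.le_sup (f := g) (mem_univ s)
    omega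

/-- Renaming the variables of `Psi`. -/
lemma Psi_swap12 (r c r1 c1 r2 c2 : S → ℕ) :
    Psi r c r2 c2 r1 c1 = rename (fun v : ℕ × ℕ × ℕ => (v.2.1, v.1, v.2.2)) (Psi r c r1 c1 r2 c2) := by
  simp only [Psi, map_sum, map_mul, map_prod, rename_C, rename_X]
  refine sum_congr rfl fun h _ => ?_
  rw [sum_comm]
  refine sum_congr rfl fun σ2 _ => sum_congr rfl fun σ1 _ => ?_
  ring

lemma Psi_swap13 (r c r1 c1 r2 c2 : S → ℕ) :
    Psi r1 c1 r c r2 c2 = rename (fun v : ℕ × ℕ × ℕ => (v.2.2, v.2.1, v.1)) (Psi r c r1 c1 r2 c2) := by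
  simp only [Psi, map_sum, map_mul, map_prod, rename_C, rename_X]
  rw [sum_comm]
  refine sum_congr rfl fun h _ => sum_congr rfl fun σ1 _ => sum_congr rfl fun σ2 _ => ?_
  ring

end Psi

/-- Kronecker positivity of three shapes, given by the multisets of their column heights. -/
def Real3 (M A B : Multiset ℕ) : Prop :=
  ∃ (S : Type) (_ : Fintype S) (_ : DecidableEq S) (r c r1 c1 r2 c2 : S → ℕ),
    IsTabular r c ∧ IsTabular r1 c1 ∧ IsTabular r2 c2 ∧
    heights c = M ∧ heights c1 = A ∧ heights c2 = B ∧ Psi r c r1 c1 r2 c2 ≠ 0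

/-- The semigroup property. -/
theorem Real3.add {M A B M' A' B' : Multiset ℕ} (h : Real3 M A B) (h' : Real3 M' A' B') :
    Real3 (M + M') (A + A') (B + B') := by
  obtain ⟨S, _, _, r, c, r1, c1, r2, c2, t0, t1, t2, hM, a1, a2, hP⟩ := h
  obtain ⟨S', _, _, r', c', r1', c1', r2', c2', t0', t1', t2', hM', a1', a2', hP'⟩ := h'
  obtain ⟨N, hN1, hN2⟩ := exists_bound (Sum.elim r1 r1') (Sum.elim r2 r2')
  refine ⟨S ⊕ S', inferInstance, inferInstance, Sum.elim r r', Sum.elim (dbl c) (dbl1 c'),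
    Sum.elim r1 r1', Sum.elim (dbl c1) (dbl1 c1'), Sum.elim r2 r2', Sum.elim (dbl c2) (dbl1 c2'),
    t0.glue t0', t1.glue t1', t2.glue t2', ?_, ?_, ?_, ?_⟩
  · rw [heights_dbl_add, hM, hM']
  · rw [heights_dbl_add, a1, a1']
  · rw [heights_dbl_add, a2, a2']
  · rw [← Phi_eq_Psi (N := N) _ _ _ _ _ _ hN1 hN2]
    apply Phi_semigroup
    · rw [Phi_eq_Psi r c r1 c1 r2 c2 (fun s => hN1 (Sum.inl s)) (fun s => hN2 (Sum.inl s))]
      exact hP
    · rw [Phi_eq_Psi r' c' r1' c1' r2' c2' (fun s => hN1 (Sum.inr s)) (fun s => hN2 (Sum.inr s))]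
      exact hP'

theorem Real3.swap12 {M A B : Multiset ℕ} (h : Real3 M A B) : Real3 M B A := by
  obtain ⟨S, _, _, r, c, r1, c1, r2, c2, t0, t1, t2, hM, a1, a2, hP⟩ := h
  refine ⟨S, inferInstance, inferInstance, r, c, r2, c2, r1, c1, t0, t2, t1, hM, a2, a1, ?_⟩
  rw [Psi_swap12]
  intro h0
  apply hP
  refine rename_injective _ (fun a b hab => ?_) (h0.trans (map_zero _).symm)
  obtain ⟨a1, a2, a3⟩ := a
  obtain ⟨b1, b2, b3⟩ := b
  simp only [Prod.mk.injEq] at hab ⊢
  omega

theorem Real3.swap13 {M A B : Multiset ℕ} (h : Real3 M A B) : Real3 A M B := by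
  obtain ⟨S, _, _, r, c, r1, c1, r2, c2, t0, t1, t2, hM, a1, a2, hP⟩ := h
  refine ⟨S, inferInstance, inferInstance, r1, c1, r, c, r2, c2, t1, t0, t2, a1, hM, a2, ?_⟩
  rw [Psi_swap13]
  intro h0
  apply hP
  refine rename_injective _ (fun a b hab => ?_) (h0.trans (map_zero _).symm)
  obtain ⟨a1, a2, a3⟩ := a
  obtain ⟨b1, b2, b3⟩ := b
  simp only [Prod.mk.injEq] at hab ⊢
  omega

/-- A base case, by an integer evaluation. -/
theorem Real3.of_tripleSum {k : ℕ} (f : ℕ → ℕ → ℕ → ℤ) (r c r1 c1 r2 c2 : Fin k → ℕ)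
    (t0 : IsTabular r c) (t1 : IsTabular r1 c1) (t2 : IsTabular r2 c2)
    (h : tripleSum f r c r1 c1 r2 c2 ≠ 0) : Real3 (heights c) (heights c1) (heights c2) := by
  refine ⟨Fin k, inferInstance, inferInstance, r, c, r1, c1, r2, c2, t0, t1, t2, rfl, rfl, rfl, ?_⟩
  obtain ⟨N, hN1, hN2⟩ := exists_bound r1 r2
  rw [← Phi_eq_Psi (N := N) _ _ _ _ _ _ hN1 hN2]
  exact Phi_ne_zero_of_tripleSum f r c r1 c1 r2 c2 hN1 hN2 h

section Young

/-- The column heights of a Young diagram. -/
noncomputable def hts (D : YoungDiagram) : Multiset ℕ := heights (fun p : ↥D.cells => p.1.2)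

lemma tab_cells (D : YoungDiagram) :
    IsTabular (fun p : ↥D.cells => p.1.1) (fun p : ↥D.cells => p.1.2) := by
  refine ⟨fun s t h1 h2 => Subtype.ext (Prod.ext h1 h2), fun s i hi => ?_⟩
  have hmem : (i, s.1.2) ∈ D.cells := D.up_left_mem hi.le le_rfl s.2
  exact ⟨⟨_, hmem⟩, rfl, rfl⟩

variable {S : Type*} [Fintype S] [DecidableEq S]

lemma heights_comp_equiv {S' : Type*} [Fintype S'] [DecidableEq S'] (e : S ≃ S') (c0 : S' → ℕ) :
    heights (c0 ∘ e) = heights c0 := by
  simp only [heights]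
  have himg : univ.image (c0 ∘ e) = univ.image c0 := by
    ext j
    simp only [mem_image, mem_univ, true_and, Function.comp]
    constructor
    · rintro ⟨s, rfl⟩; exact ⟨e s, rfl⟩
    · rintro ⟨s, rfl⟩; exact ⟨e.symm s, by simp⟩
  rw [himg]
  exact Multiset.map_congr rfl fun j _ => ht_comp_equiv e c0 j

lemma heights_colC {a : YoungDiagram} (T : Tab a S) : heights (colC T) = hts a := by
  have : colC T = (fun p : ↥a.cells => p.1.2) ∘ T.symm := rfl
  rw [this, heights_comp_equiv]
  rfl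

lemma heights_colOf {D : YoungDiagram} (t : ↥D.cells ≃ S) : heights (colOf t) = hts D := by
  have : colOf t = (fun p : ↥D.cells => p.1.2) ∘ t.symm := rfl
  rw [this, heights_comp_equiv]
  rfl

/-- A tabular filling of the column heights of `D` comes from a tableau of shape `D`. -/
lemma exists_tableau {D : YoungDiagram} {r c : S → ℕ} (h : IsTabular r c) (hh : heights c = hts D) :
    ∃ t : ↥D.cells ≃ S, poly t = polyRC r c := by
  obtain ⟨e, he1, he2⟩ := exists_iso h (tab_cells D) hh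
  refine ⟨e.symm, poly_eq_polyRC e.symm ?_ ?_⟩
  · funext s
    simpa [rowOf] using he1 s
  · intro s s'
    simpa [colOf] using he2 s s'

/-- From polynomials to `Occurs`. -/
theorem occurs_of_real3 {a D E : YoungDiagram} (T : Tab a S)
    (h : Real3 (hts a) (hts D) (hts E)) {V : Type*} [AddCommGroup V] [Module ℂ V]
    [FiniteDimensional ℂ V] {ρ : Representation ℂ (Perm S) V} (hρ : ρ.IsIrreducible)
    (hlab : Label ρ a) : Occurs ρ D.cells E.cells := by
  obtain ⟨S', _, _, r, c, r1, c1, r2, c2, t0, t1, t2, hM, a1, a2, hP⟩ := h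
  obtain ⟨e, he1, he2⟩ := exists_iso (isTabular_tab T) t0 ((heights_colC T).trans hM.symm)
  obtain ⟨t, ht⟩ := exists_tableau (t1.comp_equiv e) ((heights_comp_equiv e c1).trans a1)
  obtain ⟨u, hu⟩ := exists_tableau (t2.comp_equiv e) ((heights_comp_equiv e c2).trans a2)
  obtain ⟨N, hN1, hN2⟩ := exists_bound r1 r2
  have hprod : prod2 t u = pp (r1 ∘ e) (c1 ∘ e) (r2 ∘ e) (c2 ∘ e) := by
    funext w1 w2
    simp only [prod2, pp, ht, hu]
  have hne : rowSym (rowC T) (colAlt (colC T) (pp (r1 ∘ e) (c1 ∘ e) (r2 ∘ e) (c2 ∘ e))) ≠ 0 := by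
    apply rowSym_ne_zero (N := N)
    rw [Phi_transport N e he1 he2, Phi_eq_Psi _ _ _ _ _ _ hN1 hN2]
    exact hP
  refine occurs_of_symmetrizer T (Submodule.subset_span ⟨(t, u), rfl⟩) ?_ hρ hlab
  simp only
  rw [hprod, gact_symB, gact_symE]
  exact hne

/-- The two versions of the polarisation polynomial agree. -/
lemma phi_eq_phi (N : ℕ) (r : S → ℕ) (G : Fn2 S) :
    FourRowsSemi.Phi N r G = Crest.Agent.Saxl.Phi N r G := by
  simp only [FourRowsSemi.Phi, Crest.Agent.Saxl.Phi, Fintype.sum_prod_type]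
  rfl

/-- The Young symmetrizer acts nontrivially on an irreducible representation with that label. -/
theorem exists_symmetrizer_ne_zero {a : YoungDiagram} (T : Tab a S) {V : Type*} [AddCommGroup V]
    [Module ℂ V] [FiniteDimensional ℂ V] {ρ : Representation ℂ (Perm S) V} (hρ : ρ.IsIrreducible)
    (hlab : Label ρ a) :
    ∃ v, gact ρ (symE (rowC T)) (gact ρ (symB (colC T)) v) ≠ 0 := by
  set r := rowC T with hr
  set q := colC T with hq
  set c := conv (symE r) (symB q) with hc
  have hc1 : c 1 ≠ 0 := by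
    have : c 1 = 1 := by
      rw [hc, conv, Finset.sum_eq_single 1]
      · simp [symE, symB]
      · intro h _ hne
        by_cases h1 : h ∈ stab r
        · by_cases h2 : h⁻¹ * 1 ∈ stab q
          · exfalso
            apply hne
            rw [mul_one] at h2
            have h3 := inv_mem_stab h2
            rw [inv_inv] at h3
            ext s
            have := rowC_colC_injective T (a₁ := h s) (a₂ := s)
              (Prod.ext (mem_stab.mp h1 s) (mem_stab.mp h3 s))
            rw [this]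
            rfl
          · simp only [symB, if_neg h2, mul_zero]
        · simp only [symE, if_neg h1, zero_mul]
      · simp
    rw [this]
    exact one_ne_zero
  have hv : ∃ v, gact (regRep (Perm S)) c v ≠ 0 := by
    refine ⟨Pi.single 1 1, ?_⟩
    rw [gact_reg_single]
    intro h
    exact hc1 (congrFun h 1)
  obtain ⟨p, hp, v, hvp, hv⟩ := exists_irreducible_gact_ne_zero _ c hv
  have hv' := hv
  rw [hc, gact_conv] at hv'
  have hlabp : Label p.toRepresentation a := by
    refine ⟨T, ⟨⟨_, gact_mem p (symE r) (gact_mem p (symB q) hvp)⟩, ?_, ?_⟩,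
      ⟨⟨_, gact_mem p (symB q) hvp⟩, ?_, ?_⟩⟩
    · intro h
      exact hv' (congrArg Subtype.val h)
    · intro g hg
      exact Subtype.ext (gact_symE_fixed (regRep (Perm S)) r _ hg)
    · intro h
      apply hv'
      have h0 : gact (regRep (Perm S)) (symB q) v = 0 := congrArg Subtype.val h
      rw [h0, map_zero]
    · intro g hg
      exact Subtype.ext (gact_symB_alt (regRep (Perm S)) q v hg)
  obtain ⟨φ⟩ := equiv_of_label hρ hp hlab hlabp
  obtain ⟨x, hx⟩ := EquivLike.surjective φ ⟨v, hvp⟩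
  refine ⟨x, fun h0 => hv ?_⟩
  rw [← gact_conv, ← hc] at h0
  have h1 : φ.toIntertwiningMap (gact ρ c x) = 0 := by
    rw [h0, map_zero]
  have h2 : φ.toIntertwiningMap (gact ρ c x) = gact p.toRepresentation c ⟨v, hvp⟩ := by
    simp only [gact_apply, map_sum, map_smul]
    refine Finset.sum_congr rfl fun g _ => ?_
    rw [Representation.IntertwiningMap.isIntertwining ρ p.toRepresentation φ.toIntertwiningMap g x]
    congr 2
  have h3 : (gact p.toRepresentation c ⟨v, hvp⟩ : p.toSubmodule).1 = gact (regRep (Perm S)) c v := by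
    simp only [gact_apply]
    simp only [Submodule.coe_sum, Submodule.coe_smul]
    rfl
  rw [← h3, ← h2, h1]
  rfl

omit [Fintype S] [DecidableEq S] in
/-- A nonzero equivariant map out of an irreducible representation is injective. -/
lemma injective_of_irreducible {V W : Type*} [AddCommGroup V] [Module ℂ V] [AddCommGroup W]
    [Module ℂ W] {ρ : Representation ℂ (Perm S) V} {σ : Representation ℂ (Perm S) W}
    (hρ : ρ.IsIrreducible) (φ : V →ₗ[ℂ] W) (h0 : φ ≠ 0) (he : ∀ g v, φ (ρ g v) = σ g (φ v)) :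
    Function.Injective φ := by
  let k : Subrepresentation ρ :=
    { toSubmodule := LinearMap.ker φ
      apply_mem_toSubmodule := fun g v hv => by
        rw [LinearMap.mem_ker] at hv ⊢
        rw [he, hv, map_zero] }
  have hk : k = ⊥ ∨ k = ⊤ := hρ.eq_bot_or_eq_top k
  rcases hk with hk | hk
  · rw [← LinearMap.ker_eq_bot]
    have : k.toSubmodule = ⊥ := by rw [hk]; rfl
    exact this
  · exfalso
    apply h0
    have : k.toSubmodule = ⊤ := by rw [hk]; rfl
    exact LinearMap.ker_eq_top.mp this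

lemma gact_map {V W : Type*} [AddCommGroup V] [Module ℂ V] [AddCommGroup W]
    [Module ℂ W] {ρ : Representation ℂ (Perm S) V} {σ : Representation ℂ (Perm S) W}
    (φ : V →ₗ[ℂ] W) (he : ∀ g v, φ (ρ g v) = σ g (φ v)) (a : Perm S → ℂ) (v : V) :
    φ (gact ρ a v) = gact σ a (φ v) := by
  simp only [gact_apply, map_sum, map_smul, he]

/-- The letters of a word on which the row symmetrizer of a product of polytabloids
does not vanish are letters of the polytabloids. -/
lemma letters_of_ne_zero {r c r1 c1 r2 c2 : S → ℕ} {w1 w2 : S → ℕ}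
    (h : rowSym r (colAlt c (pp r1 c1 r2 c2)) w1 w2 ≠ 0) {N : ℕ} (h1 : ∀ s, r1 s < N)
    (h2 : ∀ s, r2 s < N) : (∀ s, w1 s < N) ∧ ∀ s, w2 s < N := by
  simp only [rowSym, colAlt, act_apply, Finset.sum_apply, Pi.smul_apply, smul_eq_mul] at h
  obtain ⟨g, -, hg⟩ := Finset.exists_ne_zero_of_sum_ne_zero h
  obtain ⟨k, -, hk⟩ := Finset.exists_ne_zero_of_sum_ne_zero hg
  have hk' := right_ne_zero_of_mul hk
  simp only [pp] at hk'
  have h3 := left_ne_zero_of_mul hk'
  have h4 := right_ne_zero_of_mul hk'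
  have key : ∀ {r0 c0 : S → ℕ} {w : S → ℕ}, (∀ s, r0 s < N) → polyRC r0 c0 (w ∘ g ∘ k) ≠ 0 →
      ∀ s, w s < N := by
    intro r0 c0 w hr0 hp s
    simp only [polyRC] at hp
    obtain ⟨σ, -, hσ⟩ := Finset.exists_ne_zero_of_sum_ne_zero hp
    have h5 := right_ne_zero_of_mul hσ
    have h6 : w ∘ g ∘ k = r0 ∘ σ := by
      by_contra h7
      exact h5 (if_neg h7)
    have h8 := congrFun h6 ((g * k)⁻¹ s)
    simp only [Function.comp] at h8
    have h9 : g (k ((g * k)⁻¹ s)) = s := by
      simp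
    rw [h9] at h8
    rw [h8]
    exact hr0 _
  exact ⟨key h1 (by simpa [Function.comp_assoc] using h3),
    key h2 (by simpa [Function.comp_assoc] using h4)⟩

lemma isTabular_of_tab {D : YoungDiagram} (t : ↥D.cells ≃ S) : IsTabular (rowOf t) (colOf t) :=
  (tab_cells D).comp_equiv t.symm

/-- From `Occurs` to polynomials. -/
theorem real3_of_occurs {S : Type} [Fintype S] [DecidableEq S] {a D E : YoungDiagram} (T : Tab a S)
    {V : Type*} [AddCommGroup V] [Module ℂ V] [FiniteDimensional ℂ V]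
    {ρ : Representation ℂ (Perm S) V} (hρ : ρ.IsIrreducible) (hlab : Label ρ a)
    (h : Occurs ρ D.cells E.cells) : Real3 (hts a) (hts D) (hts E) := by
  obtain ⟨φ, hφ0, hφe, hφX⟩ := h
  obtain ⟨v, hv⟩ := exists_symmetrizer_ne_zero T hρ hlab
  have hinj := injective_of_irreducible (σ := fn2Rep S) hρ φ hφ0 hφe
  let Z : Fn2 S →ₗ[ℂ] Fn2 S := gact (fn2Rep S) (symE (rowC T)) ∘ₗ gact (fn2Rep S) (symB (colC T))
  have hZ : Z (φ v) ≠ 0 := by
    have : Z (φ v) = φ (gact ρ (symE (rowC T)) (gact ρ (symB (colC T)) v)) := by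
      simp only [Z, LinearMap.comp_apply]
      rw [gact_map φ hφe, gact_map φ hφe]
    rw [this]
    intro h0
    exact hv (hinj (h0.trans (map_zero φ).symm))
  have hex : ∃ p : (↥D.cells ≃ S) × (↥E.cells ≃ S), Z (prod2 p.1 p.2) ≠ 0 := by
    by_contra hno
    push Not at hno
    have hle : XX S D.cells E.cells ≤ LinearMap.ker Z := by
      refine Submodule.span_le.mpr ?_
      rintro _ ⟨p, rfl⟩
      exact hno p
    exact hZ (hle (hφX v))
  obtain ⟨⟨t, u⟩, hne⟩ := hex
  have ht : poly t = polyRC (rowOf t) (colOf t) := poly_eq_polyRC t rfl fun _ _ => Iff.rfl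
  have hu : poly u = polyRC (rowOf u) (colOf u) := poly_eq_polyRC u rfl fun _ _ => Iff.rfl
  have hprod : prod2 t u = pp (rowOf t) (colOf t) (rowOf u) (colOf u) := by
    funext w1 w2
    simp only [prod2, pp, ht, hu]
  simp only [Z, LinearMap.comp_apply] at hne
  rw [hprod, gact_symB, gact_symE] at hne
  have hne' : rowSym (rowC T) (colAlt (colC T) (pp (rowOf t) (colOf t) (rowOf u) (colOf u))) ≠ 0 :=
    hne
  obtain ⟨w1, hw1⟩ := Function.ne_iff.mp hne'
  obtain ⟨w2, hw2⟩ := Function.ne_iff.mp hw1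
  obtain ⟨N, hN1, hN2⟩ := exists_bound (rowOf t) (rowOf u)
  obtain ⟨hl1, hl2⟩ := letters_of_ne_zero hw2 hN1 hN2
  refine ⟨S, inferInstance, inferInstance, rowC T, colC T, rowOf t, colOf t, rowOf u, colOf u,
    isTabular_tab T, isTabular_of_tab t, isTabular_of_tab u, heights_colC T, heights_colOf t,
    heights_colOf u, ?_⟩
  rw [← Phi_eq_Psi (N := N) _ _ _ _ _ _ hN1 hN2, phi_eq_phi]
  refine Phi_ne_zero_of_symE (w₁ := w1) (w₂ := w2) ?_ hl1 hl2
  rw [gact_symE]
  exact hw2

end Young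

end Crest.Agent.Saxl.Kron
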