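import Crest.Agent.Lib.Saxl.KronCert

/-!
# Certificates by chunks

The check of a certificate can be cut according to the first column height; each piece is then a
separate kernel computation, which keeps the memory of the kernel small.
-/

set_option autoImplicit false

namespace Crest.Agent.Saxl.Kron

/-- The partitions of `n` with first part `h`. -/
def headChunk (n h : ℕ) : List (List ℕ) := (parts (n - 1) (n - h) h).map fun l => h :: l

theorem mem_headChunk_of_mem_allParts {n : ℕ} (hn : 0 < n) {l : List ℕ} (hl : l ∈ allParts n) :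
    ∃ k, k < n ∧ l ∈ headChunk n (k + 1) := by
  obtain ⟨f, rfl⟩ : ∃ f, n = f + 1 := ⟨n - 1, by omega⟩
  unfold allParts at hl
  rw [parts] at hl
  simp only [Nat.add_eq_zero_iff, Nat.succ_ne_zero, and_false, if_false, min_self] at hl
  obtain ⟨k, hk, hl⟩ := List.mem_flatMap.1 hl
  refine ⟨k, List.mem_range.1 hk, ?_⟩
  simpa [headChunk] using hl

/-- Universality from chunks. -/
theorem uni_ofChunks {lam : List ℕ} {n : ℕ} (hn : 0 < n) (hsum : lam.sum = n) (hs : sd lam = true)
    (hd : leq (dualL lam) lam = true)
    (H : ∀ k, k < n → ∀ l ∈ headChunk n (k + 1), G (l, lam, lam)) :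
    ∃ (h1 : lam.SortedGE), Uni (YoungDiagram.ofRowLens lam h1) := by
  obtain ⟨h1, h2⟩ := sd_sorted hs
  refine ⟨h1, ?_⟩
  intro S _ _ hS V _ _ _ ρ hρ
  obtain ⟨a, ha, hlab⟩ := exists_label hρ
  obtain ⟨T⟩ := exists_tab a ha
  refine occurs_of_real3 T ?_ hρ hlab
  rw [hts_ofRowLens h1 h2, eq_of_leq hd]
  -- the sorted list of the column heights of `a`
  have hcard : (YoungDiagram.ofRowLens lam h1).card = n := by
    rw [card_ofRowLens h1 h2, hsum]
  have hp : ∀ x ∈ hts a, 0 < x := hts_pos a
  have hsM : (hts a).sum = n := by rw [sum_hts, ha, hS, hcard]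
  let l := (hts a).sort (· ≥ ·)
  have hl : (l : Multiset ℕ) = hts a := Multiset.sort_eq _ _
  have hsorted : l.SortedGE := (Multiset.pairwise_sort _ _).sortedGE
  have hpos : ∀ x ∈ l, 0 < x := fun x hx => hp x (by rw [← hl]; exact Multiset.mem_coe.mpr hx)
  have hsum' : l.sum = n := by
    rw [← hsM, ← hl, Multiset.sum_coe]
  have hlen : l.length ≤ n := by
    rw [← hsum']
    clear_value l
    clear hl hsorted hsum'
    induction l with
    | nil => simp
    | cons x l ih =>
      have hx := hpos x List.mem_cons_self
      have := ih (fun y hy => hpos y (List.mem_cons_of_mem _ hy))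
      simp only [List.length_cons, List.sum_cons]
      omega
  have hle : ∀ x ∈ l, x ≤ n := fun x hx => by
    rw [← hsum']
    exact List.single_le_sum (by simp) x hx
  have hmem : l ∈ allParts n := by
    have := mem_parts hsorted hpos n n hlen hle
    rwa [hsum'] at this
  obtain ⟨k, hk, hlk⟩ := mem_headChunk_of_mem_allParts hn hmem
  have := H k hk l hlk
  simp only [G] at this
  rw [hl] at this
  exact this

end Crest.Agent.Saxl.Kron
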