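import Crest.Agent.Lib.Saxl.KronC35_1
import Crest.Agent.Lib.Saxl.KronC35_2
import Crest.Agent.Lib.Saxl.KronC35_3
import Crest.Agent.Lib.Saxl.KronC35_4
import Crest.Agent.Lib.Saxl.KronC35_5

/-!
# Universal shapes by certificates in pieces
-/

set_option autoImplicit false

namespace Crest.Agent.Saxl.Kron

set_option maxRecDepth 1000000

/-- Universality of the diagram with column heights [11,7,4,3,2,2,2,1,1,1,1]. -/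
theorem uni_11_7_4_3_2_2_2_1_1_1_1 : ∃ h1 : ([11,7,4,3,2,2,2,1,1,1,1] : List ℕ).SortedGE, Uni (YoungDiagram.ofRowLens [11,7,4,3,2,2,2,1,1,1,1] h1) :=
  uni_ofChunks (n := 35) (by decide) (by decide +kernel) (by decide +kernel) (by decide +kernel) (by
    intro k hk
    interval_cases k
    exacts [chunk_35_11_7_4_3_2_2_2_1_1_1_1_1, chunk_35_11_7_4_3_2_2_2_1_1_1_1_2, chunk_35_11_7_4_3_2_2_2_1_1_1_1_3, chunk_35_11_7_4_3_2_2_2_1_1_1_1_4, chunk_35_11_7_4_3_2_2_2_1_1_1_1_5, chunk_35_11_7_4_3_2_2_2_1_1_1_1_6, chunk_35_11_7_4_3_2_2_2_1_1_1_1_7, chunk_35_11_7_4_3_2_2_2_1_1_1_1_8, chunk_35_11_7_4_3_2_2_2_1_1_1_1_9, chunk_35_11_7_4_3_2_2_2_1_1_1_1_10, chunk_35_11_7_4_3_2_2_2_1_1_1_1_11, chunk_35_11_7_4_3_2_2_2_1_1_1_1_12, chunk_35_11_7_4_3_2_2_2_1_1_1_1_13, chunk_35_11_7_4_3_2_2_2_1_1_1_1_14, chunk_35_11_7_4_3_2_2_2_1_1_1_1_15,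 chunk_35_11_7_4_3_2_2_2_1_1_1_1_16, chunk_35_11_7_4_3_2_2_2_1_1_1_1_17, chunk_35_11_7_4_3_2_2_2_1_1_1_1_18, chunk_35_11_7_4_3_2_2_2_1_1_1_1_19, chunk_35_11_7_4_3_2_2_2_1_1_1_1_20, chunk_35_11_7_4_3_2_2_2_1_1_1_1_21, chunk_35_11_7_4_3_2_2_2_1_1_1_1_22, chunk_35_11_7_4_3_2_2_2_1_1_1_1_23, chunk_35_11_7_4_3_2_2_2_1_1_1_1_24, chunk_35_11_7_4_3_2_2_2_1_1_1_1_25, chunk_35_11_7_4_3_2_2_2_1_1_1_1_26, chunk_35_11_7_4_3_2_2_2_1_1_1_1_27, chunk_35_11_7_4_3_2_2_2_1_1_1_1_28, chunk_35_11_7_4_3_2_2_2_1_1_1_1_29, chunk_35_11_7_4_3_2_2_2_1_1_1_1_30, chunk_35_11_7_4_3_2_2_2_1_1_1_1_31, chunk_35_11_7_4_3_2_2_2_1_1_1_1_32, chunk_35_11_7_4_3_2_2_2_1_1_1_1_33, chunk_35_11_7_4_3_2_2_2_1_1_1_1_34, chunk_35_11_7_4_3_2_2_2_1_1_1_1_35])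

end Crest.Agent.Saxl.Kron
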