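import Crest.Agent.Lib.Saxl.KronSparse

/-!
# Base cases of Kronecker positivity, by sparse evaluations
-/

set_option autoImplicit false

namespace Crest.Agent.Saxl.Kron

open Crest.Agent.Saxl.FourRowsSemi

set_option maxRecDepth 1000000

/-- 0 nodes=2 total=3 |sup|=1 -/
theorem seedG0 : G ([1], [1], [1]) := by
  have h := real3_of_sparse (n := 1) (m := 1) (rl := [0]) (cl := [0])
    (r1l := [0]) (c1l := [0]) (r2l := [0]) (c2l := [0])
    (K1 := [0]) (K2 := [0]) (K0 := [0]) (V := [3])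
    (by unfold IsTabular; decide +kernel) (by unfold IsTabular; decide +kernel)
    (by unfold IsTabular; decide +kernel) (by decide +kernel)
  have e1 : heights (wf 1 [0]) = (([1] : List ℕ) : Multiset ℕ) := by decide +kernel
  have e2 : heights (wf 1 [0]) = (([1] : List ℕ) : Multiset ℕ) := by decide +kernel
  have e3 : heights (wf 1 [0]) = (([1] : List ℕ) : Multiset ℕ) := by decide +kernel
  rw [e1] at h
  try rw [e2] at h
  try rw [e3] at h
  exact h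

/-- 32 nodes=4 total=16 |sup|=2 -/
theorem seedG1 : G ([2,1], [2,1], [2,1]) := by
  have h := real3_of_sparse (n := 3) (m := 2) (rl := [0,1,0]) (cl := [0,0,1])
    (r1l := [0,0,1]) (c1l := [1,0,0]) (r2l := [0,0,1]) (c2l := [1,0,0])
    (K1 := [0,1]) (K2 := [0,1]) (K0 := [0,1]) (V := [2,4])
    (by unfold IsTabular; decide +kernel) (by unfold IsTabular; decide +kernel)
    (by unfold IsTabular; decide +kernel) (by decide +kernel)
  have e1 : heights (wf 3 [0,0,1]) = (([2,1] : List ℕ) : Multiset ℕ) := by decide +kernel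
  have e2 : heights (wf 3 [1,0,0]) = (([2,1] : List ℕ) : Multiset ℕ) := by decide +kernel
  have e3 : heights (wf 3 [1,0,0]) = (([2,1] : List ℕ) : Multiset ℕ) := by decide +kernel
  rw [e1] at h
  try rw [e2] at h
  try rw [e3] at h
  exact h

/-- 21 nodes=9 total=-288 |sup|=2 -/
theorem seedG2 : G ([2,2], [2,2], [2,2]) := by
  have h := real3_of_sparse (n := 4) (m := 2) (rl := [0,1,0,1]) (cl := [0,0,1,1])
    (r1l := [0,1,0,1]) (c1l := [1,1,0,0]) (r2l := [0,0,1,1]) (c2l := [0,1,1,0])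
    (K1 := [0,1]) (K2 := [0,1]) (K0 := [1,0]) (V := [4,3])
    (by unfold IsTabular; decide +kernel) (by unfold IsTabular; decide +kernel)
    (by unfold IsTabular; decide +kernel) (by decide +kernel)
  have e1 : heights (wf 4 [0,0,1,1]) = (([2,2] : List ℕ) : Multiset ℕ) := by decide +kernel
  have e2 : heights (wf 4 [1,1,0,0]) = (([2,2] : List ℕ) : Multiset ℕ) := by decide +kernel
  have e3 : heights (wf 4 [0,1,1,0]) = (([2,2] : List ℕ) : Multiset ℕ) := by decide +kernel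
  rw [e1] at h
  try rw [e2] at h
  try rw [e3] at h
  exact h

/-- 1043 nodes=11 total=-150 |sup|=3 -/
theorem seedG3 : G ([3,2], [3,2], [3,2]) := by
  have h := real3_of_sparse (n := 5) (m := 3) (rl := [0,1,2,0,1]) (cl := [0,0,0,1,1])
    (r1l := [0,0,1,1,2]) (c1l := [1,0,0,1,0]) (r2l := [0,0,1,2,1]) (c2l := [0,1,0,0,1])
    (K1 := [0,1,2]) (K2 := [1,0,2]) (K0 := [1,0,2]) (V := [1,5,3])
    (by unfold IsTabular; decide +kernel) (by unfold IsTabular; decide +kernel)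
    (by unfold IsTabular; decide +kernel) (by decide +kernel)
  have e1 : heights (wf 5 [0,0,0,1,1]) = (([3,2] : List ℕ) : Multiset ℕ) := by decide +kernel
  have e2 : heights (wf 5 [1,0,0,1,0]) = (([3,2] : List ℕ) : Multiset ℕ) := by decide +kernel
  have e3 : heights (wf 5 [0,1,0,0,1]) = (([3,2] : List ℕ) : Multiset ℕ) := by decide +kernel
  rw [e1] at h
  try rw [e2] at h
  try rw [e3] at h
  exact h

/-- 789 nodes=21 total=-600 |sup|=4 -/
theorem seedG4 : G ([4,2], [3,3], [3,2,1]) := by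
  have h := real3_of_sparse (n := 6) (m := 4) (rl := [0,1,2,3,0,1]) (cl := [0,0,0,0,1,1])
    (r1l := [0,1,0,1,2,2]) (c1l := [0,0,1,1,0,1]) (r2l := [0,0,1,0,1,2]) (c2l := [1,2,1,0,0,0])
    (K1 := [0,1,1,2]) (K2 := [1,0,2,0]) (K0 := [1,3,2,0]) (V := [1,2,4,5])
    (by unfold IsTabular; decide +kernel) (by unfold IsTabular; decide +kernel)
    (by unfold IsTabular; decide +kernel) (by decide +kernel)
  have e1 : heights (wf 6 [0,0,0,0,1,1]) = (([4,2] : List ℕ) : Multiset ℕ) := by decide +kernel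
  have e2 : heights (wf 6 [0,0,1,1,0,1]) = (([3,3] : List ℕ) : Multiset ℕ) := by decide +kernel
  have e3 : heights (wf 6 [1,2,1,0,0,0]) = (([3,2,1] : List ℕ) : Multiset ℕ) := by decide +kernel
  rw [e1] at h
  try rw [e2] at h
  try rw [e3] at h
  exact h

/-- 2036 nodes=19 total=-1152 |sup|=5 -/
theorem seedG5 : G ([3,3], [4,1,1], [3,1,1,1]) := by
  have h := real3_of_sparse (n := 6) (m := 5) (rl := [0,1,2,0,1,2]) (cl := [0,0,0,1,1,1])
    (r1l := [0,0,0,1,2,3]) (c1l := [1,0,2,0,0,0]) (r2l := [0,0,1,2,0,0]) (c2l := [0,2,0,0,1,3])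
    (K1 := [0,0,1,2,3]) (K2 := [0,1,0,0,2]) (K0 := [2,0,0,1,1]) (V := [3,4,1,4,2])
    (by unfold IsTabular; decide +kernel) (by unfold IsTabular; decide +kernel)
    (by unfold IsTabular; decide +kernel) (by decide +kernel)
  have e1 : heights (wf 6 [0,0,0,1,1,1]) = (([3,3] : List ℕ) : Multiset ℕ) := by decide +kernel
  have e2 : heights (wf 6 [1,0,2,0,0,0]) = (([4,1,1] : List ℕ) : Multiset ℕ) := by decide +kernel
  have e3 : heights (wf 6 [0,2,0,0,1,3]) = (([3,1,1,1] : List ℕ) : Multiset ℕ) := by decide +kernel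
  rw [e1] at h
  try rw [e2] at h
  try rw [e3] at h
  exact h

/-- 1204 nodes=34 total=-13824 |sup|=3 -/
theorem seedG6 : G ([3,3], [3,3], [3,3]) := by
  have h := real3_of_sparse (n := 6) (m := 3) (rl := [0,1,2,0,1,2]) (cl := [0,0,0,1,1,1])
    (r1l := [0,0,1,1,2,2]) (c1l := [0,1,0,1,0,1]) (r2l := [0,1,0,2,1,2]) (c2l := [0,0,1,0,1,1])
    (K1 := [0,1,2]) (K2 := [0,1,2]) (K0 := [2,1,0]) (V := [3,4,4])
    (by unfold IsTabular; decide +kernel) (by unfold IsTabular; decide +kernel)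
    (by unfold IsTabular; decide +kernel) (by decide +kernel)
  have e1 : heights (wf 6 [0,0,0,1,1,1]) = (([3,3] : List ℕ) : Multiset ℕ) := by decide +kernel
  have e2 : heights (wf 6 [0,1,0,1,0,1]) = (([3,3] : List ℕ) : Multiset ℕ) := by decide +kernel
  have e3 : heights (wf 6 [0,0,1,0,1,1]) = (([3,3] : List ℕ) : Multiset ℕ) := by decide +kernel
  rw [e1] at h
  try rw [e2] at h
  try rw [e3] at h
  exact h

/-- 970 nodes=11 total=-6250 |sup|=4 -/
theorem seedG7 : G ([3,3], [3,2,1], [3,2,1]) := by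
  have h := real3_of_sparse (n := 6) (m := 4) (rl := [0,1,2,0,1,2]) (cl := [0,0,0,1,1,1])
    (r1l := [0,0,1,1,0,2]) (c1l := [0,1,0,1,2,0]) (r2l := [0,0,0,1,1,2]) (c2l := [1,2,0,1,0,0])
    (K1 := [0,0,1,2]) (K2 := [1,2,0,0]) (K0 := [2,1,0,1]) (V := [5,2,5,5])
    (by unfold IsTabular; decide +kernel) (by unfold IsTabular; decide +kernel)
    (by unfold IsTabular; decide +kernel) (by decide +kernel)
  have e1 : heights (wf 6 [0,0,0,1,1,1]) = (([3,3] : List ℕ) : Multiset ℕ) := by decide +kernel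
  have e2 : heights (wf 6 [0,1,0,1,2,0]) = (([3,2,1] : List ℕ) : Multiset ℕ) := by decide +kernel
  have e3 : heights (wf 6 [1,2,0,1,0,0]) = (([3,2,1] : List ℕ) : Multiset ℕ) := by decide +kernel
  rw [e1] at h
  try rw [e2] at h
  try rw [e3] at h
  exact h

/-- 1023 nodes=26 total=6000 |sup|=7 -/
theorem seedG8 : G ([3,3,2], [4,2,1,1], [4,2,1,1]) := by
  have h := real3_of_sparse (n := 8) (m := 7) (rl := [0,1,2,0,1,2,0,1]) (cl := [0,0,0,1,1,1,2,2])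
    (r1l := [0,1,0,1,0,2,0,3]) (c1l := [1,1,0,0,2,0,3,0]) (r2l := [0,0,0,0,1,1,2,3]) (c2l := [3,0,2,1,1,0,0,0])
    (K1 := [0,0,0,1,1,2,3]) (K2 := [0,1,2,1,3,0,0]) (K0 := [0,2,1,1,0,2,1]) (V := [2,5,3,2,1,2,5])
    (by unfold IsTabular; decide +kernel) (by unfold IsTabular; decide +kernel)
    (by unfold IsTabular; decide +kernel) (by decide +kernel)
  have e1 : heights (wf 8 [0,0,0,1,1,1,2,2]) = (([3,3,2] : List ℕ) : Multiset ℕ) := by decide +kernel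
  have e2 : heights (wf 8 [1,1,0,0,2,0,3,0]) = (([4,2,1,1] : List ℕ) : Multiset ℕ) := by decide +kernel
  have e3 : heights (wf 8 [3,0,2,1,1,0,0,0]) = (([4,2,1,1] : List ℕ) : Multiset ℕ) := by decide +kernel
  rw [e1] at h
  try rw [e2] at h
  try rw [e3] at h
  exact h

/-- 1362 nodes=399 total=-11520 |sup|=7 -/
theorem seedG9 : G ([3,3,3,2], [4,3,3,1], [4,3,3,1]) := by
  have h := real3_of_sparse (n := 11) (m := 7) (rl := [0,1,2,0,1,2,0,1,2,0,1]) (cl := [0,0,0,1,1,1,2,2,2,3,3])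
    (r1l := [0,1,2,0,1,0,0,2,1,2,3]) (c1l := [1,1,1,2,2,3,0,2,0,0,0]) (r2l := [0,0,0,1,1,1,2,2,3,2,0]) (c2l := [0,1,2,0,1,2,2,0,0,1,3])
    (K1 := [0,0,1,1,2,2,3]) (K2 := [0,2,0,2,1,3,1]) (K0 := [0,1,0,2,1,2,1]) (V := [2,1,5,3,2,1,4])
    (by unfold IsTabular; decide +kernel) (by unfold IsTabular; decide +kernel)
    (by unfold IsTabular; decide +kernel) (by decide +kernel)
  have e1 : heights (wf 11 [0,0,0,1,1,1,2,2,2,3,3]) = (([3,3,3,2] : List ℕ) : Multiset ℕ) := by decide +kernel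
  have e2 : heights (wf 11 [1,1,1,2,2,3,0,2,0,0,0]) = (([4,3,3,1] : List ℕ) : Multiset ℕ) := by decide +kernel
  have e3 : heights (wf 11 [0,1,2,0,1,2,2,0,0,1,3]) = (([4,3,3,1] : List ℕ) : Multiset ℕ) := by decide +kernel
  rw [e1] at h
  try rw [e2] at h
  try rw [e3] at h
  exact h

/-- 1127 nodes=1636 total=4147200 |sup|=8 -/
theorem seedG10 : G ([5,2,2,2,1,1], [4,4,3,2], [4,4,3,2]) := by
  have h := real3_of_sparse (n := 13) (m := 8) (rl := [0,1,2,3,4,0,1,0,1,0,1,0,0]) (cl := [0,0,0,0,0,1,1,2,2,3,3,4,5])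
    (r1l := [0,0,0,1,0,1,1,2,1,2,3,3,2]) (c1l := [3,1,0,1,2,0,2,0,3,1,0,1,2]) (r2l := [0,0,0,1,1,1,2,0,1,2,2,3,3]) (c2l := [2,3,0,2,3,0,0,1,1,2,1,0,1])
    (K1 := [0,0,0,1,1,2,2,3]) (K2 := [0,1,2,1,2,0,3,0]) (K0 := [4,0,2,1,0,3,0,1]) (V := [2,2,4,1,4,2,3,5])
    (by unfold IsTabular; decide +kernel) (by unfold IsTabular; decide +kernel)
    (by unfold IsTabular; decide +kernel) (by decide +kernel)
  have e1 : heights (wf 13 [0,0,0,0,0,1,1,2,2,3,3,4,5]) = (([5,2,2,2,1,1] : List ℕ) : Multiset ℕ) := by decide +kernel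
  have e2 : heights (wf 13 [3,1,0,1,2,0,2,0,3,1,0,1,2]) = (([4,4,3,2] : List ℕ) : Multiset ℕ) := by decide +kernel
  have e3 : heights (wf 13 [2,3,0,2,3,0,0,1,1,2,1,0,1]) = (([4,4,3,2] : List ℕ) : Multiset ℕ) := by decide +kernel
  rw [e1] at h
  try rw [e2] at h
  try rw [e3] at h
  exact h

/-- 982 nodes=787 total=-699840 |sup|=10 -/
theorem seedG11 : G ([5,3,2,1,1,1], [4,4,3,2], [4,4,3,2]) := by
  have h := real3_of_sparse (n := 13) (m := 10) (rl := [0,1,2,3,4,0,1,2,0,1,0,0,0]) (cl := [0,0,0,0,0,1,1,1,2,2,3,4,5])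
    (r1l := [0,1,0,0,1,2,1,3,2,2,3,0,1]) (c1l := [0,0,1,2,2,0,1,0,1,2,1,3,3]) (r2l := [0,0,0,1,0,1,1,2,3,1,2,2,3]) (c2l := [3,0,1,3,2,1,0,0,0,2,2,1,1])
    (K1 := [0,0,0,1,1,1,1,2,3,3]) (K2 := [0,1,3,0,0,2,2,1,2,3]) (K0 := [0,2,3,1,2,0,4,0,1,1]) (V := [2,4,5,3,3,1,1,3,2,3])
    (by unfold IsTabular; decide +kernel) (by unfold IsTabular; decide +kernel)
    (by unfold IsTabular; decide +kernel) (by decide +kernel)
  have e1 : heights (wf 13 [0,0,0,0,0,1,1,1,2,2,3,4,5]) = (([5,3,2,1,1,1] : List ℕ) : Multiset ℕ) := by decide +kernel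
  have e2 : heights (wf 13 [0,0,1,2,2,0,1,0,1,2,1,3,3]) = (([4,4,3,2] : List ℕ) : Multiset ℕ) := by decide +kernel
  have e3 : heights (wf 13 [3,0,1,3,2,1,0,0,0,2,2,1,1]) = (([4,4,3,2] : List ℕ) : Multiset ℕ) := by decide +kernel
  rw [e1] at h
  try rw [e2] at h
  try rw [e3] at h
  exact h

/-- 1101 nodes=1737 total=6400 |sup|=10 -/
theorem seedG12 : G ([5,3,2,2,1], [4,4,3,2], [4,4,3,2]) := by
  have h := real3_of_sparse (n := 13) (m := 10) (rl := [0,1,2,3,4,0,1,2,0,1,0,1,0]) (cl := [0,0,0,0,0,1,1,1,2,2,3,3,4])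
    (r1l := [0,0,0,1,0,1,1,1,2,2,3,2,3]) (c1l := [0,1,3,0,2,2,3,1,1,0,0,2,1]) (r2l := [0,0,1,0,0,1,1,2,2,1,2,3,3]) (c2l := [3,2,3,1,0,2,1,2,1,0,0,1,0])
    (K1 := [0,0,0,1,1,2,2,2,3,3]) (K2 := [1,2,3,0,1,0,1,3,1,2]) (K0 := [1,1,2,0,3,0,0,4,1,2]) (V := [1,5,1,1,1,4,4,4,2,2])
    (by unfold IsTabular; decide +kernel) (by unfold IsTabular; decide +kernel)
    (by unfold IsTabular; decide +kernel) (by decide +kernel)
  have e1 : heights (wf 13 [0,0,0,0,0,1,1,1,2,2,3,3,4]) = (([5,3,2,2,1] : List ℕ) : Multiset ℕ) := by decide +kernel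
  have e2 : heights (wf 13 [0,1,3,0,2,2,3,1,1,0,0,2,1]) = (([4,4,3,2] : List ℕ) : Multiset ℕ) := by decide +kernel
  have e3 : heights (wf 13 [3,2,3,1,0,2,1,2,1,0,0,1,0]) = (([4,4,3,2] : List ℕ) : Multiset ℕ) := by decide +kernel
  rw [e1] at h
  try rw [e2] at h
  try rw [e3] at h
  exact h

/-- 681 nodes=1182 total=294912 |sup|=11 -/
theorem seedG13 : G ([5,3,3,1,1], [4,4,3,2], [4,4,3,2]) := by
  have h := real3_of_sparse (n := 13) (m := 11) (rl := [0,1,2,3,4,0,1,2,0,1,2,0,0]) (cl := [0,0,0,0,0,1,1,1,2,2,2,3,4])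
    (r1l := [0,0,0,1,0,1,1,2,3,2,1,2,3]) (c1l := [1,2,3,3,0,2,0,0,0,2,1,1,1]) (r2l := [0,0,0,0,1,1,2,1,1,2,2,3,3]) (c2l := [1,3,0,2,0,1,1,3,2,0,2,0,1])
    (K1 := [0,0,1,1,1,1,2,2,2,3,3]) (K2 := [0,2,1,1,2,3,0,0,3,1,1]) (K0 := [0,0,0,2,1,2,1,2,3,1,4]) (V := [2,4,2,4,3,4,2,2,4,3,1])
    (by unfold IsTabular; decide +kernel) (by unfold IsTabular; decide +kernel)
    (by unfold IsTabular; decide +kernel) (by decide +kernel)
  have e1 : heights (wf 13 [0,0,0,0,0,1,1,1,2,2,2,3,4]) = (([5,3,3,1,1] : List ℕ) : Multiset ℕ) := by decide +kernel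
  have e2 : heights (wf 13 [1,2,3,3,0,2,0,0,0,2,1,1,1]) = (([4,4,3,2] : List ℕ) : Multiset ℕ) := by decide +kernel
  have e3 : heights (wf 13 [1,3,0,2,0,1,1,3,2,0,2,0,1]) = (([4,4,3,2] : List ℕ) : Multiset ℕ) := by decide +kernel
  rw [e1] at h
  try rw [e2] at h
  try rw [e3] at h
  exact h

/-- The base triples. -/
def baseT : List Tr := [([1], [1], [1]), ([2,1], [2,1], [2,1]), ([2,2], [2,2], [2,2]), ([3,2], [3,2], [3,2]), ([4,2], [3,3], [3,2,1]), ([3,3], [4,1,1], [3,1,1,1]), ([3,3], [3,3], [3,3]), ([3,3], [3,2,1], [3,2,1]), ([3,3,2], [4,2,1,1], [4,2,1,1]), ([3,3,3,2], [4,3,3,1], [4,3,3,1]), ([5,2,2,2,1,1], [4,4,3,2], [4,4,3,2]), ([5,3,2,1,1,1], [4,4,3,2], [4,4,3,2]), ([5,3,2,2,1], [4,4,3,2], [4,4,3,2]), ([5,3,3,1,1], [4,4,3,2], [4,4,3,2])]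

theorem baseT_good : ∀ u ∈ baseT, G u := by
  intro u hu
  simp only [baseT, List.mem_cons, List.not_mem_nil, or_false] at hu
  rcases hu with rfl | rfl | rfl | rfl | rfl | rfl | rfl | rfl | rfl | rfl | rfl | rfl | rfl | rfl
  · exact seedG0
  · exact seedG1
  · exact seedG2
  · exact seedG3
  · exact seedG4
  · exact seedG5
  · exact seedG6
  · exact seedG7
  · exact seedG8
  · exact seedG9
  · exact seedG10
  · exact seedG11
  · exact seedG12
  · exact seedG13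

end Crest.Agent.Saxl.Kron
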