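import Crest.Agent.Lib.Saxl.KronCert

/-!
# Base cases of Kronecker positivity, by evaluation at a sparse point

The polynomial `Psi` is evaluated at a point given by a list of `m` triples of letters with values.
The value is a sum over the maps from the slots to the `m` triples, of a product of values and of three
polytabloids on words.  Most terms vanish, as polytabloids vanish on words with a repeated letter
in a column.  `dfs` computes this sum by depth first search; `sgnL` computes the value of a polytabloid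
on a word.
-/

set_option autoImplicit false

open Finset Equiv MvPolynomial

namespace Crest.Agent.Saxl.Kron

open Crest.Agent.Saxl.FourRowsSemi

section Formula

variable {n m : ℕ}

/-- The evaluation point. -/
noncomputable def gOf (k1 k2 k0 : Fin m → ℕ) (v : Fin m → ℂ) : ℕ × ℕ × ℕ → ℂ := fun t =>
  ∑ i, if k1 i = t.1 ∧ k2 i = t.2.1 ∧ k0 i = t.2.2 then v i else 0

lemma prod_gOf (k1 k2 k0 : Fin m → ℕ) (v : Fin m → ℂ) (a b z : Fin n → ℕ) :
    ∏ s, gOf k1 k2 k0 v (a s, b s, z s) =
      ∑ w : Fin n → Fin m, (∏ s, v (w s)) *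
        ((if k1 ∘ w = a then 1 else 0) * (if k2 ∘ w = b then 1 else 0) *
          (if k0 ∘ w = z then 1 else 0)) := by
  simp only [gOf]
  rw [Finset.prod_univ_sum, Fintype.piFinset_univ]
  refine Finset.sum_congr rfl fun w _ => ?_
  rw [Finset.prod_ite_zero]
  by_cases h : ∀ s ∈ (univ : Finset (Fin n)), k1 (w s) = a s ∧ k2 (w s) = b s ∧ k0 (w s) = z s
  · rw [if_pos h]
    have e1 : k1 ∘ w = a := funext fun s => (h s (mem_univ s)).1
    have e2 : k2 ∘ w = b := funext fun s => (h s (mem_univ s)).2.1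
    have e3 : k0 ∘ w = z := funext fun s => (h s (mem_univ s)).2.2
    simp [e1, e2, e3]
  · rw [if_neg h]
    have : ¬ (k1 ∘ w = a ∧ k2 ∘ w = b ∧ k0 ∘ w = z) := by
      rintro ⟨e1, e2, e3⟩
      exact h fun s _ => ⟨congrFun e1 s, congrFun e2 s, congrFun e3 s⟩
    by_cases e1 : k1 ∘ w = a
    · by_cases e2 : k2 ∘ w = b
      · have e3 : ¬ k0 ∘ w = z := fun e3 => this ⟨e1, e2, e3⟩
        simp [e3]
      · simp [e2]
    · simp [e1]

lemma sum4_comm {α β γ δ : Type*} (A : Finset α) (B : Finset β) (C : Finset γ) (D : Finset δ)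
    (T : α → β → γ → δ → ℂ) :
    ∑ h ∈ A, ∑ a ∈ B, ∑ b ∈ C, ∑ w ∈ D, T h a b w = ∑ w ∈ D, ∑ h ∈ A, ∑ a ∈ B, ∑ b ∈ C, T h a b w :=
  calc ∑ h ∈ A, ∑ a ∈ B, ∑ b ∈ C, ∑ w ∈ D, T h a b w
      = ∑ h ∈ A, ∑ a ∈ B, ∑ w ∈ D, ∑ b ∈ C, T h a b w :=
        Finset.sum_congr rfl fun _ _ => Finset.sum_congr rfl fun _ _ => Finset.sum_comm
    _ = ∑ h ∈ A, ∑ w ∈ D, ∑ a ∈ B, ∑ b ∈ C, T h a b w :=
        Finset.sum_congr rfl fun _ _ => Finset.sum_comm
    _ = ∑ w ∈ D, ∑ h ∈ A, ∑ a ∈ B, ∑ b ∈ C, T h a b w := Finset.sum_comm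

lemma triple_prod {α β γ : Type*} (A : Finset α) (B : Finset β) (C : Finset γ)
    (x : α → ℂ) (y : β → ℂ) (z : γ → ℂ) :
    (∑ a ∈ A, x a) * (∑ b ∈ B, y b) * (∑ c ∈ C, z c) =
      ∑ c ∈ C, ∑ a ∈ A, ∑ b ∈ B, x a * y b * z c := by
  rw [Finset.mul_sum]
  refine Finset.sum_congr rfl fun c _ => ?_
  rw [Finset.sum_mul_sum, Finset.sum_mul]
  refine Finset.sum_congr rfl fun a _ => ?_
  rw [Finset.sum_mul]

/-- The value of `Psi` at the sparse point. -/
lemma eval_Psi_gOf (r c r1 c1 r2 c2 : Fin n → ℕ) (k1 k2 k0 : Fin m → ℕ) (v : Fin m → ℂ) :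
    eval (gOf k1 k2 k0 v) (Psi r c r1 c1 r2 c2) =
      ∑ w : Fin n → Fin m, (∏ s, v (w s)) *
        (polyRC r1 c1 (k1 ∘ w) * polyRC r2 c2 (k2 ∘ w) * polyRC r c (k0 ∘ w)) := by
  simp only [Psi, map_sum, map_mul, eval_C, map_prod, eval_X]
  simp only [polyRC]
  have key : ∀ (h σ1 σ2 : Perm (Fin n)),
      ∏ s, gOf k1 k2 k0 v (r1 (σ1 s), r2 (σ2 s), r (h s)) =
      ∑ w : Fin n → Fin m, (∏ s, v (w s)) *
        ((if k1 ∘ w = r1 ∘ σ1 then 1 else 0) * (if k2 ∘ w = r2 ∘ σ2 then 1 else 0) *
          (if k0 ∘ w = r ∘ h then 1 else 0)) := fun h σ1 σ2 =>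
    prod_gOf k1 k2 k0 v (r1 ∘ σ1) (r2 ∘ σ2) (r ∘ h)
  simp only [key]
  trans (∑ h ∈ stab c, ∑ σ1 ∈ stab c1, ∑ σ2 ∈ stab c2, ∑ w : Fin n → Fin m,
      sgn h * (sgn σ1 * sgn σ2) * ((∏ s, v (w s)) *
        ((if k1 ∘ w = r1 ∘ σ1 then (1 : ℂ) else 0) * (if k2 ∘ w = r2 ∘ σ2 then 1 else 0) *
          (if k0 ∘ w = r ∘ h then 1 else 0))))
  · exact Finset.sum_congr rfl fun h _ => Finset.sum_congr rfl fun σ1 _ =>
      Finset.sum_congr rfl fun σ2 _ => Finset.mul_sum _ _ _
  rw [sum4_comm]
  refine Finset.sum_congr rfl fun w _ => ?_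
  rw [triple_prod, Finset.mul_sum]
  refine Finset.sum_congr rfl fun h _ => ?_
  rw [Finset.mul_sum]
  refine Finset.sum_congr rfl fun σ1 _ => ?_
  rw [Finset.mul_sum]
  refine Finset.sum_congr rfl fun σ2 _ => ?_
  ring

/-- Polytabloids vanish on words with a repeated letter in a column. -/
lemma polyRC_zero_of_dup {S : Type*} [Fintype S] [DecidableEq S] {r c : S → ℕ} (ht : IsTabular r c)
    {w : S → ℕ} {x y : S} (hxy : x ≠ y) (hc : c x = c y) (hw : w x = w y) : polyRC r c w = 0 := by
  rw [polyRC]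
  refine Finset.sum_eq_zero fun σ hσ => ?_
  have hσ' := mem_stab.mp hσ
  rw [if_neg, mul_zero]
  intro h
  have h1 : r (σ x) = r (σ y) := by
    have e1 := congrFun h x
    have e2 := congrFun h y
    simp only [Function.comp] at e1 e2
    rw [← e1, ← e2, hw]
  have h2 : c (σ x) = c (σ y) := by rw [hσ', hσ', hc]
  exact hxy (σ.injective (ht.1 _ _ h1 h2))

/-- Polytabloids are alternating. -/
lemma polyRC_swap {S : Type*} [Fintype S] [DecidableEq S] (r c : S → ℕ) (w : S → ℕ) {x y : S}
    (hxy : x ≠ y) (hc : c x = c y) : polyRC r c (w ∘ swap x y) = - polyRC r c w := by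
  have hτ : swap x y ∈ stab c := swap_mem_stab hc
  rw [polyRC, polyRC, ← Finset.sum_neg_distrib]
  rw [← sum_stab_mulRight c hτ]
  refine Finset.sum_congr rfl fun σ _ => ?_
  rw [sgn_mul, sgn_swap hxy]
  have : (w ∘ swap x y = r ∘ (σ * swap x y)) ↔ (w = r ∘ σ) := by
    constructor
    · intro h
      funext s
      have := congrFun h (swap x y s)
      simpa [Function.comp] using this
    · rintro rfl
      funext s
      simp [Function.comp]
  simp only [this]
  ring

lemma polyRC_self {S : Type*} [Fintype S] [DecidableEq S] {r c : S → ℕ} (ht : IsTabular r c) :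
    polyRC r c r = 1 := by
  rw [polyRC, Finset.sum_eq_single 1]
  · simp
  · intro σ hσ hne
    rw [if_neg, mul_zero]
    intro h
    apply hne
    ext s
    have h1 : r s = r (σ s) := congrFun h s
    have h2 : c (σ s) = c s := mem_stab.mp hσ s
    have := ht.1 _ _ h1.symm h2
    rw [this]
    rfl
  · intro h
    exact absurd (one_mem_stab c) h

/-- Polytabloids vanish if the letter `r x` is not in the column of `x`, except when it sits at `x`
or at some slot in the list. -/
lemma polyRC_zero_of_missing {S : Type*} [Fintype S] [DecidableEq S] {r c : S → ℕ}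
    {w : S → ℕ} {x : S} (h : ∀ y, c y = c x → w y ≠ r x) : polyRC r c w = 0 := by
  rw [polyRC]
  refine Finset.sum_eq_zero fun σ hσ => ?_
  rw [if_neg, mul_zero]
  intro e
  have e0 : σ (σ⁻¹ x) = x := by simp
  have h1 := congrFun e (σ⁻¹ x)
  simp only [Function.comp, e0] at h1
  refine h (σ⁻¹ x) ?_ h1
  have := mem_stab.mp hσ (σ⁻¹ x)
  rw [e0] at this
  exact this.symm

end Formula

/-- A list as a word. -/
def wf (n : ℕ) (l : List ℕ) : Fin n → ℕ := fun s => l.getD s 0

/-- Exchange two entries of a list. -/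
def swapL (l : List ℕ) (x y : ℕ) : List ℕ := (l.set x (l.getD y 0)).set y (l.getD x 0)

lemma wf_swapL {n : ℕ} {l : List ℕ} (hl : l.length = n) (x y : Fin n) :
    wf n (swapL l x y) = wf n l ∘ swap x y := by
  funext s
  simp only [wf, swapL, Function.comp]
  by_cases h1 : s = y
  · subst h1
    simp [List.getD_eq_getElem?_getD, List.getElem?_set, hl]
  by_cases h2 : s = x
  · subst h2
    have h3 : (s : ℕ) ≠ y := fun h => h1 (Fin.ext h)
    simp [List.getD_eq_getElem?_getD, List.getElem?_set, hl, h3, h3.symm]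
  · have h3 : (y : ℕ) ≠ s := fun h => h1 (Fin.ext h.symm)
    have h4 : (x : ℕ) ≠ s := fun h => h2 (Fin.ext h.symm)
    rw [swap_apply_of_ne_of_ne h2 h1]
    simp [List.getD_eq_getElem?_getD, List.getElem?_set, h3, h4]

/-- Find the first `y` in the list in the same column as `x` with the letter wanted at `x`. -/
def findSw (rl cl wl : List ℕ) (x : ℕ) : List ℕ → Option ℕ
  | [] => none
  | y :: ys =>
    if Nat.beq (cl.getD y 0) (cl.getD x 0) && Nat.beq (wl.getD y 0) (rl.getD x 0) then some y
    else findSw rl cl wl x ys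

lemma findSw_some {rl cl wl : List ℕ} {x y : ℕ} {ys : List ℕ} (h : findSw rl cl wl x ys = some y) :
    y ∈ ys ∧ cl.getD y 0 = cl.getD x 0 ∧ wl.getD y 0 = rl.getD x 0 := by
  induction ys with
  | nil => simp [findSw] at h
  | cons z ys ih =>
    simp only [findSw] at h
    split_ifs at h with h1
    · simp only [Option.some.injEq] at h
      subst h
      simp only [Bool.and_eq_true, Nat.beq_eq] at h1
      exact ⟨List.mem_cons_self, h1.1, h1.2⟩
    · obtain ⟨h2, h3⟩ := ih h
      exact ⟨List.mem_cons_of_mem _ h2, h3⟩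

lemma findSw_none {rl cl wl : List ℕ} {x : ℕ} {ys : List ℕ} (h : findSw rl cl wl x ys = none) :
    ∀ y ∈ ys, cl.getD y 0 = cl.getD x 0 → wl.getD y 0 ≠ rl.getD x 0 := by
  induction ys with
  | nil => simp
  | cons z ys ih =>
    simp only [findSw] at h
    split_ifs at h with h1
    intro y hy
    rcases List.mem_cons.mp hy with rfl | hy
    · intro h2 h3
      exact h1 (by rw [Bool.and_eq_true, Nat.beq_eq, Nat.beq_eq]; exact ⟨h2, h3⟩)
    · exact ih h y hy

/-- The value of a polytabloid on a word, by sorting the word. -/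
def sgnL (rl cl : List ℕ) : List ℕ → List ℕ → ℤ
  | [], _ => 1
  | x :: xs, wl =>
    if Nat.beq (wl.getD x 0) (rl.getD x 0) then sgnL rl cl xs wl
    else
      match findSw rl cl wl x xs with
      | none => 0
      | some y => - sgnL rl cl xs (swapL wl x y)

lemma polyRC_sgnL {n : ℕ} {rl cl : List ℕ} (ht : IsTabular (wf n rl) (wf n cl)) :
    ∀ (xs wl : List ℕ), xs.Nodup → (∀ x ∈ xs, x < n) → wl.length = n →
      (∀ s : Fin n, (s : ℕ) ∉ xs → wf n wl s = wf n rl s) →
      polyRC (wf n rl) (wf n cl) (wf n wl) = (sgnL rl cl xs wl : ℂ) := by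
  intro xs
  induction xs with
  | nil =>
    intro wl _ _ _ hd
    have : wf n wl = wf n rl := funext fun s => hd s (by simp)
    rw [this, polyRC_self ht]
    simp [sgnL]
  | cons x xs ih =>
    intro wl hnd hlt hl hd
    have hx : x < n := hlt x List.mem_cons_self
    have hnd' := (List.nodup_cons.mp hnd).2
    have hxn := (List.nodup_cons.mp hnd).1
    have hlt' : ∀ z ∈ xs, z < n := fun z hz => hlt z (List.mem_cons_of_mem _ hz)
    simp only [sgnL]
    by_cases h1 : wl.getD x 0 = rl.getD x 0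
    · rw [if_pos (by rw [Nat.beq_eq]; exact h1)]
      refine ih wl hnd' hlt' hl fun s hs => ?_
      by_cases h2 : (s : ℕ) = x
      · simp only [wf, h2, h1]
      · exact hd s (by simp [h2, hs])
    · rw [if_neg (by rw [Nat.beq_eq]; exact h1)]
      cases hf : findSw rl cl wl x xs with
      | none =>
        simp only [Int.cast_zero]
        have hn := findSw_none hf
        refine polyRC_zero_of_missing (x := ⟨x, hx⟩) fun y hy hw => ?_
        by_cases hyx : (y : ℕ) = x
        · exact h1 (by simpa [wf, hyx] using hw)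
        by_cases hym : (y : ℕ) ∈ xs
        · exact hn y hym hy hw
        · -- `y` is done, so it carries the letter of `r y`; then `y = x` by tabularity
          have h3 := hd y (by simp [hyx, hym])
          have h4 := ht.1 _ _ (h3.symm.trans hw) hy
          exact hyx (congrArg Fin.val h4)
      | some y =>
        obtain ⟨hy1, hy2, hy3⟩ := findSw_some hf
        have hyn := hlt' y hy1
        have hne : (⟨x, hx⟩ : Fin n) ≠ ⟨y, hyn⟩ := by
          intro h
          have : x = y := congrArg Fin.val h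
          exact hxn (this ▸ hy1)
        have hs := polyRC_swap (wf n rl) (wf n cl) (wf n wl) hne hy2.symm
        have hsw := wf_swapL hl ⟨x, hx⟩ ⟨y, hyn⟩
        simp only at hsw
        rw [← hsw] at hs
        have hlen : (swapL wl x y).length = n := by simp [swapL, hl]
        have hrec := ih (swapL wl x y) hnd' hlt' hlen (fun s hs' => by
          rw [hsw]
          simp only [Function.comp]
          by_cases h5 : (s : ℕ) = x
          · have e : s = ⟨x, hx⟩ := Fin.ext h5
            subst e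
            simp only [swap_apply_left]
            exact hy3
          · have e1 : s ≠ ⟨x, hx⟩ := fun e => h5 (congrArg Fin.val e)
            have e2 : s ≠ ⟨y, hyn⟩ := fun e => hs' (by rw [e]; exact hy1)
            rw [swap_apply_of_ne_of_ne e1 e2]
            exact hd s (by simp [h5, hs']))
        rw [hrec] at hs
        simp only [Int.cast_neg]
        rw [hs]
        ring

/-- Polytabloids vanish if the letter at `x` is not in the column of `x`. -/
lemma polyRC_zero_of_letter {S : Type*} [Fintype S] [DecidableEq S] {r c : S → ℕ}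
    {w : S → ℕ} {x : S} (h : ∀ y, c y = c x → r y ≠ w x) : polyRC r c w = 0 := by
  rw [polyRC]
  refine Finset.sum_eq_zero fun σ hσ => ?_
  rw [if_neg, mul_zero]
  intro e
  have h1 := congrFun e x
  simp only [Function.comp] at h1
  exact h (σ x) (mem_stab.mp hσ x) h1.symm

/-- Finite sums, by recursion. -/
def sumTo : ℕ → (ℕ → ℤ) → ℤ
  | 0, _ => 0
  | m + 1, f => sumTo m f + f m

lemma sumTo_eq (m : ℕ) (f : ℕ → ℤ) : sumTo m f = ∑ i ∈ Finset.range m, f i := by
  induction m with
  | zero => rfl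
  | succ m ih => rw [sumTo, ih, Finset.sum_range_succ]

/-- Sum over all lists of length `k` with entries below `m`. -/
def sumL (m : ℕ) : ℕ → (List ℕ → ℤ) → ℤ
  | 0, G => G []
  | k + 1, G => sumTo m fun a => sumL m k fun l => G (a :: l)

lemma sumL_zero (m k : ℕ) (H : List ℕ → ℤ) (h : ∀ l : List ℕ, l.length = k → H l = 0) :
    sumL m k H = 0 := by
  induction k generalizing H with
  | zero => exact h [] rfl
  | succ k ih =>
    rw [sumL, sumTo_eq]
    refine Finset.sum_eq_zero fun a _ => ih _ fun l hl => h _ (by simp [hl])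

lemma sum_fun_eq_sumL (m k : ℕ) (G : List ℕ → ℤ) :
    ∑ u : Fin k → Fin m, G (List.ofFn fun i => (u i : ℕ)) = sumL m k G := by
  induction k generalizing G with
  | zero => simp [sumL]
  | succ k ih =>
    rw [sumL, sumTo_eq, ← Fin.sum_univ_eq_sum_range (fun a => sumL m k fun l => G (a :: l))]
    rw [← Equiv.sum_comp (Fin.consEquiv fun _ => Fin m), Fintype.sum_prod_type]
    refine Finset.sum_congr rfl fun a _ => ?_
    rw [← ih]
    refine Finset.sum_congr rfl fun u _ => ?_
    simp [Fin.consEquiv, List.ofFn_succ]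

/-- Depth first search. -/
def dfs (m : ℕ) (G : List ℕ → ℤ) (bad : List ℕ → ℕ → Bool) : ℕ → List ℕ → ℤ
  | 0, pre => G pre
  | k + 1, pre => sumTo m fun a => if bad pre a then 0 else dfs m G bad k (pre ++ [a])

lemma dfs_eq {m n : ℕ} {G : List ℕ → ℤ} {bad : List ℕ → ℕ → Bool}
    (hbad : ∀ pre a l, pre.length + 1 + l.length = n → bad pre a = true → G (pre ++ a :: l) = 0) :
    ∀ (k : ℕ) (pre : List ℕ), pre.length + k = n →
      dfs m G bad k pre = sumL m k fun l => G (pre ++ l) := by
  intro k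
  induction k with
  | zero =>
    intro pre _
    simp [dfs, sumL]
  | succ k ih =>
    intro pre hp
    rw [dfs, sumL, sumTo_eq, sumTo_eq]
    refine Finset.sum_congr rfl fun a _ => ?_
    by_cases h : bad pre a = true
    · rw [if_pos h, sumL_zero]
      intro l hl
      exact hbad pre a l (by omega) h
    · rw [if_neg h, ih (pre ++ [a]) (by simp; omega)]
      simp

/-- The test for a forbidden letter in one tableau. -/
def badT (n : ℕ) (rl cl K : List ℕ) (pre : List ℕ) (a : ℕ) : Bool :=
  (List.range pre.length).any (fun q => Nat.beq (cl.getD q 0) (cl.getD pre.length 0) &&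
      Nat.beq (K.getD (pre.getD q 0) 0) (K.getD a 0)) ||
    !((List.range n).any fun y => Nat.beq (cl.getD y 0) (cl.getD pre.length 0) &&
      Nat.beq (rl.getD y 0) (K.getD a 0))

lemma getD_map_letter (K L : List ℕ) (x : ℕ) (hx : x < L.length) :
    (L.map fun i => K.getD i 0).getD x 0 = K.getD (L.getD x 0) 0 := by
  rw [List.getD_eq_getElem _ _ (by simpa using hx), List.getD_eq_getElem _ _ hx]
  simp

lemma polyRC_zero_of_bad {n : ℕ} {rl cl K pre l : List ℕ} {a : ℕ}
    (ht : IsTabular (wf n rl) (wf n cl))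
    (hlen : pre.length + 1 + l.length = n) (h : badT n rl cl K pre a = true) :
    polyRC (wf n rl) (wf n cl) (wf n ((pre ++ a :: l).map fun i => K.getD i 0)) = 0 := by
  have hs : pre.length < n := by omega
  have hL : (pre ++ a :: l).length = n := by simp; omega
  have e1 : ((pre ++ a :: l).map fun i => K.getD i 0).getD pre.length 0 = K.getD a 0 := by
    rw [getD_map_letter _ _ _ (by rw [hL]; exact hs)]
    simp [List.getD_eq_getElem?_getD]
  simp only [badT, Bool.or_eq_true, List.any_eq_true, Bool.and_eq_true, Nat.beq_eq, List.mem_range,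
    Bool.not_eq_true', List.any_eq_false, not_and] at h
  rcases h with ⟨q, hq, h1, h2⟩ | h
  · refine polyRC_zero_of_dup ht (x := ⟨q, by omega⟩) (y := ⟨pre.length, hs⟩) ?_ h1 ?_
    · intro h3
      have : q = pre.length := congrArg Fin.val h3
      omega
    · simp only [wf]
      rw [e1, getD_map_letter _ _ _ (by rw [hL]; omega), ← h2]
      congr 1
      rw [List.getD_eq_getElem _ _ (by simp; omega), List.getD_eq_getElem _ _ hq]
      simp [List.getElem_append_left hq]
  · refine polyRC_zero_of_letter (x := ⟨pre.length, hs⟩) fun y hy hr => ?_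
    simp only [wf] at hy hr
    rw [e1] at hr
    exact h y y.2 hy hr

/-- The summand: values of the polytabloids, from the list of chosen triples. -/
def leaf (n : ℕ) (rl cl r1l c1l r2l c2l K1 K2 K0 : List ℕ) (V : List ℤ) (l : List ℕ) : ℤ :=
  (l.map fun i => V.getD i 0).prod *
    (sgnL r1l c1l (List.range n) (l.map fun i => K1.getD i 0) *
      sgnL r2l c2l (List.range n) (l.map fun i => K2.getD i 0) *
      sgnL rl cl (List.range n) (l.map fun i => K0.getD i 0))

/-- The test for a forbidden choice. -/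
def badAll (n : ℕ) (rl cl r1l c1l r2l c2l K1 K2 K0 : List ℕ) (pre : List ℕ) (a : ℕ) : Bool :=
  badT n r1l c1l K1 pre a || badT n r2l c2l K2 pre a || badT n rl cl K0 pre a

/-- The value at the sparse point. -/
def sparseVal (n m : ℕ) (rl cl r1l c1l r2l c2l K1 K2 K0 : List ℕ) (V : List ℤ) : ℤ :=
  dfs m (leaf n rl cl r1l c1l r2l c2l K1 K2 K0 V) (badAll n rl cl r1l c1l r2l c2l K1 K2 K0) n []

lemma polyRC_list {n : ℕ} {rl cl : List ℕ} (ht : IsTabular (wf n rl) (wf n cl)) (K L : List ℕ)
    (hL : L.length = n) :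
    polyRC (wf n rl) (wf n cl) (wf n (L.map fun i => K.getD i 0)) =
      (sgnL rl cl (List.range n) (L.map fun i => K.getD i 0) : ℂ) :=
  polyRC_sgnL ht _ _ List.nodup_range (fun x hx => List.mem_range.mp hx) (by simpa using hL)
    fun s hs => absurd (List.mem_range.mpr s.2) hs

theorem sparseVal_eq {n m : ℕ} {rl cl r1l c1l r2l c2l K1 K2 K0 : List ℕ} {V : List ℤ}
    (t0 : IsTabular (wf n rl) (wf n cl)) (t1 : IsTabular (wf n r1l) (wf n c1l))
    (t2 : IsTabular (wf n r2l) (wf n c2l)) :
    sparseVal n m rl cl r1l c1l r2l c2l K1 K2 K0 V =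
      sumL m n (leaf n rl cl r1l c1l r2l c2l K1 K2 K0 V) := by
  have := dfs_eq (m := m) (n := n) (G := leaf n rl cl r1l c1l r2l c2l K1 K2 K0 V)
    (bad := badAll n rl cl r1l c1l r2l c2l K1 K2 K0) ?_ n [] (by simp)
  · simpa [sparseVal] using this
  · intro pre a l hlen hb
    have hL : (pre ++ a :: l).length = n := by simp; omega
    have zero_of : ∀ {rl' cl' K' : List ℕ}, IsTabular (wf n rl') (wf n cl') →
        badT n rl' cl' K' pre a = true →
        sgnL rl' cl' (List.range n) ((pre ++ a :: l).map fun i => K'.getD i 0) = 0 := by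
      intro rl' cl' K' ht hbad
      have h1 := polyRC_zero_of_bad ht hlen hbad
      rw [polyRC_list ht _ _ hL] at h1
      exact_mod_cast h1
    simp only [badAll, Bool.or_eq_true] at hb
    simp only [leaf]
    rcases hb with (hb | hb) | hb
    · rw [zero_of t1 hb]; simp
    · rw [zero_of t2 hb]; simp
    · rw [zero_of t0 hb]; simp

/-- **A base case, from a sparse point**. -/
theorem real3_of_sparse {n m : ℕ} {rl cl r1l c1l r2l c2l K1 K2 K0 : List ℕ} {V : List ℤ}
    (t0 : IsTabular (wf n rl) (wf n cl)) (t1 : IsTabular (wf n r1l) (wf n c1l))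
    (t2 : IsTabular (wf n r2l) (wf n c2l))
    (h : sparseVal n m rl cl r1l c1l r2l c2l K1 K2 K0 V ≠ 0) :
    Real3 (heights (wf n cl)) (heights (wf n c1l)) (heights (wf n c2l)) := by
  refine ⟨Fin n, inferInstance, inferInstance, wf n rl, wf n cl, wf n r1l, wf n c1l, wf n r2l,
    wf n c2l, t0, t1, t2, rfl, rfl, rfl, ?_⟩
  intro h0
  apply h
  rw [sparseVal_eq t0 t1 t2, ← sum_fun_eq_sumL]
  let k1 : Fin m → ℕ := fun i => K1.getD i 0
  let k2 : Fin m → ℕ := fun i => K2.getD i 0
  let k0 : Fin m → ℕ := fun i => K0.getD i 0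
  let v : Fin m → ℂ := fun i => ((V.getD i 0 : ℤ) : ℂ)
  have h1 := eval_Psi_gOf (wf n rl) (wf n cl) (wf n r1l) (wf n c1l) (wf n r2l) (wf n c2l) k1 k2 k0 v
  rw [h0, map_zero] at h1
  have h2 : ∀ u : Fin n → Fin m,
      (((leaf n rl cl r1l c1l r2l c2l K1 K2 K0 V (List.ofFn fun i => (u i : ℕ))) : ℤ) : ℂ) =
        (∏ s, v (u s)) * (polyRC (wf n r1l) (wf n c1l) (k1 ∘ u) *
          polyRC (wf n r2l) (wf n c2l) (k2 ∘ u) * polyRC (wf n rl) (wf n cl) (k0 ∘ u)) := by
    intro u
    have hL : (List.ofFn fun i => (u i : ℕ)).length = n := by simp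
    have e : ∀ K : List ℕ, wf n ((List.ofFn fun i => (u i : ℕ)).map fun i => K.getD i 0) =
        (fun i : Fin m => K.getD i 0) ∘ u := by
      intro K
      funext s
      simp only [wf, Function.comp]
      rw [getD_map_letter _ _ _ (by rw [hL]; exact s.2)]
      congr 1
      rw [List.getD_eq_getElem _ _ (by simp)]
      simp
    have e1 := polyRC_list t1 K1 _ hL
    have e2 := polyRC_list t2 K2 _ hL
    have e3 := polyRC_list t0 K0 _ hL
    rw [e] at e1 e2 e3
    rw [e1, e2, e3]
    simp only [leaf, Int.cast_mul, v]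
    congr 1
    rw [List.map_ofFn, List.prod_ofFn]
    push_cast
    rfl
  have h3 : ((∑ u : Fin n → Fin m,
      leaf n rl cl r1l c1l r2l c2l K1 K2 K0 V (List.ofFn fun i => (u i : ℕ)) : ℤ) : ℂ) = 0 := by
    push_cast
    simp only [h2]
    exact h1.symm
  exact_mod_cast h3

end Crest.Agent.Saxl.Kron
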