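import Crest.Agent.Lib.Saxl.Kron
import Crest.Agent.Lib.Saxl.Conj

/-!
# The sign twist for `Real3`

`dual M` is the multiset of the row lengths of the diagram with column heights `M`.
`Real3 M A B` implies `Real3 (dual M) (dual A) B`.
-/

set_option autoImplicit false

open Finset Equiv

namespace Crest.Agent.Saxl.Kron

open Crest.Agent.Saxl.FourRowsSemi

section Twist

variable {S : Type*} [Fintype S] [DecidableEq S]

theorem sgnTwist_isIrreducible {V : Type*} [AddCommGroup V] [Module ℂ V]
    {ρ : Representation ℂ (Perm S) V} (hρ : ρ.IsIrreducible) : (sgnTwist ρ).IsIrreducible := by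
  let F : Subrepresentation (sgnTwist ρ) → Subrepresentation ρ := fun p =>
    { toSubmodule := p.toSubmodule
      apply_mem_toSubmodule := fun g v hv => by
        have h1 := p.apply_mem_toSubmodule g hv
        rw [sgnTwist_apply] at h1
        have h2 := p.toSubmodule.smul_mem (sgn g) h1
        rwa [smul_smul, sgn_mul_self, one_smul] at h2 }
  refine { exists_pair_ne := ⟨⊥, ⊤, ?_⟩, eq_bot_or_eq_top := ?_ }
  · intro h
    obtain ⟨x, y, hxy⟩ := hρ.exists_pair_ne
    apply hxy
    have hbot : ∀ p : Subrepresentation ρ, p = ⊥ ∨ p = ⊤ := hρ.eq_bot_or_eq_top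
    have h1 : (⊥ : Subrepresentation (sgnTwist ρ)).toSubmodule =
        (⊤ : Subrepresentation (sgnTwist ρ)).toSubmodule := congrArg _ h
    have h2 : (⊥ : Submodule ℂ V) = ⊤ := h1
    have hall : ∀ p : Subrepresentation ρ, p.toSubmodule = ⊥ := by
      intro p
      rcases hbot p with rfl | rfl
      · rfl
      · exact h2.symm
    have : ∀ p q : Subrepresentation ρ, p = q := fun p q => by
      apply Subrepresentation.toSubmodule_injective
      rw [hall, hall]
    exact this x y
  · intro p
    rcases hρ.eq_bot_or_eq_top (F p) with h | h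
    · left
      apply Subrepresentation.toSubmodule_injective
      exact congrArg (fun q : Subrepresentation ρ => q.toSubmodule) h
    · right
      apply Subrepresentation.toSubmodule_injective
      exact congrArg (fun q : Subrepresentation ρ => q.toSubmodule) h

theorem hasFix_sgnTwist {V : Type*} [AddCommGroup V] [Module ℂ V]
    {ρ : Representation ℂ (Perm S) V} {c : S → ℕ} (h : HasAlt ρ c) : HasFix (sgnTwist ρ) c := by
  obtain ⟨v, hv, hg⟩ := h
  refine ⟨v, hv, fun g hgs => ?_⟩
  rw [sgnTwist_apply, hg g hgs, smul_smul, sgn_mul_self, one_smul]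

theorem hasAlt_sgnTwist {V : Type*} [AddCommGroup V] [Module ℂ V]
    {ρ : Representation ℂ (Perm S) V} {c : S → ℕ} (h : HasFix ρ c) : HasAlt (sgnTwist ρ) c := by
  obtain ⟨v, hv, hg⟩ := h
  refine ⟨v, hv, fun g hgs => ?_⟩
  rw [sgnTwist_apply, hg g hgs]

/-- The conjugate tableau. -/
def trT {a : YoungDiagram} (T : Tab a S) : Tab a.transpose S :=
  (show ↥a.transpose.cells ≃ ↥a.cells from
    { toFun := fun c => ⟨c.1.swap, YoungDiagram.mem_transpose.mp c.2⟩
      invFun := fun c => ⟨c.1.swap, YoungDiagram.mem_transpose.mpr (by simp)⟩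
      left_inv := fun c => by simp
      right_inv := fun c => by simp }).trans T

omit [Fintype S] [DecidableEq S] in
theorem rowC_trT {a : YoungDiagram} (T : Tab a S) : rowC (trT T) = colC T := rfl

omit [Fintype S] [DecidableEq S] in
theorem colC_trT {a : YoungDiagram} (T : Tab a S) : colC (trT T) = rowC T := rfl

theorem label_sgnTwist {V : Type*} [AddCommGroup V] [Module ℂ V]
    {ρ : Representation ℂ (Perm S) V} {a : YoungDiagram} (h : Label ρ a) :
    Label (sgnTwist ρ) a.transpose := by
  obtain ⟨T, h1, h2⟩ := h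
  exact ⟨trT T, by rw [rowC_trT]; exact hasFix_sgnTwist h2, by
    rw [colC_trT]; exact hasAlt_sgnTwist h1⟩

end Twist

/-- The sign twist at the level of diagrams. -/
theorem real3_twist_young {a D E : YoungDiagram} (h : Real3 (hts a) (hts D) (hts E)) :
    Real3 (hts a.transpose) (hts D.transpose) (hts E) := by
  obtain ⟨T⟩ : Nonempty (Tab a (Fin a.card)) := exists_tab a (by simp)
  obtain ⟨p, hp, hlab⟩ := exists_irreducible_label T
  have hocc := occurs_of_real3 T h hp hlab
  have hocc' : Occurs (sgnTwist p.toRepresentation) D.transpose.cells E.cells :=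
    occurs_twist (fun c => by simp [YoungDiagram.mem_transpose]) hocc
  exact real3_of_occurs (trT T) (sgnTwist_isIrreducible hp) (label_sgnTwist hlab) hocc'

section Dual

/-- The list of column heights of a diagram. -/
def colLensL (A : YoungDiagram) : List ℕ := (List.range (A.rowLen 0)).map A.colLen

lemma ht_cells (A : YoungDiagram) (j : ℕ) : ht (fun p : ↥A.cells => p.1.2) j = A.colLen j := by
  rw [YoungDiagram.colLen_eq_card, ht]
  refine Finset.card_bij (fun p _ => p.1) ?_ ?_ ?_
  · intro p hp
    have hp' : p.1.2 = j := (mem_filter.mp hp).2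
    exact YoungDiagram.mem_col_iff.mpr ⟨p.2, hp'⟩
  · intro p _ q _ h
    exact Subtype.ext h
  · intro c hc
    obtain ⟨h1, h2⟩ := YoungDiagram.mem_col_iff.mp hc
    exact ⟨⟨c, h1⟩, by simp [h2], rfl⟩

lemma hts_eq_colLensL (A : YoungDiagram) : hts A = (colLensL A : Multiset ℕ) := by
  have himg : (univ.image (fun p : ↥A.cells => p.1.2)) = range (A.rowLen 0) := by
    ext j
    simp only [mem_image, mem_univ, true_and, mem_range]
    constructor
    · rintro ⟨⟨⟨i, j'⟩, hp⟩, rfl⟩
      have h1 : (i, j') ∈ A := hp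
      have h2 : (0, j') ∈ A := A.up_left_mem (Nat.zero_le _) le_rfl h1
      exact YoungDiagram.mem_iff_lt_rowLen.mp h2
    · intro hj
      have h2 : (0, j) ∈ A := YoungDiagram.mem_iff_lt_rowLen.mpr hj
      exact ⟨⟨(0, j), h2⟩, rfl⟩
  rw [hts, heights, himg, colLensL, Finset.range_val]
  rw [Multiset.map_congr rfl (fun j _ => ht_cells A j)]
  rfl

/-- The multiset of the row lengths of the diagram with column heights `M`. -/
def dual (M : Multiset ℕ) : Multiset ℕ :=
  (Multiset.range (M.fold max 0)).map fun i => M.countP (fun x => i < x)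

/-- The list version of `dual`. -/
def dualL (l : List ℕ) : List ℕ :=
  (List.range (l.foldr max 0)).map fun i => l.countP (fun x => i < x)

lemma dual_coe (l : List ℕ) : dual (l : Multiset ℕ) = (dualL l : Multiset ℕ) := by
  simp only [dual, dualL, Multiset.coe_fold_r, Multiset.range, Multiset.map_coe, Multiset.coe_countP]

lemma le_foldr_max (l : List ℕ) : ∀ x ∈ l, x ≤ l.foldr max 0 := by
  induction l with
  | nil => simp
  | cons a l ih =>
    intro x hx
    simp only [List.foldr_cons]
    rcases List.mem_cons.mp hx with rfl | hx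
    · exact le_max_left _ _
    · exact (ih x hx).trans (le_max_right _ _)

lemma foldr_max_mem (l : List ℕ) : l.foldr max 0 ∈ l ∨ l.foldr max 0 = 0 := by
  induction l with
  | nil => simp
  | cons a l ih =>
    simp only [List.foldr_cons]
    rcases max_choice a (l.foldr max 0) with h | h
    · rw [h]; exact Or.inl (List.mem_cons_self)
    · rw [h]
      rcases ih with h1 | h1
      · exact Or.inl (List.mem_cons_of_mem _ h1)
      · exact Or.inr h1

lemma countP_range_lt (k m : ℕ) : (List.range m).countP (fun j => decide (j < k)) = min k m := by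
  induction m with
  | zero => simp
  | succ m ih =>
    rw [List.range_succ, List.countP_append, ih]
    by_cases h : m < k
    · simp [h]; omega
    · simp [h]; omega

lemma colLen_anti (A : YoungDiagram) (j : ℕ) : A.colLen j ≤ A.colLen 0 := by
  exact A.colLen_anti 0 j (Nat.zero_le _)

lemma foldr_colLensL (A : YoungDiagram) : (colLensL A).foldr max 0 = A.colLen 0 := by
  apply le_antisymm
  · rcases foldr_max_mem (colLensL A) with h | h
    · obtain ⟨j, -, hj⟩ := List.mem_map.mp h
      rw [← hj]
      exact colLen_anti A j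
    · rw [h]; exact Nat.zero_le _
  · by_cases h0 : 0 < A.rowLen 0
    · exact le_foldr_max _ _ (List.mem_map.mpr ⟨0, List.mem_range.mpr h0, rfl⟩)
    · have h1 : A.colLen 0 = 0 := by
        by_contra hne
        have h2 : (0, 0) ∈ A := YoungDiagram.mem_iff_lt_colLen.mpr (Nat.pos_of_ne_zero hne)
        exact h0 (YoungDiagram.mem_iff_lt_rowLen.mp h2)
      omega

lemma countP_colLensL (A : YoungDiagram) (i : ℕ) :
    (colLensL A).countP (fun x => decide (i < x)) = A.rowLen i := by
  rw [colLensL, List.countP_map]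
  have h1 : (List.range (A.rowLen 0)).countP ((fun x => decide (i < x)) ∘ A.colLen) =
      (List.range (A.rowLen 0)).countP (fun j => decide (j < A.rowLen i)) := by
    apply List.countP_congr
    intro j _
    simp only [Function.comp, decide_eq_true_eq]
    rw [← YoungDiagram.mem_iff_lt_colLen, YoungDiagram.mem_iff_lt_rowLen]
  rw [h1, countP_range_lt]
  exact min_eq_left (A.rowLen_anti 0 i (Nat.zero_le _))

lemma dual_hts (A : YoungDiagram) : dual (hts A) = hts A.transpose := by
  rw [hts_eq_colLensL, hts_eq_colLensL, dual_coe]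
  congr 1
  rw [dualL, foldr_colLensL]
  conv_rhs => rw [colLensL, YoungDiagram.rowLen_transpose]
  refine List.map_congr_left fun i _ => ?_
  rw [YoungDiagram.colLen_transpose]
  exact countP_colLensL A i

lemma exists_diagram {M : Multiset ℕ} (h : ∀ x ∈ M, 0 < x) : ∃ A : YoungDiagram, hts A = M := by
  let l := M.sort (· ≥ ·)
  have hl : (l : Multiset ℕ) = M := Multiset.sort_eq M _
  have hs : l.SortedGE := by
    exact (Multiset.pairwise_sort M _).sortedGE
  have hp : ∀ x ∈ l, 0 < x := fun x hx => h x (by
    rw [← hl]; exact Multiset.mem_coe.mpr hx)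
  refine ⟨(YoungDiagram.ofRowLens l hs).transpose, ?_⟩
  rw [hts_eq_colLensL, colLensL, YoungDiagram.rowLen_transpose]
  have : (List.range ((YoungDiagram.ofRowLens l hs).colLen 0)).map
      (YoungDiagram.ofRowLens l hs).transpose.colLen = (YoungDiagram.ofRowLens l hs).rowLens := by
    rw [YoungDiagram.rowLens]
    refine List.map_congr_left fun i _ => ?_
    rw [YoungDiagram.colLen_transpose]
  rw [this, YoungDiagram.rowLens_ofRowLens_eq_self hp, hl]

lemma heights_pos {S : Type*} [Fintype S] [DecidableEq S] (c : S → ℕ) : ∀ x ∈ heights c, 0 < x := by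
  intro x hx
  obtain ⟨j, hj, rfl⟩ := Multiset.mem_map.mp hx
  exact ht_pos c hj

theorem Real3.pos {M A B : Multiset ℕ} (h : Real3 M A B) :
    (∀ x ∈ M, 0 < x) ∧ (∀ x ∈ A, 0 < x) ∧ ∀ x ∈ B, 0 < x := by
  obtain ⟨S, _, _, r, c, r1, c1, r2, c2, t0, t1, t2, hM, a1, a2, hP⟩ := h
  subst hM a1 a2
  exact ⟨heights_pos _, heights_pos _, heights_pos _⟩

/-- **The sign twist**. -/
theorem Real3.twist {M A B : Multiset ℕ} (h : Real3 M A B) : Real3 (dual M) (dual A) B := by
  obtain ⟨h1, h2, h3⟩ := h.pos
  obtain ⟨a, rfl⟩ := exists_diagram h1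
  obtain ⟨D, rfl⟩ := exists_diagram h2
  obtain ⟨E, rfl⟩ := exists_diagram h3
  rw [dual_hts, dual_hts]
  exact real3_twist_young h

theorem Real3.twist13 {M A B : Multiset ℕ} (h : Real3 M A B) : Real3 (dual M) A (dual B) :=
  h.swap12.twist.swap12

theorem Real3.twist23 {M A B : Multiset ℕ} (h : Real3 M A B) : Real3 M (dual A) (dual B) :=
  h.swap13.twist13.swap13

end Dual

end Crest.Agent.Saxl.Kron
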