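import Crest.Agent.Lib.Saxl.KronTable

/-!
# Universal shapes, by certificates
-/

set_option autoImplicit false

namespace Crest.Agent.Saxl.Kron

set_option maxRecDepth 1000000

/-- Certificate for the diagram with column heights [1]. -/
def cert_1 : List (List ℕ) := [
  [1]]

theorem uni_1 : ∃ h1 : ([1] : List ℕ).SortedGE, Uni (YoungDiagram.ofRowLens [1] h1) :=
  uni_ofRowLens tbl_good (ps := cert_1) (by decide +kernel) (by decide +kernel) (by decide +kernel)

end Crest.Agent.Saxl.Kron
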