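import Crest.Agent.Lib.Saxl.KronTable

/-!
# Universal shapes, by certificates
-/

set_option autoImplicit false

namespace Crest.Agent.Saxl.Kron

set_option maxRecDepth 1000000

/-- Certificate for the diagram with column heights [5,2,1,1,1]. -/
def cert_5_2_1_1_1 : List (List ℕ) := [
  [159,41],
  [159,33],
  [465,33],
  [124,33],
  [124,249],
  [14,829,56],
  [384,41],
  [384,33],
  [124,101],
  [1,506,212],
  [384,101],
  [1,521,228],
  [14,457,56],
  [1,521,76],
  [1,613,108],
  [1,1834,228],
  [1,1410,228],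
  [295,1438],
  [1,1834,76],
  [1,1201,118],
  [1,443,118],
  [366,1009],
  [16,363,66],
  [1,534,116],
  [1,534,228],
  [1,353,118],
  [1,1201,230],
  [1,443,230],
  [1,873,215],
  [16,523,66],
  [1,193,78],
  [1,353,230],
  [369,246],
  [171,246],
  [171,1046],
  [1,1458,63],
  [538,246],
  [171,454],
  [123,246],
  [538,454],
  [123,454],
  [123,126]]

theorem uni_5_2_1_1_1 : ∃ h1 : ([5,2,1,1,1] : List ℕ).SortedGE, Uni (YoungDiagram.ofRowLens [5,2,1,1,1] h1) :=
  uni_ofRowLens tbl_good (ps := cert_5_2_1_1_1) (by decide +kernel) (by decide +kernel) (by decide +kernel)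

end Crest.Agent.Saxl.Kron
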