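import Crest.Agent.Lib.Saxl.KronTable

/-!
# Universal shapes, by certificates
-/

set_option autoImplicit false

namespace Crest.Agent.Saxl.Kron

set_option maxRecDepth 1000000

/-- Certificate for the diagram with column heights [4,3,3,1]. -/
def cert_4_3_3_1 : List (List ℕ) := [
  [173,393],
  [488,393],
  [173,569],
  [488,569],
  [491,569],
  [57,96,529],
  [607,393],
  [12,1616,1693],
  [607,569],
  [19,96,1693],
  [19,96,529],
  [177,20],
  [444,20],
  [222,20],
  [296,20],
  [566],
  [173,485],
  [488,485],
  [491,485],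
  [57,152,529],
  [607,485],
  [53,226,1693],
  [53,226,529],
  [53,225,2118],
  [164,226,109],
  [53,225,658],
  [575],
  [15,746,277],
  [1,486,1545],
  [23,339,1545],
  [132,225,62],
  [53,745,1710],
  [1,397,1710],
  [585,179],
  [57,167,658],
  [332,179],
  [29,99,658],
  [15,758,277],
  [1,893,1710],
  [475,894],
  [429,894],
  [482,179],
  [57,99,2118],
  [57,99,658],
  [27,757,170],
  [473,894],
  [119,179],
  [475,922],
  [429,922],
  [103,894],
  [13,707,1710],
  [473,922],
  [475,182],
  [103,922],
  [473,182],
  [103,182]]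

theorem uni_4_3_3_1 : ∃ h1 : ([4,3,3,1] : List ℕ).SortedGE, Uni (YoungDiagram.ofRowLens [4,3,3,1] h1) :=
  uni_ofRowLens tbl_good (ps := cert_4_3_3_1) (by decide +kernel) (by decide +kernel) (by decide +kernel)

end Crest.Agent.Saxl.Kron
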