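import Crest.Agent.Lib.Saxl.KronTable

/-!
# Universal shapes, by certificates
-/

set_option autoImplicit false

namespace Crest.Agent.Saxl.Kron

set_option maxRecDepth 1000000

/-- Certificate for the diagram with column heights [5,3,2,1,1]. -/
def cert_5_3_2_1_1 : List (List ℕ) := [
  [21,41],
  [21,33],
  [250,33],
  [215,33],
  [139,33],
  [139,249],
  [150,265],
  [371,41],
  [71,12],
  [436,12],
  [329,12],
  [150,2093],
  [71,24],
  [436,24],
  [329,24],
  [343,265],
  [229,24],
  [343,2093],
  [343,673],
  [85,41],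
  [85,33],
  [609,33],
  [609,249],
  [150,629],
  [85,101],
  [609,101],
  [602,2093],
  [343,793],
  [343,629],
  [467,793],
  [602,793],
  [115,366],
  [149,366],
  [149,266],
  [374,41],
  [374,33],
  [374,249],
  [1,755,554],
  [374,101],
  [1,534,328],
  [520,366],
  [149,738],
  [12,1707,554],
  [688,366],
  [149,2094],
  [165,366],
  [165,266],
  [47,41],
  [47,33],
  [47,249],
  [520,738],
  [47,101],
  [281,366],
  [139,246],
  [271,366],
  [688,2094],
  [165,2094],
  [165,674],
  [31,86],
  [113,1002],
  [281,738],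
  [271,738],
  [61,14],
  [61,26],
  [261,26],
  [31,1002],
  [31,862],
  [85,246],
  [113,14],
  [113,26],
  [31,1486],
  [31,14],
  [31,26],
  [47,246],
  [374,454],
  [47,454],
  [47,126]]

theorem uni_5_3_2_1_1 : ∃ h1 : ([5,3,2,1,1] : List ℕ).SortedGE, Uni (YoungDiagram.ofRowLens [5,3,2,1,1] h1) :=
  uni_ofRowLens tbl_good (ps := cert_5_3_2_1_1) (by decide +kernel) (by decide +kernel) (by decide +kernel)

end Crest.Agent.Saxl.Kron
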