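import Crest.Agent.Lib.Saxl.KronTable

/-!
# Universal shapes, by certificates
-/

set_option autoImplicit false

namespace Crest.Agent.Saxl.Kron

set_option maxRecDepth 1000000

/-- Certificate for the diagram with column heights [4,4,3,2]. -/
def cert_4_4_3_2 : List (List ℕ) := [
  [1,392,113],
  [12,1296,113],
  [1,392,17],
  [12,1296,17],
  [1,568,17],
  [57,96,17],
  [24,96,1301],
  [12,1616,113],
  [12,948,113],
  [12,1616,17],
  [12,948,17],
  [19,96,17],
  [24,97,328],
  [1,384,113],
  [1,384,1541],
  [1,384,17],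
  [19,96,2157],
  [1,384,1189],
  [1,384,2157],
  [19,96,765],
  [1,384,765],
  [1,484,113],
  [57,152,113],
  [1,484,17],
  [57,152,17],
  [38,96,1301],
  [53,226,113],
  [12,948,141],
  [53,226,17],
  [38,97,328],
  [1,384,141],
  [53,226,2157],
  [53,226,765],
  [1,484,141],
  [57,152,141],
  [56,226,1301],
  [53,226,141],
  [67,270,328],
  [53,225,206],
  [15,358,277],
  [23,1507,277],
  [23,2479,277],
  [572],
  [56,137,62],
  [75,2767,277],
  [656],
  [687],
  [653],
  [53,225,754],
  [53,566,277],
  [679],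
  [41,99,1370],
  [57,167,206],
  [1,399,206],
  [56,566,109],
  [41,98,723],
  [29,99,206],
  [15,1698,277],
  [15,818,277],
  [27,2457,170],
  [53,137,170],
  [15,1810,277],
  [670],
  [57,167,754],
  [1,895,206],
  [561],
  [29,99,754],
  [13,683,206],
  [24,99,1370],
  [57,99,206],
  [24,98,723],
  [15,1038,277],
  [15,2550,277],
  [58,2260,170],
  [1,895,754],
  [26,404,170],
  [13,683,754],
  [13,1287,206],
  [57,99,754],
  [1,923,206],
  [29,99,650],
  [24,99,1274],
  [15,326,277],
  [63,2451,170],
  [13,1287,754],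
  [1,923,754],
  [13,955,206],
  [13,683,650],
  [57,99,650],
  [27,325,170],
  [13,955,754],
  [1,183,206],
  [13,1287,650],
  [1,923,650],
  [1,183,754],
  [13,683,146],
  [13,955,650],
  [13,1287,146],
  [1,183,650],
  [13,955,146],
  [1,183,146]]

theorem uni_4_4_3_2 : ∃ h1 : ([4,4,3,2] : List ℕ).SortedGE, Uni (YoungDiagram.ofRowLens [4,4,3,2] h1) :=
  uni_ofRowLens tbl_good (ps := cert_4_4_3_2) (by decide +kernel) (by decide +kernel) (by decide +kernel)

end Crest.Agent.Saxl.Kron
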