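import Crest.Agent.Lib.Saxl.KronTable

/-!
# Universal shapes, by certificates
-/

set_option autoImplicit false

namespace Crest.Agent.Saxl.Kron

set_option maxRecDepth 1000000

/-- Certificate for the diagram with column heights [6,3,2,1,1,1]. -/
def cert_6_3_2_1_1_1 : List (List ℕ) := [
  [16,73,45],
  [16,1133,45],
  [12,861,45],
  [13,2733,45],
  [13,2349,45],
  [13,505,536],
  [13,505,432],
  [13,505,272],
  [16,513,45],
  [12,73,12],
  [12,1133,12],
  [12,985,12],
  [12,361,12],
  [13,505,1732],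
  [12,73,24],
  [12,1133,24],
  [12,985,24],
  [12,361,24],
  [13,505,420],
  [12,513,24],
  [12,2353,24],
  [16,830,577],
  [12,521,24],
  [23,661,1936],
  [14,346,45],
  [12,2437,45],
  [13,2817,45],
  [13,2513,932],
  [13,505,932],
  [13,505,1988],
  [12,2754,45],
  [12,1657,12],
  [12,1033,12],
  [13,1434,577],
  [12,1657,24],
  [12,1033,24],
  [29,83,554],
  [159,1887,554],
  [12,662,45],
  [12,1102,89],
  [13,2478,89],
  [164,555,554],
  [12,2802,89],
  [16,458,577],
  [147,2871,590],
  [12,1374,89],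
  [147,1007,590],
  [16,429,45],
  [13,1229,45],
  [12,1581,132],
  [16,345,70],
  [12,89,86],
  [12,1086,45],
  [13,642,12],
  [14,1445,70],
  [57,89,554],
  [13,642,24],
  [13,461,70],
  [13,597,70],
  [14,878,89],
  [13,2806,89],
  [19,89,554],
  [12,2410,89],
  [14,361,578],
  [26,267,2006],
  [13,642,1496],
  [29,3,554],
  [124,317,316],
  [29,1702,2307],
  [26,267,1602],
  [14,534,45],
  [12,1133,188],
  [12,985,188],
  [13,287,70],
  [12,89,1002],
  [12,513,188],
  [13,2098,577],
  [12,2637,70],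
  [13,1025,83],
  [13,2753,70],
  [14,1594,89],
  [14,886,89],
  [12,405,70],
  [13,661,70],
  [14,443,558],
  [12,874,83],
  [12,1877,578],
  [14,521,578],
  [12,874,851],
  [12,874,443],
  [23,90,853],
  [23,90,1297],
  [14,291,86],
  [16,533,70],
  [14,1211,86],
  [12,89,14],
  [13,1125,70],
  [14,625,70],
  [12,89,26],
  [14,851,14],
  [14,443,14],
  [14,851,26],
  [13,1025,3],
  [16,1358,3],
  [12,874,3],
  [26,69,474],
  [14,1019,86],
  [14,718,83],
  [14,642,70],
  [13,2298,83],
  [14,635,14],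
  [13,1025,291],
  [16,605,3],
  [14,1099,14],
  [12,1682,3],
  [12,2670,3],
  [13,130,86],
  [14,1750,83],
  [16,605,291],
  [13,2298,635],
  [14,291,14],
  [14,718,3],
  [13,2298,3],
  [14,334,83],
  [14,1750,635],
  [14,718,291],
  [14,1019,14],
  [14,1750,3],
  [14,334,635],
  [13,130,14],
  [14,334,3],
  [14,334,291],
  [13,2438,130],
  [14,1910,130],
  [14,258,130]]

theorem uni_6_3_2_1_1_1 : ∃ h1 : ([6,3,2,1,1,1] : List ℕ).SortedGE, Uni (YoungDiagram.ofRowLens [6,3,2,1,1,1] h1) :=
  uni_ofRowLens tbl_good (ps := cert_6_3_2_1_1_1) (by decide +kernel) (by decide +kernel) (by decide +kernel)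

end Crest.Agent.Saxl.Kron
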