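import Crest.Agent.Lib.Saxl.KronTable

/-!
# Universal shapes, by certificates
-/

set_option autoImplicit false

namespace Crest.Agent.Saxl.Kron

set_option maxRecDepth 1000000

/-- Certificate for the diagram with column heights [3,1,1]. -/
def cert_3_1_1 : List (List ℕ) := [
  [138],
  [501],
  [400],
  [493],
  [484],
  [316],
  [79]]

theorem uni_3_1_1 : ∃ h1 : ([3,1,1] : List ℕ).SortedGE, Uni (YoungDiagram.ofRowLens [3,1,1] h1) :=
  uni_ofRowLens tbl_good (ps := cert_3_1_1) (by decide +kernel) (by decide +kernel) (by decide +kernel)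

end Crest.Agent.Saxl.Kron
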