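import Crest.Agent.Lib.Saxl.KronTable

/-!
# Universal shapes, by certificates
-/

set_option autoImplicit false

namespace Crest.Agent.Saxl.Kron

set_option maxRecDepth 1000000

/-- Certificate for the diagram with column heights [4,1,1,1]. -/
def cert_4_1_1_1 : List (List ℕ) := [
  [1,37],
  [1,537],
  [1,433],
  [1,273],
  [1,82],
  [1,1733],
  [1,442],
  [1,421],
  [1,634],
  [1,1098],
  [1,2],
  [1,133],
  [1,1210],
  [1,1018],
  [1,122]]

theorem uni_4_1_1_1 : ∃ h1 : ([4,1,1,1] : List ℕ).SortedGE, Uni (YoungDiagram.ofRowLens [4,1,1,1] h1) :=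
  uni_ofRowLens tbl_good (ps := cert_4_1_1_1) (by decide +kernel) (by decide +kernel) (by decide +kernel)

end Crest.Agent.Saxl.Kron
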