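import Crest.Agent.Lib.Saxl.KronTable

/-!
# Universal shapes, by certificates
-/

set_option autoImplicit false

namespace Crest.Agent.Saxl.Kron

set_option maxRecDepth 1000000

/-- Certificate for the diagram with column heights [4,2,1,1]. -/
def cert_4_2_1_1 : List (List ℕ) := [
  [16,37],
  [16,537],
  [12,17],
  [14,2237],
  [14,645],
  [16,209],
  [13,837],
  [13,2617],
  [12,866],
  [7],
  [14,82],
  [13,2133],
  [14,973],
  [12,2702],
  [16,594],
  [16,133],
  [12,1738],
  [14,2],
  [14,290],
  [13,650],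
  [14,1018],
  [14,122]]

theorem uni_4_2_1_1 : ∃ h1 : ([4,2,1,1] : List ℕ).SortedGE, Uni (YoungDiagram.ofRowLens [4,2,1,1] h1) :=
  uni_ofRowLens tbl_good (ps := cert_4_2_1_1) (by decide +kernel) (by decide +kernel) (by decide +kernel)

end Crest.Agent.Saxl.Kron
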