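import Crest.Agent.Lib.Saxl.RepTools

/-!
# Labels of irreducible representations of symmetric groups

For a colouring `c : S → ℕ` of the slots, `stab c` is the Young subgroup. `HasFix ρ c`: nonzero vector
fixed by `stab c`. `HasAlt ρ c`: nonzero vector on which `stab c` acts by the sign.

`Label ρ μ`, for a Young diagram `μ`: `HasFix ρ (rowC t)` and `HasAlt ρ (colC t)` for a tableau
`t` of shape `μ`. We prove: every irreducible representation has a (unique) label, and irreducibles
with the same label are isomorphic.  No Specht modules are used.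
-/

set_option autoImplicit false

open scoped BigOperators
open Equiv

namespace Crest.Agent.Saxl

section Basic

variable {S : Type*} [Fintype S] [DecidableEq S]
variable {V : Type*} [AddCommGroup V] [Module ℂ V]

/-- The sign of a permutation, as a complex number. -/
noncomputable def sgn (g : Perm S) : ℂ := (((Perm.sign g : ℤˣ) : ℤ) : ℂ)

@[simp] theorem sgn_one : sgn (1 : Perm S) = 1 := by simp [sgn]

theorem sgn_mul (g h : Perm S) : sgn (g * h) = sgn g * sgn h := by
  simp [sgn, Perm.sign_mul]

theorem sgn_mul_self (g : Perm S) : sgn g * sgn g = 1 := by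
  simp [sgn, ← Int.cast_mul, ← Units.val_mul, Int.units_mul_self]

theorem sgn_inv (g : Perm S) : sgn g⁻¹ = sgn g := by
  simp [sgn]

theorem sgn_swap {x y : S} (h : x ≠ y) : sgn (swap x y) = -1 := by
  simp [sgn, Perm.sign_swap h]

theorem sgn_ne_zero (g : Perm S) : sgn g ≠ 0 := by
  intro h
  have := sgn_mul_self g
  rw [h] at this
  simp at this

/-- The Young subgroup of a colouring, as a finite set of permutations. -/
def stab (c : S → ℕ) : Finset (Perm S) := Finset.univ.filter fun g => ∀ s, c (g s) = c s

@[simp] theorem mem_stab {c : S → ℕ} {g : Perm S} : g ∈ stab c ↔ ∀ s, c (g s) = c s := by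
  simp [stab]

theorem one_mem_stab (c : S → ℕ) : (1 : Perm S) ∈ stab c := by simp

theorem mul_mem_stab {c : S → ℕ} {g h : Perm S} (hg : g ∈ stab c) (hh : h ∈ stab c) :
    g * h ∈ stab c := by
  rw [mem_stab] at *
  intro s
  simp [hg, hh]

theorem inv_mem_stab {c : S → ℕ} {g : Perm S} (hg : g ∈ stab c) : g⁻¹ ∈ stab c := by
  rw [mem_stab] at *
  intro s
  have := hg (g⁻¹ s)
  simpa using this.symm

theorem swap_mem_stab {c : S → ℕ} {x y : S} (h : c x = c y) : swap x y ∈ stab c := by
  rw [mem_stab]
  intro s
  by_cases h1 : s = x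
  · subst h1; simp [h]
  by_cases h2 : s = y
  · subst h2; simp [h]
  rw [swap_apply_of_ne_of_ne h1 h2]

/-- Conjugating: membership in the stabilizer of `c ∘ g`. -/
theorem mem_stab_comp {c : S → ℕ} {g h : Perm S} :
    h ∈ stab (c ∘ g) ↔ g * h * g⁻¹ ∈ stab c := by
  simp only [mem_stab, Function.comp, Perm.mul_apply]
  constructor
  · intro H s
    have := H (g⁻¹ s)
    simpa using this
  · intro H s
    have := H (g s)
    simpa using this

theorem stab_congr {c d : S → ℕ} (h : ∀ s t, c s = c t ↔ d s = d t) : stab c = stab d := by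
  ext g
  simp only [mem_stab]
  exact forall_congr' fun s => h _ _

/-- Nonzero vector fixed by the Young subgroup of `c`. -/
def HasFix (ρ : Representation ℂ (Perm S) V) (c : S → ℕ) : Prop :=
  ∃ v, v ≠ 0 ∧ ∀ g ∈ stab c, ρ g v = v

/-- Nonzero vector on which the Young subgroup of `c` acts through the sign. -/
def HasAlt (ρ : Representation ℂ (Perm S) V) (c : S → ℕ) : Prop :=
  ∃ v, v ≠ 0 ∧ ∀ g ∈ stab c, ρ g v = sgn g • v

/-- Symmetrizer of the Young subgroup of `c`. -/
noncomputable def symE (c : S → ℕ) : Perm S → ℂ := fun g => if g ∈ stab c then 1 else 0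

/-- Antisymmetrizer of the Young subgroup of `c`. -/
noncomputable def symB (c : S → ℕ) : Perm S → ℂ := fun g => if g ∈ stab c then sgn g else 0

theorem gact_symE (ρ : Representation ℂ (Perm S) V) (c : S → ℕ) (v : V) :
    gact ρ (symE c) v = ∑ g ∈ stab c, ρ g v := by
  simp only [gact_apply, symE, ite_smul, one_smul, zero_smul]
  rw [Finset.sum_ite_mem, Finset.univ_inter]

theorem gact_symB (ρ : Representation ℂ (Perm S) V) (c : S → ℕ) (v : V) :
    gact ρ (symB c) v = ∑ g ∈ stab c, sgn g • ρ g v := by
  simp only [gact_apply, symB, ite_smul, zero_smul]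
  rw [Finset.sum_ite_mem, Finset.univ_inter]

/-- Left multiplication by an element of the stabilizer permutes the stabilizer. -/
theorem sum_stab_mulLeft {A : Type*} [AddCommMonoid A] (c : S → ℕ) {h : Perm S} (hh : h ∈ stab c)
    (F : Perm S → A) : ∑ g ∈ stab c, F (h * g) = ∑ g ∈ stab c, F g := by
  refine Finset.sum_bij' (fun g _ => h * g) (fun g _ => h⁻¹ * g) ?_ ?_ ?_ ?_ ?_
  · intro g hg; exact mul_mem_stab hh hg
  · intro g hg; exact mul_mem_stab (inv_mem_stab hh) hg
  · intro g _; simp
  · intro g _; simp
  · intro g _; rfl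

theorem sum_stab_mulRight {A : Type*} [AddCommMonoid A] (c : S → ℕ) {h : Perm S} (hh : h ∈ stab c)
    (F : Perm S → A) : ∑ g ∈ stab c, F (g * h) = ∑ g ∈ stab c, F g := by
  refine Finset.sum_bij' (fun g _ => g * h) (fun g _ => g * h⁻¹) ?_ ?_ ?_ ?_ ?_
  · intro g hg; exact mul_mem_stab hg hh
  · intro g hg; exact mul_mem_stab hg (inv_mem_stab hh)
  · intro g _; simp
  · intro g _; simp
  · intro g _; rfl

theorem gact_symE_fixed (ρ : Representation ℂ (Perm S) V) (c : S → ℕ) (v : V)
    {h : Perm S} (hh : h ∈ stab c) : ρ h (gact ρ (symE c) v) = gact ρ (symE c) v := by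
  rw [gact_symE, map_sum]
  rw [← sum_stab_mulLeft c hh (fun g => ρ g v)]
  refine Finset.sum_congr rfl fun g _ => ?_
  simp [map_mul]

theorem gact_symB_alt (ρ : Representation ℂ (Perm S) V) (c : S → ℕ) (v : V)
    {h : Perm S} (hh : h ∈ stab c) : ρ h (gact ρ (symB c) v) = sgn h • gact ρ (symB c) v := by
  rw [gact_symB, map_sum, Finset.smul_sum]
  conv_rhs => rw [← sum_stab_mulLeft c hh (fun g => sgn h • sgn g • ρ g v)]
  refine Finset.sum_congr rfl fun g _ => ?_
  simp only [map_smul, map_mul, Module.End.mul_apply, sgn_mul, smul_smul]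
  rw [← mul_assoc, sgn_mul_self, one_mul]

theorem card_stab_ne_zero (c : S → ℕ) : ((stab c).card : ℂ) ≠ 0 := by
  have : (stab c).Nonempty := ⟨1, one_mem_stab c⟩
  exact_mod_cast this.card_ne_zero

theorem hasFix_iff (ρ : Representation ℂ (Perm S) V) (c : S → ℕ) :
    HasFix ρ c ↔ ∃ v, gact ρ (symE c) v ≠ 0 := by
  constructor
  · rintro ⟨v, hv, hfix⟩
    refine ⟨v, ?_⟩
    rw [gact_symE, Finset.sum_congr rfl hfix, Finset.sum_const, ← Nat.cast_smul_eq_nsmul ℂ]
    exact smul_ne_zero (card_stab_ne_zero c) hv
  · rintro ⟨v, hv⟩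
    exact ⟨_, hv, fun g hg => gact_symE_fixed ρ c v hg⟩

theorem hasAlt_iff (ρ : Representation ℂ (Perm S) V) (c : S → ℕ) :
    HasAlt ρ c ↔ ∃ v, gact ρ (symB c) v ≠ 0 := by
  constructor
  · rintro ⟨v, hv, halt⟩
    refine ⟨v, ?_⟩
    have : ∀ g ∈ stab c, sgn g • ρ g v = v := by
      intro g hg
      rw [halt g hg, smul_smul, sgn_mul_self, one_smul]
    rw [gact_symB, Finset.sum_congr rfl this, Finset.sum_const, ← Nat.cast_smul_eq_nsmul ℂ]
    exact smul_ne_zero (card_stab_ne_zero c) hv
  · rintro ⟨v, hv⟩
    exact ⟨_, hv, fun g hg => gact_symB_alt ρ c v hg⟩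

/-- Transport along a permutation of the slots. -/
theorem HasFix.comp {ρ : Representation ℂ (Perm S) V} {c : S → ℕ} (h : HasFix ρ c) (g : Perm S) :
    HasFix ρ (c ∘ g) := by
  obtain ⟨v, hv, hfix⟩ := h
  refine ⟨ρ g⁻¹ v, ?_, ?_⟩
  · intro h0
    apply hv
    have := congrArg (ρ g) h0
    rw [← Module.End.mul_apply, ← map_mul] at this
    simpa using this
  · intro k hk
    have h2 := hfix _ (mem_stab_comp.mp hk)
    rw [← Module.End.mul_apply, ← map_mul]
    have h3 : k * g⁻¹ = g⁻¹ * (g * k * g⁻¹) := by group
    rw [h3, map_mul, Module.End.mul_apply, h2]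

theorem HasAlt.comp {ρ : Representation ℂ (Perm S) V} {c : S → ℕ} (h : HasAlt ρ c) (g : Perm S) :
    HasAlt ρ (c ∘ g) := by
  obtain ⟨v, hv, hfix⟩ := h
  refine ⟨ρ g⁻¹ v, ?_, ?_⟩
  · intro h0
    apply hv
    have := congrArg (ρ g) h0
    rw [← Module.End.mul_apply, ← map_mul] at this
    simpa using this
  · intro k hk
    have h2 := hfix _ (mem_stab_comp.mp hk)
    rw [← Module.End.mul_apply, ← map_mul]
    have h3 : k * g⁻¹ = g⁻¹ * (g * k * g⁻¹) := by group
    rw [h3, map_mul, Module.End.mul_apply, h2, map_smul]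
    congr 1
    rw [sgn_mul, sgn_mul, sgn_inv]
    linear_combination (sgn k) * sgn_mul_self g

theorem HasFix.congr {ρ : Representation ℂ (Perm S) V} {c d : S → ℕ} (h : HasFix ρ c)
    (hcd : ∀ s t, c s = c t ↔ d s = d t) : HasFix ρ d := by
  obtain ⟨v, hv, hfix⟩ := h
  exact ⟨v, hv, by rwa [← stab_congr hcd]⟩

theorem HasAlt.congr {ρ : Representation ℂ (Perm S) V} {c d : S → ℕ} (h : HasAlt ρ c)
    (hcd : ∀ s t, c s = c t ↔ d s = d t) : HasAlt ρ d := by
  obtain ⟨v, hv, hfix⟩ := h
  exact ⟨v, hv, by rwa [← stab_congr hcd]⟩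

/-- Transport along an isomorphism of representations. -/
theorem HasFix.equiv {W : Type*} [AddCommGroup W] [Module ℂ W]
    {ρ : Representation ℂ (Perm S) V} {σ : Representation ℂ (Perm S) W} (φ : ρ.Equiv σ)
    {c : S → ℕ} (h : HasFix ρ c) : HasFix σ c := by
  obtain ⟨v, hv, hfix⟩ := h
  refine ⟨φ v, ?_, ?_⟩
  · simpa using hv
  · intro g hg
    have h1 := Representation.IntertwiningMap.isIntertwining ρ σ φ.toIntertwiningMap g v
    rw [hfix g hg] at h1
    exact h1.symm

end Basic

section Pairing

variable {S : Type*} [Fintype S] [DecidableEq S]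
variable {V : Type*} [AddCommGroup V] [Module ℂ V]

theorem gact_symE_mul (ρ : Representation ℂ (Perm S) V) (c : S → ℕ) {h : Perm S} (hh : h ∈ stab c)
    (v : V) : gact ρ (symE c) (ρ h v) = gact ρ (symE c) v := by
  rw [gact_symE, gact_symE]
  rw [← sum_stab_mulRight c hh (fun g => ρ g v)]
  refine Finset.sum_congr rfl fun g _ => ?_
  simp [map_mul]

/-- The pairing lemma: a fixed vector for `c` and an alternating vector for `d` in an irreducible
representation force a transversal position of the two colourings. -/
theorem pairing {ρ : Representation ℂ (Perm S) V} (hρ : ρ.IsIrreducible) {c d : S → ℕ}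
    (hf : HasFix ρ c) (ha : HasAlt ρ d) :
    ∃ g : Perm S, Function.Injective fun s => (c s, d (g⁻¹ s)) := by
  obtain ⟨u, hu, halt⟩ := ha
  obtain ⟨v, hv⟩ := (hasFix_iff ρ c).mp hf
  have hT : gact ρ (symE c) ≠ 0 := by
    intro h0
    apply hv
    rw [h0]
    rfl
  obtain ⟨g, hg⟩ := exists_translate_ne_zero ρ hρ u hu _ hT
  refine ⟨g, ?_⟩
  intro s t hst
  by_contra hne
  simp only [Prod.mk.injEq] at hst
  obtain ⟨h1, h2⟩ := hst
  have hτ : swap s t ∈ stab c := swap_mem_stab h1
  have h3 : g⁻¹ * swap s t * g ∈ stab d := by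
    rw [mem_stab]
    intro x
    have : (g⁻¹ * swap s t * g) = swap (g⁻¹ s) (g⁻¹ t) := by
      ext y
      simp only [Perm.mul_apply]
      by_cases hy1 : g y = s
      · have : y = g⁻¹ s := by simp [← hy1]
        subst this
        simp
      by_cases hy2 : g y = t
      · have : y = g⁻¹ t := by simp [← hy2]
        subst this
        simp
      rw [swap_apply_of_ne_of_ne hy1 hy2, swap_apply_of_ne_of_ne]
      · simp
      · intro h; apply hy1; rw [h]; simp
      · intro h; apply hy2; rw [h]; simp
    rw [this]
    exact mem_stab.mp (swap_mem_stab h2) x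
  have h4 := halt _ h3
  have h5 : sgn (g⁻¹ * swap s t * g) = -1 := by
    rw [sgn_mul, sgn_mul, sgn_inv, sgn_swap hne]
    linear_combination (-1 : ℂ) * sgn_mul_self g
  rw [h5] at h4
  have h6 := gact_symE_mul ρ c hτ (ρ g u)
  have h7 : ρ (swap s t) (ρ g u) = ρ g (ρ (g⁻¹ * swap s t * g) u) := by
    rw [← Module.End.mul_apply, ← Module.End.mul_apply, ← map_mul, ← map_mul]
    congr 2
    group
  rw [h7, h4] at h6
  simp only [map_neg, neg_one_smul] at h6
  apply hg
  have h9 : (2 : ℂ) • gact ρ (symE c) (ρ g u) = 0 := by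
    rw [two_smul]
    nth_rewrite 1 [← h6]
    simp
  exact (smul_eq_zero.mp h9).resolve_left two_ne_zero

end Pairing

section Tableaux

/-- The number of cells of `μ` in the first `k` rows. -/
def rowsBelow (μ : YoungDiagram) (k : ℕ) : ℕ := (μ.cells.filter fun c => c.1 < k).card

/-- Dominance order on Young diagrams. -/
def DomLE (μ τ : YoungDiagram) : Prop := ∀ k, rowsBelow μ k ≤ rowsBelow τ k

theorem rowsBelow_succ (μ : YoungDiagram) (k : ℕ) :
    rowsBelow μ (k + 1) = rowsBelow μ k + μ.rowLen k := by
  rw [YoungDiagram.rowLen_eq_card, rowsBelow, rowsBelow, ← Finset.card_union_of_disjoint]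
  · congr 1
    ext c
    simp only [Finset.mem_filter, Finset.mem_union, YoungDiagram.mem_row_iff,
      YoungDiagram.mem_cells]
    constructor
    · rintro ⟨h1, h2⟩
      by_cases h : c.1 < k
      · exact Or.inl ⟨h1, h⟩
      · exact Or.inr ⟨h1, by omega⟩
    · rintro (⟨h1, h2⟩ | ⟨h1, h2⟩)
      · exact ⟨h1, by omega⟩
      · exact ⟨h1, by omega⟩
  · rw [Finset.disjoint_left]
    intro c hc hc2
    simp only [Finset.mem_filter, YoungDiagram.mem_row_iff] at hc hc2
    omega

theorem eq_of_domLE {μ τ : YoungDiagram} (h1 : DomLE μ τ) (h2 : DomLE τ μ) : μ = τ := by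
  have heq : ∀ k, rowsBelow μ k = rowsBelow τ k := fun k => le_antisymm (h1 k) (h2 k)
  have hrow : ∀ k, μ.rowLen k = τ.rowLen k := by
    intro k
    have e1 := rowsBelow_succ μ k
    have e2 := rowsBelow_succ τ k
    rw [heq, heq] at e1
    omega
  ext ⟨i, j⟩
  simp only [YoungDiagram.mem_cells]
  rw [YoungDiagram.mem_iff_lt_rowLen, YoungDiagram.mem_iff_lt_rowLen, hrow]

variable {S : Type*} [Fintype S] [DecidableEq S]

/-- A tableau of shape `μ`: a bijection between the cells and the slots. -/
abbrev Tab (μ : YoungDiagram) (S : Type*) := {x // x ∈ μ.cells} ≃ S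

/-- Row colouring of a tableau. -/
def rowC {μ : YoungDiagram} (t : Tab μ S) (s : S) : ℕ := (t.symm s).1.1

/-- Column colouring of a tableau. -/
def colC {μ : YoungDiagram} (t : Tab μ S) (s : S) : ℕ := (t.symm s).1.2

omit [Fintype S] [DecidableEq S] in
theorem rowC_colC_injective {μ : YoungDiagram} (t : Tab μ S) :
    Function.Injective fun s => (rowC t s, colC t s) := by
  intro s s' h
  simp only [Prod.mk.injEq, rowC, colC] at h
  have : (t.symm s).1 = (t.symm s').1 := Prod.ext h.1 h.2
  exact t.symm.injective (Subtype.ext this)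

omit [DecidableEq S] in
theorem exists_tab (μ : YoungDiagram) (h : μ.card = Fintype.card S) : Nonempty (Tab μ S) := by
  refine ⟨Fintype.equivOfCardEq ?_⟩
  simpa using h

omit [DecidableEq S] in
/-- The number of slots in a row colour class below `k` equals `rowsBelow`. -/
theorem card_rowC_lt {μ : YoungDiagram} (t : Tab μ S) (k : ℕ) :
    (Finset.univ.filter fun s => rowC t s < k).card = rowsBelow μ k := by
  rw [rowsBelow]
  refine Finset.card_bij (fun s _ => (t.symm s).1) ?_ ?_ ?_
  · intro s hs
    have hs' := (Finset.mem_filter.mp hs).2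
    exact Finset.mem_filter.mpr ⟨(t.symm s).2, hs'⟩
  · intro s _ s' _ h
    exact t.symm.injective (Subtype.ext h)
  · intro c hc
    simp only [Finset.mem_filter] at hc
    refine ⟨t ⟨c, hc.1⟩, ?_, ?_⟩
    · refine Finset.mem_filter.mpr ⟨Finset.mem_univ _, ?_⟩
      simp [rowC, hc.2]
    · simp

omit [DecidableEq S] in
/-- Slots in column `j` of a tableau: the column length. -/
theorem card_colC_eq {μ : YoungDiagram} (t : Tab μ S) (j : ℕ) :
    (Finset.univ.filter fun s => colC t s = j).card = μ.colLen j := by
  rw [YoungDiagram.colLen_eq_card]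
  refine Finset.card_bij (fun s _ => (t.symm s).1) ?_ ?_ ?_
  · intro s hs
    have hs' := (Finset.mem_filter.mp hs).2
    rw [YoungDiagram.mem_col_iff]
    exact ⟨(t.symm s).2, hs'⟩
  · intro s _ s' _ h
    exact t.symm.injective (Subtype.ext h)
  · intro c hc
    rw [YoungDiagram.mem_col_iff] at hc
    refine ⟨t ⟨c, hc.1⟩, ?_, ?_⟩
    · refine Finset.mem_filter.mpr ⟨Finset.mem_univ _, ?_⟩
      simp [colC, hc.2]
    · simp

theorem card_rows_in_col (τ : YoungDiagram) (k j : ℕ) :
    ((τ.cells.filter fun c => c.1 < k).filter fun c => c.2 = j).card = min k (τ.colLen j) := by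
  have : ((τ.cells.filter fun c => c.1 < k).filter fun c => c.2 = j) =
      (Finset.range (min k (τ.colLen j))).map ⟨fun i => (i, j), fun a b h => by simpa using h⟩ := by
    ext ⟨i, j'⟩
    constructor
    · intro h
      have h1 := Finset.mem_filter.mp h
      have h2 := Finset.mem_filter.mp h1.1
      have h3 : j' = j := h1.2
      subst h3
      refine Finset.mem_map.mpr ⟨i, Finset.mem_range.mpr (lt_min h2.2 ?_), rfl⟩
      exact YoungDiagram.mem_iff_lt_colLen.mp h2.1
    · intro h
      obtain ⟨a, ha, hEq⟩ := Finset.mem_map.mp h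
      have h1 : a = i := congrArg Prod.fst hEq
      have h2 : j = j' := congrArg Prod.snd hEq
      subst h1 h2
      have ha' := Finset.mem_range.mp ha
      refine Finset.mem_filter.mpr ⟨Finset.mem_filter.mpr ⟨?_, lt_of_lt_of_le ha' (min_le_left _ _)⟩, rfl⟩
      exact YoungDiagram.mem_iff_lt_colLen.mpr (lt_of_lt_of_le ha' (min_le_right _ _))
  rw [this, Finset.card_map, Finset.card_range]

omit [DecidableEq S] in
/-- The easy half of Gale-Ryser: a transversal position gives dominance. -/
theorem domLE_of_injective {μ τ : YoungDiagram} (t : Tab μ S) (u : Tab τ S)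
    (h : Function.Injective fun s => (rowC t s, colC u s)) : DomLE μ τ := by
  intro k
  rw [← card_rowC_lt t k]
  set A := Finset.univ.filter fun s => rowC t s < k with hA
  set J := A.image (colC u) with hJ
  have h1 : A.card = ∑ j ∈ J, (A.filter fun s => colC u s = j).card :=
    Finset.card_eq_sum_card_fiberwise fun s hs => Finset.mem_image_of_mem _ hs
  have h2 : ∀ j ∈ J, (A.filter fun s => colC u s = j).card ≤
      ((τ.cells.filter fun c => c.1 < k).filter fun c => c.2 = j).card := by
    intro j _
    rw [card_rows_in_col]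
    refine le_min ?_ ?_
    · have : (A.filter fun s => colC u s = j).card ≤ (Finset.range k).card := by
        refine Finset.card_le_card_of_injOn (rowC t) ?_ ?_
        · intro s hs
          have hs1 := (Finset.mem_filter.mp (Finset.mem_filter.mp hs).1).2
          simpa using hs1
        · intro s hs s' hs' heq
          have h1 := (Finset.mem_filter.mp hs).2
          have h2 := (Finset.mem_filter.mp hs').2
          exact h (Prod.ext heq (h1.trans h2.symm))
      simpa using this
    · rw [← card_colC_eq u j]
      refine Finset.card_le_card ?_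
      intro s hs
      exact Finset.mem_filter.mpr ⟨Finset.mem_univ _, (Finset.mem_filter.mp hs).2⟩
  calc A.card = ∑ j ∈ J, (A.filter fun s => colC u s = j).card := h1
    _ ≤ ∑ j ∈ J, ((τ.cells.filter fun c => c.1 < k).filter fun c => c.2 = j).card :=
        Finset.sum_le_sum h2
    _ ≤ (τ.cells.filter fun c => c.1 < k).card := by
        rw [← Finset.card_biUnion]
        · refine Finset.card_le_card ?_
          intro c hc
          obtain ⟨_, _, hc⟩ := Finset.mem_biUnion.mp hc
          exact (Finset.mem_filter.mp hc).1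
        · intro a _ b _ hab
          rw [Function.onFun, Finset.disjoint_left]
          intro c hc hc2
          exact hab ((Finset.mem_filter.mp hc).2.symm.trans (Finset.mem_filter.mp hc2).2)

end Tableaux

section Labels

variable {S : Type*} [Fintype S] [DecidableEq S]
variable {V : Type*} [AddCommGroup V] [Module ℂ V]

theorem HasAlt.equiv {W : Type*} [AddCommGroup W] [Module ℂ W]
    {ρ : Representation ℂ (Perm S) V} {σ : Representation ℂ (Perm S) W} (φ : ρ.Equiv σ)
    {c : S → ℕ} (h : HasAlt ρ c) : HasAlt σ c := by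
  obtain ⟨v, hv, hfix⟩ := h
  refine ⟨φ v, ?_, ?_⟩
  · simpa using hv
  · intro g hg
    have h1 := Representation.IntertwiningMap.isIntertwining ρ σ φ.toIntertwiningMap g v
    rw [hfix g hg, map_smul] at h1
    exact h1.symm

omit [Fintype S] [DecidableEq S] in
theorem rowC_comp {μ : YoungDiagram} (t t' : Tab μ S) : rowC t' = rowC t ∘ (t'.symm.trans t) := by
  funext s
  simp [rowC]

omit [Fintype S] [DecidableEq S] in
theorem colC_comp {μ : YoungDiagram} (t t' : Tab μ S) : colC t' = colC t ∘ (t'.symm.trans t) := by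
  funext s
  simp [colC]

/-- `ρ` has label `μ`. -/
def Label (ρ : Representation ℂ (Perm S) V) (μ : YoungDiagram) : Prop :=
  ∃ t : Tab μ S, HasFix ρ (rowC t) ∧ HasAlt ρ (colC t)

theorem Label.all {ρ : Representation ℂ (Perm S) V} {μ : YoungDiagram} (h : Label ρ μ)
    (t' : Tab μ S) : HasFix ρ (rowC t') ∧ HasAlt ρ (colC t') := by
  obtain ⟨t, h1, h2⟩ := h
  rw [rowC_comp t t', colC_comp t t']
  exact ⟨h1.comp _, h2.comp _⟩

theorem Label.equiv {W : Type*} [AddCommGroup W] [Module ℂ W]
    {ρ : Representation ℂ (Perm S) V} {σ : Representation ℂ (Perm S) W} (φ : ρ.Equiv σ)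
    {μ : YoungDiagram} (h : Label ρ μ) : Label σ μ := by
  obtain ⟨t, h1, h2⟩ := h
  exact ⟨t, h1.equiv φ, h2.equiv φ⟩

/-- A fixed vector of shape `μ` and an alternating vector of column shape `τ`: `μ ≤ τ`. -/
theorem domLE_of_fix_alt {ρ : Representation ℂ (Perm S) V} (hρ : ρ.IsIrreducible)
    {μ τ : YoungDiagram} (t : Tab μ S) (u : Tab τ S) (h1 : HasFix ρ (rowC t))
    (h2 : HasAlt ρ (colC u)) : DomLE μ τ := by
  obtain ⟨g, hg⟩ := pairing hρ h1 h2
  exact domLE_of_injective t (u.trans g) hg

theorem Label.unique {ρ : Representation ℂ (Perm S) V} (hρ : ρ.IsIrreducible)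
    {μ τ : YoungDiagram} (h1 : Label ρ μ) (h2 : Label ρ τ) : μ = τ := by
  obtain ⟨t, a1, a2⟩ := h1
  obtain ⟨u, b1, b2⟩ := h2
  exact eq_of_domLE (domLE_of_fix_alt hρ t u a1 b2) (domLE_of_fix_alt hρ u t b1 a2)

/-- Left regular representation. -/
noncomputable def regRep (G : Type*) [Group G] : Representation ℂ G (G → ℂ) where
  toFun g :=
    { toFun := fun f x => f (g⁻¹ * x)
      map_add' := fun _ _ => rfl
      map_smul' := fun _ _ => rfl }
  map_one' := by ext; simp
  map_mul' := by intros; ext; simp [mul_assoc]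

@[simp] theorem regRep_apply {G : Type*} [Group G] (g : G) (f : G → ℂ) (x : G) :
    regRep G g f x = f (g⁻¹ * x) := rfl

/-- Convolution in the group algebra. -/
noncomputable def conv {G : Type*} [Group G] [Fintype G] (a b : G → ℂ) : G → ℂ :=
  fun g => ∑ h, a h * b (h⁻¹ * g)

omit [Module ℂ V] in
theorem gact_conv {G : Type*} [Group G] [Fintype G] [Module ℂ V] (ρ : Representation ℂ G V)
    (a b : G → ℂ) (v : V) :
    gact ρ (conv a b) v = gact ρ a (gact ρ b v) := by
  rw [gact_apply, gact_apply]
  simp only [conv, Finset.sum_smul]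
  rw [Finset.sum_comm]
  refine Finset.sum_congr rfl fun h _ => ?_
  rw [gact_apply, map_sum, Finset.smul_sum]
  refine Fintype.sum_equiv (Equiv.mulLeft h⁻¹) _ _ ?_
  intro g
  have e : ρ h (ρ (h⁻¹ * g) v) = ρ g v := by
    rw [← Module.End.mul_apply, ← map_mul]
    simp
  simp only [Equiv.coe_mulLeft, map_smul, e, mul_smul]

theorem gact_reg_single {G : Type*} [Group G] [Fintype G] [DecidableEq G] (a : G → ℂ) :
    gact (regRep G) a (Pi.single 1 1) = a := by
  funext x
  simp only [gact_apply, Finset.sum_apply, Pi.smul_apply, regRep_apply, smul_eq_mul]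
  rw [Finset.sum_eq_single x]
  · simp
  · intro g _ hg
    rw [Pi.single_eq_of_ne]
    · simp
    · intro h
      exact hg (inv_mul_eq_one.mp h)
  · simp

theorem gact_mem {G : Type*} [Group G] [Fintype G] {ρ : Representation ℂ G V}
    (p : Subrepresentation ρ) (a : G → ℂ) {v : V} (hv : v ∈ p.toSubmodule) :
    gact ρ a v ∈ p.toSubmodule := by
  rw [gact_apply]
  exact p.toSubmodule.sum_mem fun g _ => p.toSubmodule.smul_mem _ (p.apply_mem_toSubmodule g hv)

/-- For each tableau there is an irreducible subrepresentation of the regular representation with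
label the shape of the tableau. -/
theorem exists_irreducible_label {μ : YoungDiagram} (t : Tab μ S) :
    ∃ p : Subrepresentation (regRep (Perm S)), p.toRepresentation.IsIrreducible ∧
      Label p.toRepresentation μ := by
  set r := rowC t
  set q := colC t
  set a := conv (symE r) (symB q) with ha
  have ha1 : a 1 ≠ 0 := by
    have : a 1 = 1 := by
      rw [ha, conv, Finset.sum_eq_single 1]
      · simp [symE, symB]
      · intro h _ hne
        by_cases h1 : h ∈ stab r
        · by_cases h2 : h⁻¹ * 1 ∈ stab q
          · exfalso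
            apply hne
            rw [mul_one] at h2
            have h3 := inv_mem_stab h2
            rw [inv_inv] at h3
            ext s
            have := rowC_colC_injective t (a₁ := h s) (a₂ := s)
              (Prod.ext (mem_stab.mp h1 s) (mem_stab.mp h3 s))
            rw [this]
            rfl
          · simp only [symB, if_neg h2, mul_zero]
        · simp only [symE, if_neg h1, zero_mul]
      · simp
    rw [this]
    exact one_ne_zero
  have hv : ∃ v, gact (regRep (Perm S)) a v ≠ 0 := by
    refine ⟨Pi.single 1 1, ?_⟩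
    rw [gact_reg_single]
    intro h
    exact ha1 (congrFun h 1)
  obtain ⟨p, hp, v, hvp, hv⟩ := exists_irreducible_gact_ne_zero _ a hv
  refine ⟨p, hp, t, ?_, ?_⟩
  · rw [ha, gact_conv] at hv
    refine ⟨⟨_, gact_mem p (symE r) (gact_mem p (symB q) hvp)⟩, ?_, ?_⟩
    · intro h
      exact hv (congrArg Subtype.val h)
    · intro g hg
      exact Subtype.ext (gact_symE_fixed (regRep (Perm S)) r _ hg)
  · rw [ha, gact_conv] at hv
    refine ⟨⟨_, gact_mem p (symB q) hvp⟩, ?_, ?_⟩
    · intro h
      apply hv
      have h0 : gact (regRep (Perm S)) (symB q) v = 0 := congrArg Subtype.val h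
      rw [h0, map_zero]
    · intro g hg
      exact Subtype.ext (gact_symB_alt (regRep (Perm S)) q v hg)

theorem card_cellsOfRowLens (w : List ℕ) : (YoungDiagram.cellsOfRowLens w).card = w.sum := by
  induction w with
  | nil => simp [YoungDiagram.cellsOfRowLens]
  | cons a w ih =>
    rw [YoungDiagram.cellsOfRowLens, Finset.card_union_of_disjoint]
    · simp [ih]
    · rw [Finset.disjoint_left]
      rintro ⟨x, y⟩ h1 h2
      simp only [Finset.mem_product, Finset.mem_singleton, Finset.mem_map,
        Function.Embedding.prodMap, Function.Embedding.coeFn_mk, Prod.exists, Prod.map,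
        Prod.mk.injEq] at h1 h2
      obtain ⟨a', b', _, h3, _⟩ := h2
      simp at h3
      omega

/-- The Young diagram of a partition. -/
def diagOf {n : ℕ} (p : n.Partition) : YoungDiagram :=
  YoungDiagram.ofRowLens (p.parts.sort (· ≥ ·)) (Multiset.pairwise_sort _ _).sortedGE

theorem card_diagOf {n : ℕ} (p : n.Partition) : (diagOf p).card = n := by
  show (YoungDiagram.cellsOfRowLens _).card = n
  rw [card_cellsOfRowLens]
  calc (p.parts.sort (· ≥ ·)).sum = p.parts.sum := by
        rw [← Multiset.sum_coe, Multiset.sort_eq]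
    _ = n := p.parts_sum

theorem diagOf_injective {n : ℕ} : Function.Injective (diagOf (n := n)) := by
  intro p q h
  have h1 : (diagOf p).rowLens = (diagOf q).rowLens := by rw [h]
  rw [diagOf, diagOf, YoungDiagram.rowLens_ofRowLens_eq_self, YoungDiagram.rowLens_ofRowLens_eq_self]
    at h1
  · apply Nat.Partition.ext
    rw [← Multiset.sort_eq p.parts (· ≥ ·), ← Multiset.sort_eq q.parts (· ≥ ·), h1]
  · intro x hx
    exact q.parts_pos ((Multiset.mem_sort _).mp hx)
  · intro x hx
    exact p.parts_pos ((Multiset.mem_sort _).mp hx)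

section Count

variable {G : Type*} [Group G] [Fintype G]

theorem card_le_conjClasses {ι : Type*} [Fintype ι] [DecidableEq ι] [Fintype (ConjClasses G)]
    (χ : ι → G → ℂ) (hconj : ∀ i g h, χ i (h * g * h⁻¹) = χ i g)
    (h : ∀ i j, (Nat.card G : ℂ)⁻¹ * ∑ g, χ i g * χ j g⁻¹ = if i = j then 1 else 0) :
    Fintype.card ι ≤ Fintype.card (ConjClasses G) := by
  have hli : LinearIndependent ℂ (fun i (c : ConjClasses G) => χ i c.out) := by
    rw [Fintype.linearIndependent_iff]
    intro a ha j
    have hall : ∀ g, ∑ i, a i * χ i g = 0 := by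
      intro g
      have h1 := congrFun ha (ConjClasses.mk g)
      simp only [Finset.sum_apply, Pi.smul_apply, smul_eq_mul, Pi.zero_apply] at h1
      rw [← h1]
      refine Finset.sum_congr rfl fun i _ => ?_
      congr 1
      have hc : IsConj (ConjClasses.mk g).out g := by
        rw [← ConjClasses.mk_eq_mk_iff_isConj]
        exact Quotient.out_eq _
      obtain ⟨c, hc⟩ := isConj_iff.mp hc
      have e := hconj i (ConjClasses.mk g).out c
      rw [hc] at e
      exact e
    have h2 : (Nat.card G : ℂ)⁻¹ * ∑ g, (∑ i, a i * χ i g) * χ j g⁻¹ = 0 := by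
      simp [hall]
    have h3 : (Nat.card G : ℂ)⁻¹ * ∑ g, (∑ i, a i * χ i g) * χ j g⁻¹ =
        ∑ i, a i * ((Nat.card G : ℂ)⁻¹ * ∑ g, χ i g * χ j g⁻¹) := by
      simp only [Finset.sum_mul, Finset.mul_sum]
      rw [Finset.sum_comm]
      refine Finset.sum_congr rfl fun i _ => ?_
      refine Finset.sum_congr rfl fun g _ => ?_
      ring
    rw [h3] at h2
    simp only [h, mul_ite, mul_one, mul_zero, Finset.sum_ite_eq', Finset.mem_univ, if_true] at h2
    exact h2
  have := hli.fintype_card_le_finrank
  simpa using this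

end Count

/-- The family of irreducibles labelled by partitions: `irrSub p` is an irreducible
subrepresentation of the regular representation with label `diagOf p`. -/
theorem exists_irrSub (p : (Fintype.card S).Partition) :
    ∃ q : Subrepresentation (regRep (Perm S)), q.toRepresentation.IsIrreducible ∧
      Label q.toRepresentation (diagOf p) := by
  obtain ⟨t⟩ := exists_tab (S := S) (diagOf p) (card_diagOf p)
  exact exists_irreducible_label t

/-- `irrSub p`. -/
noncomputable def irrSub (p : (Fintype.card S).Partition) :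
    Subrepresentation (regRep (Perm S)) :=
  Classical.choose (exists_irrSub p)

theorem irrSub_irr (p : (Fintype.card S).Partition) :
    (irrSub p).toRepresentation.IsIrreducible := (Classical.choose_spec (exists_irrSub p)).1

theorem irrSub_label (p : (Fintype.card S).Partition) :
    Label (irrSub p).toRepresentation (diagOf p) := (Classical.choose_spec (exists_irrSub p)).2

theorem irrSub_not_equiv {p q : (Fintype.card S).Partition} (h : p ≠ q) :
    IsEmpty ((irrSub p).toRepresentation.Equiv (irrSub q).toRepresentation) := by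
  refine ⟨fun φ => h (diagOf_injective ?_)⟩
  exact Label.unique (irrSub_irr q) ((irrSub_label p).equiv φ) (irrSub_label q)

/-- Every irreducible representation is isomorphic to some `irrSub p`. -/
theorem exists_equiv_irrSub [FiniteDimensional ℂ V] {ρ : Representation ℂ (Perm S) V}
    (hρ : ρ.IsIrreducible) :
    ∃ p : (Fintype.card S).Partition, Nonempty (ρ.Equiv (irrSub p).toRepresentation) := by
  classical
  by_contra hcon
  push Not at hcon
  have : ρ.IsIrreducible := hρ
  have : Invertible (Nat.card (Perm S) : ℂ) := by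
    refine invertibleOfNonzero ?_
    exact_mod_cast Nat.card_pos.ne'
  let _ : Fintype (ConjClasses (Perm S)) := Fintype.ofFinite _
  let χ : Option (Fintype.card S).Partition → Perm S → ℂ := fun i =>
    match i with
    | none => ρ.character
    | some p => (irrSub p).toRepresentation.character
  have hconj : ∀ i g h, χ i (h * g * h⁻¹) = χ i g := by
    intro i g h
    cases i with
    | none => exact Representation.char_conj _ g h
    | some p => exact Representation.char_conj _ g h
  have horth : ∀ i j, (Nat.card (Perm S) : ℂ)⁻¹ * ∑ g, χ i g * χ j g⁻¹ = if i = j then 1 else 0 := by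
    intro i j
    cases i with
    | none =>
      cases j with
      | none =>
        have := Representation.char_orthonormal ρ ρ
        rw [if_pos ⟨Representation.Equiv.refl ρ⟩] at this
        simpa [χ] using this
      | some q =>
        have := irrSub_irr q
        have := Representation.char_orthonormal ρ (irrSub q).toRepresentation
        rw [if_neg] at this
        · simpa [χ] using this
        · rintro ⟨φ⟩
          exact (hcon q).false φ.symm
    | some p =>
      have := irrSub_irr p
      cases j with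
      | none =>
        have := Representation.char_orthonormal (irrSub p).toRepresentation ρ
        rw [if_neg] at this
        · simpa [χ] using this
        · rintro ⟨φ⟩
          exact (hcon p).false φ
      | some q =>
        have := irrSub_irr q
        have := Representation.char_orthonormal (irrSub p).toRepresentation
          (irrSub q).toRepresentation
        by_cases hpq : p = q
        · subst hpq
          rw [if_pos ⟨Representation.Equiv.refl _⟩] at this
          simpa [χ] using this
        · rw [if_neg] at this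
          · simpa [χ, hpq] using this
          · rintro ⟨φ⟩
            exact (irrSub_not_equiv hpq).false φ.symm
  have h1 := card_le_conjClasses χ hconj horth
  have h2 : Fintype.card (ConjClasses (Perm S)) ≤ Fintype.card (Fintype.card S).Partition := by
    refine Fintype.card_le_of_injective (fun c => (Quotient.out c : Perm S).partition) ?_
    intro c c' h
    have h3 : IsConj (Quotient.out c : Perm S) (Quotient.out c') := Perm.partition_eq_of_isConj.mpr h
    have h4 := ConjClasses.mk_eq_mk_iff_isConj.mpr h3
    have e1 : ConjClasses.mk (Quotient.out c : Perm S) = c := Quotient.out_eq c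
    have e2 : ConjClasses.mk (Quotient.out c' : Perm S) = c' := Quotient.out_eq c'
    rw [e1, e2] at h4
    exact h4
  rw [Fintype.card_option] at h1
  omega

/-- Every irreducible representation has a label. -/
theorem exists_label [FiniteDimensional ℂ V] {ρ : Representation ℂ (Perm S) V}
    (hρ : ρ.IsIrreducible) : ∃ μ : YoungDiagram, μ.card = Fintype.card S ∧ Label ρ μ := by
  obtain ⟨p, ⟨φ⟩⟩ := exists_equiv_irrSub hρ
  exact ⟨diagOf p, card_diagOf p, (irrSub_label p).equiv φ.symm⟩

/-- Irreducibles with the same label are isomorphic. -/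
theorem equiv_of_label {W : Type*} [AddCommGroup W] [Module ℂ W] [FiniteDimensional ℂ V]
    [FiniteDimensional ℂ W] {ρ : Representation ℂ (Perm S) V} {σ : Representation ℂ (Perm S) W}
    (hρ : ρ.IsIrreducible) (hσ : σ.IsIrreducible) {μ : YoungDiagram} (h1 : Label ρ μ)
    (h2 : Label σ μ) : Nonempty (ρ.Equiv σ) := by
  obtain ⟨p, ⟨φ⟩⟩ := exists_equiv_irrSub hρ
  obtain ⟨q, ⟨ψ⟩⟩ := exists_equiv_irrSub hσ
  have e1 : diagOf p = μ := Label.unique (irrSub_irr p) (irrSub_label p) (h1.equiv φ)
  have e2 : diagOf q = μ := Label.unique (irrSub_irr q) (irrSub_label q) (h2.equiv ψ)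
  have e3 : p = q := diagOf_injective (e1.trans e2.symm)
  subst e3
  exact ⟨φ.trans ψ.symm⟩

end Labels

end Crest.Agent.Saxl
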