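import Crest.Agent.Lib.Saxl.Coverage

/-!
# The arithmetic of a level (row 195, helper62)

Integer concavity of the partial sums of the rows of `ν`, and the bounds that the block test at a level
asks for, from a list of explicit inequalities between the numbers of the level.
-/

set_option autoImplicit false

namespace Crest.Agent.Saxl

/-- Rows below a long row. -/
theorem rowsBelow_add_mul_le (ν : YoungDiagram) (i d : ℕ) :
    rowsBelow ν i + d * ν.rowLen (i + d) ≤ rowsBelow ν (i + d) := by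
  induction d with
  | zero => simp
  | succ d ih =>
    rw [← add_assoc, rowsBelow_succ]
    have h1 : ν.rowLen (i + d + 1) ≤ ν.rowLen (i + d) := ν.rowLen_anti _ _ (Nat.le_succ _)
    have h2 : (d + 1) * ν.rowLen (i + d + 1) = d * ν.rowLen (i + d + 1) + ν.rowLen (i + d + 1) := by
      ring
    have h3 : d * ν.rowLen (i + d + 1) ≤ d * ν.rowLen (i + d) := Nat.mul_le_mul_left _ h1
    omega

/-- **Integer concavity.** `v` is any threshold: either the last row in `S_j` is longer than `v`, or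
all the later rows are at most `v`. -/
theorem rowsBelow_ge_of_line (ν : YoungDiagram) {i j q v X : ℕ} (hij : i ≤ j)
    (h1 : X ≤ rowsBelow ν i + (j - i) * (v + 1)) (h2 : X + (q - j) * v ≤ rowsBelow ν q) :
    X ≤ rowsBelow ν j := by
  rcases Nat.lt_or_ge j q with hjq | hqj
  swap
  · have h3 := rowsBelow_mono ν hqj
    simp only [Nat.sub_eq_zero_of_le hqj, Nat.zero_mul, add_zero] at h2
    omega
  obtain ⟨d, rfl⟩ := Nat.exists_eq_add_of_le hij
  rcases d with _ | d
  · simpa using h1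
  by_cases hr : v + 1 ≤ ν.rowLen (i + d)
  · have h3 := rowsBelow_add_mul_le ν i d
    have h4 : rowsBelow ν (i + (d + 1)) = rowsBelow ν (i + d) + ν.rowLen (i + d) := by
      rw [← add_assoc, rowsBelow_succ]
    have h5 : d * (v + 1) ≤ d * ν.rowLen (i + d) := Nat.mul_le_mul_left _ hr
    have h6 : (i + (d + 1) - i) * (v + 1) = d * (v + 1) + (v + 1) := by
      rw [Nat.add_sub_cancel_left]
      ring
    omega
  · obtain ⟨g, hg⟩ := Nat.exists_eq_add_of_le hjq.le
    have h3 := rowsBelow_add_le ν (i + (d + 1)) g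
    have h4 : ν.rowLen (i + (d + 1)) ≤ v := by
      have := ν.rowLen_anti (i + d) (i + (d + 1)) (by omega)
      omega
    have h5 : g * ν.rowLen (i + (d + 1)) ≤ g * v := Nat.mul_le_mul_left _ h4
    rw [hg] at h2
    have h6 : i + (d + 1) + g - (i + (d + 1)) = g := by omega
    rw [h6] at h2
    omega

/-- The lines at a level. -/
theorem line_bounds (ν : YoungDiagram) {B : ℕ → ℕ} {b e E h q : ℕ}
    (hB2 : ∀ k, B k ≤ k * b + e) (hB3 : ∀ k, B (k + 1) ≤ E + k * (b + 1))
    (hy : E + 1 ≤ rowsBelow ν 1) (hS1 : q * b + e + 1 ≤ rowsBelow ν q)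
    (hS3 : E + 2 * h + 1 ≤ rowsBelow ν 3) (hS2 : (q - 2) * b + e + 2 * h + 1 ≤ rowsBelow ν q) :
    (∀ k, 1 ≤ k → k ≤ q → B k + 1 ≤ rowsBelow ν k) ∧
    (∀ k, 1 ≤ k → k + 2 ≤ q → B k + 2 * h + 1 ≤ rowsBelow ν (k + 2)) := by
  constructor
  · intro k hk hkq
    obtain ⟨k', rfl⟩ := Nat.exists_eq_add_of_le hk
    obtain ⟨g, rfl⟩ := Nat.exists_eq_add_of_le hkq
    apply rowsBelow_ge_of_line ν (i := 1) (q := 1 + k' + g) (v := b) hk
    · have := hB3 k'
      rw [add_comm 1 k', Nat.add_sub_cancel]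
      omega
    · have h1 := hB2 (1 + k')
      rw [Nat.add_sub_cancel_left]
      have h2 : (1 + k' + g) * b = (1 + k') * b + g * b := by ring
      rw [h2] at hS1
      omega
  · intro k hk hkq
    obtain ⟨k', rfl⟩ := Nat.exists_eq_add_of_le hk
    obtain ⟨g, rfl⟩ := Nat.exists_eq_add_of_le hkq
    apply rowsBelow_ge_of_line ν (i := 3) (q := 1 + k' + 2 + g) (v := b) (by omega)
    · have := hB3 k'
      have h3 : 1 + k' + 2 - 3 = k' := by omega
      rw [h3]
      rw [add_comm k' 1] at this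
      omega
    · have h1 := hB2 (1 + k')
      rw [Nat.add_sub_cancel_left]
      have h2 : 1 + k' + 2 + g - 2 = (1 + k') + g := by omega
      rw [h2] at hS2
      have h3 : ((1 + k') + g) * b = (1 + k') * b + g * b := by ring
      rw [h3] at hS2
      omega

/-- The number of cells is at most the area of the box. -/
theorem card_le_mul (ν : YoungDiagram) : ν.card ≤ ν.colLen 0 * ν.rowLen 0 := by
  rw [← sum_rowLen_colLen ν]
  calc ∑ y ∈ Finset.range (ν.colLen 0), ν.rowLen y ≤ ∑ _y ∈ Finset.range (ν.colLen 0), ν.rowLen 0 :=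
        Finset.sum_le_sum fun y _ => ν.rowLen_anti 0 y (Nat.zero_le _)
    _ = ν.colLen 0 * ν.rowLen 0 := by simp

/-- The numbers of a level, with the inequalities used by the two regimes `p ≤ P` and `P < p`. -/
structure LevelNums (c n h : ℕ) (B : ℕ → ℕ) where
  β₁ : ℕ
  P : ℕ
  Y₀ : ℕ
  v₁ : ℕ
  w₁ : ℕ
  Y₂ : ℕ
  b : ℕ
  e : ℕ
  E : ℕ
  v₂ : ℕ
  w₂ : ℕ
  /-- all parts are at most `β₁` -/
  hB1 : ∀ k, B k ≤ k * β₁
  /-- the line of the regime `P < p` -/
  hB2 : ∀ k, B k ≤ k * b + e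
  hB3 : ∀ k, B (k + 1) ≤ E + k * (b + 1)
  hβ₁ : 1 ≤ β₁
  hb : 2 ≤ b
  hv₁ : 1 ≤ v₁
  hw₁ : 1 ≤ w₁
  hv₂ : 2 ≤ v₂
  hw₂ : 2 ≤ w₂
  -- the first row
  hY₀c : Y₀ ≤ c
  hY₀ : (Y₀ - 1) * (Y₀ - 1) < n
  hY₀h : h + 1 ≤ Y₀
  hY₂P : Y₂ ≤ P + 1
  hY₂c : Y₂ ≤ c
  hY₂E : E + 1 ≤ Y₂
  hY₂h : h + 1 ≤ Y₂
  -- the regime `p ≤ P`
  hP1 : P * β₁ + 1 ≤ n
  hP2 : P * β₁ + 2 * h + 1 ≤ n + 2 * β₁
  hP3 : P + 2 * h + 1 ≤ n
  hP4 : β₁ + 2 * h + 1 ≤ Y₀ + 2 * (v₁ + 1)
  hP5 : β₁ + 2 * h + 1 + (P - 3) * v₁ ≤ n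
  hP6 : β₁ + 2 * h + 1 + P ≤ n
  hP7 : 2 * h + 1 ≤ Y₀ + (w₁ + 1)
  hP8 : 2 * h + 1 + (P - 2) * w₁ ≤ n
  -- the regime `P < p`
  hQ1 : (c - 1) * b + e + 1 ≤ n
  hQ2 : (c - 3) * b + e + 2 * h + 1 ≤ n
  hQ3 : e + 2 * h + 1 + 2 * (c - 1) ≤ n
  hQ4 : E + 2 * h + 1 ≤ Y₂ + 2 * (v₂ + 1)
  hQ5 : E + 2 * h + 1 + (c - 4) * v₂ ≤ n
  hQ6 : E + 2 * h + 1 + 2 * (c - 1) ≤ n
  hQ7 : 2 * h + 1 ≤ Y₂ + (w₂ + 1)
  hQ8 : 2 * h + 1 + (c - 3) * w₂ ≤ n

section

variable {c n h : ℕ} {B : ℕ → ℕ}

/-- The auxiliary arithmetic: `(q - r) v + (p - q) ≤ (P - r) v` for `q ≤ p ≤ P`, `r ≤ q`, `1 ≤ v`. -/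
theorem aux_reg1 {q p P r v : ℕ} (hr : r ≤ q) (hqp : q ≤ p) (hpP : p ≤ P) (hv : 1 ≤ v) :
    (q - r) * v + (p - q) ≤ (P - r) * v := by
  have h1 : (P - r) = (q - r) + (p - q) + (P - p) := by omega
  rw [h1]
  have h2 : (p - q) ≤ (p - q) * v := Nat.le_mul_of_pos_right _ hv
  have h3 : ((q - r) + (p - q) + (P - p)) * v =
      (q - r) * v + (p - q) * v + (P - p) * v := by ring
  rw [h3]
  omega

/-- The auxiliary arithmetic: `(q - r) v + 2 (c - 1 - q) ≤ (c - 1 - r) v` for `r ≤ q ≤ c - 1`, `2 ≤ v`. -/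
theorem aux_reg2 {q c₁ r v : ℕ} (hr : r ≤ q) (hq : q ≤ c₁) (hv : 2 ≤ v) :
    (q - r) * v + 2 * (c₁ - q) ≤ (c₁ - r) * v := by
  have h1 : (c₁ - r) = (q - r) + (c₁ - q) := by omega
  rw [h1]
  have h2 : 2 * (c₁ - q) ≤ (c₁ - q) * v := by
    rw [Nat.mul_comm]
    exact Nat.mul_le_mul_left _ hv
  have h3 : ((q - r) + (c₁ - q)) * v = (q - r) * v + (c₁ - q) * v := by ring
  rw [h3]
  omega

/-- **The bounds of a level.** For `ν` with short columns, in the good orientation, the partial sums of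
the rows are above the majorant `B`. -/
theorem LevelNums.bounds (L : LevelNums c n h B) (ν : YoungDiagram) (hcard : ν.card = n)
    (hq : ν.colLen 0 + ν.colLen 1 ≤ 2 * (c - 1)) (hor : c ≤ ν.rowLen 0 ∨ ν.colLen 0 ≤ ν.rowLen 0) :
    (∀ k, 1 ≤ k → k ≤ ν.colLen 1 → B k + 1 ≤ rowsBelow ν k) ∧
    (∀ k, 1 ≤ k → k + 2 ≤ ν.colLen 1 → B k + 2 * h + 1 ≤ rowsBelow ν (k + 2)) ∧
    h + 1 ≤ ν.rowLen 0 ∧ 2 * h + 1 ≤ rowsBelow ν 2 := by
  have hS := rowsBelow_colLen_one ν
  rw [hcard] at hS
  have htb : ν.colLen 1 ≤ ν.colLen 0 := ν.colLen_anti 0 1 (by omega)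
  have hS1' := rowsBelow_one ν
  set p := ν.colLen 0 with hp
  set q := ν.colLen 1 with hqq
  set y := ν.rowLen 0 with hy
  have hbox : n ≤ p * y := by
    rw [← hcard]
    exact card_le_mul ν
  by_cases hreg : p ≤ L.P
  · -- the regime `p ≤ P`
    have hY : L.Y₀ ≤ y := by
      rcases hor with h1 | h1
      · exact L.hY₀c.trans h1
      · by_contra hlt
        have h2 : y ≤ L.Y₀ - 1 := by omega
        have h3 : p * y ≤ (L.Y₀ - 1) * (L.Y₀ - 1) :=
          Nat.mul_le_mul (h1.trans h2) h2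
        have := L.hY₀
        omega
    have hβy : L.β₁ + 1 ≤ y := by
      by_contra hlt
      have h2 : y ≤ L.β₁ := by omega
      have h3 : p * y ≤ L.P * L.β₁ := Nat.mul_le_mul hreg h2
      have := L.hP1
      omega
    have hline := line_bounds (B := B) (b := L.β₁) (e := 0) (E := L.β₁) (h := h) (q := q) ν
      (fun k => by simpa using L.hB1 k)
      (fun k => by
        have h1 := L.hB1 (k + 1)
        have h2 : (k + 1) * L.β₁ = L.β₁ + k * L.β₁ := by ring
        have h3 : k * L.β₁ ≤ k * (L.β₁ + 1) := Nat.mul_le_mul_left _ (by omega)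
        omega)
      (by rw [hS1']; exact hβy)
      (by
        have h1 : q * L.β₁ + (p - q) ≤ p * L.β₁ := by
          have := aux_reg1 (q := q) (p := p) (P := p) (r := 0) (v := L.β₁) (Nat.zero_le _) htb le_rfl
            L.hβ₁
          simpa using this
        have h2 : p * L.β₁ ≤ L.P * L.β₁ := Nat.mul_le_mul_right _ hreg
        have := L.hP1
        omega)
      (by
        apply rowsBelow_ge_of_line ν (i := 1) (q := q) (v := L.v₁) (by omega)
        · rw [hS1']
          have := L.hP4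
          have h2 : (3 - 1) * (L.v₁ + 1) = 2 * (L.v₁ + 1) := rfl
          omega
        · by_cases hq3 : 3 ≤ q
          · have h1 := aux_reg1 hq3 htb hreg L.hv₁
            have := L.hP5
            omega
          · have h1 : (q - 3) * L.v₁ = 0 := by
              rw [Nat.sub_eq_zero_of_le (by omega), Nat.zero_mul]
            have := L.hP6
            omega)
      (by
        by_cases hq2 : 2 ≤ q
        · have h1 := aux_reg1 hq2 htb hreg L.hβ₁
          have h2 : (L.P - 2) * L.β₁ + 2 * L.β₁ = L.P * L.β₁ ∨ L.P < 2 := by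
            by_cases hP : 2 ≤ L.P
            · left
              obtain ⟨u, hu⟩ := Nat.exists_eq_add_of_le hP
              rw [hu, Nat.add_sub_cancel_left]
              ring
            · right; omega
          have := L.hP2
          rcases h2 with h2 | h2
          · simp only [add_zero]
            omega
          · omega
        · have h1 : (q - 2) * L.β₁ = 0 := by
            rw [Nat.sub_eq_zero_of_le (by omega), Nat.zero_mul]
          have := L.hP3
          simp only [add_zero]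
          omega)
    refine ⟨hline.1, hline.2, by have := L.hY₀h; omega, ?_⟩
    apply rowsBelow_ge_of_line ν (i := 1) (q := q) (v := L.w₁) (by omega)
    · rw [hS1']
      have := L.hP7
      simp only [Nat.add_one_sub_one, Nat.one_mul]
      omega
    · by_cases hq2 : 2 ≤ q
      · have h1 := aux_reg1 hq2 htb hreg L.hw₁
        have := L.hP8
        omega
      · have h1 : (q - 2) * L.w₁ = 0 := by
          rw [Nat.sub_eq_zero_of_le (by omega), Nat.zero_mul]
        have := L.hP3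
        omega
  · -- the regime `P < p`
    have hY : L.Y₂ ≤ y := by
      rcases hor with h1 | h1
      · exact L.hY₂c.trans h1
      · have := L.hY₂P
        omega
    have hqc : q ≤ c - 1 := by omega
    have hpq : p - q ≤ 2 * (c - 1 - q) := by omega
    have hline := line_bounds (B := B) (b := L.b) (e := L.e) (E := L.E) (h := h) (q := q) ν
      L.hB2 L.hB3
      (by rw [hS1']; have := L.hY₂E; omega)
      (by
        have h1 := aux_reg2 (Nat.zero_le q) hqc L.hb
        simp only [Nat.sub_zero] at h1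
        have := L.hQ1
        omega)
      (by
        apply rowsBelow_ge_of_line ν (i := 1) (q := q) (v := L.v₂) (by omega)
        · rw [hS1']
          have := L.hQ4
          have h2 : (3 - 1) * (L.v₂ + 1) = 2 * (L.v₂ + 1) := rfl
          omega
        · by_cases hq3 : 3 ≤ q
          · have h1 := aux_reg2 hq3 hqc L.hv₂
            have h2 : c - 1 - 3 = c - 4 := by omega
            rw [h2] at h1
            have := L.hQ5
            omega
          · have h1 : (q - 3) * L.v₂ = 0 := by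
              rw [Nat.sub_eq_zero_of_le (by omega), Nat.zero_mul]
            have := L.hQ6
            omega)
      (by
        by_cases hq2 : 2 ≤ q
        · have h1 := aux_reg2 hq2 hqc L.hb
          have h2 : c - 1 - 2 = c - 3 := by omega
          rw [h2] at h1
          have := L.hQ2
          omega
        · have h1 : (q - 2) * L.b = 0 := by
            rw [Nat.sub_eq_zero_of_le (by omega), Nat.zero_mul]
          have := L.hQ3
          omega)
    refine ⟨hline.1, hline.2, by have := L.hY₂h; omega, ?_⟩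
    apply rowsBelow_ge_of_line ν (i := 1) (q := q) (v := L.w₂) (by omega)
    · rw [hS1']
      have := L.hQ7
      simp only [Nat.add_one_sub_one, Nat.one_mul]
      omega
    · by_cases hq2 : 2 ≤ q
      · have h1 := aux_reg2 hq2 hqc L.hw₂
        have h2 : c - 1 - 2 = c - 3 := by omega
        rw [h2] at h1
        have := L.hQ8
        omega
      · have h1 : (q - 2) * L.w₂ = 0 := by
          rw [Nat.sub_eq_zero_of_le (by omega), Nat.zero_mul]
        have := L.hQ6
        have := L.hQ7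
        omega

end

end Crest.Agent.Saxl
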