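import Crest.Agent.Lib.Saxl.PeelExtra
import Crest.Agent.Lib.Saxl.Kron

/-!
# The mixed rule (row 195, helper62, #2146 of helper57)

The bottom `y` cells of the first column of `ν` carry an alternating vector, the rest of `ν` two
horizontal strips.  Alternating vectors are kept along the pieces, so that the vertical strips of the
next hook need no column estimate.
-/

set_option autoImplicit false

open scoped BigOperators
open Equiv

namespace Crest.Agent.Saxl

section

variable {S : Type} [Fintype S] [DecidableEq S] {V : Type} [AddCommGroup V] [Module ℂ V]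

/-- A vector fixed by the Young subgroup of `d`, alternating under the permutations moving only
elements of `B`. -/
def HasMix (ρ : Representation ℂ (Perm S) V) (d : S → ℕ) (B : Finset S) : Prop :=
  ∃ v, v ≠ 0 ∧ (∀ g ∈ stab d, ρ g v = v) ∧ ∀ g : Perm S, (∀ s, s ∉ B → g s = s) → ρ g v = sgn g • v

/-- A colouring whose Young subgroup is the group of permutations of `B`. -/
noncomputable def altCol (B : Finset S) (s : S) : ℕ :=
  if s ∈ B then 0 else (Fintype.equivFin S s).1 + 1

theorem mem_stab_altCol {B : Finset S} {g : Perm S} : g ∈ stab (altCol B) ↔ ∀ s, s ∉ B → g s = s := by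
  rw [mem_stab]
  constructor
  · intro h s hs
    have h1 := h s
    simp only [altCol, if_neg hs] at h1
    by_cases h2 : g s ∈ B
    · simp [h2] at h1
    · simp only [if_neg h2, Nat.add_right_cancel_iff] at h1
      exact (Fintype.equivFin S).injective (Fin.ext h1)
  · intro h s
    by_cases hs : s ∈ B
    · have h1 : g s ∈ B := by
        by_contra h2
        have h3 := h _ h2
        have h4 := g.injective h3
        rw [h4] at h2
        exact h2 hs
      simp [altCol, hs, h1]
    · rw [h s hs]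

/-- Permutations with disjoint supports commute, the form used here. -/
theorem commute_of_sep {B : Finset S} {d : S → ℕ} (hsep : ∀ s ∈ B, ∀ t, d t = d s → t = s)
    {g h : Perm S} (hg : ∀ s, s ∉ B → g s = s) (hh : h ∈ stab d) : g * h = h * g := by
  have hdis : Perm.Disjoint g h := by
    intro s
    by_cases hs : s ∈ B
    · exact Or.inr (hsep s hs _ (mem_stab.mp hh s))
    · exact Or.inl (hg s hs)
  exact hdis.commute

/-- The symmetrizer of `d` keeps the vectors alternating on `B`. -/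
theorem gact_symE_alt {W : Type} [AddCommGroup W] [Module ℂ W] (τ : Representation ℂ (Perm S) W)
    {B : Finset S} {d : S → ℕ} (hsep : ∀ s ∈ B, ∀ t, d t = d s → t = s) {u : W}
    {g : Perm S} (hg : ∀ s, s ∉ B → g s = s) (hu : τ g u = sgn g • u) :
    τ g (gact τ (symE d) u) = sgn g • gact τ (symE d) u := by
  rw [gact_symE, map_sum, Finset.smul_sum]
  refine Finset.sum_congr rfl fun h hh => ?_
  rw [← Module.End.mul_apply, ← map_mul, commute_of_sep hsep hg hh, map_mul, Module.End.mul_apply, hu,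
    map_smul]

/-- **An irreducible subrepresentation with a mixed vector.** -/
theorem exists_irreducible_mix {W : Type} [AddCommGroup W] [Module ℂ W] [FiniteDimensional ℂ W]
    (τ : Representation ℂ (Perm S) W) {d : S → ℕ} {B : Finset S}
    (hsep : ∀ s ∈ B, ∀ t, d t = d s → t = s) (h : HasMix τ d B) :
    ∃ p : Subrepresentation τ, p.toRepresentation.IsIrreducible ∧ HasMix p.toRepresentation d B := by
  obtain ⟨v, hv, hvf, hva⟩ := h
  have hne : ∃ x, gact τ (conv (symE d) (symB (altCol B))) x ≠ 0 := by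
    refine ⟨v, ?_⟩
    rw [gact_conv, gact_symB]
    have h1 : ∑ g ∈ stab (altCol B), sgn g • τ g v = ((stab (altCol B)).card : ℂ) • v := by
      have : ∀ g ∈ stab (altCol B), sgn g • τ g v = v := by
        intro g hg
        rw [hva g (mem_stab_altCol.mp hg), smul_smul, sgn_mul_self, one_smul]
      rw [Finset.sum_congr rfl this, Finset.sum_const, Nat.cast_smul_eq_nsmul]
    rw [h1, map_smul, gact_symE]
    have h2 : ∑ g ∈ stab d, τ g v = ((stab d).card : ℂ) • v := by
      rw [Finset.sum_congr rfl hvf, Finset.sum_const, Nat.cast_smul_eq_nsmul]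
    rw [h2, smul_smul]
    exact smul_ne_zero (mul_ne_zero (card_stab_ne_zero _) (card_stab_ne_zero _)) hv
  obtain ⟨p, hp, x, hxp, hx⟩ := exists_irreducible_gact_ne_zero τ _ hne
  rw [gact_conv] at hx
  refine ⟨p, hp, ⟨gact τ (symE d) (gact τ (symB (altCol B)) x),
    gact_mem p _ (gact_mem p _ hxp)⟩, ?_, ?_, ?_⟩
  · intro h0
    exact hx (congrArg Subtype.val h0)
  · intro g hg
    exact Subtype.ext (gact_symE_fixed τ d _ hg)
  · intro g hg
    apply Subtype.ext
    exact gact_symE_alt τ hsep hg (gact_symB_alt τ (altCol B) x (mem_stab_altCol.mpr hg))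

/-- The trace of `B` off `A`. -/
def offB (A B : Finset S) : Finset {s // s ∉ A} := Finset.univ.filter fun s => s.1 ∈ B

theorem card_offB {A B : Finset S} (h : Disjoint A B) : (offB A B).card = B.card := by
  classical
  have : (offB A B).map (Function.Embedding.subtype _) = B := by
    ext s
    simp only [offB, Finset.mem_map, Finset.mem_filter, Finset.mem_univ, true_and,
      Function.Embedding.coe_subtype]
    constructor
    · rintro ⟨t, ht, rfl⟩
      exact ht
    · intro hs
      exact ⟨⟨s, fun hA => (Finset.disjoint_left.mp h hA hs)⟩, hs, rfl⟩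
  conv_rhs => rw [← this]
  rw [Finset.card_map]

/-- **Pieces keep the mixed vectors.** -/
theorem exists_piece_hasMix [FiniteDimensional ℂ V] {ρ : Representation ℂ (Perm S) V} {d : S → ℕ}
    {B : Finset S} (hmix : HasMix ρ d B) (A : Finset S) (hd : ∀ s ∈ A, ∀ t ∈ A, d s = d t)
    (hsep : ∀ s ∈ B, ∀ t, d t = d s → t = s) :
    ∃ p : Subrepresentation (fixSub ρ A).toRepresentation,
      p.toRepresentation.IsIrreducible ∧ Piece ρ A p.toRepresentation ∧
        HasMix p.toRepresentation (d ∘ ((↑) : {s // s ∉ A} → S)) (offB A B) := by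
  classical
  obtain ⟨v, hv, hvf, hva⟩ := hmix
  have hvW : v ∈ (fixSub ρ A).toSubmodule := fun g hg => hvf g (mem_stab_of_off hd hg)
  have hsep' : ∀ s ∈ offB A B, ∀ t, (d ∘ ((↑) : {s // s ∉ A} → S)) t =
      (d ∘ ((↑) : {s // s ∉ A} → S)) s → t = s := by
    intro s hs t ht
    exact Subtype.ext (hsep s.1 (Finset.mem_filter.mp hs).2 t.1 ht)
  have hm : HasMix (fixSub ρ A).toRepresentation (d ∘ ((↑) : {s // s ∉ A} → S)) (offB A B) := by
    refine ⟨⟨v, hvW⟩, fun h0 => hv (congrArg Subtype.val h0), ?_, ?_⟩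
    · intro g hg
      exact Subtype.ext (hvf _ (ofSubtype_mem_stab hg))
    · intro g hg
      apply Subtype.ext
      have h1 : ∀ s, s ∉ B → (Perm.ofSubtype g : Perm S) s = s := by
        intro s hs
        by_cases hsA : s ∉ A
        · rw [Perm.ofSubtype_apply_of_mem g hsA]
          have h2 : (⟨s, hsA⟩ : {s // s ∉ A}) ∉ offB A B := by
            simp [offB, hs]
          rw [hg _ h2]
        · rw [Perm.ofSubtype_apply_of_not_mem g hsA]
      have h3 := hva _ h1
      have h4 : sgn (Perm.ofSubtype g : Perm S) = sgn g := by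
        simp [sgn, Perm.sign_ofSubtype]
      rw [h4] at h3
      exact h3
  obtain ⟨p, hp, hpm⟩ := exists_irreducible_mix _ hsep' hm
  exact ⟨p, hp, piece_of_sub ρ A p, hpm⟩

/-- A peel with a mixed vector. -/
theorem mix_step [FiniteDimensional ℂ V] {ρ : Representation ℂ (Perm S) V} {d : S → ℕ}
    {B : Finset S} (hmix : HasMix ρ d B) {A : Finset S} {c : ℕ} (hA : A.card = c)
    (hd : ∀ s ∈ A, ∀ t ∈ A, d s = d t) (hsep : ∀ s ∈ B, ∀ t, d t = d s → t = s)
    {X Y : Finset (ℕ × ℕ)}
    (τc : Perm (Fin c)) (τ : ℕ → ℕ) (hτ : ∀ i : Fin c, τ i = τc i)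
    (π : ℕ → ℕ) (hπ : (Finset.range c).image π = Finset.range c)
    (hcnt : ∀ k < c, min (rowCnt X (π k)) (rowCnt Y (τ (π k))) + k + 1 ≤ c)
    (IH : ∀ (V' : Type) [AddCommGroup V'] [Module ℂ V'] [FiniteDimensional ℂ V']
      (ρ' : Representation ℂ (Perm {s // s ∉ A}) V'), ρ'.IsIrreducible →
      HasMix ρ' (d ∘ ((↑) : {s // s ∉ A} → S)) (offB A B) → Occurs ρ' X Y) :
    Occurs ρ (addCol c X) (addCol c Y) := by
  obtain ⟨p, hp, hpiece, hpm⟩ := exists_piece_hasMix hmix A hd hsep
  exact occurs_of_piece hA hpiece (IH _ p.toRepresentation hp hpm) τc τ hτ π hπ hcnt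

/-- The vertical strips: an alternating vector on `B` of the size of the two strips. -/
theorem occurs_of_alt {L₁ L₂ : Finset (ℕ × ℕ)} {c₁ b₁ m : ℕ}
    (h1 : PeelStep L₁ L₂ c₁ b₁) (hL₁ : ∀ q, q ∈ L₁ ↔ q.swap ∈ L₁) (U : Universal L₂ m)
    (hcard : Fintype.card S = c₁ + b₁ + m) [FiniteDimensional ℂ V]
    {ρ : Representation ℂ (Perm S) V} (hρ : ρ.IsIrreducible) {B : Finset S}
    (hBc : B.card = c₁ + b₁)
    (hv : ∃ v, v ≠ 0 ∧ ∀ g : Perm S, (∀ s, s ∉ B → g s = s) → ρ g v = sgn g • v) :
    Occurs ρ L₁ L₁ := by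
  classical
  apply occurs_of_twist_selfConj hL₁
  obtain ⟨v, hv, hva⟩ := hv
  obtain ⟨B₁, hB₁sub, hB₁c⟩ := Finset.exists_subset_card_eq (s := B) (n := c₁) (by omega)
  let d₂ : S → ℕ := fun s => if s ∈ B₁ then 0 else if s ∈ B then 1 else (Fintype.equivFin S s).1 + 2
  have hd0 : lc d₂ 0 = c₁ := by
    rw [← hB₁c]
    unfold lc
    congr 1
    ext s
    simp only [Finset.mem_filter, Finset.mem_univ, true_and, d₂]
    split_ifs with h3 h4
    · simp [h3]
    · simp [h3]
    · simp [h3]
  have hd1 : lc d₂ 1 = b₁ := by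
    have h2 : (Finset.univ.filter fun s => d₂ s = 1) = B \ B₁ := by
      ext s
      simp only [Finset.mem_filter, Finset.mem_univ, true_and, Finset.mem_sdiff, d₂]
      split_ifs with h3 h4
      · simp [h3]
      · simp [h3, h4]
      · simp [h4]
    unfold lc
    rw [h2, Finset.card_sdiff_of_subset hB₁sub, hBc, hB₁c]
    omega
  have hfix : HasFix (sgnTwist ρ) d₂ := by
    refine ⟨v, hv, fun g hg => ?_⟩
    have hoff : ∀ s, s ∉ B → g s = s := by
      intro s hs
      have h3 : d₂ (g s) = d₂ s := mem_stab.mp hg s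
      have h4 : s ∉ B₁ := fun h => hs (hB₁sub h)
      simp only [d₂, if_neg h4, if_neg hs] at h3
      split_ifs at h3 with h5 h6
      all_goals first
        | (exfalso; omega)
        | exact (Fintype.equivFin S).injective (Fin.ext (by omega))
    rw [sgnTwist_apply, hva g hoff, smul_smul, sgn_mul_self, one_smul]
  have hirr := sgnTwist_isIrreducible hρ
  obtain ⟨η, -, hη⟩ := exists_label hirr
  refine h1.occurs hirr hη hfix (a := 0) (a' := 1) (by omega) hd0 hd1 ?_
  intro S₄ _ _ j _ _ hcard₄ V₄ _ _ _ ρ₄ hρ₄ _ _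
  exact U S₄ (by omega) V₄ ρ₄ hρ₄

/-- **Two pieces keep the mixed vector, the vertical strips need no estimate.** -/
theorem occurs_of_hasMix {L₀ L₁ L₂ : Finset (ℕ × ℕ)} {c b c₁ b₁ m : ℕ}
    (h0 : PeelStep L₀ L₁ c b) (h1 : PeelStep L₁ L₂ c₁ b₁) (hL₁ : ∀ q, q ∈ L₁ ↔ q.swap ∈ L₁)
    (U : Universal L₂ m) (hcard : Fintype.card S = c + b + c₁ + b₁ + m)
    [FiniteDimensional ℂ V] {ρ : Representation ℂ (Perm S) V} {d : S → ℕ} {B : Finset S}
    (hmix : HasMix ρ d B) (hsep : ∀ s ∈ B, ∀ t, d t = d s → t = s)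
    (hB0 : ∀ s ∈ B, d s ≠ 0 ∧ d s ≠ 1) (hc : lc d 0 = c) (hb : lc d 1 = b)
    (hBc : B.card = c₁ + b₁) : Occurs ρ L₀ L₀ := by
  classical
  obtain ⟨X, rfl, hX, ⟨τc, τ, π, hτ, hπ, hcnt⟩, ⟨τc', τ', π', hτ', hπ', hcnt'⟩⟩ := h0
  set A : Finset S := Finset.univ.filter fun s => d s = 0 with hAdef
  have hAc : A.card = c := hc
  have hdA : ∀ s ∈ A, ∀ t ∈ A, d s = d t := by
    intro s hs t ht
    rw [(Finset.mem_filter.mp hs).2, (Finset.mem_filter.mp ht).2]
  have hAB : Disjoint A B := by
    rw [Finset.disjoint_left]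
    intro s hs hs'
    exact (hB0 s hs').1 (Finset.mem_filter.mp hs).2
  set A₂ : Finset {s // s ∉ A} := Finset.univ.filter fun s => d s.1 = 1 with hA₂def
  have hA₂c : A₂.card = b := by
    rw [← hb]
    have h1' : lc (d ∘ ((↑) : {s // s ∉ A} → S)) 1 = lc d 1 := by
      refine lc_comp_of_range _ Subtype.val_injective d ?_
      intro s hs
      refine ⟨⟨s, ?_⟩, rfl⟩
      simp only [hAdef, Finset.mem_filter, Finset.mem_univ, true_and]
      rw [hs]
      omega
    rw [← h1']
    rfl
  have hdA₂ : ∀ s ∈ A₂, ∀ t ∈ A₂, (d ∘ ((↑) : {s // s ∉ A} → S)) s = (d ∘ ((↑) : {s // s ∉ A} → S)) t := by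
    intro s hs t ht
    show d s.1 = d t.1
    rw [(Finset.mem_filter.mp hs).2, (Finset.mem_filter.mp ht).2]
  have hAB₂ : Disjoint A₂ (offB A B) := by
    rw [Finset.disjoint_left]
    intro s hs hs'
    exact (hB0 s.1 (Finset.mem_filter.mp hs').2).2 (Finset.mem_filter.mp hs).2
  have hsep₁ : ∀ s ∈ offB A B, ∀ t, (d ∘ ((↑) : {s // s ∉ A} → S)) t =
      (d ∘ ((↑) : {s // s ∉ A} → S)) s → t = s := by
    intro s hs t ht
    exact Subtype.ext (hsep s.1 (Finset.mem_filter.mp hs).2 t.1 ht)
  refine mix_step hmix hAc hdA hsep τc τ hτ π hπ hcnt ?_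
  intro V₁ _ _ _ ρ₁ _ hm₁
  refine occurs_conj hX hX ?_
  refine mix_step hm₁ hA₂c hdA₂ hsep₁ τc' τ' hτ' π' hπ' hcnt' ?_
  intro V₂ _ _ _ ρ₂ hρ₂ hm₂
  obtain ⟨v, hv, -, hva⟩ := hm₂
  refine occurs_of_alt h1 hL₁ U ?_ hρ₂ (B := offB A₂ (offB A B)) ?_ ⟨v, hv, hva⟩
  · have h3 : Fintype.card {s' : {s // s ∉ A} // s' ∉ A₂} = Fintype.card {s // s ∉ A} - A₂.card := by
      rw [Fintype.card_subtype_compl, Fintype.card_coe]
    have h4 : Fintype.card {s // s ∉ A} = Fintype.card S - A.card := by
      rw [Fintype.card_subtype_compl, Fintype.card_coe]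
    omega
  · rw [card_offB hAB₂, card_offB hAB, hBc]

/-- A colouring separating the elements of `B`. -/
noncomputable def sepCol (c : S → ℕ) (B : Finset S) (K : ℕ) (s : S) : ℕ :=
  if s ∈ B then K + (Fintype.equivFin S s).1 else c s

theorem sepCol_sep {c : S → ℕ} {B : Finset S} {K : ℕ} (hK : ∀ s, c s < K) :
    ∀ s ∈ B, ∀ t, sepCol c B K t = sepCol c B K s → t = s := by
  intro s hs t ht
  simp only [sepCol, if_pos hs] at ht
  by_cases htB : t ∈ B
  · simp only [if_pos htB] at ht
    exact (Fintype.equivFin S).injective (Fin.ext (by omega))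
  · simp only [if_neg htB] at ht
    have := hK t
    omega

theorem stab_sepCol_le {c : S → ℕ} {B : Finset S} {K : ℕ} (hK : ∀ s, c s < K) {g : Perm S}
    (hg : g ∈ stab (sepCol c B K)) : g ∈ stab c := by
  rw [mem_stab] at hg ⊢
  intro s
  by_cases hs : s ∈ B
  · rw [sepCol_sep hK s hs (g s) (hg s)]
  · have h1 := hg s
    simp only [sepCol, if_neg hs] at h1
    by_cases h2 : g s ∈ B
    · simp only [if_pos h2] at h1
      have := hK s
      omega
    · simpa only [if_neg h2] using h1

/-- **The mixed vector of a label.** The slots `B` lie in the first column. -/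
theorem hasMix_sepCol [FiniteDimensional ℂ V] {ρ : Representation ℂ (Perm S) V}
    (hρ : ρ.IsIrreducible) {ν : YoungDiagram} (hlab : Label ρ ν) (T : Tab ν S) {B : Finset S}
    (hB : ∀ s ∈ B, colC T s = 0) {K : ℕ} (hK : ∀ s, rowC T s < K) :
    HasMix ρ (sepCol (rowC T) B K) B := by
  obtain ⟨v, hv⟩ := Kron.exists_symmetrizer_ne_zero T hρ hlab
  set u := gact ρ (symB (colC T)) v with hu
  have hua : ∀ g : Perm S, (∀ s, s ∉ B → g s = s) → ρ g u = sgn g • u := by
    intro g hg
    refine gact_symB_alt ρ (colC T) v (mem_stab_of_off ?_ hg)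
    intro s hs t ht
    rw [hB s hs, hB t ht]
  set R := sepCol (rowC T) B K with hR
  have hsep := sepCol_sep (c := rowC T) (B := B) hK
  refine ⟨gact ρ (symE R) u, ?_, fun g hg => gact_symE_fixed ρ R u hg, fun g hg =>
    gact_symE_alt ρ hsep hg (hua g hg)⟩
  intro h0
  apply hv
  have h1 : gact ρ (symE (rowC T)) (gact ρ (symE R) u) =
      ((stab R).card : ℂ) • gact ρ (symE (rowC T)) u := by
    rw [gact_symE ρ (rowC T), gact_symE ρ R, gact_symE ρ (rowC T), Nat.cast_smul_eq_nsmul,
      ← Finset.sum_const]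
    have h2 : ∀ g ∈ stab (rowC T), ρ g (∑ h ∈ stab R, ρ h u) = ∑ h ∈ stab R, ρ (g * h) u := by
      intro g _
      rw [map_sum]
      refine Finset.sum_congr rfl fun h _ => ?_
      rw [map_mul, Module.End.mul_apply]
    rw [Finset.sum_congr rfl h2, Finset.sum_comm]
    refine Finset.sum_congr rfl fun h hh => ?_
    exact sum_stab_mulRight (rowC T) (stab_sepCol_le hK hh) (fun g => ρ g u)
  rw [h0, map_zero] at h1
  have h3 := h1.symm
  exact (smul_eq_zero.mp h3).resolve_left (card_stab_ne_zero R)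

theorem sgn_ofSubtype {B : Finset S} (g : Perm {s // s ∉ B}) :
    sgn (Perm.ofSubtype g : Perm S) = sgn g := by
  simp [sgn, Perm.sign_ofSubtype]

/-- **Dominance on the complement of `B`.** -/
theorem HasMix.of_pc_off {ρ : Representation ℂ (Perm S) V} {c : S → ℕ} {B : Finset S}
    (h : HasMix ρ c B) {d' : {s // s ∉ B} → ℕ} (hd' : Antitone (lc d'))
    (hP : ∀ k, pc d' k ≤ pc (c ∘ ((↑) : {s // s ∉ B} → S)) k) :
    ∃ v, v ≠ 0 ∧ (∀ g ∈ stab d', ρ (Perm.ofSubtype g) v = v) ∧
      ∀ g : Perm S, (∀ s, s ∉ B → g s = s) → ρ g v = sgn g • v := by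
  obtain ⟨v, hv, hvf, hva⟩ := h
  have hvW : v ∈ (fixSub (sgnTwist ρ) B).toSubmodule := fun g hg => by
    rw [sgnTwist_apply, hva g hg, smul_smul, sgn_mul_self, one_smul]
  have hact : ∀ (g : Perm {s // s ∉ B}) (x : (fixSub (sgnTwist ρ) B).toSubmodule),
      ((sgnTwist (fixSub (sgnTwist ρ) B).toRepresentation g x : (fixSub (sgnTwist ρ) B).toSubmodule) : V) =
        ρ (Perm.ofSubtype g) x.1 := by
    intro g x
    rw [sgnTwist_apply]
    show sgn g • ((sgnTwist ρ) (Perm.ofSubtype g) x.1) = _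
    rw [sgnTwist_apply, sgn_ofSubtype, smul_smul, sgn_mul_self, one_smul]
  have hfix : HasFix (sgnTwist (fixSub (sgnTwist ρ) B).toRepresentation)
      (c ∘ ((↑) : {s // s ∉ B} → S)) := by
    refine ⟨⟨v, hvW⟩, fun h0 => hv (congrArg Subtype.val h0), fun g hg => Subtype.ext ?_⟩
    rw [hact]
    exact hvf _ (ofSubtype_mem_stab hg)
  obtain ⟨⟨w, hw⟩, hne, hwfix⟩ := HasFix.of_pc hd' hP hfix
  refine ⟨w, fun h0 => hne (Subtype.ext h0), fun g hg => ?_, fun g hg => ?_⟩
  · have h1 := congrArg Subtype.val (hwfix g hg)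
    rw [hact] at h1
    exact h1
  · have h1 : sgn g • ρ g w = w := hw g hg
    calc ρ g w = sgn g • sgn g • ρ g w := by rw [smul_smul, sgn_mul_self, one_smul]
      _ = sgn g • w := by rw [h1]

/-- The extension of a colouring of the complement of `B`. -/
noncomputable def extCol {B : Finset S} (d' : {s // s ∉ B} → ℕ) (K : ℕ) (s : S) : ℕ :=
  if h : s ∉ B then d' ⟨s, h⟩ else K + (Fintype.equivFin S s).1

theorem extCol_val {B : Finset S} (d' : {s // s ∉ B} → ℕ) (K : ℕ) :
    extCol d' K ∘ ((↑) : {s // s ∉ B} → S) = d' := by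
  funext t
  simp [extCol, t.2]

theorem extCol_sep {B : Finset S} {d' : {s // s ∉ B} → ℕ} {K : ℕ} (hK : ∀ t, d' t < K) :
    ∀ s ∈ B, ∀ t, extCol d' K t = extCol d' K s → t = s := by
  intro s hs t ht
  have h1 : ¬ s ∉ B := by simpa using hs
  simp only [extCol, dif_neg h1] at ht
  by_cases htB : t ∉ B
  · simp only [dif_pos htB] at ht
    have := hK ⟨t, htB⟩
    omega
  · simp only [dif_neg htB] at ht
    exact (Fintype.equivFin S).injective (Fin.ext (by omega))

/-- The mixed vector for the extended colouring. -/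
theorem hasMix_extCol {ρ : Representation ℂ (Perm S) V} {B : Finset S} {d' : {s // s ∉ B} → ℕ}
    {K : ℕ} (hK : ∀ t, d' t < K)
    (h : ∃ v, v ≠ 0 ∧ (∀ g ∈ stab d', ρ (Perm.ofSubtype g) v = v) ∧
      ∀ g : Perm S, (∀ s, s ∉ B → g s = s) → ρ g v = sgn g • v) :
    HasMix ρ (extCol d' K) B := by
  obtain ⟨v, hv, hvf, hva⟩ := h
  refine ⟨v, hv, fun g hg => ?_, hva⟩
  have hfixB : ∀ s, s ∈ B → g s = s := fun s hs => extCol_sep hK s hs (g s) (mem_stab.mp hg s)
  have hoff : ∀ s, s ∉ B → g s ∉ B := by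
    intro s hs h1
    have h2 := g.injective (hfixB _ h1)
    rw [h2] at h1
    exact hs h1
  have hiff : ∀ s, (g s ∉ B ↔ s ∉ B) := by
    intro s
    constructor
    · intro h1 h2
      rw [hfixB s h2] at h1
      exact h1 h2
    · exact hoff s
  have hg' : Perm.subtypePerm (p := fun s => s ∉ B) g hiff ∈ stab d' := by
    rw [mem_stab]
    intro t
    have h3 := mem_stab.mp hg t.1
    simp only [extCol, dif_pos t.2, dif_pos (hoff t.1 t.2)] at h3
    exact h3
  have h4 := hvf _ hg'
  have h5 : (Perm.ofSubtype (Perm.subtypePerm (p := fun s => s ∉ B) g hiff) : Perm S) = g := by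
    apply Perm.ofSubtype_subtypePerm
    intro s hs h1
    exact hs (hfixB s (by simpa using h1))
  rwa [h5] at h4

/-- The bottom `y` slots of the first column. -/
def bottomB {ν : YoungDiagram} (T : Tab ν S) (y : ℕ) : Finset S :=
  Finset.univ.filter fun s => colC T s = 0 ∧ ν.colLen 0 - y ≤ rowC T s

omit [DecidableEq S] in
theorem mem_bottomB {ν : YoungDiagram} {T : Tab ν S} {y : ℕ} {s : S} :
    s ∈ bottomB T y ↔ colC T s = 0 ∧ ν.colLen 0 - y ≤ rowC T s := by
  simp [bottomB]

omit [Fintype S] [DecidableEq S] in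
theorem rowC_apply {ν : YoungDiagram} (T : Tab ν S) (x : {x // x ∈ ν.cells}) : rowC T (T x) = x.1.1 := by
  simp [rowC]

omit [Fintype S] [DecidableEq S] in
theorem colC_apply {ν : YoungDiagram} (T : Tab ν S) (x : {x // x ∈ ν.cells}) : colC T (T x) = x.1.2 := by
  simp [colC]

omit [Fintype S] [DecidableEq S] in
theorem cell_mem' {ν : YoungDiagram} (T : Tab ν S) (s : S) : (rowC T s, colC T s) ∈ ν :=
  (T.symm s).2

theorem card_bottomB {ν : YoungDiagram} (T : Tab ν S) {y : ℕ} (hy : y ≤ ν.colLen 0) :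
    (bottomB T y).card = y := by
  have h1 : (Finset.Ico (ν.colLen 0 - y) (ν.colLen 0)).card = y := by
    rw [Nat.card_Ico]
    omega
  refine Eq.trans ?_ h1
  refine Finset.card_bij (fun s _ => rowC T s) ?_ ?_ ?_
  · intro s hs
    obtain ⟨h2, h3⟩ := mem_bottomB.mp hs
    have h4 := cell_mem' T s
    rw [h2] at h4
    exact Finset.mem_Ico.mpr ⟨h3, YoungDiagram.mem_iff_lt_colLen.mp h4⟩
  · intro s hs t ht h
    exact rowC_colC_injective T (Prod.ext h (by
      show colC T s = colC T t
      rw [(mem_bottomB.mp hs).1, (mem_bottomB.mp ht).1]))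
  · intro i hi
    obtain ⟨h2, h3⟩ := Finset.mem_Ico.mp hi
    have h4 : (i, 0) ∈ ν := YoungDiagram.mem_iff_lt_colLen.mpr h3
    refine ⟨T ⟨(i, 0), h4⟩, mem_bottomB.mpr ⟨?_, ?_⟩, ?_⟩
    · rw [colC_apply]
    · rw [rowC_apply]
      exact h2
    · rw [rowC_apply]

/-- No gaps among the rows of the slots off `B`. -/
theorem lc_off_pos {ν : YoungDiagram} (T : Tab ν S) (y k : ℕ) (t : {s // s ∉ bottomB T y})
    (ht : k ≤ rowC T t.1) : 1 ≤ lc (rowC T ∘ ((↑) : {s // s ∉ bottomB T y} → S)) k := by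
  have h1 := cell_mem' T t.1
  have h2 : (k, colC T t.1) ∈ ν := ν.up_left_mem ht le_rfl h1
  have h3 : T ⟨(k, colC T t.1), h2⟩ ∉ bottomB T y := by
    intro h4
    obtain ⟨h5, h6⟩ := mem_bottomB.mp h4
    rw [colC_apply] at h5
    rw [rowC_apply] at h6
    exact t.2 (mem_bottomB.mpr ⟨h5, h6.trans ht⟩)
  unfold lc
  apply Finset.card_pos.mpr
  refine ⟨⟨_, h3⟩, ?_⟩
  simp only [Finset.mem_filter, Finset.mem_univ, true_and, Function.comp_apply]
  rw [rowC_apply]

/-- The slots off `B` in the first rows. -/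
theorem rowsBelow_le_pc_off {ν : YoungDiagram} (T : Tab ν S) {y : ℕ} (k : ℕ) :
    rowsBelow ν k ≤ pc (rowC T ∘ ((↑) : {s // s ∉ bottomB T y} → S)) k + (k - (ν.colLen 0 - y)) := by
  classical
  rw [← pc_rowC T k]
  set A : Finset S := Finset.univ.filter fun s => rowC T s < k with hA
  have h1 : pc (rowC T) k = A.card := rfl
  rw [h1, ← Finset.card_filter_add_card_filter_not (s := A) (fun s => s ∉ bottomB T y)]
  have h2 : (A.filter fun s => s ∉ bottomB T y).card =
      pc (rowC T ∘ ((↑) : {s // s ∉ bottomB T y} → S)) k := by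
    rw [← Finset.card_subtype]
    unfold pc
    congr 1
    ext t
    simp [hA]
  have h3 : (A.filter fun s => ¬ s ∉ bottomB T y).card ≤ k - (ν.colLen 0 - y) := by
    have h4 : (Finset.Ico (ν.colLen 0 - y) k).card = k - (ν.colLen 0 - y) := Nat.card_Ico _ _
    rw [← h4]
    refine Finset.card_le_card_of_injOn (fun s => rowC T s) ?_ ?_
    · intro s hs
      have hs' := Finset.mem_coe.mp hs
      obtain ⟨h5, h6⟩ := Finset.mem_filter.mp hs'
      have h7 : s ∈ bottomB T y := by simpa using h6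
      exact Finset.mem_coe.mpr (Finset.mem_Ico.mpr ⟨(mem_bottomB.mp h7).2, (Finset.mem_filter.mp h5).2⟩)
    · intro s hs t ht h
      have hs' := (Finset.mem_filter.mp (Finset.mem_coe.mp hs)).2
      have ht' := (Finset.mem_filter.mp (Finset.mem_coe.mp ht)).2
      have h7 : s ∈ bottomB T y := by simpa using hs'
      have h8 : t ∈ bottomB T y := by simpa using ht'
      exact rowC_colC_injective T (Prod.ext h (by
        show colC T s = colC T t
        rw [(mem_bottomB.mp h7).1, (mem_bottomB.mp h8).1]))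
  omega

/-- **The mixed rule.** (#2146) -/
theorem occurs_mix {L₀ L₁ L₂ : Finset (ℕ × ℕ)} {c b c₁ b₁ m : ℕ}
    (h0 : PeelStep L₀ L₁ c b) (h1 : PeelStep L₁ L₂ c₁ b₁) (hL₁ : ∀ q, q ∈ L₁ ↔ q.swap ∈ L₁)
    (U : Universal L₂ m) (hcard : Fintype.card S = c + b + c₁ + b₁ + m)
    [FiniteDimensional ℂ V] {ρ : Representation ℂ (Perm S) V} (hρ : ρ.IsIrreducible)
    {ν : YoungDiagram} (hν : Label ρ ν) (hbc : b ≤ c) (hb1 : 1 ≤ b)
    (hy : c₁ + b₁ ≤ ν.colLen 0)
    (h1' : c + (1 - (ν.colLen 0 - (c₁ + b₁))) ≤ rowsBelow ν 1)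
    (h2' : c + b + (2 - (ν.colLen 0 - (c₁ + b₁))) ≤ rowsBelow ν 2) :
    Occurs ρ L₀ L₀ := by
  classical
  obtain ⟨T, -, -⟩ := id hν
  set y := c₁ + b₁ with hydef
  set B := bottomB T y with hB
  have hBc : B.card = y := card_bottomB T hy
  have hBcol : ∀ s ∈ B, colC T s = 0 := fun s hs => (mem_bottomB.mp hs).1
  obtain ⟨K, hK⟩ : ∃ K, ∀ s, rowC T s < K := by
    refine ⟨(∑ s, rowC T s) + 1, fun s => ?_⟩
    have := Finset.single_le_sum (f := rowC T) (fun _ _ => Nat.zero_le _) (Finset.mem_univ s)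
    omega
  have hmix := hasMix_sepCol hρ hν T hBcol hK
  have hcardS' : Fintype.card {s // s ∉ B} = c + b + m := by
    rw [Fintype.card_subtype_compl, Fintype.card_coe, hBc]
    omega
  obtain ⟨d', hd'⟩ := exists_colouring (S := {s // s ∉ B}) (hookContent c b m) (2 + m)
    (by
      intro a ha
      unfold hookContent
      split_ifs <;> omega)
    (by
      rw [hookContent_sum, hcardS']
      omega)
  have hlc : lc d' = hookContent c b m := funext hd'
  have hanti : Antitone (lc d') := by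
    rw [hlc]
    exact hookContent_anti hbc hb1
  have hval : sepCol (rowC T) B K ∘ ((↑) : {s // s ∉ B} → S) = rowC T ∘ ((↑) : {s // s ∉ B} → S) := by
    funext t
    simp [sepCol, t.2]
  have hP : ∀ k, pc d' k ≤ pc (sepCol (rowC T) B K ∘ ((↑) : {s // s ∉ B} → S)) k := by
    rw [hval]
    have hpc : ∀ k, pc d' k = ∑ a ∈ Finset.range k, hookContent c b m a := by
      intro k
      rw [pc_eq_sum, hlc]
    have hb2 := rowsBelow_le_pc_off T (y := y) 2
    have hb1' := rowsBelow_le_pc_off T (y := y) 1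
    intro k
    rw [hpc]
    rcases k with _ | _ | j
    · simp
    · simp only [Finset.sum_range_one, zero_add]
      have : hookContent c b m 0 = c := by simp [hookContent]
      rw [this]
      omega
    · have e : j + 1 + 1 = 2 + j := by omega
      rw [e, hookContent_sum]
      induction j with
      | zero =>
        simp only [Nat.zero_min, add_zero]
        omega
      | succ j ih =>
        have ih' := ih (by omega)
        have e2 : 2 + (j + 1) = 2 + j + 1 := by omega
        rw [e2, pc_succ]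
        by_cases hlt : pc (rowC T ∘ ((↑) : {s // s ∉ B} → S)) (2 + j) < Fintype.card {s // s ∉ B}
        · have hex : ∃ t : {s // s ∉ B}, 2 + j ≤ rowC T t.1 := by
            by_contra hcon
            push Not at hcon
            have : pc (rowC T ∘ ((↑) : {s // s ∉ B} → S)) (2 + j) = Fintype.card {s // s ∉ B} := by
              unfold pc
              rw [Finset.filter_true_of_mem (fun t _ => by simpa using hcon t), Finset.card_univ]
            omega
          obtain ⟨t, ht⟩ := hex
          have h5 := lc_off_pos T y (2 + j) t ht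
          have h6 : min (j + 1) m ≤ min j m + 1 := by omega
          omega
        · have h6 : min (j + 1) m ≤ m := by omega
          omega
  have hoff := HasMix.of_pc_off hmix hanti hP
  set K' := (∑ t, d' t) + 2 with hK'
  have hK'lt : ∀ t, d' t < K' := by
    intro t
    have := Finset.single_le_sum (f := d') (fun _ _ => Nat.zero_le _) (Finset.mem_univ t)
    omega
  have hmix' := hasMix_extCol hK'lt hoff
  have hsep := extCol_sep hK'lt
  have hB0 : ∀ s ∈ B, extCol d' K' s ≠ 0 ∧ extCol d' K' s ≠ 1 := by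
    intro s hs
    have h2 : ¬ s ∉ B := by simpa using hs
    simp only [extCol, dif_neg h2]
    omega
  have hlc2 : ∀ a, a < 2 → lc (extCol d' K') a = lc d' a := by
    intro a ha
    have h3 := lc_comp_of_range ((↑) : {s // s ∉ B} → S) Subtype.val_injective (extCol d' K') (e := a) ?_
    · rw [extCol_val] at h3
      exact h3.symm
    · intro s hs
      by_cases h4 : s ∉ B
      · exact ⟨⟨s, h4⟩, rfl⟩
      · simp only [extCol, dif_neg h4] at hs
        omega
  refine occurs_of_hasMix h0 h1 hL₁ U hcard hmix' hsep hB0 ?_ ?_ hBc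
  · rw [hlc2 0 (by omega), hd']
    simp [hookContent]
  · rw [hlc2 1 (by omega), hd']
    simp [hookContent]

end

end Crest.Agent.Saxl
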