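import Crest.Agent.Lib.Saxl.LevelFinal
import Crest.Agent.Lib.Saxl.PeelExtra
import Crest.Agent.Lib.Saxl.PeelMix

/-!
# A level with extra rules for some diagrams (row 195, helper62)

`universal_of_oriented_rule`: the level theorem of `LevelTest` with one more disjunct `R ν`, a rule
which proves the occurrence directly for the label `ν`.  `MixOK` and `OneHookOK` are such rules.
-/

set_option autoImplicit false

open scoped BigOperators
open Equiv

namespace Crest.Agent.Saxl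

/-- Every irreducible representation with the label `ν` contains the shape `L`. -/
def LabelOcc (L : Finset (ℕ × ℕ)) (n : ℕ) (ν : YoungDiagram) : Prop :=
  ∀ (S : Type) [Fintype S] [DecidableEq S], Fintype.card S = n →
    ∀ (V : Type) [AddCommGroup V] [Module ℂ V] [FiniteDimensional ℂ V]
    (ρ : Representation ℂ (Perm S) V), ρ.IsIrreducible → Label ρ ν → Occurs ρ L L

/-- The numeric test of the mixed rule `occurs_mix`. -/
def MixOK (c b c₁ b₁ : ℕ) (ν : YoungDiagram) : Prop :=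
  c₁ + b₁ ≤ ν.colLen 0 ∧ c + (1 - (ν.colLen 0 - (c₁ + b₁))) ≤ rowsBelow ν 1 ∧
    c + b + (2 - (ν.colLen 0 - (c₁ + b₁))) ≤ rowsBelow ν 2

/-- The numeric test of the one-hook rule `occurs_one_hook`. -/
def OneHookOK (c b : ℕ) (ν : YoungDiagram) : Prop :=
  c ≤ rowsBelow ν 1 ∧ c + b ≤ rowsBelow ν 2

theorem labelOcc_of_mix {L₀ L₁ L₂ : Finset (ℕ × ℕ)} {c b c₁ b₁ m : ℕ}
    (h0 : PeelStep L₀ L₁ c b) (h1 : PeelStep L₁ L₂ c₁ b₁) (hL₁ : ∀ q, q ∈ L₁ ↔ q.swap ∈ L₁)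
    (U : Universal L₂ m) (hbc : b ≤ c) (hb1 : 1 ≤ b) {ν : YoungDiagram}
    (hν : MixOK c b c₁ b₁ ν) : LabelOcc L₀ (c + b + c₁ + b₁ + m) ν := by
  intro S _ _ hcard V _ _ _ ρ hρ hl
  exact occurs_mix h0 h1 hL₁ U hcard hρ hl hbc hb1 hν.1 hν.2.1 hν.2.2

theorem labelOcc_of_one_hook {L₀ L₁ : Finset (ℕ × ℕ)} {c b m : ℕ}
    (h0 : PeelStep L₀ L₁ c b) (U : Universal L₁ m) (hbc : b ≤ c) (hb1 : 1 ≤ b) {ν : YoungDiagram}
    (hν : OneHookOK c b ν) : LabelOcc L₀ (c + b + m) ν := by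
  intro S _ _ hcard V _ _ _ ρ hρ hl
  exact occurs_one_hook h0 U hcard hρ hl hbc hb1 hν.1 hν.2

/-- **The level theorem, with one more rule `R`.** -/
theorem universal_of_oriented_rule {L₀ L₁ L₂ : Finset (ℕ × ℕ)} {c c₁ b₁ m : ℕ}
    {l : List BK} {ps : Fin l.length → List ℕ} {Q R : YoungDiagram → Prop}
    (hQ : ∀ ν, Q ν → ChainOK l ps ν)
    (hR : ∀ ν, R ν → LabelOcc L₀ (c + (c - 1) + c₁ + b₁ + m) ν)
    (hL₀ : ∀ q, q ∈ L₀ ↔ q.swap ∈ L₀)
    (hL₁ : ∀ q, q ∈ L₁ ↔ q.swap ∈ L₁) (hl : L₀ = cellsL l)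
    (hpw : l.Pairwise fun K K' => K'.hi < K.lo)
    (hps : ∀ i, (ps i).sum = (l[i.1]).size) (hOK : ∀ i : Fin l.length, (l[i.1]).PartsOK (ps i))
    (h0 : PeelStep L₀ L₁ c (c - 1)) (h1 : PeelStep L₁ L₂ c₁ b₁) (U : Universal L₂ m)
    (hc : 2 ≤ c) (hc₁ : c₁ ≤ c - 1) (hb₁ : b₁ ≤ c₁) (hb₁1 : 1 ≤ b₁)
    (hc₁' : c₁ ≤ b₁ + 1) (hF : c₁ + b₁ + 4 ≤ 2 * c - 1)
    (hsize : (l.map BK.size).sum = c + (c - 1) + c₁ + b₁ + m)
    (hT : ∀ ν : YoungDiagram, ν.card = c + (c - 1) + c₁ + b₁ + m →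
      ν.colLen 0 + ν.colLen 1 ≤ 2 * (c - 1) →
      (c ≤ ν.rowLen 0 ∨ ν.colLen 0 ≤ ν.rowLen 0) → LongOK c (c - 1) c₁ b₁ ν ∨ Q ν ∨ R ν) :
    Universal L₀ (c + (c - 1) + c₁ + b₁ + m) := by
  have key : ∀ ν : YoungDiagram, (FatOK c (c - 1) c₁ b₁ ν ∨ LongOK c (c - 1) c₁ b₁ ν ∨
      (Q ν ∨ R ν)) → LabelOcc L₀ (c + (c - 1) + c₁ + b₁ + m) ν := by
    intro ν h S _ _ hcard V _ _ _ ρ hρ hlab
    have hνc := hlab.card_eq
    rcases h with h | h | h | h
    · exact occurs_of_tests_chain hL₁ hl hpw hps hOK h0 h1 U (by omega) (by omega) hc₁ hb₁ hb₁1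
        hc₁' hsize hcard hρ hlab hνc (Or.inl h)
    · exact occurs_of_tests_chain hL₁ hl hpw hps hOK h0 h1 U (by omega) (by omega) hc₁ hb₁ hb₁1
        hc₁' hsize hcard hρ hlab hνc (Or.inr (Or.inl h))
    · exact occurs_of_tests_chain hL₁ hl hpw hps hOK h0 h1 U (by omega) (by omega) hc₁ hb₁ hb₁1
        hc₁' hsize hcard hρ hlab hνc (Or.inr (Or.inr (Or.inr (hQ ν h))))
    · exact hR ν h S hcard V ρ hρ hlab
  refine universal_of_local hL₀ ?_
  intro ν hν
  rcases hcover_of_oriented (Q := fun ν => Q ν ∨ R ν) hF (by omega) hT ν hν with h | h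
  · exact Or.inl (key ν h)
  · exact Or.inr (key _ h)

namespace Family

/-- **The level theorem for the family, with the oriented test `Q` and one more rule `R`.** -/
theorem universal_stepL_of_rule {l : List BK} (h : Good l) (d : Bool) {m : ℕ}
    (U : Saxl.Universal (cellsL l) m) (hm : (cellsL l).card = m)
    (ps : Fin (Family.stepL d l).length → List ℕ)
    (hps : ∀ i, (ps i).sum = ((Family.stepL d l)[i.1]).size)
    (hOK : ∀ i : Fin (Family.stepL d l).length, ((Family.stepL d l)[i.1]).PartsOK (ps i))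
    {Q R : YoungDiagram → Prop} (hQ : ∀ ν, Q ν → ChainOK (Family.stepL d l) ps ν)
    (hR : ∀ ν, R ν → LabelOcc (cellsL (Family.stepL d l))
      (cOf d l + (cOf d l - 1) + (cOf d l - 2) + (cOf d l - 3) + m) ν)
    (hT : ∀ ν : YoungDiagram,
      ν.card = cOf d l + (cOf d l - 1) + (cOf d l - 2) + (cOf d l - 3) + m →
      ν.colLen 0 + ν.colLen 1 ≤ 2 * (cOf d l - 1) →
      (cOf d l ≤ ν.rowLen 0 ∨ ν.colLen 0 ≤ ν.rowLen 0) →
      LongOK (cOf d l) (cOf d l - 1) (cOf d l - 2) (cOf d l - 3) ν ∨ Q ν ∨ R ν) :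
    Saxl.Universal (cellsL (Family.stepL d l))
      (cOf d l + (cOf d l - 1) + (cOf d l - 2) + (cOf d l - 3) + m) := by
  have hc := cOf_ge d l
  have hg := h.stepL d
  refine universal_of_oriented_rule (Q := Q) (R := R) (L₁ := midL d l) (L₂ := cellsL l)
    (l := Family.stepL d l) hQ hR hg.self (h.selfMid d) rfl hg.pw hps hOK (h.peel₀ d) (h.peel₁ d) U
    (by omega) (by omega) (by omega) (by omega) (by omega) (by omega) ?_ hT
  rw [← card_cellsL, card_stepL h d, hm]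

/-- The mixed rule at a level of the family. -/
theorem labelOcc_mix {l : List BK} (h : Good l) (d : Bool) {m : ℕ}
    (U : Saxl.Universal (cellsL l) m) {ν : YoungDiagram}
    (hν : MixOK (cOf d l) (cOf d l - 1) (cOf d l - 2) (cOf d l - 3) ν) :
    LabelOcc (cellsL (Family.stepL d l))
      (cOf d l + (cOf d l - 1) + (cOf d l - 2) + (cOf d l - 3) + m) ν := by
  have hc := cOf_ge d l
  exact labelOcc_of_mix (h.peel₀ d) (h.peel₁ d) (h.selfMid d) U (by omega) (by omega) hν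

/-- The one-hook rule at a level of the family: the middle shape is universal. -/
theorem labelOcc_one_hook {l : List BK} (h : Good l) (d : Bool) {m : ℕ}
    (U : Saxl.Universal (midL d l) m) {ν : YoungDiagram}
    (hν : OneHookOK (cOf d l) (cOf d l - 1) ν) :
    LabelOcc (cellsL (Family.stepL d l)) (cOf d l + (cOf d l - 1) + m) ν := by
  have hc := cOf_ge d l
  exact labelOcc_of_one_hook (h.peel₀ d) U (by omega) (by omega) hν

/-- **The level theorem for the family, with the simple test of a big double and the mixed rule.** -/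
theorem universal_stepL_of_simple_mix {l : List BK} (h : Good l) (d : Bool) {m : ℕ}
    (U : Saxl.Universal (cellsL l) m) (hm : (cellsL l).card = m)
    (ps : Fin (Family.stepL d l).length → List ℕ)
    (hps : ∀ i, (ps i).sum = ((Family.stepL d l)[i.1]).size)
    (hOK : ∀ i : Fin (Family.stepL d l).length, ((Family.stepL d l)[i.1]).PartsOK (ps i))
    (i₀ : Fin (Family.stepL d l).length) {H : ℕ} (hH : (Family.stepL d l)[i₀.1] = BK.dbl H)
    (hH1 : 1 ≤ H) (B : ℕ → ℕ) {M n : ℕ}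
    (hn : n = cOf d l + (cOf d l - 1) + (cOf d l - 2) + (cOf d l - 3) + m)
    (hB : ∀ T : Finset (Σ i, Fin (ps i).length), (∀ p ∈ T, p.1 ≠ i₀) →
      ∑ p ∈ T, (ps p.1)[p.2.1] ≤ B T.card)
    (hTail : ∀ T : Finset (Σ i, Fin (ps i).length), (∀ p ∈ T, p.1 ≠ i₀) → T.card ≤ M ∧
      ∑ p ∈ T, (ps p.1)[p.2.1] + (M - T.card) + 2 * H ≤ n)
    (hT : ∀ ν : YoungDiagram, ν.card = n →
      ν.colLen 0 + ν.colLen 1 ≤ 2 * (cOf d l - 1) →
      (cOf d l ≤ ν.rowLen 0 ∨ ν.colLen 0 ≤ ν.rowLen 0) →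
      LongOK (cOf d l) (cOf d l - 1) (cOf d l - 2) (cOf d l - 3) ν ∨ SimpleOK B H M ν ∨
        MixOK (cOf d l) (cOf d l - 1) (cOf d l - 2) (cOf d l - 3) ν) :
    Saxl.Universal (cellsL (Family.stepL d l)) n := by
  subst hn
  exact universal_stepL_of_rule h d U hm ps hps hOK
    (Q := fun ν => ν.card = cOf d l + (cOf d l - 1) + (cOf d l - 2) + (cOf d l - 3) + m ∧
      SimpleOK B H M ν)
    (R := MixOK (cOf d l) (cOf d l - 1) (cOf d l - 2) (cOf d l - 3))
    (fun ν hν => chainOK_of_simple i₀ hH hH1 B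
      (fun T hT => hB T hT)
      (fun T hT => by rw [hν.1]; exact hTail T hT) hν.2)
    (fun ν hν => labelOcc_mix h d U hν)
    (fun ν hν h1 h2 => (hT ν hν h1 h2).imp_right
      (fun h => h.imp_left fun h => ⟨hν, h⟩))

/-- **The level theorem for the family, no placed double, and the mixed rule.** -/
theorem universal_stepL_of_dom_mix {l : List BK} (h : Good l) (d : Bool) {m : ℕ}
    (U : Saxl.Universal (cellsL l) m) (hm : (cellsL l).card = m)
    (ps : Fin (Family.stepL d l).length → List ℕ)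
    (hps : ∀ i, (ps i).sum = ((Family.stepL d l)[i.1]).size)
    (hOK : ∀ i : Fin (Family.stepL d l).length, ((Family.stepL d l)[i.1]).PartsOK (ps i))
    (B : ℕ → ℕ) {M n : ℕ}
    (hn : n = cOf d l + (cOf d l - 1) + (cOf d l - 2) + (cOf d l - 3) + m)
    (hB : ∀ T : Finset (Σ i, Fin (ps i).length), ∑ p ∈ T, (ps p.1)[p.2.1] ≤ B T.card)
    (hTail : ∀ T : Finset (Σ i, Fin (ps i).length), T.card ≤ M ∧
      ∑ p ∈ T, (ps p.1)[p.2.1] + (M - T.card) ≤ n)
    (hT : ∀ ν : YoungDiagram, ν.card = n →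
      ν.colLen 0 + ν.colLen 1 ≤ 2 * (cOf d l - 1) →
      (cOf d l ≤ ν.rowLen 0 ∨ ν.colLen 0 ≤ ν.rowLen 0) →
      LongOK (cOf d l) (cOf d l - 1) (cOf d l - 2) (cOf d l - 3) ν ∨ DomOK B M ν ∨
        MixOK (cOf d l) (cOf d l - 1) (cOf d l - 2) (cOf d l - 3) ν) :
    Saxl.Universal (cellsL (Family.stepL d l)) n := by
  subst hn
  exact universal_stepL_of_rule h d U hm ps hps hOK
    (Q := fun ν => ν.card = cOf d l + (cOf d l - 1) + (cOf d l - 2) + (cOf d l - 3) + m ∧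
      DomOK B M ν)
    (R := MixOK (cOf d l) (cOf d l - 1) (cOf d l - 2) (cOf d l - 3))
    (fun ν hν => chainOK_of_domOK B hB (fun T => by rw [hν.1]; exact hTail T) hν.2)
    (fun ν hν => labelOcc_mix h d U hν)
    (fun ν hν h1 h2 => (hT ν hν h1 h2).imp_right
      (fun h => h.imp_left fun h => ⟨hν, h⟩))

end Family

end Crest.Agent.Saxl
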