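import Crest.Agent.Lib.Saxl.LevelTest
import Crest.Agent.Lib.Saxl.LevelArith

/-!
# A level of the family from its numbers (row 195, helper62)

`chainOK_of_lines`: the test for a placed double, with the exact tail.  `universal_stepL_of_nums`: a
level of the family is universal if the inner shape is, given a `LevelNums`.
-/

set_option autoImplicit false

namespace Crest.Agent.Saxl

section Tests

variable {l : List BK} {ps : Fin l.length → List ℕ}

/-- The partial sums of the rows beyond the long rows. -/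
theorem rowsBelow_tail (ν : YoungDiagram) {k : ℕ} (hk : ν.colLen 1 ≤ k) :
    ν.card ≤ rowsBelow ν k + (ν.colLen 0 - k) := by
  by_cases hkb : k ≤ ν.colLen 0
  · obtain ⟨d, hd⟩ := Nat.exists_eq_add_of_le hkb
    have h1 := rowsBelow_colLen_one ν
    have h2 := rowsBelow_add_ge ν (ν.colLen 1) (k - ν.colLen 1)
    have h3 : ν.colLen 1 + (k - ν.colLen 1) = k := by omega
    rw [h3] at h2
    have h4 : rowsBelow ν (ν.colLen 1) + (k - ν.colLen 1) ≤ ν.card := by
      have h5 := rowsBelow_le_card ν k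
      have htb : ν.colLen 1 ≤ ν.colLen 0 := ν.colLen_anti 0 1 (by omega)
      omega
    omega
  · have h1 : ν.rowLen k = 0 := by
      by_contra h
      have h2 : 0 < ν.rowLen k := Nat.pos_of_ne_zero h
      have h3 : (k, 0) ∈ ν := YoungDiagram.mem_iff_lt_rowLen.mpr h2
      have h4 := YoungDiagram.mem_iff_lt_colLen.mp h3
      omega
    rw [rowsBelow_eq_card_of_rowLen_eq_zero h1]
    omega

/-- **The test for a placed double, with the exact tail.** -/
theorem chainOK_of_lines (i₀ : Fin l.length) {d : ℕ} (hd : l[i₀.1] = BK.dbl d) (hd0 : 1 ≤ d)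
    {ν : YoungDiagram} (B : ℕ → ℕ)
    (hB : ∀ T : Finset (Σ i, Fin (ps i).length), (∀ p ∈ T, p.1 ≠ i₀) →
      ∑ p ∈ T, (ps p.1)[p.2.1] ≤ B T.card)
    {M : ℕ} (hM : ∀ k, B k + 2 * d + (M - k) ≤ ν.card) (hM' : ν.colLen 0 ≤ M + 1)
    (hMt : ν.colLen 1 ≤ M)
    (h0 : d + 1 ≤ ν.rowLen 0) (h2 : 2 * d + 1 ≤ rowsBelow ν 2)
    (hk1 : ∀ k, 1 ≤ k → k ≤ ν.colLen 1 → B k + 1 ≤ rowsBelow ν k)
    (hk2 : ∀ k, 1 ≤ k → k + 2 ≤ ν.colLen 1 → B k + 2 * d + 1 ≤ rowsBelow ν (k + 2)) :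
    ChainOK l ps ν := by
  rw [rowsBelow_two] at h2
  obtain ⟨a, b, hae, hbe, hba, hab, ha0, hb1, hi⟩ :=
    exists_placement_even ν.rowLen (rowLen_antitone ν) hd0 (rowLen_colLen_zero ν) h0 h2
  refine chainOK_of_placed i₀ hd hba hae hbe hab ha0 hb1 B hB ?_
  intro k hk
  have hS : rowsBelow ν (k + 2) = rowsBelow ν k + ν.rowLen k + ν.rowLen (k + 1) := by
    rw [rowsBelow_succ ν (k + 1), rowsBelow_succ ν k]
  have hS1 : rowsBelow ν (k + 1) = rowsBelow ν k + ν.rowLen k := rowsBelow_succ ν k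
  have htb : ν.colLen 1 ≤ ν.colLen 0 := ν.colLen_anti 0 1 (by omega)
  have h5 := hi k
  rcases Nat.lt_or_ge k (ν.colLen 1) with hkt | hkt
  · have h3 := hk1 k hk hkt.le
    by_cases hk3 : k + 2 ≤ ν.colLen 1
    · have h4 := hk2 k hk hk3
      omega
    · -- `k + 1 = t`
      have h6 := rowsBelow_tail ν (k := k + 2) (by omega)
      have h7 := hM k
      omega
  · -- `t ≤ k`: the rows `k, k + 1` have at most one cell
    have h6 := rowLen_le_one (ν := ν) hkt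
    have h7 := hM k
    have h8 := rowsBelow_tail ν (k := k + 1) (by omega)
    omega

/-- **No placed double.** -/
theorem chainOK_of_lines_none {ν : YoungDiagram} (B : ℕ → ℕ)
    (hB : ∀ T : Finset (Σ i, Fin (ps i).length), ∑ p ∈ T, (ps p.1)[p.2.1] ≤ B T.card)
    {M : ℕ} (hM : ∀ k, B k + (M - k) ≤ ν.card) (hM' : ν.colLen 0 ≤ M)
    (hk1 : ∀ k, 1 ≤ k → k ≤ ν.colLen 1 → B k ≤ rowsBelow ν k) : ChainOK l ps ν := by
  refine chainOK_of_dom B hB ?_
  intro k hk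
  rcases Nat.lt_or_ge k (ν.colLen 1 + 1) with hkt | hkt
  · exact hk1 k hk (by omega)
  · have h6 := rowsBelow_tail ν (k := k) (by omega)
    have h7 := hM k
    omega

end Tests

section Level

variable {B : ℕ → ℕ} {c n H : ℕ}

/-- **The test at a level, from the numbers.** -/
theorem LevelNums.test (N : LevelNums c n H B) {l : List BK} {ps : Fin l.length → List ℕ}
    (i₀ : Fin l.length) (hH : l[i₀.1] = BK.dbl H) (hH1 : 1 ≤ H)
    (hB : ∀ T : Finset (Σ i, Fin (ps i).length), (∀ p ∈ T, p.1 ≠ i₀) →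
      ∑ p ∈ T, (ps p.1)[p.2.1] ≤ B T.card)
    {M t₀ c₁ b₁ : ℕ} (hM : ∀ k, B k + 2 * H + (M - k) ≤ n) (hMc : c ≤ M + 1) (ht₀ : 4 ≤ t₀)
    (hMt : 2 * c ≤ M + t₀ + 4) (hlong : t₀ * c + 2 * (c - 1) ≤ n) (hc₁ : c₁ ≤ c) (hb₁ : b₁ ≤ c)
    (ν : YoungDiagram) (hν : ν.card = n) (hq : ν.colLen 0 + ν.colLen 1 ≤ 2 * (c - 1))
    (hor : c ≤ ν.rowLen 0 ∨ ν.colLen 0 ≤ ν.rowLen 0) :
    LongOK c (c - 1) c₁ b₁ ν ∨ ChainOK l ps ν := by
  by_cases hp : ν.colLen 0 ≤ M + 1
  · right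
    obtain ⟨h1, h2, h3, h4⟩ := N.bounds ν hν hq hor
    have htb : ν.colLen 1 ≤ ν.colLen 0 := ν.colLen_anti 0 1 (by omega)
    refine chainOK_of_lines i₀ hH hH1 B hB (M := M) (by rw [hν]; exact hM) hp (by omega) h3 h4 h1 h2
  · left
    exact longOK_of_short ν hc₁ hb₁ hq (by omega) ht₀ (by rw [hν]; exact hlong)

/-- **The test at a level without placed double.** -/
theorem LevelNums.test_none (N : LevelNums c n 0 B) {l : List BK} {ps : Fin l.length → List ℕ}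
    (hB : ∀ T : Finset (Σ i, Fin (ps i).length), ∑ p ∈ T, (ps p.1)[p.2.1] ≤ B T.card)
    {M t₀ c₁ b₁ : ℕ} (hM : ∀ k, B k + (M - k) ≤ n) (ht₀ : 4 ≤ t₀)
    (hMt : 2 * c ≤ M + t₀ + 3) (hlong : t₀ * c + 2 * (c - 1) ≤ n) (hc₁ : c₁ ≤ c) (hb₁ : b₁ ≤ c)
    (ν : YoungDiagram) (hν : ν.card = n) (hq : ν.colLen 0 + ν.colLen 1 ≤ 2 * (c - 1))
    (hor : c ≤ ν.rowLen 0 ∨ ν.colLen 0 ≤ ν.rowLen 0) :
    LongOK c (c - 1) c₁ b₁ ν ∨ ChainOK l ps ν := by
  by_cases hp : ν.colLen 0 ≤ M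
  · right
    obtain ⟨h1, -, -, -⟩ := N.bounds ν hν hq hor
    refine chainOK_of_lines_none B hB (M := M) (by rw [hν]; exact hM) hp ?_
    intro k hk hkt
    have := h1 k hk hkt
    omega
  · left
    exact longOK_of_short ν hc₁ hb₁ hq (by omega) ht₀ (by rw [hν]; exact hlong)

end Level

namespace Family

/-- **A level of the family from its numbers, with a placed double.** -/
theorem universal_stepL_of_nums {l : List BK} (h : Good l) (d : Bool) {m : ℕ}
    (U : Saxl.Universal (cellsL l) m) (hm : (cellsL l).card = m)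
    (ps : Fin (Family.stepL d l).length → List ℕ)
    (hps : ∀ i, (ps i).sum = ((Family.stepL d l)[i.1]).size)
    (hOK : ∀ i : Fin (Family.stepL d l).length, ((Family.stepL d l)[i.1]).PartsOK (ps i))
    (i₀ : Fin (Family.stepL d l).length) {H : ℕ} (hH : (Family.stepL d l)[i₀.1] = BK.dbl H)
    (hH1 : 1 ≤ H) (B : ℕ → ℕ)
    (hB : ∀ T : Finset (Σ i, Fin (ps i).length), (∀ p ∈ T, p.1 ≠ i₀) →
      ∑ p ∈ T, (ps p.1)[p.2.1] ≤ B T.card)
    (N : LevelNums (cOf d l) (cOf d l + (cOf d l - 1) + (cOf d l - 2) + (cOf d l - 3) + m) H B)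
    {M t₀ : ℕ}
    (hM : ∀ k, B k + 2 * H + (M - k) ≤ cOf d l + (cOf d l - 1) + (cOf d l - 2) + (cOf d l - 3) + m)
    (hMc : cOf d l ≤ M + 1) (ht₀ : 4 ≤ t₀) (hMt : 2 * cOf d l ≤ M + t₀ + 4)
    (hlong : t₀ * cOf d l + 2 * (cOf d l - 1) ≤
      cOf d l + (cOf d l - 1) + (cOf d l - 2) + (cOf d l - 3) + m) :
    Saxl.Universal (cellsL (Family.stepL d l))
      (cOf d l + (cOf d l - 1) + (cOf d l - 2) + (cOf d l - 3) + m) :=
  universal_stepL_of_oriented h d U hm ps hps hOK (Q := ChainOK (Family.stepL d l) ps)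
    (fun _ hν => hν) fun ν hν hq hor =>
      N.test i₀ hH hH1 hB hM hMc ht₀ hMt hlong (by omega) (by omega) ν hν hq hor

/-- **A level of the family from its numbers, no placed double.** -/
theorem universal_stepL_of_nums_none {l : List BK} (h : Good l) (d : Bool) {m : ℕ}
    (U : Saxl.Universal (cellsL l) m) (hm : (cellsL l).card = m)
    (ps : Fin (Family.stepL d l).length → List ℕ)
    (hps : ∀ i, (ps i).sum = ((Family.stepL d l)[i.1]).size)
    (hOK : ∀ i : Fin (Family.stepL d l).length, ((Family.stepL d l)[i.1]).PartsOK (ps i))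
    (B : ℕ → ℕ)
    (hB : ∀ T : Finset (Σ i, Fin (ps i).length), ∑ p ∈ T, (ps p.1)[p.2.1] ≤ B T.card)
    (N : LevelNums (cOf d l) (cOf d l + (cOf d l - 1) + (cOf d l - 2) + (cOf d l - 3) + m) 0 B)
    {M t₀ : ℕ}
    (hM : ∀ k, B k + (M - k) ≤ cOf d l + (cOf d l - 1) + (cOf d l - 2) + (cOf d l - 3) + m)
    (ht₀ : 4 ≤ t₀) (hMt : 2 * cOf d l ≤ M + t₀ + 3)
    (hlong : t₀ * cOf d l + 2 * (cOf d l - 1) ≤
      cOf d l + (cOf d l - 1) + (cOf d l - 2) + (cOf d l - 3) + m) :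
    Saxl.Universal (cellsL (Family.stepL d l))
      (cOf d l + (cOf d l - 1) + (cOf d l - 2) + (cOf d l - 3) + m) :=
  universal_stepL_of_oriented h d U hm ps hps hOK (Q := ChainOK (Family.stepL d l) ps)
    (fun _ hν => hν) fun ν hν hq hor =>
      N.test_none hB hM ht₀ hMt hlong (by omega) (by omega) ν hν hq hor

end Family

end Crest.Agent.Saxl
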