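import Crest.Agent.Lib.Saxl.Cover
import Crest.Agent.Lib.Saxl.Coverage
import Crest.Agent.Lib.Saxl.FamilyL

/-!
# The simple level test (row 195, S0298, helper86; see helper58's plan)

With a single placed double `dbl h`, the Littlewood-Richardson test at `ν` reads
`B k ≤ S_k - (a - ν_k)₊ - (b - ν_{k+1})₊` where `S_k` are the partial sums of the rows and `η = (a, b)`.
The placement lemma chooses `a, b` such that the two losses together are at most
`(2h - ν_k - ν_{k+1})₊ + 1`.  So the test becomes `B k + 1 ≤ S_k`, `B k + 2h + 1 ≤ S_{k+2}`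
(`SimpleOK`), no placement, no sorting.  With the orientation argument, `Universal` follows from the
test for the `ν` with `ν'₀ + ν'₁ ≤ 2c - 2` and (`c ≤ ν₀` or `ν'₀ ≤ ν₀`).
-/

set_option autoImplicit false

open scoped BigOperators
open Finset

namespace Crest.Agent.Saxl

/-- **Rows and columns.** The partial sums of the rows are the sums of the truncated columns. -/
theorem rowsBelow_eq_sum_min (ν : YoungDiagram) (k : ℕ) :
    rowsBelow ν k = ∑ j ∈ range (ν.rowLen 0), min k (ν.colLen j) := by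
  classical
  unfold rowsBelow
  have hmap : ∀ c ∈ ν.cells.filter (fun c => c.1 < k), c.2 ∈ range (ν.rowLen 0) := by
    intro c hc
    have h1 : c ∈ ν := (Finset.mem_filter.mp hc).1
    have h2 : (0, c.2) ∈ ν := ν.up_left_mem (Nat.zero_le _) le_rfl (by simpa using h1)
    exact Finset.mem_range.mpr (YoungDiagram.mem_iff_lt_rowLen.mp h2)
  rw [Finset.card_eq_sum_card_fiberwise hmap]
  apply Finset.sum_congr rfl
  intro j hj
  have hfib : (ν.cells.filter (fun c => c.1 < k)).filter (fun c => c.2 = j) =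
      (range (min k (ν.colLen j))).map ⟨fun y => (y, j), fun _ _ h => (Prod.mk.inj h).1⟩ := by
    ext ⟨y, x⟩
    simp only [Finset.mem_filter, Finset.mem_map, Finset.mem_range]
    constructor
    · rintro ⟨⟨h1, h2⟩, rfl⟩
      refine ⟨y, ?_, rfl⟩
      have h3 : (y, x) ∈ ν := h1
      have := YoungDiagram.mem_iff_lt_colLen.mp h3
      omega
    · rintro ⟨y', h1, h2⟩
      obtain ⟨rfl, rfl⟩ := Prod.mk.inj h2
      refine ⟨⟨?_, by omega⟩, rfl⟩
      exact YoungDiagram.mem_iff_lt_colLen.mpr (by omega)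
  rw [hfib, Finset.card_map, Finset.card_range]

theorem colLen_le_iff_rowLen_le (ν : YoungDiagram) (k j : ℕ) : ν.colLen j ≤ k ↔ ν.rowLen k ≤ j := by
  have h1 : (k, j) ∈ ν ↔ k < ν.colLen j := YoungDiagram.mem_iff_lt_colLen
  have h2 : (k, j) ∈ ν ↔ j < ν.rowLen k := YoungDiagram.mem_iff_lt_rowLen
  constructor
  · intro h
    by_contra hc
    have := h1.mp (h2.mpr (by omega))
    omega
  · intro h
    by_contra hc
    have := h2.mp (h1.mpr (by omega))
    omega

/-- Count of an interval. -/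
theorem sum_ite_Ico (L a x : ℕ) (ha : a ≤ L) :
    ∑ j ∈ range L, (if j < a ∧ x ≤ j then 1 else 0) = a - x := by
  classical
  rw [← Finset.card_filter]
  have : (range L).filter (fun j => j < a ∧ x ≤ j) = Finset.Ico x a := by
    ext j
    simp only [Finset.mem_filter, Finset.mem_range, Finset.mem_Ico]
    omega
  rw [this, Nat.card_Ico]

/-- **The column formula.** The LR right-hand side of `η = (a, b)` loses `(a - ν_k)₊ + (b - ν_{k+1})₊`
from `S_k`. -/
theorem rowsBelow_le_sum_min_add (ν : YoungDiagram) {a b : ℕ} (ha : a ≤ ν.rowLen 0) (hba : b ≤ a) (k : ℕ) :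
    rowsBelow ν k ≤ (∑ j ∈ range (ν.rowLen 0),
        min k (ν.colLen j - ((if j < a then 1 else 0) + (if j < b then 1 else 0)))) +
      (a - ν.rowLen k) + (b - ν.rowLen (k + 1)) := by
  rw [rowsBelow_eq_sum_min, ← sum_ite_Ico (ν.rowLen 0) a (ν.rowLen k) ha,
    ← sum_ite_Ico (ν.rowLen 0) b (ν.rowLen (k + 1)) (hba.trans ha), ← Finset.sum_add_distrib,
    ← Finset.sum_add_distrib]
  apply Finset.sum_le_sum
  intro j _
  have h1 := colLen_le_iff_rowLen_le ν k j
  have h2 := colLen_le_iff_rowLen_le ν (k + 1) j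
  split_ifs <;> omega

/-- **The placement lemma.** -/
theorem exists_placement_even (r : ℕ → ℕ) (hr : Antitone r) {h N : ℕ} (hh : 1 ≤ h) (hN : r N = 0)
    (h0 : h + 1 ≤ r 0) (h2 : 2 * h + 1 ≤ r 0 + r 1) :
    ∃ a b, Even a ∧ Even b ∧ b ≤ a ∧ a + b = 2 * h ∧ a ≤ r 0 ∧ b ≤ r 1 ∧
      ∀ i, (a - r i) + (b - r (i + 1)) ≤ (2 * h - (r i + r (i + 1))) + 1 := by
  classical
  -- the last index with `2h ≤ r j + r (j+1)`
  have hP0 : 2 * h ≤ r 0 + r 1 := by omega
  set j := Nat.findGreatest (fun i => 2 * h ≤ r i + r (i + 1)) N with hj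
  have hjP : 2 * h ≤ r j + r (j + 1) :=
    Nat.findGreatest_spec (P := fun i => 2 * h ≤ r i + r (i + 1)) (Nat.zero_le N) hP0
  have hjN : j ≤ N := Nat.findGreatest_le N
  have hlast : ∀ i, j < i → r i + r (i + 1) < 2 * h := by
    intro i hi
    by_cases hiN : i ≤ N
    · have := Nat.findGreatest_is_greatest (P := fun i => 2 * h ≤ r i + r (i + 1)) (n := N) hi hiN
      simpa using this
    · have h3 : r i ≤ r N := hr (by omega)
      have h4 : r (i + 1) ≤ r N := hr (by omega)
      omega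
  have h3 : r (j + 1) + r (j + 2) < 2 * h := hlast _ (by omega)
  have a1 : r (j + 1) ≤ r j := hr (by omega)
  have a2 : r (j + 2) ≤ r (j + 1) := hr (by omega)
  have a3 : r j ≤ r 0 := hr (by omega)
  have a4 : r (j + 1) ≤ r 1 := hr (by omega)
  have a5 : r 1 ≤ r 0 := hr (by omega)
  have a6 : j = 0 ∨ r j ≤ r 1 := by
    rcases Nat.eq_zero_or_pos j with h | h
    · exact Or.inl h
    · exact Or.inr (hr (by omega))
  -- the interval of `a`
  obtain ⟨a, hae, l1, l2, l3, l4, u1, u2, u3⟩ : ∃ a, Even a ∧ r (j + 1) ≤ a + 1 ∧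
      2 * h ≤ a + r (j + 1) + 1 ∧ h ≤ a ∧ 2 * h ≤ a + r 1 ∧ a ≤ r j + 1 ∧
      a + r (j + 2) ≤ 2 * h + 1 ∧ a ≤ r 0 := by
    set L := max (r (j + 1) - 1) (max (2 * h - r (j + 1) - 1) (max h (2 * h - r 1))) with hL
    rcases Nat.even_or_odd L with he | ho
    · refine ⟨L, he, ?_, ?_, ?_, ?_, ?_, ?_, ?_⟩ <;> omega
    · refine ⟨L + 1, ho.add_one, ?_, ?_, ?_, ?_, ?_, ?_, ?_⟩ <;> omega
  have hale : a ≤ 2 * h := by
    obtain ⟨w, hw⟩ := hae
    omega
  refine ⟨a, 2 * h - a, hae, ?_, by omega, by omega, u3, by omega, ?_⟩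
  · obtain ⟨w, hw⟩ := hae
    exact ⟨h - w, by omega⟩
  · intro i
    by_cases hi : i ≤ j
    · have b1 : r j ≤ r i := hr hi
      have b2 : r (j + 1) ≤ r (i + 1) := hr (by omega)
      omega
    · have b1 : r i ≤ r (j + 1) := hr (by omega)
      have b2 : r (i + 1) ≤ r (j + 2) := hr (by omega)
      have b3 := hlast i (by omega)
      omega

/-- The rows of a diagram, antitone. -/
theorem rowLen_antitone (ν : YoungDiagram) : Antitone ν.rowLen := fun _ _ h => ν.rowLen_anti _ _ h

theorem rowLen_colLen_zero (ν : YoungDiagram) : ν.rowLen (ν.colLen 0) = 0 := by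
  by_contra h
  have h1 : 0 < ν.rowLen (ν.colLen 0) := Nat.pos_of_ne_zero h
  have h2 : (ν.colLen 0, 0) ∈ ν := YoungDiagram.mem_iff_lt_rowLen.mpr h1
  have h3 := YoungDiagram.mem_iff_lt_colLen.mp h2
  omega

section Tests

variable {l : List BK} {ps : Fin l.length → List ℕ}

/-- `ChainOK` for one placed double with rows `a, b`. -/
theorem chainOK_of_placed' (i₀ : Fin l.length) {d : ℕ} (hd : l[i₀.1] = BK.dbl d)
    {ν : YoungDiagram} {a b : ℕ} (hba : b ≤ a) (ha : Even a) (hb : Even b) (hab : a + b = 2 * d)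
    (ha0 : a ≤ ν.rowLen 0) (hb1 : b ≤ ν.rowLen 1)
    (hdom : ∀ T : Finset (Σ i, Fin (ps i).length), (∀ p ∈ T, p.1 ≠ i₀) → 1 ≤ T.card →
      ∑ p ∈ T, (ps p.1)[p.2.1] + (a - ν.rowLen T.card) + (b - ν.rowLen (T.card + 1)) ≤
        rowsBelow ν T.card) :
    ChainOK l ps ν := by
  classical
  have hL : 2 ≤ ν.colLen 0 ∨ b = 0 := by
    by_cases hb0 : b = 0
    · exact Or.inr hb0
    · left
      have h1 : 0 < ν.rowLen 1 := by omega
      have h2 : ((1, 0) : ℕ × ℕ) ∈ ν := YoungDiagram.mem_iff_lt_rowLen.mpr h1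
      have := YoungDiagram.mem_iff_lt_colLen.mp h2
      omega
  have hL0 : 1 ≤ ν.colLen 0 ∨ a = 0 := by
    by_cases ha0' : a = 0
    · exact Or.inr ha0'
    · left
      have h1 : 0 < ν.rowLen 0 := by omega
      have h2 : ((0, 0) : ℕ × ℕ) ∈ ν := YoungDiagram.mem_iff_lt_rowLen.mpr h1
      have := YoungDiagram.mem_iff_lt_colLen.mp h2
      omega
  let r2 : ℕ → ℕ := fun y => if y = 0 then a else if y = 1 then b else 0
  let η : ℕ → ℕ → ℕ := fun i y => if i = 0 then 0 else r2 y
  have hr2 : ∑ y ∈ range (ν.colLen 0), r2 y = a + b := by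
    have h3 : ∀ L, 2 ≤ L → ∑ y ∈ range L, r2 y = a + b := by
      intro L hL2
      induction L, hL2 using Nat.le_induction with
      | base => simp [Finset.sum_range_succ, r2]
      | succ L hL2 ih =>
        rw [Finset.sum_range_succ, ih]
        have h4 : r2 L = 0 := by
          simp only [r2]
          rw [if_neg (by omega), if_neg (by omega)]
        omega
    rcases hL with h | h
    · exact h3 _ h
    · subst h
      rcases hL0 with h5 | h5
      · by_cases h6 : ν.colLen 0 = 1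
        · rw [h6]
          simp [r2]
        · exact h3 _ (by omega)
      · subst h5
        apply Finset.sum_eq_zero
        intro y _
        simp only [r2]
        split_ifs <;> rfl
  have hr2y : ∑ y ∈ range (ν.colLen 0), r2 y * y = b := by
    have h3 : ∀ L, 2 ≤ L → ∑ y ∈ range L, r2 y * y = b := by
      intro L hL2
      induction L, hL2 using Nat.le_induction with
      | base => simp [Finset.sum_range_succ, r2]
      | succ L hL2 ih =>
        rw [Finset.sum_range_succ, ih]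
        have h4 : r2 L = 0 := by
          simp only [r2]
          rw [if_neg (by omega), if_neg (by omega)]
        rw [h4]
        omega
    rcases hL with h | h
    · exact h3 _ h
    · subst h
      apply Finset.sum_eq_zero
      intro y hy
      by_cases h5 : y = 0
      · simp [h5]
      · simp only [r2]
        rw [if_neg h5]
        split_ifs <;> simp
  have hcol : ∀ j, j < ν.rowLen 0 → ((range (ν.colLen 0)).filter fun y => j < η 1 y).card =
      (if j < a then 1 else 0) + (if j < b then 1 else 0) := by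
    intro j _
    have h3 : ∀ y, j < η 1 y ↔ (y = 0 ∧ j < a) ∨ (y = 1 ∧ j < b) := by
      intro y
      simp only [η, r2, one_ne_zero, if_false]
      by_cases h4 : y = 0
      · simp [h4]
      · by_cases h5 : y = 1
        · simp [h5]
        · simp [h4, h5]
    have h4 : (range (ν.colLen 0)).filter (fun y => j < η 1 y) =
        (if j < a then {0} else ∅) ∪ (if j < b then {1} else ∅) := by
      ext y
      simp only [Finset.mem_filter, Finset.mem_range, h3, Finset.mem_union]
      by_cases h5 : j < a <;> by_cases h6 : j < b <;> simp [h5, h6]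
      · rintro (h | h) <;> subst h <;> omega
      · rintro rfl; omega
      · rintro rfl; omega
    rw [h4]
    by_cases h5 : j < a <;> by_cases h6 : j < b <;> simp [h5, h6]
  refine ⟨1, fun _ => i₀, η, fun x y _ => Subsingleton.elim x y, fun _ => ⟨d, hd⟩, ?_, ?_, ?_, ?_, ?_, ?_,
    ?_, ?_⟩
  · intro y; simp [η]
  · intro i hi y
    have : i = 0 := by omega
    subst this
    simp [η]
  · intro i hi
    have : i = 0 ∨ i = 1 := by omega
    rcases this with rfl | rfl
    · intro x y _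
      simp [η]
    · intro x y hxy
      show r2 y ≤ r2 x
      simp only [r2]
      by_cases h1 : y = 0
      · have : x = 0 := by omega
        simp [h1, this]
      · by_cases h2 : y = 1
        · by_cases h3 : x = 0
          · simp [h2, h3, hba]
          · have : x = 1 := by omega
            simp [h2, this]
        · rw [if_neg h1, if_neg h2]
          exact Nat.zero_le _
  · intro y
    show r2 y ≤ ν.rowLen y
    simp only [r2]
    by_cases h1 : y = 0
    · simpa [h1] using ha0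
    · by_cases h2 : y = 1
      · simpa [h2] using hb1
      · rw [if_neg h1, if_neg h2]
        exact Nat.zero_le _
  · intro i hi y
    have : i = 0 := by omega
    subst this
    show r2 (y + 2) ≤ _
    simp [r2]
  · intro i
    have hi : i.1 = 0 := by omega
    rw [hi]
    rw [hd]
    have : ∀ y, η (0 + 1) y - η 0 y = r2 y := by
      intro y
      simp [η]
    simp only [this, hr2]
    simp [BK.size, hab]
  · intro i hi
    have : i = 0 := by omega
    subst this
    have : ∀ y, (η (0 + 1) y - η 0 y) * y = r2 y * y := by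
      intro y
      simp [η]
    simp only [this, hr2y]
    exact hb
  · intro T hT
    have hT' : ∀ p ∈ T, p.1 ≠ i₀ := fun p hp => hT p hp ⟨0, by omega⟩
    by_cases hT0 : T.card = 0
    · rw [Finset.card_eq_zero.mp hT0]
      simp
    have hsum : ∑ j ∈ range (ν.rowLen 0), min T.card
        (ν.colLen j - ((range (ν.colLen 0)).filter fun y => j < η 1 y).card) =
        ∑ j ∈ range (ν.rowLen 0), min T.card
        (ν.colLen j - ((if j < a then 1 else 0) + (if j < b then 1 else 0))) := by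
      apply Finset.sum_congr rfl
      intro j hj
      rw [hcol j (Finset.mem_range.mp hj)]
    rw [hsum]
    have h1 := rowsBelow_le_sum_min_add ν ha0 hba T.card
    have h2 := hdom T hT' (by omega)
    omega

/-- `ChainOK` for one placed double with rows `a, b`, majorant form (`hdom` for every `k ≥ 1`). -/
theorem chainOK_of_placed (i₀ : Fin l.length) {d : ℕ} (hd : l[i₀.1] = BK.dbl d)
    {ν : YoungDiagram} {a b : ℕ} (hba : b ≤ a) (ha : Even a) (hb : Even b) (hab : a + b = 2 * d)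
    (ha0 : a ≤ ν.rowLen 0) (hb1 : b ≤ ν.rowLen 1) (B : ℕ → ℕ)
    (hB : ∀ T : Finset (Σ i, Fin (ps i).length), (∀ p ∈ T, p.1 ≠ i₀) →
      ∑ p ∈ T, (ps p.1)[p.2.1] ≤ B T.card)
    (hdom : ∀ k, 1 ≤ k → B k + (a - ν.rowLen k) + (b - ν.rowLen (k + 1)) ≤ rowsBelow ν k) :
    ChainOK l ps ν := by
  refine chainOK_of_placed' i₀ hd hba ha hb hab ha0 hb1 ?_
  intro T hT hT1
  have h1 := hB T hT
  have h2 := hdom T.card hT1
  omega

/-- Below the second column the rows have length at most one. -/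
theorem card_le_rowsBelow_add (ν : YoungDiagram) {j : ℕ} (hj : ν.colLen 1 ≤ j) :
    ν.card ≤ rowsBelow ν j + (ν.colLen 0 - j) := by
  induction j, hj using Nat.le_induction with
  | base =>
    have := rowsBelow_colLen_one ν
    omega
  | succ j hj ih =>
    rw [rowsBelow_succ]
    by_cases hjp : j < ν.colLen 0
    · have h1 : (j, 0) ∈ ν := YoungDiagram.mem_iff_lt_colLen.mpr hjp
      have h2 := YoungDiagram.mem_iff_lt_rowLen.mp h1
      omega
    · omega

/-- **The test with no placed double.** `M` is the number of parts. -/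
def DomOK (B : ℕ → ℕ) (M : ℕ) (ν : YoungDiagram) : Prop :=
  ν.colLen 0 ≤ M ∧ ∀ k, 1 ≤ k → k ≤ ν.colLen 1 → B k ≤ rowsBelow ν k

/-- `ChainOK` with no placed double, plain form. -/
theorem chainOK_of_dom {ν : YoungDiagram} (B : ℕ → ℕ)
    (hB : ∀ T : Finset (Σ i, Fin (ps i).length), ∑ p ∈ T, (ps p.1)[p.2.1] ≤ B T.card)
    (hdom : ∀ k, 1 ≤ k → B k ≤ rowsBelow ν k) : ChainOK l ps ν := by
  refine ⟨0, fun i => i.elim0, fun _ _ => 0, fun x => x.elim0, fun i => i.elim0, fun _ => rfl,
    fun i hi => absurd hi (Nat.not_lt_zero _), fun _ _ _ _ _ => le_rfl, fun _ => Nat.zero_le _,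
    fun i hi => absurd hi (Nat.not_lt_zero _), fun i => i.elim0,
    fun i hi => absurd hi (Nat.not_lt_zero _), ?_⟩
  intro T _
  by_cases hT0 : T.card = 0
  · rw [Finset.card_eq_zero.mp hT0]
    simp
  refine (hB T).trans ((hdom T.card (by omega)).trans ?_)
  rw [rowsBelow_eq_sum_min]
  simp

/-- `ChainOK` with no placed double, `DomOK` form. -/
theorem chainOK_of_domOK {ν : YoungDiagram} (B : ℕ → ℕ) {M : ℕ}
    (hB : ∀ T : Finset (Σ i, Fin (ps i).length), ∑ p ∈ T, (ps p.1)[p.2.1] ≤ B T.card)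
    (hTail : ∀ T : Finset (Σ i, Fin (ps i).length), T.card ≤ M ∧
      ∑ p ∈ T, (ps p.1)[p.2.1] + (M - T.card) ≤ ν.card)
    (hdom : DomOK B M ν) : ChainOK l ps ν := by
  obtain ⟨hp, hk⟩ := hdom
  refine ⟨0, fun i => i.elim0, fun _ _ => 0, fun x => x.elim0, fun i => i.elim0, fun _ => rfl,
    fun i hi => absurd hi (Nat.not_lt_zero _), fun _ _ _ _ _ => le_rfl, fun _ => Nat.zero_le _,
    fun i hi => absurd hi (Nat.not_lt_zero _), fun i => i.elim0,
    fun i hi => absurd hi (Nat.not_lt_zero _), ?_⟩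
  intro T _
  by_cases hT0 : T.card = 0
  · rw [Finset.card_eq_zero.mp hT0]
    simp
  have hS : ∑ j ∈ Finset.range (ν.rowLen 0), min T.card
      (ν.colLen j - ((Finset.range (ν.colLen 0)).filter fun y => j < (0 : ℕ)).card) =
      rowsBelow ν T.card := by
    rw [rowsBelow_eq_sum_min]
    simp
  show _ ≤ ∑ j ∈ Finset.range (ν.rowLen 0), min T.card
      (ν.colLen j - ((Finset.range (ν.colLen 0)).filter fun y => j < (0 : ℕ)).card)
  rw [hS]
  by_cases hq : T.card ≤ ν.colLen 1
  · exact (hB T).trans (hk _ (by omega) hq)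
  · have h1 := card_le_rowsBelow_add ν (show ν.colLen 1 ≤ T.card by omega)
    obtain ⟨h2, h3⟩ := hTail T
    omega

/-- **The simple test at `ν`**, for a placed double of size `2 h`; `M` is the number of the other
parts. -/
def SimpleOK (B : ℕ → ℕ) (h M : ℕ) (ν : YoungDiagram) : Prop :=
  h + 1 ≤ ν.rowLen 0 ∧ 2 * h + 1 ≤ rowsBelow ν 2 ∧ ν.colLen 0 ≤ M + 1 ∧ ν.colLen 1 ≤ M ∧
    (∀ k, 1 ≤ k → k ≤ ν.colLen 1 → B k + 1 ≤ rowsBelow ν k) ∧
    (∀ k, 1 ≤ k → k + 2 ≤ ν.colLen 1 → B k + 2 * h + 1 ≤ rowsBelow ν (k + 2))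

/-- **The simple test gives the chain test.** `hB`: a majorant of the sums of `k` parts,
`hTail`: there are `M` parts, all positive, of sum `card - 2h`. -/
theorem chainOK_of_simple (i₀ : Fin l.length) {d : ℕ} (hd : l[i₀.1] = BK.dbl d) (hd0 : 1 ≤ d)
    {ν : YoungDiagram} (B : ℕ → ℕ) {M : ℕ}
    (hB : ∀ T : Finset (Σ i, Fin (ps i).length), (∀ p ∈ T, p.1 ≠ i₀) →
      ∑ p ∈ T, (ps p.1)[p.2.1] ≤ B T.card)
    (hTail : ∀ T : Finset (Σ i, Fin (ps i).length), (∀ p ∈ T, p.1 ≠ i₀) → T.card ≤ M ∧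
      ∑ p ∈ T, (ps p.1)[p.2.1] + (M - T.card) + 2 * d ≤ ν.card)
    (h : SimpleOK B d M ν) : ChainOK l ps ν := by
  obtain ⟨h0, h2, hp, hqM, hk1, hk2⟩ := h
  rw [rowsBelow_two] at h2
  obtain ⟨a, b, hae, hbe, hba, hab, ha0, hb1, hi⟩ :=
    exists_placement_even ν.rowLen (rowLen_antitone ν) hd0 (rowLen_colLen_zero ν) h0 h2
  refine chainOK_of_placed' i₀ hd hba hae hbe hab ha0 hb1 ?_
  intro T hT hT1
  obtain ⟨hkM, hsum⟩ := hTail T hT
  have hBT := hB T hT
  set k := T.card with hk
  set s := ∑ p ∈ T, (ps p.1)[p.2.1] with hs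
  have h5 := hi k
  have h6 : rowsBelow ν (k + 2) = rowsBelow ν k + ν.rowLen k + ν.rowLen (k + 1) := by
    rw [rowsBelow_succ ν (k + 1), rowsBelow_succ ν k]
  by_cases hkM' : k = M
  · -- all parts: the exact column formula
    have h7 := card_le_rowsBelow_add ν (show ν.colLen 1 ≤ k by omega)
    have h8 : ν.rowLen (k + 1) = 0 := by
      by_contra hne
      have h9 : (k + 1, 0) ∈ ν := YoungDiagram.mem_iff_lt_rowLen.mpr (Nat.pos_of_ne_zero hne)
      have := YoungDiagram.mem_iff_lt_colLen.mp h9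
      omega
    have h10 : ν.rowLen k ≤ 1 := rowLen_le_one (by omega)
    by_cases h11 : ν.rowLen k = 0
    · have h12 := (colLen_le_iff_rowLen_le ν k 0).mpr (by omega)
      omega
    · omega
  · have hk3 : s + 1 ≤ rowsBelow ν k := by
      by_cases hq : k ≤ ν.colLen 1
      · exact (Nat.add_le_add_right hBT 1).trans (hk1 k hT1 hq)
      · have h7 := card_le_rowsBelow_add ν (show ν.colLen 1 ≤ k by omega)
        omega
    have hk4 : s + 2 * d + 1 ≤ rowsBelow ν (k + 2) := by
      by_cases hq : k + 2 ≤ ν.colLen 1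
      · have := hk2 k hT1 hq
        omega
      · have h7 := card_le_rowsBelow_add ν (show ν.colLen 1 ≤ k + 2 by omega)
        omega
    omega

end Tests

section Assembly

theorem card_transpose' (ν : YoungDiagram) : ν.transpose.card = ν.card := by
  have h1 : ν.transpose.cells = ν.cells.map (Equiv.prodComm ℕ ℕ).toEmbedding := rfl
  unfold YoungDiagram.card
  rw [h1, Finset.card_map]

/-- **Orientation.** It suffices to look at `ν` with short first two columns and a long first row. -/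
theorem hcover_of_oriented {Q : YoungDiagram → Prop} {c c₁ b₁ n : ℕ}
    (hF : c₁ + b₁ + 4 ≤ 2 * c - 1) (hc : 1 ≤ c)
    (hT : ∀ ν : YoungDiagram, ν.card = n → ν.colLen 0 + ν.colLen 1 ≤ 2 * (c - 1) →
      (c ≤ ν.rowLen 0 ∨ ν.colLen 0 ≤ ν.rowLen 0) → LongOK c (c - 1) c₁ b₁ ν ∨ Q ν) :
    ∀ ν : YoungDiagram, ν.card = n →
      (FatOK c (c - 1) c₁ b₁ ν ∨ LongOK c (c - 1) c₁ b₁ ν ∨ Q ν) ∨
      (FatOK c (c - 1) c₁ b₁ ν.transpose ∨ LongOK c (c - 1) c₁ b₁ ν.transpose ∨
        Q ν.transpose) := by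
  intro ν hν
  have hν' : ν.transpose.card = n := (card_transpose' ν).trans hν
  have hr := ν.rowLen_anti 0 1 (by omega)
  have hl := ν.colLen_anti 0 1 (by omega)
  by_cases hq : ν.colLen 0 + ν.colLen 1 ≤ 2 * (c - 1)
  · by_cases hp : ν.rowLen 0 + ν.rowLen 1 ≤ 2 * (c - 1)
    · by_cases hy : ν.colLen 0 ≤ ν.rowLen 0
      · exact Or.inl (Or.inr (hT ν hν hq (Or.inr hy)))
      · refine Or.inr (Or.inr (hT ν.transpose hν' (by simpa using hp) (Or.inr ?_)))
        simp only [YoungDiagram.colLen_transpose, YoungDiagram.rowLen_transpose]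
        omega
    · exact Or.inl (Or.inr (hT ν hν hq (Or.inl (by omega))))
  · by_cases hp : ν.rowLen 0 + ν.rowLen 1 ≤ 2 * (c - 1)
    · refine Or.inr (Or.inr (hT ν.transpose hν' (by simpa using hp) (Or.inl ?_)))
      simp only [YoungDiagram.rowLen_transpose]
      omega
    · refine Or.inl (Or.inl ⟨?_, ?_, ?_⟩)
      · rw [rowsBelow_one]
        omega
      · rw [rowsBelow_two]
        omega
      · have : colsBelow ν 2 = ν.colLen 0 + ν.colLen 1 := by
          simp [colsBelow, Finset.sum_range_succ]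
        omega

/-- **The level theorem for the oriented test.** `Q` is any test which implies the chain test. -/
theorem universal_of_oriented {L₀ L₁ L₂ : Finset (ℕ × ℕ)} {c c₁ b₁ m : ℕ}
    {l : List BK} {ps : Fin l.length → List ℕ} {Q : YoungDiagram → Prop}
    (hQ : ∀ ν, Q ν → ChainOK l ps ν)
    (hL₀ : ∀ q, q ∈ L₀ ↔ q.swap ∈ L₀)
    (hL₁ : ∀ q, q ∈ L₁ ↔ q.swap ∈ L₁) (hl : L₀ = cellsL l)
    (hpw : l.Pairwise fun K K' => K'.hi < K.lo)
    (hps : ∀ i, (ps i).sum = (l[i.1]).size) (hOK : ∀ i : Fin l.length, (l[i.1]).PartsOK (ps i))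
    (h0 : PeelStep L₀ L₁ c (c - 1)) (h1 : PeelStep L₁ L₂ c₁ b₁) (U : Universal L₂ m)
    (hc : 2 ≤ c) (hc₁ : c₁ ≤ c - 1) (hb₁ : b₁ ≤ c₁) (hb₁1 : 1 ≤ b₁)
    (hc₁' : c₁ ≤ b₁ + 1) (hF : c₁ + b₁ + 4 ≤ 2 * c - 1)
    (hsize : (l.map BK.size).sum = c + (c - 1) + c₁ + b₁ + m)
    (hT : ∀ ν : YoungDiagram, ν.card = c + (c - 1) + c₁ + b₁ + m →
      ν.colLen 0 + ν.colLen 1 ≤ 2 * (c - 1) →
      (c ≤ ν.rowLen 0 ∨ ν.colLen 0 ≤ ν.rowLen 0) → LongOK c (c - 1) c₁ b₁ ν ∨ Q ν) :
    Universal L₀ (c + (c - 1) + c₁ + b₁ + m) := by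
  refine universal_of_level_chain hL₀ hL₁ hl hpw hps hOK h0 h1 U (by omega) (by omega) hc₁ hb₁ hb₁1
    hc₁' hsize ?_
  intro ν hν
  have hT' := hcover_of_oriented (Q := Q) hF (by omega) hT ν hν
  rcases hT' with h | h
  · left
    rcases h with h | h | h
    · exact Or.inl h
    · exact Or.inr (Or.inl h)
    · exact Or.inr (Or.inr (Or.inr (hQ ν h)))
  · right
    rcases h with h | h | h
    · exact Or.inl h
    · exact Or.inr (Or.inl h)
    · exact Or.inr (Or.inr (Or.inr (hQ _ h)))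

end Assembly

namespace Family

/-- **The level theorem for the family, with the oriented test `Q`.** -/
theorem universal_stepL_of_oriented {l : List BK} (h : Good l) (d : Bool) {m : ℕ}
    (U : Saxl.Universal (cellsL l) m) (hm : (cellsL l).card = m)
    (ps : Fin (Family.stepL d l).length → List ℕ)
    (hps : ∀ i, (ps i).sum = ((Family.stepL d l)[i.1]).size)
    (hOK : ∀ i : Fin (Family.stepL d l).length, ((Family.stepL d l)[i.1]).PartsOK (ps i))
    {Q : YoungDiagram → Prop} (hQ : ∀ ν, Q ν → ChainOK (Family.stepL d l) ps ν)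
    (hT : ∀ ν : YoungDiagram,
      ν.card = cOf d l + (cOf d l - 1) + (cOf d l - 2) + (cOf d l - 3) + m →
      ν.colLen 0 + ν.colLen 1 ≤ 2 * (cOf d l - 1) →
      (cOf d l ≤ ν.rowLen 0 ∨ ν.colLen 0 ≤ ν.rowLen 0) →
      LongOK (cOf d l) (cOf d l - 1) (cOf d l - 2) (cOf d l - 3) ν ∨ Q ν) :
    Saxl.Universal (cellsL (Family.stepL d l))
      (cOf d l + (cOf d l - 1) + (cOf d l - 2) + (cOf d l - 3) + m) := by
  have hc := cOf_ge d l
  have hg := h.stepL d
  refine universal_of_oriented (Q := Q) (L₁ := midL d l) (L₂ := cellsL l) (l := Family.stepL d l) hQ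
    hg.self (h.selfMid d) rfl hg.pw hps hOK (h.peel₀ d) (h.peel₁ d) U (by omega) (by omega)
    (by omega) (by omega) (by omega) (by omega) ?_ hT
  rw [← card_cellsL, card_stepL h d, hm]

/-- **The level theorem for the family, with a big double of size `2 H` placed by the simple test.** -/
theorem universal_stepL_of_simple {l : List BK} (h : Good l) (d : Bool) {m : ℕ}
    (U : Saxl.Universal (cellsL l) m) (hm : (cellsL l).card = m)
    (ps : Fin (Family.stepL d l).length → List ℕ)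
    (hps : ∀ i, (ps i).sum = ((Family.stepL d l)[i.1]).size)
    (hOK : ∀ i : Fin (Family.stepL d l).length, ((Family.stepL d l)[i.1]).PartsOK (ps i))
    (i₀ : Fin (Family.stepL d l).length) {H : ℕ} (hH : (Family.stepL d l)[i₀.1] = BK.dbl H)
    (hH1 : 1 ≤ H) (B : ℕ → ℕ) {M n : ℕ}
    (hn : n = cOf d l + (cOf d l - 1) + (cOf d l - 2) + (cOf d l - 3) + m)
    (hB : ∀ T : Finset (Σ i, Fin (ps i).length), (∀ p ∈ T, p.1 ≠ i₀) →
      ∑ p ∈ T, (ps p.1)[p.2.1] ≤ B T.card)
    (hTail : ∀ T : Finset (Σ i, Fin (ps i).length), (∀ p ∈ T, p.1 ≠ i₀) → T.card ≤ M ∧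
      ∑ p ∈ T, (ps p.1)[p.2.1] + (M - T.card) + 2 * H ≤ n)
    (hT : ∀ ν : YoungDiagram, ν.card = n →
      ν.colLen 0 + ν.colLen 1 ≤ 2 * (cOf d l - 1) →
      (cOf d l ≤ ν.rowLen 0 ∨ ν.colLen 0 ≤ ν.rowLen 0) →
      LongOK (cOf d l) (cOf d l - 1) (cOf d l - 2) (cOf d l - 3) ν ∨ SimpleOK B H M ν) :
    Saxl.Universal (cellsL (Family.stepL d l)) n := by
  subst hn
  exact universal_stepL_of_oriented h d U hm ps hps hOK
    (Q := fun ν => ν.card = cOf d l + (cOf d l - 1) + (cOf d l - 2) + (cOf d l - 3) + m ∧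
      SimpleOK B H M ν)
    (fun ν hν => chainOK_of_simple i₀ hH hH1 B
      (fun T hT => hB T hT)
      (fun T hT => by rw [hν.1]; exact hTail T hT) hν.2)
    (fun ν hν h1 h2 => (hT ν hν h1 h2).imp_right fun h => ⟨hν, h⟩)

/-- **The level theorem for the family, no placed double.** -/
theorem universal_stepL_of_dom {l : List BK} (h : Good l) (d : Bool) {m : ℕ}
    (U : Saxl.Universal (cellsL l) m) (hm : (cellsL l).card = m)
    (ps : Fin (Family.stepL d l).length → List ℕ)
    (hps : ∀ i, (ps i).sum = ((Family.stepL d l)[i.1]).size)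
    (hOK : ∀ i : Fin (Family.stepL d l).length, ((Family.stepL d l)[i.1]).PartsOK (ps i))
    (B : ℕ → ℕ) {M n : ℕ}
    (hn : n = cOf d l + (cOf d l - 1) + (cOf d l - 2) + (cOf d l - 3) + m)
    (hB : ∀ T : Finset (Σ i, Fin (ps i).length), ∑ p ∈ T, (ps p.1)[p.2.1] ≤ B T.card)
    (hTail : ∀ T : Finset (Σ i, Fin (ps i).length), T.card ≤ M ∧
      ∑ p ∈ T, (ps p.1)[p.2.1] + (M - T.card) ≤ n)
    (hT : ∀ ν : YoungDiagram, ν.card = n →
      ν.colLen 0 + ν.colLen 1 ≤ 2 * (cOf d l - 1) →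
      (cOf d l ≤ ν.rowLen 0 ∨ ν.colLen 0 ≤ ν.rowLen 0) →
      LongOK (cOf d l) (cOf d l - 1) (cOf d l - 2) (cOf d l - 3) ν ∨ DomOK B M ν) :
    Saxl.Universal (cellsL (Family.stepL d l)) n := by
  subst hn
  exact universal_stepL_of_oriented h d U hm ps hps hOK
    (Q := fun ν => ν.card = cOf d l + (cOf d l - 1) + (cOf d l - 2) + (cOf d l - 3) + m ∧
      DomOK B M ν)
    (fun ν hν => chainOK_of_domOK B hB (fun T => by rw [hν.1]; exact hTail T) hν.2)
    (fun ν hν h1 h2 => (hT ν hν h1 h2).imp_right fun h => ⟨hν, h⟩)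

end Family

end Crest.Agent.Saxl
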