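import Crest.Agent.Lib.Saxl.GlueInst
import Crest.Agent.Lib.Saxl.EBlock
import Crest.Agent.Lib.Saxl.EFix

/-!
# Lists of blocks of three kinds: single columns, pairs `(x+1,x)`, doubles `(d,d)` (row 195, helper86)
-/

set_option autoImplicit false

open scoped BigOperators
open Equiv

namespace Crest.Agent.Saxl

/-- Kinds of blocks. -/
inductive BK
  | single (x : ℕ)
  | pair (x : ℕ)
  | dbl (d : ℕ)

namespace BK

/-- The cells of a block, in its own columns. -/
def cells : BK → Finset (ℕ × ℕ)
  | single x => Finset.range x ×ˢ {0}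
  | pair x => col2 x
  | dbl d => EBlock.rect2 d

/-- The size of a block. -/
def size : BK → ℕ
  | single x => x
  | pair x => 2 * x + 1
  | dbl d => 2 * d

/-- The lower end of the band. -/
def lo : BK → ℕ
  | single x => x - 1
  | pair x => x - 1
  | dbl d => d - 1

/-- The upper end of the band. -/
def hi : BK → ℕ
  | single x => x - 1
  | pair x => x
  | dbl d => d - 1

end BK

section Data

variable {A : Type} [Fintype A] [DecidableEq A]

/-- The condition on the colouring of a block. -/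
def BK.Cond (K : BK) (c : A → ℕ) (E : Finset ℕ) : Prop :=
  match K with
  | BK.single _ => ∀ a b, c a = c b
  | BK.pair _ => (Finset.univ.image c).card ≤ 4
  | BK.dbl d => 0 < d ∧ ∃ y ∈ E, (∀ a, c a = y ∨ c a = y + 1) ∧
      (Finset.univ.filter fun a => c a = y).card = d

/-- What a block provides. -/
def BlockData (K : BK) (c : A → ℕ) (E : Finset ℕ) : Prop :=
  ∃ (E' : Set (Fn2 A)) (Z : (A → ℕ) → (A → ℕ) → Prop) (k : Finset (Perm A)),
    (1 : Perm A) ∈ k ∧ E' ⊆ genXX A K.cells ∧ E'.Nonempty ∧ SeesOn Finset.univ k E' Z ∧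
    (∀ u₁ u₂, Z u₁ u₂ → ZW K.cells u₁ u₂ ∧ ∀ a, K.lo ≤ u₁ a + u₂ a ∧ u₁ a + u₂ a ≤ K.hi) ∧
    ∀ g ∈ k, (∀ a, c (g a) = c a) ∨
      ∃ y ∈ E, (∀ a, c a = y ∨ c a = y + 1) ∧ ∀ a, c (g a) = Equiv.swap y (y + 1) (c a)

theorem blockData_pair {x : ℕ} (hcard : Fintype.card A = 2 * x + 1) {c : A → ℕ} {E : Finset ℕ}
    (hc : (Finset.univ.image c).card ≤ 4) : BlockData (BK.pair x) c E := by
  have hne : Nonempty (col2 x ≃ A) := by
    apply Fintype.card_eq.mp
    rw [hcard, Fintype.card_coe, card_col2]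
  obtain ⟨t⟩ := hne
  refine ⟨genXX A (col2 x), fun u₁ u₂ => Zig x (2 * x + 1) u₁ u₂ ∧ ZW (col2 x) u₁ u₂, stab c,
    one_mem_stab c, subset_rfl, ⟨_, ⟨(t, t), rfl⟩⟩, seesOn_col2 hcard hc, ?_, ?_⟩
  · rintro u₁ u₂ ⟨h1, h2⟩
    exact ⟨h2, band_col2 hcard h1⟩
  · intro g hg
    exact Or.inl (mem_stab.mp hg)

/-- The cells of a single column. -/
theorem mem_single_cells {x : ℕ} {q : ℕ × ℕ} : q ∈ (BK.single x).cells ↔ q.1 < x ∧ q.2 = 0 := by
  simp only [BK.cells, Finset.mem_product, Finset.mem_range, Finset.mem_singleton]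

theorem exists_reversal {x : ℕ} (t : (BK.single x).cells ≃ A) :
    ∃ ρ₀ : Perm A, ∀ s, rowOf t (ρ₀ s) + rowOf t s + 1 = x := by
  have hlt : ∀ s, rowOf t s < x := fun s => (mem_single_cells.mp (t.symm s).2).1
  let r : (BK.single x).cells → (BK.single x).cells := fun q =>
    ⟨(x - 1 - q.1.1, 0), mem_single_cells.mpr ⟨by
      have := (mem_single_cells.mp q.2).1
      simp only
      omega, rfl⟩⟩
  have hr : Function.Involutive r := by
    rintro ⟨⟨i, j⟩, hq⟩
    obtain ⟨h1, h2⟩ := mem_single_cells.mp hq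
    simp only at h1 h2
    subst h2
    apply Subtype.ext
    simp only [r, Prod.mk.injEq, and_true]
    omega
  refine ⟨t.symm.trans (hr.toPerm.trans t), fun s => ?_⟩
  have h0 : rowOf t (t.symm.trans (hr.toPerm.trans t) s) = x - 1 - rowOf t s := by
    simp [rowOf, r]
  rw [h0]
  have := hlt s
  omega

theorem poly_rowOf_single {x : ℕ} (t : (BK.single x).cells ≃ A) (g : Perm A) :
    poly t (rowOf t ∘ g) = sgn g := by
  have hcol : ∀ s, colOf t s = 0 := fun s => (mem_single_cells.mp (t.symm s).2).2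
  have hinj : Function.Injective (rowOf t) := by
    intro s s' h
    exact rowOf_colOf_injective t (Prod.ext h (by
      simp only [hcol]))
  have hst : ∀ σ : Perm A, σ ∈ stab (colOf t) := fun σ => mem_stab.mpr fun s => by simp [hcol]
  unfold poly
  rw [Finset.sum_eq_single g⁻¹]
  · simp [sgn_inv]
  · intro σ _ hσ
    rw [if_neg, mul_zero]
    intro h
    apply hσ
    have : (g : A → A) = ⇑(σ⁻¹) := hinj.comp_left h
    have h2 : g = σ⁻¹ := Equiv.coe_fn_injective this
    rw [h2, inv_inv]
  · intro h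
    exact absurd (hst _) h

theorem blockData_single {x : ℕ} (hcard : Fintype.card A = x) {c : A → ℕ} {E : Finset ℕ}
    (hc : ∀ a b, c a = c b) : BlockData (BK.single x) c E := by
  have hcells : ((BK.single x).cells).card = x := by
    simp [BK.cells]
  have hne : Nonempty ((BK.single x).cells ≃ A) := by
    apply Fintype.card_eq.mp
    rw [hcard, Fintype.card_coe, hcells]
  obtain ⟨t⟩ := hne
  obtain ⟨ρ₀, hρ₀⟩ := exists_reversal t
  have hst : stab c = Finset.univ := by
    ext g
    simp [mem_stab, hc _]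
    intro s
    exact hc _ _
  refine ⟨{prod2 t t}, fun u₁ u₂ => u₁ = rowOf t ∧ u₂ = rowOf t ∘ ρ₀, stab c, one_mem_stab c, ?_,
    ⟨_, rfl⟩, ?_, ?_, ?_⟩
  · rintro F rfl
    exact ⟨(t, t), rfl⟩
  · intro b hb
    rw [hst]
    have h0 := hb (prod2 t t) rfl (rowOf t) (rowOf t ∘ ρ₀) ⟨rfl, rfl⟩
    have h1 : ∀ g : Perm A, b g * prod2 t t (rowOf t ∘ g) ((rowOf t ∘ ρ₀) ∘ g) = sgn ρ₀ * b g := by
      intro g
      have e : (rowOf t ∘ ρ₀) ∘ g = rowOf t ∘ (ρ₀ * g : Perm A) := rfl
      simp only [prod2]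
      rw [e, poly_rowOf_single, poly_rowOf_single, sgn_mul]
      linear_combination (sgn ρ₀ * b g) * sgn_mul_self g
    simp only [h1, ← Finset.mul_sum] at h0
    exact (mul_eq_zero.mp h0).resolve_left (sgn_ne_zero _)
  · rintro u₁ u₂ ⟨rfl, rfl⟩
    have hsum : ∀ a, rowOf t a + (rowOf t ∘ ρ₀) a + 1 = x := fun a => by
      have := hρ₀ a
      simp only [Function.comp_apply]
      omega
    refine ⟨?_, fun a => ?_⟩
    · unfold ZW
      have e1 : ∑ a, (rowOf t a + (rowOf t ∘ ρ₀) a) = ∑ _a : A, (x - 1) :=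
        Finset.sum_congr rfl fun a _ => by
          have := hsum a
          omega
      rw [e1, Finset.sum_const, Finset.card_univ, hcard, smul_eq_mul]
      have e2 : ∑ c ∈ (BK.single x).cells, c.1 = ∑ i ∈ Finset.range x, i := by
        simp [BK.cells, Finset.sum_product]
      rw [e2]
      have := Finset.sum_range_id_mul_two x
      omega
    · have := hsum a
      simp only [BK.lo, BK.hi]
      omega
  · intro g hg
    exact Or.inl (mem_stab.mp hg)

theorem exists_tab_dbl {d : ℕ} (hcard : Fintype.card A = 2 * d) {c : A → ℕ} {y : ℕ}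
    (hcnt : (Finset.univ.filter fun a => c a = y).card = d) :
    ∃ t : (BK.dbl d).cells ≃ A, ∀ a, colOf t a = 0 ↔ c a = y := by
  classical
  have hmem : ∀ {i e : ℕ}, i < d → e < 2 → ((i, e) : ℕ × ℕ) ∈ (BK.dbl d).cells := by
    intro i e h1 h2
    exact EBlock.mem_rect2.mpr ⟨h1, h2⟩
  have c1 : Fintype.card {a // c a = y} = d := by
    rw [Fintype.card_subtype]
    exact hcnt
  have c2 : Fintype.card {a // ¬ c a = y} = d := by
    rw [Fintype.card_subtype_compl, c1, hcard]
    omega
  let f1 : Fin d → {q : (BK.dbl d).cells // q.1.2 = 0} := fun i =>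
    ⟨⟨(i.1, 0), hmem i.2 (by norm_num)⟩, rfl⟩
  let f2 : Fin d → {q : (BK.dbl d).cells // ¬ q.1.2 = 0} := fun i =>
    ⟨⟨(i.1, 1), hmem i.2 (by norm_num)⟩, by simp⟩
  have b1 : Function.Bijective f1 := by
    constructor
    · intro i j h
      have := congrArg (fun q => q.1.1.1) h
      exact Fin.ext this
    · rintro ⟨⟨⟨i, e⟩, hq⟩, he⟩
      simp only at he
      subst he
      exact ⟨⟨i, (EBlock.mem_rect2.mp hq).1⟩, rfl⟩
  have b2 : Function.Bijective f2 := by
    constructor
    · intro i j h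
      have := congrArg (fun q => q.1.1.1) h
      exact Fin.ext this
    · rintro ⟨⟨⟨i, e⟩, hq⟩, he⟩
      simp only at he
      have h2 := (EBlock.mem_rect2.mp hq).2
      simp only at h2
      have : e = 1 := by omega
      subst this
      exact ⟨⟨i, (EBlock.mem_rect2.mp hq).1⟩, rfl⟩
  have e1 : {q : (BK.dbl d).cells // q.1.2 = 0} ≃ {a // c a = y} :=
    (Equiv.ofBijective f1 b1).symm.trans (Fintype.equivOfCardEq (by rw [Fintype.card_fin, c1]))
  have e2 : {q : (BK.dbl d).cells // ¬ q.1.2 = 0} ≃ {a // ¬ c a = y} :=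
    (Equiv.ofBijective f2 b2).symm.trans (Fintype.equivOfCardEq (by rw [Fintype.card_fin, c2]))
  let t : (BK.dbl d).cells ≃ A :=
    (Equiv.sumCompl (fun q : (BK.dbl d).cells => q.1.2 = 0)).symm.trans
      ((Equiv.sumCongr e1 e2).trans (Equiv.sumCompl fun a => c a = y))
  refine ⟨t, fun a => ?_⟩
  have key : ∀ q : (BK.dbl d).cells, q.1.2 = 0 ↔ c (t q) = y := by
    intro q
    by_cases hq : q.1.2 = 0
    · have : t q = (e1 ⟨q, hq⟩).1 := by
        simp [t, Equiv.sumCompl_symm_apply_of_pos, hq]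
      rw [this]
      exact ⟨fun _ => (e1 ⟨q, hq⟩).2, fun _ => hq⟩
    · have : t q = (e2 ⟨q, hq⟩).1 := by
        simp [t, Equiv.sumCompl_symm_apply_of_neg, hq]
      rw [this]
      exact ⟨fun h => absurd h hq, fun h => absurd h (e2 ⟨q, hq⟩).2⟩
  have := key (t.symm a)
  simpa [colOf] using this

theorem sum_rect2 (d : ℕ) : 2 * ∑ c ∈ EBlock.rect2 d, c.1 = 2 * d * (d - 1) := by
  have e2 : ∑ c ∈ EBlock.rect2 d, c.1 = 2 * ∑ i ∈ Finset.range d, i := by
    unfold EBlock.rect2
    rw [Finset.sum_product]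
    simp [Finset.mul_sum]
  rw [e2]
  have := Finset.sum_range_id_mul_two d
  rw [mul_assoc]
  congr 1
  linarith

theorem blockData_dbl {d : ℕ} (hcard : Fintype.card A = 2 * d) {c : A → ℕ} {E : Finset ℕ}
    (hd : 0 < d) {y : ℕ} (hy : y ∈ E) (hval : ∀ a, c a = y ∨ c a = y + 1)
    (hcnt : (Finset.univ.filter fun a => c a = y).card = d) : BlockData (BK.dbl d) c E := by
  classical
  obtain ⟨t, ht⟩ := exists_tab_dbl hcard hcnt
  let τ : ℕ → ℕ := fun a => d - 1 - a
  have hτ : ∀ a < d, τ a < d := fun a ha => by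
    simp only [τ]
    omega
  have hτi : Set.InjOn τ (Set.Iio d) := by
    intro a ha b hb h
    simp only [τ, Set.mem_Iio] at ha hb h
    omega
  have hc0 : ∀ a, a ∈ EBlock.col0 t ↔ c a = y := by
    intro a
    simp only [EBlock.col0, Finset.mem_filter, Finset.mem_univ, true_and]
    exact ht a
  refine ⟨{prod2 t t}, fun u₁ u₂ => EBlock.IsCont d u₁ ∧ u₂ = τ ∘ u₁,
    Finset.univ.filter (fun g : Perm A =>
      (EBlock.col0 t).image g = EBlock.col0 t ∨ (EBlock.col0 t).image g = (EBlock.col0 t)ᶜ),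
    by simp, ?_, ⟨_, rfl⟩, ?_, ?_, ?_⟩
  · rintro F rfl
    exact ⟨(t, t), rfl⟩
  · intro b hb
    exact EBlock.eblock_visible hd t τ hτ hτi b
      (fun u hu => hb (prod2 t t) rfl u (τ ∘ u) ⟨hu, rfl⟩)
  · rintro u₁ u₂ ⟨hu, rfl⟩
    have hsum : ∀ a, u₁ a + (τ ∘ u₁) a + 1 = d := fun a => by
      have := hu.1 a
      simp only [Function.comp_apply, τ]
      omega
    refine ⟨?_, fun a => ?_⟩
    · unfold ZW
      have e1 : ∑ a, (u₁ a + (τ ∘ u₁) a) = ∑ _a : A, (d - 1) :=
        Finset.sum_congr rfl fun a _ => by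
          have := hsum a
          omega
      rw [e1, Finset.sum_const, Finset.card_univ, hcard, smul_eq_mul]
      exact (sum_rect2 d).symm
    · have := hsum a
      simp only [BK.lo, BK.hi]
      omega
  · intro g hg
    simp only [Finset.mem_filter, Finset.mem_univ, true_and] at hg
    rcases hg with hg | hg
    · left
      intro a
      rcases hval a with h | h
      · have h1 : a ∈ EBlock.col0 t := (hc0 a).mpr h
        have h2 : g a ∈ EBlock.col0 t := by
          rw [← hg]
          exact Finset.mem_image_of_mem _ h1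
        rw [h, (hc0 _).mp h2]
      · have h1 : a ∉ EBlock.col0 t := by
          rw [hc0, h]
          omega
        have h2 : g a ∉ EBlock.col0 t := by
          intro h3
          rw [← hg] at h3
          obtain ⟨b, hb, he⟩ := Finset.mem_image.mp h3
          rw [g.injective he] at hb
          exact h1 hb
        rw [h]
        rcases hval (g a) with h3 | h3
        · exact absurd ((hc0 _).mpr h3) h2
        · exact h3
    · right
      refine ⟨y, hy, hval, fun a => ?_⟩
      rcases hval a with h | h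
      · have h1 : a ∈ EBlock.col0 t := (hc0 a).mpr h
        have h2 : g a ∈ (EBlock.col0 t)ᶜ := by
          rw [← hg]
          exact Finset.mem_image_of_mem _ h1
        have h3 : g a ∉ EBlock.col0 t := Finset.mem_compl.mp h2
        rw [h, Equiv.swap_apply_left]
        rcases hval (g a) with h4 | h4
        · exact absurd ((hc0 _).mpr h4) h3
        · exact h4
      · have h1 : a ∉ EBlock.col0 t := by
          rw [hc0, h]
          omega
        have h2 : g a ∈ EBlock.col0 t := by
          by_contra h3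
          have h4 : g a ∈ (EBlock.col0 t)ᶜ := Finset.mem_compl.mpr h3
          rw [← hg] at h4
          obtain ⟨b, hb, he⟩ := Finset.mem_image.mp h4
          rw [g.injective he] at hb
          exact h1 hb
        rw [h, Equiv.swap_apply_right]
        exact (hc0 _).mp h2

theorem blockData_of {K : BK} (hcard : Fintype.card A = K.size) {c : A → ℕ} {E : Finset ℕ}
    (hc : K.Cond c E) : BlockData K c E := by
  cases K with
  | single x => exact blockData_single hcard hc
  | pair x => exact blockData_pair hcard hc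
  | dbl d =>
    obtain ⟨hd, y, hy, hval, hcnt⟩ := hc
    exact blockData_dbl hcard hd hy hval hcnt

end Data

section Mixed

variable {S : Type} [Fintype S] [DecidableEq S] {ι : Type} [DecidableEq ι]

/-- Local behaviour of an element of `KT`: on the block of `s`, it fixes the colouring or swaps a
pair of labels. -/
theorem adm_of_KT {B : S → ι} {c : S → ℕ} {E : Finset ℕ}
    (hcB : ∀ s s', c s = c s' → B s = B s') (hE : ∀ x ∈ E, x + 1 ∉ E)
    (hEb : ∀ s s', c s ∈ E → c s' = c s + 1 → B s = B s')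
    {k : ∀ i, Finset (Perm (Blk B i))} [Fintype ι]
    (hadm : ∀ i, ∀ g ∈ k i, (∀ a : Blk B i, c (g a).1 = c a.1) ∨
      ∃ y ∈ E, (∀ a : Blk B i, c a.1 = y ∨ c a.1 = y + 1) ∧
        ∀ a : Blk B i, c (g a).1 = Equiv.swap y (y + 1) (c a.1))
    {g : Perm S} (hg : g ∈ KT k Finset.univ) : EFix.Adm c E g := by
  classical
  obtain ⟨hgH, hgk⟩ := mem_KT_iff.mp hg
  have hb : ∀ s, B (g s) = B s := (mem_HT.mp hgH).1
  have hloc : ∀ s, (∀ s', B s' = B s → c (g s') = c s') ∨
      ∃ y ∈ E, (∀ s', B s' = B s → c s' = y ∨ c s' = y + 1) ∧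
        ∀ s', B s' = B s → c (g s') = Equiv.swap y (y + 1) (c s') := by
    intro s
    obtain ⟨k', hk', he⟩ := hgk (B s) (Finset.mem_univ _)
    rcases hadm _ k' hk' with h | ⟨y, hy, h1, h2⟩
    · left
      intro s' hs'
      rw [he s' hs']
      exact h ⟨s', hs'⟩
    · right
      refine ⟨y, hy, fun s' hs' => h1 ⟨s', hs'⟩, fun s' hs' => ?_⟩
      rw [he s' hs']
      exact h2 ⟨s', hs'⟩
  have hwd : ∀ s s', c s = c s' → c (g s) = c (g s') := by
    intro s s' h
    have hbs := hcB s s' h
    rcases hloc s with h1 | ⟨y, _, _, h2⟩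
    · rw [h1 s rfl, h1 s' hbs.symm, h]
    · rw [h2 s rfl, h2 s' hbs.symm, h]
  let π : ℕ → ℕ := fun z => if h : ∃ s, c s = z then c (g h.choose) else z
  have hπ : ∀ s, c (g s) = π (c s) := by
    intro s
    have h : ∃ s', c s' = c s := ⟨s, rfl⟩
    simp only [π, dif_pos h]
    exact hwd _ _ h.choose_spec.symm
  have hπ0 : ∀ z, (¬ ∃ s, c s = z) → π z = z := fun z h => by
    simp only [π, dif_neg h]
  refine ⟨π, ⟨?_, ?_⟩, hπ⟩
  · intro z hz hz2
    by_cases h : ∃ s, c s = z
    · obtain ⟨s, rfl⟩ := h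
      rw [← hπ]
      rcases hloc s with h1 | ⟨y, hy, h2, _⟩
      · exact h1 s rfl
      · rcases h2 s rfl with h3 | h3
        · exact absurd (h3 ▸ hy) hz
        · exact absurd h3 (hz2 y hy)
    · exact hπ0 z h
  · intro x hx
    have hx1 : x + 1 ∉ E := hE x hx
    by_cases h : ∃ s, c s = x
    · obtain ⟨s, hs⟩ := h
      rcases hloc s with h1 | ⟨y, hy, h2, h3⟩
      · left
        refine ⟨?_, ?_⟩
        · rw [← hs, ← hπ]
          exact h1 s rfl
        · by_cases h4 : ∃ s', c s' = x + 1
          · obtain ⟨s', hs'⟩ := h4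
            rw [← hs', ← hπ]
            exact h1 s' (hEb s s' (hs ▸ hx) (by rw [hs, hs'])).symm
          · exact hπ0 _ h4
      · have hxy : x = y := by
          rcases h2 s rfl with h4 | h4
          · omega
          · exfalso
            apply hE y hy
            rw [← h4, hs]
            exact hx
        subst hxy
        right
        have e1 : π x = x + 1 := by
          rw [← hs, ← hπ, h3 s rfl, hs, Equiv.swap_apply_left]
        refine ⟨e1, ?_⟩
        have e2 : c (g s) = x + 1 := by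
          rw [hπ, hs, e1]
        have hbs : B (g s) = B s := hb s
        rw [← e2, ← hπ, h3 _ hbs, e2, Equiv.swap_apply_right]
    · rw [hπ0 x h]
      left
      refine ⟨rfl, ?_⟩
      by_cases h4 : ∃ s', c s' = x + 1
      · obtain ⟨s', hs'⟩ := h4
        rw [← hs', ← hπ]
        rcases hloc s' with h1 | ⟨y, hy, h2, h3⟩
        · exact h1 s' rfl
        · exfalso
          rcases h2 s' rfl with h5 | h5
          · apply hE x hx
            rw [← hs', h5]
            exact hy
          · have hxy : y = x := by omega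
            subst hxy
            apply h
            refine ⟨g s', ?_⟩
            rw [h3 s' rfl, hs', Equiv.swap_apply_right]
      · exact hπ0 _ h4

/-- **Product theorem for blocks of the three kinds.** `c` is a colouring, `E` the set of first
labels of the doubles; the vector `v₀` is fixed by all permutations permuting the labels by swaps of
pairs `(x, x + 1)`, `x ∈ E` (this is `EFix.exists_fix_of_filling`). -/
theorem occurs_of_mixed [Fintype ι] (kind : ι → BK) {pos : ι → ℕ → ℕ} {D : Finset (ℕ × ℕ)}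
    (B : S → ι) (c : S → ℕ) (E : Finset ℕ)
    (hcard : ∀ i, Fintype.card (Blk B i) = (kind i).size)
    (hCond : ∀ i, (kind i).Cond (fun a : Blk B i => c a.1) E)
    (hp : PosSepG pos (fun i => (kind i).cells)) (hD : IsUnionG pos (fun i => (kind i).cells) D)
    (hband : ∀ i j, i ≠ j → (kind i).hi < (kind j).lo ∨ (kind j).hi < (kind i).lo)
    (hcB : ∀ s s', c s = c s' → B s = B s') (hE : ∀ x ∈ E, x + 1 ∉ E)
    (hEb : ∀ s s', c s ∈ E → c s' = c s + 1 → B s = B s')
    {V : Type*} [AddCommGroup V] [Module ℂ V] {ρ : Representation ℂ (Perm S) V}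
    {v₀ : V} (hv₀ : v₀ ≠ 0) (hfix : ∀ κ, EFix.Adm c E κ → ρ κ v₀ = v₀) : Occurs ρ D D := by
  have hdata := fun i => blockData_of (hcard i) (hCond i)
  unfold BlockData at hdata
  choose E' Z k hk1 hE' hne hs hZ hadm using hdata
  refine occurs_of_family (E := E') (Z := Z) (k := k) (l := fun i => (kind i).lo)
    (h := fun i => (kind i).hi) hp hD hE' hne hk1 hs hband hZ hv₀ (fun g hg => ?_)
  apply hfix
  exact (EFix.admK c E).inv_mem (adm_of_KT hcB hE hEb hadm hg)

end Mixed

end Crest.Agent.Saxl
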