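import Crest.Agent.Lib.Saxl.N71

/-!
# The size `133` (row 195, S0298, helper58)

The shape with hook lengths `[33, 29, 23, 19, 15, 9, 5]`, one step with a defect over the shape of
the size `71`.  The level is checked by the prefix-tree checker, no exception; ten leaves need two
placed doubles.
-/

set_option autoImplicit false
set_option maxRecDepth 1000000

namespace Crest.Agent.Saxl.N133

open Crest.Agent.Saxl Crest.Agent.Saxl.Family Crest.Agent.Saxl.TreeCheck Crest.Agent.Saxl.Kron
open Crest.Agent.Saxl.N71

/-- The blocks of `[33, 29, 23, 19, 15, 9, 5]`. -/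
def l133 : List BK := stepL true l71

def BD133 : List ℕ := [0,14,26,36,45,53,61,69,76,83,90,96,102,107,112,117,121,125,127,129,131,132,133]

def sims133 : List SimD := [⟨4, 7, [0,12,22,31,39,47,55,62,69,76,82,88,93,98,103,107,111,113,115,117,118,119], 21⟩,
  ⟨6, 5, [0,14,26,35,43,51,59,66,73,80,86,92,97,102,107,111,115,117,119,121,122,123], 21⟩,
  ⟨8, 2, [0,14,26,36,45,53,61,69,76,83,90,96,102,107,112,117,121,123,125,127,128,129], 21⟩]

def twos133 : List TwoD := [⟨4, 6, 7, 5, [0, 12, 21, 29, 37, 45, 52, 59, 66, 72, 78, 83, 88, 93, 97, 101, 103, 105, 107, 108, 109], 20⟩]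

theorem tree133 : treeOK (stdTst 17 16 15 14 BD133 22 sims133)
    (stdLeaf sims133 twos133 []) 133 17 = true := by decide +kernel

/-- **Level `133`**, over a universal shape of size `71`. -/
theorem universal133 (U : Saxl.Universal (cellsL l71) 71) : Saxl.Universal (cellsL l133) 133 := by
  have hg := good_base15.stepL false
  exact Family.universal_stepL_of_tree hg true U (by rw [card_cellsL]; decide +kernel)
    (by decide +kernel) (by decide +kernel) (MD := 22) (by decide +kernel) (by decide +kernel)
    (by decide +kernel) (by decide +kernel)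
    (by simp)
    tree133

/-- The diagram. -/
theorem exists133 (U : Saxl.Universal (cellsL base15) 29) :
    ∃ μ : YoungDiagram, μ.cells.card = 133 ∧ Saxl.Universal μ.cells 133 :=
  ⟨toDiagram (cellsL l133) ((good_base15.stepL false).stepL true).low, by
    show (cellsL l133).card = 133
    rw [card_cellsL]
    decide +kernel, universal133 (universal71 U)⟩

end Crest.Agent.Saxl.N133
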