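import Crest.Agent.Lib.Saxl.HookBox
import Crest.Agent.Lib.Saxl.Bases.S_5_5_4_4_2

/-!
# The shape with rows `[7, 6, 6, 5, 5, 3, 1]`, `n = 33` (row 195, S0298)

A hook around the shape with rows `[5, 5, 4, 4, 2]`; the `3` partitions in the box are handled by
certificates.
-/

set_option autoImplicit false
set_option maxRecDepth 1000000

namespace Crest.Agent.Saxl.Kron.N33H

open Crest.Agent.Saxl Crest.Agent.Saxl.Family

/-- The certificates. -/
def certs : List Cert := [
  ⟨[6,10,0,1,11,5,15,21,20,16,26,25],[7,6,5,16,15,17,12,1,10,0,11,2],[12,10,7,11,5,8,13,6,2,0,1,3],5,39199331158813836290⟩,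
  ⟨[0,16,15,7,6,1,2,10,5,11,12,3],[15,7,10,6,12,8,11,5,0,3,1,2],[21,20,16,15,0,6,25,11,26,1,5,10],5,2417851650488257552056352⟩,
  ⟨[30,12,24,7,18,6,1,0,13],[0,1,18,24,7,2,13,6,12],[12,7,0,2,1,3,4,6,8],6,1237940041591227682159337473⟩,
  ⟨[6,1,0,13,7,12,24,18,19],[6,7,0,12,1,24,13,2,18],[12,7,6,8,1,0,4,3,2],6,1237940040438310575599001601⟩]

theorem certs_ok : certs.all Cert.ok = true := by decide +kernel

/-- The partitions in the box, as column heights. -/
def box : List (List ℕ) := [
  [6,6,6,5,5,5],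
  [6,6,6,6,5,4],
  [6,6,6,6,6,3]]

/-- The derivations. -/
def ds : List Der := [
  .sw13 (.sw12 (.sw12 (.tw (.sw13 (.add (.tw (.seed 2)) (.sw13 (.sw12 (.tw (.add (.sw12 (.tw (.sw12 (.seed 1)))) (.sw12 (.sw13 (.tw (.seed 0))))))))))))),
  .sw13 (.sw12 (.sw12 (.sw13 (.add (.tw (.seed 3)) (.sw13 (.sw12 (.tw (.add (.sw12 (.tw (.sw12 (.seed 1)))) (.sw12 (.sw13 (.tw (.seed 0)))))))))))),
  .tw (.sw13 (.sw12 (.sw12 (.tw (.sw13 (.add (.tw (.seed 2)) (.sw13 (.sw12 (.tw (.add (.sw12 (.tw (.sw12 (.seed 1)))) (.sw12 (.sw13 (.tw (.seed 0))))))))))))))]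

/-- The columns of the shape. -/
def H₀ : List ℕ := [7,6,6,5,5,3,1]

/-- The columns of the inner shape. -/
def H₁ : List ℕ := [5,5,4,4,2]

theorem table_ok : tableOK (certs.map Cert.triple) H₀ box ds = true := by decide +kernel

theorem hall : (partsF 12 33 12).all (hookTest 13 box) = true := by decide +kernel

theorem seeds_good : ∀ t ∈ certs.map Cert.triple, t.Good := by
  intro t ht
  obtain ⟨C, hC, rfl⟩ := List.mem_map.mp ht
  exact C.good (List.all_eq_true.mp certs_ok C hC)

theorem box_real3 : ∀ l ∈ box, Real3 (l : Multiset ℕ) (H₀ : Multiset ℕ) (H₀ : Multiset ℕ) :=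
  tableOK_good seeds_good table_ok

theorem sd₀ : sd H₀ = true := by decide
theorem sd₁ : sd H₁ = true := by decide

/-- The shape. -/
def D₀ : YoungDiagram := YoungDiagram.ofRowLens H₀ (sd_sorted sd₀).1

/-- The inner shape. -/
def D₁ : YoungDiagram := YoungDiagram.ofRowLens H₁ (sd_sorted sd₁).1

theorem hts_D₀ : hts D₀ = (H₀ : Multiset ℕ) := by
  rw [D₀, hts_ofRowLens (sd_sorted sd₀).1 (sd_sorted sd₀).2, eq_of_leq (a := dualL H₀) (b := H₀)
    (by decide)]

theorem selfConj_D₁ : SelfConj D₁.cells :=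
  selfConj_ofRowLens (sd_sorted sd₁).1 (N := 5) (by decide)
    (by
      intro i
      by_cases h : i < 5
      · interval_cases i <;> decide
      · rw [List.getD_eq_default _ _ (by simp [H₁]; omega)]
        omega)
    (by decide)

theorem selfConj_D₀ : SelfConj D₀.cells :=
  selfConj_ofRowLens (sd_sorted sd₀).1 (N := 7) (by decide)
    (by
      intro i
      by_cases h : i < 7
      · interval_cases i <;> decide
      · rw [List.getD_eq_default _ _ (by simp [H₀]; omega)]
        omega)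
    (by decide)

theorem cells_D₀ : D₀.cells = hookWrap 7 D₁.cells :=
  cells_ofRowLens_eq_hookWrap (sd_sorted sd₀).1 (sd_sorted sd₁).1 (by decide)
    (by
      intro i
      by_cases h : i + 1 < 7
      · rw [if_pos h]
        have h' : i < 6 := by omega
        interval_cases i <;> decide
      · rw [if_neg h, List.getD_eq_default _ _ (by simp [H₀]; omega)])
    (by decide)

theorem peel : PeelStep D₀.cells D₁.cells 7 6 := by
  rw [cells_D₀]
  refine peelStep_hookWrap_of_cells selfConj_D₁ ?_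
  intro i j hij hi
  have h1 : j < H₁.getD i 0 := (mem_ofRowLens_iff (sd_sorted sd₁).1 i j).mp hij
  by_cases h : i < 5
  · interval_cases i <;> simp [H₁] at h1 hi ⊢ <;> omega
  · rw [List.getD_eq_default _ _ (by simp [H₁]; omega)] at h1
    omega

/-- **The shape is universal, if the inner shape is.** -/
theorem universal_of_inner (U : Universal D₁.cells 20) : Universal D₀.cells 33 :=
  universal_of_hook_box selfConj_D₀ hts_D₀ peel rfl (by omega) U rfl box_real3 rfl hall

/-- **The shape with hooks `[13, 9, 7, 3, 1]` is universal.** -/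
theorem universal : Universal D₀.cells 33 := by
  refine universal_of_inner ?_
  obtain ⟨h1, hu⟩ := S_5_5_4_4_2.uni
  have hc : (YoungDiagram.ofRowLens [5, 5, 4, 4, 2] h1).card = 20 :=
    (card_ofRowLens h1 (sd_sorted sd₁).2).trans (by decide)
  intro S _ _ hS V _ _ _ ρ hρ
  exact hu S (hS.trans hc.symm) V ρ hρ

end Crest.Agent.Saxl.Kron.N33H
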