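import Crest.Agent.Lib.Saxl.N52Box
import Crest.Agent.Lib.Saxl.HookEnum

/-!
# The size `52` from the size `33` (row 195, S0298, helper58)

The shape with hook lengths `[19, 13, 9, 7, 3, 1]` is a hook of arm and leg `9` around the shape with
hook lengths `[13, 9, 7, 3, 1]`.
-/

set_option autoImplicit false
set_option maxRecDepth 1000000

namespace Crest.Agent.Saxl.N52

open Crest.Agent.Saxl Crest.Agent.Saxl.Family Crest.Agent.Saxl.Kron

/-- Rows of the inner shape, of size `33`. -/
def K1 : List ℕ := [7,6,6,5,5,3,1]

theorem H_sorted : H.SortedGE := by decide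
theorem K1_sorted : K1.SortedGE := by decide

theorem selfConj1 : SelfConj (YoungDiagram.ofRowLens K1 K1_sorted).cells :=
  selfConj_ofRowLens K1_sorted (N := 8) (by decide)
    (by
      intro i
      by_cases hi : i < 7
      · interval_cases i <;> decide
      · rw [List.getD_eq_default _ _ (by simpa [K1] using hi)]
        omega)
    (by decide)

theorem selfConj0 : SelfConj (YoungDiagram.ofRowLens H H_sorted).cells :=
  selfConj_ofRowLens H_sorted (N := 11) (by decide)
    (by
      intro i
      by_cases hi : i < 10
      · interval_cases i <;> decide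
      · rw [List.getD_eq_default _ _ (by simpa [H] using hi)]
        omega)
    (by decide)

theorem cells_eq :
    (YoungDiagram.ofRowLens H H_sorted).cells =
      hookWrap 10 (YoungDiagram.ofRowLens K1 K1_sorted).cells :=
  cells_ofRowLens_eq_hookWrap H_sorted K1_sorted (by decide)
    (by
      intro i
      by_cases hi : i < 9
      · interval_cases i <;> decide
      · rw [List.getD_eq_default _ _ (by simpa [H] using (by omega : 10 ≤ i + 1)),
          if_neg (by omega)])
    (by decide)

theorem peel :
    PeelStep (YoungDiagram.ofRowLens H H_sorted).cells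
      (YoungDiagram.ofRowLens K1 K1_sorted).cells 10 9 := by
  rw [cells_eq]
  refine peelStep_hookWrap_of_cells selfConj1 ?_
  intro i j hij hi
  have h1 : j < K1.getD i 0 := (mem_ofRowLens_iff K1_sorted i j).mp (by simpa using hij)
  by_cases h7 : i < 7
  · interval_cases i <;> simp [K1] at h1 <;> omega
  · rw [List.getD_eq_default _ _ (by simpa [K1] using h7)] at h1
    omega

theorem heights0 : hts (YoungDiagram.ofRowLens H H_sorted) = (H : Multiset ℕ) := by
  rw [hts_ofRowLens H_sorted (by decide)]
  rfl

theorem card0 : (YoungDiagram.ofRowLens H H_sorted).cells.card = 52 := by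
  have h := sum_hts (YoungDiagram.ofRowLens H H_sorted)
  rw [heights0] at h
  exact (h.symm.trans (by decide))

/-- The enumeration of the box. -/
theorem enum_eq : enumTop 18 52 = box := by decide +kernel

theorem exists52_of (U : Universal (YoungDiagram.ofRowLens K1 K1_sorted).cells 33) :
    ∃ μ : YoungDiagram, μ.cells.card = 52 ∧ Universal μ.cells 52 :=
  ⟨YoungDiagram.ofRowLens H H_sorted, card0,
    universal_of_hook_enum (c := 10) (b := 9) (m := 33) (n := 52) (F := 18) (H := H) selfConj0 heights0
      peel (by decide) (by decide) U (by decide) (by decide)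
      (fun l hl => box_good l (enum_eq ▸ hl))⟩

end Crest.Agent.Saxl.N52
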