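import Crest.Agent.Lib.Saxl.N33H
import Crest.Agent.Lib.Saxl.N52Hook

/-!
# `n = 52` (row 195, S0298)

The shape with hooks `[19, 13, 9, 7, 3, 1]` is universal.
-/

set_option autoImplicit false

namespace Crest.Agent.Saxl.N52

/-- **A universal shape for `n = 52`.** -/
theorem hT52 : ∃ μ : YoungDiagram, μ.cells.card = 52 ∧ Universal μ.cells 52 :=
  exists52_of Kron.N33H.universal

end Crest.Agent.Saxl.N52
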