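import Crest.Agent.Lib.Saxl.N133
import Crest.Agent.Lib.Saxl.Bases.S_8_6_5_3_3_2_1_1

/-!
# Universal shapes of the sizes `71` and `133` (row 195, S0298, helper58)
-/

set_option autoImplicit false

namespace Crest.Agent.Saxl.N71

open Crest.Agent.Saxl Crest.Agent.Saxl.Family

theorem universal15 : Saxl.Universal (cellsL base15) 29 := Kron.S_8_6_5_3_3_2_1_1.universal

theorem hT71 : ∃ μ : YoungDiagram, μ.cells.card = 71 ∧ Saxl.Universal μ.cells 71 :=
  exists71 universal15

theorem hT133 : ∃ μ : YoungDiagram, μ.cells.card = 133 ∧ Saxl.Universal μ.cells 133 :=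
  N133.exists133 universal15

end Crest.Agent.Saxl.N71
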