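import Crest.Agent.Lib.Saxl.KronTwist

/-!
# Enumeration of the partitions of `n` (row 195)

`partsF f n k` lists the weakly decreasing lists of positive numbers with sum `n`, parts at most `k`
and length at most `f`.  Every Young diagram of size `n` has its list of column heights there, so a
statement about all diagrams of size `n` can be checked by `decide +kernel`.
-/

set_option autoImplicit false

namespace Crest.Agent.Saxl.Kron

/-- Partitions of `n` with at most `f` parts, all at most `k`. -/
def partsF : ℕ → ℕ → ℕ → List (List ℕ)
  | 0, n, _ => if n = 0 then [[]] else []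
  | f + 1, n, k =>
    if n = 0 then [[]] else
      (List.range (min k n)).flatMap fun a => (partsF f (n - (a + 1)) (a + 1)).map ((a + 1) :: ·)

theorem mem_partsF (f : ℕ) {l : List ℕ} {n k : ℕ} (hs : l.Pairwise (· ≥ ·)) (hp : ∀ x ∈ l, 0 < x)
    (hk : ∀ x ∈ l, x ≤ k) (hn : l.sum = n) (hf : l.length ≤ f) : l ∈ partsF f n k := by
  induction f generalizing l n k with
  | zero =>
    have hl : l = [] := List.length_eq_zero_iff.mp (by omega)
    subst hl
    simp only [List.sum_nil] at hn
    subst hn
    simp [partsF]
  | succ f ih =>
    rcases l with _ | ⟨x, l⟩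
    · simp only [List.sum_nil] at hn
      subst hn
      simp [partsF]
    · simp only [List.sum_cons] at hn
      have hx : 0 < x := hp x (by simp)
      have hxk : x ≤ k := hk x (by simp)
      have hn0 : n ≠ 0 := by omega
      simp only [partsF, if_neg hn0, List.mem_flatMap, List.mem_range, List.mem_map]
      rw [List.pairwise_cons] at hs
      refine ⟨x - 1, ?_, l, ?_, ?_⟩
      · have : x - 1 < k := by omega
        have : x - 1 < n := by omega
        omega
      · have e : x - 1 + 1 = x := by omega
        rw [e]
        refine ih hs.2 (fun y hy => hp y (by simp [hy])) (fun y hy => hs.1 y hy) (by omega) ?_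
        simp only [List.length_cons] at hf
        omega
      · have e : x - 1 + 1 = x := by omega
        rw [e]

theorem colLensL_pairwise (ν : YoungDiagram) : (colLensL ν).Pairwise (· ≥ ·) := by
  unfold colLensL
  rw [List.pairwise_map]
  refine (List.pairwise_lt_range).imp ?_
  intro a b hab
  exact ν.colLen_anti a b hab.le

theorem colLensL_pos (ν : YoungDiagram) : ∀ x ∈ colLensL ν, 0 < x := by
  intro x hx
  simp only [colLensL, List.mem_map, List.mem_range] at hx
  obtain ⟨j, hj, rfl⟩ := hx
  rw [YoungDiagram.colLen, Nat.find_pos]
  intro h
  exact h (YoungDiagram.mem_iff_lt_rowLen.mpr hj)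

theorem colLensL_sum (ν : YoungDiagram) : (colLensL ν).sum = ν.card := by
  have h1 : ν.card = ∑ j ∈ Finset.range (ν.rowLen 0), ν.colLen j := by
    have hcells : ν.cells = (Finset.range (ν.rowLen 0)).biUnion fun j =>
        (Finset.range (ν.colLen j)).image fun i => (i, j) := by
      ext ⟨i, j⟩
      simp only [Finset.mem_biUnion, Finset.mem_image, Finset.mem_range, Prod.mk.injEq,
        YoungDiagram.mem_cells]
      constructor
      · intro h
        refine ⟨j, ?_, i, YoungDiagram.mem_iff_lt_colLen.mp h, rfl, rfl⟩
        exact YoungDiagram.mem_iff_lt_rowLen.mp (ν.up_left_mem (Nat.zero_le _) le_rfl h)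
      · rintro ⟨j', _, i', hi', rfl, rfl⟩
        exact YoungDiagram.mem_iff_lt_colLen.mpr hi'
    show ν.cells.card = _
    rw [hcells, Finset.card_biUnion]
    · refine Finset.sum_congr rfl fun j _ => ?_
      rw [Finset.card_image_of_injective _ (fun a b h => by simpa using h), Finset.card_range]
    · intro a _ b _ hab
      rw [Function.onFun, Finset.disjoint_left]
      intro q h2 h3
      obtain ⟨_, _, rfl⟩ := Finset.mem_image.mp h2
      obtain ⟨_, _, h5⟩ := Finset.mem_image.mp h3
      simp only [Prod.mk.injEq] at h5
      exact hab h5.2.symm
  have key : ∀ (f : ℕ → ℕ) (m : ℕ), ((List.range m).map f).sum = ∑ i ∈ Finset.range m, f i := by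
    intro f m
    induction m with
    | zero => simp
    | succ m ih =>
      rw [List.range_succ, List.map_append, List.sum_append, ih, Finset.sum_range_succ]
      simp
  rw [h1, colLensL, key]

theorem colLensL_length_le (ν : YoungDiagram) : (colLensL ν).length ≤ ν.card := by
  have h1 : (colLensL ν).length ≤ (colLensL ν).sum := by
    have key : ∀ l : List ℕ, (∀ x ∈ l, 0 < x) → l.length ≤ l.sum := by
      intro l
      induction l with
      | nil => simp
      | cons a l ih =>
        intro h
        have ha := h a (by simp)
        have := ih (fun x hx => h x (by simp [hx]))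
        simp only [List.length_cons, List.sum_cons]
        omega
    exact key _ (colLensL_pos ν)
  rwa [colLensL_sum] at h1

/-- Every Young diagram of size `n` is listed. -/
theorem colLensL_mem_partsF (ν : YoungDiagram) {n : ℕ} (hν : ν.card = n) :
    colLensL ν ∈ partsF n n n := by
  refine mem_partsF n (colLensL_pairwise ν) (colLensL_pos ν) ?_ ((colLensL_sum ν).trans hν) ?_
  · intro x hx
    have h1 := List.single_le_sum (l := colLensL ν) (by simp) x hx
    rw [colLensL_sum, hν] at h1
    exact h1
  · rw [← hν]
    exact colLensL_length_le ν

/-- A statement about all diagrams of size `n`, from a check over the list. -/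
theorem forall_diagram_of_all {n : ℕ} (P : List ℕ → Bool) (h : (partsF n n n).all P = true)
    (ν : YoungDiagram) (hν : ν.card = n) : P (colLensL ν) = true :=
  List.all_eq_true.mp h _ (colLensL_mem_partsF ν hν)

example : (partsF 6 6 6).length = 11 := by decide +kernel

end Crest.Agent.Saxl.Kron
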