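import Crest.Agent.Lib.Saxl.Transversal

/-!
# The injectivity theorem behind the Pieri inequality (Theorem B of helper41, twisted by helper90,
helper22, helper57)

A family `G A`, indexed by the `c`-subsets `A` of the slots, of functions on pairs of words not
depending on the letters on `A`, with `∑_A E A w₁ w₂ * G A w₁ w₂ = 0` for all pairs of words, vanishes,
provided the letters of `A^c` are few.  `E A` is abstract: it vanishes unless the two words are
bijections `A → [c]`, and it has a constant nonzero value when `w₂ = τ ∘ w₁` on `A`.
-/

set_option autoImplicit false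

open scoped BigOperators
open Equiv

namespace Crest.Agent.Saxl

section GP

variable {S : Type*} [Fintype S] [DecidableEq S]

/-- Number of slots off `A` with letter `b`. -/
def cntOff (A : Finset S) (w : S → ℕ) (b : ℕ) : ℕ :=
  (Finset.univ.filter fun x => x ∉ A ∧ w x = b).card

/-- Slots in `[c]` for both words, not on the `τ`-diagonal. -/
def offSet (c : ℕ) (τ : ℕ → ℕ) (w₁ w₂ : S → ℕ) : Finset S :=
  Finset.univ.filter fun x => w₁ x < c ∧ w₂ x < c ∧ w₂ x ≠ τ (w₁ x)

theorem exists_bij_word {c : ℕ} {A : Finset S} (hA : A.card = c) :
    ∃ σ : S → ℕ, A.image σ = Finset.range c := by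
  classical
  subst hA
  let e := A.equivFin
  refine ⟨fun x => if h : x ∈ A then (e ⟨x, h⟩ : ℕ) else 0, ?_⟩
  ext b
  simp only [Finset.mem_image, Finset.mem_range]
  constructor
  · rintro ⟨x, hx, rfl⟩
    simp only [hx, dif_pos]
    exact (e ⟨x, hx⟩).2
  · intro hb
    refine ⟨(e.symm ⟨b, hb⟩).1, (e.symm ⟨b, hb⟩).2, ?_⟩
    simp

open Classical in
/-- The main injectivity theorem. -/
theorem gp_injective {c : ℕ} (τ : ℕ → ℕ)
    (E : Finset S → Fn2 S) (κ : ℂ) (hκ : κ ≠ 0)
    (hE1 : ∀ A : Finset S, A.card = c → ∀ w₁ w₂, E A w₁ w₂ ≠ 0 →
      A.image w₁ = Finset.range c ∧ A.image w₂ = Finset.range c)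
    (hE2 : ∀ A : Finset S, A.card = c → ∀ w₁ w₂, A.image w₁ = Finset.range c →
      (∀ x ∈ A, w₂ x = τ (w₁ x)) → E A w₁ w₂ = κ)
    (G : Finset S → Fn2 S)
    (hG1 : ∀ (A : Finset S) (w₁ w₁' w₂ w₂' : S → ℕ), (∀ x, x ∉ A → w₁ x = w₁' x) →
      (∀ x, x ∉ A → w₂ x = w₂' x) → G A w₁ w₂ = G A w₁' w₂')
    (π : ℕ → ℕ) (hπ : (Finset.range c).image π = Finset.range c)
    (hG2 : ∀ A : Finset S, A.card = c → ∀ w₁ w₂, G A w₁ w₂ ≠ 0 → ∀ k < c,
      min (cntOff A w₁ (π k)) (cntOff A w₂ (τ (π k))) + k + 1 ≤ c)
    (H : ∀ w₁ w₂, ∑ A ∈ Finset.powersetCard c (Finset.univ : Finset S),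
      E A w₁ w₂ * G A w₁ w₂ = 0) :
    ∀ A : Finset S, A.card = c → ∀ w₁ w₂, G A w₁ w₂ = 0 := by
  have main : ∀ n : ℕ, ∀ A : Finset S, A.card = c → ∀ w₁ w₂,
      (offSet c τ w₁ w₂ \ A).card = n → G A w₁ w₂ = 0 := by
    intro n
    induction n using Nat.strong_induction_on with
    | _ n IH =>
    intro A hA w₁ w₂ hn
    obtain ⟨σ, hσ⟩ := exists_bij_word hA
    have hσlt : ∀ x ∈ A, σ x < c := by
      intro x hx
      have : σ x ∈ A.image σ := Finset.mem_image_of_mem σ hx
      rw [hσ] at this
      exact Finset.mem_range.mp this
    let w₁' : S → ℕ := fun x => if x ∈ A then σ x else w₁ x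
    let w₂' : S → ℕ := fun x => if x ∈ A then τ (σ x) else w₂ x
    have hw₁'A : ∀ x ∈ A, w₁' x = σ x := fun x hx => if_pos hx
    have hw₂'A : ∀ x ∈ A, w₂' x = τ (σ x) := fun x hx => if_pos hx
    have hw₁'off : ∀ x, x ∉ A → w₁' x = w₁ x := fun x hx => if_neg hx
    have hw₂'off : ∀ x, x ∉ A → w₂' x = w₂ x := fun x hx => if_neg hx
    have hGeq : G A w₁ w₂ = G A w₁' w₂' :=
      hG1 A _ _ _ _ (fun x hx => (hw₁'off x hx).symm) (fun x hx => (hw₂'off x hx).symm)
    set O := offSet c τ w₁' w₂' with hO
    have hOA : ∀ x ∈ O, x ∉ A := by
      intro x hx hxA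
      have h1 := (Finset.mem_filter.mp hx).2.2.2
      rw [hw₂'A x hxA, hw₁'A x hxA] at h1
      exact h1 rfl
    have hOeq : O = offSet c τ w₁ w₂ \ A := by
      ext x
      simp only [hO, offSet, Finset.mem_filter, Finset.mem_univ, true_and, Finset.mem_sdiff]
      by_cases hx : x ∈ A
      · simp only [hx, not_true_eq_false, and_false, iff_false, hw₁'A, hw₂'A, not_and]
        intro _ _ h
        exact h rfl
      · simp only [hx, not_false_eq_true, and_true, hw₁'off, hw₂'off]
    have hOcard : O.card = n := by rw [hOeq, hn]
    -- the diagonal
    set D : Finset S := Finset.univ.filter fun x => w₁' x < c ∧ w₂' x = τ (w₁' x) with hD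
    have hmemD : ∀ x, x ∈ D ↔ w₁' x < c ∧ w₂' x = τ (w₁' x) := by
      intro x
      simp [hD]
    have hAD : ∀ x ∈ A, x ∈ D := by
      intro x hx
      rw [hmemD, hw₁'A x hx, hw₂'A x hx]
      exact ⟨hσlt x hx, rfl⟩
    let bot := c
    let top := c + 1
    let K := c + 2
    let ww₁ : (S → ℕ) → S → ℕ := fun z x => if x ∈ D then z x else w₁' x
    let ww₂ : (S → ℕ) → S → ℕ := fun z x => if x ∈ D then τ (z x) else w₂' x
    have hww₁D : ∀ z, ∀ x ∈ D, ww₁ z x = z x := fun z x hx => if_pos hx
    have hww₂D : ∀ z, ∀ x ∈ D, ww₂ z x = τ (z x) := fun z x hx => if_pos hx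
    have hww₁off : ∀ z x, x ∉ D → ww₁ z x = w₁' x := fun z x hx => if_neg hx
    have hww₂off : ∀ z x, x ∉ D → ww₂ z x = w₂' x := fun z x hx => if_neg hx
    let Good : (S → ℕ) → Prop := fun z =>
      (∀ x ∈ D, z x < c ∨ z x = bot) ∧ (∀ x, x ∉ D → z x = top) ∧ lc z bot = c
    let Az : (S → ℕ) → Finset S := fun z => Finset.univ.filter fun x => z x = bot
    let f : Fn S := fun z => if Good z then κ * G (Az z) (ww₁ z) (ww₂ z) else 0
    have hfne : ∀ z, f z ≠ 0 → Good z ∧ G (Az z) (ww₁ z) (ww₂ z) ≠ 0 := by
      intro z hz
      by_cases hg : Good z
      · refine ⟨hg, ?_⟩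
        intro h0
        apply hz
        simp only [f, if_pos hg, h0, mul_zero]
      · exfalso
        apply hz
        simp only [f, if_neg hg]
    have hf1 : ∀ z, f z ≠ 0 → lc z bot = c := fun z hz => (hfne z hz).1.2.2
    have hf2 : ∀ z, f z ≠ 0 → ∀ k < c, lc z (π k) + k + 1 ≤ c := by
      intro z hz k hk
      obtain ⟨hg, hG⟩ := hfne z hz
      have hb : π k < c := by
        have : π k ∈ Finset.range c := by
          rw [← hπ]
          exact Finset.mem_image_of_mem π (Finset.mem_range.mpr hk)
        exact Finset.mem_range.mp this
      have h2 := hG2 (Az z) hg.2.2 _ _ hG k hk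
      have hsub : ∀ x, z x = π k → x ∈ D ∧ x ∉ Az z := by
        intro x hx
        constructor
        · by_contra hxD
          have := hg.2.1 x hxD
          simp only [top] at this
          omega
        · intro hxA
          have h3 := (Finset.mem_filter.mp hxA).2
          simp only [bot] at h3
          omega
      have h3 : lc z (π k) ≤ cntOff (Az z) (ww₁ z) (π k) := by
        refine Finset.card_le_card ?_
        intro x hx
        have hx' := (Finset.mem_filter.mp hx).2
        obtain ⟨h4, h5⟩ := hsub x hx'
        exact Finset.mem_filter.mpr ⟨Finset.mem_univ _, h5, by rw [hww₁D z x h4, hx']⟩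
      have h4 : lc z (π k) ≤ cntOff (Az z) (ww₂ z) (τ (π k)) := by
        refine Finset.card_le_card ?_
        intro x hx
        have hx' := (Finset.mem_filter.mp hx).2
        obtain ⟨h4, h5⟩ := hsub x hx'
        exact Finset.mem_filter.mpr ⟨Finset.mem_univ _, h5, by rw [hww₂D z x h4, hx']⟩
      have h5 := le_min h3 h4
      omega
    -- the transversal sum vanishes
    have hsum : ∀ v, (∀ s, v s < K) → trSum bot (Finset.range c) f v = 0 := by
      intro v _
      by_cases hgv : (∀ x ∈ D, v x < c) ∧ (∀ x, x ∉ D → v x = top)
      · obtain ⟨hv1, hv2⟩ := hgv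
        -- the key identity
        have hoff : offSet c τ (ww₁ v) (ww₂ v) = O := by
          ext x
          simp only [hO, offSet, Finset.mem_filter, Finset.mem_univ, true_and]
          by_cases hx : x ∈ D
          · rw [hww₁D v x hx, hww₂D v x hx]
            have hx' := (hmemD x).mp hx
            constructor
            · rintro ⟨_, _, h⟩
              exact absurd rfl h
            · rintro ⟨_, _, h⟩
              exact absurd hx'.2 h
          · rw [hww₁off v x hx, hww₂off v x hx]
        have hvbot : ∀ x, v x ≠ bot := by
          intro x hx
          by_cases hxD : x ∈ D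
          · have := hv1 x hxD
            simp only [bot] at hx
            omega
          · have := hv2 x hxD
            simp only [top] at this
            simp only [bot] at hx
            omega
        have h0 := H (ww₁ v) (ww₂ v)
        rw [← h0]
        rw [trSum]
        have hrange : (Finset.range c).card = c := Finset.card_range c
        rw [hrange]
        symm
        -- split the sum over `c`-subsets
        have hsubset : (Finset.univ.filter fun A' : Finset S => A'.card = c ∧
            A'.image v = Finset.range c) ⊆ Finset.powersetCard c (Finset.univ : Finset S) := by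
          intro A' hA'
          have := (Finset.mem_filter.mp hA').2.1
          exact Finset.mem_powersetCard.mpr ⟨Finset.subset_univ _, this⟩
        rw [← Finset.sum_subset hsubset]
        · refine Finset.sum_congr rfl fun A' hA' => ?_
          obtain ⟨_, hc', hi'⟩ := Finset.mem_filter.mp hA'
          have hA'D : ∀ x ∈ A', x ∈ D := by
            intro x hx
            by_contra hxD
            have h1 : v x ∈ A'.image v := Finset.mem_image_of_mem v hx
            rw [hi', hv2 x hxD] at h1
            have := Finset.mem_range.mp h1
            simp only [top] at this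
            omega
          have hv_notbot : ∀ x ∈ A', v x ≠ bot := fun x _ => hvbot x
          set z := fill bot v A' with hz
          have hzA' : ∀ x ∈ A', z x = bot := fun x hx => if_pos hx
          have hzoff : ∀ x, x ∉ A' → z x = v x := fun x hx => if_neg hx
          have hgood : Good z := by
            refine ⟨?_, ?_, ?_⟩
            · intro x hx
              by_cases hxA : x ∈ A'
              · exact Or.inr (hzA' x hxA)
              · exact Or.inl (by rw [hzoff x hxA]; exact hv1 x hx)
            · intro x hx
              have hxA : x ∉ A' := fun h => hx (hA'D x h)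
              rw [hzoff x hxA]
              exact hv2 x hx
            · rw [hz, lc_fill_bot hv_notbot, hc']
              have : lc v bot = 0 := by
                simp only [lc]
                rw [Finset.card_eq_zero, Finset.filter_eq_empty_iff]
                intro x _
                exact hvbot x
              omega
          have hAz : Az z = A' := by
            ext x
            simp only [Az, Finset.mem_filter, Finset.mem_univ, true_and]
            constructor
            · intro hx
              by_contra hxA
              rw [hzoff x hxA] at hx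
              exact hvbot x hx
            · exact hzA' x
          have hfz : f z = κ * G A' (ww₁ z) (ww₂ z) := by
            simp only [f, if_pos hgood, hAz]
          rw [hfz]
          have hEq : E A' (ww₁ v) (ww₂ v) = κ := by
            refine hE2 A' hc' _ _ ?_ ?_
            · rw [← hi']
              refine Finset.image_congr ?_
              intro x hx
              exact hww₁D v x (hA'D x hx)
            · intro x hx
              rw [hww₂D v x (hA'D x hx), hww₁D v x (hA'D x hx)]
          rw [hEq]
          congr 1
          refine hG1 A' _ _ _ _ ?_ ?_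
          · intro x hx
            by_cases hxD : x ∈ D
            · rw [hww₁D _ x hxD, hww₁D _ x hxD, hzoff x hx]
            · rw [hww₁off _ x hxD, hww₁off _ x hxD]
          · intro x hx
            by_cases hxD : x ∈ D
            · rw [hww₂D _ x hxD, hww₂D _ x hxD, hzoff x hx]
            · rw [hww₂off _ x hxD, hww₂off _ x hxD]
        · -- the other terms vanish
          intro A' hA' hnot
          have hc' := (Finset.mem_powersetCard.mp hA').2
          by_cases hE0 : E A' (ww₁ v) (ww₂ v) = 0
          · rw [hE0, zero_mul]
          · obtain ⟨hi1, hi2⟩ := hE1 A' hc' _ _ hE0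
            by_cases hsubD : ∀ x ∈ A', x ∈ D
            · exfalso
              apply hnot
              refine Finset.mem_filter.mpr ⟨Finset.mem_univ _, hc', ?_⟩
              rw [← hi1]
              refine Finset.image_congr ?_
              intro x hx
              exact (hww₁D v x (hsubD x hx)).symm
            · push Not at hsubD
              obtain ⟨x, hxA, hxD⟩ := hsubD
              have hlevel : (offSet c τ (ww₁ v) (ww₂ v) \ A').card < n := by
                rw [hoff, ← hOcard]
                refine Finset.card_lt_card ?_
                refine ⟨Finset.sdiff_subset, ?_⟩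
                intro hsub
                have hxO : x ∈ O := by
                  have h1 : ww₁ v x ∈ A'.image (ww₁ v) := Finset.mem_image_of_mem _ hxA
                  have h2 : ww₂ v x ∈ A'.image (ww₂ v) := Finset.mem_image_of_mem _ hxA
                  rw [hi1, hww₁off v x hxD] at h1
                  rw [hi2, hww₂off v x hxD] at h2
                  have h1' := Finset.mem_range.mp h1
                  have h2' := Finset.mem_range.mp h2
                  refine Finset.mem_filter.mpr ⟨Finset.mem_univ _, h1', h2', ?_⟩
                  intro h3
                  exact hxD ((hmemD x).mpr ⟨h1', h3⟩)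
                exact (Finset.mem_sdiff.mp (hsub hxO)).2 hxA
              rw [IH _ hlevel A' hc' _ _ rfl, mul_zero]
      · -- otherwise all terms vanish
        rw [trSum]
        refine Finset.sum_eq_zero fun A' hA' => ?_
        obtain ⟨_, hc', hi'⟩ := Finset.mem_filter.mp hA'
        rw [Finset.card_range] at hc'
        by_cases hgood : Good (fill bot v A')
        · exfalso
          apply hgv
          obtain ⟨h1, h2, h3⟩ := hgood
          have hA'lt : ∀ x ∈ A', v x < c := by
            intro x hx
            have : v x ∈ A'.image v := Finset.mem_image_of_mem v hx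
            rw [hi'] at this
            exact Finset.mem_range.mp this
          have hAbot : ∀ x, x ∉ A' → fill bot v A' x ≠ bot := by
            intro x hx hb
            have hsub : insert x A' ⊆ Finset.univ.filter fun y => fill bot v A' y = bot := by
              intro y hy
              refine Finset.mem_filter.mpr ⟨Finset.mem_univ _, ?_⟩
              rcases Finset.mem_insert.mp hy with rfl | hy
              · exact hb
              · exact if_pos hy
            have h4 := Finset.card_le_card hsub
            rw [Finset.card_insert_of_notMem hx, hc'] at h4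
            have h5 : lc (fill bot v A') bot = c := h3
            simp only [lc] at h5
            omega
          constructor
          · intro x hx
            by_cases hxA : x ∈ A'
            · exact hA'lt x hxA
            · have h4 := h1 x hx
              have h5 := hAbot x hxA
              have h6 : fill bot v A' x = v x := if_neg hxA
              rcases h4 with h4 | h4
              · rwa [h6] at h4
              · exact absurd h4 h5
          · intro x hx
            have hxA : x ∉ A' := by
              intro hxA
              have h4 := h2 x hx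
              have h5 : fill bot v A' x = bot := if_pos hxA
              rw [h5] at h4
              simp only [bot, top] at h4
              omega
            have h4 := h2 x hx
            have h6 : fill bot v A' x = v x := if_neg hxA
            rwa [h6] at h4
        · simp only [f, if_neg hgood]
    have hzero := transversal_inj (c := c) (bot := bot) (K := K) π hπ (le_refl c)
      (by simp only [bot, K]; omega) hf1 hf2 hsum
    -- evaluate at the special word
    let z₀ : S → ℕ := fun x => if x ∈ A then bot else if x ∈ D then w₁' x else top
    have hz₀A : ∀ x ∈ A, z₀ x = bot := fun x hx => if_pos hx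
    have hz₀D : ∀ x, x ∉ A → x ∈ D → z₀ x = w₁' x := by
      intro x hx hxD
      simp only [z₀, if_neg hx, if_pos hxD]
    have hz₀off : ∀ x, x ∉ D → z₀ x = top := by
      intro x hxD
      have hx : x ∉ A := fun h => hxD (hAD x h)
      simp only [z₀, if_neg hx, if_neg hxD]
    have hAz₀ : Az z₀ = A := by
      ext x
      simp only [Az, Finset.mem_filter, Finset.mem_univ, true_and]
      constructor
      · intro hx
        by_contra hxA
        by_cases hxD : x ∈ D
        · rw [hz₀D x hxA hxD] at hx
          have := ((hmemD x).mp hxD).1
          simp only [bot] at hx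
          omega
        · rw [hz₀off x hxD] at hx
          simp only [bot, top] at hx
          omega
      · exact hz₀A x
    have hgood₀ : Good z₀ := by
      refine ⟨?_, hz₀off, ?_⟩
      · intro x hx
        by_cases hxA : x ∈ A
        · exact Or.inr (hz₀A x hxA)
        · exact Or.inl (by rw [hz₀D x hxA hx]; exact ((hmemD x).mp hx).1)
      · have : lc z₀ bot = (Az z₀).card := rfl
        rw [this, hAz₀, hA]
    have hz₀lt : ∀ s, z₀ s < K := by
      intro s
      by_cases hxA : s ∈ A
      · rw [hz₀A s hxA]
        simp only [bot, K]
        omega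
      · by_cases hxD : s ∈ D
        · rw [hz₀D s hxA hxD]
          have := ((hmemD s).mp hxD).1
          simp only [K]
          omega
        · rw [hz₀off s hxD]
          simp only [top, K]
          omega
    have h1 := hzero z₀ hz₀lt
    simp only [f, if_pos hgood₀, hAz₀] at h1
    have h2 := (mul_eq_zero.mp h1).resolve_left hκ
    rw [hGeq, ← h2]
    refine hG1 A _ _ _ _ ?_ ?_
    · intro x hx
      by_cases hxD : x ∈ D
      · rw [hww₁D _ x hxD, hz₀D x hx hxD]
      · rw [hww₁off _ x hxD]
    · intro x hx
      by_cases hxD : x ∈ D
      · rw [hww₂D _ x hxD, hz₀D x hx hxD]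
        exact ((hmemD x).mp hxD).2
      · rw [hww₂off _ x hxD]
  intro A hA w₁ w₂
  exact main _ A hA w₁ w₂ rfl

end GP

end Crest.Agent.Saxl
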