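import Mathlib

/-!
# Elementary tools for finite group representations over ℂ

Retractions onto subrepresentations (Maschke by averaging), irreducible subrepresentations on which
a given element of the group algebra acts non-trivially, cyclicity of irreducibles.
All in terms of plain linear maps.
-/

set_option autoImplicit false

open scoped BigOperators

namespace Crest.Agent.Saxl

section RepTools

variable {G : Type*} [Group G] [Fintype G]
variable {V : Type*} [AddCommGroup V] [Module ℂ V]

/-- Action of an element `a : G → ℂ` of the group algebra. -/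
noncomputable def gact (ρ : Representation ℂ G V) (a : G → ℂ) : V →ₗ[ℂ] V :=
  ∑ g, a g • ρ g

@[simp] theorem gact_apply (ρ : Representation ℂ G V) (a : G → ℂ) (v : V) :
    gact ρ a v = ∑ g, a g • ρ g v := by
  simp [gact, LinearMap.sum_apply]

theorem card_ne_zero_complex : ((Fintype.card G : ℕ) : ℂ) ≠ 0 := by
  exact_mod_cast Fintype.card_ne_zero

/-- Averaging a linear map gives an equivariant map. -/
noncomputable def avgMap {W : Type*} [AddCommGroup W] [Module ℂ W]
    (ρ : Representation ℂ G V) (σ : Representation ℂ G W) (f : V →ₗ[ℂ] W) : V →ₗ[ℂ] W :=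
  ∑ g, (σ g) ∘ₗ f ∘ₗ (ρ g⁻¹)

theorem avgMap_apply {W : Type*} [AddCommGroup W] [Module ℂ W]
    (ρ : Representation ℂ G V) (σ : Representation ℂ G W) (f : V →ₗ[ℂ] W) (v : V) :
    avgMap ρ σ f v = ∑ g, σ g (f (ρ g⁻¹ v)) := by
  simp [avgMap, LinearMap.sum_apply]

theorem avgMap_equivariant {W : Type*} [AddCommGroup W] [Module ℂ W]
    (ρ : Representation ℂ G V) (σ : Representation ℂ G W) (f : V →ₗ[ℂ] W) (h : G) (v : V) :
    avgMap ρ σ f (ρ h v) = σ h (avgMap ρ σ f v) := by
  simp only [avgMap_apply, map_sum]
  refine Fintype.sum_equiv (Equiv.mulLeft h⁻¹) _ _ ?_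
  intro g
  have e1 : ∀ x, σ h (σ (h⁻¹ * g) x) = σ g x := by
    intro x
    rw [← Module.End.mul_apply, ← map_mul]
    simp
  have e2 : ρ (h⁻¹ * g)⁻¹ v = ρ g⁻¹ (ρ h v) := by
    rw [← Module.End.mul_apply, ← map_mul]
    simp
  simp only [Equiv.coe_mulLeft]
  rw [e1, e2]

/-- Maschke: an equivariant retraction onto any subrepresentation. -/
theorem exists_retraction (ρ : Representation ℂ G V) (p : Subrepresentation ρ) :
    ∃ r : V →ₗ[ℂ] V, (∀ v, r v ∈ p.toSubmodule) ∧ (∀ v ∈ p.toSubmodule, r v = v) ∧
      ∀ g v, r (ρ g v) = ρ g (r v) := by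
  obtain ⟨q, hq⟩ := LinearMap.exists_leftInverse_of_injective p.toSubmodule.subtype
    (Submodule.ker_subtype _)
  let π : V →ₗ[ℂ] V := p.toSubmodule.subtype ∘ₗ q
  have hπ1 : ∀ v, π v ∈ p.toSubmodule := fun v => by simp [π]
  have hπ2 : ∀ v ∈ p.toSubmodule, π v = v := fun v hv => by
    have := congrArg (fun φ => (φ ⟨v, hv⟩ : p.toSubmodule)) hq
    simp only [LinearMap.comp_apply, Submodule.subtype_apply, LinearMap.id_apply] at this
    simp [π, this]
  have hcard := card_ne_zero_complex (G := G)
  refine ⟨((Fintype.card G : ℕ) : ℂ)⁻¹ • avgMap ρ ρ π, ?_, ?_, ?_⟩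
  · intro v
    simp only [LinearMap.smul_apply, avgMap_apply]
    refine p.toSubmodule.smul_mem _ (p.toSubmodule.sum_mem fun g _ => ?_)
    exact p.apply_mem_toSubmodule g (hπ1 _)
  · intro v hv
    simp only [LinearMap.smul_apply, avgMap_apply]
    have : ∀ g : G, ρ g (π (ρ g⁻¹ v)) = v := by
      intro g
      rw [hπ2 _ (p.apply_mem_toSubmodule g⁻¹ hv), ← Module.End.mul_apply, ← map_mul]
      simp
    simp only [this, Finset.sum_const, Finset.card_univ]
    rw [← Nat.cast_smul_eq_nsmul ℂ, smul_smul, inv_mul_cancel₀ hcard, one_smul]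
  · intro g v
    simp only [LinearMap.smul_apply, map_smul]
    rw [avgMap_equivariant]

/-- Subrepresentation of `ρ` obtained from one of a subrepresentation. -/
def subrepMap (ρ : Representation ℂ G V) (p : Subrepresentation ρ)
    (s : Subrepresentation p.toRepresentation) : Subrepresentation ρ where
  toSubmodule := s.toSubmodule.map p.toSubmodule.subtype
  apply_mem_toSubmodule g v hv := by
    obtain ⟨x, hx, rfl⟩ := hv
    exact ⟨p.toRepresentation g x, s.apply_mem_toSubmodule g hx, rfl⟩

/-- If `a` acts non-trivially on a finite dimensional representation, it acts non-trivially on an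
irreducible subrepresentation. -/
theorem exists_irreducible_gact_ne_zero [FiniteDimensional ℂ V]
    (ρ : Representation ℂ G V) (a : G → ℂ) (hv : ∃ v, gact ρ a v ≠ 0) :
    ∃ p : Subrepresentation ρ, p.toRepresentation.IsIrreducible ∧
      ∃ v ∈ p.toSubmodule, gact ρ a v ≠ 0 := by
  let 𝒮 : Set (Subrepresentation ρ) := {p | ∃ v ∈ p.toSubmodule, gact ρ a v ≠ 0}
  have hne : 𝒮.Nonempty := by
    obtain ⟨v, hv⟩ := hv
    exact ⟨⊤, v, trivial, hv⟩
  obtain ⟨p, hp, hmin⟩ := (InvImage.wf (fun p : Subrepresentation ρ =>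
    Module.finrank ℂ p.toSubmodule) Nat.lt_wfRel.wf).has_min 𝒮 hne
  have hsmall : ∀ q : Subrepresentation ρ, q.toSubmodule < p.toSubmodule →
      ∀ v ∈ q.toSubmodule, gact ρ a v = 0 := by
    intro q hq v hv
    by_contra hne
    exact hmin q ⟨v, hv, hne⟩ (Submodule.finrank_lt_finrank_of_lt hq)
  refine ⟨p, ?_, hp⟩
  obtain ⟨v0, hv0, hav0⟩ := hp
  have hv0ne : v0 ≠ 0 := by
    rintro rfl
    simp at hav0
  refine { exists_pair_ne := ?_, eq_bot_or_eq_top := ?_ }
  · refine ⟨⊥, ⊤, fun h => ?_⟩
    have h2 : (⟨v0, hv0⟩ : p.toSubmodule) ∈ (⊤ : Subrepresentation p.toRepresentation).toSubmodule :=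
      trivial
    rw [← h] at h2
    have h3 : (⟨v0, hv0⟩ : p.toSubmodule) = 0 := h2
    exact hv0ne (by simpa using congrArg Subtype.val h3)
  · intro s
    by_contra hcon
    push Not at hcon
    obtain ⟨hs1, hs2⟩ := hcon
    let q := subrepMap ρ p s
    have hqp : q.toSubmodule ≤ p.toSubmodule := by
      rintro x ⟨y, _, rfl⟩
      exact y.2
    have hq_lt : q.toSubmodule < p.toSubmodule := by
      refine lt_of_le_of_ne hqp fun heq => hs2 ?_
      refine Subrepresentation.toSubmodule_injective ?_
      ext x
      simp only [show (⊤ : Subrepresentation p.toRepresentation).toSubmodule = ⊤ from rfl,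
        Submodule.mem_top, iff_true]
      have hx : (x : V) ∈ q.toSubmodule := by rw [heq]; exact x.2
      obtain ⟨y, hy, hyx⟩ := hx
      have hxy : y = x := Subtype.ext hyx
      rw [← hxy]
      exact hy
    -- a nonzero element of `q`
    have hqne : ∃ x ∈ q.toSubmodule, x ≠ 0 := by
      by_contra hcon
      push Not at hcon
      apply hs1
      refine Subrepresentation.toSubmodule_injective ?_
      ext x
      simp only [show (⊥ : Subrepresentation p.toRepresentation).toSubmodule = ⊥ from rfl,
        Submodule.mem_bot]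
      constructor
      · intro hx
        have := hcon (x : V) ⟨x, hx, rfl⟩
        exact Subtype.ext this
      · rintro rfl
        exact s.toSubmodule.zero_mem
    obtain ⟨r, hr1, hr2, hr3⟩ := exists_retraction ρ q
    obtain ⟨x0, hx0, hx0ne⟩ := hqne
    let q' : Subrepresentation ρ :=
      { toSubmodule := p.toSubmodule ⊓ LinearMap.ker r
        apply_mem_toSubmodule := by
          intro g v hv
          refine ⟨p.apply_mem_toSubmodule g hv.1, ?_⟩
          have h0 : r v = 0 := hv.2
          simp [hr3, h0] }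
    have hq'_lt : q'.toSubmodule < p.toSubmodule := by
      refine lt_of_le_of_ne inf_le_left fun heq => hx0ne ?_
      have : x0 ∈ q'.toSubmodule := heq ▸ hqp hx0
      have h0 : r x0 = 0 := this.2
      rwa [hr2 _ hx0] at h0
    apply hav0
    have hsplit : v0 = r v0 + (v0 - r v0) := by abel
    rw [hsplit, map_add, hsmall q hq_lt _ (hr1 _), zero_add]
    refine hsmall q' hq'_lt _ ⟨p.toSubmodule.sub_mem hv0 (hqp (hr1 _)), ?_⟩
    simp [hr2 _ (hr1 v0)]

/-- In an irreducible representation, the orbit of a nonzero vector spans. -/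
theorem span_orbit_eq_top (ρ : Representation ℂ G V) (h : ρ.IsIrreducible) (u : V) (hu : u ≠ 0) :
    Submodule.span ℂ (Set.range fun g : G => ρ g u) = ⊤ := by
  let s : Subrepresentation ρ :=
    { toSubmodule := Submodule.span ℂ (Set.range fun g : G => ρ g u)
      apply_mem_toSubmodule := by
        intro g v hv
        induction hv using Submodule.span_induction with
        | mem x hx =>
          obtain ⟨g', rfl⟩ := hx
          refine Submodule.subset_span ⟨g * g', ?_⟩
          simp [map_mul]
        | zero => simp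
        | add x y _ _ hx hy => rw [map_add]; exact Submodule.add_mem _ hx hy
        | smul c x _ hx => rw [map_smul]; exact Submodule.smul_mem _ c hx }
  rcases h.eq_bot_or_eq_top s with hs | hs
  · exfalso
    have : u ∈ s.toSubmodule := Submodule.subset_span ⟨1, by simp⟩
    rw [hs] at this
    exact hu this
  · exact congrArg Subrepresentation.toSubmodule hs

/-- If `f` is a linear map vanishing on no orbit: an irreducible representation and a nonzero
linear map: some translate of `u` is not killed. -/
theorem exists_translate_ne_zero {W : Type*} [AddCommGroup W] [Module ℂ W]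
    (ρ : Representation ℂ G V) (h : ρ.IsIrreducible) (u : V) (hu : u ≠ 0)
    (f : V →ₗ[ℂ] W) (hf : f ≠ 0) : ∃ g : G, f (ρ g u) ≠ 0 := by
  by_contra hcon
  push Not at hcon
  apply hf
  have hle : Submodule.span ℂ (Set.range fun g : G => ρ g u) ≤ LinearMap.ker f := by
    rw [Submodule.span_le]
    rintro _ ⟨g, rfl⟩
    exact hcon g
  rw [span_orbit_eq_top ρ h u hu, top_le_iff] at hle
  exact LinearMap.ker_eq_top.mp hle

end RepTools

end Crest.Agent.Saxl
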