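import Crest.Agent.Lib.Saxl.Specht

/-!
# The `Sees` framework (row 195, helper86)

For finsets `H, K` of permutations of the slots and a set `E` of functions on pairs of words,
`Sees H K E` says: an element `b` of the group algebra whose part on `H` kills `E` has
`∑_{k ∈ K} b k = 0`.  This is the annihilator form of "every irreducible with a `K`-fixed vector
occurs in `E`"; it multiplies over disjoint blocks without any decomposition of irreducibles of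
product groups, and it induces up from a subgroup as soon as test pairs separate the cosets.
-/

set_option autoImplicit false

open scoped BigOperators
open Equiv

namespace Crest.Agent.Saxl

section Sees

variable {S : Type*} [Fintype S] [DecidableEq S]

/-- Annihilator form of "`K`-fixed vectors occur in `E`", at the level of `H`. -/
def Sees (H K : Finset (Perm S)) (E : Set (Fn2 S)) : Prop :=
  ∀ b : Perm S → ℂ, (∀ F ∈ E, ∀ w₁ w₂, ∑ h ∈ H, b h * F (w₁ ∘ h) (w₂ ∘ h) = 0) → ∑ k ∈ K, b k = 0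

theorem Sees.mono {H K : Finset (Perm S)} {E E' : Set (Fn2 S)} (h : Sees H K E) (hE : E ⊆ E') :
    Sees H K E' := fun b hb => h b fun F hF => hb F (hE hF)

/-- Pointwise products. -/
def mulSet (E₁ E₂ : Set (Fn2 S)) : Set (Fn2 S) :=
  {F | ∃ F₁ ∈ E₁, ∃ F₂ ∈ E₂, ∀ w₁ w₂, F w₁ w₂ = F₁ w₁ w₂ * F₂ w₁ w₂}

/-- **Product rule.** -/
theorem Sees.prod {H₁ H₂ H K₁ K₂ K : Finset (Perm S)} {E₁ E₂ E : Set (Fn2 S)}
    (hH : ∀ f : Perm S → ℂ, ∑ h ∈ H, f h = ∑ h₁ ∈ H₁, ∑ h₂ ∈ H₂, f (h₁ * h₂))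
    (hK : ∀ f : Perm S → ℂ, ∑ k ∈ K, f k = ∑ k₁ ∈ K₁, ∑ k₂ ∈ K₂, f (k₁ * k₂))
    (hE : ∀ F₁ ∈ E₁, ∀ F₂ ∈ E₂, (fun w₁ w₂ => F₁ w₁ w₂ * F₂ w₁ w₂) ∈ E)
    (hloc₁ : ∀ F₁ ∈ E₁, ∀ h₁ ∈ H₁, ∀ h₂ ∈ H₂, ∀ w₁ w₂,
      F₁ (w₁ ∘ (h₁ * h₂ : Perm S)) (w₂ ∘ (h₁ * h₂ : Perm S)) = F₁ (w₁ ∘ h₁) (w₂ ∘ h₁))
    (hloc₂ : ∀ F₂ ∈ E₂, ∀ h₁ ∈ H₁, ∀ h₂ ∈ H₂, ∀ w₁ w₂,
      F₂ (w₁ ∘ (h₁ * h₂ : Perm S)) (w₂ ∘ (h₁ * h₂ : Perm S)) = F₂ (w₁ ∘ h₂) (w₂ ∘ h₂))
    (hglue : ∀ w₁ w₂ w₁' w₂' : S → ℕ, ∃ u₁ u₂ : S → ℕ,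
      (∀ F₁ ∈ E₁, ∀ h₁ ∈ H₁, F₁ (u₁ ∘ h₁) (u₂ ∘ h₁) = F₁ (w₁ ∘ h₁) (w₂ ∘ h₁)) ∧
      (∀ F₂ ∈ E₂, ∀ h₂ ∈ H₂, F₂ (u₁ ∘ h₂) (u₂ ∘ h₂) = F₂ (w₁' ∘ h₂) (w₂' ∘ h₂)))
    (h₁ : Sees H₁ K₁ E₁) (h₂ : Sees H₂ K₂ E₂) : Sees H K E := by
  intro b hb
  rw [hK, Finset.sum_comm]
  apply h₂ (fun g => ∑ k₁ ∈ K₁, b (k₁ * g))
  intro F₂ hF₂ w₁' w₂'
  simp only [Finset.sum_mul]
  rw [Finset.sum_comm]
  apply h₁ (fun g => ∑ h₂ ∈ H₂, b (g * h₂) * F₂ (w₁' ∘ h₂) (w₂' ∘ h₂))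
  intro F₁ hF₁ w₁ w₂
  obtain ⟨u₁, u₂, hu₁, hu₂⟩ := hglue w₁ w₂ w₁' w₂'
  have key := hb _ (hE F₁ hF₁ F₂ hF₂) u₁ u₂
  rw [hH] at key
  rw [← key]
  refine Finset.sum_congr rfl fun g₁ hg₁ => ?_
  rw [Finset.sum_mul]
  refine Finset.sum_congr rfl fun g₂ hg₂ => ?_
  rw [hloc₁ F₁ hF₁ g₁ hg₁ g₂ hg₂, hloc₂ F₂ hF₂ g₁ hg₁ g₂ hg₂, hu₁ F₁ hF₁ g₁ hg₁,
    hu₂ F₂ hF₂ g₂ hg₂]
  ring

/-- Functions in the span of `E` are determined by their values on the test pairs `D`. -/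
def Vis (E : Set (Fn2 S)) (D : (S → ℕ) → (S → ℕ) → Prop) : Prop :=
  ∀ F ∈ Submodule.span ℂ E, (∀ w₁ w₂, D w₁ w₂ → F w₁ w₂ = 0) → F = 0

/-- Visibility multiplies. -/
theorem Vis.prod {E₁ E₂ : Set (Fn2 S)} {D₁ D₂ D : (S → ℕ) → (S → ℕ) → Prop}
    (gl : (S → ℕ) → (S → ℕ) → (S → ℕ))
    (hg₁ : ∀ F₁ ∈ E₁, ∀ w₁ w₂ w₁' w₂', F₁ (gl w₁ w₁') (gl w₂ w₂') = F₁ w₁ w₂)
    (hg₂ : ∀ F₂ ∈ E₂, ∀ w₁ w₂ w₁' w₂', F₂ (gl w₁ w₁') (gl w₂ w₂') = F₂ w₁' w₂')
    (hgself : ∀ w, gl w w = w)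
    (hgD : ∀ w₁ w₂ w₁' w₂', D₁ w₁ w₂ → D₂ w₁' w₂' → D (gl w₁ w₁') (gl w₂ w₂'))
    (h₁ : Vis E₁ D₁) (h₂ : Vis E₂ D₂) : Vis (mulSet E₁ E₂) D := by
  intro F hF hD
  -- freezing the second pair gives an element of `span E₁`
  have hm₁ : ∀ G ∈ Submodule.span ℂ (mulSet E₁ E₂), ∀ w₁' w₂',
      (fun w₁ w₂ => G (gl w₁ w₁') (gl w₂ w₂')) ∈ Submodule.span ℂ E₁ := by
    intro G hG w₁' w₂'
    induction hG using Submodule.span_induction with
    | mem x hx =>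
      obtain ⟨F₁, hF₁, F₂, hF₂, he⟩ := hx
      have : (fun w₁ w₂ => x (gl w₁ w₁') (gl w₂ w₂')) = F₂ w₁' w₂' • F₁ := by
        funext w₁ w₂
        rw [he, hg₁ F₁ hF₁, hg₂ F₂ hF₂]
        simp [mul_comm]
      rw [this]
      exact Submodule.smul_mem _ _ (Submodule.subset_span hF₁)
    | zero => exact Submodule.zero_mem _
    | add x y _ _ hx hy => exact Submodule.add_mem _ hx hy
    | smul c x _ hx => exact Submodule.smul_mem _ c hx
  have hm₂ : ∀ G ∈ Submodule.span ℂ (mulSet E₁ E₂), ∀ w₁ w₂,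
      (fun w₁' w₂' => G (gl w₁ w₁') (gl w₂ w₂')) ∈ Submodule.span ℂ E₂ := by
    intro G hG w₁ w₂
    induction hG using Submodule.span_induction with
    | mem x hx =>
      obtain ⟨F₁, hF₁, F₂, hF₂, he⟩ := hx
      have : (fun w₁' w₂' => x (gl w₁ w₁') (gl w₂ w₂')) = F₁ w₁ w₂ • F₂ := by
        funext w₁' w₂'
        rw [he, hg₁ F₁ hF₁, hg₂ F₂ hF₂]
        simp
      rw [this]
      exact Submodule.smul_mem _ _ (Submodule.subset_span hF₂)
    | zero => exact Submodule.zero_mem _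
    | add x y _ _ hx hy => exact Submodule.add_mem _ hx hy
    | smul c x _ hx => exact Submodule.smul_mem _ c hx
  have s1 : ∀ w₁' w₂', D₂ w₁' w₂' → ∀ w₁ w₂, F (gl w₁ w₁') (gl w₂ w₂') = 0 := by
    intro w₁' w₂' hd w₁ w₂
    have := h₁ _ (hm₁ F hF w₁' w₂') (fun u₁ u₂ hu => hD _ _ (hgD _ _ _ _ hu hd))
    exact congrFun (congrFun this w₁) w₂
  funext w₁ w₂
  have := h₂ _ (hm₂ F hF w₁ w₂) (fun u₁ u₂ hu => s1 u₁ u₂ hu w₁ w₂)
  have h3 := congrFun (congrFun this w₁) w₂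
  simpa [hgself] using h3

/-- Passing from the block group to the full group. -/
theorem Sees.of_test {H K : Finset (Perm S)} {EH EG : Set (Fn2 S)}
    {D : (S → ℕ) → (S → ℕ) → Prop}
    (hsub : EH ⊆ EG)
    (hst : ∀ F ∈ EH, ∀ h ∈ H, fn2Rep S h F ∈ Submodule.span ℂ EH)
    (hsupp : ∀ F ∈ EH, ∀ w₁ w₂, D w₁ w₂ → ∀ g : Perm S, F (w₁ ∘ g) (w₂ ∘ g) ≠ 0 → g ∈ H)
    (hvis : Vis EH D) (hs : Sees H K EH) : Sees Finset.univ K EG := by
  intro b hb
  apply hs b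
  intro F hF w₁ w₂
  have hmem : (fun w₁ w₂ => ∑ h ∈ H, b h * F (w₁ ∘ h) (w₂ ∘ h)) ∈ Submodule.span ℂ EH := by
    have : (fun (w₁ w₂ : S → ℕ) => ∑ h ∈ H, b h * F (w₁ ∘ h) (w₂ ∘ h))
        = ∑ h ∈ H, b h • fn2Rep S h F := by
      funext w₁ w₂
      simp [Finset.sum_apply]
    rw [this]
    exact Submodule.sum_mem _ fun h hh => Submodule.smul_mem _ _ (hst F hF h hh)
  have := hvis _ hmem (by
    intro u₁ u₂ hu
    have h0 := hb F (hsub hF) u₁ u₂
    rw [← h0]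
    apply Finset.sum_subset (Finset.subset_univ H)
    intro g _ hg
    by_cases hz : F (u₁ ∘ g) (u₂ ∘ g) = 0
    · rw [hz, mul_zero]
    · exact absurd (hsupp F hF u₁ u₂ hu g hz) hg)
  exact congrFun (congrFun this w₁) w₂

variable {V : Type*} [AddCommGroup V] [Module ℂ V]

/-- The matrix-coefficient map `v ↦ ∑_g lam (ρ g⁻¹ v) • g F`. -/
noncomputable def coefMap (ρ : Representation ℂ (Perm S) V) (lam : V →ₗ[ℂ] ℂ) (F : Fn2 S) :
    V →ₗ[ℂ] Fn2 S where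
  toFun v := ∑ g, lam (ρ g⁻¹ v) • fn2Rep S g F
  map_add' x y := by
    simp only [map_add, add_smul, Finset.sum_add_distrib]
  map_smul' c x := by
    simp only [map_smul, smul_eq_mul, mul_smul, RingHom.id_apply, Finset.smul_sum]

theorem coefMap_apply (ρ : Representation ℂ (Perm S) V) (lam : V →ₗ[ℂ] ℂ) (F : Fn2 S) (v : V) :
    coefMap ρ lam F v = ∑ g, lam (ρ g⁻¹ v) • fn2Rep S g F := rfl

theorem coefMap_equivariant (ρ : Representation ℂ (Perm S) V) (lam : V →ₗ[ℂ] ℂ) (F : Fn2 S)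
    (h : Perm S) (v : V) :
    coefMap ρ lam F (ρ h v) = fn2Rep S h (coefMap ρ lam F v) := by
  simp only [coefMap_apply, map_sum, map_smul]
  refine Fintype.sum_equiv (Equiv.mulLeft h⁻¹) _ _ ?_
  intro g
  have e1 : ρ g⁻¹ (ρ h v) = ρ (h⁻¹ * g)⁻¹ v := by
    rw [← Module.End.mul_apply, ← map_mul]
    simp
  have e2 : fn2Rep S h (fn2Rep S (h⁻¹ * g) F) = fn2Rep S g F := by
    rw [← Module.End.mul_apply, ← map_mul]
    simp
  simp only [Equiv.coe_mulLeft, e1, e2]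

/-- `Sees` gives the occurrence, for any vector fixed by the stabilizer of a colouring. -/
theorem occurs_of_sees {ρ : Representation ℂ (Perm S) V} {c : S → ℕ}
    {D E : Finset (ℕ × ℕ)} (hs : Sees Finset.univ (stab c) (XX S D E : Set (Fn2 S)))
    (hf : HasFix ρ c) : Occurs ρ D E := by
  obtain ⟨v₀, hv₀, hfix⟩ := hf
  by_contra hno
  -- a functional not vanishing on `v₀`
  obtain ⟨lam, hlam⟩ : ∃ lam : V →ₗ[ℂ] ℂ, lam v₀ ≠ 0 := by
    by_contra hcon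
    push Not at hcon
    exact hv₀ ((Module.forall_dual_apply_eq_zero_iff ℂ v₀).mp hcon)
  have hsum := hs (fun g => lam (ρ g⁻¹ v₀)) (by
    intro F hF w₁ w₂
    have hzero : coefMap ρ lam F = 0 := by
      by_contra hne
      apply hno
      refine ⟨coefMap ρ lam F, hne, coefMap_equivariant ρ lam F, fun v => ?_⟩
      rw [coefMap_apply]
      exact Submodule.sum_mem _ fun g _ => Submodule.smul_mem _ _ (fn2Rep_mem_XX g hF)
    have h1 := congrFun (congrFun (LinearMap.congr_fun hzero v₀) w₁) w₂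
    simp only [coefMap_apply, Finset.sum_apply, Pi.smul_apply, smul_eq_mul, fn2Rep_apply,
      LinearMap.zero_apply, Pi.zero_apply] at h1
    exact h1)
  have h2 : ∀ k ∈ stab c, lam (ρ k⁻¹ v₀) = lam v₀ := fun k hk => by
    rw [hfix _ (inv_mem_stab hk)]
  rw [Finset.sum_congr rfl h2, Finset.sum_const, nsmul_eq_mul] at hsum
  exact (mul_ne_zero (card_stab_ne_zero c) hlam) hsum

end Sees

section SeesOfOccurs

variable {S : Type} [Fintype S] [DecidableEq S]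

/-- The action of `b` is zero on a representation mapping injectively into something killed by
`b`. -/
theorem sees_of_occurs {c : S → ℕ} {D E : Finset (ℕ × ℕ)}
    (h : ∀ (V : Type) [AddCommGroup V] [Module ℂ V] [FiniteDimensional ℂ V]
      (ρ : Representation ℂ (Perm S) V), ρ.IsIrreducible → HasFix ρ c → Occurs ρ D E) :
    Sees Finset.univ (stab c) (XX S D E : Set (Fn2 S)) := by
  intro b hb
  by_contra hne
  -- `b * e_c` acts nontrivially on the regular representation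
  set a := conv b (symE c) with ha
  have ha1 : a 1 ≠ 0 := by
    have : a 1 = ∑ k ∈ stab c, b k := by
      rw [ha, conv]
      have : ∀ x : Perm S, b x * symE c (x⁻¹ * 1) = if x ∈ stab c then b x else 0 := by
        intro x
        by_cases hx : x ∈ stab c
        · have : x⁻¹ * 1 ∈ stab c := by simpa using inv_mem_stab hx
          rw [symE, if_pos this, if_pos hx, mul_one]
        · have : x⁻¹ * 1 ∉ stab c := by
            intro h'
            apply hx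
            have := inv_mem_stab h'
            simpa using this
          rw [symE, if_neg this, if_neg hx, mul_zero]
      simp only [this]
      rw [Finset.sum_ite_mem, Finset.univ_inter]
    rw [this]
    exact hne
  have hv : ∃ v, gact (regRep (Perm S)) a v ≠ 0 := by
    refine ⟨Pi.single 1 1, ?_⟩
    rw [gact_reg_single]
    intro h'
    exact ha1 (congrFun h' 1)
  obtain ⟨p, hp, v, hvp, hv⟩ := exists_irreducible_gact_ne_zero _ a hv
  rw [ha, gact_conv] at hv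
  set v' : p.toSubmodule := ⟨gact (regRep (Perm S)) (symE c) v, gact_mem p _ hvp⟩ with hv'
  have hv'0 : v' ≠ 0 := by
    intro h0
    apply hv
    have : gact (regRep (Perm S)) (symE c) v = 0 := congrArg Subtype.val h0
    rw [this, map_zero]
  have hfix : HasFix p.toRepresentation c := by
    refine ⟨v', hv'0, fun g hg => ?_⟩
    exact Subtype.ext (gact_symE_fixed (regRep (Perm S)) c v hg)
  obtain ⟨φ, hφ, heq, hmem⟩ := h _ p.toRepresentation hp hfix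
  -- `φ` is injective
  have hker : LinearMap.ker φ = ⊥ := by
    let q : Subrepresentation p.toRepresentation :=
      { toSubmodule := LinearMap.ker φ
        apply_mem_toSubmodule := by
          intro g x hx
          have hx0 : φ x = 0 := hx
          show φ _ = 0
          rw [heq, hx0, map_zero] }
    rcases hp.eq_bot_or_eq_top q with h1 | h1
    · exact congrArg Subrepresentation.toSubmodule h1
    · exfalso
      apply hφ
      have h2 : LinearMap.ker φ = ⊤ := congrArg Subrepresentation.toSubmodule h1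
      exact LinearMap.ker_eq_top.mp h2
  -- `b` kills `φ v'`
  have hkill : gact (regRep (Perm S)) b (v' : Perm S → ℂ) = 0 := by
    have h1 : ∀ w₁ w₂, ∑ g, b g * (φ v') (w₁ ∘ g) (w₂ ∘ g) = 0 := hb _ (hmem v')
    have h2 : φ (gact p.toRepresentation b v') = 0 := by
      rw [gact_apply, map_sum]
      simp only [map_smul, heq]
      funext w₁ w₂
      simpa [Finset.sum_apply] using h1 w₁ w₂
    have h3 : gact p.toRepresentation b v' = 0 := by
      have : gact p.toRepresentation b v' ∈ LinearMap.ker φ := h2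
      rw [hker] at this
      simpa using this
    have h5 : ((gact p.toRepresentation b v' : p.toSubmodule) : Perm S → ℂ)
        = gact (regRep (Perm S)) b (v' : Perm S → ℂ) := by
      simp only [gact_apply]
      simp only [Submodule.coe_sum, Submodule.coe_smul]
      rfl
    rw [← h5, h3]
    rfl
  exact hv hkill

end SeesOfOccurs

end Crest.Agent.Saxl
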