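import Crest.Agent.Lib.Saxl.PartEnum
import Crest.Agent.Lib.Saxl.Peel

/-!
# Kernel-checked derivations of Kronecker positivity (row 195, S0298)

A derivation is a tree of additions, transpositions and sign twists over a list of seed triples.
`Der.eval` computes the triple of a derivation; `universal_of_table` turns one table of derivations,
aligned with the enumeration of the partitions of `n`, into universality of a shape.
-/

set_option autoImplicit false

open Equiv

namespace Crest.Agent.Saxl.Kron

/-- A triple of lists of column heights. -/
abbrev Triple := List ℕ × List ℕ × List ℕ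

/-- The statement attached to a triple. -/
def Triple.Good (t : Triple) : Prop := Real3 (t.1 : Multiset ℕ) (t.2.1 : Multiset ℕ) (t.2.2 : Multiset ℕ)

/-- Derivations. -/
inductive Der
  | seed (i : ℕ)
  | add (d d' : Der)
  | sw12 (d : Der)
  | sw13 (d : Der)
  | tw (d : Der)

/-- The triple of a derivation. -/
def Der.eval (seeds : List Triple) : Der → Option Triple
  | Der.seed i => seeds[i]?
  | Der.add d d' =>
    match Der.eval seeds d, Der.eval seeds d' with
    | some a, some b => some (a.1 ++ b.1, a.2.1 ++ b.2.1, a.2.2 ++ b.2.2)
    | _, _ => none
  | Der.sw12 d =>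
    match Der.eval seeds d with
    | some a => some (a.1, a.2.2, a.2.1)
    | none => none
  | Der.sw13 d =>
    match Der.eval seeds d with
    | some a => some (a.2.1, a.1, a.2.2)
    | none => none
  | Der.tw d =>
    match Der.eval seeds d with
    | some a => some (dualL a.1, dualL a.2.1, a.2.2)
    | none => none

/-- Soundness of the evaluator. -/
theorem Der.eval_good {seeds : List Triple} (hs : ∀ t ∈ seeds, t.Good) :
    ∀ (d : Der) (t : Triple), d.eval seeds = some t → t.Good := by
  intro d
  induction d with
  | seed i =>
    intro t h
    exact hs t (List.mem_of_getElem? h)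
  | add d d' ih ih' =>
    intro t h
    simp only [Der.eval] at h
    cases h1 : Der.eval seeds d with
    | none => rw [h1] at h; simp at h
    | some a =>
      cases h2 : Der.eval seeds d' with
      | none => rw [h1, h2] at h; simp at h
      | some b =>
        rw [h1, h2] at h
        simp only [Option.some.injEq] at h
        subst h
        have := (ih a h1).add (ih' b h2)
        simpa [Triple.Good] using this
  | sw12 d ih =>
    intro t h
    simp only [Der.eval] at h
    cases h1 : Der.eval seeds d with
    | none => rw [h1] at h; simp at h
    | some a =>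
      rw [h1] at h
      simp only [Option.some.injEq] at h
      subst h
      exact (ih a h1).swap12
  | sw13 d ih =>
    intro t h
    simp only [Der.eval] at h
    cases h1 : Der.eval seeds d with
    | none => rw [h1] at h; simp at h
    | some a =>
      rw [h1] at h
      simp only [Option.some.injEq] at h
      subst h
      exact (ih a h1).swap13
  | tw d ih =>
    intro t h
    simp only [Der.eval] at h
    cases h1 : Der.eval seeds d with
    | none => rw [h1] at h; simp at h
    | some a =>
      rw [h1] at h
      simp only [Option.some.injEq] at h
      subst h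
      have := (ih a h1).twist
      simp only [Triple.Good, dual_coe] at this ⊢
      exact this

/-- Sort in decreasing order. -/
def srt (l : List ℕ) : List ℕ := l.insertionSort (· ≥ ·)

theorem srt_coe (l : List ℕ) : ((srt l : List ℕ) : Multiset ℕ) = (l : Multiset ℕ) :=
  Multiset.coe_eq_coe.mpr (List.perm_insertionSort _ _)

/-- One line of a table: the derivation proves the triple `(c, H, H)`. -/
def lineOK (seeds : List Triple) (H c : List ℕ) (d : Der) : Bool :=
  match d.eval seeds with
  | some t => srt t.1 == c && srt t.2.1 == H && srt t.2.2 == H
  | none => false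

/-- The table is aligned with a list of partitions. -/
def tableOK (seeds : List Triple) (H : List ℕ) : List (List ℕ) → List Der → Bool
  | [], _ => true
  | _ :: _, [] => false
  | c :: cs, d :: ds => lineOK seeds H c d && tableOK seeds H cs ds

theorem lineOK_good {seeds : List Triple} (hs : ∀ t ∈ seeds, t.Good) {H c : List ℕ} {d : Der}
    (h : lineOK seeds H c d = true) : Real3 (c : Multiset ℕ) (H : Multiset ℕ) (H : Multiset ℕ) := by
  unfold lineOK at h
  cases he : d.eval seeds with
  | none => rw [he] at h; simp at h
  | some t =>
    rw [he] at h
    simp only [Bool.and_eq_true, beq_iff_eq] at h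
    obtain ⟨⟨h1, h2⟩, h3⟩ := h
    have := Der.eval_good hs d t he
    unfold Triple.Good at this
    rw [← h1, ← h2, srt_coe, srt_coe]
    rw [← h2] at h3
    have h4 : (t.2.2 : Multiset ℕ) = (t.2.1 : Multiset ℕ) := by
      rw [← srt_coe t.2.2, h3, srt_coe]
    rw [← h4]
    rw [h4] at this
    rw [h4]
    exact this

theorem tableOK_good {seeds : List Triple} (hs : ∀ t ∈ seeds, t.Good) {H : List ℕ} :
    ∀ {cs : List (List ℕ)} {ds : List Der}, tableOK seeds H cs ds = true →
      ∀ c ∈ cs, Real3 (c : Multiset ℕ) (H : Multiset ℕ) (H : Multiset ℕ) := by
  intro cs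
  induction cs with
  | nil => simp
  | cons c cs ih =>
    intro ds h c' hc'
    cases ds with
    | nil => simp [tableOK] at h
    | cons d ds =>
      simp only [tableOK, Bool.and_eq_true] at h
      rcases List.mem_cons.mp hc' with rfl | hc'
      · exact lineOK_good hs h.1
      · exact ih h.2 c' hc'

/-- **Universality of a shape from a table.** -/
theorem universal_of_table {L : YoungDiagram} {n : ℕ} {H : List ℕ}
    (hH : hts L = (H : Multiset ℕ)) {seeds : List Triple} (hs : ∀ t ∈ seeds, t.Good) {ds : List Der}
    (hc : tableOK seeds H (partsF n n n) ds = true) : Universal L.cells n := by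
  intro S _ _ hS V _ _ _ ρ hρ
  obtain ⟨ν, hνc, hlab⟩ := exists_label hρ
  obtain ⟨T⟩ := exists_tab (S := S) ν hνc
  have hν : ν.card = n := hνc.trans hS
  have h1 := tableOK_good hs hc (colLensL ν) (colLensL_mem_partsF ν hν)
  rw [← hts_eq_colLensL, ← hH] at h1
  exact occurs_of_real3 T h1 hρ hlab

end Crest.Agent.Saxl.Kron
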