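import Crest.Agent.Lib.Saxl.Labels

/-!
# Polytabloids as functions on words, the spaces `XX D E S`, the predicate `Occurs`

`Fn S` is the space of all functions on words `S → ℕ`, `Fn2 S` the functions on pairs of words.
The polytabloid of a tableau is a function on words.  Products are pointwise.
-/

set_option autoImplicit false

open scoped BigOperators
open Equiv

namespace Crest.Agent.Saxl

section Defs

/-- Functions on words. -/
abbrev Fn (S : Type*) := (S → ℕ) → ℂ

/-- Functions on pairs of words. -/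
abbrev Fn2 (S : Type*) := (S → ℕ) → (S → ℕ) → ℂ

variable {S : Type*} [Fintype S] [DecidableEq S]

variable (S) in
/-- The action on functions on words: `(g f) w = f (w ∘ g)`. -/
noncomputable def fnRep : Representation ℂ (Perm S) (Fn S) where
  toFun g :=
    { toFun := fun f w => f (w ∘ g)
      map_add' := fun _ _ => rfl
      map_smul' := fun _ _ => rfl }
  map_one' := by ext; simp
  map_mul' := by intros; ext; simp [Function.comp_assoc]

variable (S) in
/-- The action on functions on pairs of words. -/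
noncomputable def fn2Rep : Representation ℂ (Perm S) (Fn2 S) where
  toFun g :=
    { toFun := fun f w₁ w₂ => f (w₁ ∘ g) (w₂ ∘ g)
      map_add' := fun _ _ => rfl
      map_smul' := fun _ _ => rfl }
  map_one' := by ext; simp
  map_mul' := by intros; ext; simp [Function.comp_assoc]

omit [Fintype S] [DecidableEq S] in
@[simp] theorem fnRep_apply (g : Perm S) (f : Fn S) (w : S → ℕ) : fnRep S g f w = f (w ∘ g) := rfl

omit [Fintype S] [DecidableEq S] in
@[simp] theorem fn2Rep_apply (g : Perm S) (F : Fn2 S) (w₁ w₂ : S → ℕ) :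
    fn2Rep S g F w₁ w₂ = F (w₁ ∘ g) (w₂ ∘ g) := rfl

/-- Row colouring of a tableau of an arbitrary set of cells. -/
def rowOf {D : Finset (ℕ × ℕ)} (t : D ≃ S) (s : S) : ℕ := (t.symm s).1.1

/-- Column colouring of a tableau of an arbitrary set of cells. -/
def colOf {D : Finset (ℕ × ℕ)} (t : D ≃ S) (s : S) : ℕ := (t.symm s).1.2

omit [Fintype S] [DecidableEq S] in
theorem rowOf_colOf_injective {D : Finset (ℕ × ℕ)} (t : D ≃ S) :
    Function.Injective fun s => (rowOf t s, colOf t s) := by
  intro s s' h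
  simp only [Prod.mk.injEq, rowOf, colOf] at h
  have : (t.symm s).1 = (t.symm s').1 := Prod.ext h.1 h.2
  exact t.symm.injective (Subtype.ext this)

/-- The polytabloid of a tableau, as a function on words. -/
noncomputable def poly {D : Finset (ℕ × ℕ)} (t : D ≃ S) : Fn S :=
  fun w => ∑ σ ∈ stab (colOf t), sgn σ * (if w = rowOf t ∘ ⇑(σ⁻¹) then 1 else 0)

open Classical in
/-- The delta function of a word. -/
noncomputable def dlt (u : S → ℕ) : Fn S := fun w => if w = u then 1 else 0

theorem fnRep_dlt (g : Perm S) (u : S → ℕ) : fnRep S g (dlt u) = dlt (u ∘ ⇑(g⁻¹)) := by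
  funext w
  simp only [fnRep_apply, dlt]
  have : (w ∘ g = u) ↔ (w = u ∘ ⇑(g⁻¹)) := by
    constructor
    · rintro rfl
      funext s
      simp
    · rintro rfl
      funext s
      simp
  simp [this]

/-- The polytabloid is the antisymmetrization of a delta function. -/
theorem poly_eq_gact {D : Finset (ℕ × ℕ)} (t : D ≃ S) :
    poly t = gact (fnRep S) (symB (colOf t)) (dlt (rowOf t)) := by
  rw [gact_symB]
  funext w
  simp only [poly, Finset.sum_apply, Pi.smul_apply, smul_eq_mul, fnRep_dlt, dlt]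

theorem colOf_trans {D : Finset (ℕ × ℕ)} (t : D ≃ S) (g : Perm S) :
    colOf (t.trans g) = colOf t ∘ ⇑(g⁻¹) := by
  funext s
  rfl

theorem rowOf_trans {D : Finset (ℕ × ℕ)} (t : D ≃ S) (g : Perm S) :
    rowOf (t.trans g) = rowOf t ∘ ⇑(g⁻¹) := by
  funext s
  rfl

/-- The action on polytabloids is by renaming. -/
theorem fnRep_poly {D : Finset (ℕ × ℕ)} (t : D ≃ S) (g : Perm S) :
    fnRep S g (poly t) = poly (t.trans g) := by
  funext w
  simp only [fnRep_apply, poly]
  rw [colOf_trans, rowOf_trans]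
  refine Finset.sum_bij' (fun σ _ => g * σ * g⁻¹) (fun σ _ => g⁻¹ * σ * g) ?_ ?_ ?_ ?_ ?_
  · intro σ hσ
    rw [mem_stab_comp]
    simpa [mul_assoc] using hσ
  · intro σ hσ
    rw [mem_stab_comp] at hσ
    simpa [mul_assoc] using hσ
  · intro σ _
    simp [mul_assoc]
  · intro σ _
    simp [mul_assoc]
  · intro σ _
    have h1 : sgn (g * σ * g⁻¹) = sgn σ := by
      rw [sgn_mul, sgn_mul, sgn_inv]
      linear_combination (sgn σ) * sgn_mul_self g
    rw [h1]
    congr 2
    have h2 : (w ∘ g = rowOf t ∘ ⇑(σ⁻¹)) ↔ (w = rowOf t ∘ ⇑(g⁻¹) ∘ ⇑((g * σ * g⁻¹)⁻¹)) := by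
      constructor
      · intro h
        funext s
        have := congrFun h (g⁻¹ s)
        simpa [mul_assoc] using this
      · intro h
        funext s
        have := congrFun h (g s)
        simpa [mul_assoc] using this
    simp only [h2]
    rfl

/-- The product function of two polytabloids. -/
noncomputable def prod2 {D E : Finset (ℕ × ℕ)} (t : D ≃ S) (u : E ≃ S) : Fn2 S :=
  fun w₁ w₂ => poly t w₁ * poly u w₂

theorem fn2Rep_prod2 {D E : Finset (ℕ × ℕ)} (t : D ≃ S) (u : E ≃ S) (g : Perm S) :
    fn2Rep S g (prod2 t u) = prod2 (t.trans g) (u.trans g) := by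
  funext w₁ w₂
  simp only [fn2Rep_apply, prod2, ← fnRep_poly, fnRep_apply]

variable (S) in
/-- The span of the products of polytabloids of shapes `D` and `E`. -/
noncomputable def XX (D E : Finset (ℕ × ℕ)) : Submodule ℂ (Fn2 S) :=
  Submodule.span ℂ (Set.range fun p : (D ≃ S) × (E ≃ S) => prod2 p.1 p.2)

theorem fn2Rep_mem_XX {D E : Finset (ℕ × ℕ)} (g : Perm S) {F : Fn2 S} (hF : F ∈ XX S D E) :
    fn2Rep S g F ∈ XX S D E := by
  induction hF using Submodule.span_induction with
  | mem x hx =>
    obtain ⟨p, rfl⟩ := hx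
    refine Submodule.subset_span ⟨(p.1.trans g, p.2.trans g), ?_⟩
    simp only [fn2Rep_prod2]
  | zero => simp
  | add x y _ _ hx hy => rw [map_add]; exact Submodule.add_mem _ hx hy
  | smul c x _ hx => rw [map_smul]; exact Submodule.smul_mem _ c hx

/-- `XX` as a subrepresentation. -/
noncomputable def XXsub (D E : Finset (ℕ × ℕ)) : Subrepresentation (fn2Rep S) where
  toSubmodule := XX S D E
  apply_mem_toSubmodule g _ hv := fn2Rep_mem_XX g hv

instance (D E : Finset (ℕ × ℕ)) : FiniteDimensional ℂ (XX S D E) := by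
  unfold XX
  exact FiniteDimensional.span_of_finite ℂ (Set.finite_range _)

instance (D E : Finset (ℕ × ℕ)) : FiniteDimensional ℂ (XXsub (S := S) D E).toSubmodule :=
  inferInstanceAs (FiniteDimensional ℂ (XX S D E))

variable {V : Type*} [AddCommGroup V] [Module ℂ V]

/-- The representation `ρ` occurs in the "tensor product of the Specht modules" of shapes `D`, `E`. -/
def Occurs (ρ : Representation ℂ (Perm S) V) (D E : Finset (ℕ × ℕ)) : Prop :=
  ∃ φ : V →ₗ[ℂ] Fn2 S, φ ≠ 0 ∧ (∀ g v, φ (ρ g v) = fn2Rep S g (φ v)) ∧ ∀ v, φ v ∈ XX S D E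

/-- Criterion: a Young symmetrizer not killing `XX`. -/
theorem occurs_of_symmetrizer {W : Type*} [AddCommGroup W] [Module ℂ W] [FiniteDimensional ℂ W]
    {a : YoungDiagram} (T : Tab a S) {D E : Finset (ℕ × ℕ)} {F : Fn2 S} (hF : F ∈ XX S D E)
    (h : gact (fn2Rep S) (symE (rowC T)) (gact (fn2Rep S) (symB (colC T)) F) ≠ 0)
    {ρ : Representation ℂ (Perm S) W} (hρ : ρ.IsIrreducible) (hlab : Label ρ a) :
    Occurs ρ D E := by
  -- Work in the finite dimensional representation `XX`.
  set X := XXsub (S := S) D E with hX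
  set c := conv (symE (rowC T)) (symB (colC T)) with hc
  have hv : ∃ v, gact X.toRepresentation c v ≠ 0 := by
    refine ⟨⟨F, hF⟩, fun h0 => h ?_⟩
    have h1 := congrArg Subtype.val h0
    have h2 : (gact X.toRepresentation c ⟨F, hF⟩ : X.toSubmodule).1 = gact (fn2Rep S) c F := by
      simp only [gact_apply]
      simp only [Submodule.coe_sum, Submodule.coe_smul]
      rfl
    rw [h2, hc, gact_conv] at h1
    exact h1
  obtain ⟨p, hp, v, hvp, hv⟩ := exists_irreducible_gact_ne_zero _ c hv
  -- `p` has label `a`.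
  have hlabp : Label (S := S) (V := p.toSubmodule) p.toRepresentation a := by
    rw [hc, gact_conv] at hv
    refine ⟨T, ⟨⟨_, gact_mem p (symE (rowC T)) (gact_mem p (symB (colC T)) hvp)⟩, ?_, ?_⟩,
      ⟨⟨_, gact_mem p (symB (colC T)) hvp⟩, ?_, ?_⟩⟩
    · intro h
      exact hv (congrArg Subtype.val h)
    · intro g hg
      exact Subtype.ext (gact_symE_fixed X.toRepresentation (rowC T) _ hg)
    · intro h
      apply hv
      have h0 : gact X.toRepresentation (symB (colC T)) v = 0 := congrArg Subtype.val h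
      rw [h0, map_zero]
    · intro g hg
      exact Subtype.ext (gact_symB_alt X.toRepresentation (colC T) v hg)
  obtain ⟨ψ⟩ := equiv_of_label hρ hp hlab hlabp
  let φ : W →ₗ[ℂ] Fn2 S :=
    X.toSubmodule.subtype ∘ₗ p.toSubmodule.subtype ∘ₗ ψ.toIntertwiningMap.toLinearMap
  refine ⟨φ, ?_, ?_, ?_⟩
  · intro h0
    have hvne : v ≠ 0 := by
      rintro rfl
      simp at hv
    obtain ⟨w, hw⟩ := EquivLike.surjective ψ ⟨v, hvp⟩
    have h1 : φ w = 0 := by rw [h0]; rfl
    have h2 : φ w = (v : Fn2 S) := by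
      show (((ψ w : p.toSubmodule) : X.toSubmodule) : Fn2 S) = v
      rw [hw]
    rw [h2] at h1
    exact hvne (Subtype.ext h1)
  · intro g v
    have h1 := Representation.IntertwiningMap.isIntertwining ρ p.toRepresentation
      ψ.toIntertwiningMap g v
    show ((ψ.toIntertwiningMap (ρ g v) : p.toSubmodule) : X.toSubmodule).1 = _
    rw [h1]
    rfl
  · intro v
    exact (ψ.toIntertwiningMap v : p.toSubmodule).1.2

end Defs

end Crest.Agent.Saxl
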