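import Crest.Agent.Lib.Saxl.LevelTest

/-!
# Two more chain rules (row 195, S0298, helper86)

When `ν` has more rows than the chain test has parts, the test fails although the partial sums have a
large margin.  Placing doubles reduces the first two columns of `ν`:

* `chainOK_of_simple2`: a placed double with `a, b ≥ 2` loses both columns, so the number of rows may be
  the number of parts plus two, the loss at the tail is exact;
* `chainOK_of_stack`: the **hook stack**: `t` placed doubles at once, in the shape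
  `θ = (e₀, 2, …, 2)` with `2t` rows, so the number of rows may be the number of parts plus `2t`.  No
  placement search, the loss is exact.
-/

set_option autoImplicit false

open scoped BigOperators
open Finset

namespace Crest.Agent.Saxl

/-- **The placement lemma with `b ≥ 2`.** -/
theorem exists_placement_even2 (r : ℕ → ℕ) (hr : Antitone r) {h N : ℕ} (hh : 2 ≤ h) (hN : r N = 0)
    (h0 : h + 1 ≤ r 0) (h2 : 2 * h + 1 ≤ r 0 + r 1) (hr1 : 2 ≤ r 1)
    (hlst : ∀ i, 2 * h ≤ r i + r (i + 1) → 1 ≤ r (i + 1)) :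
    ∃ a b, Even a ∧ Even b ∧ b ≤ a ∧ a + b = 2 * h ∧ 2 ≤ b ∧ a ≤ r 0 ∧ b ≤ r 1 ∧
      ∀ i, (a - r i) + (b - r (i + 1)) ≤ (2 * h - (r i + r (i + 1))) + 1 := by
  classical
  have hP0 : 2 * h ≤ r 0 + r 1 := by omega
  set j := Nat.findGreatest (fun i => 2 * h ≤ r i + r (i + 1)) N with hj
  have hjP : 2 * h ≤ r j + r (j + 1) :=
    Nat.findGreatest_spec (P := fun i => 2 * h ≤ r i + r (i + 1)) (Nat.zero_le N) hP0
  have hjN : j ≤ N := Nat.findGreatest_le N
  have hlast : ∀ i, j < i → r i + r (i + 1) < 2 * h := by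
    intro i hi
    by_cases hiN : i ≤ N
    · have := Nat.findGreatest_is_greatest (P := fun i => 2 * h ≤ r i + r (i + 1)) (n := N) hi hiN
      simpa using this
    · have h3 : r i ≤ r N := hr (by omega)
      have h4 : r (i + 1) ≤ r N := hr (by omega)
      omega
  have h3 : r (j + 1) + r (j + 2) < 2 * h := hlast _ (by omega)
  have a1 : r (j + 1) ≤ r j := hr (by omega)
  have a2 : r (j + 2) ≤ r (j + 1) := hr (by omega)
  have a3 : r j ≤ r 0 := hr (by omega)
  have a4 : r (j + 1) ≤ r 1 := hr (by omega)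
  have a5 : r 1 ≤ r 0 := hr (by omega)
  have a6 : j = 0 ∨ r j ≤ r 1 := by
    rcases Nat.eq_zero_or_pos j with h | h
    · exact Or.inl h
    · exact Or.inr (hr (by omega))
  have a7 : 1 ≤ r (j + 1) := hlst j hjP
  obtain ⟨a, hae, l1, l2, l3, l4, u1, u2, u3, u4⟩ : ∃ a, Even a ∧ r (j + 1) ≤ a + 1 ∧
      2 * h ≤ a + r (j + 1) + 1 ∧ h ≤ a ∧ 2 * h ≤ a + r 1 ∧ a ≤ r j + 1 ∧
      a + r (j + 2) ≤ 2 * h + 1 ∧ a ≤ r 0 ∧ a + 2 ≤ 2 * h := by
    set L := max (r (j + 1) - 1) (max (2 * h - r (j + 1) - 1) (max h (2 * h - r 1))) with hL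
    rcases Nat.even_or_odd L with he | ho
    · refine ⟨L, he, ?_, ?_, ?_, ?_, ?_, ?_, ?_, ?_⟩ <;> omega
    · obtain ⟨w, hw⟩ := ho
      refine ⟨L + 1, Odd.add_one (⟨w, hw⟩ : Odd L), ?_, ?_, ?_, ?_, ?_, ?_, ?_, ?_⟩ <;> omega
  refine ⟨a, 2 * h - a, hae, ?_, by omega, by omega, by omega, u3, by omega, ?_⟩
  · obtain ⟨w, hw⟩ := hae
    exact ⟨h - w, by omega⟩
  · intro i
    by_cases hi : i ≤ j
    · have b1 : r j ≤ r i := hr hi
      have b2 : r (j + 1) ≤ r (i + 1) := hr (by omega)
      omega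
    · have b1 : r i ≤ r (j + 1) := hr (by omega)
      have b2 : r (i + 1) ≤ r (j + 2) := hr (by omega)
      have b3 := hlast i (by omega)
      omega

section Tests

variable {l : List BK} {ps : Fin l.length → List ℕ}

/-- **The simple test with `b ≥ 2`.** `M` is the number of parts off the placed double. -/
def SimpleOK2 (B : ℕ → ℕ) (h M : ℕ) (ν : YoungDiagram) : Prop :=
  2 ≤ ν.colLen 1 ∧ ν.colLen 1 < ν.colLen 0 ∧ h + 1 ≤ ν.rowLen 0 ∧ 2 * h + 1 ≤ rowsBelow ν 2 ∧
    ν.colLen 0 ≤ M + 2 ∧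
    (∀ k, 1 ≤ k → k + 1 ≤ ν.colLen 1 → B k + 1 ≤ rowsBelow ν k) ∧
    (∀ k, 1 ≤ k → k + 1 ≤ ν.colLen 1 → B k + 2 * h + 1 ≤ rowsBelow ν (k + 2))

/-- **The test `SimpleOK2` gives the chain test.** -/
theorem chainOK_of_simple2 (i₀ : Fin l.length) {d : ℕ} (hd : l[i₀.1] = BK.dbl d) (hd0 : 2 ≤ d)
    {ν : YoungDiagram} (B : ℕ → ℕ) {M : ℕ}
    (hB : ∀ T : Finset (Σ i, Fin (ps i).length), (∀ p ∈ T, p.1 ≠ i₀) →
      ∑ p ∈ T, (ps p.1)[p.2.1] ≤ B T.card)
    (hTail : ∀ T : Finset (Σ i, Fin (ps i).length), (∀ p ∈ T, p.1 ≠ i₀) → T.card ≤ M ∧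
      ∑ p ∈ T, (ps p.1)[p.2.1] + (M - T.card) + 2 * d ≤ ν.card)
    (h : SimpleOK2 B d M ν) : ChainOK l ps ν := by
  obtain ⟨hq2, hqp, h0, h2, hp, hk1, hk2⟩ := h
  rw [rowsBelow_two] at h2
  have hr1 : 2 ≤ ν.rowLen 1 := by
    have h3 : ((1, 1) : ℕ × ℕ) ∈ ν := YoungDiagram.mem_iff_lt_colLen.mpr (by omega)
    have := YoungDiagram.mem_iff_lt_rowLen.mp h3
    omega
  have hlst : ∀ i, 2 * d ≤ ν.rowLen i + ν.rowLen (i + 1) → 1 ≤ ν.rowLen (i + 1) := by
    intro i hi
    by_contra hne
    have h1 : ν.rowLen (i + 1) = 0 := by omega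
    have h3 : 2 ≤ ν.rowLen i := by omega
    have h4 : (i, 1) ∈ ν := YoungDiagram.mem_iff_lt_rowLen.mpr (by omega)
    have h5 := YoungDiagram.mem_iff_lt_colLen.mp h4
    have h6 : (i + 1, 0) ∈ ν := YoungDiagram.mem_iff_lt_colLen.mpr (by omega)
    have h7 := YoungDiagram.mem_iff_lt_rowLen.mp h6
    omega
  obtain ⟨a, b, hae, hbe, hba, hab, hb2, ha0, hb1, hi⟩ :=
    exists_placement_even2 ν.rowLen (rowLen_antitone ν) hd0 (rowLen_colLen_zero ν) h0 h2 hr1 hlst
  refine chainOK_of_placed' i₀ hd hba hae hbe hab ha0 hb1 ?_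
  intro T hT hT1
  obtain ⟨hkM, hsum⟩ := hTail T hT
  have hBT := hB T hT
  set k := T.card with hk
  set s := ∑ p ∈ T, (ps p.1)[p.2.1] with hs
  have h5 := hi k
  have h6 : rowsBelow ν (k + 2) = rowsBelow ν k + ν.rowLen k + ν.rowLen (k + 1) := by
    rw [rowsBelow_succ ν (k + 1), rowsBelow_succ ν k]
  by_cases hq : k + 1 ≤ ν.colLen 1
  · have h7 := hk1 k hT1 hq
    have h8 := hk2 k hT1 hq
    omega
  · have h7 : ν.rowLen k ≤ 1 := rowLen_le_one (by omega)
    have h8 : ν.rowLen (k + 1) ≤ 1 := rowLen_le_one (by omega)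
    have h9 := card_le_rowsBelow_add ν (show ν.colLen 1 ≤ k + 2 by omega)
    omega

/-- The stack of doubles: the layer `i` has `2 h_s` cells for `s < i`. -/
def stackEta (h : ℕ → ℕ) (i y : ℕ) : ℕ :=
  if i = 0 then 0 else
    if y = 0 then (∑ s ∈ range i, 2 * h s) + 2 - 4 * i else if y < 2 * i then 2 else 0

theorem sumH_ge {h : ℕ → ℕ} {t : ℕ} (h2 : ∀ s, s < t → 2 ≤ h s) {i : ℕ} (hi : i ≤ t) :
    4 * i ≤ ∑ s ∈ range i, 2 * h s := by
  induction i with
  | zero => simp
  | succ i ih =>
    rw [Finset.sum_range_succ]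
    have := ih (by omega)
    have := h2 i (by omega)
    omega

theorem sum_range_two_le (A i L : ℕ) (hi : 1 ≤ i) (hL : 2 * i ≤ L) :
    ∑ y ∈ range L, (if y = 0 then A else if y < 2 * i then 2 else 0) = A + 2 * (2 * i - 1) := by
  induction L, hL using Nat.le_induction with
  | base =>
    obtain ⟨m, rfl⟩ : ∃ m, i = m + 1 := ⟨i - 1, by omega⟩
    have e : 2 * (m + 1) = (2 * m + 1) + 1 := by ring
    rw [e, Finset.sum_range_succ']
    simp only [Nat.add_eq_zero_iff, one_ne_zero, and_false, if_false, if_true]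
    have h1 : ∀ y ∈ range (2 * m + 1), (if y + 1 < 2 * m + 1 + 1 then 2 else 0) = 2 := by
      intro y hy
      rw [if_pos (by have := Finset.mem_range.mp hy; omega)]
    rw [Finset.sum_congr rfl h1]
    simp
    omega
  | succ L hL ih =>
    rw [Finset.sum_range_succ, ih]
    have h1 : L ≠ 0 := by omega
    rw [if_neg h1, if_neg (by omega)]
    rfl

theorem sum_stackEta {h : ℕ → ℕ} {t : ℕ} (h2 : ∀ s, s < t → 2 ≤ h s) {i L : ℕ} (hi : i ≤ t)
    (hL : 2 * i ≤ L) : ∑ y ∈ range L, stackEta h i y = ∑ s ∈ range i, 2 * h s := by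
  by_cases hi0 : i = 0
  · subst hi0
    simp [stackEta]
  · have h3 : ∀ y ∈ range L, stackEta h i y =
        if y = 0 then (∑ s ∈ range i, 2 * h s) + 2 - 4 * i else if y < 2 * i then 2 else 0 := by
      intro y _
      simp [stackEta, hi0]
    rw [Finset.sum_congr rfl h3, sum_range_two_le _ i L (by omega) hL]
    have := sumH_ge h2 hi
    omega

theorem stackEta_mono {h : ℕ → ℕ} {t : ℕ} (h2 : ∀ s, s < t → 2 ≤ h s) {i : ℕ} (hi : i < t) (y : ℕ) :
    stackEta h i y ≤ stackEta h (i + 1) y := by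
  unfold stackEta
  rw [if_neg (Nat.succ_ne_zero i)]
  by_cases hi0 : i = 0
  · simp [hi0]
  · rw [if_neg hi0]
    by_cases hy : y = 0
    · rw [if_pos hy, if_pos hy, Finset.sum_range_succ]
      have := h2 i hi
      have := sumH_ge h2 (show i ≤ t by omega)
      omega
    · rw [if_neg hy, if_neg hy]
      split_ifs <;> omega

theorem stackEta_anti {h : ℕ → ℕ} {t : ℕ} (h2 : ∀ s, s < t → 2 ≤ h s) {i : ℕ} (hi : i ≤ t) :
    Antitone (stackEta h i) := by
  intro x y hxy
  unfold stackEta
  by_cases hi0 : i = 0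
  · simp [hi0]
  · rw [if_neg hi0, if_neg hi0]
    have := sumH_ge h2 hi
    split_ifs <;> omega

theorem stackEta_add_two {h : ℕ → ℕ} {t : ℕ} (h2 : ∀ s, s < t → 2 ≤ h s) {i : ℕ} (hi : i < t) (y : ℕ) :
    stackEta h (i + 1) (y + 2) ≤ stackEta h i y := by
  unfold stackEta
  rw [if_neg (Nat.succ_ne_zero i), if_neg (by omega : ¬ y + 2 = 0)]
  by_cases hi0 : i = 0
  · subst hi0
    simp
  · rw [if_neg hi0]
    have := sumH_ge h2 (show i ≤ t by omega)
    split_ifs <;> omega

/-- The two columns and the first row of a stack. -/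
theorem card_filter_stackEta {h : ℕ → ℕ} {t : ℕ} (h2 : ∀ s, s < t → 2 ≤ h s) (ht : 1 ≤ t) {p : ℕ}
    (hp : 2 * t ≤ p) (j : ℕ) :
    ((range p).filter fun y => j < stackEta h t y).card =
      if j < 2 then 2 * t else if j + 4 * t < (∑ s ∈ range t, 2 * h s) + 2 then 1 else 0 := by
  have hs := sumH_ge h2 (le_refl t)
  have ht0 : t ≠ 0 := by omega
  by_cases hj : j < 2
  · rw [if_pos hj]
    have h3 : (range p).filter (fun y => j < stackEta h t y) = range (2 * t) := by
      ext y
      simp only [Finset.mem_filter, Finset.mem_range, stackEta, if_neg ht0]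
      constructor
      · rintro ⟨_, h4⟩
        by_contra h5
        rw [if_neg (by omega), if_neg (by omega)] at h4
        omega
      · intro h4
        refine ⟨by omega, ?_⟩
        split_ifs <;> omega
    rw [h3, Finset.card_range]
  · rw [if_neg hj]
    by_cases hj2 : j + 4 * t < (∑ s ∈ range t, 2 * h s) + 2
    · rw [if_pos hj2]
      have h3 : (range p).filter (fun y => j < stackEta h t y) = {0} := by
        ext y
        simp only [Finset.mem_filter, Finset.mem_range, Finset.mem_singleton, stackEta, if_neg ht0]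
        constructor
        · rintro ⟨_, h4⟩
          by_contra h5
          rw [if_neg h5] at h4
          split_ifs at h4 <;> omega
        · rintro rfl
          refine ⟨by omega, ?_⟩
          rw [if_pos rfl]
          omega
      rw [h3, Finset.card_singleton]
    · rw [if_neg hj2, Finset.card_eq_zero]
      apply Finset.filter_eq_empty_iff.mpr
      intro y _
      simp only [stackEta, if_neg ht0]
      split_ifs <;> omega

/-- **The hook stack.** `e₀ + 2 (2t - 1) = 2 ∑ h_s`. -/
theorem chainOK_of_stack {t : ℕ} (ht : 1 ≤ t) (pl : Fin t → Fin l.length)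
    (hpl : Function.Injective pl) (h : ℕ → ℕ) (hd : ∀ i : Fin t, l[(pl i).1] = BK.dbl (h i.1))
    (h2 : ∀ s, s < t → 2 ≤ h s) {ν : YoungDiagram} (hq : 2 * t ≤ ν.colLen 1) {e₀ : ℕ}
    (he : e₀ + 4 * t = (∑ s ∈ range t, 2 * h s) + 2) (hy : e₀ ≤ ν.rowLen 0)
    (hdom : ∀ T : Finset (Σ i, Fin (ps i).length), (∀ p ∈ T, ∀ i, p.1 ≠ pl i) → 1 ≤ T.card →
      ∑ p ∈ T, (ps p.1)[p.2.1] + (min T.card (ν.colLen 0) - min T.card (ν.colLen 0 - 2 * t)) +
        (min T.card (ν.colLen 1) - min T.card (ν.colLen 1 - 2 * t)) +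
        (e₀ - max 2 (ν.rowLen T.card)) ≤ rowsBelow ν T.card) :
    ChainOK l ps ν := by
  classical
  have hs := sumH_ge h2 (le_refl t)
  have he2 : 2 ≤ e₀ := by omega
  have hqp : ν.colLen 1 ≤ ν.colLen 0 := ν.colLen_anti 0 1 (by omega)
  have hp : 2 * t ≤ ν.colLen 0 := by omega
  refine ⟨t, pl, stackEta h, hpl, fun i => ⟨_, hd i⟩, ?_, ?_, ?_, ?_, ?_, ?_, ?_, ?_⟩
  · intro y
    simp [stackEta]
  · intro i hi y
    exact stackEta_mono h2 hi y
  · intro i hi
    exact stackEta_anti h2 hi
  · intro y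
    unfold stackEta
    rw [if_neg (by omega)]
    by_cases hy0 : y = 0
    · rw [if_pos hy0, hy0]
      omega
    · rw [if_neg hy0]
      by_cases hy2 : y < 2 * t
      · rw [if_pos hy2]
        have h3 : (y, 1) ∈ ν := YoungDiagram.mem_iff_lt_colLen.mpr (by omega)
        have := YoungDiagram.mem_iff_lt_rowLen.mp h3
        omega
      · rw [if_neg hy2]
        omega
  · intro i hi y
    exact stackEta_add_two h2 hi y
  · intro i
    have h3 := sum_stackEta (L := ν.colLen 0) h2 (show i.1 + 1 ≤ t by have := i.2; omega)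
      (by have := i.2; omega)
    have h4 := sum_stackEta (L := ν.colLen 0) h2 (show i.1 ≤ t by have := i.2; omega)
      (by have := i.2; omega)
    rw [hd i]
    have h5 : ∑ y ∈ range (ν.colLen 0), (stackEta h (i.1 + 1) y - stackEta h i.1 y) +
        ∑ y ∈ range (ν.colLen 0), stackEta h i.1 y =
        ∑ y ∈ range (ν.colLen 0), stackEta h (i.1 + 1) y := by
      rw [← Finset.sum_add_distrib]
      apply Finset.sum_congr rfl
      intro y _
      have := stackEta_mono h2 i.2 y
      omega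
    rw [h3, h4, Finset.sum_range_succ] at h5
    simp only [BK.size]
    omega
  · intro i hi
    apply Finset.even_sum
    intro y _
    by_cases hy0 : y = 0
    · simp [hy0]
    · apply Even.mul_right
      unfold stackEta
      rw [if_neg (Nat.succ_ne_zero i), if_neg hy0]
      by_cases hi0 : i = 0
      · simp only [hi0, if_true]
        split_ifs <;> simp
      · rw [if_neg hi0, if_neg hy0]
        split_ifs <;> simp
  · intro T hT
    by_cases hT0 : T.card = 0
    · rw [Finset.card_eq_zero.mp hT0]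
      simp
    have hdT := hdom T hT (by omega)
    set k := T.card with hk
    have hW : 2 ≤ ν.rowLen 0 := by omega
    -- the loss, column by column
    let ε : ℕ → ℕ := fun j =>
      (if j = 0 then min k (ν.colLen 0) - min k (ν.colLen 0 - 2 * t) else 0) +
      (if j = 1 then min k (ν.colLen 1) - min k (ν.colLen 1 - 2 * t) else 0) +
      (if j ∈ Finset.Ico (max 2 (ν.rowLen k)) e₀ then 1 else 0)
    have hpt : ∀ j, j < ν.rowLen 0 → min k (ν.colLen j) ≤
        min k (ν.colLen j - ((range (ν.colLen 0)).filter fun y => j < stackEta h t y).card) + ε j := by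
      intro j _
      rw [card_filter_stackEta h2 ht hp j]
      simp only [ε, Finset.mem_Ico]
      by_cases hj0 : j = 0
      · subst hj0
        simp
      by_cases hj1 : j = 1
      · subst hj1
        simp
      · have hj2 : ¬ j < 2 := by omega
        rw [if_neg hj2, if_neg hj0, if_neg hj1]
        by_cases hje : j + 4 * t < (∑ s ∈ range t, 2 * h s) + 2
        · rw [if_pos hje]
          have hje' : j < e₀ := by omega
          by_cases hjk : ν.rowLen k ≤ j
          · rw [if_pos ⟨by simp only [max_le_iff]; omega, hje'⟩]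
            omega
          · have h3 : ν.colLen j ≤ k ↔ ν.rowLen k ≤ j := colLen_le_iff_rowLen_le ν k j
            have h4 : k < ν.colLen j := by
              by_contra h5
              exact hjk (h3.mp (by omega))
            omega
        · rw [if_neg hje]
          simp
    have hsumε : ∑ j ∈ range (ν.rowLen 0), ε j ≤
        (min k (ν.colLen 0) - min k (ν.colLen 0 - 2 * t)) +
        (min k (ν.colLen 1) - min k (ν.colLen 1 - 2 * t)) + (e₀ - max 2 (ν.rowLen k)) := by
      simp only [ε]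
      rw [Finset.sum_add_distrib, Finset.sum_add_distrib]
      have h3 : ∀ v : ℕ, ∑ j ∈ range (ν.rowLen 0), (if j = 0 then v else 0) = v := by
        intro v
        rw [Finset.sum_ite_eq']
        simp
        omega
      have h4 : ∀ v : ℕ, ∑ j ∈ range (ν.rowLen 0), (if j = 1 then v else 0) = v := by
        intro v
        rw [Finset.sum_ite_eq']
        simp
        omega
      rw [h3, h4]
      have h5 : ∑ j ∈ range (ν.rowLen 0), (if j ∈ Finset.Ico (max 2 (ν.rowLen k)) e₀ then 1 else 0) ≤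
          e₀ - max 2 (ν.rowLen k) := by
        rw [← Finset.card_filter]
        calc ((range (ν.rowLen 0)).filter fun j => j ∈ Finset.Ico (max 2 (ν.rowLen k)) e₀).card
            ≤ (Finset.Ico (max 2 (ν.rowLen k)) e₀).card := by
              apply Finset.card_le_card
              intro j hj
              exact (Finset.mem_filter.mp hj).2
          _ = e₀ - max 2 (ν.rowLen k) := by simp
      omega
    have hS := rowsBelow_eq_sum_min ν k
    have hle : rowsBelow ν k ≤ ∑ j ∈ range (ν.rowLen 0), min k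
        (ν.colLen j - ((range (ν.colLen 0)).filter fun y => j < stackEta h t y).card) +
        ∑ j ∈ range (ν.rowLen 0), ε j := by
      rw [hS, ← Finset.sum_add_distrib]
      apply Finset.sum_le_sum
      intro j hj
      exact hpt j (Finset.mem_range.mp hj)
    omega

end Tests

end Crest.Agent.Saxl
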