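import Crest.Agent.Lib.Saxl.Glue
import Crest.Prelude.Def_SpechtModule

/-!
# Step 2 for the staircase (row 195, helper86)

If every irreducible with a fixed vector of a colouring with at most four colours occurs in the
square of the two-column Specht module, then every irreducible with a fixed vector of a colouring
which has at most four colours on each block of sizes `2 (m - 1 - 2 i) + 1` occurs in the square of
the staircase.
-/

set_option autoImplicit false

open scoped BigOperators
open Equiv

namespace Crest.Agent.Saxl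

/-- The input from the block computation (`FourRows`). -/
def Block4 : Prop :=
  ∀ (x : ℕ) (A : Type) [Fintype A] [DecidableEq A], Fintype.card A = 2 * x + 1 →
    ∀ c : A → ℕ, (Finset.univ.image c).card ≤ 4 →
    ∀ (V : Type) [AddCommGroup V] [Module ℂ V] [FiniteDimensional ℂ V]
      (ρ : Representation ℂ (Perm A) V), ρ.IsIrreducible → HasFix ρ c → Occurs ρ (col2 x) (col2 x)

variable {S : Type} [Fintype S] [DecidableEq S]

theorem posSep_two (k : ℕ) : PosSep (fun i : Fin k => 2 * (i : ℕ)) := by
  intro i j e e' he he' h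
  simp only at h
  refine ⟨Fin.ext (by omega), by omega⟩

theorem isUnion_staircase (m : ℕ) :
    IsUnion (fun i : Fin ((m + 1) / 2) => m - 1 - 2 * (i : ℕ)) (fun i => 2 * (i : ℕ))
      (Crest.AlgebraR.Specht.staircaseShape m) := by
  rintro ⟨a, b⟩
  simp only [Crest.AlgebraR.Specht.staircaseShape, Finset.mem_filter, Finset.mem_product,
    Finset.mem_range, mem_col2]
  constructor
  · rintro ⟨_, h⟩
    refine ⟨⟨b / 2, by omega⟩, b % 2, ?_, by simp only; omega⟩
    simp only
    omega
  · rintro ⟨i, e, h1, h2⟩
    have hi := i.2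
    omega

/-- **Step 2.** -/
theorem step2 (hb : Block4) (m : ℕ) (B : S → Fin ((m + 1) / 2))
    (hcard : ∀ i, Fintype.card (Blk B i) = 2 * (m - 1 - 2 * (i : ℕ)) + 1)
    (c : S → ℕ) (hcB : ∀ s s', c s = c s' → B s = B s')
    (hc4 : ∀ i, ((Finset.univ : Finset (Blk B i)).image fun a => c a.1).card ≤ 4)
    {V : Type*} [AddCommGroup V] [Module ℂ V] {ρ : Representation ℂ (Perm S) V}
    (hfix : HasFix ρ c) :
    Occurs ρ (Crest.AlgebraR.Specht.staircaseShape m) (Crest.AlgebraR.Specht.staircaseShape m) := by
  refine occurs_of_blocks (fun i : Fin ((m + 1) / 2) => m - 1 - 2 * (i : ℕ)) ?_ B hcard c hcB ?_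
    (fun i => 2 * (i : ℕ)) _ (posSep_two _) (isUnion_staircase m) hfix
  · intro a b hab
    have ha := a.2
    have hb := b.2
    have : (a : ℕ) ≠ b := fun h => hab (Fin.ext h)
    omega
  · intro i
    apply sees_of_occurs
    intro V _ _ _ ρ hρ hf
    exact hb _ (Blk B i) (hcard i) _ (hc4 i) V ρ hρ hf

end Crest.Agent.Saxl
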