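import Crest.Agent.Lib.Saxl.StackTest
import Crest.Agent.Lib.Saxl.LevelExtra
import Crest.Agent.Lib.Saxl.FamilyParts

/-!
# A kernel check of a level of the family (row 195, S0298, helper86)

`levelCheck` tests every cell `(p, q)` (`p`, `q` the lengths of the first two columns of `ν`).  A cell
is a node of a small search tree: the rows `0 … j-1` of `ν` are known (their partial sums are `pre`),
`v ≤ ν_j ≤ u`.  All tests are monotone in the partial sums of `ν`, so they are made on the flat lower
envelope.  If no test passes, the tree branches on `ν_j = v` or `ν_j ≥ v + 1`.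
-/

set_option autoImplicit false

open scoped BigOperators
open Equiv

namespace Crest.Agent.Saxl.Table

open Family

/-! ### Loops -/

/-- `t b k` for `b` in the list, `k = k₀, k₀ + 1, …`, as long as `k ≤ lim`. -/
def allK (lim : ℕ) (t : ℕ → ℕ → Bool) : List ℕ → ℕ → Bool
  | [], _ => true
  | b :: bs, k => Nat.blt lim k || (t b k && allK lim t bs (k + 1))

theorem allK_spec {lim : ℕ} {t : ℕ → ℕ → Bool} :
    ∀ {Bs : List ℕ} {k₀ : ℕ}, allK lim t Bs k₀ = true → ∀ i (hi : i < Bs.length), k₀ + i ≤ lim →
      t Bs[i] (k₀ + i) = true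
  | [], _, _, _, hi, _ => absurd hi (Nat.not_lt_zero _)
  | b :: bs, k₀, h, i, hi, hk => by
    simp only [allK, Bool.or_eq_true, Bool.and_eq_true, Nat.blt_eq] at h
    rcases h with h | ⟨h1, h2⟩
    · omega
    · cases i with
      | zero => simpa using h1
      | succ i =>
        have := allK_spec h2 i (by simpa using hi) (by omega)
        simp only [List.getElem_cons_succ]
        rwa [show k₀ + (i + 1) = k₀ + 1 + i by omega]

/-- `t x` for `x = a, a + 1, …` (`m` values). -/
def allFrom (t : ℕ → Bool) : ℕ → ℕ → Bool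
  | 0, _ => true
  | m + 1, a => t a && allFrom t m (a + 1)

theorem allFrom_spec {t : ℕ → Bool} : ∀ {m a : ℕ}, allFrom t m a = true → ∀ x, a ≤ x → x < a + m →
    t x = true
  | 0, _, _, _, h1, h2 => by omega
  | m + 1, a, h, x, h1, h2 => by
    simp only [allFrom, Bool.and_eq_true] at h
    by_cases hx : x = a
    · rw [hx]
      exact h.1
    · exact allFrom_spec h.2 x (by omega) (by omega)

/-- The majorant given by a list: `B k` is the entry number `k`, counted from one. -/
def Bf (Bs : List ℕ) (k : ℕ) : ℕ := Bs.getD (k - 1) 0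

theorem allK_Bf {lim : ℕ} {t : ℕ → ℕ → Bool} {Bs : List ℕ} (h : allK lim t Bs 1 = true) {k : ℕ}
    (h1 : 1 ≤ k) (h2 : k ≤ Bs.length) (h3 : k ≤ lim) : t (Bf Bs k) k = true := by
  have h4 := allK_spec h (k - 1) (by omega) (by omega)
  rw [show 1 + (k - 1) = k by omega] at h4
  have h5 : Bf Bs k = Bs[k - 1]'(by omega) := by
    simp only [Bf]
    rw [List.getD_eq_getElem _ _ (by omega)]
  rw [h5]
  exact h4

/-! ### The nodes of the search, and the envelope -/

/-- A node of the search: the numbers of the cell, and what is known of the rows. -/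
structure Nd where
  n : ℕ
  p : ℕ
  q : ℕ
  pre : List ℕ
  sum : ℕ
  v : ℕ
  u : ℕ

/-- The lower envelope of the partial sums at a node. -/
def envNd (E : Nd) (k : ℕ) : ℕ :=
  if E.q < k then (if k ≤ E.p then E.n - E.p + k else E.n)
  else if k ≤ E.pre.length then E.pre.getD (k - 1) 0
  else
    E.sum + E.v + (k - (E.pre.length + 1)) *
        ((E.n - E.p + E.q - (E.sum + E.v)) / (E.q - (E.pre.length + 1))) +
      min (k - (E.pre.length + 1)) ((E.n - E.p + E.q - (E.sum + E.v)) % (E.q - (E.pre.length + 1)))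

/-- The lower bounds of the rows at a node. -/
def lbNd (E : Nd) (k : ℕ) : ℕ :=
  if E.p ≤ k then 0 else if E.q ≤ k then 1
  else if k < E.pre.length then E.pre.getD k 0 - (if k = 0 then 0 else E.pre.getD (k - 1) 0)
  else if k = E.pre.length then max E.v 2
  else max 2 ((E.n - E.p + E.q - E.sum - (k - E.pre.length) * E.u + (E.q - k) - 1) / (E.q - k))

/-- `ν` is at the node. -/
structure Match (E : Nd) (ν : YoungDiagram) : Prop where
  hn : ν.card = E.n
  hpn : E.p ≤ E.n
  hp : ν.colLen 0 = E.p
  hq : ν.colLen 1 = E.q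
  hj : E.pre.length < E.q
  hpre : ∀ i, i < E.pre.length → rowsBelow ν (i + 1) = E.pre.getD i 0
  hsum : E.sum = rowsBelow ν E.pre.length
  hv : E.v ≤ ν.rowLen E.pre.length
  hu : ν.rowLen E.pre.length ≤ E.u

section Env

variable {E : Nd} {ν : YoungDiagram}

theorem Match.S_q (H : Match E ν) : rowsBelow ν E.q = E.n - E.p + E.q := by
  have h1 := rowsBelow_colLen_one ν
  rw [H.hn, H.hp, H.hq] at h1
  have h2 : ν.colLen 1 ≤ ν.colLen 0 := ν.colLen_anti 0 1 (by omega)
  rw [H.hp, H.hq] at h2
  have := H.hpn
  omega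

theorem Match.env_le (H : Match E ν) {k : ℕ} (hk : 1 ≤ k) : envNd E k ≤ rowsBelow ν k := by
  unfold envNd
  have hSq := H.S_q
  have hpn := H.hpn
  split_ifs with h1 h2 h3
  · have h4 := card_le_rowsBelow_add ν (j := k) (by rw [H.hq]; omega)
    rw [H.hn, H.hp] at h4
    omega
  · have h4 := card_le_rowsBelow_add ν (j := k) (by rw [H.hq]; omega)
    rw [H.hn, H.hp] at h4
    omega
  · have h4 := H.hpre (k - 1) (by omega)
    rw [show k - 1 + 1 = k by omega] at h4
    omega
  · have hj := H.hj
    have hs1 : rowsBelow ν (E.pre.length + 1) = E.sum + ν.rowLen E.pre.length := by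
      rw [rowsBelow_succ, H.hsum]
    have hv := H.hv
    have hmono : rowsBelow ν (E.pre.length + 1) ≤ rowsBelow ν E.q := rowsBelow_mono ν (by omega)
    set X := E.sum + E.v with hX
    set R := E.n - E.p + E.q - X with hR
    set m := E.q - (E.pre.length + 1) with hm
    set d := k - (E.pre.length + 1) with hd
    set f := R / m with hf
    set r := R % m with hr
    have hdiv : m * f + r = R := Nat.div_add_mod _ _
    refine rowsBelow_ge_of_line ν (i := E.pre.length + 1) (q := E.q) (v := f) (by omega) ?_ ?_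
    · have e1 : d * (f + 1) = d * f + d := by ring
      have e2 : k - (E.pre.length + 1) = d := rfl
      rw [e2, e1]
      have := Nat.min_le_left d r
      omega
    · have e1 : m * f = d * f + (E.q - k) * f := by
        rw [← Nat.add_mul]
        congr 1
        omega
      have := Nat.min_le_right d r
      omega

theorem Match.rows_ge (H : Match E ν) {k : ℕ} (hk : k < E.q) : 2 ≤ ν.rowLen k := by
  have h3 : (k, 1) ∈ ν := YoungDiagram.mem_iff_lt_colLen.mpr (by rw [H.hq]; exact hk)
  have := YoungDiagram.mem_iff_lt_rowLen.mp h3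
  omega

theorem Match.lb_le (H : Match E ν) (k : ℕ) : lbNd E k ≤ ν.rowLen k := by
  have hqp : E.q ≤ E.p := by
    have h2 : ν.colLen 1 ≤ ν.colLen 0 := ν.colLen_anti 0 1 (by omega)
    rwa [H.hp, H.hq] at h2
  unfold lbNd
  split_ifs with h1 h2 h3 h4 h5
  · exact Nat.zero_le _
  · have h3 : (k, 0) ∈ ν := YoungDiagram.mem_iff_lt_colLen.mpr (by rw [H.hp]; omega)
    have := YoungDiagram.mem_iff_lt_rowLen.mp h3
    omega
  · subst h4
    have h5 := H.hpre 0 h3
    rw [rowsBelow_one] at h5
    omega
  · have h5' := H.hpre k h3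
    have h6 := H.hpre (k - 1) (by omega)
    rw [show k - 1 + 1 = k by omega] at h6
    have h7 : rowsBelow ν (k + 1) = rowsBelow ν k + ν.rowLen k := rowsBelow_succ ν k
    omega
  · subst h5
    have h7 := H.hv
    have h8 := H.rows_ge (k := E.pre.length) (by omega)
    exact max_le h7 h8
  · refine max_le (H.rows_ge (by omega)) ?_
    have hjk : E.pre.length < k := by omega
    have h6 := rowsBelow_add_le ν E.pre.length (k - E.pre.length)
    rw [show E.pre.length + (k - E.pre.length) = k by omega] at h6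
    have h7 := rowsBelow_add_le ν k (E.q - k)
    rw [show k + (E.q - k) = E.q by omega, H.S_q] at h7
    have h8 : (k - E.pre.length) * ν.rowLen E.pre.length ≤ (k - E.pre.length) * E.u :=
      Nat.mul_le_mul_left _ H.hu
    rw [← H.hsum] at h6
    have hpos : 0 < E.q - k := by omega
    have h9 : E.n - E.p + E.q - E.sum - (k - E.pre.length) * E.u + (E.q - k) - 1 <
        (ν.rowLen k + 1) * (E.q - k) := by
      rw [Nat.add_mul, Nat.one_mul, Nat.mul_comm (ν.rowLen k)]
      omega
    have := (Nat.div_lt_iff_lt_mul hpos).mpr h9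
    omega

end Env

/-! ### The tests -/

/-- Four horizontal strips. -/
def longT (c : ℕ) (S : ℕ → ℕ) : Bool :=
  Nat.ble c (S 1) && Nat.ble (c + (c - 1)) (S 2) && Nat.ble (c + (c - 1) + (c - 2)) (S 3) &&
    Nat.ble (c + (c - 1) + (c - 2) + (c - 3)) (S 4)

/-- The mixed rule. -/
def mixT (c p : ℕ) (S : ℕ → ℕ) : Bool :=
  Nat.ble (c - 2 + (c - 3)) p && Nat.ble (c + (1 - (p - (c - 2 + (c - 3))))) (S 1) &&
    Nat.ble (c + (c - 1) + (2 - (p - (c - 2 + (c - 3))))) (S 2)

/-- One hook. -/
def oneT (c : ℕ) (S : ℕ → ℕ) : Bool :=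
  Nat.ble c (S 1) && Nat.ble (c + (c - 1)) (S 2)

/-- A rule: the data of a chain test. `Bs` is the list of the partial sums of the sorted parts off the
placed doubles. -/
inductive Rule
  /-- no placed double -/
  | dom (Bs : List ℕ)
  /-- one placed double `dbl h` at position `i`, placement lemma -/
  | s1 (i h : ℕ) (Bs : List ℕ)
  /-- one placed double, placement lemma with `b ≥ 2` -/
  | s2 (i h : ℕ) (Bs : List ℕ)
  /-- one placed double, with rows `a, b` -/
  | ab (i h a b : ℕ) (Bs : List ℕ)
  /-- the hook stack -/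
  | st (idx hs : List ℕ) (e₀ : ℕ) (Bs : List ℕ)
  /-- the general chain `η₁ ≤ η₂ ≤ …` (the rows of each `ηᵢ`), tested at the leaves only -/
  | eta (idx hs : List ℕ) (etas : List (List ℕ)) (Bs : List ℕ)

/-- The test of a rule at a node. -/
def ruleT (S lb : ℕ → ℕ) (p q Y : ℕ) : Rule → Bool
  | Rule.dom Bs => Nat.ble p Bs.length && allK q (fun b k => Nat.ble b (S k)) Bs 1
  | Rule.s1 _ h Bs =>
    Nat.ble (h + 1) Y && Nat.ble (2 * h + 1) (S 2) && Nat.ble p (Bs.length + 1) &&
      Nat.ble q Bs.length &&
      allK q (fun b k => Nat.ble (b + 1) (S k) &&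
        (Nat.blt q (k + 2) || Nat.ble (b + 2 * h + 1) (S (k + 2)))) Bs 1
  | Rule.s2 _ h Bs =>
    Nat.ble 2 q && Nat.blt q p && Nat.ble (h + 1) Y && Nat.ble (2 * h + 1) (S 2) &&
      Nat.ble p (Bs.length + 2) &&
      allK (q - 1) (fun b k => Nat.ble (b + 1) (S k) && Nat.ble (b + 2 * h + 1) (S (k + 2))) Bs 1
  | Rule.ab _ _ a b Bs =>
    Nat.ble a (lb 0) && Nat.ble b (lb 1) &&
      allK Bs.length (fun x k => Nat.ble x (S k) && Nat.ble (x + a) (S (k + 1)) &&
        Nat.ble (x + a + b) (S (k + 2)) && Nat.ble (x + b) (S k + lb (k + 1))) Bs 1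
  | Rule.st idx _ e₀ Bs =>
    Nat.ble (2 * idx.length) q && Nat.ble e₀ Y &&
      allK Bs.length (fun x k =>
        if Nat.blt k q then
          Nat.ble (x + (min k p - min k (p - 2 * idx.length)) +
            (min k q - min k (q - 2 * idx.length))) (S k) &&
          Nat.ble (x + (min k p - min k (p - 2 * idx.length)) +
            (min k q - min k (q - 2 * idx.length)) + e₀) (S (k + 1))
        else
          Nat.ble (x + (min k p - min k (p - 2 * idx.length)) +
            (min k q - min k (q - 2 * idx.length)) + (e₀ - 2)) (S k)) Bs 1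
  | Rule.eta _ _ _ _ => false

/-- The sum of `f` over the blocks off the positions in `idx`. -/
def offSum (idx : List ℕ) (f : BK → ℕ) : List BK → ℕ → ℕ
  | [], _ => 0
  | K :: l, o => (if idx.contains o then 0 else f K) + offSum idx f l (o + 1)

/-- The list `Bs` majorises the sums of `k` parts off `idx`. -/
def validB (idx : List ℕ) (L : List BK) : List ℕ → ℕ → ℕ → Bool
  | [], _, _ => true
  | B :: bs, prev, k =>
    Nat.ble (k * (B - prev) + offSum idx (exK (B - prev)) L 0) B && validB idx L bs B (k + 1)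

theorem offSum_eq (idx : List ℕ) (f : BK → ℕ) : ∀ (L : List BK) (o : ℕ),
    ∑ i : Fin L.length, (if idx.contains (i.1 + o) then 0 else f L[i.1]) = offSum idx f L o
  | [], _ => by simp [offSum]
  | K :: l, o => by
    simp only [offSum]
    rw [← offSum_eq idx f l (o + 1)]
    have := Fin.sum_univ_succ (n := l.length) (fun i : Fin (l.length + 1) =>
      (if idx.contains (i.1 + o) then 0 else f ((K :: l)[i.1]'(by simpa using i.2))))
    simp only [List.length_cons]
    rw [this]
    congr 1
    · simp
    · apply Finset.sum_congr rfl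
      intro i _
      simp only [Fin.val_succ, List.getElem_cons_succ]
      rw [show i.1 + 1 + o = i.1 + (o + 1) by omega]

theorem validB_spec {idx : List ℕ} {L : List BK} : ∀ {Bs : List ℕ} {prev k₀ : ℕ},
    validB idx L Bs prev k₀ = true → ∀ i (hi : i < Bs.length), ∃ b,
      (k₀ + i) * b + offSum idx (exK b) L 0 ≤ Bs[i]
  | [], _, _, _, i, hi => absurd hi (Nat.not_lt_zero _)
  | B :: bs, prev, k₀, h, i, hi => by
    simp only [validB, Bool.and_eq_true, Nat.ble_eq] at h
    cases i with
    | zero => exact ⟨B - prev, by simpa using h.1⟩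
    | succ i =>
      obtain ⟨b, hb⟩ := validB_spec h.2 i (by simpa using hi)
      refine ⟨b, ?_⟩
      rw [show k₀ + (i + 1) = k₀ + 1 + i by omega]
      simpa using hb

/-- `L[i] = dbl h`. -/
def isDbl : List BK → ℕ → ℕ → Bool
  | BK.dbl d :: _, 0, h => Nat.beq d h
  | _ :: l, i + 1, h => isDbl l i h
  | _, _, _ => false

theorem isDbl_spec : ∀ {L : List BK} {i h : ℕ}, isDbl L i h = true → ∃ hi : i < L.length,
    L[i] = BK.dbl h
  | [], _, _, H => by simp [isDbl] at H
  | BK.single _ :: l, 0, _, H => by simp [isDbl] at H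
  | BK.pair _ :: l, 0, _, H => by simp [isDbl] at H
  | BK.dbl d :: l, 0, h, H => by
    simp only [isDbl, Nat.beq_eq] at H
    subst H
    exact ⟨by simp, rfl⟩
  | K :: l, i + 1, h, H => by
    have H' : isDbl l i h = true := by
      rcases K with x | x | x <;> exact H
    obtain ⟨hi, h2⟩ := isDbl_spec H'
    exact ⟨by simpa using hi, by simpa using h2⟩

/-- The doubles of a stack. -/
def stackChk (L : List BK) : List ℕ → List ℕ → Bool
  | [], [] => true
  | i :: is, h :: hs => isDbl L i h && Nat.ble 2 h && stackChk L is hs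
  | _, _ => false

theorem stackChk_spec {L : List BK} : ∀ {idx hs : List ℕ}, stackChk L idx hs = true →
    idx.length = hs.length ∧ ∀ s (h1 : s < idx.length) (h2 : s < hs.length),
      isDbl L idx[s] hs[s] = true ∧ 2 ≤ hs[s]
  | [], [], _ => ⟨rfl, fun s h1 => absurd h1 (Nat.not_lt_zero _)⟩
  | [], _ :: _, H => by simp [stackChk] at H
  | _ :: _, [], H => by simp [stackChk] at H
  | i :: is, h :: hs, H => by
    simp only [stackChk, Bool.and_eq_true, Nat.ble_eq] at H
    obtain ⟨h3, h4⟩ := stackChk_spec H.2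
    refine ⟨by simp [h3], ?_⟩
    intro s h1 h2
    cases s with
    | zero => exact H.1
    | succ s => exact h4 s (by simpa using h1) (by simpa using h2)

theorem sum_range_getD (hs : List ℕ) :
    ∑ s ∈ Finset.range hs.length, 2 * hs.getD s 0 = (hs.map (2 * ·)).sum := by
  induction hs with
  | nil => simp
  | cons h hs ih =>
    rw [List.length_cons, Finset.sum_range_succ']
    simp only [List.getD_cons_succ, List.getD_cons_zero, List.map_cons, List.sum_cons]
    rw [ih]
    omega

/-- The doubles of a chain. -/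
def dblChk (L : List BK) : List ℕ → List ℕ → Bool
  | [], [] => true
  | i :: is, h :: hs => isDbl L i h && dblChk L is hs
  | _, _ => false

theorem dblChk_spec {L : List BK} : ∀ {idx hs : List ℕ}, dblChk L idx hs = true →
    idx.length = hs.length ∧ ∀ s (h1 : s < idx.length) (h2 : s < hs.length),
      isDbl L idx[s] hs[s] = true
  | [], [], _ => ⟨rfl, fun s h1 => absurd h1 (Nat.not_lt_zero _)⟩
  | [], _ :: _, H => by simp [dblChk] at H
  | _ :: _, [], H => by simp [dblChk] at H
  | i :: is, h :: hs, H => by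
    simp only [dblChk, Bool.and_eq_true] at H
    obtain ⟨h3, h4⟩ := dblChk_spec H.2
    refine ⟨by simp [h3], ?_⟩
    intro s h1 h2
    cases s with
    | zero => exact H.1
    | succ s => exact h4 s (by simpa using h1) (by simpa using h2)

/-- A finite sum, for the kernel. -/
def sumTo (f : ℕ → ℕ) : ℕ → ℕ
  | 0 => 0
  | m + 1 => sumTo f m + f m

theorem sumTo_eq (f : ℕ → ℕ) (m : ℕ) : sumTo f m = ∑ i ∈ Finset.range m, f i := by
  induction m with
  | zero => simp [sumTo]
  | succ m ih => rw [sumTo, ih, Finset.sum_range_succ]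

/-- The conditions between two consecutive `η` of a chain (lists of rows). -/
def stepChk (M : ℕ) (a b : List ℕ) (h : ℕ) : Bool :=
  Nat.ble a.length M && Nat.ble b.length M &&
    allFrom (fun y => Nat.ble (a.getD y 0) (b.getD y 0) && Nat.ble (b.getD (y + 1) 0) (b.getD y 0) &&
      Nat.ble (b.getD (y + 2) 0) (a.getD y 0)) M 0 &&
    Nat.beq (sumTo (fun y => b.getD y 0 - a.getD y 0) M) (2 * h) &&
    Nat.beq (sumTo (fun y => (b.getD y 0 - a.getD y 0) * y) M % 2) 0

/-- The conditions of a chain. -/
def etaChk (M : ℕ) : List ℕ → List ℕ → List (List ℕ) → Bool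
  | _, [], [] => true
  | a, h :: hs, b :: bs => stepChk M a b h && etaChk M b hs bs
  | _, _, _ => false

/-- The validity of the data of a rule. -/
def ruleV (L : List BK) : Rule → Bool
  | Rule.dom Bs => Nat.beq Bs.length (lenL L) && validB [] L Bs 0 1
  | Rule.s1 i h Bs =>
    isDbl L i h && Nat.ble 1 h && Nat.beq (Bs.length + 1) (lenL L) && validB [i] L Bs 0 1
  | Rule.s2 i h Bs =>
    isDbl L i h && Nat.ble 2 h && Nat.beq (Bs.length + 1) (lenL L) && validB [i] L Bs 0 1
  | Rule.ab i h a b Bs =>
    isDbl L i h && Nat.beq (a % 2) 0 && Nat.beq (b % 2) 0 && Nat.ble b a && Nat.beq (a + b) (2 * h) &&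
      Nat.beq (Bs.length + 1) (lenL L) && validB [i] L Bs 0 1
  | Rule.st idx hs e₀ Bs =>
    stackChk L idx hs && Nat.ble 1 idx.length && decide idx.Nodup &&
      Nat.beq (e₀ + 4 * idx.length) ((hs.map (2 * ·)).sum + 2) &&
      Nat.ble (offSum idx lenK L 0) Bs.length && validB idx L Bs 0 1
  | Rule.eta idx hs etas Bs =>
    dblChk L idx hs && decide idx.Nodup && etaChk (2 * idx.length) [] hs etas &&
      Nat.ble (offSum idx lenK L 0) Bs.length && validB idx L Bs 0 1

section Sound

variable {L : List BK}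

theorem sum_T_le_Bf {idx : List ℕ} {Bs : List ℕ} (hV : validB idx L Bs 0 1 = true)
    (hLen : offSum idx lenK L 0 ≤ Bs.length)
    (T : Finset (Σ i, Fin (psL L i).length)) (hT : ∀ p ∈ T, idx.contains p.1.1 = false) :
    ∑ p ∈ T, (psL L p.1)[p.2.1] ≤ Bf Bs T.card ∧ T.card ≤ Bs.length := by
  classical
  set Q : Fin L.length → Prop := fun i => idx.contains i.1 = false with hQ
  have hcard : T.card ≤ Bs.length := by
    refine le_trans ?_ hLen
    rw [← offSum_eq idx lenK L 0]
    have h1 : T ⊆ Finset.univ.filter (fun p : (Σ i, Fin (psL L i).length) => Q p.1) := by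
      intro p hp
      exact Finset.mem_filter.mpr ⟨Finset.mem_univ _, hT p hp⟩
    refine (Finset.card_le_card h1).trans ?_
    rw [card_filter_sigma (ps := psL L) Q, Finset.sum_filter]
    apply le_of_eq
    apply Finset.sum_congr rfl
    intro i _
    have e : (psL L i).length = lenK L[i.1] := rfl
    simp only [hQ, add_zero, e]
    cases idx.contains i.1 <;> simp
  refine ⟨?_, hcard⟩
  by_cases hk : T.card = 0
  · rw [Finset.card_eq_zero.mp hk]
    simp
  · obtain ⟨b, hb⟩ := validB_spec hV (T.card - 1) (by omega)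
    have h1 := sum_T_le_line b Q T hT
    have h2 : ∑ i ∈ Finset.univ.filter Q, exK b L[i.1] = offSum idx (exK b) L 0 := by
      rw [← offSum_eq idx (exK b) L 0, Finset.sum_filter]
      apply Finset.sum_congr rfl
      intro i _
      simp only [hQ, add_zero]
      cases idx.contains i.1 <;> simp
    rw [h2] at h1
    rw [show 1 + (T.card - 1) = T.card by omega] at hb
    have h3 : Bf Bs T.card = Bs[T.card - 1]'(by omega) := by
      simp only [Bf]
      rw [List.getD_eq_getElem _ _ (by omega)]
    rw [h3]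
    omega

theorem size_le_szL (i : Fin L.length) : (L[i.1]).size ≤ szL L := by
  have h1 : szL L = ∑ i : Fin L.length, (L[i.1]).size :=
    (Fin.sum_univ_fun_getElem L BK.size).symm
  rw [h1]
  exact Finset.single_le_sum (f := fun i : Fin L.length => (L[i.1]).size)
    (fun _ _ => Nat.zero_le _) (Finset.mem_univ i)

/-- The list of a rule with one placed double. -/
theorem one_data {i h : ℕ} {Bs : List ℕ} (hd : isDbl L i h = true)
    (hlen : Bs.length + 1 = lenL L) (hV : validB [i] L Bs 0 1 = true) (hnd : ∀ K ∈ L, Nondeg K) :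
    ∃ i₀ : Fin L.length, L[i₀.1] = BK.dbl h ∧
      (∀ T : Finset (Σ i, Fin (psL L i).length), (∀ p ∈ T, p.1 ≠ i₀) →
        ∑ p ∈ T, (psL L p.1)[p.2.1] ≤ Bf Bs T.card ∧ T.card ≤ Bs.length ∧
        ∑ p ∈ T, (psL L p.1)[p.2.1] + (Bs.length - T.card) + 2 * h ≤ szL L) := by
  obtain ⟨hi, hL⟩ := isDbl_spec hd
  refine ⟨⟨i, hi⟩, hL, ?_⟩
  intro T hT
  have hc : ∀ p ∈ T, [i].contains p.1.1 = false := by
    intro p hp
    have h1 := hT p hp
    have h2 : p.1.1 ≠ i := fun h3 => h1 (Fin.ext h3)
    simp [h2]
  have hoff : offSum [i] lenK L 0 ≤ Bs.length := by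
    rw [← offSum_eq [i] lenK L 0]
    have h1 := sum_erase_getElem (l := L) lenK ⟨i, hi⟩
    have h2 : ∑ x : Fin L.length, (if [i].contains (x.1 + 0) then 0 else lenK L[x.1]) =
        ∑ x ∈ Finset.univ.filter (fun x : Fin L.length => x ≠ ⟨i, hi⟩), lenK L[x.1] := by
      rw [Finset.sum_filter]
      apply Finset.sum_congr rfl
      intro x _
      by_cases hx : x.1 = i
      · have : x = ⟨i, hi⟩ := Fin.ext hx
        simp [hx, this]
      · have : x ≠ ⟨i, hi⟩ := fun h3 => hx (congrArg Fin.val h3)
        simp [hx, this]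
    rw [h2, h1]
    simp only [hL]
    have h3 : lenK (BK.dbl h) = 1 := rfl
    have h4 : (L.map lenK).sum = lenL L := rfl
    omega
  obtain ⟨h1, h2⟩ := sum_T_le_Bf hV hoff T hc
  refine ⟨h1, h2, ?_⟩
  have h3 := sum_T_add_le_off hnd ⟨i, hi⟩ (t := Bs.length)
    (by simp only [hL]; have h5 : lenK (BK.dbl h) = 1 := rfl; omega) T hT
  have h4 := size_le_szL (L := L) ⟨i, hi⟩
  simp only [hL, BK.size] at h3 h4
  omega

/-- **The rules are sound.** -/
theorem rule_sound (hnd : ∀ K ∈ L, Nondeg K) {ν : YoungDiagram} {S lb : ℕ → ℕ} {p q Y : ℕ} {r : Rule}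
    (hS : ∀ k, 1 ≤ k → S k ≤ rowsBelow ν k) (hlb : ∀ k, lb k ≤ ν.rowLen k) (hY : Y ≤ ν.rowLen 0)
    (hp : ν.colLen 0 = p) (hq : ν.colLen 1 = q) (hn : ν.card = szL L)
    (hV : ruleV L r = true) (hT : ruleT S lb p q Y r = true) : ChainOK L (psL L) ν := by
  have hqp : q ≤ p := by
    rw [← hp, ← hq]
    exact ν.colLen_anti 0 1 (by omega)
  rcases r with Bs | ⟨i, h, Bs⟩ | ⟨i, h, Bs⟩ | ⟨i, h, a, b, Bs⟩ | ⟨idx, hs, e₀, Bs⟩ | ⟨idx, hs, etas, Bs⟩
  · -- no placed double
    simp only [ruleV, Bool.and_eq_true, Nat.beq_eq] at hV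
    simp only [ruleT, Bool.and_eq_true, Nat.ble_eq] at hT
    obtain ⟨hlen, hV⟩ := hV
    obtain ⟨h1, h2⟩ := hT
    have hoff : offSum [] lenK L 0 ≤ Bs.length := by
      rw [← offSum_eq [] lenK L 0, hlen]
      simp only [List.contains_nil, if_false]
      exact (Fin.sum_univ_fun_getElem L lenK).le
    refine chainOK_of_domOK (Bf Bs) (M := Bs.length) ?_ ?_ ?_
    · intro T
      exact (sum_T_le_Bf hV hoff T (by simp)).1
    · intro T
      have h3 := sum_T_add_le_all hnd (t := Bs.length) (by omega) T
      refine ⟨(sum_T_le_Bf hV hoff T (by simp)).2, ?_⟩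
      rw [hn]
      exact h3
    · refine ⟨by omega, ?_⟩
      intro k hk1 hk2
      have h3 := allK_Bf h2 hk1 (by omega) (by omega)
      simp only [Nat.ble_eq] at h3
      exact h3.trans (hS k hk1)
  · -- the placement lemma
    simp only [ruleV, Bool.and_eq_true, Nat.beq_eq, Nat.ble_eq] at hV
    simp only [ruleT, Bool.and_eq_true, Nat.ble_eq] at hT
    obtain ⟨⟨⟨hd, hh⟩, hlen⟩, hV⟩ := hV
    obtain ⟨⟨⟨⟨h1, h2⟩, h3⟩, h4⟩, h5⟩ := hT
    obtain ⟨i₀, hL, hdat⟩ := one_data hd hlen hV hnd
    refine chainOK_of_simple i₀ hL hh (Bf Bs) (M := Bs.length) (fun T hT => (hdat T hT).1)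
      (fun T hT => ⟨(hdat T hT).2.1, by rw [hn]; exact (hdat T hT).2.2⟩) ?_
    refine ⟨by omega, (h2.trans (hS 2 (by omega))), by omega, by omega, ?_, ?_⟩
    · intro k hk1 hk2
      have h6 := allK_Bf h5 hk1 (by omega) (by omega)
      simp only [Bool.and_eq_true, Nat.ble_eq] at h6
      exact h6.1.trans (hS k hk1)
    · intro k hk1 hk2
      have h6 := allK_Bf h5 hk1 (by omega) (by omega)
      simp only [Bool.and_eq_true, Bool.or_eq_true, Nat.ble_eq, Nat.blt_eq] at h6
      rcases h6.2 with h7 | h7
      · omega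
      · exact h7.trans (hS (k + 2) (by omega))
  · -- the placement lemma with `b ≥ 2`
    simp only [ruleV, Bool.and_eq_true, Nat.beq_eq, Nat.ble_eq] at hV
    simp only [ruleT, Bool.and_eq_true, Nat.ble_eq, Nat.blt_eq] at hT
    obtain ⟨⟨⟨hd, hh⟩, hlen⟩, hV⟩ := hV
    obtain ⟨⟨⟨⟨⟨h1, h2⟩, h3⟩, h4⟩, h5⟩, h6⟩ := hT
    obtain ⟨i₀, hL, hdat⟩ := one_data hd hlen hV hnd
    refine chainOK_of_simple2 i₀ hL hh (Bf Bs) (M := Bs.length) (fun T hT => (hdat T hT).1)
      (fun T hT => ⟨(hdat T hT).2.1, by rw [hn]; exact (hdat T hT).2.2⟩) ?_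
    refine ⟨by omega, by omega, by omega, h4.trans (hS 2 (by omega)), by omega, ?_, ?_⟩
    · intro k hk1 hk2
      have h7 := allK_Bf h6 hk1 (by omega) (by omega)
      simp only [Bool.and_eq_true, Nat.ble_eq] at h7
      exact h7.1.trans (hS k hk1)
    · intro k hk1 hk2
      have h7 := allK_Bf h6 hk1 (by omega) (by omega)
      simp only [Bool.and_eq_true, Nat.ble_eq] at h7
      exact h7.2.trans (hS (k + 2) (by omega))
  · -- the rows `a, b`
    simp only [ruleV, Bool.and_eq_true, Nat.beq_eq, Nat.ble_eq] at hV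
    simp only [ruleT, Bool.and_eq_true, Nat.ble_eq] at hT
    obtain ⟨⟨⟨⟨⟨⟨hd, ha⟩, hb⟩, hba⟩, hab⟩, hlen⟩, hV⟩ := hV
    obtain ⟨⟨h1, h2⟩, h3⟩ := hT
    obtain ⟨i₀, hL, hdat⟩ := one_data hd hlen hV hnd
    refine chainOK_of_placed' i₀ hL hba (Nat.even_iff.mpr ha) (Nat.even_iff.mpr hb) hab
      (h1.trans (hlb 0)) (h2.trans (hlb 1)) ?_
    intro T hT hT1
    obtain ⟨h4, h5, _⟩ := hdat T hT
    have h6 := allK_Bf h3 hT1 h5 h5
    simp only [Bool.and_eq_true, Nat.ble_eq] at h6
    obtain ⟨⟨⟨h7, h8⟩, h9⟩, h10⟩ := h6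
    have s0 := hS T.card hT1
    have s1 := hS (T.card + 1) (by omega)
    have s2 := hS (T.card + 2) (by omega)
    have l1 := hlb (T.card + 1)
    have e1 : rowsBelow ν (T.card + 1) = rowsBelow ν T.card + ν.rowLen T.card := rowsBelow_succ ν _
    have e2 : rowsBelow ν (T.card + 2) = rowsBelow ν T.card + ν.rowLen T.card +
        ν.rowLen (T.card + 1) := by
      rw [rowsBelow_succ ν (T.card + 1), rowsBelow_succ ν T.card]
    omega
  · -- the hook stack
    simp only [ruleV, Bool.and_eq_true, Nat.beq_eq, Nat.ble_eq, decide_eq_true_eq] at hV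
    simp only [ruleT, Bool.and_eq_true, Nat.ble_eq] at hT
    obtain ⟨⟨⟨⟨⟨hchk, ht⟩, hnod⟩, he⟩, hoff⟩, hV⟩ := hV
    obtain ⟨⟨h1, h2⟩, h3⟩ := hT
    obtain ⟨hlen, hst⟩ := stackChk_spec hchk
    have hidx : ∀ s (hs' : s < idx.length), idx[s] < L.length := by
      intro s hs'
      exact (isDbl_spec (hst s hs' (by omega)).1).1
    refine chainOK_of_stack ht (fun s => ⟨idx[s.1], hidx s.1 s.2⟩) ?_ (fun s => hs.getD s 0) ?_ ?_
      (by omega) (e₀ := e₀) ?_ (by omega) ?_
    · intro x y hxy
      have h5 : idx[x.1] = idx[y.1] := congrArg Fin.val hxy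
      exact Fin.ext ((List.Nodup.getElem_inj_iff hnod).mp h5)
    · intro s
      have h5 := (isDbl_spec (hst s.1 s.2 (by have := s.2; omega)).1).2
      show L[idx[s.1]]'(hidx s.1 s.2) = BK.dbl (hs.getD s.1 0)
      rw [List.getD_eq_getElem _ _ (by have := s.2; omega)]
      exact h5
    · intro s hs'
      show 2 ≤ hs.getD s 0
      rw [List.getD_eq_getElem _ _ (by omega)]
      exact (hst s hs' (by omega)).2
    · have h5 := sum_range_getD hs
      rw [hlen, h5, ← hlen, he]
    · intro T hT hT1
      have hc : ∀ p ∈ T, idx.contains p.1.1 = false := by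
        intro p hp
        by_contra hcon
        simp only [Bool.not_eq_false, List.contains_iff_mem] at hcon
        obtain ⟨s, hs1, hs2⟩ := List.getElem_of_mem hcon
        exact hT p hp ⟨s, hs1⟩ (Fin.ext hs2.symm)
      obtain ⟨h6, h7⟩ := sum_T_le_Bf hV hoff T hc
      have h8 := allK_Bf h3 hT1 h7 h7
      set k := T.card with hk
      have s0 := hS k hT1
      have s1 := hS (k + 1) (by omega)
      have e1 : rowsBelow ν (k + 1) = rowsBelow ν k + ν.rowLen k := rowsBelow_succ ν _
      rw [hp, hq]
      by_cases hkq : k < q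
      · simp only [hkq, Nat.blt_eq, decide_true, if_true, Bool.and_eq_true, Nat.ble_eq] at h8
        have hk2 : 2 ≤ ν.rowLen k := by
          have h3 : (k, 1) ∈ ν := YoungDiagram.mem_iff_lt_colLen.mpr (by rw [hq]; exact hkq)
          have := YoungDiagram.mem_iff_lt_rowLen.mp h3
          omega
        have : max 2 (ν.rowLen k) = ν.rowLen k := max_eq_right hk2
        rw [this]
        omega
      · have hnq : ¬ (Nat.blt k q = true) := by
          simpa [Nat.blt_eq] using hkq
        beta_reduce at h8
        rw [if_neg hnq] at h8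
        simp only [Nat.ble_eq] at h8
        have hk1 : ν.rowLen k ≤ 1 := rowLen_le_one (by omega)
        have : max 2 (ν.rowLen k) = 2 := max_eq_left (by omega)
        rw [this]
        omega
  · simp [ruleT] at hT

/-! ### The leaves: all the rows are known -/

/-- The rows of a diagram. -/
def rowsL (ν : YoungDiagram) : List ℕ := (List.range (ν.colLen 0)).map ν.rowLen

theorem rowsL_length (ν : YoungDiagram) : (rowsL ν).length = ν.colLen 0 := by
  simp [rowsL]

theorem rowLen_eq_zero {ν : YoungDiagram} {y : ℕ} (h : ν.colLen 0 ≤ y) : ν.rowLen y = 0 := by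
  by_contra h0
  have h1 : (y, 0) ∈ ν := YoungDiagram.mem_iff_lt_rowLen.mpr (by omega)
  have := YoungDiagram.mem_iff_lt_colLen.mp h1
  omega

theorem rowsL_getD (ν : YoungDiagram) (y : ℕ) : (rowsL ν).getD y 0 = ν.rowLen y := by
  by_cases h : y < ν.colLen 0
  · simp [rowsL, List.getD_eq_getElem?_getD, h]
  · rw [rowLen_eq_zero (by omega)]
    simp [rowsL, List.getD_eq_getElem?_getD, h]

theorem rowsL_take_sum (ν : YoungDiagram) (k : ℕ) : ((rowsL ν).take k).sum = rowsBelow ν k := by
  induction k with
  | zero => simp [rowsBelow]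
  | succ k ih =>
    rw [rowsBelow_succ, ← ih, List.take_add_one, List.sum_append]
    congr 1
    by_cases h : k < ν.colLen 0
    · simp [rowsL, h]
    · rw [rowLen_eq_zero (by omega)]
      simp [rowsL, h]

/-- The rows `y` of a list with a row longer than `j`. -/
theorem card_filter_getD (j : ℕ) : ∀ (t : List ℕ) (m : ℕ), t.length ≤ m →
    ((Finset.range m).filter fun y => j < t.getD y 0).card = t.countP (j < ·)
  | [], m, _ => by simp
  | a :: t, m, h => by
    obtain ⟨m, rfl⟩ : ∃ m', m = m' + 1 := ⟨m - 1, by simp at h; omega⟩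
    have h1 := card_filter_getD j t m (by simpa using h)
    rw [Finset.card_filter, Finset.sum_range_succ'] at *
    simp only [List.getD_cons_succ, List.getD_cons_zero, List.countP_cons, decide_eq_true_eq] at *
    rw [h1]

theorem colLen_eq_countP (ν : YoungDiagram) (j : ℕ) : ν.colLen j = (rowsL ν).countP (j < ·) := by
  rw [← card_filter_getD j (rowsL ν) (ν.colLen 0) (by rw [rowsL_length])]
  have h1 : (Finset.range (ν.colLen 0)).filter (fun y => j < (rowsL ν).getD y 0) =
      Finset.range (ν.colLen j) := by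
    ext y
    simp only [Finset.mem_filter, Finset.mem_range, rowsL_getD]
    constructor
    · rintro ⟨_, h⟩
      exact YoungDiagram.mem_iff_lt_colLen.mp (YoungDiagram.mem_iff_lt_rowLen.mpr h)
    · intro h
      refine ⟨lt_of_lt_of_le h (ν.colLen_anti 0 j (by omega)), ?_⟩
      exact YoungDiagram.mem_iff_lt_rowLen.mp (YoungDiagram.mem_iff_lt_colLen.mpr h)
  rw [h1]
  simp

/-- The conjugate, on the list of rows. -/
def conjL (rs : List ℕ) : List ℕ := (List.range (rs.getD 0 0)).map fun j => rs.countP (j < ·)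

theorem rowsL_transpose (ν : YoungDiagram) : rowsL ν.transpose = conjL (rowsL ν) := by
  unfold conjL
  rw [rowsL_getD, rowsL, YoungDiagram.colLen_transpose]
  apply List.map_congr_left
  intro j _
  rw [YoungDiagram.rowLen_transpose, colLen_eq_countP]

/-- `a ≤ b` row by row. -/
def leL : List ℕ → List ℕ → Bool
  | [], _ => true
  | _ :: _, [] => false
  | a :: as, b :: bs => Nat.ble a b && leL as bs

theorem leL_spec : ∀ {a b : List ℕ}, leL a b = true → a.length ≤ b.length ∧ ∀ y, a.getD y 0 ≤ b.getD y 0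
  | [], b, _ => ⟨by simp, by simp⟩
  | _ :: _, [], H => by simp [leL] at H
  | x :: as, z :: bs, H => by
    simp only [leL, Bool.and_eq_true, Nat.ble_eq] at H
    obtain ⟨h1, h2⟩ := leL_spec H.2
    refine ⟨by simpa using h1, ?_⟩
    intro y
    cases y with
    | zero => simpa using H.1
    | succ y => simpa using h2 y

/-- `∑ min k x` over a list. -/
def sumMin (k : ℕ) : List ℕ → ℕ
  | [] => 0
  | x :: t => min k x + sumMin k t

theorem sumMin_range (k : ℕ) (g : ℕ → ℕ) (w : ℕ) :
    sumMin k ((List.range w).map g) = ∑ j ∈ Finset.range w, min k (g j) := by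
  have key : ∀ (t : List ℕ) (t' : List ℕ), sumMin k (t ++ t') = sumMin k t + sumMin k t' := by
    intro t t'
    induction t with
    | nil => simp [sumMin]
    | cons x t ih => simp [sumMin, ih, add_assoc]
  induction w with
  | zero => simp [sumMin]
  | succ w ih =>
    rw [List.range_succ, List.map_append, key, ih, Finset.sum_range_succ]
    simp [sumMin]

/-- The test of a general chain on the rows of the diagram: `top` is the last `η`. -/
def etaT (rs : List ℕ) (etas : List (List ℕ)) (Bs : List ℕ) : Bool :=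
  leL (etas.getLastD []) rs &&
    allK Bs.length (fun x k => Nat.ble x (sumMin k ((List.range (rs.getD 0 0)).map fun j =>
      rs.countP (j < ·) - (etas.getLastD []).countP (j < ·)))) Bs 1

/-- The test of a rule when all the rows are known. -/
def exactT (rs : List ℕ) : Rule → Bool
  | Rule.eta _ _ etas Bs => etaT rs etas Bs
  | r => ruleT (fun k => (rs.take k).sum) (fun k => rs.getD k 0) rs.length (rs.countP (1 < ·))
      (rs.getD 0 0) r

/-- The `i`-th member of a chain. -/
def etaAt : List ℕ → List (List ℕ) → ℕ → List ℕ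
  | a, _, 0 => a
  | _, [], _ + 1 => []
  | _, b :: bs, i + 1 => etaAt b bs i

theorem etaAt_last : ∀ (a : List ℕ) (l : List (List ℕ)), etaAt a l l.length = l.getLastD a
  | _, [] => by simp [etaAt]
  | a, b :: bs => by
    have := etaAt_last b bs
    simp only [List.length_cons, etaAt, this]
    rw [List.getLastD_cons]

theorem etaChk_step {M : ℕ} : ∀ {a : List ℕ} {hs : List ℕ} {etas : List (List ℕ)},
    etaChk M a hs etas = true → hs.length = etas.length ∧
      ∀ i (h1 : i < hs.length), stepChk M (etaAt a etas i) (etaAt a etas (i + 1)) hs[i] = true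
  | _, [], [], _ => ⟨rfl, fun i h1 => absurd h1 (Nat.not_lt_zero _)⟩
  | _, [], _ :: _, H => by simp [etaChk] at H
  | _, _ :: _, [], H => by simp [etaChk] at H
  | a, h :: hs, b :: bs, H => by
    simp only [etaChk, Bool.and_eq_true] at H
    obtain ⟨h3, h4⟩ := etaChk_step H.2
    refine ⟨by simp [h3], ?_⟩
    intro i h1
    cases i with
    | zero =>
      simpa [etaAt] using H.1
    | succ i =>
      have := h4 i (by simpa using h1)
      simpa [etaAt] using this

theorem sum_range_eq_of_vanish (F : ℕ → ℕ) {p M : ℕ} (hp : ∀ y, p ≤ y → F y = 0)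
    (hM : ∀ y, M ≤ y → F y = 0) : ∑ y ∈ Finset.range p, F y = ∑ y ∈ Finset.range M, F y := by
  have h1 : ∑ y ∈ Finset.range p, F y = ∑ y ∈ Finset.range (max p M), F y := by
    apply Finset.sum_subset
    · intro y hy
      simp only [Finset.mem_range] at hy ⊢
      exact lt_of_lt_of_le hy (le_max_left _ _)
    · intro y _ hy
      exact hp y (by simpa using hy)
  have h2 : ∑ y ∈ Finset.range M, F y = ∑ y ∈ Finset.range (max p M), F y := by
    apply Finset.sum_subset
    · intro y hy
      simp only [Finset.mem_range] at hy ⊢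
      exact lt_of_lt_of_le hy (le_max_right _ _)
    · intro y _ hy
      exact hM y (by simpa using hy)
  rw [h1, h2]

theorem getD_eq_zero_of_le {a : List ℕ} {y : ℕ} (h : a.length ≤ y) : a.getD y 0 = 0 := by
  simp [List.getD_eq_getElem?_getD, List.getElem?_eq_none h]

/-- **The general chain.** -/
theorem eta_sound {L : List BK} {μ : YoungDiagram} {idx hs : List ℕ} {etas : List (List ℕ)}
    {Bs : List ℕ} (hV : ruleV L (Rule.eta idx hs etas Bs) = true)
    (hT : etaT (rowsL μ) etas Bs = true) : ChainOK L (psL L) μ := by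
  simp only [ruleV, Bool.and_eq_true, Nat.ble_eq, decide_eq_true_eq] at hV
  obtain ⟨⟨⟨⟨hd, hnod⟩, hchain⟩, hoff⟩, hval⟩ := hV
  simp only [etaT, Bool.and_eq_true] at hT
  obtain ⟨htop, hfin⟩ := hT
  obtain ⟨hlen, hdbl⟩ := dblChk_spec hd
  obtain ⟨hlen2, hstep⟩ := etaChk_step hchain
  set t := idx.length with ht
  have hlet : etas.length = t := by omega
  have hidx : ∀ s (hs' : s < t), idx[s] < L.length := by
    intro s hs'
    exact (isDbl_spec (hdbl s hs' (by omega))).1
  set η : ℕ → ℕ → ℕ := fun i y => (etaAt [] etas i).getD y 0 with hη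
  obtain ⟨htop1, htop2⟩ := leL_spec htop
  have hT0 : η t = fun y => (etas.getLastD []).getD y 0 := by
    funext y
    simp only [hη]
    rw [← hlet, etaAt_last]
  have hS : ∀ i (hi : i < t), stepChk (2 * t) (etaAt [] etas i) (etaAt [] etas (i + 1)) hs[i] = true :=
    fun i hi => hstep i (by omega)
  have hS' : ∀ i (hi : i < t), (etaAt [] etas i).length ≤ 2 * t ∧ (etaAt [] etas (i + 1)).length ≤ 2 * t ∧
      (∀ y, y < 2 * t → η i y ≤ η (i + 1) y ∧ η (i + 1) (y + 1) ≤ η (i + 1) y ∧
        η (i + 1) (y + 2) ≤ η i y) ∧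
      sumTo (fun y => η (i + 1) y - η i y) (2 * t) = 2 * hs[i] ∧
      sumTo (fun y => (η (i + 1) y - η i y) * y) (2 * t) % 2 = 0 := by
    intro i hi
    have h1 := hS i hi
    simp only [stepChk, Bool.and_eq_true, Nat.ble_eq, Nat.beq_eq] at h1
    obtain ⟨⟨⟨⟨h2, h3⟩, h4⟩, h5⟩, h6⟩ := h1
    refine ⟨h2, h3, ?_, h5, h6⟩
    intro y hy
    have h7 := allFrom_spec h4 y (by omega) (by omega)
    simp only [Bool.and_eq_true, Nat.ble_eq] at h7
    exact ⟨h7.1.1, h7.1.2, h7.2⟩
  have hmono : ∀ i (hi : i < t), ∀ y, η i y ≤ η (i + 1) y := by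
    intro i hi y
    obtain ⟨h1, h2, h3, -, -⟩ := hS' i hi
    by_cases hy : y < 2 * t
    · exact (h3 y hy).1
    · have : η i y = 0 := getD_eq_zero_of_le (by omega)
      omega
  have hstack : ∀ i (hi : i < t), ∀ y, η (i + 1) (y + 2) ≤ η i y := by
    intro i hi y
    obtain ⟨h1, h2, h3, -, -⟩ := hS' i hi
    by_cases hy : y < 2 * t
    · exact (h3 y hy).2.2
    · have : η (i + 1) (y + 2) = 0 := getD_eq_zero_of_le (by omega)
      omega
  have hanti : ∀ i, i ≤ t → Antitone (η i) := by
    intro i hi
    apply antitone_nat_of_succ_le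
    intro y
    cases i with
    | zero => simp [hη, etaAt]
    | succ i =>
      obtain ⟨h1, h2, h3, -, -⟩ := hS' i (by omega)
      by_cases hy : y < 2 * t
      · exact (h3 y hy).2.1
      · have : η (i + 1) (y + 1) = 0 := getD_eq_zero_of_le (by omega)
        omega
  have hle_top : ∀ i, i ≤ t → ∀ y, η i y ≤ η t y := by
    intro i hi y
    induction t - i using Nat.strong_induction_on generalizing i with
    | _ d _ =>
      have : ∀ e i, i + e = t → η i y ≤ η t y := by
        intro e
        induction e with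
        | zero => intro i h; rw [show i = t by omega]
        | succ e ih =>
          intro i h
          exact (hmono i (by omega) y).trans (ih (i + 1) (by omega))
      exact this (t - i) i (by omega)
  have htopν : ∀ y, η t y ≤ μ.rowLen y := by
    intro y
    rw [hT0]
    have := htop2 y
    rwa [rowsL_getD] at this
  have hzero : ∀ i, i ≤ t → ∀ y, μ.colLen 0 ≤ y → η i y = 0 := by
    intro i hi y hy
    have h1 := hle_top i hi y
    have h2 := htopν y
    have h3 := rowLen_eq_zero hy
    omega
  refine ⟨t, fun s => ⟨idx[s.1], hidx s.1 s.2⟩, η, ?_, ?_, ?_, hmono, hanti, htopν, hstack, ?_, ?_, ?_⟩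
  · intro x y hxy
    have h5 : idx[x.1] = idx[y.1] := congrArg Fin.val hxy
    exact Fin.ext ((List.Nodup.getElem_inj_iff hnod).mp h5)
  · intro s
    exact ⟨hs[s.1]'(by have := s.2; omega), (isDbl_spec (hdbl s.1 s.2 (by have := s.2; omega))).2⟩
  · intro y
    simp [hη, etaAt]
  · intro i
    obtain ⟨h1, h2, -, h5, -⟩ := hS' i.1 i.2
    have h6 : (L[idx[i.1]]'(hidx i.1 i.2)) = BK.dbl hs[i.1] := (isDbl_spec (hdbl i.1 i.2 (by omega))).2
    show ∑ y ∈ Finset.range (μ.colLen 0), (η (i.1 + 1) y - η i.1 y) = (L[idx[i.1]]'(hidx i.1 i.2)).size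
    rw [h6]
    rw [sumTo_eq] at h5
    simp only [BK.size]
    rw [← h5]
    refine sum_range_eq_of_vanish _ ?_ ?_
    · intro y hy
      rw [hzero (i.1 + 1) i.2 y hy]
      simp
    · intro y hy
      have : η (i.1 + 1) y = 0 := getD_eq_zero_of_le (by omega)
      rw [this]
      simp
  · intro i hi
    obtain ⟨h1, h2, -, -, h5⟩ := hS' i hi
    rw [sumTo_eq] at h5
    rw [Nat.even_iff]
    have := sum_range_eq_of_vanish (fun y => (η (i + 1) y - η i y) * y) (p := μ.colLen 0) (M := 2 * t)
      (by
        intro y hy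
        show (η (i + 1) y - η i y) * y = 0
        rw [hzero (i + 1) hi y hy]
        simp)
      (by
        intro y hy
        have : η (i + 1) y = 0 := getD_eq_zero_of_le (by omega)
        show (η (i + 1) y - η i y) * y = 0
        rw [this]
        simp)
    rw [this]
    exact h5
  · intro T hT
    have hc : ∀ p ∈ T, idx.contains p.1.1 = false := by
      intro p hp
      by_contra hcon
      simp only [Bool.not_eq_false, List.contains_iff_mem] at hcon
      obtain ⟨s, hs1, hs2⟩ := List.getElem_of_mem hcon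
      exact hT p hp ⟨s, hs1⟩ (Fin.ext hs2.symm)
    obtain ⟨h6, h7⟩ := sum_T_le_Bf hval hoff T hc
    by_cases hT1 : T.card = 0
    · rw [Finset.card_eq_zero.mp hT1]
      simp
    have h8 := allK_Bf hfin (by omega) h7 h7
    simp only [Nat.ble_eq] at h8
    refine h6.trans (h8.trans (le_of_eq ?_))
    rw [sumMin_range, rowsL_getD]
    apply Finset.sum_congr rfl
    intro j _
    congr 2
    · exact (colLen_eq_countP μ j).symm
    · have h9 : (etas.getLastD []).length ≤ μ.colLen 0 := by
        rw [← rowsL_length]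
        exact htop1
      rw [← card_filter_getD j _ _ h9, hT0]

/-- The test of a rule is sound at a diagram with known rows. -/
theorem exact_sound {L : List BK} (hnd : ∀ K ∈ L, Nondeg K) {μ : YoungDiagram} {r : Rule}
    (hn : μ.card = szL L) (hV : ruleV L r = true) (hT : exactT (rowsL μ) r = true) :
    ChainOK L (psL L) μ := by
  have hcase : ∀ {r : Rule}, ruleV L r = true → ruleT (fun k => ((rowsL μ).take k).sum)
      (fun k => (rowsL μ).getD k 0) (rowsL μ).length ((rowsL μ).countP (1 < ·)) ((rowsL μ).getD 0 0) r = true →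
      ChainOK L (psL L) μ := by
    intro r hV hT
    refine rule_sound hnd (ν := μ) (fun k _ => ?_) (fun k => ?_) ?_ ?_ ?_ hn hV hT
    · rw [rowsL_take_sum]
    · rw [rowsL_getD]
    · rw [rowsL_getD]
    · rw [rowsL_length]
    · rw [colLen_eq_countP]
  cases r with
  | eta idx hs etas Bs => exact eta_sound hV hT
  | dom Bs => exact hcase hV hT
  | s1 i h Bs => exact hcase hV hT
  | s2 i h Bs => exact hcase hV hT
  | ab i h a b Bs => exact hcase hV hT
  | st idx hs e₀ Bs => exact hcase hV hT

/-- What the tests give at `ν`. -/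
def TestOK (L : List BK) (c : ℕ) (one : Bool) (exc : List (List ℕ)) (ν : YoungDiagram) : Prop :=
  LongOK c (c - 1) (c - 2) (c - 3) ν ∨ ChainOK L (psL L) ν ∨ MixOK c (c - 1) (c - 2) (c - 3) ν ∨
    (one = true ∧ OneHookOK c (c - 1) ν) ∨ ChainOK L (psL L) ν.transpose ∨ rowsL ν ∈ exc

/-- The rows from their partial sums. -/
def diffsL : List ℕ → ℕ → List ℕ
  | [], _ => []
  | s :: t, prev => (s - prev) :: diffsL t s

/-- The rows at a leaf. -/
def rowsNd (E : Nd) : List ℕ :=
  diffsL E.pre 0 ++ (E.n - E.p + E.q - E.sum) :: List.replicate (E.p - E.q) 1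

/-- The test at a leaf. -/
def leafT (rules : List Rule) (exc : List (List ℕ)) (rs : List ℕ) : Bool :=
  rules.any (exactT rs) || rules.any (exactT (conjL rs)) || exc.contains rs

/-- The tests at a node. -/
def cellT (c : ℕ) (one : Bool) (rules : List Rule) (E : Nd) : Bool :=
  longT c (envNd E) || mixT c E.p (envNd E) || (one && oneT c (envNd E)) ||
    rules.any (ruleT (envNd E) (lbNd E) E.p E.q (lbNd E 0))

/-- The next row. -/
def childNd (S₂ : ℕ) (E : Nd) : Nd where
  n := E.n
  p := E.p
  q := E.q
  pre := E.pre ++ [E.sum + E.v]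
  sum := E.sum + E.v
  v := max 2 (max ((E.n - E.p + E.q - (E.sum + E.v) + (E.q - (E.pre.length + 1)) - 1) /
    (E.q - (E.pre.length + 1))) (if E.pre.length = 0 then S₂ - E.v else 0))
  u := min E.v (E.n - E.p + E.q - (E.sum + E.v) - 2 * (E.q - (E.pre.length + 1) - 1))

/-- The search at a node. -/
def nodeT (c S₂ : ℕ) (one : Bool) (rules : List Rule) (exc : List (List ℕ)) : ℕ → Nd → Bool
  | 0, _ => false
  | f + 1, E =>
    Nat.blt E.u E.v || cellT c one rules E ||
      (if Nat.blt (E.pre.length + 1) E.q then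
        nodeT c S₂ one rules exc f (childNd S₂ E) && nodeT c S₂ one rules exc f { E with v := E.v + 1 }
      else leafT rules exc (rowsNd E) && nodeT c S₂ one rules exc f { E with v := E.v + 1 })

theorem rows_two_le (ν : YoungDiagram) {a d : ℕ} (h : a + d ≤ ν.colLen 1) :
    rowsBelow ν a + 2 * d ≤ rowsBelow ν (a + d) := by
  induction d with
  | zero => simp
  | succ d ih =>
    rw [← add_assoc, rowsBelow_succ]
    have h1 := ih (by omega)
    have h3 : (a + d, 1) ∈ ν := YoungDiagram.mem_iff_lt_colLen.mpr (by omega)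
    have := YoungDiagram.mem_iff_lt_rowLen.mp h3
    omega

/-- The child of a node: `ν_j = v`. -/
theorem Match.child {E : Nd} {ν : YoungDiagram} {S₂ : ℕ} (H : Match E ν) (hS₂ : S₂ ≤ rowsBelow ν 2)
    (hj : E.pre.length + 1 < E.q) (hv : ν.rowLen E.pre.length = E.v) : Match (childNd S₂ E) ν := by
  have hSq := H.S_q
  have hs1 : rowsBelow ν (E.pre.length + 1) = E.sum + E.v := by
    rw [rowsBelow_succ, H.hsum, hv]
  have hqq := H.hq
  refine ⟨H.hn, H.hpn, H.hp, H.hq, ?_, ?_, ?_, ?_, ?_⟩
  · simp only [childNd, List.length_append, List.length_singleton]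
    omega
  · intro i hi
    simp only [childNd, List.length_append, List.length_singleton] at hi ⊢
    by_cases hi2 : i < E.pre.length
    · rw [H.hpre i hi2]
      simp only [List.getD_eq_getElem?_getD]
      rw [List.getElem?_append_left hi2]
    · have hi3 : i = E.pre.length := by omega
      subst hi3
      simp only [List.getD_eq_getElem?_getD, List.getElem?_append_right le_rfl,
        Nat.sub_self, List.getElem?_cons_zero, Option.getD_some]
      exact hs1
  · simp only [childNd, List.length_append, List.length_singleton]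
    exact hs1.symm
  · simp only [childNd, List.length_append, List.length_singleton]
    refine max_le ?_ (max_le ?_ ?_)
    · exact H.rows_ge (by omega)
    · have h6 := rowsBelow_add_le ν (E.pre.length + 1) (E.q - (E.pre.length + 1))
      rw [show E.pre.length + 1 + (E.q - (E.pre.length + 1)) = E.q by omega, hSq, hs1] at h6
      have hpos : 0 < E.q - (E.pre.length + 1) := by omega
      have h9 : E.n - E.p + E.q - (E.sum + E.v) + (E.q - (E.pre.length + 1)) - 1 <
          (ν.rowLen (E.pre.length + 1) + 1) * (E.q - (E.pre.length + 1)) := by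
        rw [Nat.add_mul, Nat.one_mul, Nat.mul_comm (ν.rowLen _)]
        omega
      have := (Nat.div_lt_iff_lt_mul hpos).mpr h9
      omega
    · split_ifs with h0
      · rw [h0, zero_add]
        rw [h0] at hv
        have h7 : rowsBelow ν 2 = ν.rowLen 0 + ν.rowLen 1 := rowsBelow_two ν
        omega
      · exact Nat.zero_le _
  · simp only [childNd, List.length_append, List.length_singleton]
    refine le_min ?_ ?_
    · rw [← hv]
      exact ν.rowLen_anti _ _ (by omega)
    · have h6 := rows_two_le ν (a := E.pre.length + 1 + 1) (d := E.q - (E.pre.length + 1) - 1)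
        (by rw [hqq]; omega)
      rw [show E.pre.length + 1 + 1 + (E.q - (E.pre.length + 1) - 1) = E.q by omega, hSq,
        rowsBelow_succ, hs1] at h6
      omega

/-- The next value of `ν_j`. -/
theorem Match.next {E : Nd} {ν : YoungDiagram} (H : Match E ν) (hv : ν.rowLen E.pre.length ≠ E.v) :
    Match { E with v := E.v + 1 } ν := by
  have h1 := H.hv
  exact ⟨H.hn, H.hpn, H.hp, H.hq, H.hj, H.hpre, H.hsum, by simp only; omega, H.hu⟩

theorem diffsL_spec (ν : YoungDiagram) : ∀ (t : List ℕ) (a : ℕ),
    (∀ i (hi : i < t.length), rowsBelow ν (a + i + 1) = t[i]) →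
    diffsL t (rowsBelow ν a) = (List.range t.length).map fun y => ν.rowLen (a + y)
  | [], _, _ => by simp [diffsL]
  | s :: t, a, h => by
    have h0 := h 0 (by simp)
    simp only [add_zero, List.getElem_cons_zero] at h0
    simp only [diffsL]
    rw [List.length_cons, List.range_succ_eq_map, List.map_cons, List.map_map]
    have h1 : ∀ i (hi : i < t.length), rowsBelow ν (a + 1 + i + 1) = t[i] := by
      intro i hi
      have := h (i + 1) (by simpa using hi)
      simp only [List.getElem_cons_succ] at this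
      rw [← this]
      congr 1
      omega
    rw [← h0, diffsL_spec ν t (a + 1) (by rw [h0] at *; exact h1)]
    have e : rowsBelow ν (a + 1) - rowsBelow ν a = ν.rowLen a := by
      rw [rowsBelow_succ]
      omega
    rw [e]
    congr 1
    apply List.map_congr_left
    intro y _
    simp only [Function.comp, Nat.succ_eq_add_one]
    rw [show a + 1 + y = a + (y + 1) by omega]

theorem rowsL_of_match {E : Nd} {ν : YoungDiagram} (H : Match E ν) (hleaf : E.pre.length + 1 = E.q) :
    rowsL ν = rowsNd E := by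
  have hqp : E.q ≤ E.p := by
    have h2 : ν.colLen 1 ≤ ν.colLen 0 := ν.colLen_anti 0 1 (by omega)
    rwa [H.hp, H.hq] at h2
  have hd : diffsL E.pre 0 = (List.range E.pre.length).map ν.rowLen := by
    have h1 := diffsL_spec ν E.pre 0 (by
      intro i hi
      rw [zero_add, H.hpre i hi, List.getD_eq_getElem _ _ hi])
    rw [show rowsBelow ν 0 = 0 by simp [rowsBelow]] at h1
    rw [h1]
    apply List.map_congr_left
    intro y _
    rw [zero_add]
  have hlast : ν.rowLen E.pre.length = E.n - E.p + E.q - E.sum := by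
    have h5 : rowsBelow ν (E.pre.length + 1) = E.sum + ν.rowLen E.pre.length := by
      rw [rowsBelow_succ, H.hsum]
    have h6 := H.S_q
    rw [hleaf] at h5
    omega
  have hone : ∀ y, E.q ≤ y → y < E.p → ν.rowLen y = 1 := by
    intro y h1 h2
    have h5 : (y, 0) ∈ ν := YoungDiagram.mem_iff_lt_colLen.mpr (by rw [H.hp]; omega)
    have h6 := YoungDiagram.mem_iff_lt_rowLen.mp h5
    have h7 : ν.rowLen y ≤ 1 := rowLen_le_one (by rw [H.hq]; omega)
    omega
  unfold rowsNd rowsL
  rw [hd, H.hp]
  apply List.ext_getElem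
  · simp only [List.length_map, List.length_range, List.length_append, List.length_cons,
      List.length_replicate]
    omega
  · intro y h1 h2
    simp only [List.length_map, List.length_range] at h1
    simp only [List.getElem_map, List.getElem_range]
    by_cases hy : y < E.pre.length
    · rw [List.getElem_append_left (by simpa using hy)]
      simp
    · rw [List.getElem_append_right (by simpa using hy)]
      simp only [List.length_map, List.length_range]
      by_cases hy2 : y = E.pre.length
      · subst hy2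
        simpa using hlast
      · obtain ⟨z, hz⟩ : ∃ z, y - E.pre.length = z + 1 := ⟨y - E.pre.length - 1, by omega⟩
        simp only [hz, List.getElem_cons_succ, List.getElem_replicate]
        exact hone y (by omega) h1

/-- The test at a leaf is sound. -/
theorem leaf_sound {L : List BK} (hnd : ∀ K ∈ L, Nondeg K) {rules : List Rule}
    (hV : ∀ r ∈ rules, ruleV L r = true) {exc : List (List ℕ)} {ν : YoungDiagram}
    (hn : ν.card = szL L) (hT : leafT rules exc (rowsL ν) = true) :
    ChainOK L (psL L) ν ∨ ChainOK L (psL L) ν.transpose ∨ rowsL ν ∈ exc := by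
  simp only [leafT, Bool.or_eq_true, List.any_eq_true] at hT
  rcases hT with (⟨r, hr, h⟩ | ⟨r, hr, h⟩) | h
  · exact Or.inl (exact_sound hnd hn (hV r hr) h)
  · right; left
    rw [← rowsL_transpose] at h
    exact exact_sound hnd ((card_transpose' ν).trans hn) (hV r hr) h
  · right; right
    simpa using h

/-- **The search is sound.** -/
theorem nodeT_sound {L : List BK} (hnd : ∀ K ∈ L, Nondeg K) {c S₂ : ℕ} {one : Bool} {rules : List Rule}
    {exc : List (List ℕ)}
    (hV : ∀ r ∈ rules, ruleV L r = true) {ν : YoungDiagram} (hS₂ : S₂ ≤ rowsBelow ν 2) :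
    ∀ (f : ℕ) (E : Nd), nodeT c S₂ one rules exc f E = true → E.n = szL L → Match E ν →
      TestOK L c one exc ν
  | 0, E, h, _, _ => by simp [nodeT] at h
  | f + 1, E, h, hn, H => by
    simp only [nodeT, Bool.or_eq_true, Bool.and_eq_true] at h
    rcases h with (h | h) | h
    · have h1 := H.hv
      have h2 := H.hu
      simp only [Nat.blt_eq] at h
      omega
    · -- a test passes
      have hS : ∀ k, 1 ≤ k → envNd E k ≤ rowsBelow ν k := fun k hk => H.env_le hk
      simp only [cellT, Bool.or_eq_true, Bool.and_eq_true, List.any_eq_true] at h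
      rcases h with ((h | h) | h) | ⟨r, hr, h⟩
      · left
        simp only [longT, Bool.and_eq_true, Nat.ble_eq] at h
        obtain ⟨⟨⟨h1, h2⟩, h3⟩, h4⟩ := h
        exact ⟨h1.trans (hS 1 (by omega)), h2.trans (hS 2 (by omega)), h3.trans (hS 3 (by omega)),
          h4.trans (hS 4 (by omega))⟩
      · right; right; left
        simp only [mixT, Bool.and_eq_true, Nat.ble_eq] at h
        obtain ⟨⟨h1, h2⟩, h3⟩ := h
        rw [← H.hp] at h1 h2 h3
        exact ⟨h1, h2.trans (hS 1 (by omega)), h3.trans (hS 2 (by omega))⟩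
      · right; right; right; left
        simp only [oneT, Bool.and_eq_true, Nat.ble_eq] at h
        exact ⟨h.1, h.2.1.trans (hS 1 (by omega)), h.2.2.trans (hS 2 (by omega))⟩
      · right; left
        exact rule_sound hnd hS H.lb_le (H.lb_le 0) H.hp H.hq (H.hn.trans hn) (hV r hr) h
    · by_cases hj : Nat.blt (E.pre.length + 1) E.q = true
      · rw [if_pos hj] at h
        simp only [Bool.and_eq_true] at h
        by_cases hv : ν.rowLen E.pre.length = E.v
        · exact nodeT_sound hnd hV hS₂ f _ h.1 hn (H.child hS₂ (by simpa [Nat.blt_eq] using hj) hv)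
        · exact nodeT_sound hnd hV hS₂ f _ h.2 hn (H.next hv)
      · rw [if_neg hj] at h
        simp only [Bool.and_eq_true] at h
        by_cases hv : ν.rowLen E.pre.length = E.v
        · have hlf : E.pre.length + 1 = E.q := by
            have := H.hj
            simp only [Nat.blt_eq] at hj
            omega
          have h3 := h.1
          rw [← rowsL_of_match H hlf] at h3
          rcases leaf_sound hnd hV (H.hn.trans hn) h3 with h4 | h4 | h4
          · exact Or.inr (Or.inl h4)
          · exact Or.inr (Or.inr (Or.inr (Or.inr (Or.inl h4))))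
          · exact Or.inr (Or.inr (Or.inr (Or.inr (Or.inr h4))))
        · exact nodeT_sound hnd hV hS₂ f _ h.2 hn (H.next hv)

end Sound

/-! ### A level -/

/-- The tests of a cell. -/
def cellCheck (n c : ℕ) (one : Bool) (rules : List Rule) (exc : List (List ℕ)) (fuel p q : ℕ) : Bool :=
  (if Nat.blt c p then
    nodeT c (c + (c - 1)) one rules exc fuel
      ⟨n, p, q, [], 0, max c ((n - p + q + q - 1) / q), min (p - 1) (n - p + q - 2 * (q - 1))⟩
  else true) &&
    nodeT c 0 one rules exc fuel
      ⟨n, p, q, [], 0, max p ((n - p + q + q - 1) / q), n - p + q - 2 * (q - 1)⟩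

/-- **The check of a level.** -/
def levelCheck (L : List BK) (n c : ℕ) (one : Bool) (rules : List Rule) (exc : List (List ℕ))
    (fuel : ℕ) : Bool :=
  Nat.beq n (szL L) && Nat.blt (2 * c - 2) n && rules.all (ruleV L) &&
    allFrom (fun q => allFrom (fun p => cellCheck n c one rules exc fuel p q) (2 * c - 1 - 2 * q) q)
      (c - 1) 1

/-- The check gives the test for the `ν` with short columns. -/
theorem test_of_check {L : List BK} (hnd : ∀ K ∈ L, Nondeg K) {n c : ℕ} {one : Bool}
    {rules : List Rule} {exc : List (List ℕ)} {fuel : ℕ} (hC : levelCheck L n c one rules exc fuel = true)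
    (hc : 2 ≤ c) (ν : YoungDiagram) (hν : ν.card = n) (hC2 : ν.colLen 0 + ν.colLen 1 ≤ 2 * (c - 1))
    (hor : ν.colLen 0 ≤ ν.rowLen 0 ∨ c + (c - 1) ≤ rowsBelow ν 2) : TestOK L c one exc ν := by
  simp only [levelCheck, Bool.and_eq_true, Nat.beq_eq, Nat.blt_eq, List.all_eq_true] at hC
  obtain ⟨⟨⟨hn, hlt⟩, hV⟩, hall⟩ := hC
  set p := ν.colLen 0 with hp
  set q := ν.colLen 1 with hq
  have hqp : q ≤ p := ν.colLen_anti 0 1 (by omega)
  have hq1 : 1 ≤ q := by
    by_contra h0
    have h1 := card_le_rowsBelow_add ν (j := p) (by omega)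
    have h2 := rowsBelow_colLen_one ν
    have h3 : q = 0 := by omega
    rw [← hq, ← hp, h3] at h2
    have h4 : rowsBelow ν 0 = 0 := by simp [rowsBelow]
    rw [h4] at h2
    omega
  have hcell := allFrom_spec (allFrom_spec hall q hq1 (by omega)) p hqp (by omega)
  simp only [cellCheck, Bool.and_eq_true] at hcell
  obtain ⟨hA, hB⟩ := hcell
  have hpn : p ≤ n := by omega
  have hS1 := rowsBelow_one ν
  have hS2 := rowsBelow_two ν
  have hr10 : ν.rowLen 1 ≤ ν.rowLen 0 := ν.rowLen_anti 0 1 (by omega)
  have hSq : rowsBelow ν q = n - p + q := by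
    have h1 := rowsBelow_colLen_one ν
    rw [← hq, ← hp, hν] at h1
    omega
  have hcq : (n - p + q + q - 1) / q ≤ ν.rowLen 0 := by
    have h6 := rowsBelow_add_le ν 0 q
    rw [zero_add, hSq, show rowsBelow ν 0 = 0 by simp [rowsBelow]] at h6
    have h9 : n - p + q + q - 1 < (ν.rowLen 0 + 1) * q := by
      rw [Nat.add_mul, Nat.one_mul, Nat.mul_comm (ν.rowLen _)]
      omega
    have := (Nat.div_lt_iff_lt_mul (by omega)).mpr h9
    omega
  have hub : ν.rowLen 0 ≤ n - p + q - 2 * (q - 1) := by
    have h6 := rows_two_le ν (a := 1) (d := q - 1) (by rw [← hq]; omega)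
    rw [show 1 + (q - 1) = q by omega, hSq, hS1] at h6
    omega
  by_cases hor2 : p ≤ ν.rowLen 0
  · have hm : Match ⟨n, p, q, [], 0, max p ((n - p + q + q - 1) / q), n - p + q - 2 * (q - 1)⟩ ν :=
      ⟨hν, hpn, rfl, rfl, by simp only [List.length_nil]; omega, by simp, by simp [rowsBelow],
        by simp only [List.length_nil]; exact max_le hor2 hcq, by simpa using hub⟩
    exact nodeT_sound hnd hV (Nat.zero_le _) fuel _ hB hn hm
  · have hor3 : c + (c - 1) ≤ rowsBelow ν 2 := by
      rcases hor with h | h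
      · omega
      · exact h
    have hyc : c ≤ ν.rowLen 0 := by omega
    have hcp : c < p := by omega
    have hb : Nat.blt c p = true := by simpa [Nat.blt_eq] using hcp
    rw [if_pos hb] at hA
    have hm : Match ⟨n, p, q, [], 0, max c ((n - p + q + q - 1) / q),
        min (p - 1) (n - p + q - 2 * (q - 1))⟩ ν :=
      ⟨hν, hpn, rfl, rfl, by simp only [List.length_nil]; omega, by simp, by simp [rowsBelow],
        by simp only [List.length_nil]; exact max_le hyc hcq,
        by simp only [List.length_nil]; exact le_min (by omega) hub⟩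
    exact nodeT_sound hnd hV hor3 fuel _ hA hn hm

theorem card_transpose_transpose (ν : YoungDiagram) : ν.transpose.transpose = ν :=
  YoungDiagram.transpose_transpose ν

/-- **A level of the family from the check.** -/
theorem universal_of_check {l : List BK} (hG : Good l) (d : Bool) {m n : ℕ}
    (U : Saxl.Universal (cellsL l) m) (hm : (cellsL l).card = m)
    (hn : n = cOf d l + (cOf d l - 1) + (cOf d l - 2) + (cOf d l - 3) + m) {one : Bool}
    (U1 : one = true → Saxl.Universal (midL d l) (cOf d l - 2 + (cOf d l - 3) + m))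
    {rules : List Rule} {exc : List (List ℕ)} {fuel : ℕ}
    (hE : ∀ ν : YoungDiagram, ν.card = n → rowsL ν ∈ exc → LabelOcc (cellsL (stepL d l)) n ν)
    (hC : levelCheck (stepL d l) n (cOf d l) one rules exc fuel = true) :
    Saxl.Universal (cellsL (stepL d l)) n := by
  have hc4 := cOf_ge d l
  have hg := hG.stepL d
  set c := cOf d l with hc
  have hsize : ((stepL d l).map BK.size).sum = c + (c - 1) + (c - 2) + (c - 3) + m := by
    rw [← card_cellsL, card_stepL hG d, hm]
  have hnd : ∀ K ∈ stepL d l, Nondeg K := hg.nd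
  have hps := psL_sum (stepL d l)
  have hOK := psL_ok hnd
  -- the tests give the occurrence
  have key : ∀ ν : YoungDiagram, (FatOK c (c - 1) (c - 2) (c - 3) ν ∨ LongOK c (c - 1) (c - 2) (c - 3) ν ∨
      ChainOK (stepL d l) (psL (stepL d l)) ν) → LabelOcc (cellsL (stepL d l)) n ν := by
    intro ν h S _ _ hcard V _ _ _ ρ hρ hlab
    have hνc := hlab.card_eq
    rw [hn] at hcard
    rcases h with h | h | h
    · exact occurs_of_tests_chain (hG.selfMid d) rfl hg.pw hps hOK (hG.peel₀ d) (hG.peel₁ d) U
        (by omega) (by omega) (by omega) (by omega) (by omega) (by omega) hsize hcard hρ hlab hνc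
        (Or.inl h)
    · exact occurs_of_tests_chain (hG.selfMid d) rfl hg.pw hps hOK (hG.peel₀ d) (hG.peel₁ d) U
        (by omega) (by omega) (by omega) (by omega) (by omega) (by omega) hsize hcard hρ hlab hνc
        (Or.inr (Or.inl h))
    · exact occurs_of_tests_chain (hG.selfMid d) rfl hg.pw hps hOK (hG.peel₀ d) (hG.peel₁ d) U
        (by omega) (by omega) (by omega) (by omega) (by omega) (by omega) hsize hcard hρ hlab hνc
        (Or.inr (Or.inr (Or.inr h)))
  have test : ∀ ν : YoungDiagram, ν.card = n → TestOK (stepL d l) c one exc ν →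
      LabelOcc (cellsL (stepL d l)) n ν ∨ LabelOcc (cellsL (stepL d l)) n ν.transpose := by
    intro ν hνn h
    rcases h with h | h | h | ⟨h1, h⟩ | h | h
    · exact Or.inl (key ν (Or.inr (Or.inl h)))
    · exact Or.inl (key ν (Or.inr (Or.inr h)))
    · left
      rw [hn]
      exact labelOcc_mix hG d U h
    · left
      have h3 := labelOcc_one_hook hG d (U1 h1) h
      rw [hn]
      have e : c + (c - 1) + (c - 2 + (c - 3) + m) = c + (c - 1) + (c - 2) + (c - 3) + m := by omega
      rw [← e]
      exact h3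
    · exact Or.inr (key _ (Or.inr (Or.inr h)))
    · exact Or.inl (hE ν hνn h)
  refine universal_of_local hg.self ?_
  intro ν hν
  have hν' : ν.transpose.card = n := (card_transpose' ν).trans hν
  have hC' : ∀ μ : YoungDiagram, μ.card = n → μ.colLen 0 + μ.colLen 1 ≤ 2 * (c - 1) →
      (μ.colLen 0 ≤ μ.rowLen 0 ∨ c + (c - 1) ≤ rowsBelow μ 2) → TestOK (stepL d l) c one exc μ :=
    fun μ h1 h2 h3 => test_of_check hnd hC (by omega) μ h1 h2 h3
  have hS2 := rowsBelow_two ν
  have hr10 : ν.rowLen 1 ≤ ν.rowLen 0 := ν.rowLen_anti 0 1 (by omega)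
  have hcols : colsBelow ν 2 = ν.colLen 0 + ν.colLen 1 := by
    simp [colsBelow, Finset.sum_range_succ]
  have hS2' : rowsBelow ν.transpose 2 = ν.colLen 0 + ν.colLen 1 := by
    rw [rowsBelow_two]
    simp only [YoungDiagram.rowLen_transpose]
  have swap : ∀ μ : YoungDiagram, (LabelOcc (cellsL (stepL d l)) n μ.transpose ∨
      LabelOcc (cellsL (stepL d l)) n μ.transpose.transpose) →
      LabelOcc (cellsL (stepL d l)) n μ ∨ LabelOcc (cellsL (stepL d l)) n μ.transpose := by
    intro μ h
    rcases h with h | h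
    · exact Or.inr h
    · rw [YoungDiagram.transpose_transpose] at h
      exact Or.inl h
  by_cases hq : ν.colLen 0 + ν.colLen 1 ≤ 2 * (c - 1)
  · by_cases hp : ν.rowLen 0 + ν.rowLen 1 ≤ 2 * (c - 1)
    · by_cases hy : ν.colLen 0 ≤ ν.rowLen 0
      · exact test ν hν (hC' ν hν hq (Or.inl hy))
      · refine swap ν (test _ hν' (hC' _ hν' ?_ (Or.inl ?_)))
        · simpa using hp
        · simp only [YoungDiagram.colLen_transpose, YoungDiagram.rowLen_transpose]
          omega
    · exact test ν hν (hC' ν hν hq (Or.inr (by omega)))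
  · by_cases hp : ν.rowLen 0 + ν.rowLen 1 ≤ 2 * (c - 1)
    · refine swap ν (test _ hν' (hC' _ hν' ?_ (Or.inr ?_)))
      · simpa using hp
      · omega
    · refine Or.inl (key ν (Or.inl ⟨?_, ?_, ?_⟩))
      · rw [rowsBelow_one]
        omega
      · omega
      · rw [hcols]
        omega

/-! ### The table: universal shapes of the family -/

/-- A universal shape of the family, with its block list. -/
structure UL (l : List BK) : Prop where
  good : Good l
  uni : Saxl.Universal (cellsL l) (szL l)

/-- **A level from the check, all the options.** -/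
theorem UL.stepAll {l : List BK} (h : UL l) (d : Bool) {n c : ℕ} {one : Bool} {rules : List Rule}
    {exc : List (List ℕ)} {fuel : ℕ}
    (U1 : one = true → Saxl.Universal (midL d l) (cOf d l - 2 + (cOf d l - 3) + szL l))
    (hE : ∀ ν : YoungDiagram, ν.card = n → rowsL ν ∈ exc → LabelOcc (cellsL (stepL d l)) n ν)
    (hc : cOf d l = c) (hC : levelCheck (stepL d l) n c one rules exc fuel = true) :
    UL (stepL d l) := by
  subst hc
  have hc4 := cOf_ge d l
  have hn1 : n = szL (stepL d l) := by
    simp only [levelCheck, Bool.and_eq_true, Nat.beq_eq] at hC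
    exact hC.1.1.1
  have hn2 := szL_stepL d l
  have hn : n = cOf d l + (cOf d l - 1) + (cOf d l - 2) + (cOf d l - 3) + szL l := by omega
  have hU := universal_of_check h.good d h.uni (card_cellsL l) hn U1 hE hC
  refine ⟨h.good.stepL d, ?_⟩
  rw [← hn1]
  exact hU

/-- **A level from the check.** -/
theorem UL.step {l : List BK} (h : UL l) (d : Bool) (n c : ℕ) (rules : List Rule) (fuel : ℕ)
    (hc : cOf d l = c) (hC : levelCheck (stepL d l) n c false rules [] fuel = true) :
    UL (stepL d l) :=
  h.stepAll d (by simp) (by simp) hc hC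

/-- The universal Young diagram of a shape of the family. -/
theorem UL.diagram {l : List BK} (h : UL l) {n : ℕ} (hn : szL l = n) :
    ∃ μ : YoungDiagram, μ.cells.card = n ∧ Saxl.Universal μ.cells n := by
  subst hn
  refine ⟨toDiagram (cellsL l) h.good.low, ?_, ?_⟩
  · exact card_cellsL l
  · exact h.uni

end Crest.Agent.Saxl.Table
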