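import Crest.Agent.Lib.Saxl.WordOps

/-!
# Transversal sums (the Step Lemma)

A fresh letter `bot` marks a set `A` of slots.  `trSum L f z` is the sum over sets `A` of slots which
are transversals of the letters in `L` for the word `z`, of `f (fill z A)`, where `fill z A` puts the
letter `bot` on `A`.  `mv bot a (trSum L f) = trSum (insert a L) f`, so by `mv_inj` the transversal
sum is injective on functions supported on words with `c` letters `bot`, when the letters are
processed in an order with decreasing multiplicity.
-/

set_option autoImplicit false

open scoped BigOperators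
open Equiv

namespace Crest.Agent.Saxl

section Transversal

variable {S : Type*} [Fintype S] [DecidableEq S]

/-- Put the letter `bot` on the slots in `A`. -/
def fill (bot : ℕ) (z : S → ℕ) (A : Finset S) : S → ℕ := fun x => if x ∈ A then bot else z x

omit [Fintype S] in
theorem fill_empty (bot : ℕ) (z : S → ℕ) : fill bot z ∅ = z := by
  funext x
  simp [fill]

/-- The transversal sum. -/
noncomputable def trSum (bot : ℕ) (L : Finset ℕ) (f : Fn S) : Fn S := fun z =>
  ∑ A ∈ Finset.univ.filter (fun A : Finset S => A.card = L.card ∧ A.image z = L), f (fill bot z A)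

omit [DecidableEq S] in
theorem trSum_empty (bot : ℕ) (f : Fn S) (z : S → ℕ) [DecidableEq S] : trSum bot ∅ f z = f z := by
  have : (Finset.univ.filter (fun A : Finset S => A.card = (∅ : Finset ℕ).card ∧ A.image z = ∅)) =
      {∅} := by
    ext A
    simp only [Finset.mem_filter, Finset.mem_univ, true_and, Finset.card_empty,
      Finset.card_eq_zero, Finset.image_eq_empty, Finset.mem_singleton, and_self]
  rw [trSum, this, Finset.sum_singleton, fill_empty]

theorem trSum_insert (bot a : ℕ) (L : Finset ℕ) (ha : a ∉ L) (hb : bot ∉ L)
    (f : Fn S) : mv bot a (trSum bot L f) = trSum bot (insert a L) f := by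
  funext z
  simp only [mv, trSum]
  rw [Finset.sum_sigma']
  refine Finset.sum_bij (fun p _ => insert p.1 p.2) ?_ ?_ ?_ ?_
  · -- maps to
    rintro ⟨s, A⟩ hp
    simp only [Finset.mem_sigma, Finset.mem_filter, Finset.mem_univ, true_and] at hp
    obtain ⟨hs, hc, hi⟩ := hp
    have hsA : s ∉ A := by
      intro hsA
      apply hb
      rw [← hi]
      exact Finset.mem_image.mpr ⟨s, hsA, by simp⟩
    have himg : A.image z = L := by
      rw [← hi]
      refine Finset.image_congr ?_
      intro x hx
      have : x ≠ s := by
        rintro rfl
        exact hsA hx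
      simp [Function.update_of_ne this]
    simp only [Finset.mem_filter, Finset.mem_univ, true_and]
    refine ⟨?_, ?_⟩
    · rw [Finset.card_insert_of_notMem hsA, Finset.card_insert_of_notMem ha, hc]
    · rw [Finset.image_insert, hs, himg]
  · -- injective
    rintro ⟨s, A⟩ hp ⟨s', A'⟩ hp' heq
    simp only [Finset.mem_sigma, Finset.mem_filter, Finset.mem_univ, true_and] at hp hp'
    obtain ⟨hs, hc, hi⟩ := hp
    obtain ⟨hs', hc', hi'⟩ := hp'
    have hsA : s ∉ A := by
      intro hsA
      apply hb
      rw [← hi]
      exact Finset.mem_image.mpr ⟨s, hsA, by simp⟩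
    have hsA' : s' ∉ A' := by
      intro hsA
      apply hb
      rw [← hi']
      exact Finset.mem_image.mpr ⟨s', hsA, by simp⟩
    have himg : A.image z = L := by
      rw [← hi]
      refine Finset.image_congr ?_
      intro x hx
      have : x ≠ s := by
        rintro rfl
        exact hsA hx
      simp [Function.update_of_ne this]
    have himg' : A'.image z = L := by
      rw [← hi']
      refine Finset.image_congr ?_
      intro x hx
      have : x ≠ s' := by
        rintro rfl
        exact hsA' hx
      simp [Function.update_of_ne this]
    simp only at heq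
    have hss' : s = s' := by
      have h1 : s ∈ insert s' A' := heq ▸ Finset.mem_insert_self s A
      rcases Finset.mem_insert.mp h1 with h2 | h2
      · exact h2
      · exfalso
        apply ha
        rw [← himg', ← hs]
        exact Finset.mem_image_of_mem z h2
    subst hss'
    have hAA' : A = A' := by
      have e1 := congrArg (fun B => B.erase s) heq
      simpa [Finset.erase_insert hsA, Finset.erase_insert hsA'] using e1
    subst hAA'
    rfl
  · -- surjective
    intro B hB
    simp only [Finset.mem_filter, Finset.mem_univ, true_and] at hB
    obtain ⟨hc, hi⟩ := hB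
    have hamem : a ∈ B.image z := by
      rw [hi]
      exact Finset.mem_insert_self _ _
    obtain ⟨s, hsB, hs⟩ := Finset.mem_image.mp hamem
    have hinj : Set.InjOn z B := by
      refine Finset.card_image_iff.mp ?_
      rw [hi, hc]
    have himg : (B.erase s).image z = L := by
      ext b
      simp only [Finset.mem_image, Finset.mem_erase]
      constructor
      · rintro ⟨x, ⟨hxs, hxB⟩, rfl⟩
        have h1 : z x ∈ insert a L := by
          rw [← hi]
          exact Finset.mem_image_of_mem z hxB
        rcases Finset.mem_insert.mp h1 with h2 | h2
        · exfalso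
          exact hxs (hinj hxB hsB (h2.trans hs.symm))
        · exact h2
      · intro hb'
        have h1 : b ∈ B.image z := by
          rw [hi]
          exact Finset.mem_insert_of_mem hb'
        obtain ⟨x, hx, rfl⟩ := Finset.mem_image.mp h1
        refine ⟨x, ⟨?_, hx⟩, rfl⟩
        rintro rfl
        exact ha (hs ▸ hb')
    have hcard : (B.erase s).card = L.card := by
      rw [Finset.card_erase_of_mem hsB, hc, Finset.card_insert_of_notMem ha]
      simp
    refine ⟨⟨s, B.erase s⟩, ?_, ?_⟩
    · simp only [Finset.mem_sigma, Finset.mem_filter, Finset.mem_univ, true_and]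
      refine ⟨hs, hcard, ?_⟩
      rw [← himg]
      refine Finset.image_congr ?_
      intro x hx
      have : x ≠ s := (Finset.mem_erase.mp hx).1
      simp [Function.update_of_ne this]
    · simp only [Finset.insert_erase hsB]
  · -- values
    rintro ⟨s, A⟩ hp
    simp only [Finset.mem_sigma, Finset.mem_filter, Finset.mem_univ, true_and] at hp
    obtain ⟨hs, hc, hi⟩ := hp
    have hsA : s ∉ A := by
      intro hsA
      apply hb
      rw [← hi]
      exact Finset.mem_image.mpr ⟨s, hsA, by simp⟩
    congr 1
    funext x
    simp only [fill, Finset.mem_insert]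
    by_cases hx : x = s
    · subst hx
      simp [hsA]
    · simp [hx]

theorem fill_letters {K bot : ℕ} {z : S → ℕ} {A : Finset S} (hbot : bot < K)
    (hz : ∀ s, z s < K) : ∀ s, fill bot z A s < K := by
  intro s
  simp only [fill]
  split_ifs
  · exact hbot
  · exact hz s

/-- The number of letters of `fill`. -/
theorem lc_fill_of_notMem {bot b : ℕ} {z : S → ℕ} {A : Finset S} (hb : b ≠ bot)
    (hA : ∀ x ∈ A, z x ≠ b) : lc (fill bot z A) b = lc z b := by
  unfold lc
  congr 1
  ext x
  simp only [Finset.mem_filter_univ]
  unfold fill
  by_cases hx : x ∈ A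
  · rw [if_pos hx]
    constructor
    · intro h
      exact absurd h.symm hb
    · intro h
      exact absurd h (hA x hx)
  · rw [if_neg hx]

theorem lc_fill_bot {bot : ℕ} {z : S → ℕ} {A : Finset S} (hA : ∀ x ∈ A, z x ≠ bot) :
    lc (fill bot z A) bot = lc z bot + A.card := by
  unfold lc
  rw [← Finset.card_union_of_disjoint]
  · congr 1
    ext x
    simp only [Finset.mem_filter_univ, Finset.mem_union]
    unfold fill
    by_cases hx : x ∈ A
    · simp [hx]
    · simp [hx]
  · rw [Finset.disjoint_left]
    intro x hx hx2
    exact hA x hx2 (Finset.mem_filter.mp hx).2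

/-- The Step Lemma. -/
theorem transversal_inj {c bot K : ℕ} (π : ℕ → ℕ)
    (hπ : (Finset.range c).image π = Finset.range c) (hbot : c ≤ bot) (hK : bot < K)
    {f : Fn S} (hf1 : ∀ z, f z ≠ 0 → lc z bot = c)
    (hf2 : ∀ z, f z ≠ 0 → ∀ k < c, lc z (π k) + k + 1 ≤ c)
    (h : ∀ v, (∀ s, v s < K) → trSum bot (Finset.range c) f v = 0) :
    ∀ z, (∀ s, z s < K) → f z = 0 := by
  -- the sets of letters
  let L : ℕ → Finset ℕ := fun k => (Finset.range k).image π
  have hπinj : Set.InjOn π (Finset.range c) := by
    refine Finset.card_image_iff.mp ?_
    rw [hπ]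
  have hLcard : ∀ k ≤ c, (L k).card = k := by
    intro k hk
    have : Set.InjOn π (Finset.range k) := by
      intro a ha b hb hab
      refine hπinj ?_ ?_ hab
      · simp only [Finset.coe_range, Set.mem_Iio] at ha ⊢
        omega
      · simp only [Finset.coe_range, Set.mem_Iio] at hb ⊢
        omega
    rw [Finset.card_image_of_injOn this, Finset.card_range]
  have hπlt : ∀ k < c, π k < c := by
    intro k hk
    have : π k ∈ Finset.range c := by
      rw [← hπ]
      exact Finset.mem_image_of_mem π (Finset.mem_range.mpr hk)
    exact Finset.mem_range.mp this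
  have hLsucc : ∀ k, L (k + 1) = insert (π k) (L k) := by
    intro k
    simp [L, Finset.range_add_one, Finset.image_insert]
  have hnotmem : ∀ k < c, π k ∉ L k := by
    intro k hk hmem
    obtain ⟨a, ha, hab⟩ := Finset.mem_image.mp hmem
    have ha' := Finset.mem_range.mp ha
    have := hπinj (by simp; omega) (by simpa using hk) hab
    omega
  have hLlt : ∀ k ≤ c, ∀ b ∈ L k, b < c := by
    intro k hk b hb
    obtain ⟨a, ha, rfl⟩ := Finset.mem_image.mp hb
    exact hπlt a (by have := Finset.mem_range.mp ha; omega)
  -- downward induction
  have key : ∀ j, j ≤ c → ∀ v, (∀ s, v s < K) → trSum bot (L (c - j)) f v = 0 := by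
    intro j
    induction j with
    | zero =>
      intro _ v hv
      have : L c = Finset.range c := hπ
      simp only [Nat.sub_zero, this]
      exact h v hv
    | succ j ih =>
      intro hj
      set k := c - (j + 1) with hk
      have hkc : k < c := by omega
      have hk1 : c - j = k + 1 := by omega
      have ih' := ih (by omega)
      rw [hk1, hLsucc, ← trSum_insert bot (π k) (L k) (hnotmem k hkc) ?_ f] at ih'
      · refine mv_inj (K := K) ?_ hK ?_ ?_ ih'
        · have := hπlt k hkc
          omega
        · have := hπlt k hkc
          omega
        · intro w hw hne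
          obtain ⟨A, hA, hfA⟩ := Finset.exists_ne_zero_of_sum_ne_zero hne
          simp only [Finset.mem_filter, Finset.mem_univ, true_and] at hA
          obtain ⟨hc, hi⟩ := hA
          have hAnb : ∀ x ∈ A, w x ≠ bot := by
            intro x hx hxb
            have h1 : w x ∈ L k := by
              rw [← hi]
              exact Finset.mem_image_of_mem w hx
            have := hLlt k (by omega) _ h1
            omega
          have hAnk : ∀ x ∈ A, w x ≠ π k := by
            intro x hx hxb
            have h1 : w x ∈ L k := by
              rw [← hi]
              exact Finset.mem_image_of_mem w hx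
            exact hnotmem k hkc (hxb ▸ h1)
          have h1 := hf1 _ hfA
          have h2 := hf2 _ hfA k hkc
          rw [lc_fill_bot hAnb, hc, hLcard k (by omega)] at h1
          rw [lc_fill_of_notMem (by have := hπlt k hkc; omega) hAnk] at h2
          omega
      · intro hb
        have := hLlt k (by omega) _ hb
        omega
  intro z hz
  have := key c le_rfl z hz
  simp only [Nat.sub_self] at this
  have hL0 : L 0 = ∅ := by simp [L]
  rw [hL0, trSum_empty] at this
  exact this

end Transversal

end Crest.Agent.Saxl
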