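import Crest.Agent.Lib.Saxl.LevelExtra
import Crest.Agent.Lib.Saxl.FamilyParts

/-!
# The prefix-tree checker for a level (row 195, S0298, helper58)

A test on the diagrams `ν` of a level is checked by a recursion on the prefix of the rows of `ν`:
at a node the rows `pre` are fixed and the next row is at least `Y`.  The partial sums of `ν` are at
least the ones of the flat completion `envE`; if a monotone test `Tst` passes for this lower bound
all the completions are done, otherwise one branches on the next row.  At a leaf all rows are known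
and `Leaf` is an exact test, for instance with explicit placed doubles or a table of exceptions.
The number of nodes is small (about `3000` for `n = 133`), so the check runs in the kernel.
-/

set_option autoImplicit false

open scoped BigOperators

namespace Crest.Agent.Saxl.TreeCheck

/-- The flat lower bound of the partial sums, when the rows `pre` are fixed and the next row is at
least `Y`; `q` is the number of rows of length at least two, of total `N`, and `n` the size. -/
def envE (n q N : ℕ) (pre : List ℕ) (Y j : ℕ) : ℕ :=
  if j ≤ pre.length then (pre.take j).sum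
  else if j ≤ q then
    pre.sum + Y + (j - pre.length - 1) * ((N - pre.sum - Y) / (q - pre.length - 1)) +
      min (j - pre.length - 1) ((N - pre.sum - Y) % (q - pre.length - 1))
  else min n (N + j - q)

theorem sum_map_range (f : ℕ → ℕ) (k : ℕ) :
    ((List.range k).map f).sum = ∑ i ∈ Finset.range k, f i := by
  induction k with
  | zero => simp
  | succ k ih => simp [List.range_succ, Finset.sum_range_succ, ih]

/-- The prefix of the rows of a diagram. -/
def IsPre (ν : YoungDiagram) (pre : List ℕ) : Prop := pre = (List.range pre.length).map ν.rowLen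

theorem IsPre.sum {ν : YoungDiagram} {pre : List ℕ} (h : IsPre ν pre) :
    pre.sum = rowsBelow ν pre.length := by
  rw [rowsBelow_eq_sum, ← sum_map_range, ← h]

theorem IsPre.sum_take {ν : YoungDiagram} {pre : List ℕ} (h : IsPre ν pre) {j : ℕ}
    (hj : j ≤ pre.length) : (pre.take j).sum = rowsBelow ν j := by
  have h1 : pre.take j = (List.range j).map ν.rowLen := by
    conv_lhs => rw [h]
    rw [← List.map_take, List.take_range, min_eq_left hj]
  rw [h1, rowsBelow_eq_sum, sum_map_range]

theorem IsPre.snoc {ν : YoungDiagram} {pre : List ℕ} (h : IsPre ν pre) :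
    IsPre ν (pre ++ [ν.rowLen pre.length]) := by
  unfold IsPre
  simp only [List.length_append, List.length_cons, List.length_nil, zero_add]
  rw [List.range_succ, List.map_append, ← h]
  simp

theorem IsPre.get {ν : YoungDiagram} {pre : List ℕ} (h : IsPre ν pre) {x : ℕ} (hx : x ∈ pre) :
    ∃ i, i < pre.length ∧ ν.rowLen i = x := by
  rw [h] at hx
  obtain ⟨i, hi, rfl⟩ := List.mem_map.mp hx
  refine ⟨i, ?_, rfl⟩
  simpa using List.mem_range.mp hi

/-- The rows above the tail of the first column have at least two cells. -/
theorem two_le_rowLen (ν : YoungDiagram) {i : ℕ} (h : i < ν.colLen 1) : 2 ≤ ν.rowLen i := by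
  have h1 : (i, 1) ∈ ν := YoungDiagram.mem_iff_lt_colLen.mpr h
  have := YoungDiagram.mem_iff_lt_rowLen.mp h1
  omega

theorem rowLen_eq_one (ν : YoungDiagram) {i : ℕ} (h1 : ν.colLen 1 ≤ i) (h2 : i < ν.colLen 0) :
    ν.rowLen i = 1 := by
  have h3 : (i, 0) ∈ ν := YoungDiagram.mem_iff_lt_colLen.mpr h2
  have h4 := YoungDiagram.mem_iff_lt_rowLen.mp h3
  have h5 := rowLen_le_one (ν := ν) h1
  omega

section Env

variable {ν : YoungDiagram} {n q N : ℕ} {pre : List ℕ} {Y : ℕ}

/-- **The envelope is a lower bound.** -/
theorem envE_le (hc : ν.card = n) (hq : ν.colLen 1 = q) (hN : N + ν.colLen 0 = n + q)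
    (hpre : IsPre ν pre) (hlen : pre.length ≤ q) (hY : pre.length < q → Y ≤ ν.rowLen pre.length)
    (j : ℕ) : envE n q N pre Y j ≤ rowsBelow ν j := by
  have htb : ν.colLen 1 ≤ ν.colLen 0 := ν.colLen_anti 0 1 (by omega)
  have hSq : rowsBelow ν q = N := by
    have := rowsBelow_colLen_one ν
    rw [hq] at this
    omega
  unfold envE
  split_ifs with h1 h2
  · exact (hpre.sum_take h1).le
  · -- the flat part
    set k := pre.length with hk
    have hkq : k < q := by omega
    have hS := hpre.sum
    rw [← hk] at hS
    have hsucc := rowsBelow_succ ν k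
    have hYk := hY hkq
    set R := N - pre.sum - Y with hR
    set t := q - k - 1 with ht
    set f := R / t with hf
    set e := R % t with he
    have hdiv : t * f + e = R := Nat.div_add_mod _ _
    have hmono : rowsBelow ν (k + 1) ≤ rowsBelow ν q := rowsBelow_mono ν (by omega)
    refine rowsBelow_ge_of_line ν (i := k + 1) (q := q) (v := f) (by omega) ?_ ?_
    · have e1 : (j - (k + 1)) * (f + 1) = (j - k - 1) * f + (j - (k + 1)) := by
        have : j - k - 1 = j - (k + 1) := by omega
        rw [this]
        ring
      rw [e1]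
      have := Nat.min_le_left (j - k - 1) e
      have : j - k - 1 = j - (k + 1) := by omega
      omega
    · rcases Nat.lt_or_ge N (pre.sum + Y) with hlt | hge
      · have hR0 : R = 0 := by omega
        have hf0 : f = 0 := by rw [hf, hR0]; simp
        have he0 : e = 0 := by rw [he, hR0]; simp
        rw [hf0, he0]
        simp only [Nat.mul_zero, Nat.min_zero, add_zero]
        omega
      · have e2 : t * f = (j - k - 1) * f + (q - j) * f := by
          rw [← Nat.add_mul]
          congr 1
          omega
        have := Nat.min_le_right (j - k - 1) e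
        omega
  · -- beyond the rows of length at least two
    have hj := rowsBelow_tail ν (k := j) (by omega)
    rw [hc] at hj
    have := Nat.min_le_left n (N + j - q)
    have := Nat.min_le_right n (N + j - q)
    omega

end Env

/-- A loop on the lower bound `Y` of the next row. -/
def loopY (body tst : ℕ → Bool) : ℕ → ℕ → Bool
  | 0, _ => true
  | cnt + 1, Y => tst Y || (body Y && loopY body tst cnt (Y + 1))

theorem loopY_sound {body tst : ℕ → Bool} {P : Prop} {v : ℕ} (htst : ∀ Y, Y ≤ v → tst Y = true → P)
    (hbody : body v = true → P) : ∀ (cnt lo : ℕ), loopY body tst cnt lo = true → lo ≤ v →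
    v < lo + cnt → P
  | 0, lo, _, h1, h2 => by omega
  | cnt + 1, lo, h, h1, h2 => by
    simp only [loopY, Bool.or_eq_true, Bool.and_eq_true] at h
    rcases h with h | ⟨h3, h4⟩
    · exact htst lo h1 h
    · rcases Nat.eq_or_lt_of_le h1 with rfl | h5
      · exact hbody h3
      · exact loopY_sound htst hbody cnt (lo + 1) h4 h5 (by omega)

/-- The recursion on the prefix of the rows. -/
def walk (Tst : ℕ → ℕ → (ℕ → ℕ) → Bool) (Leaf : List ℕ → Bool) (n p q N : ℕ) :
    ℕ → List ℕ → ℕ → ℕ → Bool
  | 0, pre, _, _ =>
    if pre.sum == N && pre.all (fun x => Nat.ble 2 x) then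
      Tst p q (envE n q N pre 0) || Leaf (pre ++ List.replicate (p - q) 1)
    else true
  | d + 1, pre, last, Ymin =>
    loopY (fun v => walk Tst Leaf n p q N d (pre ++ [v]) v 0)
      (fun Y => Tst p q (envE n q N pre Y))
      (min last (N - pre.sum - 2 * d) + 1 - max Ymin ((N - pre.sum + d) / (d + 1)))
      (max Ymin ((N - pre.sum + d) / (d + 1)))

/-- All cells of the level. -/
def treeOK (Tst : ℕ → ℕ → (ℕ → ℕ) → Bool) (Leaf : List ℕ → Bool) (n c : ℕ) : Bool :=
  (List.range (2 * c - 1)).all fun p => (List.range (p + 1)).all fun q =>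
    if p + q ≤ 2 * c - 2 then walk Tst Leaf n p q (n + q - p) q [] (n + q - p) (min c p) else true

section Sound

variable {Goal : YoungDiagram → Prop} {Tst : ℕ → ℕ → (ℕ → ℕ) → Bool} {Leaf : List ℕ → Bool}
  {n c : ℕ}

theorem rowLens_eq {ν : YoungDiagram} {pre : List ℕ} (hpre : IsPre ν pre)
    (hlen : pre.length = ν.colLen 1) :
    ν.rowLens = pre ++ List.replicate (ν.colLen 0 - ν.colLen 1) 1 := by
  have htb : ν.colLen 1 ≤ ν.colLen 0 := ν.colLen_anti 0 1 (by omega)
  obtain ⟨v, hv⟩ := Nat.exists_eq_add_of_le htb
  rw [YoungDiagram.rowLens, hv, List.range_add, List.map_append, ← hlen, ← hpre]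
  congr 1
  rw [List.map_map, Nat.add_sub_cancel_left]
  apply List.eq_replicate_iff.mpr
  refine ⟨by simp, ?_⟩
  intro b hb
  obtain ⟨i, hi, rfl⟩ := List.mem_map.mp hb
  have hi' := List.mem_range.mp hi
  simp only [Function.comp_apply]
  exact rowLen_eq_one ν (by omega) (by omega)

theorem walk_sound
    (hT : ∀ (ν : YoungDiagram) (p q : ℕ) (E : ℕ → ℕ), ν.card = n → ν.colLen 0 = p → ν.colLen 1 = q →
      (∀ j, E j ≤ rowsBelow ν j) → Tst p q E = true → Goal ν)
    (hL : ∀ ν : YoungDiagram, ν.card = n → Leaf ν.rowLens = true → Goal ν)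
    {ν : YoungDiagram} {p q N : ℕ} (hc : ν.card = n) (hp : ν.colLen 0 = p) (hq : ν.colLen 1 = q)
    (hN : N + p = n + q) :
    ∀ (d : ℕ) (pre : List ℕ) (last Ymin : ℕ), IsPre ν pre → pre.length + d = q →
      (0 < d → ν.rowLen pre.length ≤ last) → (0 < d → Ymin ≤ ν.rowLen pre.length) →
      walk Tst Leaf n p q N d pre last Ymin = true → Goal ν := by
  have hSq : rowsBelow ν q = N := by
    have := rowsBelow_colLen_one ν
    rw [hq, hc, hp] at this
    have htb : ν.colLen 1 ≤ ν.colLen 0 := ν.colLen_anti 0 1 (by omega)
    omega
  intro d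
  induction d with
  | zero =>
    intro pre last Ymin hpre hlen _ _ h
    simp only [walk] at h
    have hs : pre.sum == N := by
      have := hpre.sum
      rw [show pre.length = q by omega, hSq] at this
      simpa using this
    have hall : pre.all (fun x => Nat.ble 2 x) = true := by
      rw [List.all_eq_true]
      intro x hx
      obtain ⟨i, hi, rfl⟩ := hpre.get hx
      exact Nat.ble_eq.mpr (two_le_rowLen ν (by omega))
    rw [if_pos (by rw [hs, hall]; rfl)] at h
    rcases Bool.or_eq_true_iff.mp h with h | h
    · refine hT ν p q _ hc hp hq ?_ h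
      exact envE_le hc hq (by omega) hpre (by omega) (by omega)
    · refine hL ν hc ?_
      rw [rowLens_eq hpre (by omega), hp, hq]
      exact h
  | succ d ih =>
    intro pre last Ymin hpre hlen hlast hYmin h
    simp only [walk] at h
    set k := pre.length with hk
    have hkq : k < q := by omega
    set v := ν.rowLen k with hv
    have hS := hpre.sum
    rw [← hk] at hS
    have hmono := rowsBelow_add_le ν k (d + 1)
    have hmul := rowsBelow_add_mul_le ν k 0
    -- the rows below
    have hsucc : rowsBelow ν (k + 1) = rowsBelow ν k + v := rowsBelow_succ ν k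
    have hupper : rowsBelow ν q ≤ rowsBelow ν (k + 1) + d * v := by
      have := rowsBelow_add_le ν (k + 1) d
      have e1 : k + 1 + d = q := by omega
      rw [e1] at this
      have h1 : ν.rowLen (k + 1) ≤ v := ν.rowLen_anti _ _ (Nat.le_succ _)
      have h2 : d * ν.rowLen (k + 1) ≤ d * v := Nat.mul_le_mul_left _ h1
      omega
    have hlower : rowsBelow ν (k + 1) + 2 * d ≤ rowsBelow ν q := by
      have e1 : q = k + 1 + d := by omega
      have : ∀ i, i ≤ d → rowsBelow ν (k + 1) + 2 * i ≤ rowsBelow ν (k + 1 + i) := by
        intro i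
        induction i with
        | zero => simp
        | succ i ih2 =>
          intro hi
          have h3 := ih2 (by omega)
          have h4 := two_le_rowLen ν (i := k + 1 + i) (by omega)
          have h5 := rowsBelow_succ ν (k + 1 + i)
          rw [← add_assoc]
          omega
      have h6 := this d le_rfl
      rw [← e1] at h6
      exact h6
    have hlo1 : (N - pre.sum + d) / (d + 1) ≤ v := by
      apply Nat.le_of_lt_succ
      rw [Nat.div_lt_iff_lt_mul (by omega)]
      have h3 : N - pre.sum ≤ (d + 1) * v := by
        have : (d + 1) * v = d * v + v := by ring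
        omega
      have : (v + 1) * (d + 1) = (d + 1) * v + d + 1 := by ring
      rw [Nat.succ_eq_add_one, this]
      omega
    have hv1 : v ≤ last := hlast (by omega)
    have hv2 : Ymin ≤ v := hYmin (by omega)
    have hv3 : v ≤ N - pre.sum - 2 * d := by omega
    refine loopY_sound (v := v) ?_ ?_ _ _ h (max_le hv2 hlo1) ?_
    · intro Y hY hy
      refine hT ν p q _ hc hp hq ?_ hy
      exact envE_le hc hq (by omega) hpre (by omega) (fun _ => hY)
    · intro hb
      refine ih (pre ++ [v]) v 0 hpre.snoc (by simp; omega) ?_ ?_ hb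
      · intro _
        simp only [List.length_append, List.length_cons, List.length_nil, zero_add]
        exact ν.rowLen_anti _ _ (by omega)
      · intro _
        exact Nat.zero_le _
    · have := Nat.le_min.mpr ⟨hv1, hv3⟩
      have h7 : max Ymin ((N - pre.sum + d) / (d + 1)) ≤ v := max_le hv2 hlo1
      omega

/-- **The checker is sound.** -/
theorem treeOK_sound (hc1 : 1 ≤ c)
    (hT : ∀ (ν : YoungDiagram) (p q : ℕ) (E : ℕ → ℕ), ν.card = n → ν.colLen 0 = p → ν.colLen 1 = q →
      (∀ j, E j ≤ rowsBelow ν j) → Tst p q E = true → Goal ν)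
    (hL : ∀ ν : YoungDiagram, ν.card = n → Leaf ν.rowLens = true → Goal ν)
    (h : treeOK Tst Leaf n c = true) (ν : YoungDiagram) (hc : ν.card = n)
    (hpq : ν.colLen 0 + ν.colLen 1 ≤ 2 * (c - 1))
    (hor : c ≤ ν.rowLen 0 ∨ ν.colLen 0 ≤ ν.rowLen 0) : Goal ν := by
  have htb : ν.colLen 1 ≤ ν.colLen 0 := ν.colLen_anti 0 1 (by omega)
  have hcard : ν.colLen 0 ≤ ν.card := by
    have h1 := rowsBelow_colLen_one ν
    have h2 : 2 * ν.colLen 1 ≤ rowsBelow ν (ν.colLen 1) := by
      have : ∀ i, i ≤ ν.colLen 1 → 2 * i ≤ rowsBelow ν i := by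
        intro i
        induction i with
        | zero => simp
        | succ i ih2 =>
          intro hi
          have h3 := ih2 (by omega)
          have h4 := two_le_rowLen ν (i := i) (by omega)
          have h5 := rowsBelow_succ ν i
          omega
      exact this _ le_rfl
    omega
  simp only [treeOK, List.all_eq_true, List.mem_range] at h
  have h1 := h (ν.colLen 0) (by omega) (ν.colLen 1) (by omega)
  rw [if_pos (by omega)] at h1
  refine walk_sound hT hL hc rfl rfl (by omega) (ν.colLen 1) [] _ _ ?_ (by simp) ?_ ?_ h1
  · simp [IsPre]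
  · intro hq0
    simp only [List.length_nil]
    have hr := rowsBelow_colLen_one ν
    have h2 : rowsBelow ν 1 ≤ rowsBelow ν (ν.colLen 1) := rowsBelow_mono ν (by omega)
    rw [rowsBelow_one] at h2
    omega
  · intro _
    simp only [List.length_nil]
    rcases hor with h2 | h2
    · exact (Nat.min_le_left _ _).trans h2
    · exact (Nat.min_le_right _ _).trans h2

end Sound

end Crest.Agent.Saxl.TreeCheck
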