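import Crest.Agent.Lib.Saxl.TreeTests
import Crest.Agent.Lib.Saxl.BaseCert

/-!
# Exceptions of the prefix-tree checker from the semigroup (row 195, S0298, helper58)
-/

set_option autoImplicit false

namespace Crest.Agent.Saxl.TreeCheck

open Crest.Agent.Saxl Crest.Agent.Saxl.Family Crest.Agent.Saxl.Kron

/-- A positive triple of column heights gives the occurrence for the label `ν`. -/
theorem labelOcc_of_G {l : List BK} (hg : Good l) {H : List ℕ}
    (hH : (List.range (twidth l)).map (colHL l) = H) (hp : ∀ x ∈ H, 0 < x) {n : ℕ} {e : List ℕ}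
    (h : G (dualL e, H, H)) (ν : YoungDiagram) (hc : ν.card = n) (hr : ν.rowLens = e) :
    LabelOcc (cellsL l) n ν := by
  intro S _ _ hcard V _ _ _ ρ hρ hlab
  obtain ⟨T⟩ := exists_tab (S := S) ν (by rw [hc, hcard])
  have hD := hts_toDiagram hg hH hp
  have hν : hts ν = ((dualL e : List ℕ) : Multiset ℕ) := by
    subst hr
    have h1 := hts_ofRowLens (lam := ν.rowLens) ν.rowLens_sorted
      (fun x hx => YoungDiagram.pos_of_mem_rowLens ν x hx)
    rwa [YoungDiagram.ofRowLens_to_rowLens_eq_self] at h1
  have h2 : Real3 (hts ν) (hts (toDiagram (cellsL l) hg.low)) (hts (toDiagram (cellsL l) hg.low)) := by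
    rw [hν, hD]
    exact h
  exact occurs_of_real3 T h2 hρ hlab

end Crest.Agent.Saxl.TreeCheck
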