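import Crest.Agent.Lib.Saxl.TreeCheck
import Crest.Agent.Lib.Saxl.KronCert
import Crest.Agent.Lib.Saxl.CoverArith

/-!
# The tests of the prefix-tree checker (row 195, S0298, helper58)

`stdTst`: the monotone tests (long, mixed, no placed double, one placed double by the simple test) for
a lower bound `E` of the partial sums.  `stdLeaf`: the exact tests when all the rows are known: one or
two placed doubles with explicit rows, a table of exceptions.
-/

set_option autoImplicit false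

open scoped BigOperators
open Finset

namespace Crest.Agent.Saxl.TreeCheck

open Crest.Agent.Saxl.Family Crest.Agent.Saxl.CoverArith

/-- A test for `k = 1, …, q`. -/
def allK (q : ℕ) (f : ℕ → Bool) : Bool := (List.range q).all fun i => f (i + 1)

theorem allK_spec {q : ℕ} {f : ℕ → Bool} (h : allK q f = true) {k : ℕ} (h1 : 1 ≤ k) (h2 : k ≤ q) :
    f k = true := by
  simp only [allK, List.all_eq_true, List.mem_range] at h
  have := h (k - 1) (by omega)
  rwa [Nat.sub_add_cancel h1] at this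

/-! ### The monotone tests -/

def longT (c b c₁ b₁ : ℕ) (E : ℕ → ℕ) : Bool :=
  Nat.ble c (E 1) && Nat.ble (c + b) (E 2) && Nat.ble (c + b + c₁) (E 3) &&
    Nat.ble (c + b + c₁ + b₁) (E 4)

def mixT (c b c₁ b₁ p : ℕ) (E : ℕ → ℕ) : Bool :=
  Nat.ble (c₁ + b₁) p && Nat.ble (c + (1 - (p - (c₁ + b₁)))) (E 1) &&
    Nat.ble (c + b + (2 - (p - (c₁ + b₁)))) (E 2)

def domT (B : List ℕ) (M p q : ℕ) (E : ℕ → ℕ) : Bool :=
  Nat.ble p M && allK q fun k => Nat.ble (B.getD k 0) (E k)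

def simT (B : List ℕ) (h M p q : ℕ) (E : ℕ → ℕ) : Bool :=
  Nat.ble (h + 1) (E 1) && Nat.ble (2 * h + 1) (E 2) && Nat.ble p (M + 1) && Nat.ble q M &&
    allK q (fun k => Nat.ble (B.getD k 0 + 1) (E k)) &&
    allK (q - 2) (fun k => Nat.ble (B.getD k 0 + 2 * h + 1) (E (k + 2)))

section Monotone

variable {ν : YoungDiagram} {E : ℕ → ℕ}

theorem longT_sound {c b c₁ b₁ : ℕ} (hE : ∀ j, E j ≤ rowsBelow ν j)
    (h : longT c b c₁ b₁ E = true) : LongOK c b c₁ b₁ ν := by
  simp only [longT, Bool.and_eq_true, Nat.ble_eq] at h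
  obtain ⟨⟨⟨h1, h2⟩, h3⟩, h4⟩ := h
  exact ⟨h1.trans (hE 1), h2.trans (hE 2), h3.trans (hE 3), h4.trans (hE 4)⟩

theorem mixT_sound {c b c₁ b₁ p : ℕ} (hp : ν.colLen 0 = p) (hE : ∀ j, E j ≤ rowsBelow ν j)
    (h : mixT c b c₁ b₁ p E = true) : MixOK c b c₁ b₁ ν := by
  simp only [mixT, Bool.and_eq_true, Nat.ble_eq] at h
  obtain ⟨⟨h1, h2⟩, h3⟩ := h
  subst hp
  exact ⟨h1, h2.trans (hE 1), h3.trans (hE 2)⟩

theorem domT_sound {B : List ℕ} {M p q : ℕ} (hp : ν.colLen 0 = p) (hq : ν.colLen 1 = q)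
    (hE : ∀ j, E j ≤ rowsBelow ν j) (h : domT B M p q E = true) :
    DomOK (fun k => B.getD k 0) M ν := by
  simp only [domT, Bool.and_eq_true, Nat.ble_eq] at h
  obtain ⟨h1, h2⟩ := h
  subst hp hq
  refine ⟨h1, fun k hk hkq => ?_⟩
  have := allK_spec h2 hk hkq
  simp only [Nat.ble_eq] at this
  exact this.trans (hE k)

theorem simT_sound {B : List ℕ} {h M p q : ℕ} (hp : ν.colLen 0 = p) (hq : ν.colLen 1 = q)
    (hE : ∀ j, E j ≤ rowsBelow ν j) (H : simT B h M p q E = true) :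
    SimpleOK (fun k => B.getD k 0) h M ν := by
  simp only [simT, Bool.and_eq_true, Nat.ble_eq] at H
  obtain ⟨⟨⟨⟨⟨h1, h2⟩, h3⟩, h4⟩, h5⟩, h6⟩ := H
  subst hp hq
  refine ⟨?_, h2.trans (hE 2), h3, h4, fun k hk hkq => ?_, fun k hk hkq => ?_⟩
  · rw [← rowsBelow_one]
    exact h1.trans (hE 1)
  · have := allK_spec h5 hk hkq
    simp only [Nat.ble_eq] at this
    exact this.trans (hE k)
  · have := allK_spec h6 hk (by omega)
    simp only [Nat.ble_eq] at this
    exact this.trans (hE (k + 2))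

end Monotone

/-! ### The rows as a list -/

theorem rowLens_getD (ν : YoungDiagram) (k : ℕ) : ν.rowLens.getD k 0 = ν.rowLen k := by
  by_cases hk : k < ν.colLen 0
  · simp [YoungDiagram.rowLens, List.getD_eq_getElem?_getD, hk]
  · have h0 := CoverArith.rowLen_colLen_zero ν (not_lt.mp hk)
    rw [h0, List.getD_eq_default]
    simpa using not_lt.mp hk

theorem rowLens_take_sum (ν : YoungDiagram) (k : ℕ) : (ν.rowLens.take k).sum = rowsBelow ν k := by
  rw [YoungDiagram.rowLens, ← List.map_take, List.take_range, sum_map_range, ← rowsBelow_eq_sum]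
  by_cases hk : k ≤ ν.colLen 0
  · rw [min_eq_left hk]
  · rw [min_eq_right (by omega)]
    have h1 : rowsBelow ν (ν.colLen 0) = ν.card := by
      rw [rowsBelow_eq_card_of_rowLen_eq_zero (CoverArith.rowLen_colLen_zero ν le_rfl)]
    have h2 : rowsBelow ν k = ν.card := by
      rw [rowsBelow_eq_card_of_rowLen_eq_zero (CoverArith.rowLen_colLen_zero ν (by omega))]
    omega

/-! ### The numbers of the parts -/

section Parts

variable {l : List BK}

/-- The majorant for `k` parts off the double `i₀` of height `H` is `B k`. -/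
def chkOff (l : List BK) (H : ℕ) (B : List ℕ) (M : ℕ) : Bool :=
  allK M fun k =>
    let b := B.getD k 0 - B.getD (k - 1) 0
    Nat.ble (k * b + (exL b l - (2 * H - b))) (B.getD k 0)

theorem card_off_le (i₀ : Fin l.length) {M : ℕ} (hM : lenL l ≤ M + lenK l[i₀.1])
    (T : Finset (Σ i, Fin (psL l i).length)) (hT : ∀ p ∈ T, p.1 ≠ i₀) : T.card ≤ M := by
  have h1 : T ⊆ Finset.univ.filter (fun p : (Σ i, Fin (psL l i).length) => p.1 ≠ i₀) := by
    intro p hp
    exact Finset.mem_filter.mpr ⟨Finset.mem_univ _, hT p hp⟩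
  have h2 := Finset.card_le_card h1
  rw [card_off] at h2
  omega

theorem parts_off_B (i₀ : Fin l.length) {H : ℕ} (hH : l[i₀.1] = BK.dbl H) {B : List ℕ} {M : ℕ}
    (hM : lenL l ≤ M + 1) (hB : chkOff l H B M = true)
    (T : Finset (Σ i, Fin (psL l i).length)) (hT : ∀ p ∈ T, p.1 ≠ i₀) :
    ∑ p ∈ T, (psL l p.1)[p.2.1] ≤ B.getD T.card 0 := by
  have hcard : T.card ≤ M := card_off_le i₀ (by rw [hH]; simpa using hM) T hT
  by_cases h0 : T.card = 0
  · rw [Finset.card_eq_zero.mp h0]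
    simp
  · have h1 := allK_spec hB (k := T.card) (by omega) hcard
    simp only [Nat.ble_eq] at h1
    have h2 := sum_T_le_line_off (B.getD T.card 0 - B.getD (T.card - 1) 0) i₀ T hT
    rw [hH, exK_dbl] at h2
    exact h2.trans h1

theorem parts_off_tail (hnd : ∀ K ∈ l, Nondeg K) (i₀ : Fin l.length) {H : ℕ}
    (hH : l[i₀.1] = BK.dbl H) {M : ℕ} (hM : M + 1 = lenL l) (hs : 2 * H ≤ szL l)
    (T : Finset (Σ i, Fin (psL l i).length)) (hT : ∀ p ∈ T, p.1 ≠ i₀) :
    T.card ≤ M ∧ ∑ p ∈ T, (psL l p.1)[p.2.1] + (M - T.card) + 2 * H ≤ szL l := by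
  refine ⟨card_off_le i₀ (by rw [hH]; simp; omega) T hT, ?_⟩
  have h1 := sum_T_add_le_off hnd i₀ (t := M) (by rw [hH]; simp; omega) T hT
  rw [hH] at h1
  simp only [BK.size] at h1
  omega

/-- The majorant for `k` parts. -/
def chkAll (l : List BK) (B : List ℕ) (M : ℕ) : Bool :=
  allK M fun k =>
    let b := B.getD k 0 - B.getD (k - 1) 0
    Nat.ble (k * b + exL b l) (B.getD k 0)

theorem parts_all_B {B : List ℕ} {M : ℕ} (hM : lenL l ≤ M) (hB : chkAll l B M = true)
    (T : Finset (Σ i, Fin (psL l i).length)) :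
    ∑ p ∈ T, (psL l p.1)[p.2.1] ≤ B.getD T.card 0 := by
  have hcard : T.card ≤ M := by
    have := Finset.card_le_univ T
    rw [card_all] at this
    omega
  by_cases h0 : T.card = 0
  · rw [Finset.card_eq_zero.mp h0]
    simp
  · have h1 := allK_spec hB (k := T.card) (by omega) hcard
    simp only [Nat.ble_eq] at h1
    have h2 := sum_T_le_line_all (B.getD T.card 0 - B.getD (T.card - 1) 0) T
    exact h2.trans h1

theorem parts_all_tail (hnd : ∀ K ∈ l, Nondeg K) {M : ℕ} (hM : M = lenL l)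
    (T : Finset (Σ i, Fin (psL l i).length)) :
    T.card ≤ M ∧ ∑ p ∈ T, (psL l p.1)[p.2.1] + (M - T.card) ≤ szL l := by
  constructor
  · have := Finset.card_le_univ T
    rw [card_all] at this
    omega
  · exact sum_T_add_le_all hnd (by omega) T

end Parts

/-! ### One placed double, exact -/

/-- One placed double with rows `2 h - 2 t`, `2 t`, for a diagram with the rows `rows`. -/
def placed1 (B : List ℕ) (h M : ℕ) (rows : List ℕ) (t : ℕ) : Bool :=
  let a := 2 * h - 2 * t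
  let b := 2 * t
  Nat.ble b a && Nat.ble t h && Nat.ble a (rows.getD 0 0) && Nat.ble b (rows.getD 1 0) &&
    allK M fun k =>
      Nat.ble (B.getD k 0 + (a - rows.getD k 0) + (b - rows.getD (k + 1) 0)) ((rows.take k).sum)

def placedAny (B : List ℕ) (h M : ℕ) (rows : List ℕ) : Bool :=
  (List.range (h + 1)).any fun t => placed1 B h M rows t

theorem chainOK_of_placedAny {l : List BK} (i₀ : Fin l.length) {H : ℕ} (hH : l[i₀.1] = BK.dbl H)
    {B : List ℕ} {M : ℕ} (hM : lenL l ≤ M + 1) (hB : chkOff l H B M = true) {ν : YoungDiagram}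
    (h : placedAny B H M ν.rowLens = true) : ChainOK l (psL l) ν := by
  simp only [placedAny, List.any_eq_true, List.mem_range] at h
  obtain ⟨t, -, ht⟩ := h
  simp only [placed1, Bool.and_eq_true, Nat.ble_eq, rowLens_getD] at ht
  obtain ⟨⟨⟨⟨h1, h2⟩, h3⟩, h4⟩, h5⟩ := ht
  refine chainOK_of_placed' i₀ hH h1 ⟨H - t, by omega⟩ ⟨t, by omega⟩ (by omega) h3 h4 ?_
  intro T hT hT1
  have hcard := card_off_le i₀ (M := M) (by rw [hH]; simpa using hM) T hT
  have h6 := allK_spec h5 hT1 hcard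
  simp only [Nat.ble_eq, rowLens_getD, rowLens_take_sum] at h6
  have h7 := parts_off_B i₀ hH hM hB T hT
  omega

/-! ### Two placed doubles -/

/-- Two placed doubles in the rows `0, 1, 2, 3`. -/
def eta4 (a b a' b' : ℕ) : ℕ → ℕ := fun y =>
  if y = 0 then a else if y = 1 then b else if y = 2 then a' else if y = 3 then b' else 0

lemma eta4_anti {a b a' b' : ℕ} (h1 : b ≤ a) (h2 : a' ≤ b) (h3 : b' ≤ a') :
    Antitone (eta4 a b a' b') := by
  intro y y' h
  simp only [eta4]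
  split_ifs <;> omega

lemma eta4_le {ν : YoungDiagram} {a b a' b' : ℕ} (h1 : a ≤ ν.rowLen 0) (h2 : b ≤ ν.rowLen 1)
    (h3 : a' ≤ ν.rowLen 2) (h4 : b' ≤ ν.rowLen 3) (y : ℕ) : eta4 a b a' b' y ≤ ν.rowLen y := by
  simp only [eta4]
  split_ifs with h5 h6 h7 h8
  · rwa [h5]
  · rwa [h6]
  · rwa [h7]
  · rwa [h8]
  · exact Nat.zero_le _

lemma sum_range_four {L : ℕ} (hL : 4 ≤ L) (f : ℕ → ℕ) (h : ∀ y, 4 ≤ y → f y = 0) :
    ∑ y ∈ range L, f y = f 0 + f 1 + f 2 + f 3 := by
  obtain ⟨m, rfl⟩ : ∃ m, L = m + 4 := ⟨L - 4, by omega⟩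
  rw [Finset.sum_range_succ', Finset.sum_range_succ', Finset.sum_range_succ',
    Finset.sum_range_succ', Finset.sum_eq_zero (fun y _ => h _ (by omega))]
  simp only [zero_add, Nat.reduceAdd]
  omega

/-- **The chain test with two placed doubles.** -/
theorem chainOK_two {l : List BK} {ps : Fin l.length → List ℕ} {ν : YoungDiagram}
    (i₀ i₁ : Fin l.length) (hne : i₀ ≠ i₁) {h h' a b a' b' : ℕ} (hi₀ : l[i₀.1] = BK.dbl h)
    (hi₁ : l[i₁.1] = BK.dbl h') (hab : a + b = 2 * h) (hab' : a' + b' = 2 * h')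
    (hb : Even b) (hb' : Even b') (h1 : b ≤ a) (h2 : a' ≤ b) (h3 : b' ≤ a')
    (r0 : a ≤ ν.rowLen 0) (r1 : b ≤ ν.rowLen 1) (r2 : a' ≤ ν.rowLen 2) (r3 : b' ≤ ν.rowLen 3)
    (hL : 4 ≤ ν.colLen 0)
    (hdom : ∀ T : Finset (Σ i, Fin (ps i).length), (∀ p ∈ T, p.1 ≠ i₀ ∧ p.1 ≠ i₁) → 1 ≤ T.card →
      ∑ p ∈ T, (ps p.1)[p.2.1] + ((a - ν.rowLen T.card) + (b - ν.rowLen (T.card + 1)) +
        (a' - ν.rowLen (T.card + 2)) + (b' - ν.rowLen (T.card + 3))) ≤ rowsBelow ν T.card) :
    ChainOK l ps ν := by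
  classical
  have h10 : a' ≤ a := by omega
  have h11 : b' ≤ b := by omega
  refine ⟨2, ![i₀, i₁], fun i => if i = 0 then fun _ => 0 else if i = 1 then eta2 a b
    else eta4 a b a' b', ?_, ?_, ?_, ?_, ?_, ?_, ?_, ?_, ?_, ?_⟩
  · intro x y hxy
    fin_cases x <;> fin_cases y <;> simp_all
  · intro x
    fin_cases x
    · exact ⟨h, hi₀⟩
    · exact ⟨h', hi₁⟩
  · intro y
    simp
  · intro i hi y
    have : i = 0 ∨ i = 1 := by omega
    rcases this with rfl | rfl
    · simp
    · simp only [one_ne_zero, if_false, if_true, Nat.reduceAdd, Nat.add_eq_zero_iff,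
        OfNat.ofNat_ne_zero, OfNat.ofNat_ne_one]
      simp only [eta2, eta4]
      split_ifs <;> omega
  · intro i hi
    have : i = 0 ∨ i = 1 ∨ i = 2 := by omega
    rcases this with rfl | rfl | rfl
    · simpa using antitone_const
    · simpa using eta2_anti h1
    · simpa using eta4_anti h1 h2 h3
  · intro y
    simpa using eta4_le r0 r1 r2 r3 y
  · intro i hi y
    have : i = 0 ∨ i = 1 := by omega
    rcases this with rfl | rfl
    · simp [eta2]
    · simp only [one_ne_zero, if_false, if_true, Nat.reduceAdd, OfNat.ofNat_ne_zero,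
        OfNat.ofNat_ne_one]
      simp only [eta2, eta4]
      rcases y with _ | _ | y
      · simpa using h10
      · simpa using h11
      · simp
  · refine Fin.forall_fin_two.mpr ⟨?_, ?_⟩
    · show ∑ y ∈ range (ν.colLen 0), (eta2 a b y - 0) = (l[i₀.1]).size
      rw [hi₀, sum_range_four hL _ (by
        intro y hy
        simp only [eta2]
        rw [if_neg (by omega), if_neg (by omega)])]
      simp [eta2, BK.size, hab]
    · show ∑ y ∈ range (ν.colLen 0), (eta4 a b a' b' y - eta2 a b y) = (l[i₁.1]).size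
      rw [hi₁, sum_range_four hL _ (by
        intro y hy
        simp only [eta2, eta4]
        rw [if_neg (by omega), if_neg (by omega), if_neg (by omega), if_neg (by omega), if_neg (by omega),
          if_neg (by omega)])]
      simp [eta2, eta4, BK.size, hab']
  · intro i hi
    have : i = 0 ∨ i = 1 := by omega
    rcases this with rfl | rfl
    · simp only [zero_add, if_true, one_ne_zero, if_false, Nat.sub_zero]
      rw [sum_range_four hL _ (by
        intro y hy
        simp only [eta2]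
        rw [if_neg (by omega), if_neg (by omega)]
        simp)]
      simpa [eta2] using hb
    · simp only [Nat.reduceAdd, one_ne_zero, if_false, if_true, OfNat.ofNat_ne_zero,
        OfNat.ofNat_ne_one]
      rw [sum_range_four hL _ (by
        intro y hy
        simp only [eta2, eta4]
        rw [if_neg (by omega), if_neg (by omega), if_neg (by omega), if_neg (by omega), if_neg (by omega),
          if_neg (by omega)]
        simp)]
      simp only [eta2, eta4]
      norm_num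
      obtain ⟨w, hw⟩ := hb'
      exact ⟨a' + 3 * w, by subst hw; ring⟩
  · intro T hT
    by_cases hT1 : T.card = 0
    · rw [Finset.card_eq_zero.mp hT1]
      simp
    · have hT' : ∀ p ∈ T, p.1 ≠ i₀ ∧ p.1 ≠ i₁ := by
        intro p hp
        exact ⟨hT p hp 0, hT p hp 1⟩
      have h5 := hdom T hT' (by omega)
      have h6 := colF_formula ν (eta4 a b a' b') (eta4_anti h1 h2 h3) (eta4_le r0 r1 r2 r3) T.card
      have hsum : ∑ y ∈ range (ν.colLen 0), (eta4 a b a' b' y - ν.rowLen (T.card + y)) =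
          (a - ν.rowLen T.card) + (b - ν.rowLen (T.card + 1)) +
            (a' - ν.rowLen (T.card + 2)) + (b' - ν.rowLen (T.card + 3)) := by
        rw [sum_range_four hL _ (by
          intro y hy
          simp only [eta4]
          rw [if_neg (by omega), if_neg (by omega), if_neg (by omega), if_neg (by omega)]
          simp)]
        simp [eta4]
      rw [hsum] at h6
      have h7 := rowsBelow_eq_sum ν T.card
      have h8 : ∑ p ∈ T, (ps p.1)[p.2.1] ≤ F (ν.rowLen 0) (colX ν (eta4 a b a' b')) T.card := by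
        omega
      simpa [F, colX] using h8

/-- The majorant for `k` parts off two doubles. -/
def chkOff2 (l : List BK) (H H' : ℕ) (B : List ℕ) (M : ℕ) : Bool :=
  allK M fun k =>
    let b := B.getD k 0 - B.getD (k - 1) 0
    Nat.ble (k * b + (exL b l - (2 * H - b) - (2 * H' - b))) (B.getD k 0)

section Two

variable {l : List BK}

theorem sum_erase_two (f : BK → ℕ) {i₀ i₁ : Fin l.length} (hne : i₀ ≠ i₁) :
    ∑ i ∈ Finset.univ.filter (fun i : Fin l.length => i ≠ i₀ ∧ i ≠ i₁), f l[i.1] =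
      (l.map f).sum - f l[i₀.1] - f l[i₁.1] := by
  classical
  have h1 : (l.map f).sum = ∑ i : Fin l.length, f l[i.1] :=
    (Fin.sum_univ_fun_getElem l f).symm
  have h2 : i₁ ∈ (Finset.univ : Finset (Fin l.length)).erase i₀ :=
    Finset.mem_erase.mpr ⟨hne.symm, Finset.mem_univ _⟩
  rw [h1, ← Finset.add_sum_erase _ _ (Finset.mem_univ i₀), ← Finset.add_sum_erase _ _ h2]
  rw [Nat.add_sub_cancel_left, Nat.add_sub_cancel_left]
  apply Finset.sum_congr
  · ext i
    simp [and_comm]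
  · intro i _
    rfl

theorem card_off_two_le {i₀ i₁ : Fin l.length} (hne : i₀ ≠ i₁) {M : ℕ}
    (hM : lenL l ≤ M + lenK l[i₀.1] + lenK l[i₁.1])
    (T : Finset (Σ i, Fin (psL l i).length)) (hT : ∀ p ∈ T, p.1 ≠ i₀ ∧ p.1 ≠ i₁) : T.card ≤ M := by
  classical
  have h1 : T ⊆ Finset.univ.filter (fun p : (Σ i, Fin (psL l i).length) => p.1 ≠ i₀ ∧ p.1 ≠ i₁) := by
    intro p hp
    exact Finset.mem_filter.mpr ⟨Finset.mem_univ _, hT p hp⟩
  have h2 := Finset.card_le_card h1
  rw [card_filter_sigma (ps := psL l) (fun i => i ≠ i₀ ∧ i ≠ i₁)] at h2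
  have h3 := sum_erase_two (l := l) lenK hne
  have h4 : ∑ i ∈ Finset.univ.filter (fun i : Fin l.length => i ≠ i₀ ∧ i ≠ i₁), (psL l i).length =
      ∑ i ∈ Finset.univ.filter (fun i : Fin l.length => i ≠ i₀ ∧ i ≠ i₁), lenK l[i.1] := rfl
  rw [h4, h3] at h2
  have h5 : lenL l = (l.map lenK).sum := rfl
  omega

theorem parts_off2_B {i₀ i₁ : Fin l.length} (hne : i₀ ≠ i₁) {H H' : ℕ} (hH : l[i₀.1] = BK.dbl H)
    (hH' : l[i₁.1] = BK.dbl H') {B : List ℕ} {M : ℕ} (hM : lenL l ≤ M + 2)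
    (hB : chkOff2 l H H' B M = true)
    (T : Finset (Σ i, Fin (psL l i).length)) (hT : ∀ p ∈ T, p.1 ≠ i₀ ∧ p.1 ≠ i₁) :
    ∑ p ∈ T, (psL l p.1)[p.2.1] ≤ B.getD T.card 0 := by
  classical
  have hcard : T.card ≤ M := card_off_two_le hne (by rw [hH, hH']; simpa using hM) T hT
  by_cases h0 : T.card = 0
  · rw [Finset.card_eq_zero.mp h0]
    simp
  · have h1 := allK_spec hB (k := T.card) (by omega) hcard
    simp only [Nat.ble_eq] at h1
    have h2 := sum_T_le_line (l := l) (B.getD T.card 0 - B.getD (T.card - 1) 0)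
      (fun i => i ≠ i₀ ∧ i ≠ i₁) T hT
    rw [sum_erase_two (exK _) hne, hH, hH', exK_dbl, exK_dbl] at h2
    exact h2.trans h1

end Two

/-- Two placed doubles, rows `2 h - 2 t, 2 t, 2 h' - 2 t', 2 t'`. -/
def placed2 (B : List ℕ) (h h' M : ℕ) (rows : List ℕ) (t t' : ℕ) : Bool :=
  let a := 2 * h - 2 * t
  let b := 2 * t
  let a' := 2 * h' - 2 * t'
  let b' := 2 * t'
  Nat.ble b a && Nat.ble t h && Nat.ble a' b && Nat.ble b' a' && Nat.ble t' h' &&
    Nat.ble a (rows.getD 0 0) && Nat.ble b (rows.getD 1 0) && Nat.ble a' (rows.getD 2 0) &&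
    Nat.ble b' (rows.getD 3 0) && Nat.ble 1 (rows.getD 3 0) &&
    allK M fun k =>
      Nat.ble (B.getD k 0 + ((a - rows.getD k 0) + (b - rows.getD (k + 1) 0) +
        (a' - rows.getD (k + 2) 0) + (b' - rows.getD (k + 3) 0))) ((rows.take k).sum)

def placedAny2 (B : List ℕ) (h h' M : ℕ) (rows : List ℕ) : Bool :=
  (List.range (h + 1)).any fun t => (List.range (h' + 1)).any fun t' => placed2 B h h' M rows t t'

theorem chainOK_of_placedAny2 {l : List BK} {i₀ i₁ : Fin l.length} (hne : i₀ ≠ i₁) {H H' : ℕ}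
    (hH : l[i₀.1] = BK.dbl H) (hH' : l[i₁.1] = BK.dbl H')
    {B : List ℕ} {M : ℕ} (hM : lenL l ≤ M + 2) (hB : chkOff2 l H H' B M = true) {ν : YoungDiagram}
    (h : placedAny2 B H H' M ν.rowLens = true) : ChainOK l (psL l) ν := by
  simp only [placedAny2, List.any_eq_true, List.mem_range] at h
  obtain ⟨t, -, t', -, ht⟩ := h
  simp only [placed2, Bool.and_eq_true, Nat.ble_eq, rowLens_getD] at ht
  obtain ⟨⟨⟨⟨⟨⟨⟨⟨⟨⟨h1, h2⟩, h3⟩, h4⟩, h5⟩, r0⟩, r1⟩, r2⟩, r3⟩, r4⟩, h6⟩ := ht
  have hL : 4 ≤ ν.colLen 0 := by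
    have := (lt_colLen_iff_lt_rowLen ν 3 0).mpr (by omega)
    omega
  refine chainOK_two i₀ i₁ hne hH hH' (a := 2 * H - 2 * t) (b := 2 * t) (a' := 2 * H' - 2 * t')
    (b' := 2 * t') (by omega) (by omega) ⟨t, by omega⟩ ⟨t', by omega⟩ h1 h3 h4 r0 r1 r2 r3 hL ?_
  intro T hT hT1
  have hcard := card_off_two_le hne (M := M) (by rw [hH, hH']; simpa using hM) T hT
  have h7 := allK_spec h6 hT1 hcard
  simp only [Nat.ble_eq, rowLens_getD, rowLens_take_sum] at h7
  have h8 := parts_off2_B hne hH hH' hM hB T hT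
  omega

/-! ### The tables -/

/-- A double of the list with its numbers. -/
structure SimD where
  i : ℕ
  h : ℕ
  B : List ℕ
  M : ℕ

/-- The height of the double number `i` of the list, `0` if it is not a double. -/
def dblAt (l : List BK) (i : ℕ) : ℕ :=
  match l[i]? with
  | some (BK.dbl d) => d
  | _ => 0

theorem exists_of_dblAt {l : List BK} {i H : ℕ} (h : dblAt l i = H) (hH : 1 ≤ H) :
    ∃ i₀ : Fin l.length, i₀.1 = i ∧ l[i₀.1] = BK.dbl H := by
  unfold dblAt at h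
  split at h
  · rename_i d hd
    subst h
    obtain ⟨h1, h2⟩ := List.getElem?_eq_some_iff.mp hd
    exact ⟨⟨i, h1⟩, rfl, h2⟩
  · omega

def SimD.ok (l : List BK) (s : SimD) : Bool :=
  Nat.ble 1 s.h && Nat.beq (dblAt l s.i) s.h && Nat.beq (s.M + 1) (lenL l) &&
    Nat.ble (2 * s.h) (szL l) && chkOff l s.h s.B s.M

/-- The monotone tests. -/
def stdTst (c b c₁ b₁ : ℕ) (BD : List ℕ) (MD : ℕ) (sims : List SimD) (p q : ℕ) (E : ℕ → ℕ) : Bool :=
  longT c b c₁ b₁ E || mixT c b c₁ b₁ p E || domT BD MD p q E ||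
    sims.any fun s => simT s.B s.h s.M p q E

/-- Two placed doubles with their numbers. -/
structure TwoD where
  i : ℕ
  i' : ℕ
  h : ℕ
  h' : ℕ
  B : List ℕ
  M : ℕ

def TwoD.ok (l : List BK) (s : TwoD) : Bool :=
  Nat.ble 1 s.h && Nat.ble 1 s.h' && !(Nat.beq s.i s.i') && Nat.beq (dblAt l s.i) s.h &&
    Nat.beq (dblAt l s.i') s.h' && Nat.ble (lenL l) (s.M + 2) && chkOff2 l s.h s.h' s.B s.M

/-- The exact tests at a leaf. -/
def stdLeaf (sims : List SimD) (twos : List TwoD) (exc : List (List ℕ)) (rows : List ℕ) : Bool :=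
  sims.any (fun s => placedAny s.B s.h s.M rows) ||
    twos.any (fun s => placedAny2 s.B s.h s.h' s.M rows) ||
      exc.any fun e => Kron.leq e rows

section Level

variable {l' : List BK} {n : ℕ}

theorem chainOK_of_sim_simple (hnd : ∀ K ∈ l', Nondeg K) (hn : szL l' = n) {s : SimD}
    (hs : SimD.ok l' s = true) {ν : YoungDiagram} (hc : ν.card = n)
    (h : SimpleOK (fun k => s.B.getD k 0) s.h s.M ν) : ChainOK l' (psL l') ν := by
  simp only [SimD.ok, Bool.and_eq_true, Nat.ble_eq, Nat.beq_eq] at hs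
  obtain ⟨⟨⟨⟨h1, h2⟩, h3⟩, h4⟩, h5⟩ := hs
  obtain ⟨i₀, -, hi₀⟩ := exists_of_dblAt h2 h1
  refine chainOK_of_simple i₀ hi₀ h1 (fun k => s.B.getD k 0) (M := s.M) ?_ ?_ h
  · intro T hT
    exact parts_off_B i₀ hi₀ h3.ge h5 T hT
  · intro T hT
    rw [hc, ← hn]
    exact parts_off_tail hnd i₀ hi₀ h3 h4 T hT

theorem chainOK_of_sim_placed {s : SimD} (hs : SimD.ok l' s = true) {ν : YoungDiagram}
    (h : placedAny s.B s.h s.M ν.rowLens = true) : ChainOK l' (psL l') ν := by
  simp only [SimD.ok, Bool.and_eq_true, Nat.ble_eq, Nat.beq_eq] at hs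
  obtain ⟨⟨⟨⟨h1, h2⟩, h3⟩, h4⟩, h5⟩ := hs
  obtain ⟨i₀, -, hi₀⟩ := exists_of_dblAt h2 h1
  exact chainOK_of_placedAny i₀ hi₀ h3.ge h5 h

theorem chainOK_of_two_placed {s : TwoD} (hs : TwoD.ok l' s = true) {ν : YoungDiagram}
    (h : placedAny2 s.B s.h s.h' s.M ν.rowLens = true) : ChainOK l' (psL l') ν := by
  simp only [TwoD.ok, Bool.and_eq_true, Nat.ble_eq, Nat.beq_eq, Bool.not_eq_true'] at hs
  obtain ⟨⟨⟨⟨⟨⟨h1, h2⟩, h3⟩, h4⟩, h5⟩, h6⟩, h7⟩ := hs
  obtain ⟨i₀, hi, hi₀⟩ := exists_of_dblAt h4 h1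
  obtain ⟨i₁, hi', hi₁⟩ := exists_of_dblAt h5 h2
  have hne : i₀ ≠ i₁ := by
    intro he
    have : s.i = s.i' := by rw [← hi, ← hi', he]
    rw [this] at h3
    simp at h3
  exact chainOK_of_placedAny2 hne hi₀ hi₁ h6 h7 h

theorem chainOK_of_dom_tbl (hnd : ∀ K ∈ l', Nondeg K) (hn : szL l' = n) {BD : List ℕ} {MD : ℕ}
    (hMD : MD = lenL l') (hBD : chkAll l' BD MD = true) {ν : YoungDiagram} (hc : ν.card = n)
    (h : DomOK (fun k => BD.getD k 0) MD ν) : ChainOK l' (psL l') ν := by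
  refine chainOK_of_domOK (fun k => BD.getD k 0) (M := MD) ?_ ?_ h
  · intro T
    exact parts_all_B hMD.ge hBD T
  · intro T
    rw [hc, ← hn]
    exact parts_all_tail hnd hMD T

/-- The goal at a level. -/
def GoalL (c b c₁ b₁ n : ℕ) (l' : List BK) (ν : YoungDiagram) : Prop :=
  LongOK c b c₁ b₁ ν ∨ ChainOK l' (psL l') ν ∨ LabelOcc (cellsL l') n ν

theorem stdLeaf_sound {c b c₁ b₁ : ℕ} {sims : List SimD} {twos : List TwoD} {exc : List (List ℕ)}
    (hs : sims.all (SimD.ok l') = true) (ht : twos.all (TwoD.ok l') = true)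
    (he : ∀ e ∈ exc, ∀ ν : YoungDiagram, ν.card = n → ν.rowLens = e → LabelOcc (cellsL l') n ν)
    (ν : YoungDiagram) (hc : ν.card = n) (h : stdLeaf sims twos exc ν.rowLens = true) :
    GoalL c b c₁ b₁ n l' ν := by
  simp only [stdLeaf, Bool.or_eq_true, List.any_eq_true] at h
  rcases h with (⟨s, hs1, hs2⟩ | ⟨s, hs1, hs2⟩) | ⟨e, he1, he2⟩
  · exact Or.inr (Or.inl (chainOK_of_sim_placed (List.all_eq_true.mp hs s hs1) hs2))
  · exact Or.inr (Or.inl (chainOK_of_two_placed (List.all_eq_true.mp ht s hs1) hs2))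
  · exact Or.inr (Or.inr (he e he1 ν hc (Kron.eq_of_leq he2).symm))

end Level

namespace Family

/-- **The level theorem from the tree.** -/
theorem universal_stepL_of_tree {l : List BK} (h : Good l) (d : Bool) {m n : ℕ}
    (U : Saxl.Universal (cellsL l) m) (hm : (cellsL l).card = m)
    (hn : n = cOf d l + (cOf d l - 1) + (cOf d l - 2) + (cOf d l - 3) + m)
    (hsz : szL (stepL d l) = n)
    {BD : List ℕ} {MD : ℕ} {sims : List SimD} {twos : List TwoD} {exc : List (List ℕ)}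
    (hMD : MD = lenL (stepL d l)) (hBD : chkAll (stepL d l) BD MD = true)
    (hs : sims.all (SimD.ok (stepL d l)) = true) (ht : twos.all (TwoD.ok (stepL d l)) = true)
    (he : ∀ e ∈ exc, ∀ ν : YoungDiagram, ν.card = n → ν.rowLens = e →
      LabelOcc (cellsL (stepL d l)) n ν)
    (htree : treeOK (stdTst (cOf d l) (cOf d l - 1) (cOf d l - 2) (cOf d l - 3) BD MD sims)
      (stdLeaf sims twos exc) n (cOf d l) = true) :
    Saxl.Universal (cellsL (stepL d l)) n := by
  subst hn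
  have hg := h.stepL d
  have hc := cOf_ge d l
  refine universal_stepL_of_rule h d U hm (psL _) (psL_sum _) (psL_ok hg.nd)
    (Q := ChainOK _ (psL _)) (R := LabelOcc _ _) (fun _ h => h) (fun _ h => h) ?_
  intro ν hν h1 h2
  refine treeOK_sound (Goal := GoalL _ _ _ _ _ _) (by omega) ?_ ?_ htree ν hν h1 h2
  · intro ν p q E hνc hp hq hE hT
    simp only [stdTst, Bool.or_eq_true, List.any_eq_true] at hT
    rcases hT with ((hT | hT) | hT) | ⟨s, hs1, hs2⟩
    · exact Or.inl (longT_sound hE hT)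
    · exact Or.inr (Or.inr (labelOcc_mix h d U (mixT_sound hp hE hT)))
    · exact Or.inr (Or.inl (chainOK_of_dom_tbl hg.nd hsz hMD hBD hνc (domT_sound hp hq hE hT)))
    · exact Or.inr (Or.inl (chainOK_of_sim_simple hg.nd hsz (List.all_eq_true.mp hs s hs1) hνc
        (simT_sound hp hq hE hs2)))
  · exact stdLeaf_sound hs ht he

end Family

end Crest.Agent.Saxl.TreeCheck
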