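import Crest.Agent.Lib.Saxl.Sees
import Crest.Agent.Lib.Saxl.Block

/-!
# Polytabloids of the two-column shape `(2^x,1)` obey the relations of the block lemma
(row 195, helper86)
-/

set_option autoImplicit false

open scoped BigOperators
open Equiv

namespace Crest.Agent.Saxl

/-- The two-column shape with columns of heights `x + 1` and `x`. -/
def col2 (x : ℕ) : Finset (ℕ × ℕ) :=
  (Finset.range (x + 1) ×ˢ {0}) ∪ (Finset.range x ×ˢ {1})

theorem mem_col2 {x : ℕ} {c : ℕ × ℕ} : c ∈ col2 x ↔ (c.2 = 0 ∧ c.1 < x + 1) ∨ (c.2 = 1 ∧ c.1 < x) := by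
  simp only [col2, Finset.mem_union, Finset.mem_product, Finset.mem_range, Finset.mem_singleton]
  tauto

section Poly

variable {S : Type*} [Fintype S] [DecidableEq S] {D : Finset (ℕ × ℕ)}

theorem poly_comp_swap (t : D ≃ S) {p q : S} (hne : p ≠ q) (hcol : colOf t p = colOf t q)
    (w : S → ℕ) : poly t (w ∘ swap p q) = - poly t w := by
  have hs : swap p q ∈ stab (colOf t) := swap_mem_stab hcol
  have h := gact_symB_alt (fnRep S) (colOf t) (dlt (rowOf t)) hs
  rw [← poly_eq_gact, sgn_swap hne] at h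
  have := congrFun h w
  simpa using this

theorem poly_eq_zero_of_repeat (t : D ≃ S) {p q : S} (hne : p ≠ q) (hcol : colOf t p = colOf t q)
    {w : S → ℕ} (hw : w p = w q) : poly t w = 0 := by
  have h1 := poly_comp_swap t hne hcol w
  have h2 : w ∘ swap p q = w := by
    funext s
    simp only [Function.comp_apply, swap_apply_def]
    split_ifs with h3 h4
    · rw [h3, hw]
    · rw [h4, hw]
    · rfl
  rw [h2] at h1
  have h3 : (2 : ℂ) * poly t w = 0 := by linear_combination h1
  simpa using h3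

theorem exists_of_poly_ne_zero {t : D ≃ S} {w : S → ℕ} (h : poly t w ≠ 0) :
    ∃ σ ∈ stab (colOf t), w = rowOf t ∘ ⇑(σ⁻¹) := by
  by_contra hcon
  push Not at hcon
  apply h
  unfold poly
  refine Finset.sum_eq_zero fun σ hσ => ?_
  rw [if_neg (hcon σ hσ), mul_zero]

end Poly

section TwoCol

variable {S : Type} [Fintype S] [DecidableEq S] {x : ℕ}

theorem colOf_two (t : (col2 x) ≃ S) (s : S) : colOf t s = 0 ∨ colOf t s = 1 := by
  have h := mem_col2.mp (t.symm s).2
  rcases h with h | h
  · exact Or.inl h.1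
  · exact Or.inr h.1

/-- Letter multiplicities of a tableau word. -/
theorem cnt_rowOf (t : (col2 x) ≃ S) (a : ℕ) :
    cnt (rowOf t) a = if a < x then 2 else if a = x then 1 else 0 := by
  classical
  have h1 : cnt (rowOf t) a = ((col2 x).filter fun c => c.1 = a).card := by
    unfold cnt
    refine Finset.card_bij (fun s _ => (t.symm s).1) ?_ ?_ ?_
    · intro s hs
      simp only [Finset.mem_filter, Finset.mem_univ, true_and] at hs
      simp only [Finset.mem_filter]
      exact ⟨(t.symm s).2, hs⟩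
    · intro s _ s' _ h
      exact t.symm.injective (Subtype.ext h)
    · intro c hc
      simp only [Finset.mem_filter] at hc
      refine ⟨t ⟨c, hc.1⟩, ?_, by simp⟩
      rw [Finset.mem_filter]
      exact ⟨Finset.mem_univ _, by simpa [rowOf] using hc.2⟩
  rw [h1]
  split_ifs with h2 h3
  · have : ((col2 x).filter fun c => c.1 = a) = {(a, 0), (a, 1)} := by
      ext ⟨i, j⟩
      simp only [Finset.mem_filter, mem_col2, Finset.mem_insert, Finset.mem_singleton,
        Prod.mk.injEq]
      omega
    rw [this, Finset.card_pair]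
    simp
  · have : ((col2 x).filter fun c => c.1 = a) = {(a, 0)} := by
      ext ⟨i, j⟩
      simp only [Finset.mem_filter, mem_col2, Finset.mem_singleton, Prod.mk.injEq]
      omega
    rw [this, Finset.card_singleton]
  · rw [Finset.card_eq_zero, Finset.filter_eq_empty_iff]
    rintro ⟨i, j⟩ hc
    simp only [mem_col2] at hc
    simp only
    omega

theorem cnt_comp_perm (f : S → ℕ) (σ : Perm S) (a : ℕ) : cnt (f ∘ ⇑σ) a = cnt f a := by
  unfold cnt
  refine Finset.card_bij (fun s _ => σ s) ?_ ?_ ?_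
  · intro s hs
    simpa using hs
  · intro s _ s' _ h
    exact σ.injective h
  · intro s hs
    refine ⟨σ⁻¹ s, ?_, by simp⟩
    simpa using hs

theorem isL_of_poly_ne_zero {t : (col2 x) ≃ S} {w : S → ℕ} (h : poly t w ≠ 0) : IsL x w := by
  obtain ⟨σ, _, rfl⟩ := exists_of_poly_ne_zero h
  intro a
  rw [cnt_comp_perm, cnt_rowOf]

theorem col_zero_of_poly_ne_zero {t : (col2 x) ≃ S} {w : S → ℕ} (h : poly t w ≠ 0) {s : S}
    (hs : w s = x) : colOf t s = 0 := by
  obtain ⟨σ, hσ, rfl⟩ := exists_of_poly_ne_zero h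
  have h1 : colOf t ((σ⁻¹ : Perm S) s) = colOf t s := mem_stab.mp (inv_mem_stab hσ) s
  rw [← h1]
  have h2 := mem_col2.mp (t.symm ((σ⁻¹ : Perm S) s)).2
  have h3 : (t.symm ((σ⁻¹ : Perm S) s)).1.1 = x := hs
  unfold colOf
  omega

/-- Swapping two letters `< x` of the tableau word is realised by an even column permutation. -/
theorem exists_even_realisation (t : (col2 x) ≃ S) {a b : ℕ} (ha : a < x) (hb : b < x) (hab : a ≠ b) :
    ∃ τ ∈ stab (colOf t), sgn τ = 1 ∧ ∀ s, rowOf t (τ s) = Equiv.swap a b (rowOf t s) := by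
  classical
  let cell : (i : ℕ) → (e : ℕ) → (i < x) → (e = 0 ∨ e = 1) → (col2 x) := fun i e hi he =>
    ⟨(i, e), mem_col2.mpr (by rcases he with rfl | rfl <;> simp <;> omega)⟩
  let A₀ := t (cell a 0 ha (Or.inl rfl))
  let B₀ := t (cell b 0 hb (Or.inl rfl))
  let A₁ := t (cell a 1 ha (Or.inr rfl))
  let B₁ := t (cell b 1 hb (Or.inr rfl))
  have rA₀ : rowOf t A₀ = a := by simp [rowOf, A₀, cell]
  have rB₀ : rowOf t B₀ = b := by simp [rowOf, B₀, cell]
  have rA₁ : rowOf t A₁ = a := by simp [rowOf, A₁, cell]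
  have rB₁ : rowOf t B₁ = b := by simp [rowOf, B₁, cell]
  have cA₀ : colOf t A₀ = 0 := by simp [colOf, A₀, cell]
  have cB₀ : colOf t B₀ = 0 := by simp [colOf, B₀, cell]
  have cA₁ : colOf t A₁ = 1 := by simp [colOf, A₁, cell]
  have cB₁ : colOf t B₁ = 1 := by simp [colOf, B₁, cell]
  have n0 : A₀ ≠ B₀ := fun h => hab (by rw [← rA₀, h, rB₀])
  have n1 : A₁ ≠ B₁ := fun h => hab (by rw [← rA₁, h, rB₁])
  have hinj : ∀ s s', rowOf t s = rowOf t s' → colOf t s = colOf t s' → s = s' :=
    fun s s' h h' => rowOf_colOf_injective t (Prod.ext h h')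
  refine ⟨swap A₀ B₀ * swap A₁ B₁, ?_, ?_, ?_⟩
  · exact mul_mem_stab (swap_mem_stab (by rw [cA₀, cB₀])) (swap_mem_stab (by rw [cA₁, cB₁]))
  · rw [sgn_mul, sgn_swap n0, sgn_swap n1]
    norm_num
  · intro s
    simp only [Perm.mul_apply]
    by_cases h1 : s = A₀
    · subst h1
      have : swap A₁ B₁ A₀ = A₀ := swap_apply_of_ne_of_ne
        (fun h => by rw [h, cA₁] at cA₀; omega) (fun h => by rw [h, cB₁] at cA₀; omega)
      rw [this, swap_apply_left, rA₀, rB₀, swap_apply_left]
    by_cases h2 : s = B₀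
    · subst h2
      have : swap A₁ B₁ B₀ = B₀ := swap_apply_of_ne_of_ne
        (fun h => by rw [h, cA₁] at cB₀; omega) (fun h => by rw [h, cB₁] at cB₀; omega)
      rw [this, swap_apply_right, rA₀, rB₀, swap_apply_right]
    by_cases h3 : s = A₁
    · subst h3
      have : swap A₀ B₀ B₁ = B₁ := swap_apply_of_ne_of_ne
        (fun h => by rw [h, cA₀] at cB₁; omega) (fun h => by rw [h, cB₀] at cB₁; omega)
      rw [swap_apply_left, this, rA₁, rB₁, swap_apply_left]
    by_cases h4 : s = B₁
    · subst h4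
      have : swap A₀ B₀ A₁ = A₁ := swap_apply_of_ne_of_ne
        (fun h => by rw [h, cA₀] at cA₁; omega) (fun h => by rw [h, cB₀] at cA₁; omega)
      rw [swap_apply_right, this, rA₁, rB₁, swap_apply_right]
    rw [swap_apply_of_ne_of_ne h3 h4, swap_apply_of_ne_of_ne h1 h2]
    have hc := colOf_two t s
    have ha' : rowOf t s ≠ a := by
      intro h
      rcases hc with hc | hc
      · exact h1 (hinj _ _ (by rw [h, rA₀]) (by rw [hc, cA₀]))
      · exact h3 (hinj _ _ (by rw [h, rA₁]) (by rw [hc, cA₁]))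
    have hb' : rowOf t s ≠ b := by
      intro h
      rcases hc with hc | hc
      · exact h2 (hinj _ _ (by rw [h, rB₀]) (by rw [hc, cB₀]))
      · exact h4 (hinj _ _ (by rw [h, rB₁]) (by rw [hc, cB₁]))
    rw [swap_apply_of_ne_of_ne ha' hb']

/-- Swapping two letters `< x` does not change the polytabloid. -/
theorem poly_swapL (t : (col2 x) ≃ S) {a b : ℕ} (ha : a < x) (hb : b < x) (w : S → ℕ) :
    poly t (swapL a b w) = poly t w := by
  by_cases hab : a = b
  · subst hab
    have : swapL a a w = w := by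
      funext s
      simp [swapL]
    rw [this]
  obtain ⟨τ, hτ, hsg, hrow⟩ := exists_even_realisation t ha hb hab
  unfold poly
  rw [← sum_stab_mulRight _ (inv_mem_stab hτ)
    (fun σ => sgn σ * (if w = rowOf t ∘ ⇑(σ⁻¹) then (1 : ℂ) else 0))]
  refine Finset.sum_congr rfl fun σ _ => ?_
  have hs : sgn (σ * τ⁻¹) = sgn σ := by
    rw [sgn_mul, sgn_inv, hsg, mul_one]
  rw [hs]
  congr 2
  have e : rowOf t ∘ ⇑((σ * τ⁻¹)⁻¹) = swapL a b (rowOf t ∘ ⇑(σ⁻¹)) := by
    funext s
    simp [swapL, hrow, mul_inv_rev]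
  rw [e]
  have hinv : ∀ u : S → ℕ, swapL a b (swapL a b u) = u := by
    intro u
    funext s
    simp [swapL]
  have : (swapL a b w = rowOf t ∘ ⇑(σ⁻¹)) ↔ (w = swapL a b (rowOf t ∘ ⇑(σ⁻¹))) := by
    constructor
    · intro h
      rw [← h, hinv]
    · intro h
      rw [h, hinv]
  simp only [this]

theorem update_update_eq_comp_swap {w : S → ℕ} {q r : S} {a b : ℕ} (hq : w q = a) (hr : w r = b)
    (hqr : q ≠ r) :
    Function.update (Function.update w q b) r a = w ∘ swap q r := by
  funext z
  by_cases h1 : z = r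
  · subst h1
    simp [hq]
  by_cases h2 : z = q
  · subst h2
    simp [h1, hr]
  simp [Function.update_of_ne, h1, h2, swap_apply_of_ne_of_ne]

/-- The three-term relation for a two-column polytabloid. -/
theorem rel3_poly (t : (col2 x) ≃ S) : Rel3 x (poly t) := by
  intro w a b p q r s _ _ _ hab hpq hrs hwp hwq hwr hws
  have hqr : q ≠ r := fun h => hab (by rw [← hwq, h, hwr])
  have hqs : q ≠ s := fun h => hab (by rw [← hwq, h, hws])
  have hpr : p ≠ r := fun h => hab (by rw [← hwp, h, hwr])
  have hps : p ≠ s := fun h => hab (by rw [← hwp, h, hws])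
  rw [update_update_eq_comp_swap hwq hwr hqr]
  have e3 : Function.update (Function.update w q b) s a = w ∘ swap q s :=
    update_update_eq_comp_swap hwq hws hqs
  rw [e3]
  set W₂ := w ∘ swap q r with hW₂
  set W₃ := w ∘ swap q s with hW₃
  have v2p : W₂ p = a := by simp [hW₂, swap_apply_of_ne_of_ne hpq hpr, hwp]
  have v2r : W₂ r = a := by simp [hW₂, hwq]
  have v2q : W₂ q = b := by simp [hW₂, hwr]
  have v2s : W₂ s = b := by simp [hW₂, swap_apply_of_ne_of_ne hqs.symm hrs.symm, hws]
  have v3p : W₃ p = a := by simp [hW₃, swap_apply_of_ne_of_ne hpq hps, hwp]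
  have v3s : W₃ s = a := by simp [hW₃, hwq]
  have v3q : W₃ q = b := by simp [hW₃, hws]
  have v3r : W₃ r = b := by simp [hW₃, swap_apply_of_ne_of_ne hqr.symm hrs, hwr]
  have e23 : W₂ ∘ swap r s = W₃ := by
    funext z
    simp only [Function.comp_apply, hW₂, hW₃]
    by_cases h1 : z = r
    · subst h1
      simp [swap_apply_of_ne_of_ne hqs.symm hrs.symm, hws, hwr,
        swap_apply_of_ne_of_ne hqr.symm hrs]
    by_cases h2 : z = s
    · subst h2
      simp
    by_cases h3 : z = q
    · subst h3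
      simp [swap_apply_of_ne_of_ne hqr hqs, hwr, hws]
    simp [swap_apply_of_ne_of_ne h1 h2, swap_apply_of_ne_of_ne h3 h1, swap_apply_of_ne_of_ne h3 h2]
  by_cases h1 : colOf t p = colOf t q
  · have a1 : poly t w = 0 := poly_eq_zero_of_repeat t hpq h1 (by rw [hwp, hwq])
    by_cases h2 : colOf t r = colOf t s
    · have a2 : poly t W₃ = - poly t W₂ := by
        rw [← e23]
        exact poly_comp_swap t hrs h2 W₂
      rw [a1, a2]
      ring
    · have h3 : colOf t p = colOf t r ∨ colOf t p = colOf t s := by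
        have := colOf_two t p
        have := colOf_two t r
        have := colOf_two t s
        omega
      rcases h3 with h3 | h3
      · have a2 : poly t W₂ = 0 := poly_eq_zero_of_repeat t hpr h3 (by rw [v2p, v2r])
        have a3 : poly t W₃ = 0 :=
          poly_eq_zero_of_repeat t hqr (h1.symm.trans h3) (by rw [v3q, v3r])
        rw [a1, a2, a3]
        ring
      · have a2 : poly t W₃ = 0 := poly_eq_zero_of_repeat t hps h3 (by rw [v3p, v3s])
        have a3 : poly t W₂ = 0 :=
          poly_eq_zero_of_repeat t hqs (h1.symm.trans h3) (by rw [v2q, v2s])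
        rw [a1, a2, a3]
        ring
  · by_cases h2 : colOf t r = colOf t s
    · have a1 : poly t w = 0 := poly_eq_zero_of_repeat t hrs h2 (by rw [hwr, hws])
      have a2 : poly t W₃ = - poly t W₂ := by
        rw [← e23]
        exact poly_comp_swap t hrs h2 W₂
      rw [a1, a2]
      ring
    · have h3 : colOf t q = colOf t r ∨ colOf t q = colOf t s := by
        have := colOf_two t q
        have := colOf_two t r
        have := colOf_two t s
        omega
      rcases h3 with h3 | h3
      · have h4 : colOf t p = colOf t s := by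
          have := colOf_two t p
          have := colOf_two t q
          have := colOf_two t r
          have := colOf_two t s
          omega
        have a2 : poly t W₃ = 0 := poly_eq_zero_of_repeat t hps h4 (by rw [v3p, v3s])
        have a3 : poly t W₂ = - poly t w := poly_comp_swap t hqr h3 w
        rw [a2, a3]
        ring
      · have h4 : colOf t p = colOf t r := by
          have := colOf_two t p
          have := colOf_two t q
          have := colOf_two t r
          have := colOf_two t s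
          omega
        have a2 : poly t W₂ = 0 := poly_eq_zero_of_repeat t hpr h4 (by rw [v2p, v2r])
        have a3 : poly t W₃ = - poly t w := poly_comp_swap t hqs h3 w
        rw [a2, a3]
        ring

/-- The singleton relation for a two-column polytabloid. -/
theorem rel1_poly (t : (col2 x) ≃ S) : Rel1 x (poly t) := by
  intro w a p q r _ ha hpq hwp hwq hwr
  have hax : a ≠ x := by omega
  have hqr : q ≠ r := fun h => hax (by rw [← hwq, h, hwr])
  have hpr : p ≠ r := fun h => hax (by rw [← hwp, h, hwr])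
  rw [update_update_eq_comp_swap hwr hwq hqr.symm, update_update_eq_comp_swap hwr hwp hpr.symm]
  set W₂ := w ∘ swap r q with hW₂
  set W₃ := w ∘ swap r p with hW₃
  have v2p : W₂ p = a := by simp [hW₂, swap_apply_of_ne_of_ne hpr hpq, hwp]
  have v2r : W₂ r = a := by simp [hW₂, hwq]
  have v2q : W₂ q = x := by simp [hW₂, hwr]
  have v3q : W₃ q = a := by simp [hW₃, swap_apply_of_ne_of_ne hqr hpq.symm, hwq]
  have v3r : W₃ r = a := by simp [hW₃, hwp]
  have v3p : W₃ p = x := by simp [hW₃, hwr]
  have e23 : W₂ ∘ swap p q = W₃ := by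
    funext z
    simp only [Function.comp_apply, hW₂, hW₃]
    by_cases h1 : z = p
    · subst h1
      simp [hwr]
    by_cases h2 : z = q
    · subst h2
      simp [swap_apply_of_ne_of_ne hpr hpq, hwp, hwq, swap_apply_of_ne_of_ne hqr hpq.symm]
    by_cases h3 : z = r
    · subst h3
      simp [swap_apply_of_ne_of_ne hpr.symm hqr.symm, hwp, hwq]
    simp [swap_apply_of_ne_of_ne h1 h2, swap_apply_of_ne_of_ne h3 h1, swap_apply_of_ne_of_ne h3 h2]
  have col0 : ∀ {u : S → ℕ} {y : S}, u y = x → colOf t y = 1 → poly t u = 0 := by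
    intro u y hy hc
    by_contra hne
    have := col_zero_of_poly_ne_zero hne hy
    omega
  by_cases h1 : colOf t p = colOf t q
  · have a1 : poly t w = 0 := poly_eq_zero_of_repeat t hpq h1 (by rw [hwp, hwq])
    have a2 : poly t W₃ = - poly t W₂ := by
      rw [← e23]
      exact poly_comp_swap t hpq h1 W₂
    rw [a1, a2]
    ring
  · have hp := colOf_two t p
    have hq := colOf_two t q
    have hr := colOf_two t r
    rcases hp with hp | hp
    · have hq1 : colOf t q = 1 := by omega
      have a2 : poly t W₂ = 0 := col0 v2q hq1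
      rcases hr with hr | hr
      · have a3 : poly t W₃ = - poly t w :=
          poly_comp_swap t hpr.symm (by rw [hr, hp]) w
        rw [a2, a3]
        ring
      · have a1 : poly t w = 0 := col0 hwr hr
        have a3 : poly t W₃ = 0 :=
          poly_eq_zero_of_repeat t hqr (by rw [hq1, hr]) (by rw [v3q, v3r])
        rw [a1, a2, a3]
        ring
    · have hq0 : colOf t q = 0 := by omega
      have a2 : poly t W₃ = 0 := col0 v3p hp
      rcases hr with hr | hr
      · have a3 : poly t W₂ = - poly t w :=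
          poly_comp_swap t hqr.symm (by rw [hr, hq0]) w
        rw [a2, a3]
        ring
      · have a1 : poly t w = 0 := col0 hwr hr
        have a3 : poly t W₂ = 0 :=
          poly_eq_zero_of_repeat t hpr (by rw [hp, hr]) (by rw [v2p, v2r])
        rw [a1, a2, a3]
        ring

/-- The relations needed for the block lemma, as a predicate closed under linear combinations. -/
def BlockRel (x : ℕ) (F : Fn2 S) : Prop :=
  (∀ a b, a < x → b < x → ∀ w₁ w₂, F (swapL a b w₁) w₂ = F w₁ w₂) ∧
  (∀ a b, a < x → b < x → ∀ w₁ w₂, F w₁ (swapL a b w₂) = F w₁ w₂) ∧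
  (∀ w₁ w₂, ¬ (IsL x w₁ ∧ IsL x w₂) → F w₁ w₂ = 0) ∧
  (∀ w₂, Rel3 x (fun w₁ => F w₁ w₂)) ∧
  (∀ w₂, Rel1 x (fun w₁ => F w₁ w₂))

theorem blockRel_prod2 (t u : (col2 x) ≃ S) : BlockRel x (prod2 t u) := by
  refine ⟨?_, ?_, ?_, ?_, ?_⟩
  · intro a b ha hb w₁ w₂
    simp only [prod2, poly_swapL t ha hb]
  · intro a b ha hb w₁ w₂
    simp only [prod2, poly_swapL u ha hb]
  · intro w₁ w₂ h
    simp only [prod2]
    by_contra hne
    have h1 : poly t w₁ ≠ 0 := left_ne_zero_of_mul hne
    have h2 : poly u w₂ ≠ 0 := right_ne_zero_of_mul hne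
    exact h ⟨isL_of_poly_ne_zero h1, isL_of_poly_ne_zero h2⟩
  · intro w₂ w a b p q r s h1 h2 h3 h4 h5 h6 h7 h8 h9 h10
    have := rel3_poly t w a b p q r s h1 h2 h3 h4 h5 h6 h7 h8 h9 h10
    simp only [prod2]
    linear_combination (poly u w₂) * this
  · intro w₂ w a p q r h1 h2 h3 h4 h5 h6
    have := rel1_poly t w a p q r h1 h2 h3 h4 h5 h6
    simp only [prod2]
    linear_combination (poly u w₂) * this

theorem blockRel_of_mem_XX {F : Fn2 S} (hF : F ∈ XX S (col2 x) (col2 x)) : BlockRel x F := by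
  induction hF using Submodule.span_induction with
  | mem y hy =>
    obtain ⟨p, rfl⟩ := hy
    exact blockRel_prod2 p.1 p.2
  | zero =>
    refine ⟨?_, ?_, ?_, ?_, ?_⟩
    · intro a b _ _ w₁ w₂
      rfl
    · intro a b _ _ w₁ w₂
      rfl
    · intro w₁ w₂ _
      rfl
    · intro w₂ w a b p q r s _ _ _ _ _ _ _ _ _ _
      simp
    · intro w₂ w a p q r _ _ _ _ _ _
      simp
  | add y z _ _ hy hz =>
    obtain ⟨a1, a2, a3, a4, a5⟩ := hy
    obtain ⟨b1, b2, b3, b4, b5⟩ := hz
    refine ⟨?_, ?_, ?_, ?_, ?_⟩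
    · intro a b ha hb w₁ w₂
      simp only [Pi.add_apply, a1 a b ha hb, b1 a b ha hb]
    · intro a b ha hb w₁ w₂
      simp only [Pi.add_apply, a2 a b ha hb, b2 a b ha hb]
    · intro w₁ w₂ h
      simp only [Pi.add_apply, a3 w₁ w₂ h, b3 w₁ w₂ h, add_zero]
    · intro w₂ w a b p q r s h1 h2 h3 h4 h5 h6 h7 h8 h9 h10
      have e1 := a4 w₂ w a b p q r s h1 h2 h3 h4 h5 h6 h7 h8 h9 h10
      have e2 := b4 w₂ w a b p q r s h1 h2 h3 h4 h5 h6 h7 h8 h9 h10
      simp only [Pi.add_apply]
      linear_combination e1 + e2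
    · intro w₂ w a p q r h1 h2 h3 h4 h5 h6
      have e1 := a5 w₂ w a p q r h1 h2 h3 h4 h5 h6
      have e2 := b5 w₂ w a p q r h1 h2 h3 h4 h5 h6
      simp only [Pi.add_apply]
      linear_combination e1 + e2
  | smul c y _ hy =>
    obtain ⟨a1, a2, a3, a4, a5⟩ := hy
    refine ⟨?_, ?_, ?_, ?_, ?_⟩
    · intro a b ha hb w₁ w₂
      simp only [Pi.smul_apply, a1 a b ha hb]
    · intro a b ha hb w₁ w₂
      simp only [Pi.smul_apply, a2 a b ha hb]
    · intro w₁ w₂ h
      simp only [Pi.smul_apply, a3 w₁ w₂ h, smul_zero]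
    · intro w₂ w a b p q r s h1 h2 h3 h4 h5 h6 h7 h8 h9 h10
      have e1 := a4 w₂ w a b p q r s h1 h2 h3 h4 h5 h6 h7 h8 h9 h10
      simp only [Pi.smul_apply, smul_eq_mul]
      linear_combination c * e1
    · intro w₂ w a p q r h1 h2 h3 h4 h5 h6
      have e1 := a5 w₂ w a p q r h1 h2 h3 h4 h5 h6
      simp only [Pi.smul_apply, smul_eq_mul]
      linear_combination c * e1

/-- **Block visibility**: a nonzero element of the block space is nonzero on a pair with zigzag
table. -/
theorem exists_zig_ne_zero {F : Fn2 S} (hF : F ∈ XX S (col2 x) (col2 x)) (hne : F ≠ 0) :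
    ∃ w₁ w₂, Zig x (2 * x + 1) w₁ w₂ ∧ F w₁ w₂ ≠ 0 := by
  obtain ⟨a1, a2, a3, a4, a5⟩ := blockRel_of_mem_XX hF
  refine block_lemma a1 a2 ?_ a4 a5 ?_
  · intro w₁ w₂ h
    by_contra hcon
    exact h (a3 w₁ w₂ hcon)
  · by_contra hcon
    push Not at hcon
    apply hne
    funext w₁ w₂
    exact hcon w₁ w₂

end TwoCol

end Crest.Agent.Saxl
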